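import Vale.Agent.Lib.P162.Bits

/-! The operator attached to the shuffle law, in an arbitrary orthogonal representation. -/

namespace Vale.Agent.Lib.P162

open Equiv NormedSpace

set_option linter.unusedSectionVars false

variable {E : Type*} [NormedAddCommGroup E] [InnerProductSpace ℝ E]

variable {d : ℕ}

/-- The averaging operator of a law: the adjoint of the group algebra element of the law. -/
noncomputable def avgOp {P : Type*} [Fintype P] [DecidableEq P] (π₀ : Perm P →* (E →L[ℝ] E))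
    (q : Perm P → ℝ) : E →L[ℝ] E :=
  ∑ g, q g • π₀ g⁻¹

theorem avgOp_thorp_sum (π₀ : Perm (Fin (2 * 2 ^ d)) →* (E →L[ℝ] E)) :
    avgOp π₀ (thorpLaw (2 ^ d))
      = ((2 : ℝ) ^ (2 ^ d))⁻¹ • ∑ c : Fin (2 ^ d) → Bool, π₀ (thorpPerm d c)⁻¹ := by
  unfold avgOp
  have h1 : ∀ g : Perm (Fin (2 * 2 ^ d)), thorpLaw (2 ^ d) g • π₀ g⁻¹
      = ((2 : ℝ) ^ (2 ^ d))⁻¹ •
        ∑ c : Fin (2 ^ d) → Bool, (if g = thorpPerm d c then π₀ g⁻¹ else 0) := by
    intro g
    rw [thorpLaw_eq, div_eq_inv_mul, mul_smul]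
    congr 1
    rw [Finset.card_filter]
    push_cast
    rw [Finset.sum_smul]
    refine Finset.sum_congr rfl (fun c _ => ?_)
    split_ifs <;> simp
  simp only [h1]
  rw [← Finset.smul_sum, Finset.sum_comm]
  congr 1
  refine Finset.sum_congr rfl (fun c _ => ?_)
  simp

/-- The shuffle operator in cube coordinates. -/
theorem avgOp_thorp (π₀ : Perm (Fin (2 * 2 ^ d)) →* (E →L[ℝ] E)) :
    avgOp π₀ (thorpLaw (2 ^ d))
      = congrRep (encTop d).symm π₀ (rot d)⁻¹ * Tdir (congrRep (encTop d).symm π₀) 0 := by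
  set π := congrRep (encTop d).symm π₀ with hπ
  rw [Tdir_zero, avgOp_thorp_sum]
  unfold T0
  rw [mul_smul_comm, Finset.mul_sum]
  have hcard : (Fintype.card (Cube d → Bool) : ℝ) = (2 : ℝ) ^ (2 ^ d) := by
    rw [Fintype.card_fun, Fintype.card_bool, card_cube]
    push_cast
    rfl
  rw [hcard]
  congr 1
  have hterm : ∀ c : Cube d → Bool, π (rot d)⁻¹ * congrRep (consE d) π (flipPerm c)
      = π (flipC d c * rot d)⁻¹ := by
    intro c
    rw [mul_inv_rev, flipC_inv, map_mul]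
    rfl
  simp only [hterm]
  have hre := Equiv.sum_comp ((encLow d).arrowCongr (Equiv.refl Bool))
    (fun c : Cube d → Bool => π (flipC d c * rot d)⁻¹)
  rw [← hre]
  refine Finset.sum_congr rfl (fun c _ => ?_)
  have h2 : thorpPerm d c = (encTop d).symm.permCongrHom (flipC d (c ∘ (encLow d).symm) * rot d) :=
    rfl
  rw [h2, ← map_inv]
  rfl

theorem avgOp_pow (π₀ : Perm (Fin (2 * 2 ^ d)) →* (E →L[ℝ] E)) :
    (avgOp π₀ (thorpLaw (2 ^ d))) ^ (d + 1) = Rop (d + 1) (congrRep (encTop d).symm π₀) := by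
  rw [avgOp_thorp, power_eq_Rop]

/-- The energy majorant for the shuffle operator. -/
theorem thorp_majorant [CompleteSpace E] {π₀ : Perm (Fin (2 * 2 ^ d)) →* (E →L[ℝ] E)}
    (hπ : IsOrth π₀) (k : ℕ) (u : E) :
    ‖((avgOp π₀ (thorpLaw (2 ^ d))) ^ ((d + 1) * k)) u‖ ^ 2
      ≤ inner ℝ u (exp ((-((k : ℝ) * tseq (d + 1))) • Lhat π₀) u) := by
  rw [pow_mul, avgOp_pow]
  have h := main_iter (d + 1) (isOrth_congrRep (encTop d).symm hπ) k u
  rwa [Lhat_congrRep] at h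

/-- The same with a simple exponent, in finite dimensions. -/
theorem thorp_majorant' [CompleteSpace E] [FiniteDimensional ℝ E]
    {π₀ : Perm (Fin (2 * 2 ^ d)) →* (E →L[ℝ] E)} (hπ : IsOrth π₀) (k : ℕ) (u : E) :
    ‖((avgOp π₀ (thorpLaw (2 ^ d))) ^ ((d + 1) * k)) u‖ ^ 2
      ≤ inner ℝ u (exp ((-((k : ℝ) / 36)) • Lhat π₀) u) := by
  refine (thorp_majorant hπ k u).trans ?_
  refine inner_exp_neg_mono (symOp_Lhat hπ) (psdOp_Lhat hπ) ?_ u
  have h := tseq_lower (d + 1)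
  have hk : (0 : ℝ) ≤ k := Nat.cast_nonneg k
  calc (k : ℝ) / 36 = (k : ℝ) * (1 / 36) := by ring
    _ ≤ (k : ℝ) * tseq (d + 1) := mul_le_mul_of_nonneg_left h hk

end Vale.Agent.Lib.P162
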