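import Vale.Agent.Lib.P162.Net

/-! The direction averages on the cube, and the identification of powers of one shuffle operator
with the recursive network. -/

namespace Vale.Agent.Lib.P162

open Equiv

set_option linter.unusedSectionVars false

variable {E : Type*} [NormedAddCommGroup E] [InnerProductSpace ℝ E]

section bits

variable {D : ℕ}

/-- Toggle coordinate `i`. -/
def toggle (i : Fin D) (x : Cube D) : Cube D := Function.update x i (!x i)

/-- Clear coordinate `i`. -/
def clearBit (i : Fin D) (x : Cube D) : Cube D := Function.update x i false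

theorem clearBit_toggle (i : Fin D) (x : Cube D) : clearBit i (toggle i x) = clearBit i x := by
  simp [clearBit, toggle]

theorem toggle_toggle (i : Fin D) (x : Cube D) : toggle i (toggle i x) = x := by
  simp [toggle]

/-- Flips of coordinate `i`, controlled by a coin function of the other coordinates. -/
def flipAt (i : Fin D) (c : Cube D → Bool) : Perm (Cube D) where
  toFun x := if c (clearBit i x) then toggle i x else x
  invFun x := if c (clearBit i x) then toggle i x else x
  left_inv := by
    intro x
    by_cases h : c (clearBit i x)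
    · simp [h, clearBit_toggle, toggle_toggle]
    · simp [h]
  right_inv := by
    intro x
    by_cases h : c (clearBit i x)
    · simp [h, clearBit_toggle, toggle_toggle]
    · simp [h]

theorem flipAt_apply (i : Fin D) (c : Cube D → Bool) (x : Cube D) :
    flipAt i c x = if c (clearBit i x) then toggle i x else x := rfl

/-- The average over all flips of coordinate `i`. -/
noncomputable def Tdir (π : Perm (Cube D) →* (E →L[ℝ] E)) (i : Fin D) : E →L[ℝ] E :=
  ((Fintype.card (Cube D → Bool) : ℝ)⁻¹) • ∑ c : Cube D → Bool, π (flipAt i c)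

end bits

section rotation

variable {d : ℕ}

/-- Rotation of the coordinates of the cube. -/
def rot (d : ℕ) : Perm (Cube (d + 1)) where
  toFun x := fun j => x (j - 1)
  invFun x := fun j => x (j + 1)
  left_inv := by
    intro x
    funext j
    simp
  right_inv := by
    intro x
    funext j
    simp

theorem rot_apply (x : Cube (d + 1)) (j : Fin (d + 1)) : rot d x j = x (j - 1) := rfl

theorem rot_update (x : Cube (d + 1)) (i : Fin (d + 1)) (b : Bool) :
    rot d (Function.update x i b) = Function.update (rot d x) (i + 1) b := by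
  funext j
  rw [rot_apply]
  by_cases h : j = i + 1
  · subst h
    simp
  · have h2 : j - 1 ≠ i := by
      intro h3
      apply h
      rw [← h3]
      simp
    rw [Function.update_of_ne h2, Function.update_of_ne h, rot_apply]

theorem rot_toggle (x : Cube (d + 1)) (i : Fin (d + 1)) :
    rot d (toggle i x) = toggle (i + 1) (rot d x) := by
  unfold toggle
  rw [rot_update, rot_apply]
  simp

theorem rot_clearBit (x : Cube (d + 1)) (i : Fin (d + 1)) :
    rot d (clearBit i x) = clearBit (i + 1) (rot d x) := by
  unfold clearBit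
  rw [rot_update]

theorem rot_mul_flipAt (i : Fin (d + 1)) (c : Cube (d + 1) → Bool) :
    rot d * flipAt i c = flipAt (i + 1) (c ∘ (rot d).symm) * rot d := by
  ext1 x
  change rot d (flipAt i c x) = flipAt (i + 1) (c ∘ (rot d).symm) (rot d x)
  rw [flipAt_apply, flipAt_apply, ← rot_clearBit]
  simp only [Function.comp, Equiv.symm_apply_apply]
  by_cases h : c (clearBit i x)
  · simp [h, rot_toggle]
  · simp [h]

theorem pi_rot_mul_Tdir (π : Perm (Cube (d + 1)) →* (E →L[ℝ] E)) (i : Fin (d + 1)) :
    π (rot d) * Tdir π i = Tdir π (i + 1) * π (rot d) := by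
  unfold Tdir
  rw [mul_smul_comm, smul_mul_assoc]
  congr 1
  rw [Finset.mul_sum, Finset.sum_mul]
  have h := Equiv.sum_comp ((rot d).arrowCongr (Equiv.refl Bool))
    (fun c : Cube (d + 1) → Bool => π (flipAt (i + 1) c) * π (rot d))
  rw [← h]
  refine Finset.sum_congr rfl (fun c _ => ?_)
  rw [← map_mul, ← map_mul, rot_mul_flipAt]
  rfl

/-- Natural number indices modulo the dimension. -/
def idx (d k : ℕ) : Fin (d + 1) := ⟨k % (d + 1), Nat.mod_lt _ (by omega)⟩

theorem idx_zero : idx d 0 = 0 := by
  apply Fin.ext
  simp [idx]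

theorem idx_succ (k : ℕ) : idx d (k + 1) = idx d k + 1 := by
  apply Fin.ext
  simp [idx, Fin.val_add]

theorem idx_self : idx d (d + 1) = 0 := by
  apply Fin.ext
  simp [idx]

theorem idx_val (i : Fin (d + 1)) : idx d i.val = i := by
  apply Fin.ext
  simp [idx, Nat.mod_eq_of_lt i.isLt]

theorem rot_pow_apply (k : ℕ) (x : Cube (d + 1)) (j : Fin (d + 1)) :
    ((rot d) ^ k) x j = x (j - idx d k) := by
  induction k generalizing x with
  | zero => simp [idx_zero]
  | succ k ih =>
    rw [pow_succ]
    change ((rot d) ^ k) (rot d x) j = _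
    rw [ih, rot_apply, idx_succ, sub_sub]

theorem rot_pow_card : (rot d) ^ (d + 1) = 1 := by
  ext1 x
  funext j
  rw [rot_pow_apply, idx_self]
  simp

end rotation

section products

/-- Ordered product: the highest index on the left, index zero on the right. -/
def PrT {A : Type*} [Monoid A] : (D : ℕ) → (Fin D → A) → A
  | 0, _ => 1
  | D + 1, T => PrT D (fun i => T i.succ) * T 0

/-- The same product with natural number indices, built from the left. -/
def HT {A : Type*} [Monoid A] : ℕ → (ℕ → A) → A
  | 0, _ => 1
  | k + 1, F => F k * HT k F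

theorem HT_succ' {A : Type*} [Monoid A] (k : ℕ) (F : ℕ → A) :
    HT (k + 1) F = HT k (fun m => F (m + 1)) * F 0 := by
  induction k with
  | zero => simp [HT]
  | succ k ih =>
    have h1 : HT (k + 1 + 1) F = F (k + 1) * HT (k + 1) F := rfl
    have h2 : HT (k + 1) (fun m => F (m + 1)) = F (k + 1) * HT k (fun m => F (m + 1)) := rfl
    rw [h1, h2, ih, mul_assoc]

theorem PrT_eq_HT {A : Type*} [Monoid A] (D : ℕ) (F : ℕ → A) :
    PrT D (fun i : Fin D => F i.val) = HT D F := by
  induction D generalizing F with
  | zero => rfl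
  | succ D ih =>
    have h1 : PrT (D + 1) (fun i : Fin (D + 1) => F i.val)
        = PrT D (fun i : Fin D => F (i.val + 1)) * F 0 := rfl
    rw [h1, HT_succ']
    congr 1
    exact ih (fun m => F (m + 1))

/-- Splitting a product of commuting factors. -/
theorem PrT_mul {A : Type*} [Monoid A] (D : ℕ) (T U : Fin D → A)
    (hc : ∀ i j, Commute (T i) (U j)) :
    PrT D (fun i => T i * U i) = PrT D U * PrT D T := by
  induction D with
  | zero => simp [PrT]
  | succ D ih =>
    change PrT D (fun i => T i.succ * U i.succ) * (T 0 * U 0)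
      = (PrT D (fun i => U i.succ) * U 0) * (PrT D (fun i => T i.succ) * T 0)
    rw [ih (fun i => T i.succ) (fun i => U i.succ) (fun i j => hc _ _)]
    have hU0 : ∀ (D' : ℕ) (T' : Fin D' → A), (∀ i, Commute (T' i) (U 0)) →
        Commute (PrT D' T') (U 0) := by
      intro D' T' h'
      induction D' with
      | zero => exact Commute.one_left _
      | succ D' ih' =>
        exact (ih' (fun i => T' i.succ) (fun i => h' _)).mul_left (h' 0)
    have h1 : Commute (PrT D (fun i => T i.succ)) (U 0) := hU0 _ _ (fun i => hc _ _)
    have h2 : Commute (T 0) (U 0) := hc _ _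
    calc PrT D (fun i => U i.succ) * PrT D (fun i => T i.succ) * (T 0 * U 0)
        = PrT D (fun i => U i.succ) * (PrT D (fun i => T i.succ) * T 0 * U 0) := by
          simp only [mul_assoc]
      _ = PrT D (fun i => U i.succ) * (U 0 * (PrT D (fun i => T i.succ) * T 0)) := by
          rw [(h1.mul_left h2).eq]
      _ = _ := by simp only [mul_assoc]

end products

section powers

variable {d : ℕ}

/-- Conjugation of the lowest direction average by powers of the rotation. -/
theorem pi_rot_pow_mul_Tdir (π : Perm (Cube (d + 1)) →* (E →L[ℝ] E)) (k : ℕ) :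
    π ((rot d) ^ k) * Tdir π 0 = Tdir π (idx d k) * π ((rot d) ^ k) := by
  induction k with
  | zero => simp [idx_zero]
  | succ k ih =>
    rw [pow_succ', map_mul, mul_assoc, ih, ← mul_assoc, pi_rot_mul_Tdir, mul_assoc, idx_succ]

/-- Powers of the one-step operator. -/
theorem power_identity (π : Perm (Cube (d + 1)) →* (E →L[ℝ] E)) :
    (π (rot d)⁻¹ * Tdir π 0) ^ (d + 1) = PrT (d + 1) (Tdir π) := by
  set r := π (rot d)⁻¹ * Tdir π 0 with hr
  let F : ℕ → (E →L[ℝ] E) := fun m => Tdir π (idx d m)
  have key : ∀ k : ℕ, π ((rot d) ^ k) * r ^ k = HT k F := by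
    intro k
    induction k with
    | zero => simp [HT]
    | succ k ih =>
      have h1 : HT (k + 1) F = F k * HT k F := rfl
      rw [h1, ← ih, pow_succ' r k, hr, pow_succ (rot d) k, map_mul]
      have h2 : π ((rot d) ^ k) * π (rot d) * (π (rot d)⁻¹ * Tdir π 0 * r ^ k)
          = π ((rot d) ^ k) * (π (rot d) * π (rot d)⁻¹) * Tdir π 0 * r ^ k := by
        simp only [mul_assoc]
      rw [h2, ← map_mul π (rot d), mul_inv_cancel, map_one, mul_one, pi_rot_pow_mul_Tdir]
      simp only [mul_assoc, F]
      rfl
  have h := key (d + 1)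
  rw [rot_pow_card, map_one, one_mul] at h
  rw [h, ← PrT_eq_HT]
  congr 1
  funext i
  simp only [F, idx_val]

end powers

section recursion

variable {d : ℕ}

/-- The coin functions on the two sides. -/
def coinSplit (d : ℕ) : (Cube (d + 1) → Bool) ≃ (Cube d → Bool) × (Cube d → Bool) where
  toFun c := (fun y => c (Fin.cons false y), fun y => c (Fin.cons true y))
  invFun p := fun x => if x 0 then p.2 (Fin.tail x) else p.1 (Fin.tail x)
  left_inv := by
    intro c
    funext x
    have hx : x = Fin.cons (x 0) (Fin.tail x) := (Fin.cons_self_tail x).symm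
    by_cases h : x 0
    · simp only [h, if_true]
      rw [← h]
      exact congrArg c (Fin.cons_self_tail x)
    · have h' : x 0 = false := by simpa using h
      simp only [h', Bool.false_eq_true, if_false]
      rw [← h']
      exact congrArg c (Fin.cons_self_tail x)
  right_inv := by
    rintro ⟨a, b⟩
    simp

theorem clearBit_succ_cons (i : Fin d) (s : Bool) (y : Cube d) :
    clearBit i.succ (Fin.cons s y : Cube (d + 1)) = Fin.cons s (clearBit i y) := by
  unfold clearBit
  rw [Fin.cons_update]

theorem toggle_succ_cons (i : Fin d) (s : Bool) (y : Cube d) :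
    toggle i.succ (Fin.cons s y : Cube (d + 1)) = Fin.cons s (toggle i y) := by
  unfold toggle
  rw [Fin.cons_succ, Fin.cons_update]

theorem clearBit_zero_cons (s : Bool) (y : Cube d) :
    clearBit (0 : Fin (d + 1)) (Fin.cons s y : Cube (d + 1)) = Fin.cons false y := by
  unfold clearBit
  rw [Fin.update_cons_zero]

theorem toggle_zero_cons (s : Bool) (y : Cube d) :
    toggle (0 : Fin (d + 1)) (Fin.cons s y : Cube (d + 1)) = Fin.cons (!s) y := by
  unfold toggle
  rw [Fin.cons_zero, Fin.update_cons_zero]

/-- Flips of a higher coordinate split over the two sides. -/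
theorem flipAt_succ (i : Fin d) (c : Cube (d + 1) → Bool) :
    flipAt i.succ c = (consE d).permCongr
      (side false (flipAt i (coinSplit d c).1) * side true (flipAt i (coinSplit d c).2)) := by
  ext1 x
  obtain ⟨s, y, rfl⟩ : ∃ s y, x = (Fin.cons s y : Cube (d + 1)) :=
    ⟨x 0, Fin.tail x, (Fin.cons_self_tail x).symm⟩
  rw [Equiv.permCongr_apply]
  have h1 : (consE d).symm (Fin.cons s y : Cube (d + 1)) = (s, y) := by
    rw [Equiv.symm_apply_eq]; rfl
  rw [h1, flipAt_apply, clearBit_succ_cons, toggle_succ_cons]
  change _ = consE d (side false (flipAt i (coinSplit d c).1) (side true (flipAt i (coinSplit d c).2) (s, y)))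
  cases s
  · simp only [side_apply, Bool.false_eq_true, if_false, if_true, consE_apply]
    rw [flipAt_apply]
    simp only [coinSplit, Equiv.coe_fn_mk]
    by_cases h : c (Fin.cons false (clearBit i y)) <;> simp [h]
  · simp only [side_apply, if_false, if_true, consE_apply, Bool.true_eq_false]
    rw [flipAt_apply]
    simp only [coinSplit, Equiv.coe_fn_mk]
    by_cases h : c (Fin.cons true (clearBit i y)) <;> simp [h]

/-- Flips of the lowest coordinate. -/
theorem flipAt_zero (c : Cube (d + 1) → Bool) :
    flipAt (0 : Fin (d + 1)) c = (consE d).permCongr (flipPerm (coinSplit d c).1) := by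
  ext1 x
  obtain ⟨s, y, rfl⟩ : ∃ s y, x = (Fin.cons s y : Cube (d + 1)) :=
    ⟨x 0, Fin.tail x, (Fin.cons_self_tail x).symm⟩
  rw [Equiv.permCongr_apply]
  have h1 : (consE d).symm (Fin.cons s y : Cube (d + 1)) = (s, y) := by
    rw [Equiv.symm_apply_eq]; rfl
  rw [h1, flipAt_apply, clearBit_zero_cons, toggle_zero_cons, flipPerm_apply, consE_apply]
  simp only [coinSplit, Equiv.coe_fn_mk]
  cases s <;> cases h : c (Fin.cons false y) <;> simp

theorem card_coin_succ (d : ℕ) :
    (Fintype.card (Cube (d + 1) → Bool) : ℝ)
      = (Fintype.card (Cube d → Bool) : ℝ) * (Fintype.card (Cube d → Bool) : ℝ) := by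
  rw [Fintype.card_congr (coinSplit d), Fintype.card_prod]
  push_cast
  rfl

theorem coin_card_pos (d : ℕ) : (0 : ℝ) < (Fintype.card (Cube d → Bool) : ℝ) := by
  have : 0 < Fintype.card (Cube d → Bool) := Fintype.card_pos
  exact_mod_cast this

/-- The recursion for direction averages at a higher coordinate. -/
theorem Tdir_succ (π : Perm (Cube (d + 1)) →* (E →L[ℝ] E)) (i : Fin d) :
    Tdir π i.succ = Tdir ((congrRep (consE d) π).comp (side false)) i
      * Tdir ((congrRep (consE d) π).comp (side true)) i := by
  unfold Tdir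
  rw [card_coin_succ, smul_mul_smul_comm, mul_inv, Finset.sum_mul_sum]
  congr 1
  rw [← Equiv.sum_comp (coinSplit d).symm, Fintype.sum_prod_type]
  refine Finset.sum_congr rfl (fun a _ => Finset.sum_congr rfl (fun b _ => ?_))
  rw [flipAt_succ, Equiv.apply_symm_apply]
  simp only [MonoidHom.comp_apply]
  rw [← map_mul]
  rfl

/-- The direction average at the lowest coordinate is the flip average. -/
theorem Tdir_zero (π : Perm (Cube (d + 1)) →* (E →L[ℝ] E)) :
    Tdir π 0 = T0 (congrRep (consE d) π) := by
  unfold Tdir T0
  rw [card_coin_succ, ← Equiv.sum_comp (coinSplit d).symm, Fintype.sum_prod_type]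
  have h : ∀ (a b : Cube d → Bool), π (flipAt (0 : Fin (d + 1)) ((coinSplit d).symm (a, b)))
      = congrRep (consE d) π (flipPerm a) := by
    intro a b
    rw [flipAt_zero, Equiv.apply_symm_apply]
    rfl
  simp only [h]
  have h2 : ∀ a : Cube d → Bool, ∑ _b : Cube d → Bool, congrRep (consE d) π (flipPerm a)
      = (Fintype.card (Cube d → Bool) : ℝ) • congrRep (consE d) π (flipPerm a) := by
    intro a
    rw [Finset.sum_const, Finset.card_univ, Nat.cast_smul_eq_nsmul]
  simp only [h2]
  rw [← Finset.smul_sum, smul_smul]
  have hc := (coin_card_pos d).ne'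
  congr 1
  field_simp

/-- Two direction averages on opposite sides commute. -/
theorem commute_Tdir_sides (π : Perm (Bool × Cube d) →* (E →L[ℝ] E)) (i j : Fin d) :
    Commute (Tdir (π.comp (side false)) i) (Tdir (π.comp (side true)) j) := by
  unfold Tdir
  refine (Commute.smul_left ?_ _).smul_right _
  refine Commute.sum_left _ _ _ (fun a _ => Commute.sum_right _ _ _ (fun b _ => ?_))
  exact (commute_side_pi (π := π) _ _).symm

/-- The recursive network is the ordered product of the direction averages. -/
theorem Rop_eq_PrT (d : ℕ) (π : Perm (Cube d) →* (E →L[ℝ] E)) :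
    Rop d π = PrT d (Tdir π) := by
  induction d with
  | zero => rfl
  | succ d ih =>
    have h1 : PrT (d + 1) (Tdir π) = PrT d (fun i => Tdir π i.succ) * Tdir π 0 := rfl
    have h2 : Rop (d + 1) π = Rop d ((congrRep (consE d) π).comp (side true)) *
      Rop d ((congrRep (consE d) π).comp (side false)) * T0 (congrRep (consE d) π) := rfl
    rw [h1, h2, Tdir_zero, ih, ih]
    congr 1
    simp only [Tdir_succ]
    rw [PrT_mul]
    exact fun i j => commute_Tdir_sides _ i j

/-- The main identification. -/
theorem power_eq_Rop (π : Perm (Cube (d + 1)) →* (E →L[ℝ] E)) :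
    (π (rot d)⁻¹ * Tdir π 0) ^ (d + 1) = Rop (d + 1) π := by
  rw [power_identity, Rop_eq_PrT]

end recursion

end Vale.Agent.Lib.P162
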