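import Vale.Agent.Lib.P162.Defs
import Vale.Agent.Lib.P162.Dir

/-! Binary expansion of positions and the shuffle in binary coordinates. -/

namespace Vale.Agent.Lib.P162

open Equiv

set_option linter.unusedSectionVars false

/-- The binary digits of a number as a point of the cube. -/
def bitsOf (D : ℕ) (x : ℕ) : Cube D := fun j => x.testBit j.val

theorem bitsOf_injective {D x y : ℕ} (hx : x < 2 ^ D) (hy : y < 2 ^ D)
    (h : bitsOf D x = bitsOf D y) : x = y := by
  apply Nat.eq_of_testBit_eq
  intro j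
  by_cases hj : j < D
  · exact congrFun h ⟨j, hj⟩
  · have h2 : 2 ^ D ≤ 2 ^ j := Nat.pow_le_pow_right (by norm_num) (by omega)
    rw [Nat.testBit_eq_false_of_lt (lt_of_lt_of_le hx h2),
      Nat.testBit_eq_false_of_lt (lt_of_lt_of_le hy h2)]

/-- Positions as points of the cube. -/
noncomputable def encE {N D : ℕ} (hN : N = 2 ^ D) : Fin N ≃ Cube D :=
  Equiv.ofBijective (fun x => bitsOf D x.val) (by
    rw [Fintype.bijective_iff_injective_and_card]
    constructor
    · intro x y h
      apply Fin.ext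
      exact bitsOf_injective (hN ▸ x.isLt) (hN ▸ y.isLt) h
    · simp [hN])

theorem encE_apply {N D : ℕ} (hN : N = 2 ^ D) (x : Fin N) : encE hN x = bitsOf D x.val := rfl

variable {d : ℕ}

theorem two_mul_pow (d : ℕ) : 2 * 2 ^ d = 2 ^ (d + 1) := by
  rw [pow_succ]; ring

/-- Deck positions as points of the cube. -/
noncomputable abbrev encTop (d : ℕ) : Fin (2 * 2 ^ d) ≃ Cube (d + 1) := encE (two_mul_pow d)

/-- Low coordinates. -/
noncomputable abbrev encLow (d : ℕ) : Fin (2 ^ d) ≃ Cube d := encE rfl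

/-- The residue of a position modulo the half deck. -/
def lowPart (x : Fin (2 * 2 ^ d)) : Fin (2 ^ d) :=
  ⟨x.val % 2 ^ d, Nat.mod_lt _ (by positivity)⟩

theorem testBit_two_mul_add (y b j : ℕ) (hb : b < 2) :
    (2 * y + b).testBit (j + 1) = y.testBit j := by
  rw [Nat.testBit_succ]
  congr 1
  omega

theorem testBit_two_mul_add_zero (y b : ℕ) (hb : b < 2) :
    (2 * y + b).testBit 0 = decide (b = 1) := by
  rw [Nat.testBit_zero]
  have : (2 * y + b) % 2 = b := by omega
  rw [this]

theorem bitsOf_thorp (c : Fin (2 ^ d) → Bool) (x : Fin (2 * 2 ^ d)) :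
    bitsOf (d + 1) (thorpMap (2 ^ d) c x).val
      = Fin.cons (xor (x.val.testBit d) (c (lowPart x))) (bitsOf d (lowPart x).val) := by
  have hpow : 0 < 2 ^ d := by positivity
  by_cases h : x.val < 2 ^ d
  · have hlow : lowPart x = ⟨x.val, h⟩ := by
      apply Fin.ext
      simp [lowPart, Nat.mod_eq_of_lt h]
    have hv : (thorpMap (2 ^ d) c x).val = 2 * x.val + (if c ⟨x.val, h⟩ then 1 else 0) := by
      simp [thorpMap, h]
    have htop : x.val.testBit d = false := Nat.testBit_eq_false_of_lt h
    rw [hv, hlow, htop]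
    funext j
    refine Fin.cases ?_ (fun i => ?_) j
    · simp only [bitsOf, Fin.val_zero, Fin.cons_zero, Bool.false_xor]
      rw [testBit_two_mul_add_zero _ _ (by split_ifs <;> omega)]
      cases hc : c ⟨x.val, h⟩ <;> simp
    · simp only [bitsOf, Fin.val_succ, Fin.cons_succ]
      exact testBit_two_mul_add _ _ _ (by split_ifs <;> omega)
  · have hge : 2 ^ d ≤ x.val := not_lt.mp h
    have hlt : x.val - 2 ^ d < 2 ^ d := by
      have := x.isLt
      omega
    have hlow : lowPart x = ⟨x.val - 2 ^ d, hlt⟩ := by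
      apply Fin.ext
      have := x.isLt
      simp only [lowPart]
      rw [Nat.mod_eq_sub_mod hge, Nat.mod_eq_of_lt hlt]
    have hv : (thorpMap (2 ^ d) c x).val
        = 2 * (x.val - 2 ^ d) + (if c ⟨x.val - 2 ^ d, hlt⟩ then 0 else 1) := by
      simp [thorpMap, h]
    have htop : x.val.testBit d = true := by
      have h1 : x.val = 2 ^ d + (x.val - 2 ^ d) := by omega
      rw [h1, Nat.testBit_two_pow_add_eq, Nat.testBit_eq_false_of_lt hlt]
      rfl
    rw [hv, hlow, htop]
    funext j
    refine Fin.cases ?_ (fun i => ?_) j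
    · simp only [bitsOf, Fin.val_zero, Fin.cons_zero, Bool.true_xor]
      rw [testBit_two_mul_add_zero _ _ (by split_ifs <;> omega)]
      cases hc : c ⟨x.val - 2 ^ d, hlt⟩ <;> simp
    · simp only [bitsOf, Fin.val_succ, Fin.cons_succ]
      exact testBit_two_mul_add _ _ _ (by split_ifs <;> omega)

theorem rot_bits (x : Fin (2 * 2 ^ d)) :
    rot d (bitsOf (d + 1) x.val)
      = Fin.cons (x.val.testBit d) (bitsOf d (lowPart x).val) := by
  funext j
  rw [rot_apply]
  refine Fin.cases ?_ (fun i => ?_) j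
  · rw [Fin.cons_zero]
    have : ((0 : Fin (d + 1)) - 1).val = d := by
      have h0 : (0 : Fin (d + 1)) - 1 = Fin.last d := by
        rw [sub_eq_iff_eq_add, Fin.last_add_one]
      rw [h0, Fin.val_last]
    simp only [bitsOf]
    rw [this]
  · rw [Fin.cons_succ]
    have h1 : (i.succ - 1 : Fin (d + 1)) = i.castSucc := by
      rw [sub_eq_iff_eq_add]
      exact (Fin.coeSucc_eq_succ).symm
    rw [h1]
    simp only [bitsOf, lowPart, Fin.val_castSucc]
    rw [Nat.testBit_mod_two_pow]
    simp [i.isLt]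

/-- Flip of the lowest coordinate on the cube in product form. -/
noncomputable def flipC (d : ℕ) (c : Cube d → Bool) : Perm (Cube (d + 1)) :=
  (consE d).permCongr (flipPerm c)

theorem flipC_cons (c : Cube d → Bool) (s : Bool) (y : Cube d) :
    flipC d c (Fin.cons s y : Cube (d + 1)) = Fin.cons (xor s (c y)) y := by
  unfold flipC
  rw [Equiv.permCongr_apply]
  have h1 : (consE d).symm (Fin.cons s y : Cube (d + 1)) = (s, y) := by
    rw [Equiv.symm_apply_eq]; rfl
  rw [h1, flipPerm_apply, consE_apply]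

theorem flipC_inv (c : Cube d → Bool) : (flipC d c)⁻¹ = flipC d c := by
  ext1 x
  rfl

/-- The Thorp shuffle as a permutation of positions. -/
noncomputable def thorpPerm (d : ℕ) (c : Fin (2 ^ d) → Bool) : Perm (Fin (2 * 2 ^ d)) :=
  (encTop d).symm.permCongr (flipC d (c ∘ (encLow d).symm) * rot d)

theorem thorpPerm_apply (c : Fin (2 ^ d) → Bool) (x : Fin (2 * 2 ^ d)) :
    thorpPerm d c x = thorpMap (2 ^ d) c x := by
  unfold thorpPerm
  rw [Equiv.permCongr_apply, Equiv.symm_symm, Equiv.symm_apply_eq]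
  change flipC d (c ∘ (encLow d).symm) (rot d (encTop d x)) = encTop d (thorpMap (2 ^ d) c x)
  rw [encE_apply, encE_apply, rot_bits, bitsOf_thorp, flipC_cons]
  have hc : (c ∘ (encLow d).symm) (bitsOf d (lowPart x).val) = c (lowPart x) := by
    simp only [Function.comp]
    congr 1
    rw [Equiv.symm_apply_eq]
    rfl
  rw [hc]

theorem thorpLaw_eq (g : Perm (Fin (2 * 2 ^ d))) :
    thorpLaw (2 ^ d) g
      = ((Finset.univ.filter (fun c : Fin (2 ^ d) → Bool => g = thorpPerm d c)).card : ℝ)
        / 2 ^ (2 ^ d) := by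
  unfold thorpLaw
  congr 3
  ext c
  simp only [Finset.mem_filter, Finset.mem_univ, true_and]
  constructor
  · intro h
    ext1 x
    rw [h x, thorpPerm_apply]
  · rintro rfl x
    exact thorpPerm_apply c x

end Vale.Agent.Lib.P162
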