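import Vale.Agent.Lib.P162.Block

/-! The block theorem: a number of layers linear in the logarithm of the size of the deck gives
a majorant by the exponential of a multiple of the normalised Laplacian. -/

namespace Vale.Agent.Lib.P162

open Equiv NormedSpace

set_option linter.unusedSectionVars false

variable {E : Type*} [NormedAddCommGroup E] [InnerProductSpace ℝ E]
variable {m : ℕ}

theorem y_fit {A P q r : ℕ} (hP : 0 < P) (hr : r < P) (h5 : 5 * (A * P) ≤ q) :
    A * (r * q / (A * P)) + 5 * A ≤ q := by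
  have h1 : (A * P) * (r * q / (A * P)) ≤ r * q := Nat.mul_div_le _ _
  have h2 : (r + 1) * q ≤ P * q := Nat.mul_le_mul_right _ hr
  have h3 : P * (A * (r * q / (A * P)) + 5 * A) ≤ P * q := by
    calc P * (A * (r * q / (A * P)) + 5 * A)
        = (A * P) * (r * q / (A * P)) + 5 * (A * P) := by ring
      _ ≤ r * q + q := add_le_add h1 h5
      _ = (r + 1) * q := by ring
      _ ≤ P * q := h2
  exact Nat.le_of_mul_le_mul_left h3 hP

theorem y_gap {A P q r s : ℕ} (hA : 0 < A) (hP : 0 < P) (hrs : r < s) (h5 : 5 * (A * P) ≤ q) :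
    A * (r * q / (A * P)) + 5 * A ≤ A * (s * q / (A * P)) := by
  have hU : 0 < A * P := Nat.mul_pos hA hP
  have h1 : (r + 1) * q ≤ s * q := Nat.mul_le_mul_right _ hrs
  have h2 : r * q + 5 * (A * P) ≤ s * q := by
    have : (r + 1) * q = r * q + q := by ring
    omega
  have h3 : (r * q + 5 * (A * P)) / (A * P) ≤ s * q / (A * P) := Nat.div_le_div_right h2
  rw [Nat.add_mul_div_right _ _ hU] at h3
  calc A * (r * q / (A * P)) + 5 * A = A * (r * q / (A * P) + 5) := by ring
    _ ≤ A * (s * q / (A * P)) := Nat.mul_le_mul_left _ h3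

theorem tube_sub_ivl {A P q r x : ℕ} (hA : 0 < A) (hP : 0 < P) (h : tubeP P (3 * A * P) q P r x) :
    A * (r * q / (A * P)) ≤ x ∧ x < A * (r * q / (A * P)) + 4 * A := by
  have hU : 0 < A * P := Nat.mul_pos hA hP
  unfold tubeP at h
  set f := r * q / (A * P) with hf
  have h1 : (A * P) * f ≤ r * q := Nat.mul_div_le _ _
  have h2 : r * q < (A * P) * f + A * P := by
    have := Nat.div_add_mod (r * q) (A * P)
    have h3 := Nat.mod_lt (r * q) hU
    rw [← hf] at this
    omega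
  have h3 : 3 * A * P = 3 * (A * P) := by ring
  constructor
  · have h4 : P * (A * f) ≤ P * x := by
      calc P * (A * f) = (A * P) * f := by ring
        _ ≤ P * x := by omega
    exact Nat.le_of_mul_le_mul_left h4 hP
  · have h4 : P * x < P * (A * f + 4 * A) := by
      calc P * x < (A * P) * f + 4 * (A * P) := by omega
        _ = P * (A * f + 4 * A) := by ring
    exact Nat.lt_of_mul_lt_mul_left h4

/-- The constant of the block theorem. -/
noncomputable def cBlock : ℝ := 1 / 2440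

theorem exists_scale {x q : ℕ} (hx : 0 < x) (h : x ≤ q) : ∃ J, x * 2 ^ J ≤ q ∧ q < 2 * (x * 2 ^ J) := by
  have hq0 : q / x ≠ 0 := (Nat.div_pos h hx).ne'
  refine ⟨Nat.log 2 (q / x), ?_, ?_⟩
  · have h1 := Nat.pow_log_le_self 2 hq0
    calc x * 2 ^ Nat.log 2 (q / x) ≤ x * (q / x) := Nat.mul_le_mul_left _ h1
      _ ≤ q := Nat.mul_div_le _ _
  · have h1 := Nat.lt_pow_succ_log_self (b := 2) (by norm_num) (q / x)
    have h2 : q < x * (q / x + 1) := Nat.lt_mul_div_succ q hx
    have h3 : q / x + 1 ≤ 2 ^ (Nat.log 2 (q / x) + 1) := h1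
    calc q < x * (q / x + 1) := h2
      _ ≤ x * 2 ^ (Nat.log 2 (q / x) + 1) := Nat.mul_le_mul_left _ h3
      _ = 2 * (x * 2 ^ Nat.log 2 (q / x)) := by rw [pow_succ]; ring

section main

variable [CompleteSpace E] [FiniteDimensional ℝ E]

/-- When the odd part of the size is small the recursion on dyadic intervals suffices. -/
theorem block_small {a b : ℕ} (hm : 0 < m) (hab : 2 * m = 2 ^ a * b) (h5 : 2 * m ≤ 5 * 2 ^ a)
    (π : Perm (Fin (2 * m)) →* (E →L[ℝ] E)) (hπ : IsOrth π) :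
    Maj (Net m (a + 3) π) ((cBlock / (3 * (2 : ℝ) ^ a) / 125) • LS π Finset.univ) := by
  have hc0 : 0 ≤ cBlock := by unfold cBlock; norm_num
  have hπ1 := isOrth_conjRep' (pShuf m) hπ
  have hπ2 := isOrth_conjRep' (pShuf m) hπ1
  have hπ3 := isOrth_conjRep' (pShuf m) hπ2
  set ρ := conjRep (pShuf m) (conjRep (pShuf m) (conjRep (pShuf m) π)) with hρ
  have hA : (0 : ℝ) < (2 : ℝ) ^ a := by positivity
  have hApos : 0 < 2 ^ a := by positivity
  have hbpos : 0 < b := by
    rcases Nat.eq_zero_or_pos b with h | h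
    · subst h
      omega
    · exact h
  have hS := stage_A (E := E) hm ⟨b, hab⟩ hc0 (by unfold cBlock; norm_num) a le_rfl ρ hπ3
  have hdiv : 2 * m / 2 ^ a = b := by rw [hab, Nat.mul_div_cancel_left _ hApos]
  rw [hdiv] at hS
  have hcubes : ∀ i ∈ Finset.range b, ∀ j ∈ Finset.range b, i ≠ j →
      Disjoint (ivl m (i * 2 ^ a) (2 ^ a)) (ivl m (j * 2 ^ a) (2 ^ a)) := by
    intro i _ j _ hij
    rw [Finset.disjoint_left]
    intro x hx hx2
    rw [mem_ivl] at hx hx2
    have e1 : x.val / 2 ^ a = i := by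
      apply Nat.div_eq_of_lt_le
      · linarith [hx.1]
      · have : (i + 1) * 2 ^ a = i * 2 ^ a + 2 ^ a := by ring
        omega
    have e2 : x.val / 2 ^ a = j := by
      apply Nat.div_eq_of_lt_le
      · linarith [hx2.1]
      · have : (j + 1) * 2 ^ a = j * 2 ^ a + 2 ^ a := by ring
        omega
    exact hij (e1.symm.trans e2)
  have hS2 := Maj.subfamily hπ3 (s := Finset.range b)
    (K := fun k => ivl m (k * 2 ^ a) (2 ^ a)) (kap_nonneg hc0 a) (fun _ : Unit => 0)
    (s' := {()}) (by simp) (fun _ _ => Finset.mem_range.mpr hbpos) hcubes hS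
  have hS3 : Maj (Net m a ρ) (kap cBlock a • LS ρ (ivl m 0 (2 ^ a))) := by
    simpa using hS2
  have hk : cBlock / (3 * (2 : ℝ) ^ a) ≤ kap cBlock a := by
    refine le_trans ?_ (kap_lower hc0 a)
    rw [one_div_pow]
    rw [div_le_iff₀ (by positivity)]
    have : cBlock * (1 / (2 : ℝ) ^ a) * (3 * (2 : ℝ) ^ a) = 3 * cBlock := by
      field_simp
    rw [this]
    linarith
  have hκ0 : 0 ≤ cBlock / (3 * (2 : ℝ) ^ a) := by positivity
  have hS4 : Maj (Net m a ρ) ((cBlock / (3 * (2 : ℝ) ^ a)) • LS ρ (ivl m 0 ((m + 3) / 4))) := by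
    refine Maj.mono_set hπ3 hκ0 hk ?_ hS3
    intro x hx
    rw [mem_ivl] at hx ⊢
    have : (m + 3) / 4 ≤ 2 ^ a := by omega
    omega
  have hm5 : (m : ℝ) ≤ 5 / 2 * (2 : ℝ) ^ a := by
    have : ((2 * m : ℕ) : ℝ) ≤ ((5 * 2 ^ a : ℕ) : ℝ) := by exact_mod_cast h5
    push_cast at this
    linarith
  have hκm : cBlock / (3 * (2 : ℝ) ^ a) * (m : ℝ) ≤ 1 / 1220 := by
    calc cBlock / (3 * (2 : ℝ) ^ a) * (m : ℝ)
        ≤ cBlock / (3 * (2 : ℝ) ^ a) * (5 / 2 * (2 : ℝ) ^ a) :=
          mul_le_mul_of_nonneg_left hm5 hκ0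
      _ = 5 / 6 * cBlock := by field_simp; ring
      _ ≤ 1 / 1220 := by unfold cBlock; norm_num
  exact stage_D hπ hm (Nat.zero_le _) hκ0 hκm hS4

/-- The general case: merging above the scale of the power of two. -/
theorem block_large {a b h q J : ℕ} (hm : 0 < m) (hq : q + 1 = 2 * m) (ha : 2 ^ a = 2 * h)
    (hb : Odd b) (hmb : m = h * b) (h5 : 5 * (2 ^ a * 2 ^ J) ≤ q) (h10 : q < 2 * (5 * (2 ^ a * 2 ^ J)))
    (π : Perm (Fin (2 * m)) →* (E →L[ℝ] E)) (hπ : IsOrth π) :
    Maj (Net m (a + 2 + J + 3) π)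
      ((cBlock / (50 * ((2 : ℝ) ^ a * (2 : ℝ) ^ J)) / 125) • LS π Finset.univ) := by
  have hc0 : 0 ≤ cBlock := by unfold cBlock; norm_num
  set A : ℕ := 2 ^ a with hA
  set P : ℕ := 2 ^ J with hP
  have hApos : 0 < A := by positivity
  have hPpos : 0 < P := by positivity
  have hA2 : 2 ≤ A := by
    have : 0 < h := by omega
    omega
  have hA2P : 2 * P ≤ A * P := Nat.mul_le_mul_right _ hA2
  have hAr : (0 : ℝ) < (A : ℝ) := by exact_mod_cast hApos
  have hPr : (0 : ℝ) < (P : ℝ) := by exact_mod_cast hPpos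
  have hA1r : (1 : ℝ) ≤ (A : ℝ) := by exact_mod_cast hApos
  have hAe : (A : ℝ) = (2 : ℝ) ^ a := by rw [hA]; push_cast; rfl
  have hPe : (P : ℝ) = (2 : ℝ) ^ J := by rw [hP]; push_cast; rfl
  rw [← hAe, ← hPe]
  have h2A : 2 * A ≤ m := by
    have : A ≤ A * P := Nat.le_mul_of_pos_right _ hPpos
    omega
  set y : ℕ → ℕ := fun r => A * (r * q / (A * P)) with hy
  set cC : ℝ := cBlock / (50 * (A : ℝ)) with hcC
  have hcC0 : 0 ≤ cC := by positivity
  have hcC1 : cC * (A : ℝ) = cBlock / 50 := by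
    rw [hcC]; field_simp
  have hV : 3 * A * P ≤ q := by
    have : 3 * A * P = 3 * (A * P) := by ring
    omega
  have hB : ∀ π' : Perm (Fin (2 * m)) →* (E →L[ℝ] E), IsOrth π' →
      Maj (Net m (a + 2) π') (∑ r ∈ Finset.range P, kap cC 0 • LS π' (tube m P (3 * A * P) q P r)) := by
    intro π' hπ'
    have hfit : ∀ r ∈ Finset.range P, y r + 2 * (2 * A) ≤ 2 * m := by
      intro r hr
      have := y_fit hPpos (Finset.mem_range.mp hr) h5
      simp only [hy]
      omega
    have hdisj : ∀ r ∈ Finset.range P, ∀ s ∈ Finset.range P, r ≠ s →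
        Disjoint (ivl m (y r) (2 * (2 * A))) (ivl m (y s) (2 * (2 * A))) := by
      have key : ∀ {r s : ℕ}, r < s →
          Disjoint (ivl m (y r) (2 * (2 * A))) (ivl m (y s) (2 * (2 * A))) := by
        intro r s hrs
        rw [Finset.disjoint_left]
        intro x hx hx2
        rw [mem_ivl] at hx hx2
        have := y_gap hApos hPpos hrs h5
        simp only [hy] at hx hx2
        omega
      intro r _ s _ hrs
      rcases lt_or_gt_of_ne hrs with h | h
      · exact key h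
      · exact (key h).symm
    have h1 := stage_B (E := E) (π := π') (a := a) (b := b) (h := h) hm ha hb hmb h2A hc0
      (by unfold cBlock; norm_num) (Finset.range P) y (fun r _ => Dvd.intro _ rfl) hfit hdisj hπ'
    refine Maj.mono_family hπ' (kap_nonneg hcC0 0) ?_ hdisj ?_ h1
    · have h2 := kap_lower hc0 a
      have h3 : kap cC 0 = 2 * cC := by
        unfold kap
        simp
        ring
      rw [h3]
      have h4 : cBlock * (1 / 2) ^ a = cBlock / (A : ℝ) := by
        rw [hAe, one_div_pow]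
        ring
      rw [h4] at h2
      have h5 : 2 * cC = cBlock / (A : ℝ) / 5 / 5 := by
        rw [hcC]
        field_simp
        ring
      rw [h5]
      linarith
    · intro r _ x hx
      have h2 := tube_sub_ivl hApos hPpos (mem_tube.mp hx)
      rw [mem_ivl]
      simp only [hy]
      omega
  have hC := stage_C (E := E) (A := A) hq hP rfl hV hcC0
    (by
      rw [hcC]
      rw [div_le_iff₀ (by positivity)]
      unfold cBlock
      nlinarith)
    (by
      have : 6 * cC * (A : ℝ) = 6 * (cC * (A : ℝ)) := by ring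
      rw [this, hcC1]
      unfold cBlock
      norm_num)
    hB J le_rfl
  have hπ1 := isOrth_conjRep' (pShuf m) hπ
  have hπ2 := isOrth_conjRep' (pShuf m) hπ1
  have hπ3 := isOrth_conjRep' (pShuf m) hπ2
  set ρ := conjRep (pShuf m) (conjRep (pShuf m) (conjRep (pShuf m) π)) with hρ
  have hC1 := hC ρ hπ3
  rw [Nat.sub_self, pow_zero] at hC1
  have hC2 : Maj (Net m (a + 2 + J) ρ) (kap cC J • LS ρ (tube m P (3 * A * P) q 1 0)) := by
    simpa using hC1
  set κ : ℝ := cBlock / (50 * ((A : ℝ) * (P : ℝ))) with hκ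
  have hκ0 : 0 ≤ κ := by positivity
  have hκC : κ ≤ kap cC J := by
    refine le_trans (le_of_eq ?_) (kap_lower hcC0 J)
    rw [hκ, hcC, one_div_pow, ← hPe]
    field_simp
  have h3P : 3 * A * P = 3 * (A * P) := by ring
  have hC3 : Maj (Net m (a + 2 + J) ρ) (κ • LS ρ (ivl m (P - 1) ((m + 3) / 4))) := by
    refine Maj.mono_set hπ3 hκ0 hκC ?_ hC2
    intro x hx
    rw [mem_ivl] at hx
    rw [mem_tube]
    unfold tubeP
    simp only [one_mul, zero_mul, add_zero]
    omega
  have hm5 : (m : ℝ) ≤ 5 * ((A : ℝ) * (P : ℝ)) := by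
    have h6 : m ≤ 5 * (A * P) := by omega
    exact_mod_cast h6
  have hκm : κ * (m : ℝ) ≤ 1 / 1220 := by
    calc κ * (m : ℝ) ≤ κ * (5 * ((A : ℝ) * (P : ℝ))) := mul_le_mul_of_nonneg_left hm5 hκ0
      _ = cBlock / 10 := by
        rw [hκ]
        field_simp
        ring
      _ ≤ 1 / 1220 := by unfold cBlock; norm_num
  have hw : P - 1 ≤ m / 4 := by omega
  exact stage_D hπ hm hw hκ0 hκm hC3

/-- The block theorem. -/
theorem block {d : ℕ} (hm : 0 < m) (hd : 2 * m ≤ 2 ^ d) :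
    ∃ (s : ℕ) (κ : ℝ), s ≤ d + 3 ∧ 0 ≤ κ ∧ 1 / 3050000 ≤ κ * (2 * (m : ℝ)) ∧
      ∀ π : Perm (Fin (2 * m)) →* (E →L[ℝ] E), IsOrth π → Maj (Net m s π) (κ • LS π Finset.univ) := by
  have hc0 : 0 ≤ cBlock := by unfold cBlock; norm_num
  obtain ⟨a, b, hb, hab⟩ := Nat.exists_eq_two_pow_mul_odd (n := 2 * m) (by omega)
  have ha0 : a ≠ 0 := by
    rintro rfl
    obtain ⟨w, hw⟩ := hb
    rw [pow_zero, one_mul] at hab
    omega
  obtain ⟨a', rfl⟩ := Nat.exists_eq_succ_of_ne_zero ha0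
  rw [Nat.succ_eq_add_one] at hab
  set a := a' + 1 with haa
  set h := 2 ^ a' with hh
  have hpow : 2 ^ a = 2 * h := by rw [haa, pow_succ, hh]; ring
  have hmb : m = h * b := by
    have : 2 * m = 2 * (h * b) := by rw [hab, hpow]; ring
    omega
  have hbpos : 0 < b := by
    rcases Nat.eq_zero_or_pos b with h0 | h0
    · subst h0
      omega
    · exact h0
  have hAle : 2 ^ a ≤ 2 * m := by
    rw [hab]
    exact Nat.le_mul_of_pos_right _ hbpos
  have hale : a ≤ d := (Nat.pow_le_pow_iff_right (by norm_num)).mp (hAle.trans hd)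
  obtain ⟨q, hq⟩ : ∃ q, q + 1 = 2 * m := ⟨2 * m - 1, by omega⟩
  by_cases h5 : 2 * m ≤ 5 * 2 ^ a
  · -- the small case
    refine ⟨a + 3, cBlock / (3 * (2 : ℝ) ^ a) / 125, by omega, by positivity, ?_,
      fun π hπ => block_small hm hab h5 π hπ⟩
    have hr : (2 : ℝ) ^ a ≤ 2 * (m : ℝ) := by
      have : ((2 ^ a : ℕ) : ℝ) ≤ ((2 * m : ℕ) : ℝ) := by exact_mod_cast hAle
      push_cast at this
      exact this
    have hApos : (0 : ℝ) < (2 : ℝ) ^ a := by positivity
    calc (1 : ℝ) / 3050000 ≤ cBlock / (3 * (2 : ℝ) ^ a) / 125 * (2 : ℝ) ^ a := by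
          have : cBlock / (3 * (2 : ℝ) ^ a) / 125 * (2 : ℝ) ^ a = cBlock / 375 := by
            field_simp
            ring
          rw [this]
          unfold cBlock
          norm_num
      _ ≤ _ := mul_le_mul_of_nonneg_left hr (by positivity)
  · -- the general case
    have h5' : 5 * 2 ^ a ≤ q := by omega
    obtain ⟨J, hJ1, hJ2⟩ := exists_scale (x := 5 * 2 ^ a) (by positivity) h5'
    have hJ1' : 5 * (2 ^ a * 2 ^ J) ≤ q := by
      calc 5 * (2 ^ a * 2 ^ J) = 5 * 2 ^ a * 2 ^ J := by ring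
        _ ≤ q := hJ1
    have hJ2' : q < 2 * (5 * (2 ^ a * 2 ^ J)) := by
      calc q < 2 * (5 * 2 ^ a * 2 ^ J) := hJ2
        _ = 2 * (5 * (2 ^ a * 2 ^ J)) := by ring
    refine ⟨a + 2 + J + 3, cBlock / (50 * ((2 : ℝ) ^ a * (2 : ℝ) ^ J)) / 125, ?_, by positivity, ?_,
      fun π hπ => block_large hm hq hpow hb hmb hJ1' hJ2' π hπ⟩
    · have h2 : 2 ^ (a + J + 2) ≤ 2 ^ d := by
        have : 2 ^ (a + J + 2) = 4 * (2 ^ a * 2 ^ J) := by
          rw [pow_add, pow_add]; ring
        omega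
      have := (Nat.pow_le_pow_iff_right (by norm_num)).mp h2
      omega
    · have hr : 5 * ((2 : ℝ) ^ a * (2 : ℝ) ^ J) ≤ 2 * (m : ℝ) := by
        have h6 : 5 * (2 ^ a * 2 ^ J) ≤ 2 * m := by omega
        have : ((5 * (2 ^ a * 2 ^ J) : ℕ) : ℝ) ≤ ((2 * m : ℕ) : ℝ) := by exact_mod_cast h6
        push_cast at this
        exact this
      have hU : (0 : ℝ) < (2 : ℝ) ^ a * (2 : ℝ) ^ J := by positivity
      calc (1 : ℝ) / 3050000
          ≤ cBlock / (50 * ((2 : ℝ) ^ a * (2 : ℝ) ^ J)) / 125 * (5 * ((2 : ℝ) ^ a * (2 : ℝ) ^ J)) := by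
            have : cBlock / (50 * ((2 : ℝ) ^ a * (2 : ℝ) ^ J)) / 125 * (5 * ((2 : ℝ) ^ a * (2 : ℝ) ^ J))
                = cBlock / 1250 := by
              field_simp
              ring
            rw [this]
            unfold cBlock
            norm_num
        _ ≤ _ := mul_le_mul_of_nonneg_left hr (by positivity)

end main

end Vale.Agent.Lib.P162
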