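import Vale.Agent.Lib.P162.Cover

/-! Energy operators on finite subsets of the positions: commutation, the merge and cover
inequalities for a matching, and the replacement of commuting blocks one at a time. -/

namespace Vale.Agent.Lib.P162

open Equiv NormedSpace

set_option linter.unusedSectionVars false

variable {E : Type*} [NormedAddCommGroup E] [InnerProductSpace ℝ E]
variable {P : Type*} [DecidableEq P]

section basic

variable {π : Perm P →* (E →L[ℝ] E)}

theorem LS_empty (π : Perm P →* (E →L[ℝ] E)) : LS π ∅ = 0 := by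
  simp [LS]

/-- A transposition away from a set commutes with the energy of the set. -/
theorem commute_swap_LS {a b : P} {S : Finset P} (ha : a ∉ S) (hb : b ∉ S) :
    Commute (π (swap a b)) (LS π S) := by
  refine commute_pi_LS π _ S (fun x => ?_)
  by_cases hxa : x = a
  · subst hxa
    simp [ha, hb]
  · by_cases hxb : x = b
    · subst hxb
      simp [ha, hb]
    · rw [Equiv.swap_apply_of_ne_of_ne hxa hxb]

/-- A transposition inside a set commutes with the energy of the set. -/
theorem commute_swap_LS_mem {a b : P} {S : Finset P} (ha : a ∈ S) (hb : b ∈ S) :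
    Commute (π (swap a b)) (LS π S) := by
  refine commute_pi_LS π _ S (fun x => ?_)
  by_cases hxa : x = a
  · subst hxa
    simp [ha, hb]
  · by_cases hxb : x = b
    · subst hxb
      simp [ha, hb]
    · rw [Equiv.swap_apply_of_ne_of_ne hxa hxb]

theorem commute_LS_of_swaps {B : E →L[ℝ] E} {S : Finset P}
    (h : ∀ a ∈ S, ∀ b ∈ S, Commute B (π (swap a b))) : Commute B (LS π S) := by
  unfold LS
  refine Commute.sum_right _ _ _ (fun a ha => Commute.sum_right _ _ _ (fun b hb => ?_))
  exact ((Commute.one_right B).sub_right (h a ha b hb)).smul_right _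

/-- Energies of disjoint sets commute. -/
theorem commute_LS_disjoint {A B : Finset P} (h : Disjoint A B) :
    Commute (LS π A) (LS π B) := by
  refine commute_LS_of_swaps (fun a ha b hb => ?_)
  exact (commute_swap_LS (Finset.disjoint_left.mp h.symm ha)
    (Finset.disjoint_left.mp h.symm hb)).symm

/-- Energies of nested sets commute. -/
theorem commute_LS_subset {A B : Finset P} (h : A ⊆ B) :
    Commute (LS π A) (LS π B) := by
  have : Commute (LS π B) (LS π A) :=
    commute_LS_of_swaps (fun a ha b hb => (commute_swap_LS_mem (h ha) (h hb)).symm)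
  exact this.symm

theorem LS_mono_form (hπ : IsOrth π) {A B : Finset P} (h : A ⊆ B) (u : E) :
    inner ℝ u (LS π A u) ≤ inner ℝ u (LS π B u) := by
  have hform : ∀ S : Finset P, inner ℝ u (LS π S u)
      = ∑ a ∈ S, ∑ b ∈ S, (1 / 2 : ℝ) * inner ℝ u ((1 - π (swap a b)) u) := fun S => inner_LS u S
  rw [hform, hform]
  have hnn : ∀ a b, 0 ≤ (1 / 2 : ℝ) * inner ℝ u ((1 - π (swap a b)) u) :=
    fun a b => mul_nonneg (by norm_num) (psdOp_one_sub_swap hπ a b u)
  calc ∑ a ∈ A, ∑ b ∈ A, (1 / 2 : ℝ) * inner ℝ u ((1 - π (swap a b)) u)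
      ≤ ∑ a ∈ A, ∑ b ∈ B, (1 / 2 : ℝ) * inner ℝ u ((1 - π (swap a b)) u) :=
        Finset.sum_le_sum (fun a _ => Finset.sum_le_sum_of_subset_of_nonneg h (fun b _ _ => hnn a b))
    _ ≤ _ := Finset.sum_le_sum_of_subset_of_nonneg h
        (fun a _ _ => Finset.sum_nonneg (fun b _ => hnn a b))

end basic

section expo

variable [CompleteSpace E]

/-- Splitting the exponential of a commuting sum. -/
theorem inner_exp_add_split {X Y : E →L[ℝ] E} (hX : SymOp X) (h : Commute X Y) (v : E) :
    inner ℝ v (exp (-(X + Y)) v)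
      = inner ℝ (exp ((-(1 / 2 : ℝ)) • X) v) (exp (-Y) (exp ((-(1 / 2 : ℝ)) • X) v)) := by
  set C := exp ((-(1 / 2 : ℝ)) • X) with hC
  have hCs : SymOp C := symOp_exp (hX.smul _)
  have hc : Commute ((-(1 / 2 : ℝ)) • X) (-Y) := (h.smul_left _).neg_right
  have hcC : Commute C (exp (-Y)) := Commute.exp hc
  have hE : exp (-(X + Y)) = C * exp (-Y) * C := by
    have hCC : exp (-X) = C * C := by
      rw [hC, exp_smul_mul]
      congr 1
      module
    have h1 : -(X + Y) = -X + -Y := neg_add _ _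
    rw [h1, exp_add_comm (h.neg_left.neg_right), hCC]
    calc C * C * exp (-Y) = C * (C * exp (-Y)) := mul_assoc _ _ _
      _ = C * (exp (-Y) * C) := by rw [hcC.eq]
      _ = C * exp (-Y) * C := (mul_assoc _ _ _).symm
  rw [hE]
  change inner ℝ v (C (exp (-Y) (C v))) = _
  rw [← hCs v]

/-- The form of `exp (-H)` as a squared norm. -/
theorem inner_exp_neg_self {H : E →L[ℝ] E} (hH : SymOp H) (v : E) :
    inner ℝ v (exp (-H) v) = ‖exp ((-(1 / 2 : ℝ)) • H) v‖ ^ 2 := by
  have h := inner_exp_eq_norm_sq (A := -H) (by simpa using hH.smul (-1 : ℝ)) v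
  rw [h]
  have h2 : (1 / 2 : ℝ) • (-H) = (-(1 / 2 : ℝ)) • H := by module
  rw [h2]

/-- One block at a time: replacement of commuting exponentials. -/
theorem replace_all {ι : Type*} [DecidableEq ι] (s : Finset ι) (F F' : ι → (E →L[ℝ] E))
    (A : ι → Set (E →L[ℝ] E))
    (hFs : ∀ i ∈ s, SymOp (F i)) (hF's : ∀ i ∈ s, SymOp (F' i))
    (hcomm : ∀ i ∈ s, ∀ j ∈ s, i ≠ j →
      Commute (F i) (F j) ∧ Commute (F' i) (F j) ∧ Commute (F' i) (F' j))
    (hinv : ∀ i ∈ s, ∀ j ∈ s, i ≠ j → ∀ B ∈ A i, Commute B (F j) ∧ Commute B (F' j))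
    (hrep : ∀ i ∈ s, ∀ z, (∀ B ∈ A i, B z = z) →
      inner ℝ z (exp (-F i) z) ≤ inner ℝ z (exp (-F' i) z)) :
    ∀ v, (∀ i ∈ s, ∀ B ∈ A i, B v = v) →
      inner ℝ v (exp (-∑ i ∈ s, F i) v) ≤ inner ℝ v (exp (-∑ i ∈ s, F' i) v) := by
  classical
  induction s using Finset.induction_on with
  | empty =>
    intro v _
    simp
  | insert d s hd ih =>
    intro v hv
    have hFs' : ∀ i ∈ s, SymOp (F i) := fun i hi => hFs i (Finset.mem_insert_of_mem hi)
    have hF's' : ∀ i ∈ s, SymOp (F' i) := fun i hi => hF's i (Finset.mem_insert_of_mem hi)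
    have hdm : d ∈ insert d s := Finset.mem_insert_self d s
    have hne : ∀ i ∈ s, i ≠ d := fun i hi e => hd (e ▸ hi)
    set H := ∑ i ∈ s, F i with hH
    set H' := ∑ i ∈ s, F' i with hH'
    have hHs : SymOp H := SymOp.sum _ _ hFs'
    have hH's : SymOp H' := SymOp.sum _ _ hF's'
    have hcFd : Commute H (F d) := Commute.sum_left _ _ _ (fun i hi =>
      (hcomm d hdm i (Finset.mem_insert_of_mem hi) (hne i hi).symm).1.symm)
    have hcF'd : Commute H (F' d) := Commute.sum_left _ _ _ (fun i hi =>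
      (hcomm d hdm i (Finset.mem_insert_of_mem hi) (hne i hi).symm).2.1.symm)
    have hcF'dH' : Commute (F' d) H' := Commute.sum_right _ _ _ (fun i hi =>
      (hcomm d hdm i (Finset.mem_insert_of_mem hi) (hne i hi).symm).2.2)
    rw [Finset.sum_insert hd, Finset.sum_insert hd, ← hH, ← hH']
    -- first step
    have e1 : F d + H = H + F d := add_comm _ _
    rw [e1, inner_exp_add_split hHs hcFd]
    set C := exp ((-(1 / 2 : ℝ)) • H) with hC
    have hz : ∀ B ∈ A d, B (C v) = C v := by
      intro B hB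
      have hcB : Commute B H := Commute.sum_right _ _ _ (fun i hi =>
        (hinv d hdm i (Finset.mem_insert_of_mem hi) (hne i hi).symm B hB).1)
      have hcBC : Commute B C := Commute.exp_right (hcB.smul_right _)
      have := congrArg (fun X : E →L[ℝ] E => X v) hcBC.eq
      change B (C v) = C (B v) at this
      rw [this, hv d hdm B hB]
    have h1 := hrep d hdm (C v) hz
    refine h1.trans ?_
    -- second step
    have h2 : inner ℝ (C v) (exp (-F' d) (C v)) = inner ℝ v (exp (-(H + F' d)) v) :=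
      (inner_exp_add_split hHs hcF'd v).symm
    rw [h2]
    have e2 : H + F' d = F' d + H := add_comm _ _
    rw [e2, inner_exp_add_split (hF's d hdm) hcF'd.symm]
    set C' := exp ((-(1 / 2 : ℝ)) • F' d) with hC'
    have hv' : ∀ i ∈ s, ∀ B ∈ A i, B (C' v) = C' v := by
      intro i hi B hB
      have hcB : Commute B (F' d) :=
        (hinv i (Finset.mem_insert_of_mem hi) d hdm (hne i hi) B hB).2
      have hcBC : Commute B C' := Commute.exp_right (hcB.smul_right _)
      have := congrArg (fun X : E →L[ℝ] E => X v) hcBC.eq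
      change B (C' v) = C' (B v) at this
      rw [this, hv i (Finset.mem_insert_of_mem hi) B hB]
    have h3 := ih hFs' hF's'
      (fun i hi j hj hij => hcomm i (Finset.mem_insert_of_mem hi) j (Finset.mem_insert_of_mem hj) hij)
      (fun i hi j hj hij => hinv i (Finset.mem_insert_of_mem hi) j (Finset.mem_insert_of_mem hj) hij)
      (fun i hi => hrep i (Finset.mem_insert_of_mem hi)) (C' v) hv'
    refine h3.trans (le_of_eq ?_)
    exact (inner_exp_add_split (hF's d hdm) hcF'dH' v).symm

/-- The majorant relation. -/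
def Maj (R H : E →L[ℝ] E) : Prop := ∀ w, ‖R w‖ ^ 2 ≤ inner ℝ w (exp (-H) w)

/-- Dropping a commuting positive part of the exponent. -/
theorem Maj.drop [FiniteDimensional ℝ E] {R H1 H2 : E →L[ℝ] E} (h : Maj R (H1 + H2))
    (hs1 : SymOp H1) (hs2 : SymOp H2) (hp2 : PsdOp H2) (hc : Commute H1 H2) : Maj R H1 := by
  intro w
  refine (h w).trans ?_
  rw [inner_exp_add_split hs1 hc]
  rw [inner_exp_neg_self hs1]
  set v := exp ((-(1 / 2 : ℝ)) • H1) w
  have hW : ∀ u ∈ (⊤ : Submodule ℝ E), (0 : ℝ) * ‖u‖ ^ 2 ≤ inner ℝ u (H2 u) := by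
    intro u _; simpa using hp2 u
  have h3 := exp_bound_of_rayleigh hs2 ⊤ (fun _ _ => Submodule.mem_top) 0 hW
    (s := 1) (by norm_num) v Submodule.mem_top
  have h4 : (-1 : ℝ) • H2 = -H2 := by simp
  rw [h4] at h3
  simpa using h3

end expo

section layer

/-- The properties of a layer of independent averaged transpositions. -/
structure Layer (π : Perm P →* (E →L[ℝ] E)) (φ : P → P) (T : E →L[ℝ] E) : Prop where
  fixed : ∀ w x, π (swap x (φ x)) (T w) = T w
  contr : ∀ w, ‖T w‖ ≤ ‖w‖
  comm : ∀ W : Finset P, (∀ x ∈ W, φ x ∈ W) → Commute T (LS π W)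

variable [CompleteSpace E] {π : Perm P →* (E →L[ℝ] E)}

/-- The general step through one layer. -/
theorem level_step {φ : P → P} {T R : E →L[ℝ] E} (hπ : IsOrth π) (hL : Layer π φ T)
    {ι : Type*} [DecidableEq ι] (s : Finset ι) (X : ι → Finset P) {a c κ' : ℝ}
    (hdisj : ∀ i ∈ s, ∀ j ∈ s, i ≠ j →
      Disjoint (X i ∪ (X i).image φ) (X j ∪ (X j).image φ))
    (hclosed : ∀ i ∈ s, ∀ x ∈ X i ∪ (X i).image φ, φ x ∈ X i ∪ (X i).image φ)
    (hrep : ∀ i ∈ s, ∀ z, (∀ x ∈ X i, π (swap x (φ x)) z = z) →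
      inner ℝ z (exp (-(a • LS π (X i) + c • LS π ((X i).image φ))) z)
        ≤ inner ℝ z (exp (-(κ' • LS π (X i ∪ (X i).image φ))) z))
    (hM : Maj R (∑ i ∈ s, (a • LS π (X i) + c • LS π ((X i).image φ)))) :
    Maj (R * T) (∑ i ∈ s, κ' • LS π (X i ∪ (X i).image φ)) := by
  set W : ι → Finset P := fun i => X i ∪ (X i).image φ with hW
  set F : ι → (E →L[ℝ] E) := fun i => a • LS π (X i) + c • LS π ((X i).image φ) with hF
  set F' : ι → (E →L[ℝ] E) := fun i => κ' • LS π (W i) with hF'
  set A : ι → Set (E →L[ℝ] E) := fun i => {B | ∃ x ∈ X i, B = π (swap x (φ x))} with hA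
  have hXW : ∀ i, X i ⊆ W i := fun i => Finset.subset_union_left
  have hYW : ∀ i, (X i).image φ ⊆ W i := fun i => Finset.subset_union_right
  have hFs : ∀ i ∈ s, SymOp (F i) := fun i _ =>
    ((symOp_LS hπ _).smul _).add ((symOp_LS hπ _).smul _)
  have hF's : ∀ i ∈ s, SymOp (F' i) := fun i _ => (symOp_LS hπ _).smul _
  have hdisjS : ∀ i ∈ s, ∀ j ∈ s, i ≠ j → ∀ S S' : Finset P, S ⊆ W i → S' ⊆ W j →
      Commute (LS π S) (LS π S') := by
    intro i hi j hj hij S S' hS hS'
    exact commute_LS_disjoint (Finset.disjoint_of_subset_left hS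
      (Finset.disjoint_of_subset_right hS' (hdisj i hi j hj hij)))
  have hcomm : ∀ i ∈ s, ∀ j ∈ s, i ≠ j →
      Commute (F i) (F j) ∧ Commute (F' i) (F j) ∧ Commute (F' i) (F' j) := by
    intro i hi j hj hij
    have h1 := hdisjS i hi j hj hij
    refine ⟨?_, ?_, ?_⟩
    · exact (((h1 _ _ (hXW i) (hXW j)).smul_left a).smul_right a |>.add_right
        (((h1 _ _ (hXW i) (hYW j)).smul_left a).smul_right c)).add_left
        ((((h1 _ _ (hYW i) (hXW j)).smul_left c).smul_right a).add_right
        (((h1 _ _ (hYW i) (hYW j)).smul_left c).smul_right c))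
    · exact (((h1 _ _ le_rfl (hXW j)).smul_left κ').smul_right a).add_right
        (((h1 _ _ le_rfl (hYW j)).smul_left κ').smul_right c)
    · exact ((h1 _ _ le_rfl le_rfl).smul_left κ').smul_right κ'
  have hinv : ∀ i ∈ s, ∀ j ∈ s, i ≠ j → ∀ B ∈ A i, Commute B (F j) ∧ Commute B (F' j) := by
    intro i hi j hj hij B hB
    obtain ⟨x, hx, rfl⟩ := hB
    have hxW : x ∈ W i := hXW i hx
    have hφW : φ x ∈ W i := hclosed i hi x hxW
    have hnot : ∀ S : Finset P, S ⊆ W j → x ∉ S ∧ φ x ∉ S := by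
      intro S hS
      have hd := hdisj i hi j hj hij
      exact ⟨fun h => Finset.disjoint_left.mp hd hxW (hS h),
        fun h => Finset.disjoint_left.mp hd hφW (hS h)⟩
    have hc : ∀ S : Finset P, S ⊆ W j → Commute (π (swap x (φ x))) (LS π S) := by
      intro S hS
      exact commute_swap_LS (hnot S hS).1 (hnot S hS).2
    exact ⟨((hc _ (hXW j)).smul_right a).add_right ((hc _ (hYW j)).smul_right c),
      (hc _ le_rfl).smul_right κ'⟩
  have hrep' : ∀ i ∈ s, ∀ z, (∀ B ∈ A i, B z = z) →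
      inner ℝ z (exp (-F i) z) ≤ inner ℝ z (exp (-F' i) z) := by
    intro i hi z hz
    exact hrep i hi z (fun x hx => hz _ ⟨x, hx, rfl⟩)
  have hall := replace_all s F F' A hFs hF's hcomm hinv hrep'
  set H' := ∑ i ∈ s, F' i with hH'
  have hH's : SymOp H' := SymOp.sum _ _ hF's
  have hTH' : Commute T H' := Commute.sum_right _ _ _ (fun i hi =>
    (hL.comm (W i) (hclosed i hi)).smul_right κ')
  intro w
  have h1 := hM (T w)
  change ‖R (T w)‖ ^ 2 ≤ _ at h1
  change ‖R (T w)‖ ^ 2 ≤ _
  refine h1.trans ?_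
  have h2 := hall (T w) (by
    intro i _ B hB
    obtain ⟨x, _, rfl⟩ := hB
    exact hL.fixed w x)
  refine h2.trans ?_
  rw [inner_exp_neg_self hH's, inner_exp_neg_self hH's]
  set C := exp ((-(1 / 2 : ℝ)) • H') with hC
  have hcC : Commute T C := Commute.exp_right (hTH'.smul_right _)
  have h3 := congrArg (fun X : E →L[ℝ] E => X w) hcC.eq
  change T (C w) = C (T w) at h3
  rw [← h3]
  gcongr
  exact hL.contr _

end layer

end Vale.Agent.Lib.P162
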