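import Vale.Agent.Lib.P162.Regular

/-! The `L²` bound for the heat kernel of random transpositions on the regular representation,
from the energy bound and the dimension count. -/

namespace Vale.Agent.Lib.P162

open Equiv NormedSpace

set_option linter.unusedSectionVars false

variable {P : Type*} [Fintype P] [DecidableEq P]
variable {E : Type*} [NormedAddCommGroup E] [InnerProductSpace ℝ E] [FiniteDimensional ℝ E]
  [CompleteSpace E] {π : Perm P →* (E →L[ℝ] E)}

/-- Energy bound on the orthogonal complement of a level. -/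
theorem Lhat_lower (hπ : IsOrth π) {j : ℕ} (hj : j < Fintype.card P) {v : E}
    (hv : v ∈ Um π Finset.univ (Fintype.card P - j)) :
    ((1 / 2) * min ((j : ℝ) + 1) ((Fintype.card P : ℝ) / 2)) * ‖v‖ ^ 2
      ≤ inner ℝ v (Lhat π v) := by
  have h := energy_bound (π := π) hπ (Fintype.card P) Finset.univ
    (Finset.card_univ) (Fintype.card P - j) v hv
  have hcast : ((Fintype.card P - j : ℕ) : ℝ) = (Fintype.card P : ℝ) - j := by
    rw [Nat.cast_sub hj.le]
  rw [hcast] at h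
  have h2 : (Fintype.card P : ℝ) - ((Fintype.card P : ℝ) - j) + 1 = (j : ℝ) + 1 := by ring
  rw [h2] at h
  have hnpos : (0 : ℝ) < (Fintype.card P : ℝ) := by
    have : 0 < Fintype.card P := by omega
    exact_mod_cast this
  unfold Lhat
  rw [smul_apply, inner_smul_right]
  have h3 : ((1 / 2) * min ((j : ℝ) + 1) ((Fintype.card P : ℝ) / 2)) * ‖v‖ ^ 2
      = (Fintype.card P : ℝ)⁻¹ * ((((Fintype.card P : ℝ) / 2)
        * min ((j : ℝ) + 1) ((Fintype.card P : ℝ) / 2)) * ‖v‖ ^ 2) := by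
    field_simp
  rw [h3]
  exact mul_le_mul_of_nonneg_left h (by positivity)

theorem Lhat_mem_Um (hπ : IsOrth π) {m : ℕ} {v : E} (hv : v ∈ Um π Finset.univ m) :
    Lhat π v ∈ Um π Finset.univ m := by
  unfold Lhat
  rw [smul_apply]
  exact Submodule.smul_mem _ _ (LS_mem_Um hπ hv)

/-- Heat kernel coefficients. -/
noncomputable def cCoef (n : ℕ) (s : ℝ) (j : ℕ) : ℝ :=
  Real.exp (-s * ((1 / 2) * min (j : ℝ) ((n : ℝ) / 2)))

theorem commute_heat (π : Perm P →* (E →L[ℝ] E)) (s : ℝ) (g : Perm P) :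
    Commute (exp ((-s) • Lhat π)) (π g) :=
  Commute.exp_left (((commute_pi_Lhat π g).symm).smul_left _)

/-- The flag bound applied to the heat kernel. -/
theorem heat_flag (hπ : IsOrth π) {D : ℕ → Submodule ℝ E} (hD : Monotone D)
    (hinv : ∀ A : E →L[ℝ] E, (∀ g, Commute A (π g)) → ∀ j, ∀ v ∈ D j, A v ∈ D j)
    (hn : 1 ≤ Fintype.card P) (htop : D (Fintype.card P - 1) = ⊤)
    (hort : ∀ j, ∀ v ∈ (D j)ᗮ, v ∈ Um π Finset.univ (Fintype.card P - j))
    {s : ℝ} (hs : 0 ≤ s) (v : E) :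
    inner ℝ v (exp ((-s) • Lhat π) v)
      ≤ ∑ j ∈ Finset.range (Fintype.card P),
          cCoef (Fintype.card P) s j * ‖(D j).starProjection v‖ ^ 2 := by
  set R := exp ((-s) • Lhat π) with hR
  have hsym : SymOp R := symOp_exp ((symOp_Lhat hπ).smul _)
  have hv : v ∈ D (Fintype.card P - 1) := by
    rw [htop]; exact Submodule.mem_top
  have h0 : ∀ v ∈ D 0, inner ℝ v (R v) ≤ cCoef (Fintype.card P) s 0 * ‖v‖ ^ 2 := by
    intro v _
    have hW : ∀ v ∈ (⊤ : Submodule ℝ E), (0 : ℝ) * ‖v‖ ^ 2 ≤ inner ℝ v (Lhat π v) := by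
      intro v _; simpa using psdOp_Lhat hπ v
    have := exp_bound_of_rayleigh (symOp_Lhat hπ) ⊤ (fun _ _ => Submodule.mem_top) 0 hW
      hs v Submodule.mem_top
    have hn0 : (0 : ℝ) ≤ (Fintype.card P : ℝ) / 2 := by positivity
    refine this.trans (le_of_eq ?_)
    simp [cCoef, min_eq_left hn0]
  have h1 : ∀ j < Fintype.card P - 1, ∀ v ∈ (D j)ᗮ,
      inner ℝ v (R v) ≤ cCoef (Fintype.card P) s (j + 1) * ‖v‖ ^ 2 := by
    intro j hj v hv
    have hj' : j < Fintype.card P := by omega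
    have hU := hort j v hv
    have := exp_bound_of_rayleigh (symOp_Lhat hπ) (Um π Finset.univ (Fintype.card P - j))
      (fun _ h => Lhat_mem_Um hπ h) _ (fun _ h => Lhat_lower hπ hj' h) hs v hU
    refine this.trans (le_of_eq ?_)
    simp only [cCoef]
    push_cast
    rfl
  have h := flag_bound (c := cCoef (Fintype.card P) s) hsym hD
    (fun j v hv => hinv R (fun g => commute_heat π s g) j v hv)
    (fun j => (Real.exp_pos _).le) h0 h1 (Fintype.card P - 1) le_rfl v hv
  have hr : Fintype.card P - 1 + 1 = Fintype.card P := by omega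
  rwa [hr] at h

theorem geom_fifth (n : ℕ) : ∑ j ∈ Finset.range n, (1 / 5 : ℝ) ^ j ≤ 5 / 4 := by
  have h : ∀ n : ℕ, ∑ j ∈ Finset.range n, (1 / 5 : ℝ) ^ j = (5 / 4) * (1 - (1 / 5 : ℝ) ^ n) := by
    intro n
    induction n with
    | zero => simp
    | succ n ih =>
      rw [Finset.sum_range_succ, ih, pow_succ]
      ring
  rw [h]
  have : (0 : ℝ) ≤ (1 / 5 : ℝ) ^ n := by positivity
  linarith

/-- The numerical bound on the terms of the sum. -/
theorem term_bound {n j : ℕ} (hn : 1 ≤ n) (hj : j < n) {d : ℕ} {s : ℝ}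
    (hs : (n : ℝ) ^ 2 * Real.exp (-s / 2) ≤ 1 / 25)
    (hd1 : d ≤ n.choose j * n ^ j) (hd2 : d ≤ n ^ n) :
    cCoef n s j * (d : ℝ) ≤ (1 / 5 : ℝ) ^ j := by
  have hn0 : (0 : ℝ) < n := by exact_mod_cast hn
  have hy : (n : ℝ) * Real.exp (-s / 4) ≤ 1 / 5 := by
    have h2 : ((n : ℝ) * Real.exp (-s / 4)) ^ 2 = (n : ℝ) ^ 2 * Real.exp (-s / 2) := by
      rw [mul_pow, ← Real.exp_nat_mul]
      congr 2
      push_cast
      ring
    have h3 : ((n : ℝ) * Real.exp (-s / 4)) ^ 2 ≤ (1 / 5 : ℝ) ^ 2 := by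
      rw [h2]; norm_num; linarith
    exact (pow_le_pow_iff_left₀ (by positivity) (by norm_num) (by norm_num)).mp h3
  by_cases hcase : (j : ℝ) ≤ (n : ℝ) / 2
  · -- low levels
    have hc : cCoef n s j = Real.exp (-s / 2) ^ j := by
      unfold cCoef
      rw [min_eq_left hcase, ← Real.exp_nat_mul]
      congr 1
      ring
    rw [hc]
    have hch : n.choose j ≤ n ^ j := Nat.choose_le_pow n j
    have hd : (d : ℝ) ≤ ((n : ℝ) ^ 2) ^ j := by
      have : d ≤ (n ^ 2) ^ j := by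
        calc d ≤ n.choose j * n ^ j := hd1
          _ ≤ n ^ j * n ^ j := Nat.mul_le_mul_right _ hch
          _ = (n ^ 2) ^ j := by rw [← pow_mul, ← pow_add]; congr 1; ring
      exact_mod_cast this
    calc Real.exp (-s / 2) ^ j * (d : ℝ) ≤ Real.exp (-s / 2) ^ j * ((n : ℝ) ^ 2) ^ j := by
          gcongr
      _ = ((n : ℝ) ^ 2 * Real.exp (-s / 2)) ^ j := by rw [mul_pow]; ring
      _ ≤ (1 / 25 : ℝ) ^ j := by
          apply pow_le_pow_left₀ (by positivity) hs
      _ ≤ (1 / 5 : ℝ) ^ j := by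
          apply pow_le_pow_left₀ (by norm_num) (by norm_num)
  · -- high levels
    push Not at hcase
    have hc : cCoef n s j = Real.exp (-s / 4) ^ n := by
      unfold cCoef
      rw [min_eq_right hcase.le, ← Real.exp_nat_mul]
      congr 1
      field_simp
      ring
    rw [hc]
    have hd : (d : ℝ) ≤ (n : ℝ) ^ n := by exact_mod_cast hd2
    calc Real.exp (-s / 4) ^ n * (d : ℝ) ≤ Real.exp (-s / 4) ^ n * (n : ℝ) ^ n := by
          gcongr
      _ = ((n : ℝ) * Real.exp (-s / 4)) ^ n := by rw [mul_pow]; ring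
      _ ≤ (1 / 5 : ℝ) ^ n := by
          apply pow_le_pow_left₀ (by positivity) hy
      _ ≤ (1 / 5 : ℝ) ^ j := by
          apply pow_le_pow_of_le_one (by norm_num) (by norm_num) hj.le

/-- The `L²` bound for the heat kernel in an abstract homogeneous situation. -/
theorem chi_abstract (hπ : IsOrth π) {D : ℕ → Submodule ℝ E} (hD : Monotone D)
    (hinv : ∀ A : E →L[ℝ] E, (∀ g, Commute A (π g)) → ∀ j, ∀ v ∈ D j, A v ∈ D j)
    (hn : 1 ≤ Fintype.card P) (htop : D (Fintype.card P - 1) = ⊤)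
    (hort : ∀ j, ∀ v ∈ (D j)ᗮ, v ∈ Um π Finset.univ (Fintype.card P - j))
    (hd1 : ∀ j, j ≤ Fintype.card P →
      Module.finrank ℝ (D j) ≤ (Fintype.card P).choose j * (Fintype.card P) ^ j)
    (hd2 : ∀ j, Module.finrank ℝ (D j) ≤ (Fintype.card P) ^ (Fintype.card P))
    {ι : Type*} [Fintype ι] (b : OrthonormalBasis ι ℝ E) (e : E)
    (hb : ∀ i, ∃ g, b i = π g e)
    {s : ℝ} (hs0 : 0 ≤ s) (hs : (Fintype.card P : ℝ) ^ 2 * Real.exp (-s / 2) ≤ 1 / 25) :
    (Fintype.card ι : ℝ) * inner ℝ e (exp ((-s) • Lhat π) e) ≤ 5 / 4 := by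
  set R := exp ((-s) • Lhat π) with hR
  have hdiag : ∀ i, inner ℝ (b i) (R (b i)) = inner ℝ e (R e) := by
    intro i
    obtain ⟨g, hg⟩ := hb i
    have h2 := congrArg (fun B : E →L[ℝ] E => B e) (commute_heat π s g).eq
    change R (π g e) = π g (R e) at h2
    rw [hg, h2]
    exact hπ g _ _
  have h1 : (Fintype.card ι : ℝ) * inner ℝ e (R e) = ∑ i, inner ℝ (b i) (R (b i)) := by
    simp only [hdiag]
    simp
  rw [h1]
  calc ∑ i, inner ℝ (b i) (R (b i))
      ≤ ∑ i, ∑ j ∈ Finset.range (Fintype.card P),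
          cCoef (Fintype.card P) s j * ‖(D j).starProjection (b i)‖ ^ 2 :=
        Finset.sum_le_sum (fun i _ => heat_flag hπ hD hinv hn htop hort hs0 (b i))
    _ = ∑ j ∈ Finset.range (Fintype.card P),
          cCoef (Fintype.card P) s j * (Module.finrank ℝ (D j) : ℝ) := by
        rw [Finset.sum_comm]
        refine Finset.sum_congr rfl (fun j _ => ?_)
        rw [← Finset.mul_sum, ← sum_norm_proj_sq b (D j)]
    _ ≤ ∑ j ∈ Finset.range (Fintype.card P), (1 / 5 : ℝ) ^ j := by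
        refine Finset.sum_le_sum (fun j hj => ?_)
        have hj' := Finset.mem_range.mp hj
        exact term_bound hn hj' hs (hd1 j hj'.le) (hd2 j)
    _ ≤ 5 / 4 := geom_fifth _


/-- The `L²` bound for the heat kernel on the regular representation. -/
theorem chi_bound (hn : 1 ≤ Fintype.card P) {s : ℝ} (hs0 : 0 ≤ s)
    (hs : (Fintype.card P : ℝ) ^ 2 * Real.exp (-s / 2) ≤ 1 / 25) :
    (Fintype.card (Perm P) : ℝ) *
      inner ℝ (delta (1 : Perm P)) (exp ((-s) • Lhat rho) (delta 1)) ≤ 5 / 4 := by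
  have hb : ∀ (i : Perm P), ∃ g, (EuclideanSpace.basisFun (Perm P) ℝ) i = (rho g) (delta 1) := by
    intro g
    refine ⟨g⁻¹, ?_⟩
    rw [EuclideanSpace.basisFun_apply, rho_delta]
    simp [delta]
  have h0 := chi_abstract (P := P) (E := RegE P) (π := rho) isOrth_rho (D := Dlev P) Dlev_mono
    (fun A hA j v hv => Dlev_invariant hA j v hv) hn (Dlev_top hn)
    (fun j v hv => mem_Um_of_orth hv) finrank_Dlev_le finrank_Dlev_le_card
    (ι := Perm P)
  have h1 := @h0 (EuclideanSpace.basisFun (Perm P) ℝ) (delta 1) hb s hs0 hs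
  exact h1

end Vale.Agent.Lib.P162
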