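import Vale.Agent.Lib.P162.Lyap

/-! The exponential bound for the difference operator on the invariant sector, and the resulting
comparison inequalities: the two-sided merge with a quadratic loss, and the one-sided cover. -/

namespace Vale.Agent.Lib.P162

open Equiv NormedSpace

set_option linter.unusedSectionVars false

variable {Y : Type*} [DecidableEq Y] [Fintype Y]
variable {E : Type*} [NormedAddCommGroup E] [InnerProductSpace ℝ E] [CompleteSpace E]
variable {π : Perm (Bool × Y) →* (E →L[ℝ] E)}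

theorem symOp_Dlt (hπ : IsOrth π) : SymOp (Dlt π) :=
  (symOp_Lhat (isOrth_side hπ true)).sub (symOp_Lhat (isOrth_side hπ false))

/-- The exponential bound for the difference operator. -/
theorem Z_lemma (hπ : IsOrth π) (hN : 1 ≤ Fintype.card Y) {u : E} (hu : u ∈ sector π ∅) {b γ : ℝ}
    (hb : b ^ 2 ≤ 1 / 64) (hγ : 240 * b ^ 2 ≤ γ) :
    inner ℝ u (exp (b • Dlt π - γ • Lhat π) u) ≤ ‖u‖ ^ 2 := by
  set H : E →L[ℝ] E := b • Dlt π - γ • Lhat π with hH
  have hHs : SymOp H := ((symOp_Dlt hπ).smul b).sub ((symOp_Lhat hπ).smul γ)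
  let w : ℝ → E := fun τ => exp (τ • H) u
  have hw : ∀ τ, HasDerivAt w (H (w τ)) τ := by
    intro τ
    have h := hasDerivAt_exp_smul_const' (𝕂 := ℝ) H τ
    have h2 := h.clm_apply (hasDerivAt_const τ u)
    simpa [w] using h2
  let P : Finset Y → (E →L[ℝ] E) := fun S => secProj π S
  -- the one-term derivative
  have hterm : ∀ (S : Finset Y) (τ : ℝ),
      HasDerivAt (fun τ => Real.exp ((1 - 2 * τ) * (S.card : ℝ)) * ‖P S (w τ)‖ ^ 2)
        (Real.exp ((1 - 2 * τ) * (S.card : ℝ)) * (-(2 * (S.card : ℝ))) * ‖P S (w τ)‖ ^ 2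
          + Real.exp ((1 - 2 * τ) * (S.card : ℝ)) * (2 * inner ℝ (P S (w τ)) (P S (H (w τ))))) τ := by
    intro S τ
    have h1 : HasDerivAt (fun τ : ℝ => (1 - 2 * τ) * (S.card : ℝ)) (-(2 * (S.card : ℝ))) τ := by
      have h0 : HasDerivAt (fun τ : ℝ => (1 - 2 * τ)) (-2) τ := by
        have := ((hasDerivAt_id τ).const_mul 2).const_sub 1
        simpa using this
      have := h0.mul_const (S.card : ℝ)
      simpa using this
    have h2 := h1.exp
    have h3 : HasDerivAt (fun τ => P S (w τ)) (P S (H (w τ))) τ :=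
      (P S).hasFDerivAt.comp_hasDerivAt τ (hw τ)
    have h4 := h3.norm_sq
    exact h2.mul h4
  let g : ℝ → ℝ := fun τ => ∑ S : Finset Y, Real.exp ((1 - 2 * τ) * (S.card : ℝ)) * ‖P S (w τ)‖ ^ 2
  let g' : ℝ → ℝ := fun τ => ∑ S : Finset Y,
    (Real.exp ((1 - 2 * τ) * (S.card : ℝ)) * (-(2 * (S.card : ℝ))) * ‖P S (w τ)‖ ^ 2
          + Real.exp ((1 - 2 * τ) * (S.card : ℝ)) * (2 * inner ℝ (P S (w τ)) (P S (H (w τ)))))
  have hg : ∀ τ, HasDerivAt g (g' τ) τ := by
    intro τ
    exact HasDerivAt.fun_sum (fun S _ => hterm S τ)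
  -- the sign of the derivative
  have hneg : ∀ τ ∈ Set.Icc (0 : ℝ) (1 / 2), g' τ ≤ 0 := by
    intro τ hτ
    set f : Finset Y → E := fun S => P S (w τ) with hf
    have hfs : ∀ S, f S ∈ sector π S := fun S => secProj_mem S _
    have hsum : ∑ T, f T = w τ := sum_secProj _
    have hinner : ∀ S, inner ℝ (f S) (P S (H (w τ))) = inner ℝ (f S) (H (∑ T, f T)) := by
      intro S
      rw [hsum]
      have h1 : inner ℝ (f S) (∑ T, P T (H (w τ))) = inner ℝ (f S) (P S (H (w τ))) := by
        rw [inner_sum, Finset.sum_eq_single S]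
        · intro T _ hT
          exact sector_orthogonal hπ (Ne.symm hT) (hfs S) (secProj_mem T _)
        · simp
      rw [← h1]
      congr 1
      exact sum_secProj _
    have hform := form_bound hπ hN hfs (ρ := 1 - 2 * τ) hb hγ (by linarith [hτ.2]) (by linarith [hτ.1])
    have hgeq : g' τ = 2 * ∑ S : Finset Y, Real.exp ((1 - 2 * τ) * (S.card : ℝ)) *
          inner ℝ (f S) (H (∑ T, f T))
        - 2 * ∑ S : Finset Y, (S.card : ℝ) * Real.exp ((1 - 2 * τ) * (S.card : ℝ)) * ‖f S‖ ^ 2 := by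
      simp only [g', Finset.mul_sum, ← Finset.sum_sub_distrib]
      refine Finset.sum_congr rfl (fun S _ => ?_)
      rw [hinner S]
      ring
    rw [hgeq]
    linarith
  -- integration
  have hanti : AntitoneOn g (Set.Icc (0 : ℝ) (1 / 2)) := by
    apply antitoneOn_of_deriv_nonpos (convex_Icc _ _)
    · exact fun τ _ => (hg τ).continuousAt.continuousWithinAt
    · exact fun τ _ => (hg τ).differentiableAt.differentiableWithinAt
    · intro τ hτ
      rw [(hg τ).deriv]
      exact hneg τ (interior_subset hτ)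
  have hle := hanti (Set.left_mem_Icc.mpr (by norm_num)) (Set.right_mem_Icc.mpr (by norm_num))
    (by norm_num : (0 : ℝ) ≤ 1 / 2)
  -- the two ends
  have h0 : g 0 = ‖u‖ ^ 2 := by
    have hw0 : w 0 = u := by simp [w]
    simp only [g]
    rw [hw0, Finset.sum_eq_single ∅]
    · simp only [P]
      rw [secProj_empty_of_mem hπ hu]
      simp
    · intro S _ hS
      simp only [P]
      rw [secProj_of_mem_empty hπ hu hS]
      simp
    · simp
  have h1 : g (1 / 2) = ‖w (1 / 2)‖ ^ 2 := by
    have hs : ∑ T, P T (w (1 / 2)) = w (1 / 2) := sum_secProj _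
    have hp := norm_sq_family hπ (f := fun T => P T (w (1 / 2))) (fun T => secProj_mem T _)
    rw [hs] at hp
    rw [hp]
    simp only [g]
    refine Finset.sum_congr rfl (fun S _ => ?_)
    have : (1 - 2 * (1 / 2 : ℝ)) * (S.card : ℝ) = 0 := by ring
    rw [this]
    simp
  rw [inner_exp_eq_norm_sq hHs]
  change ‖w (1 / 2)‖ ^ 2 ≤ _
  rw [← h1, ← h0]
  exact hle

/-- The key estimate for all small times, with a quadratic loss. -/
theorem key_general (hπ : IsOrth π) (hN : 1 ≤ Fintype.card Y) {u : E}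
    (hu : u ∈ sector π ∅) {t : ℝ} (ht0 : 0 ≤ t) (ht : t ≤ 1 / 20) :
    inner ℝ u (exp (t • Xop π) u)
      ≤ ‖u‖ ^ 2 + (4 * t ^ 2 / (Fintype.card Y : ℝ)) * inner ℝ u (Lhat π u) := by
  set N : ℝ := (Fintype.card Y : ℝ) with hNdef
  have hNpos : 0 < N := by
    have : (1 : ℝ) ≤ N := by rw [hNdef]; exact_mod_cast hN
    linarith
  have hr : (10 : ℝ) * t < 1 := by linarith
  have h1 := inner_exp_le_of_moments (symOp_Xop hπ) u (C := 10) (t := t) (by norm_num) ht0 hr
    (inner_Xop_self hπ hu) (fun j => (moment_bound hπ hN hu j).2)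
  have h2 := norm_X_sq_le hπ hN hu
  have hI : 0 ≤ inner ℝ u (Lhat π u) := psdOp_Lhat hπ u
  have hpos : 0 < 1 - 10 * t := by linarith
  have h3 : t ^ 2 / (2 * (1 - 10 * t)) ≤ t ^ 2 := by
    rw [div_le_iff₀ (by positivity)]
    nlinarith [sq_nonneg t]
  have h4 : t ^ 2 / (2 * (1 - 10 * t)) * ‖Xop π u‖ ^ 2
      ≤ t ^ 2 * ((4 / N) * inner ℝ u (Lhat π u)) := by
    have h5 : 0 ≤ t ^ 2 / (2 * (1 - 10 * t)) := by positivity
    exact mul_le_mul h3 h2 (by positivity) (by positivity)
  have h6 : t ^ 2 * ((4 / N) * inner ℝ u (Lhat π u))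
      = (4 * t ^ 2 / N) * inner ℝ u (Lhat π u) := by
    field_simp
  linarith

theorem commute_Lhat_side (s : Bool) : Commute (Lhat π) (Lhat (π.comp (side s))) :=
  commute_Lhat_of_commute_pi (fun _ => (commute_pi_Lhat π _).symm)

theorem Lhat_exp_mem_sector {S : Finset Y} {z : E} (hz : z ∈ sector π S) (c : ℝ) :
    exp (c • Lhat π) z ∈ sector π S := by
  intro y
  have hc : Commute (π (sigma y)) (exp (c • Lhat π)) :=
    Commute.exp_right ((commute_pi_Lhat π _).smul_right _)
  have h3 := congrArg (fun B : E →L[ℝ] E => B z) hc.eq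
  change π (sigma y) (exp (c • Lhat π) z) = exp (c • Lhat π) (π (sigma y) z) at h3
  rw [h3, hz y]
  by_cases h : y ∈ S <;> simp [h]

/-- The two-sided estimate as a bound on the invariant sector. -/
theorem X_lemma (hπ : IsOrth π) (hN : 1 ≤ Fintype.card Y) {u : E}
    (hu : u ∈ sector π ∅) {t a : ℝ} (ht0 : 0 ≤ t) (ht : t ≤ 1 / 20)
    (ha : a = 4 * t ^ 2 / (Fintype.card Y : ℝ)) :
    inner ℝ u (exp (t • Xop π - a • Lhat π) u) ≤ ‖u‖ ^ 2 := by
  have hNpos : (0 : ℝ) < (Fintype.card Y : ℝ) := by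
    have : (1 : ℝ) ≤ (Fintype.card Y : ℝ) := by exact_mod_cast hN
    linarith
  have ha0 : 0 ≤ a := by rw [ha]; positivity
  set L := Lhat π with hL
  set X := Xop π with hX
  have hLs : SymOp L := symOp_Lhat hπ
  have hLp : PsdOp L := psdOp_Lhat hπ
  have hLX : Commute L X := by
    rw [hX]
    unfold Xop
    exact ((Commute.refl L).sub_right (commute_Lhat_side false)).sub_right (commute_Lhat_side true)
  set A := exp ((-(a / 2)) • L) with hA
  have hAs : SymOp A := symOp_exp (hLs.smul _)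
  have hcA : Commute A (exp (t • X)) := Commute.exp ((hLX.smul_left _).smul_right _)
  have hE : exp (t • X - a • L) = A * exp (t • X) * A := by
    have h1 : t • X - a • L = (-a) • L + t • X := by module
    have hAA : exp ((-a) • L) = A * A := by
      rw [hA, exp_smul_mul]
      congr 2
      ring
    rw [h1, exp_add_comm ((hLX.smul_left _).smul_right _), hAA]
    calc A * A * exp (t • X) = A * (A * exp (t • X)) := mul_assoc _ _ _
      _ = A * (exp (t • X) * A) := by rw [hcA.eq]
      _ = A * exp (t • X) * A := (mul_assoc _ _ _).symm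
  set w := A u with hw
  have hwsec : w ∈ sector π ∅ := by
    rw [hw, hA]
    exact Lhat_exp_mem_sector hu _
  have hkey := key_general hπ hN hwsec ht0 ht
  rw [← ha] at hkey
  have h6 : ‖w‖ ^ 2 + a * inner ℝ w (L w) ≤ inner ℝ w (exp (a • L) w) := by
    have := one_add_le_exp (hLs.smul a) (hLp.smul ha0) w
    simpa [inner_smul_right] using this
  have h7 : inner ℝ w (exp (a • L) w) = ‖u‖ ^ 2 := by
    have hE2 : A * exp (a • L) * A = 1 := by
      rw [hA, exp_smul_mul, exp_smul_mul]
      have : (-(a / 2) + a + -(a / 2)) • L = 0 := by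
        rw [show (-(a / 2) + a + -(a / 2)) = 0 by ring, zero_smul]
      rw [this, exp_zero]
    have h8 : A (exp (a • L) (A u)) = u := by
      have := congrArg (fun B : E →L[ℝ] E => B u) hE2
      simpa using this
    rw [hw, hAs u, h8, real_inner_self_eq_norm_sq]
  have h5 : inner ℝ u (exp (t • X - a • L) u) = inner ℝ w (exp (t • X) w) := by
    rw [hE]
    change inner ℝ u (A (exp (t • X) (A u))) = _
    rw [← hAs u]
  rw [h5]
  linarith

/-- The two-sided merge on the invariant sector. -/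
theorem two_sided_sector (hπ : IsOrth π) (hN : 1 ≤ Fintype.card Y) {v : E}
    (hv : v ∈ sector π ∅) {t : ℝ} (ht0 : 0 ≤ t) (ht : t ≤ 1 / 20) :
    inner ℝ v (exp ((-t) • (Lhat (π.comp (side false)) + Lhat (π.comp (side true)))) v)
      ≤ inner ℝ v (exp ((-(t - 4 * t ^ 2 / (Fintype.card Y : ℝ))) • Lhat π) v) := by
  set a : ℝ := 4 * t ^ 2 / (Fintype.card Y : ℝ) with ha
  set L := Lhat π with hL
  set X := Xop π with hX
  set L0 := Lhat (π.comp (side false)) with hL0
  set L1 := Lhat (π.comp (side true)) with hL1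
  have hLs : SymOp L := symOp_Lhat hπ
  have hLX : Commute L X := by
    rw [hX]
    unfold Xop
    exact ((Commute.refl L).sub_right (commute_Lhat_side false)).sub_right (commute_Lhat_side true)
  set A := exp ((-((t - a) / 2)) • L) with hA
  have hAs : SymOp A := symOp_exp (hLs.smul _)
  set M := t • X - a • L with hM
  have hLM : Commute L M := (hLX.smul_right _).sub_right ((Commute.refl L).smul_right _)
  have hcA : Commute A (exp M) := Commute.exp (hLM.smul_left _)
  have hE : exp ((-t) • (L0 + L1)) = A * exp M * A := by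
    have h1 : (-t) • (L0 + L1) = (-(t - a)) • L + M := by
      rw [hM, hX]
      unfold Xop
      rw [← hL0, ← hL1, ← hL]
      module
    have hAA : exp ((-(t - a)) • L) = A * A := by
      rw [hA, exp_smul_mul]
      congr 2
      ring
    rw [h1, exp_add_comm (hLM.smul_left _), hAA]
    calc A * A * exp M = A * (A * exp M) := mul_assoc _ _ _
      _ = A * (exp M * A) := by rw [hcA.eq]
      _ = A * exp M * A := (mul_assoc _ _ _).symm
  set w := A v with hw
  have hwsec : w ∈ sector π ∅ := by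
    rw [hw, hA]
    exact Lhat_exp_mem_sector hv _
  have hX2 := X_lemma hπ hN hwsec ht0 ht ha
  have h5 : inner ℝ v (exp ((-t) • (L0 + L1)) v) = inner ℝ w (exp M w) := by
    rw [hE]
    change inner ℝ v (A (exp M (A v))) = _
    rw [← hAs v]
  rw [h5]
  refine hX2.trans (le_of_eq ?_)
  rw [inner_exp_neg_eq hLs]

/-- The one-sided cover on the invariant sector. -/
theorem one_sided_sector (hπ : IsOrth π) (hN : 1 ≤ Fintype.card Y) {v : E}
    (hv : v ∈ sector π ∅) {t : ℝ} (ht0 : 0 ≤ t) (ht : t ≤ 1 / 20) :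
    inner ℝ v (exp ((-t) • Lhat (π.comp (side false))) v)
      ≤ inner ℝ v (exp ((-(t / 2 - 2 * t ^ 2 / (Fintype.card Y : ℝ) - 120 * t ^ 2)) • Lhat π) v) := by
  set a : ℝ := 4 * t ^ 2 / (Fintype.card Y : ℝ) with ha
  set γ : ℝ := 240 * t ^ 2 with hγ
  set t' : ℝ := t / 2 - 2 * t ^ 2 / (Fintype.card Y : ℝ) - 120 * t ^ 2 with ht'
  have ht'eq : t' = t / 2 - a / 2 - γ / 2 := by
    rw [ht', ha, hγ]
    ring
  set L := Lhat π with hL
  set X := Xop π with hX
  set D := Dlt π with hD
  set L0 := Lhat (π.comp (side false)) with hL0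
  set L1 := Lhat (π.comp (side true)) with hL1
  have hLs : SymOp L := symOp_Lhat hπ
  have hL0s : SymOp L0 := symOp_Lhat (isOrth_side hπ false)
  have hL1s : SymOp L1 := symOp_Lhat (isOrth_side hπ true)
  have hXs : SymOp X := symOp_Xop hπ
  have hDs : SymOp D := symOp_Dlt hπ
  have hLL0 : Commute L L0 := commute_Lhat_side false
  have hLL1 : Commute L L1 := commute_Lhat_side true
  have hL0L1 : Commute L0 L1 := commute_L0_L1
  have hXeq : X = L - L0 - L1 := rfl
  have hDeq : D = L1 - L0 := rfl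
  -- the two exponents
  set P : E →L[ℝ] E := (t / 2) • X - (a / 2) • L with hP
  set Q : E →L[ℝ] E := (t / 2) • D - (γ / 2) • L with hQ
  have hPs : SymOp P := (hXs.smul _).sub (hLs.smul _)
  have hQs : SymOp Q := (hDs.smul _).sub (hLs.smul _)
  have hPQ : Commute P Q := by
    have h1 : Commute X D := by
      rw [hXeq, hDeq]
      have c1 : Commute (L - L0 - L1) L1 :=
        (hLL1.sub_left hL0L1).sub_left (Commute.refl L1)
      have c2 : Commute (L - L0 - L1) L0 :=
        (hLL0.sub_left (Commute.refl L0)).sub_left hL0L1.symm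
      exact c1.sub_right c2
    have h2 : Commute X L := by
      rw [hXeq]
      exact (((Commute.refl L).sub_left hLL0.symm).sub_left hLL1.symm)
    have h3 : Commute D L := by
      rw [hDeq]
      exact hLL1.symm.sub_left hLL0.symm
    have h4 : Commute P D := ((h1.smul_left _).sub_left (h3.symm.smul_left _))
    have h5 : Commute P L := ((h2.smul_left _).sub_left ((Commute.refl L).smul_left _))
    exact (h4.smul_right _).sub_right (h5.smul_right _)
  set A := exp P with hA
  set B := exp Q with hB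
  have hAs : SymOp A := symOp_exp hPs
  have hBs : SymOp B := symOp_exp hQs
  -- the bound on the invariant sector
  have hM : ∀ u ∈ sector π ∅, inner ℝ u (exp (P + Q) u) ≤ ‖u‖ ^ 2 := by
    intro u hu
    have h1 : exp (P + Q) = A * B := exp_add_comm hPQ
    have h2 : inner ℝ u (exp (P + Q) u) = inner ℝ (A u) (B u) := by
      rw [h1]
      change inner ℝ u (A (B u)) = _
      rw [← hAs u]
    have h3 : ‖A u‖ ^ 2 ≤ ‖u‖ ^ 2 := by
      have h4 := X_lemma hπ hN hu ht0 ht ha
      rw [inner_exp_eq_norm_sq (hXs.smul t |>.sub (hLs.smul a))] at h4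
      have h5 : (1 / 2 : ℝ) • (t • X - a • L) = P := by
        rw [hP]
        module
      rwa [h5] at h4
    have h4 : ‖B u‖ ^ 2 ≤ ‖u‖ ^ 2 := by
      have hb : t ^ 2 ≤ 1 / 64 := by nlinarith
      have h5 := Z_lemma hπ hN hu (b := t) (γ := γ) hb le_rfl
      rw [inner_exp_eq_norm_sq ((hDs.smul t).sub (hLs.smul γ))] at h5
      have h6 : (1 / 2 : ℝ) • (t • Dlt π - γ • Lhat π) = Q := by
        rw [hQ, hD, hL]
        module
      rwa [h6] at h5
    have h5 : ‖A u‖ ≤ ‖u‖ := by
      exact (pow_le_pow_iff_left₀ (norm_nonneg _) (norm_nonneg _) (by norm_num)).mp h3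
    have h6 : ‖B u‖ ≤ ‖u‖ := by
      exact (pow_le_pow_iff_left₀ (norm_nonneg _) (norm_nonneg _) (by norm_num)).mp h4
    rw [h2]
    calc inner ℝ (A u) (B u) ≤ ‖A u‖ * ‖B u‖ := real_inner_le_norm _ _
      _ ≤ ‖u‖ * ‖u‖ := by gcongr
      _ = ‖u‖ ^ 2 := by ring
  -- the substitution
  have hPQeq : P + Q = t' • L - t • L0 := by
    rw [hP, hQ, hXeq, hDeq, ht'eq]
    module
  set C := exp ((-(t' / 2)) • L) with hC
  have hCs : SymOp C := symOp_exp (hLs.smul _)
  have hLM : Commute L (P + Q) := by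
    rw [hPQeq]
    exact ((Commute.refl L).smul_right _).sub_right (hLL0.smul_right _)
  have hcC : Commute C (exp (P + Q)) := Commute.exp (hLM.smul_left _)
  have hE : exp ((-t) • L0) = C * exp (P + Q) * C := by
    have h1 : (-t) • L0 = (-t') • L + (P + Q) := by
      rw [hPQeq]
      module
    have hCC : exp ((-t') • L) = C * C := by
      rw [hC, exp_smul_mul]
      congr 2
      ring
    rw [h1, exp_add_comm (hLM.smul_left _), hCC]
    calc C * C * exp (P + Q) = C * (C * exp (P + Q)) := mul_assoc _ _ _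
      _ = C * (exp (P + Q) * C) := by rw [hcC.eq]
      _ = C * exp (P + Q) * C := (mul_assoc _ _ _).symm
  set w := C v with hw
  have hwsec : w ∈ sector π ∅ := by
    rw [hw, hC]
    exact Lhat_exp_mem_sector hv _
  have h5 : inner ℝ v (exp ((-t) • L0) v) = inner ℝ w (exp (P + Q) w) := by
    rw [hE]
    change inner ℝ v (C (exp (P + Q) (C v))) = _
    rw [← hCs v]
  rw [h5, inner_exp_neg_eq hLs]
  exact hM w hwsec

end Vale.Agent.Lib.P162
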