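import Mathlib

/-! Statement-level definitions for the Thorp shuffle on `2 * m` cards. Positions are numbered
from `0`. -/

namespace Vale.Agent.Lib.P162

/-- The map on positions of one Thorp shuffle of `2 * m` cards with coins `c`. For `i < m`, the
cards at positions `i` and `m + i` go to positions `2 * i` and `2 * i + 1`: the card from position
`i` goes to `2 * i + 1` and the card from position `m + i` goes to `2 * i` if `c i` is true, and
the other way round if `c i` is false. -/
def thorpMap (m : ℕ) (c : Fin m → Bool) (x : Fin (2 * m)) : Fin (2 * m) :=
  if h : x.val < m then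
    ⟨2 * x.val + (if c ⟨x.val, h⟩ then 1 else 0), by
      have := x.isLt
      split_ifs <;> omega⟩
  else
    ⟨2 * (x.val - m) + (if c ⟨x.val - m, by have := x.isLt; omega⟩ then 0 else 1), by
      have := x.isLt
      split_ifs <;> omega⟩

/-- The law of the Thorp shuffle: the probability that `m` independent fair coins produce the
permutation `g` of positions. -/
noncomputable def thorpLaw (m : ℕ) (g : Equiv.Perm (Fin (2 * m))) : ℝ :=
  ((Finset.univ.filter (fun c : Fin m → Bool => ∀ x, g x = thorpMap m c x)).card : ℝ) / 2 ^ m

/-- Convolution of two functions on a finite group. -/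
def conv {G : Type*} [Group G] [Fintype G] (μ ν : G → ℝ) (g : G) : ℝ :=
  ∑ h, μ h * ν (h⁻¹ * g)

/-- Convolution powers; the zeroth power is the point mass at the identity. -/
def convPow {G : Type*} [Group G] [Fintype G] [DecidableEq G] (q : G → ℝ) : ℕ → G → ℝ
  | 0 => fun g => if g = 1 then 1 else 0
  | t + 1 => conv (convPow q t) q

/-- Total variation distance from the uniform law on a finite group. -/
noncomputable def tvUniform {G : Type*} [Fintype G] (μ : G → ℝ) : ℝ :=
  (1 / 2) * ∑ g, |μ g - 1 / (Fintype.card G : ℝ)|

end Vale.Agent.Lib.P162
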