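import Vale.Agent.Lib.P162.OpExp

/-! Elementary lower bounds for the energy operator of random transpositions on vectors
orthogonal to all vectors fixed by a large symmetric subgroup. -/

namespace Vale.Agent.Lib.P162

open Equiv

set_option linter.unusedSectionVars false

variable {P : Type*} [DecidableEq P]
variable {E : Type*} [NormedAddCommGroup E] [InnerProductSpace ℝ E]
variable {π : Perm P →* (E →L[ℝ] E)}

/-- Vectors fixed by all transpositions inside `T`. -/
def fixS (π : Perm P →* (E →L[ℝ] E)) (T : Finset P) : Submodule ℝ E where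
  carrier := {v | ∀ a ∈ T, ∀ b ∈ T, π (swap a b) v = v}
  add_mem' := by
    intro x y hx hy a ha b hb
    rw [map_add, hx a ha b hb, hy a ha b hb]
  zero_mem' := by
    intro a _ b _
    simp
  smul_mem' := by
    intro c x hx a ha b hb
    rw [map_smul, hx a ha b hb]

theorem mem_fixS {T : Finset P} {v : E} :
    v ∈ fixS π T ↔ ∀ a ∈ T, ∀ b ∈ T, π (swap a b) v = v := Iff.rfl

theorem fixS_anti {T T' : Finset P} (h : T ⊆ T') : fixS π T' ≤ fixS π T :=
  fun _ hv a ha b hb => hv a (h ha) b (h hb)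

theorem fixS_empty : fixS π ∅ = ⊤ := by
  ext v
  simp [mem_fixS]

/-- The star sum of a vector fixed by `T` is fixed by `T ∪ {x}`. -/
theorem star_mem_fix {T : Finset P} {x : P} (hx : x ∉ T) {h : E} (hh : h ∈ fixS π T) :
    h + ∑ y ∈ T, π (swap x y) h ∈ fixS π (insert x T) := by
  -- first the case of a transposition involving `x`
  have hA : ∀ b ∈ T, π (swap x b) (h + ∑ y ∈ T, π (swap x y) h) = h + ∑ y ∈ T, π (swap x y) h := by
    intro b hb
    rw [map_add, map_sum]
    have h1 : ∑ y ∈ T, π (swap x b) (π (swap x y) h)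
        = h + ∑ y ∈ T.erase b, π (swap x y) h := by
      rw [← Finset.add_sum_erase T _ hb, swap_swap_apply]
      congr 1
      refine Finset.sum_congr rfl (fun y hy => ?_)
      have hyb : y ≠ b := Finset.ne_of_mem_erase hy
      have hyT : y ∈ T := Finset.mem_of_mem_erase hy
      have hxb : x ≠ b := fun e => hx (e ▸ hb)
      have hxy : x ≠ y := fun e => hx (e ▸ hyT)
      have h2 := pi_mul_swap_apply π (swap x y) b y h
      rw [hh b hb y hyT, Equiv.swap_apply_right,
        Equiv.swap_apply_of_ne_of_ne hxb.symm hyb.symm, Equiv.swap_comm b x] at h2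
      exact h2.symm
    rw [h1, ← Finset.add_sum_erase T (fun y => π (swap x y) h) hb]
    abel
  intro a ha b hb
  rcases Finset.mem_insert.mp ha with rfl | haT
  · rcases Finset.mem_insert.mp hb with rfl | hbT
    · rw [Equiv.swap_self]
      change π 1 _ = _
      rw [map_one]
      rfl
    · exact hA b hbT
  · rcases Finset.mem_insert.mp hb with rfl | hbT
    · rw [Equiv.swap_comm]
      exact hA a haT
    · -- a transposition inside `T`
      rw [map_add, map_sum, hh a haT b hbT]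
      congr 1
      have hxa : x ≠ a := fun e => hx (e ▸ haT)
      have hxb : x ≠ b := fun e => hx (e ▸ hbT)
      have h3 : ∀ y, π (swap a b) (π (swap x y) h) = π (swap x (swap a b y)) h := by
        intro y
        rw [pi_mul_swap_apply, hh a haT b hbT, Equiv.swap_apply_of_ne_of_ne hxa hxb]
      simp only [h3]
      refine Finset.sum_equiv (swap a b) (fun y => ?_) (fun y _ => rfl)
      by_cases hya : y = a
      · subst hya
        simp [haT, hbT]
      · by_cases hyb : y = b
        · subst hyb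
          simp [haT, hbT]
        · rw [Equiv.swap_apply_of_ne_of_ne hya hyb]

/-- If moreover `h` is orthogonal to the vectors fixed by `T ∪ {x}`, the star sum vanishes. -/
theorem star_zero (hπ : IsOrth π) {T : Finset P} {x : P} (hx : x ∉ T) {h : E}
    (hh : h ∈ fixS π T) (hort : ∀ w ∈ fixS π (insert x T), inner ℝ h w = (0 : ℝ)) :
    h + ∑ y ∈ T, π (swap x y) h = 0 := by
  set h' := h + ∑ y ∈ T, π (swap x y) h with hdef
  have hmem : h' ∈ fixS π (insert x T) := star_mem_fix hx hh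
  have hx' : x ∈ insert x T := Finset.mem_insert_self x T
  have h1 : inner ℝ h' h' = (0 : ℝ) := by
    conv_lhs => rw [hdef]
    rw [inner_add_left, sum_inner, hort h' hmem, zero_add]
    refine Finset.sum_eq_zero (fun y hy => ?_)
    rw [symOp_swap hπ x y h h', hmem x hx' y (Finset.mem_insert_of_mem hy), hort h' hmem]
  exact inner_self_eq_zero.mp h1

/-- The form of the Laplacian, as a double sum of nonnegative numbers. -/
theorem inner_LS (h : E) (S : Finset P) :
    inner ℝ h (LS π S h) = ∑ a ∈ S, ∑ b ∈ S, (1 / 2 : ℝ) * inner ℝ h ((1 - π (swap a b)) h) := by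
  unfold LS
  simp [inner_sum, inner_smul_right]

/-- Energy of a pure vector. -/
theorem pure_energy (hπ : IsOrth π) {T S : Finset P} (hTS : T ⊆ S) {h : E} (hh : h ∈ fixS π T)
    (hort : ∀ x ∈ S \ T, ∀ w ∈ fixS π (insert x T), inner ℝ h w = (0 : ℝ)) :
    (((S.card : ℝ) - T.card) * ((T.card : ℝ) + 1)) * ‖h‖ ^ 2 ≤ inner ℝ h (LS π S h) := by
  set e : P → P → ℝ := fun a b => (1 / 2 : ℝ) * inner ℝ h ((1 - π (swap a b)) h) with he
  have hnn : ∀ a b, 0 ≤ e a b := fun a b =>
    mul_nonneg (by norm_num) (psdOp_one_sub_swap hπ a b h)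
  have hsymm : ∀ a b, e a b = e b a := by
    intro a b
    simp only [he]
    rw [Equiv.swap_comm]
  set C := S \ T with hC
  have hdisj : Disjoint T C := Finset.disjoint_sdiff
  have hS : S = T ∪ C := (Finset.union_sdiff_of_subset hTS).symm
  -- star sums
  have hstar : ∀ x ∈ C, ∑ y ∈ T, (e x y + e y x) = ((T.card : ℝ) + 1) * ‖h‖ ^ 2 := by
    intro x hx
    have hxT : x ∉ T := (Finset.mem_sdiff.mp hx).2
    have hz := star_zero hπ hxT hh (hort x hx)
    have hsum : ∑ y ∈ T, π (swap x y) h = -h := by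
      exact eq_neg_of_add_eq_zero_right hz
    have h2 : ∀ y, e x y + e y x = ‖h‖ ^ 2 - inner ℝ h (π (swap x y) h) := by
      intro y
      rw [← hsymm x y]
      simp only [he]
      have : inner ℝ h ((1 - π (swap x y)) h) = ‖h‖ ^ 2 - inner ℝ h (π (swap x y) h) := by
        change inner ℝ h (h - π (swap x y) h) = _
        rw [inner_sub_right, real_inner_self_eq_norm_sq]
      rw [this]; ring
    simp only [h2]
    rw [Finset.sum_sub_distrib, ← inner_sum, hsum, inner_neg_right, real_inner_self_eq_norm_sq]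
    simp
    ring
  rw [inner_LS]
  change _ ≤ ∑ a ∈ S, ∑ b ∈ S, e a b
  have hsplit : ∑ a ∈ S, ∑ b ∈ S, e a b = ∑ a ∈ T, ∑ b ∈ T, e a b + ∑ a ∈ T, ∑ b ∈ C, e a b
      + (∑ a ∈ C, ∑ b ∈ T, e a b + ∑ a ∈ C, ∑ b ∈ C, e a b) := by
    rw [hS, Finset.sum_union hdisj]
    simp only [Finset.sum_union hdisj, Finset.sum_add_distrib]
  have hcross : ∑ a ∈ T, ∑ b ∈ C, e a b + ∑ a ∈ C, ∑ b ∈ T, e a b
      = ∑ x ∈ C, ∑ y ∈ T, (e x y + e y x) := by
    rw [Finset.sum_comm]
    simp only [Finset.sum_add_distrib]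
    ring
  have hTT : 0 ≤ ∑ a ∈ T, ∑ b ∈ T, e a b :=
    Finset.sum_nonneg (fun a _ => Finset.sum_nonneg (fun b _ => hnn a b))
  have hCC : 0 ≤ ∑ a ∈ C, ∑ b ∈ C, e a b :=
    Finset.sum_nonneg (fun a _ => Finset.sum_nonneg (fun b _ => hnn a b))
  have htot : ∑ x ∈ C, ∑ y ∈ T, (e x y + e y x) = (C.card : ℝ) * (((T.card : ℝ) + 1) * ‖h‖ ^ 2) := by
    rw [Finset.sum_congr rfl hstar]
    simp
  have hcard : (C.card : ℝ) = (S.card : ℝ) - T.card := by
    rw [hC, Finset.card_sdiff_of_subset hTS, Nat.cast_sub (Finset.card_le_card hTS)]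
  rw [hsplit]
  rw [hcard] at htot
  have : ((S.card : ℝ) - T.card) * ((T.card : ℝ) + 1) * ‖h‖ ^ 2
      = ∑ a ∈ T, ∑ b ∈ C, e a b + ∑ a ∈ C, ∑ b ∈ T, e a b := by
    rw [hcross, htot]; ring
  rw [this]
  linarith

/-- Counting identity behind the averaging over subsets missing one point. -/
theorem sum_erase_double {S : Finset P} (e : P → P → ℝ) (h0 : ∀ a, e a a = 0) :
    ∑ x ∈ S, ∑ a ∈ S.erase x, ∑ b ∈ S.erase x, e a b
      = ((S.card : ℝ) - 2) * ∑ a ∈ S, ∑ b ∈ S, e a b := by
  set G := ∑ a ∈ S, ∑ b ∈ S, e a b with hG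
  have hx : ∀ x ∈ S, ∑ a ∈ S.erase x, ∑ b ∈ S.erase x, e a b
      = G - ∑ a ∈ S, e a x - ∑ b ∈ S, e x b := by
    intro x hx
    have h1 : ∀ a, ∑ b ∈ S.erase x, e a b = ∑ b ∈ S, e a b - e a x := by
      intro a
      rw [← Finset.add_sum_erase S _ hx]
      ring
    simp only [h1]
    have h2 : ∑ a ∈ S.erase x, (∑ b ∈ S, e a b - e a x)
        = ∑ a ∈ S, (∑ b ∈ S, e a b - e a x) - (∑ b ∈ S, e x b - e x x) := by
      rw [← Finset.add_sum_erase S (fun a => ∑ b ∈ S, e a b - e a x) hx]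
      ring
    rw [h2, Finset.sum_sub_distrib, h0 x]
    ring
  rw [Finset.sum_congr rfl hx, Finset.sum_sub_distrib, Finset.sum_sub_distrib]
  simp only [Finset.sum_const, nsmul_eq_mul]
  have h2 : ∑ x ∈ S, ∑ a ∈ S, e a x = G := by
    rw [hG, Finset.sum_comm]
  rw [h2]
  ring

/-- The vectors orthogonal to the fixed vectors of all `m`-subsets of `S`. -/
def Um (π : Perm P →* (E →L[ℝ] E)) (S : Finset P) (m : ℕ) : Submodule ℝ E where
  carrier := {v | ∀ T, T ⊆ S → T.card = m → ∀ w ∈ fixS π T, inner ℝ v w = (0 : ℝ)}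
  add_mem' := by
    intro x y hx hy T hT hm w hw
    rw [inner_add_left, hx T hT hm w hw, hy T hT hm w hw, add_zero]
  zero_mem' := by
    intro T _ _ w _
    simp
  smul_mem' := by
    intro c x hx T hT hm w hw
    rw [inner_smul_left, hx T hT hm w hw, mul_zero]

theorem mem_Um {S : Finset P} {m : ℕ} {v : E} :
    v ∈ Um π S m ↔ ∀ T, T ⊆ S → T.card = m → ∀ w ∈ fixS π T, inner ℝ v w = (0 : ℝ) := Iff.rfl

/-- The Laplacian of `S` preserves the fixed vectors of any `T ⊆ S`. -/
theorem LS_mem_fixS {T S : Finset P} (hTS : T ⊆ S) {w : E} (hw : w ∈ fixS π T) :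
    LS π S w ∈ fixS π T := by
  intro a ha b hb
  have hg : ∀ x, swap a b x ∈ S ↔ x ∈ S := by
    intro x
    have ha' := hTS ha
    have hb' := hTS hb
    by_cases hxa : x = a
    · subst hxa; simp [ha', hb']
    · by_cases hxb : x = b
      · subst hxb; simp [ha', hb']
      · rw [Equiv.swap_apply_of_ne_of_ne hxa hxb]
  have hc := commute_pi_LS π (swap a b) S hg
  have := congrArg (fun A : E →L[ℝ] E => A w) hc.eq
  change π (swap a b) (LS π S w) = LS π S (π (swap a b) w) at this
  rw [this, hw a ha b hb]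

/-- Invariance of `Um`. -/
theorem LS_mem_Um (hπ : IsOrth π) {S : Finset P} {m : ℕ} {v : E} (hv : v ∈ Um π S m) :
    LS π S v ∈ Um π S m := by
  intro T hT hm w hw
  rw [symOp_LS hπ S v w]
  exact hv T hT hm _ (LS_mem_fixS hT hw)

/-- The energy lower bound, by induction on the size of `S`. -/
theorem energy_bound [FiniteDimensional ℝ E] [CompleteSpace E] (hπ : IsOrth π) (s : ℕ) :
    ∀ (S : Finset P), S.card = s → ∀ (m : ℕ), ∀ v ∈ Um π S m,
      (((s : ℝ) / 2) * min ((s : ℝ) - m + 1) ((s : ℝ) / 2)) * ‖v‖ ^ 2 ≤ inner ℝ v (LS π S v) := by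
  classical
  induction s using Nat.strong_induction_on with
  | _ s ih =>
  intro S hS m
  refine rayleigh_of_eigen (symOp_LS hπ S) (Um π S m) (fun v hv => LS_mem_Um hπ hv) _ ?_
  intro g hg g0 μ hμ
  -- choose a maximal `T`
  let F : Finset (Finset P) :=
    S.powerset.filter (fun T => ∃ w ∈ fixS π T, inner ℝ g w ≠ (0 : ℝ))
  have hF : F.Nonempty := by
    refine ⟨∅, ?_⟩
    simp only [F, Finset.mem_filter, Finset.mem_powerset, Finset.empty_subset, true_and]
    refine ⟨g, by rw [fixS_empty]; exact Submodule.mem_top, ?_⟩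
    rw [real_inner_self_eq_norm_sq]
    have : 0 < ‖g‖ := norm_pos_iff.mpr g0
    positivity
  obtain ⟨T, hT, hmax⟩ := Finset.exists_max_image F Finset.card hF
  simp only [F, Finset.mem_filter, Finset.mem_powerset] at hT hmax
  obtain ⟨hTS, w0, hw0, hw0ne⟩ := hT
  have hbig : ∀ T', T' ⊆ S → T.card < T'.card → ∀ w ∈ fixS π T', inner ℝ g w = (0 : ℝ) := by
    intro T' hT' hc w hw
    by_contra hne
    have := hmax T' ⟨hT', w, hw, hne⟩
    omega
  set t := T.card with htdef
  have htm : t < m := by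
    by_contra hcon
    have hmt : m ≤ T.card := not_lt.mp hcon
    obtain ⟨T', hT'T, hT'c⟩ := Finset.exists_subset_card_eq hmt
    exact hw0ne (hg T' (hT'T.trans hTS) hT'c w0 (fixS_anti hT'T hw0))
  -- project `g` to the fixed vectors of `T`
  obtain ⟨h, hK, z, hz, hgz⟩ := (fixS π T).exists_add_mem_mem_orthogonal g
  have hzw : ∀ w ∈ fixS π T, inner ℝ z w = (0 : ℝ) := by
    intro w hw
    rw [real_inner_comm]
    exact (Submodule.mem_orthogonal _ _).mp hz w hw
  have hh0 : h ≠ 0 := by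
    rintro rfl
    apply hw0ne
    rw [hgz, zero_add]
    exact hzw w0 hw0
  have hLh : LS π S h = μ • h := by
    have h1 : LS π S h ∈ fixS π T := LS_mem_fixS hTS hK
    have h2 : LS π S z ∈ (fixS π T)ᗮ := by
      rw [Submodule.mem_orthogonal]
      intro w hw
      rw [← symOp_LS hπ S w z, real_inner_comm]
      exact hzw _ (LS_mem_fixS hTS hw)
    have h3 : LS π S h - μ • h = μ • z - LS π S z := by
      have h4 : LS π S h + LS π S z = μ • h + μ • z := by
        rw [← map_add, ← hgz, hμ, hgz, smul_add]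
      rw [sub_eq_sub_iff_add_eq_add]
      rw [h4]; abel
    have h5 : LS π S h - μ • h ∈ fixS π T := Submodule.sub_mem _ h1 (Submodule.smul_mem _ _ hK)
    have h6 : LS π S h - μ • h ∈ (fixS π T)ᗮ := by
      rw [h3]
      exact Submodule.sub_mem _ (Submodule.smul_mem _ _ hz) h2
    have h7 := (Submodule.mem_orthogonal _ _).mp h6 _ h5
    rw [inner_self_eq_zero] at h7
    exact sub_eq_zero.mp h7
  have hpure : (((S.card : ℝ) - T.card) * ((T.card : ℝ) + 1)) * ‖h‖ ^ 2
      ≤ inner ℝ h (LS π S h) := by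
    refine pure_energy hπ hTS hK ?_
    intro x hx w hw
    have hxT : x ∉ T := (Finset.mem_sdiff.mp hx).2
    have hxS : x ∈ S := (Finset.mem_sdiff.mp hx).1
    have hsub : insert x T ⊆ S := Finset.insert_subset hxS hTS
    have hc : T.card < (insert x T).card := by
      rw [Finset.card_insert_of_notMem hxT]; omega
    have h1 := hbig _ hsub hc w hw
    have hwT : w ∈ fixS π T := fixS_anti (Finset.subset_insert x T) hw
    have h2 := hzw w hwT
    rw [hgz, inner_add_left, h2, add_zero] at h1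
    exact h1
  have hhpos : 0 < ‖h‖ ^ 2 := by
    have : 0 < ‖h‖ := norm_pos_iff.mpr hh0
    positivity
  rw [hLh, inner_smul_right, real_inner_self_eq_norm_sq] at hpure
  have hμpure : ((S.card : ℝ) - T.card) * ((T.card : ℝ) + 1) ≤ μ :=
    le_of_mul_le_mul_right hpure hhpos
  have hsR : (S.card : ℝ) = (s : ℝ) := by rw [hS]
  rw [hsR] at hμpure
  have htsle : (t : ℝ) ≤ s := by
    have := Finset.card_le_card hTS
    rw [hS] at this
    exact_mod_cast this
  have hsnn : (0 : ℝ) ≤ s := Nat.cast_nonneg s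
  have htnn : (0 : ℝ) ≤ t := Nat.cast_nonneg t
  have htmR : (t : ℝ) + 1 ≤ m := by exact_mod_cast htm
  by_cases hcase : (s : ℝ) ≤ 2 * ((t : ℝ) + 1)
  · -- the pure bound is enough
    calc ((s : ℝ) / 2) * min ((s : ℝ) - m + 1) ((s : ℝ) / 2)
        ≤ ((s : ℝ) / 2) * ((s : ℝ) - m + 1) :=
          mul_le_mul_of_nonneg_left (min_le_left _ _) (by positivity)
      _ ≤ ((s : ℝ) / 2) * ((s : ℝ) - t) :=
          mul_le_mul_of_nonneg_left (by linarith) (by positivity)
      _ ≤ ((t : ℝ) + 1) * ((s : ℝ) - t) :=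
          mul_le_mul_of_nonneg_right (by linarith) (by linarith)
      _ ≤ μ := by linarith
  · -- pass to subsets missing one point
    push Not at hcase
    have hs3 : 3 ≤ s := by
      have : (2 : ℝ) < s := by nlinarith
      have h2 : 2 < s := by exact_mod_cast this
      omega
    have hs3R : (3 : ℝ) ≤ s := by exact_mod_cast hs3
    have hcast : ((s - 1 : ℕ) : ℝ) = (s : ℝ) - 1 := by
      rw [Nat.cast_sub (by omega)]; simp
    have hIH : ∀ x ∈ S, (((s : ℝ) - 1) / 2 * (((s : ℝ) - 1) / 2)) * ‖g‖ ^ 2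
        ≤ inner ℝ g (LS π (S.erase x) g) := by
      intro x hx
      have hcard : (S.erase x).card = s - 1 := by
        rw [Finset.card_erase_of_mem hx, hS]
      have hmem : g ∈ Um π (S.erase x) (t + 1) := by
        intro T' hT' hc w hw
        refine hbig T' (hT'.trans (Finset.erase_subset _ _)) (by omega) w hw
      have h1 := ih (s - 1) (by omega) (S.erase x) hcard (t + 1) g hmem
      rw [hcast] at h1
      have hmin : min ((s : ℝ) - 1 - ((t + 1 : ℕ) : ℝ) + 1) (((s : ℝ) - 1) / 2)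
          = ((s : ℝ) - 1) / 2 := by
        apply min_eq_right
        push_cast
        linarith
      rw [hmin] at h1
      exact h1
    let e : P → P → ℝ := fun a b => (1 / 2 : ℝ) * inner ℝ g ((1 - π (swap a b)) g)
    have he0 : ∀ a, e a a = 0 := by
      intro a
      simp only [e]
      rw [pi_swap_self]
      simp
    have hsum := sum_erase_double (S := S) e he0
    have hform : ∀ A : Finset P, inner ℝ g (LS π A g) = ∑ a ∈ A, ∑ b ∈ A, e a b :=
      fun A => inner_LS g A
    have hLS : inner ℝ g (LS π S g) = μ * ‖g‖ ^ 2 := by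
      rw [hμ, inner_smul_right, real_inner_self_eq_norm_sq]
    have hgpos : 0 < ‖g‖ ^ 2 := by
      have : 0 < ‖g‖ := norm_pos_iff.mpr g0
      positivity
    have h2 : (s : ℝ) * ((((s : ℝ) - 1) / 2 * (((s : ℝ) - 1) / 2)) * ‖g‖ ^ 2)
        ≤ ((s : ℝ) - 2) * (μ * ‖g‖ ^ 2) := by
      rw [← hLS, hform, ← hsR, ← hsum]
      have : ∑ _x ∈ S, ((((S.card : ℝ) - 1) / 2 * (((S.card : ℝ) - 1) / 2)) * ‖g‖ ^ 2)
          ≤ ∑ x ∈ S, ∑ a ∈ S.erase x, ∑ b ∈ S.erase x, e a b := by
        refine Finset.sum_le_sum (fun x hx => ?_)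
        rw [← hform, hsR]
        exact hIH x hx
      simpa using this
    have h3 : (s : ℝ) * (((s : ℝ) - 1) / 2 * (((s : ℝ) - 1) / 2)) ≤ ((s : ℝ) - 2) * μ := by
      have : ((s : ℝ) * (((s : ℝ) - 1) / 2 * (((s : ℝ) - 1) / 2))) * ‖g‖ ^ 2
          ≤ (((s : ℝ) - 2) * μ) * ‖g‖ ^ 2 := by
        calc _ = (s : ℝ) * ((((s : ℝ) - 1) / 2 * (((s : ℝ) - 1) / 2)) * ‖g‖ ^ 2) := by ring
          _ ≤ _ := h2
          _ = _ := by ring
      exact le_of_mul_le_mul_right this hgpos
    have hK : ((s : ℝ) / 2) * min ((s : ℝ) - m + 1) ((s : ℝ) / 2)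
        ≤ ((s : ℝ) / 2) * ((s : ℝ) / 2) :=
      mul_le_mul_of_nonneg_left (min_le_right _ _) (by positivity)
    have hs2 : (0 : ℝ) < (s : ℝ) - 2 := by linarith
    have h4 : ((s : ℝ) - 2) * (((s : ℝ) / 2) * ((s : ℝ) / 2)) ≤ ((s : ℝ) - 2) * μ := by
      refine le_trans ?_ h3
      nlinarith
    have h5 : ((s : ℝ) / 2) * ((s : ℝ) / 2) ≤ μ := le_of_mul_le_mul_left h4 hs2
    linarith

end Vale.Agent.Lib.P162
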