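import Vale.Agent.Lib.P162.Key
import Vale.Agent.Lib.P162.Energy

/-! The difference of the two side energies: the operators `Uop y y'`, their action on the flip
sectors, and the energy bound for the part raising the sector. -/

namespace Vale.Agent.Lib.P162

open Equiv

set_option linter.unusedSectionVars false

variable {Y : Type*} [DecidableEq Y]
variable {E : Type*} [NormedAddCommGroup E] [InnerProductSpace ℝ E]

/-- The four-term operator attached to an ordered pair `y, y'`. -/
noncomputable def Uop (π : Perm (Bool × Y) →* (E →L[ℝ] E)) (y y' : Y) : E →L[ℝ] E :=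
  π (swap (false, y) (false, y')) + π (swap (false, y) (true, y'))
    - π (swap (true, y) (false, y')) - π (swap (true, y) (true, y'))

variable {π : Perm (Bool × Y) →* (E →L[ℝ] E)}

theorem Uop_apply (y y' : Y) (z : E) :
    Uop π y y' z = π (swap (false, y) (false, y')) z + π (swap (false, y) (true, y')) z
      - π (swap (true, y) (false, y')) z - π (swap (true, y) (true, y')) z := rfl

theorem Uop_self (y : Y) : Uop π y y = 0 := by
  unfold Uop
  rw [Equiv.swap_comm (false, y) (true, y)]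
  simp

theorem symOp_Uop (hπ : IsOrth π) (y y' : Y) : SymOp (Uop π y y') :=
  (((symOp_swap hπ _ _).add (symOp_swap hπ _ _)).sub (symOp_swap hπ _ _)).sub (symOp_swap hπ _ _)

theorem norm_Uop_le (hπ : IsOrth π) (y y' : Y) (z : E) : ‖Uop π y y' z‖ ≤ 4 * ‖z‖ := by
  rw [Uop_apply]
  have h1 := norm_pi hπ (swap (false, y) (false, y')) z
  have h2 := norm_pi hπ (swap (false, y) (true, y')) z
  have h3 := norm_pi hπ (swap (true, y) (false, y')) z
  have h4 := norm_pi hπ (swap (true, y) (true, y')) z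
  calc _ ≤ ‖π (swap (false, y) (false, y')) z + π (swap (false, y) (true, y')) z
            - π (swap (true, y) (false, y')) z‖ + ‖π (swap (true, y) (true, y')) z‖ :=
          norm_sub_le _ _
    _ ≤ ‖π (swap (false, y) (false, y')) z + π (swap (false, y) (true, y')) z‖
          + ‖π (swap (true, y) (false, y')) z‖ + ‖π (swap (true, y) (true, y')) z‖ := by
          gcongr; exact norm_sub_le _ _
    _ ≤ ‖π (swap (false, y) (false, y')) z‖ + ‖π (swap (false, y) (true, y')) z‖
          + ‖π (swap (true, y) (false, y')) z‖ + ‖π (swap (true, y) (true, y')) z‖ := by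
          gcongr; exact norm_add_le _ _
    _ = 4 * ‖z‖ := by rw [h1, h2, h3, h4]; ring

/-- `σ y` anticommutes with `U y y'` for `y ≠ y'`. -/
theorem sigma_Uop_left {y y' : Y} (h : y ≠ y') (z : E) :
    π (sigma y) (Uop π y y' z) = - Uop π y y' (π (sigma y) z) := by
  have hn : y' ≠ y := h.symm
  simp only [Uop_apply, map_add, map_sub]
  rw [pi_mul_swap_apply, pi_mul_swap_apply, pi_mul_swap_apply, pi_mul_swap_apply]
  rw [sigma_self, sigma_self, sigma_ne hn, sigma_ne hn]
  simp only [Bool.not_false, Bool.not_true]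
  abel

/-- `σ y'` commutes with `U y y'` for `y ≠ y'`. -/
theorem sigma_Uop_right {y y' : Y} (h : y ≠ y') (z : E) :
    π (sigma y') (Uop π y y' z) = Uop π y y' (π (sigma y') z) := by
  simp only [Uop_apply, map_add, map_sub]
  rw [pi_mul_swap_apply, pi_mul_swap_apply, pi_mul_swap_apply, pi_mul_swap_apply]
  rw [sigma_self, sigma_self, sigma_ne h, sigma_ne h]
  simp only [Bool.not_false, Bool.not_true]
  abel

theorem sigma_Uop_other {y y' w : Y} (h : w ≠ y) (h' : w ≠ y') (z : E) :
    π (sigma w) (Uop π y y' z) = Uop π y y' (π (sigma w) z) := by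
  simp only [Uop_apply, map_add, map_sub]
  rw [pi_mul_swap_apply, pi_mul_swap_apply, pi_mul_swap_apply, pi_mul_swap_apply]
  rw [sigma_ne h.symm, sigma_ne h.symm, sigma_ne h'.symm, sigma_ne h'.symm]

/-- `U y y'` toggles the coordinate `y` of the sector. -/
theorem Uop_mem_sector (y y' : Y) {S : Finset Y} {z : E} (hz : z ∈ sector π S) :
    Uop π y y' z ∈ sector π (symmDiff S {y}) := by
  by_cases h : y = y'
  · subst h
    rw [Uop_self]
    exact Submodule.zero_mem _
  intro w
  have hmem : w ∈ symmDiff S {y} ↔ ((w ∈ S ∧ w ≠ y) ∨ (w ∉ S ∧ w = y)) := by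
    rw [Finset.mem_symmDiff]
    simp only [Finset.mem_singleton]
    tauto
  by_cases h1 : w = y
  · subst h1
    rw [sigma_Uop_left h, hz w]
    by_cases h3 : w ∈ S
    · have : w ∉ symmDiff S {w} := by rw [hmem]; simp [h3]
      simp [h3, this]
    · have : w ∈ symmDiff S {w} := by rw [hmem]; simp [h3]
      simp [h3, this]
  · by_cases h2 : w = y'
    · subst h2
      rw [sigma_Uop_right h, hz w]
      by_cases h3 : w ∈ S
      · have : w ∈ symmDiff S {y} := by rw [hmem]; simp [h3, h1]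
        simp [h3, this]
      · have : w ∉ symmDiff S {y} := by rw [hmem]; simp [h3, h1]
        simp [h3, this]
    · rw [sigma_Uop_other h1 h2, hz w]
      by_cases h3 : w ∈ S
      · have : w ∈ symmDiff S {y} := by rw [hmem]; simp [h3, h1]
        simp [h3, this]
      · have : w ∉ symmDiff S {y} := by rw [hmem]; simp [h3, h1]
        simp [h3, this]

/-- The energy bound for a pair of unflipped coordinates. -/
theorem norm_Uop_le_energy (hπ : IsOrth π) {y y' : Y} {z : E}
    (hy : π (sigma y) z = z) (hy' : π (sigma y') z = z) :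
    ‖Uop π y y' z‖ ≤ 4 * ‖z - π (swap (false, y) (false, y')) z‖ := by
  by_cases h : y = y'
  · subst h
    rw [Uop_self]
    simp only [zero_apply, norm_zero]
    positivity
  have hn : y' ≠ y := Ne.symm h
  set a := π (swap (false, y) (false, y')) with ha
  set e := a z - z with he
  have hb : π (swap (false, y) (true, y')) z = π (sigma y') (a z) := by
    rw [ha, pi_mul_swap_apply, hy', sigma_ne h, sigma_self]
    rfl
  have hc : π (swap (true, y) (false, y')) z = π (sigma y) (a z) := by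
    rw [ha, pi_mul_swap_apply, hy, sigma_self, sigma_ne hn]
    rfl
  have hd : π (swap (true, y) (true, y')) z = π (sigma y) (π (sigma y') (a z)) := by
    rw [ha, pi_mul_swap_apply, hy', sigma_ne h, sigma_self,
      pi_mul_swap_apply, hy, sigma_self, sigma_ne hn]
    rfl
  have haz : a z = e + z := by rw [he]; abel
  have hU : Uop π y y' z = e + π (sigma y') e - π (sigma y) e - π (sigma y) (π (sigma y') e) := by
    rw [Uop_apply, hb, hc, hd, ← ha, haz]
    simp only [map_add, hy, hy']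
    abel
  have h1 := norm_pi hπ (sigma y') e
  have h2 := norm_pi hπ (sigma y) e
  have h3 := norm_pi hπ (sigma y) (π (sigma y') e)
  rw [h1] at h3
  have hen : ‖z - a z‖ = ‖e‖ := by rw [he, norm_sub_rev]
  rw [hU, hen]
  calc _ ≤ ‖e + π (sigma y') e - π (sigma y) e‖ + ‖π (sigma y) (π (sigma y') e)‖ :=
        norm_sub_le _ _
    _ ≤ ‖e + π (sigma y') e‖ + ‖π (sigma y) e‖ + ‖π (sigma y) (π (sigma y') e)‖ := by
        gcongr; exact norm_sub_le _ _
    _ ≤ ‖e‖ + ‖π (sigma y') e‖ + ‖π (sigma y) e‖ + ‖π (sigma y) (π (sigma y') e)‖ := by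
        gcongr; exact norm_add_le _ _
    _ = 4 * ‖e‖ := by rw [h1, h2, h3]; ring

variable [Fintype Y]

/-- The part of the difference operator toggling the coordinate `y`. -/
noncomputable def Dy (π : Perm (Bool × Y) →* (E →L[ℝ] E)) (y : Y) : E →L[ℝ] E :=
  ((2 * (Fintype.card Y : ℝ))⁻¹) • ∑ y' : Y, Uop π y y'

theorem Dy_apply (y : Y) (z : E) :
    Dy π y z = ((2 * (Fintype.card Y : ℝ))⁻¹) • ∑ y' : Y, Uop π y y' z := by
  unfold Dy
  simp

theorem symOp_Dy (hπ : IsOrth π) (y : Y) : SymOp (Dy π y) :=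
  (SymOp.sum _ _ (fun y' _ => symOp_Uop hπ y y')).smul _

theorem Dy_mem_sector (y : Y) {S : Finset Y} {z : E} (hz : z ∈ sector π S) :
    Dy π y z ∈ sector π (symmDiff S {y}) := by
  rw [Dy_apply]
  exact Submodule.smul_mem _ _ (Submodule.sum_mem _ (fun y' _ => Uop_mem_sector y y' hz))

/-- The difference of the two side energies. -/
noncomputable def Dlt (π : Perm (Bool × Y) →* (E →L[ℝ] E)) : E →L[ℝ] E :=
  Lhat (π.comp (side true)) - Lhat (π.comp (side false))

theorem Dlt_eq (π : Perm (Bool × Y) →* (E →L[ℝ] E)) : Dlt π = ∑ y : Y, Dy π y := by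
  set N : ℝ := (Fintype.card Y : ℝ) with hN
  have hcross : ∑ y : Y, ∑ y' : Y, π (swap (false, y) (true, y'))
      = ∑ y : Y, ∑ y' : Y, π (swap (true, y) (false, y')) := by
    rw [Finset.sum_comm]
    refine Finset.sum_congr rfl (fun y _ => Finset.sum_congr rfl (fun y' _ => ?_))
    rw [Equiv.swap_comm]
  have hsum : ∑ y : Y, ∑ y' : Y, Uop π y y'
      = ∑ y : Y, ∑ y' : Y, π (swap (false, y) (false, y'))
        - ∑ y : Y, ∑ y' : Y, π (swap (true, y) (true, y')) := by
    simp only [Uop, Finset.sum_sub_distrib, Finset.sum_add_distrib]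
    rw [hcross]
    abel
  have hL : ∀ s : Bool, LS (π.comp (side s)) Finset.univ
      = (1 / 2 : ℝ) • ∑ _y : Y, ∑ _y' : Y, (1 : E →L[ℝ] E)
        - (1 / 2 : ℝ) • ∑ y : Y, ∑ y' : Y, π (swap (s, y) (s, y')) := by
    intro s
    rw [LS_side]
    simp only [smul_sub, Finset.sum_sub_distrib, Finset.smul_sum]
  unfold Dlt Lhat
  unfold Dy
  rw [← Finset.smul_sum, hsum, hL, hL]
  rw [← hN]
  by_cases h0 : N = 0
  · simp [h0]
  have : (2 * N)⁻¹ = N⁻¹ * (1 / 2) := by
    field_simp
  rw [this, mul_smul]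
  module

/-- The energy form of the first side. -/
theorem inner_LS_side_false (u : E) :
    inner ℝ u (LS (π.comp (side false)) Finset.univ u)
      = (1 / 2 : ℝ) * ∑ y : Y, ∑ y' : Y,
          inner ℝ u ((1 - π (swap (false, y) (false, y'))) u) := by
  rw [LS_side]
  simp only [_root_.sum_apply, smul_apply, inner_sum, inner_smul_right, Finset.mul_sum]

/-- One side's energy is at most twice the total energy, as quadratic forms. -/
theorem inner_LS_false_le (hπ : IsOrth π) (u : E) :
    inner ℝ u (LS (π.comp (side false)) Finset.univ u) ≤ inner ℝ u (LS π Finset.univ u) := by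
  rw [inner_LS_side_false, inner_LS]
  rw [Fintype.sum_prod_type]
  simp only [Fintype.sum_prod_type, Fintype.sum_bool]
  have hnn : ∀ a b : Bool × Y, 0 ≤ inner ℝ u ((1 - π (swap a b)) u) :=
    fun a b => psdOp_one_sub_swap hπ a b u
  have h1 : ∀ (s s' : Bool), 0 ≤ ∑ y : Y, ∑ y' : Y, (1 / 2 : ℝ) * inner ℝ u ((1 - π (swap (s, y) (s', y'))) u) :=
    fun s s' => Finset.sum_nonneg (fun y _ => Finset.sum_nonneg (fun y' _ =>
      mul_nonneg (by norm_num) (hnn _ _)))
  simp only [Finset.sum_add_distrib, ← Finset.mul_sum] at h1 ⊢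
  have a1 := h1 true true
  have a2 := h1 true false
  have a3 := h1 false true
  have a4 := h1 false false
  linarith

/-- The bound for the sector-raising part of the difference operator. -/
theorem sum_norm_Dy_sq (hπ : IsOrth π) (hN : 1 ≤ Fintype.card Y) {S : Finset Y} {z : E}
    (hz : z ∈ sector π S) :
    ∑ y : Y, (if y ∈ S then (0 : ℝ) else ‖Dy π y z‖ ^ 2)
      ≤ 64 * inner ℝ z (Lhat π z) + 8 * (S.card : ℝ) * ‖z‖ ^ 2 := by
  set N : ℝ := (Fintype.card Y : ℝ) with hNdef
  have hNpos : 0 < N := by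
    have : (1 : ℝ) ≤ N := by rw [hNdef]; exact_mod_cast hN
    linarith
  set s : ℝ := (S.card : ℝ) with hs
  have hsN : s ≤ N := by
    rw [hs, hNdef]
    exact_mod_cast Finset.card_le_univ S
  have hs0 : 0 ≤ s := Nat.cast_nonneg _
  set e : Y → Y → ℝ := fun y y' => ‖z - π (swap (false, y) (false, y')) z‖ with he
  have hsec : ∀ y, y ∉ S → π (sigma y) z = z := by
    intro y hy
    have := hz y
    simpa [hy] using this
  -- the pointwise bound for one `y`
  have hone : ∀ y, y ∉ S → ‖Dy π y z‖ ^ 2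
      ≤ (8 / N) * ∑ y' : Y, e y y' ^ 2 + (8 * s ^ 2 / N ^ 2) * ‖z‖ ^ 2 := by
    intro y hy
    have h1 : ∀ y', ‖Uop π y y' z‖ ≤ 4 * e y y' + (if y' ∈ S then 4 * ‖z‖ else 0) := by
      intro y'
      by_cases hy' : y' ∈ S
      · simp only [hy', if_true]
        have := norm_Uop_le hπ y y' z
        have h2 : 0 ≤ e y y' := norm_nonneg _
        linarith
      · simp only [hy', if_false, add_zero]
        exact norm_Uop_le_energy hπ (hsec y hy) (hsec y' hy')
    have h2 : ‖∑ y' : Y, Uop π y y' z‖ ≤ 4 * ∑ y' : Y, e y y' + 4 * (s * ‖z‖) := by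
      calc _ ≤ ∑ y' : Y, ‖Uop π y y' z‖ := norm_sum_le _ _
        _ ≤ ∑ y' : Y, (4 * e y y' + (if y' ∈ S then 4 * ‖z‖ else 0)) :=
            Finset.sum_le_sum (fun y' _ => h1 y')
        _ = _ := by
            rw [Finset.sum_add_distrib, ← Finset.mul_sum]
            simp [Finset.sum_ite_mem, hs]
            ring
    set A := ∑ y' : Y, e y y' with hA
    have hA0 : 0 ≤ A := Finset.sum_nonneg (fun y' _ => norm_nonneg _)
    have hCS : A ^ 2 ≤ N * ∑ y' : Y, e y y' ^ 2 := by
      have := sq_sum_le_card_mul_sum_sq (s := (Finset.univ : Finset Y)) (f := fun y' => e y y')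
      simpa [Finset.card_univ, hNdef] using this
    have h3 : ‖∑ y' : Y, Uop π y y' z‖ ^ 2 ≤ 32 * (N * ∑ y' : Y, e y y' ^ 2) + 32 * (s * ‖z‖) ^ 2 := by
      have h0 := norm_nonneg (∑ y' : Y, Uop π y y' z)
      have hB : 0 ≤ s * ‖z‖ := mul_nonneg hs0 (norm_nonneg _)
      calc _ ≤ (4 * A + 4 * (s * ‖z‖)) ^ 2 := by gcongr
        _ ≤ 32 * A ^ 2 + 32 * (s * ‖z‖) ^ 2 := by nlinarith [sq_nonneg (A - s * ‖z‖)]
        _ ≤ _ := by linarith
    rw [Dy_apply, norm_smul, mul_pow]
    have h4 : ‖(2 * N)⁻¹‖ ^ 2 = ((2 * N)⁻¹) ^ 2 := by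
      rw [Real.norm_eq_abs, sq_abs]
    rw [h4]
    calc ((2 * N)⁻¹) ^ 2 * ‖∑ y' : Y, Uop π y y' z‖ ^ 2
        ≤ ((2 * N)⁻¹) ^ 2 * (32 * (N * ∑ y' : Y, e y y' ^ 2) + 32 * (s * ‖z‖) ^ 2) := by
          gcongr
      _ = _ := by
          field_simp
          ring
  -- the sum over `y`
  have hsum : ∑ y : Y, (if y ∈ S then (0 : ℝ) else ‖Dy π y z‖ ^ 2)
      ≤ ∑ y : Y, ((8 / N) * ∑ y' : Y, e y y' ^ 2 + (8 * s ^ 2 / N ^ 2) * ‖z‖ ^ 2) := by
    refine Finset.sum_le_sum (fun y _ => ?_)
    by_cases hy : y ∈ S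
    · simp only [hy, if_true]
      have h0 : 0 ≤ ∑ y' : Y, e y y' ^ 2 := Finset.sum_nonneg (fun y' _ => by positivity)
      positivity
    · simp only [hy, if_false]
      exact hone y hy
  -- the energy identity
  have hen : ∑ y : Y, ∑ y' : Y, e y y' ^ 2 = 4 * inner ℝ z (LS (π.comp (side false)) Finset.univ z) := by
    rw [inner_LS_side_false, ← mul_assoc]
    norm_num
    rw [Finset.mul_sum]
    refine Finset.sum_congr rfl (fun y _ => ?_)
    rw [Finset.mul_sum]
    refine Finset.sum_congr rfl (fun y' _ => ?_)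
    have h7 : inner ℝ z (z - π (swap (false, y) (false, y')) z)
        = ‖z - π (swap (false, y) (false, y')) z‖ ^ 2 / 2 := inner_one_sub_swap hπ _ _ z
    rw [h7]
    simp only [he]
    ring
  have hG : inner ℝ z (LS π Finset.univ z) = (2 * N) * inner ℝ z (Lhat π z) := by
    unfold Lhat
    have hcard : ((Fintype.card (Bool × Y) : ℕ) : ℝ) = 2 * N := by
      rw [Fintype.card_prod, Fintype.card_bool]; push_cast; rfl
    rw [hcard, smul_apply, inner_smul_right]
    field_simp
  have hle := inner_LS_false_le hπ z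
  have hfin : ∑ y : Y, ((8 / N) * ∑ y' : Y, e y y' ^ 2 + (8 * s ^ 2 / N ^ 2) * ‖z‖ ^ 2)
      = (8 / N) * (∑ y : Y, ∑ y' : Y, e y y' ^ 2) + (8 * s ^ 2 / N) * ‖z‖ ^ 2 := by
    rw [Finset.sum_add_distrib, ← Finset.mul_sum]
    simp only [Finset.sum_const, Finset.card_univ, nsmul_eq_mul]
    rw [← hNdef]
    field_simp
  rw [hfin, hen] at hsum
  refine hsum.trans ?_
  have hz0 : 0 ≤ ‖z‖ ^ 2 := by positivity
  have h5 : (8 / N) * (4 * inner ℝ z (LS (π.comp (side false)) Finset.univ z))
      ≤ 64 * inner ℝ z (Lhat π z) := by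
    calc _ ≤ (8 / N) * (4 * ((2 * N) * inner ℝ z (Lhat π z))) := by
          rw [← hG]
          gcongr
      _ = _ := by
          field_simp
          ring
  have h6 : (8 * s ^ 2 / N) * ‖z‖ ^ 2 ≤ 8 * s * ‖z‖ ^ 2 := by
    apply mul_le_mul_of_nonneg_right _ hz0
    rw [div_le_iff₀ hNpos]
    nlinarith
  linarith

end Vale.Agent.Lib.P162
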