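import Vale.Agent.Lib.P162.Defs

/-! Elementary facts on convolution and total variation on a finite group. -/

namespace Vale.Agent.Lib.P162

set_option linter.unusedSectionVars false

variable {G : Type*} [Group G] [Fintype G] [DecidableEq G]

theorem conv_eq (μ q : G → ℝ) (g : G) : conv μ q g = ∑ k, μ (g * k⁻¹) * q k := by
  unfold conv
  refine Fintype.sum_equiv ((Equiv.inv G).trans (Equiv.mulLeft g)).symm _ _ (fun h => ?_)
  simp

theorem sum_conv (μ q : G → ℝ) : ∑ g, conv μ q g = (∑ g, μ g) * ∑ g, q g := by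
  unfold conv
  rw [Finset.sum_comm, Finset.sum_mul]
  refine Finset.sum_congr rfl (fun h _ => ?_)
  rw [← Finset.mul_sum]
  congr 1
  exact Equiv.sum_comp (Equiv.mulLeft h⁻¹) q

theorem sum_convPow (q : G → ℝ) (hq : ∑ g, q g = 1) (t : ℕ) : ∑ g, convPow q t g = 1 := by
  induction t with
  | zero => simp [convPow]
  | succ t ih =>
    change ∑ g, conv (convPow q t) q g = 1
    rw [sum_conv, ih, hq, one_mul]

theorem tv_conv_le (μ q : G → ℝ) (hq0 : ∀ g, 0 ≤ q g) (hq : ∑ g, q g = 1) :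
    tvUniform (conv μ q) ≤ tvUniform μ := by
  unfold tvUniform
  set N : ℝ := (Fintype.card G : ℝ) with hN
  apply mul_le_mul_of_nonneg_left _ (by norm_num)
  set S := ∑ g, |μ g - 1 / N| with hS
  have h1 : ∀ g, conv μ q g - 1 / N = ∑ k, q k * (μ (g * k⁻¹) - 1 / N) := by
    intro g
    rw [conv_eq]
    have : ∑ k, q k * (μ (g * k⁻¹) - 1 / N) = ∑ k, μ (g * k⁻¹) * q k - (∑ k, q k) * (1 / N) := by
      rw [Finset.sum_mul, ← Finset.sum_sub_distrib]
      refine Finset.sum_congr rfl (fun k _ => ?_)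
      ring
    rw [this, hq, one_mul]
  have h2 : ∀ g, |conv μ q g - 1 / N| ≤ ∑ k, q k * |μ (g * k⁻¹) - 1 / N| := by
    intro g
    rw [h1]
    refine (Finset.abs_sum_le_sum_abs _ _).trans (le_of_eq ?_)
    refine Finset.sum_congr rfl (fun k _ => ?_)
    rw [abs_mul, abs_of_nonneg (hq0 k)]
  calc ∑ g, |conv μ q g - 1 / N| ≤ ∑ g, ∑ k, q k * |μ (g * k⁻¹) - 1 / N| :=
        Finset.sum_le_sum (fun g _ => h2 g)
    _ = ∑ k, q k * ∑ g, |μ (g * k⁻¹) - 1 / N| := by
        rw [Finset.sum_comm]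
        refine Finset.sum_congr rfl (fun k _ => ?_)
        rw [Finset.mul_sum]
    _ = ∑ k, q k * S := by
        refine Finset.sum_congr rfl (fun k _ => ?_)
        congr 1
        exact Equiv.sum_comp (Equiv.mulRight k⁻¹) (fun g => |μ g - 1 / N|)
    _ = S := by
        rw [← Finset.sum_mul, hq, one_mul]

theorem tv_convPow_anti (q : G → ℝ) (hq0 : ∀ g, 0 ≤ q g) (hq : ∑ g, q g = 1) {t t' : ℕ}
    (h : t ≤ t') : tvUniform (convPow q t') ≤ tvUniform (convPow q t) := by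
  induction t', h using Nat.le_induction with
  | base => exact le_rfl
  | succ n _ ih =>
    exact (tv_conv_le (convPow q n) q hq0 hq).trans ih

/-- Total variation from the collision probability. -/
theorem tv_le_of_l2 (μ : G → ℝ) (hμ : ∑ g, μ g = 1)
    (hl2 : (Fintype.card G : ℝ) * ∑ g, μ g ^ 2 ≤ 5 / 4) : tvUniform μ ≤ 1 / 4 := by
  unfold tvUniform
  set N : ℝ := (Fintype.card G : ℝ) with hN
  have hNpos : 0 < N := by
    have : 0 < Fintype.card G := Fintype.card_pos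
    rw [hN]; exact_mod_cast this
  have h1 : (∑ g, |μ g - 1 / N|) ^ 2 ≤ N * ∑ g, (μ g - 1 / N) ^ 2 := by
    have := sq_sum_le_card_mul_sum_sq (s := (Finset.univ : Finset G)) (f := fun g => |μ g - 1 / N|)
    simpa [sq_abs, Finset.card_univ, hN] using this
  have h2 : N * ∑ g, (μ g - 1 / N) ^ 2 = N * ∑ g, μ g ^ 2 - 1 := by
    have h3 : ∑ g, (μ g - 1 / N) ^ 2 = ∑ g, μ g ^ 2 - 2 * (1 / N) * ∑ g, μ g + N * (1 / N) ^ 2 := by
      have : ∀ g, (μ g - 1 / N) ^ 2 = μ g ^ 2 - 2 * (1 / N) * μ g + (1 / N) ^ 2 := by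
        intro g; ring
      simp only [this, Finset.sum_add_distrib, Finset.sum_sub_distrib, ← Finset.mul_sum]
      simp [Finset.card_univ, hN]
    rw [h3, hμ]
    field_simp
    ring
  have h4 : (∑ g, |μ g - 1 / N|) ^ 2 ≤ (1 / 2 : ℝ) ^ 2 := by
    rw [h2] at h1
    have h7 : (1 / 2 : ℝ) ^ 2 = 1 / 4 := by norm_num
    rw [h7]
    linarith
  have h5 : 0 ≤ ∑ g, |μ g - 1 / N| := Finset.sum_nonneg (fun g _ => abs_nonneg _)
  have h6 : ∑ g, |μ g - 1 / N| ≤ 1 / 2 :=
    (pow_le_pow_iff_left₀ h5 (by norm_num) (by norm_num)).mp h4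
  linarith

end Vale.Agent.Lib.P162
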