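import Vale.Agent.Lib.P162.Avg
import Vale.Agent.Lib.P162.Chi
import Vale.Agent.Lib.P162.TV

/-! Assembly of the final bound: `O(d²)` Thorp shuffles mix a deck of `2^(d+1)` cards. -/

namespace Vale.Agent.Lib.P162

open Equiv NormedSpace

set_option linter.unusedSectionVars false

variable {d : ℕ}

theorem thorpLaw_nonneg (g : Perm (Fin (2 * 2 ^ d))) : 0 ≤ thorpLaw (2 ^ d) g := by
  unfold thorpLaw
  positivity

theorem thorpLaw_sum : ∑ g : Perm (Fin (2 * 2 ^ d)), thorpLaw (2 ^ d) g = 1 := by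
  simp only [thorpLaw_eq]
  rw [← Finset.sum_div]
  have hM : (0 : ℝ) < (2 : ℝ) ^ (2 ^ d) := by positivity
  rw [div_eq_one_iff_eq hM.ne']
  have h1 : ∀ g : Perm (Fin (2 * 2 ^ d)),
      ((Finset.univ.filter (fun c : Fin (2 ^ d) → Bool => g = thorpPerm d c)).card : ℝ)
        = ∑ c : Fin (2 ^ d) → Bool, (if g = thorpPerm d c then (1 : ℝ) else 0) := by
    intro g
    rw [Finset.card_filter]
    push_cast
    rfl
  simp only [h1]
  rw [Finset.sum_comm]
  simp

section concrete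

variable {P : Type*} [Fintype P] [DecidableEq P]

/-- Functions as elements of the `L²` space. -/
noncomputable def toVec (μ : Perm P → ℝ) : RegE P := WithLp.toLp 2 μ

theorem toVec_apply (μ : Perm P → ℝ) (x : Perm P) : toVec μ x = μ x := rfl

theorem avgOp_apply (q : Perm P → ℝ) (f : RegE P) (x : Perm P) :
    avgOp rho q f x = ∑ g, q g * f (x * g⁻¹) := by
  have h : avgOp rho q f = ∑ g, q g • rho g⁻¹ f := by
    unfold avgOp
    rw [_root_.sum_apply]
    rfl
  rw [h]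
  simp [rho_apply]

theorem avgOp_toVec (q μ : Perm P → ℝ) : avgOp rho q (toVec μ) = toVec (conv μ q) := by
  ext x
  rw [avgOp_apply, toVec_apply, conv_eq]
  refine Finset.sum_congr rfl (fun g _ => ?_)
  rw [toVec_apply]
  ring

theorem toVec_convPow (q : Perm P → ℝ) (t : ℕ) :
    toVec (convPow q t) = ((avgOp rho q) ^ t) (delta 1) := by
  induction t with
  | zero =>
    ext x
    rw [toVec_apply, pow_zero]
    change convPow q 0 x = delta 1 x
    rw [delta_apply]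
    rfl
  | succ t ih =>
    rw [pow_succ']
    change toVec (conv (convPow q t) q) = avgOp rho q (((avgOp rho q) ^ t) (delta 1))
    rw [← ih, avgOp_toVec]

theorem norm_toVec_sq (μ : Perm P → ℝ) : ‖toVec μ‖ ^ 2 = ∑ g, μ g ^ 2 := by
  rw [EuclideanSpace.real_norm_sq_eq]
  rfl

end concrete

/-- The numerical condition. -/
theorem numeric_condition (d : ℕ) :
    (((2 * 2 ^ d : ℕ) : ℝ)) ^ 2 * Real.exp (-(((500 * (d + 1) : ℕ) : ℝ) / 36) / 2) ≤ 1 / 25 := by
  have h1 : ((2 * 2 ^ d : ℕ) : ℝ) = (2 : ℝ) ^ (d + 1) := by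
    push_cast
    rw [pow_succ]
    ring
  have hexp : Real.exp (-(((500 * (d + 1) : ℕ) : ℝ) / 36) / 2)
      = (Real.exp (-(250 / 36))) ^ (d + 1) := by
    rw [← Real.exp_nat_mul]
    congr 1
    push_cast
    ring
  rw [h1, hexp, ← pow_mul, mul_comm (d + 1) 2, pow_mul, ← mul_pow]
  have h2 : (2 : ℝ) ^ 2 * Real.exp (-(250 / 36)) ≤ 1 / 25 := by
    have h3 : (100 : ℝ) ≤ Real.exp (250 / 36) := by
      have h4 : Real.exp 6 ≤ Real.exp (250 / 36) := Real.exp_le_exp.mpr (by norm_num)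
      have h5 : Real.exp 6 = Real.exp 1 ^ 6 := by
        rw [← Real.exp_nat_mul]
        norm_num
      have h6 : (2.7 : ℝ) ≤ Real.exp 1 := by
        have := Real.exp_one_gt_d9
        linarith
      have h7 : (2.7 : ℝ) ^ 6 ≤ Real.exp 1 ^ 6 := pow_le_pow_left₀ (by norm_num) h6 6
      have h8 : (100 : ℝ) ≤ (2.7 : ℝ) ^ 6 := by norm_num
      linarith
    rw [Real.exp_neg]
    have hpos := Real.exp_pos (250 / 36 : ℝ)
    rw [← div_eq_mul_inv, div_le_iff₀ hpos]
    norm_num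
    linarith
  have h9 : 0 ≤ (2 : ℝ) ^ 2 * Real.exp (-(250 / 36)) := by positivity
  calc ((2 : ℝ) ^ 2 * Real.exp (-(250 / 36))) ^ (d + 1)
      ≤ ((2 : ℝ) ^ 2 * Real.exp (-(250 / 36))) ^ 1 :=
        pow_le_pow_of_le_one h9 (by linarith) (by omega)
    _ ≤ 1 / 25 := by simpa using h2

/-- The collision bound after `500 (d+1)²` shuffles. -/
theorem l2_bound (d : ℕ) :
    (Fintype.card (Perm (Fin (2 * 2 ^ d))) : ℝ) *
      ∑ g, convPow (thorpLaw (2 ^ d)) ((d + 1) * (500 * (d + 1))) g ^ 2 ≤ 5 / 4 := by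
  set k : ℕ := 500 * (d + 1) with hk
  set s : ℝ := (k : ℝ) / 36 with hs
  have hsum : ∑ g, convPow (thorpLaw (2 ^ d)) ((d + 1) * k) g ^ 2
      = ‖((avgOp rho (thorpLaw (2 ^ d))) ^ ((d + 1) * k)) (delta 1)‖ ^ 2 := by
    rw [← toVec_convPow, norm_toVec_sq]
  rw [hsum]
  have hmaj := thorp_majorant' (π₀ := rho) isOrth_rho k (delta (1 : Perm (Fin (2 * 2 ^ d))))
  have hcard : Fintype.card (Fin (2 * 2 ^ d)) = 2 * 2 ^ d := Fintype.card_fin _
  have hone : 1 ≤ Fintype.card (Fin (2 * 2 ^ d)) := by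
    rw [hcard]
    have h2 : 0 < 2 ^ d := by positivity
    omega
  have hchi := chi_bound (P := Fin (2 * 2 ^ d)) hone
    (s := s) (by positivity)
    (by rw [hcard]; exact numeric_condition d)
  have hpos : (0 : ℝ) ≤ (Fintype.card (Perm (Fin (2 * 2 ^ d))) : ℝ) := Nat.cast_nonneg _
  exact (mul_le_mul_of_nonneg_left hmaj hpos).trans hchi

/-- The main theorem. -/
theorem thorp_main (d t : ℕ) (ht : 500 * (d + 1) ^ 2 ≤ t) :
    tvUniform (convPow (thorpLaw (2 ^ d)) t) ≤ 1 / 4 := by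
  have h0 : (d + 1) * (500 * (d + 1)) ≤ t := by
    calc (d + 1) * (500 * (d + 1)) = 500 * (d + 1) ^ 2 := by ring
      _ ≤ t := ht
  refine (tv_convPow_anti _ thorpLaw_nonneg thorpLaw_sum h0).trans ?_
  exact tv_le_of_l2 _ (sum_convPow _ thorpLaw_sum _) (l2_bound d)

end Vale.Agent.Lib.P162
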