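import Vale.Agent.Lib.P162.OpExp

/-! A flag of invariant subspaces and the trace of a positive operator. -/

namespace Vale.Agent.Lib.P162

set_option linter.unusedSectionVars false

variable {E : Type*} [NormedAddCommGroup E] [InnerProductSpace ℝ E] [FiniteDimensional ℝ E]

theorem proj_proj_of_le {K K' : Submodule ℝ E} (h : K ≤ K') (v : E) :
    K.starProjection (K'.starProjection v) = K.starProjection v := by
  have h1 : v - K'.starProjection v ∈ Kᗮ :=
    Submodule.orthogonal_le h (Submodule.sub_starProjection_mem_orthogonal v)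
  have h2 : K.starProjection (v - K'.starProjection v) = 0 :=
    (Submodule.starProjection_apply_eq_zero_iff K).mpr h1
  rw [map_sub] at h2
  exact (sub_eq_zero.mp h2).symm

theorem norm_proj_sq_eq_inner (K : Submodule ℝ E) (v : E) :
    ‖K.starProjection v‖ ^ 2 = inner ℝ v (K.starProjection v) := by
  rw [← real_inner_self_eq_norm_sq, Submodule.inner_starProjection_left_eq_right,
    ← ContinuousLinearMap.comp_apply]
  have : K.starProjection.comp K.starProjection = K.starProjection :=
    (Submodule.isIdempotentElem_starProjection K)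
  rw [this]

/-- The trace identity for orthogonal projections. -/
theorem sum_norm_proj_sq {ι : Type*} [Fintype ι] (b : OrthonormalBasis ι ℝ E)
    (K : Submodule ℝ E) :
    ∑ i, ‖K.starProjection (b i)‖ ^ 2 = (Module.finrank ℝ K : ℝ) := by
  have hproj : LinearMap.IsProj K (K.starProjection : E →ₗ[ℝ] E) :=
    ⟨fun x => Submodule.starProjection_apply_mem K x,
     fun x hx => (Submodule.starProjection_eq_self_iff).mpr hx⟩
  have h1 := hproj.trace
  rw [LinearMap.trace_eq_sum_inner _ b] at h1
  rw [← h1]
  refine Finset.sum_congr rfl (fun i _ => ?_)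
  exact norm_proj_sq_eq_inner K (b i)

/-- Bound of a quadratic form along a flag. -/
theorem flag_bound {R : E →L[ℝ] E} (hR : SymOp R) {D : ℕ → Submodule ℝ E} (hD : Monotone D)
    (hinv : ∀ j, ∀ v ∈ D j, R v ∈ D j) {c : ℕ → ℝ} (hc : ∀ j, 0 ≤ c j) {J : ℕ}
    (h0 : ∀ v ∈ D 0, inner ℝ v (R v) ≤ c 0 * ‖v‖ ^ 2)
    (h1 : ∀ j < J, ∀ v ∈ (D j)ᗮ, inner ℝ v (R v) ≤ c (j + 1) * ‖v‖ ^ 2) :
    ∀ J' ≤ J, ∀ v ∈ D J', inner ℝ v (R v)
      ≤ ∑ j ∈ Finset.range (J' + 1), c j * ‖(D j).starProjection v‖ ^ 2 := by
  intro J' hJ'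
  induction J' with
  | zero =>
    intro v hv
    simp only [zero_add, Finset.sum_range_one]
    rw [(Submodule.starProjection_eq_self_iff).mpr hv]
    exact h0 v hv
  | succ J' ih =>
    intro v hv
    have hlt : J' < J := by omega
    set y := (D J').starProjection v with hy
    set z := v - y with hz
    have hyD : y ∈ D J' := Submodule.starProjection_apply_mem _ v
    have hzD : z ∈ (D J')ᗮ := Submodule.sub_starProjection_mem_orthogonal v
    have hv' : v = y + z := by rw [hz]; abel
    have hcross : inner ℝ z (R y) = (0 : ℝ) := by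
      rw [real_inner_comm]
      exact (Submodule.mem_orthogonal _ _).mp hzD _ (hinv J' y hyD)
    have hsplit : inner ℝ v (R v) = inner ℝ y (R y) + inner ℝ z (R z) := by
      have h6 : inner ℝ (R y) z = (0 : ℝ) := by
        rw [real_inner_comm]; exact hcross
      rw [hv', map_add, inner_add_left, inner_add_right, inner_add_right, hcross, ← hR y z, h6]
      ring
    have hIH := ih (by omega) y hyD
    have hproj : ∀ j ∈ Finset.range (J' + 1),
        c j * ‖(D j).starProjection y‖ ^ 2 = c j * ‖(D j).starProjection v‖ ^ 2 := by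
      intro j hj
      have hle : D j ≤ D J' := hD (by
        have := Finset.mem_range.mp hj
        omega)
      rw [hy, proj_proj_of_le hle]
    rw [Finset.sum_congr rfl hproj] at hIH
    have hzb := h1 J' hlt z hzD
    have hznorm : ‖z‖ ^ 2 ≤ ‖v‖ ^ 2 := by
      have h2 : ‖v‖ ^ 2 = ‖y‖ ^ 2 + ‖z‖ ^ 2 := by
        rw [hv', ← real_inner_self_eq_norm_sq, inner_add_left, inner_add_right, inner_add_right]
        have h3 : inner ℝ y z = (0 : ℝ) := (Submodule.mem_orthogonal _ _).mp hzD y hyD
        have h4 : inner ℝ z y = (0 : ℝ) := by rw [real_inner_comm]; exact h3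
        rw [h3, h4, real_inner_self_eq_norm_sq, real_inner_self_eq_norm_sq]
        ring
      have := sq_nonneg ‖y‖
      linarith
    have hP : (D (J' + 1)).starProjection v = v :=
      (Submodule.starProjection_eq_self_iff).mpr hv
    rw [Finset.sum_range_succ _ (J' + 1), hP, hsplit]
    have hcpos := hc (J' + 1)
    have h5 : c (J' + 1) * ‖z‖ ^ 2 ≤ c (J' + 1) * ‖v‖ ^ 2 :=
      mul_le_mul_of_nonneg_left hznorm hcpos
    linarith

end Vale.Agent.Lib.P162
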