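import Vale.Agent.Lib.P162.Sector

/-! The key estimate: on flip-invariant vectors, the exponential of the difference operator `X`
is controlled by the energy. -/

namespace Vale.Agent.Lib.P162

open Equiv NormedSpace

set_option linter.unusedSectionVars false

variable {Y : Type*} [DecidableEq Y] [Fintype Y]
variable {E : Type*} [NormedAddCommGroup E] [InnerProductSpace ℝ E]

/-- The weighted Schur test for the toggling graph on subsets of `Y`. -/
theorem T_bound {M : ℕ} (hM : 1 ≤ M) (hN : 1 ≤ Fintype.card Y) (α β : Finset Y → ℝ)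
    (hα : ∀ S, M < S.card → α S = 0) (hβ : ∀ S, M < S.card → β S = 0) :
    ∑ y : Y, ∑ y' : Y, (if y = y' then (0 : ℝ) else ∑ S, α (symmDiff S {y, y'}) * β S)
      ≤ 2 * (Fintype.card Y : ℝ) * M * (∑ S, α S ^ 2 + ∑ S, β S ^ 2) := by
  set N : ℝ := (Fintype.card Y : ℝ) with hNdef
  have hNpos : 0 < N := by
    have : (1 : ℝ) ≤ N := by rw [hNdef]; exact_mod_cast hN
    linarith
  have hMpos : (0 : ℝ) < M := by
    have : (1 : ℝ) ≤ M := by exact_mod_cast hM
    linarith
  set θ : ℝ := Real.sqrt (N / M) with hθdef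
  have hθ : 0 < θ := Real.sqrt_pos.mpr (div_pos hNpos hMpos)
  have hθ2 : θ ^ 2 = N / M := Real.sq_sqrt (le_of_lt (div_pos hNpos hMpos))
  let w : Finset Y → Y → ℝ := fun S y => if y ∈ S then θ else θ⁻¹
  have hwpos : ∀ S y, 0 < w S y := by
    intro S y
    simp only [w]
    split_ifs <;> positivity
  have hflip1 : ∀ {y y' : Y} (S : Finset Y), y ≠ y' → w (symmDiff S {y, y'}) y = (w S y)⁻¹ := by
    intro y y' S h
    have hiff : y ∈ symmDiff S {y, y'} ↔ y ∉ S := by
      rw [Finset.mem_symmDiff]; simp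
    by_cases hy : y ∈ S
    · simp [w, hy, hiff]
    · simp [w, hy, hiff]
  have hflip2 : ∀ {y y' : Y} (S : Finset Y), y ≠ y' → w (symmDiff S {y, y'}) y' = (w S y')⁻¹ := by
    intro y y' S h
    have hiff : y' ∈ symmDiff S {y, y'} ↔ y' ∉ S := by
      rw [Finset.mem_symmDiff]; simp
    by_cases hy : y' ∈ S
    · simp [w, hy, hiff]
    · simp [w, hy, hiff]
  -- Step 1: fixed pair
  have step1 : ∀ {y y' : Y}, y ≠ y' →
      ∑ S, α (symmDiff S {y, y'}) * β S
        ≤ (1 / 2) * ∑ S, (w S y * w S y') * (α S ^ 2 + β S ^ 2) := by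
    intro y y' h
    let W : Finset Y → ℝ := fun S => w S y * w S y'
    have hWpos : ∀ S, 0 < W S := fun S => mul_pos (hwpos S y) (hwpos S y')
    have hW : ∀ S, W (symmDiff S {y, y'}) * W S = 1 := by
      intro S
      simp only [W]
      rw [hflip1 S h, hflip2 S h]
      have h1 := (hwpos S y).ne'
      have h2 := (hwpos S y').ne'
      field_simp
    have hpt : ∀ S, α (symmDiff S {y, y'}) * β S
        ≤ (1 / 2) * (W (symmDiff S {y, y'}) * α (symmDiff S {y, y'}) ^ 2 + W S * β S ^ 2) := by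
      intro S
      set a := α (symmDiff S {y, y'})
      set b := β S
      set p := W (symmDiff S {y, y'})
      set q := W S
      have hpq : p * q = 1 := hW S
      have hq : 0 < q := hWpos S
      have h1 : 0 ≤ q * (p * a - b) ^ 2 := by positivity
      have h2 : q * (p * a - b) ^ 2 = p * (p * q) * a ^ 2 - 2 * (p * q) * (a * b) + q * b ^ 2 := by
        ring
      rw [h2, hpq] at h1
      nlinarith
    have hinv : Function.Involutive (fun S : Finset Y => symmDiff S {y, y'}) := by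
      intro S
      exact symmDiff_symmDiff_cancel_right _ _
    have hreindex : ∑ S, W (symmDiff S {y, y'}) * α (symmDiff S {y, y'}) ^ 2
        = ∑ S, W S * α S ^ 2 :=
      Equiv.sum_comp (hinv.toPerm) (fun S => W S * α S ^ 2)
    calc ∑ S, α (symmDiff S {y, y'}) * β S
        ≤ ∑ S, (1 / 2) * (W (symmDiff S {y, y'}) * α (symmDiff S {y, y'}) ^ 2 + W S * β S ^ 2) :=
          Finset.sum_le_sum (fun S _ => hpt S)
      _ = (1 / 2) * (∑ S, W (symmDiff S {y, y'}) * α (symmDiff S {y, y'}) ^ 2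
            + ∑ S, W S * β S ^ 2) := by
          rw [← Finset.mul_sum, Finset.sum_add_distrib]
      _ = (1 / 2) * ∑ S, (w S y * w S y') * (α S ^ 2 + β S ^ 2) := by
          rw [hreindex, ← Finset.sum_add_distrib]
          congr 1
          refine Finset.sum_congr rfl (fun S _ => ?_)
          simp only [W]
          ring
  -- Step 2: all pairs
  have step2 : ∀ y y' : Y, (if y = y' then (0 : ℝ) else ∑ S, α (symmDiff S {y, y'}) * β S)
      ≤ (1 / 2) * ∑ S, (w S y * w S y') * (α S ^ 2 + β S ^ 2) := by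
    intro y y'
    by_cases h : y = y'
    · rw [if_pos h]
      have : 0 ≤ ∑ S, (w S y * w S y') * (α S ^ 2 + β S ^ 2) :=
        Finset.sum_nonneg (fun S _ =>
          mul_nonneg (mul_pos (hwpos S y) (hwpos S y')).le (by positivity))
      linarith
    · rw [if_neg h]
      exact step1 h
  -- Step 3: the bound for each subset
  have step3 : ∀ S : Finset Y, (∑ y, w S y) * (∑ y, w S y) * (α S ^ 2 + β S ^ 2)
      ≤ 4 * N * M * (α S ^ 2 + β S ^ 2) := by
    intro S
    by_cases hS : M < S.card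
    · rw [hα S hS, hβ S hS]; simp
    · apply mul_le_mul_of_nonneg_right _ (by positivity)
      have hle : ∑ y, w S y ≤ 2 * M * θ := by
        have h1 : ∀ y, w S y ≤ (if y ∈ S then θ else 0) + θ⁻¹ := by
          intro y
          simp only [w]
          by_cases hy : y ∈ S
          · simp [hy]; positivity
          · simp [hy]
        have h2 : ∑ y, ((if y ∈ S then θ else 0) + θ⁻¹) = S.card * θ + N * θ⁻¹ := by
          rw [Finset.sum_add_distrib]
          simp [Finset.sum_ite_mem, hNdef]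
        have h3 : N * θ⁻¹ = M * θ := by
          have : N = M * θ ^ 2 := by
            rw [hθ2]; field_simp
          rw [this]; field_simp
        have h4 : (S.card : ℝ) ≤ M := by
          have : S.card ≤ M := not_lt.mp hS
          exact_mod_cast this
        calc ∑ y, w S y ≤ ∑ y, ((if y ∈ S then θ else 0) + θ⁻¹) :=
              Finset.sum_le_sum (fun y _ => h1 y)
          _ = S.card * θ + M * θ := by rw [h2, h3]
          _ ≤ M * θ + M * θ := by gcongr
          _ = 2 * M * θ := by ring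
      have hnn : 0 ≤ ∑ y, w S y := Finset.sum_nonneg (fun y _ => (hwpos S y).le)
      have h5 : (2 * M * θ) * (2 * M * θ) = 4 * N * M := by
        have : (2 * (M : ℝ) * θ) * (2 * M * θ) = 4 * M ^ 2 * θ ^ 2 := by ring
        rw [this, hθ2]
        field_simp
      calc (∑ y, w S y) * (∑ y, w S y) ≤ (2 * M * θ) * (2 * M * θ) :=
            mul_le_mul hle hle hnn (by positivity)
        _ = 4 * N * M := h5
  -- assemble
  calc ∑ y : Y, ∑ y' : Y, (if y = y' then (0 : ℝ) else ∑ S, α (symmDiff S {y, y'}) * β S)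
      ≤ ∑ y : Y, ∑ y' : Y, (1 / 2) * ∑ S, (w S y * w S y') * (α S ^ 2 + β S ^ 2) :=
        Finset.sum_le_sum (fun y _ => Finset.sum_le_sum (fun y' _ => step2 y y'))
    _ = (1 / 2) * ∑ S, (∑ y, w S y) * (∑ y, w S y) * (α S ^ 2 + β S ^ 2) := by
        simp only [← Finset.mul_sum]
        congr 1
        have h : ∀ S, (∑ y, w S y) * (∑ y, w S y) * (α S ^ 2 + β S ^ 2)
            = ∑ y, ∑ y', (w S y * w S y') * (α S ^ 2 + β S ^ 2) := by
          intro S
          rw [Finset.sum_mul_sum, Finset.sum_mul]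
          refine Finset.sum_congr rfl (fun y _ => ?_)
          rw [Finset.sum_mul]
        simp_rw [h]
        conv_rhs => rw [Finset.sum_comm]
        refine Finset.sum_congr rfl (fun y _ => ?_)
        exact Finset.sum_comm
    _ ≤ (1 / 2) * ∑ S, 4 * N * M * (α S ^ 2 + β S ^ 2) := by
        apply mul_le_mul_of_nonneg_left _ (by norm_num)
        exact Finset.sum_le_sum (fun S _ => step3 S)
    _ = 2 * N * M * (∑ S, α S ^ 2 + ∑ S, β S ^ 2) := by
        rw [← Finset.mul_sum, Finset.sum_add_distrib]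
        ring

variable {π : Perm (Bool × Y) →* (E →L[ℝ] E)}

theorem Xop_apply (π : Perm (Bool × Y) →* (E →L[ℝ] E)) (w : E) :
    Xop π w = ((4 * (Fintype.card Y : ℝ))⁻¹) • ∑ y : Y, ∑ y' : Y, Dop π y y' w := by
  rw [Xop_eq]
  simp

theorem symOp_Xop (hπ : IsOrth π) : SymOp (Xop π) := by
  rw [Xop_eq]
  exact (SymOp.sum _ _ (fun y _ => SymOp.sum _ _ (fun y' _ => symOp_Dop hπ y y'))).smul _

/-- `X` raises the grading by at most two. -/
theorem Xop_mem_Vle {M : ℕ} {w : E} (hw : w ∈ Vle π M) : Xop π w ∈ Vle π (M + 2) := by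
  have hle : Vle π M ≤ (Vle π (M + 2)).comap (Xop π : E →ₗ[ℝ] E) := by
    refine iSup₂_le (fun S hS x hx => ?_)
    change Xop π x ∈ Vle π (M + 2)
    rw [Xop_apply]
    refine Submodule.smul_mem _ _ (Submodule.sum_mem _ (fun y _ => Submodule.sum_mem _ (fun y' _ => ?_)))
    by_cases h : y = y'
    · subst h
      exact sector_le_Vle (hS.trans (by omega)) (Dop_self_mem_sector y hx)
    · refine sector_le_Vle ?_ (Dop_mem_sector h hx)
      have := card_symmDiff_pair_le S y y'
      omega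
  exact hle hw

/-- The bilinear bound on the graded subspaces (in additive form). -/
theorem inner_X_le (hπ : IsOrth π) {M : ℕ} (hM : 1 ≤ M) (hN : 1 ≤ Fintype.card Y) {z w : E}
    (hz : z ∈ Vle π M) (hw : w ∈ Vle π M) :
    inner ℝ z (Xop π w) ≤ ‖z‖ * ‖w‖ + 2 * M * (‖z‖ ^ 2 + ‖w‖ ^ 2) := by
  obtain ⟨a, ha1, ha2, rfl⟩ := exists_family hz
  obtain ⟨b, hb1, hb2, rfl⟩ := exists_family hw
  set z := ∑ S, a S with hzdef
  set w := ∑ S, b S with hwdef
  set N : ℝ := (Fintype.card Y : ℝ) with hNdef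
  have hNpos : 0 < N := by
    have : (1 : ℝ) ≤ N := by rw [hNdef]; exact_mod_cast hN
    linarith
  let α : Finset Y → ℝ := fun S => ‖a S‖
  let β : Finset Y → ℝ := fun S => ‖b S‖
  have hαM : ∀ S, M < S.card → α S = 0 := by
    intro S hS; simp [α, ha2 S hS]
  have hβM : ∀ S, M < S.card → β S = 0 := by
    intro S hS; simp [β, hb2 S hS]
  have hpair : ∀ y y' : Y, inner ℝ z (Dop π y y' w)
      ≤ (if y = y' then 4 * (‖z‖ * ‖w‖) else 0)
        + 4 * (if y = y' then (0 : ℝ) else ∑ S, α (symmDiff S {y, y'}) * β S) := by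
    intro y y'
    by_cases h : y = y'
    · simp only [h, if_true, mul_zero, add_zero]
      calc inner ℝ z (Dop π y' y' w) ≤ ‖z‖ * ‖Dop π y' y' w‖ := real_inner_le_norm _ _
        _ ≤ ‖z‖ * (4 * ‖w‖) := by
            gcongr
            exact norm_Dop_le hπ _ _ _
        _ = 4 * (‖z‖ * ‖w‖) := by ring
    · simp only [h, if_false, zero_add]
      rw [hzdef, hwdef, inner_family_Dop hπ ha1 hb1 h, Finset.mul_sum]
      refine Finset.sum_le_sum (fun S _ => ?_)
      calc inner ℝ (a (symmDiff S {y, y'})) (Dop π y y' (b S))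
          ≤ ‖a (symmDiff S {y, y'})‖ * ‖Dop π y y' (b S)‖ := real_inner_le_norm _ _
        _ ≤ ‖a (symmDiff S {y, y'})‖ * (4 * ‖b S‖) := by
            gcongr
            exact norm_Dop_le hπ _ _ _
        _ = 4 * (α (symmDiff S {y, y'}) * β S) := by
            simp only [α, β]; ring
  have hsum1 : ∑ y : Y, ∑ y' : Y, (if y = y' then 4 * (‖z‖ * ‖w‖) else (0 : ℝ))
      = N * (4 * (‖z‖ * ‖w‖)) := by
    simp [hNdef]
  have hT := T_bound hM hN α β hαM hβM
  have hα2 : ∑ S, α S ^ 2 = ‖z‖ ^ 2 := (norm_sq_family hπ ha1).symm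
  have hβ2 : ∑ S, β S ^ 2 = ‖w‖ ^ 2 := (norm_sq_family hπ hb1).symm
  rw [hα2, hβ2] at hT
  have htotal : ∑ y : Y, ∑ y' : Y, inner ℝ z (Dop π y y' w)
      ≤ N * (4 * (‖z‖ * ‖w‖)) + 4 * (2 * N * M * (‖z‖ ^ 2 + ‖w‖ ^ 2)) := by
    calc _ ≤ ∑ y : Y, ∑ y' : Y, ((if y = y' then 4 * (‖z‖ * ‖w‖) else 0)
            + 4 * (if y = y' then (0 : ℝ) else ∑ S, α (symmDiff S {y, y'}) * β S)) :=
          Finset.sum_le_sum (fun y _ => Finset.sum_le_sum (fun y' _ => hpair y y'))
      _ = N * (4 * (‖z‖ * ‖w‖)) + 4 * ∑ y : Y, ∑ y' : Y,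
            (if y = y' then (0 : ℝ) else ∑ S, α (symmDiff S {y, y'}) * β S) := by
          simp only [Finset.sum_add_distrib, ← Finset.mul_sum]
          rw [← hsum1]
      _ ≤ _ := by gcongr
  rw [Xop_apply, inner_smul_right, inner_sum]
  simp only [inner_sum]
  have hκ : (0 : ℝ) < (4 * N)⁻¹ := by positivity
  calc (4 * N)⁻¹ * ∑ y : Y, ∑ y' : Y, inner ℝ z (Dop π y y' w)
      ≤ (4 * N)⁻¹ * (N * (4 * (‖z‖ * ‖w‖)) + 4 * (2 * N * M * (‖z‖ ^ 2 + ‖w‖ ^ 2))) :=
        mul_le_mul_of_nonneg_left htotal hκ.le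
    _ = ‖z‖ * ‖w‖ + 2 * M * (‖z‖ ^ 2 + ‖w‖ ^ 2) := by
        field_simp

/-- The operator bound on the graded subspaces. -/
theorem norm_X_le (hπ : IsOrth π) (hN : 1 ≤ Fintype.card Y) {M : ℕ} {w : E} (hw : w ∈ Vle π M) :
    ‖Xop π w‖ ≤ 5 * ((M : ℝ) + 2) * ‖w‖ := by
  by_cases hw0 : w = 0
  · simp [hw0]
  set z := Xop π w with hzdef
  by_cases hz0 : z = 0
  · rw [hz0, norm_zero]; positivity
  have hwpos : 0 < ‖w‖ := norm_pos_iff.mpr hw0
  have hzpos : 0 < ‖z‖ := norm_pos_iff.mpr hz0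
  have hz' : (‖z‖⁻¹) • z ∈ Vle π (M + 2) := Submodule.smul_mem _ _ (Xop_mem_Vle hw)
  have hw' : (‖w‖⁻¹) • w ∈ Vle π (M + 2) :=
    Submodule.smul_mem _ _ (Vle_mono (by omega) hw)
  have h := inner_X_le hπ (M := M + 2) (by omega) hN hz' hw'
  have hn1 : ‖(‖z‖⁻¹) • z‖ = 1 := by
    rw [norm_smul, norm_inv, norm_norm]; field_simp
  have hn2 : ‖(‖w‖⁻¹) • w‖ = 1 := by
    rw [norm_smul, norm_inv, norm_norm]; field_simp
  rw [hn1, hn2] at h
  have hX : Xop π ((‖w‖⁻¹) • w) = (‖w‖⁻¹) • z := by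
    rw [map_smul]
  rw [hX, inner_smul_left, inner_smul_right, real_inner_self_eq_norm_sq] at h
  simp only [conj_trivial] at h
  have h2 : ‖z‖⁻¹ * (‖w‖⁻¹ * ‖z‖ ^ 2) = ‖z‖ / ‖w‖ := by
    field_simp
  rw [h2] at h
  push_cast at h
  have h3 : ‖z‖ / ‖w‖ ≤ 5 * ((M : ℝ) + 2) := by
    have hMnn : (0 : ℝ) ≤ M := Nat.cast_nonneg M
    nlinarith
  rwa [div_le_iff₀ hwpos] at h3

theorem mem_Vle_zero_of_sector {u : E} (hu : u ∈ sector π ∅) : u ∈ Vle π 0 :=
  sector_le_Vle (by simp) hu

/-- Moment bound along the orbit of a flip-invariant vector. -/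
theorem moment_bound (hπ : IsOrth π) (hN : 1 ≤ Fintype.card Y) {u : E} (hu : u ∈ sector π ∅)
    (j : ℕ) : (Xop π ^ j) (Xop π u) ∈ Vle π (2 * j + 2) ∧
      ‖(Xop π ^ j) (Xop π u)‖ ≤ (10 : ℝ) ^ j * ((j + 1).factorial : ℝ) * ‖Xop π u‖ := by
  induction j with
  | zero =>
    constructor
    · simpa using Xop_mem_Vle (mem_Vle_zero_of_sector hu)
    · simp
  | succ j ih =>
    have h1 : (Xop π ^ (j + 1)) (Xop π u) = Xop π ((Xop π ^ j) (Xop π u)) := by
      rw [pow_succ']; rfl
    rw [h1]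
    constructor
    · have := Xop_mem_Vle ih.1
      have h2 : 2 * (j + 1) + 2 = 2 * j + 2 + 2 := by ring
      rw [h2]
      exact this
    · have h2 := norm_X_le hπ hN ih.1
      have hf : ((j + 1 + 1).factorial : ℝ) = ((j : ℝ) + 2) * ((j + 1).factorial : ℝ) := by
        rw [Nat.factorial_succ (j + 1)]; push_cast; ring
      calc _ ≤ 5 * (((2 * j + 2 : ℕ) : ℝ) + 2) * ‖(Xop π ^ j) (Xop π u)‖ := h2
        _ ≤ 5 * (((2 * j + 2 : ℕ) : ℝ) + 2) *
              ((10 : ℝ) ^ j * ((j + 1).factorial : ℝ) * ‖Xop π u‖) := by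
            gcongr
            exact ih.2
        _ = (10 : ℝ) ^ (j + 1) * ((j + 1 + 1).factorial : ℝ) * ‖Xop π u‖ := by
            rw [hf]; push_cast; ring

/-- The first moment vanishes on flip-invariant vectors. -/
theorem inner_Xop_self (hπ : IsOrth π) {u : E} (hu : u ∈ sector π ∅) :
    inner ℝ u (Xop π u) = 0 := by
  rw [Xop_apply, inner_smul_right, inner_sum]
  simp only [inner_sum]
  have : ∀ y y' : Y, inner ℝ u (Dop π y y' u) = 0 := by
    intro y y'
    by_cases h : y = y'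
    · subst h
      have hs : π (sigma y) u = u := by simpa using hu y
      rw [Dop_self, hs]
      simp
    · refine sector_orthogonal hπ ?_ hu (Dop_mem_sector h hu)
      intro h0
      have : y ∈ symmDiff (∅ : Finset Y) {y, y'} := by
        rw [Finset.mem_symmDiff]; simp
      rw [← h0] at this
      simp at this
  simp [this]

theorem symmDiff_empty_left (A : Finset Y) : symmDiff (∅ : Finset Y) A = A := by
  ext x; simp [Finset.mem_symmDiff]

/-- Energy control of `X u` for flip-invariant `u`. -/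
theorem norm_X_sq_le (hπ : IsOrth π) (hN : 1 ≤ Fintype.card Y) {u : E} (hu : u ∈ sector π ∅) :
    ‖Xop π u‖ ^ 2 ≤ (4 / (Fintype.card Y : ℝ)) * inner ℝ u (Lhat π u) := by
  set N : ℝ := (Fintype.card Y : ℝ) with hNdef
  have hNpos : 0 < N := by
    have : (1 : ℝ) ≤ N := by rw [hNdef]; exact_mod_cast hN
    linarith
  let d : Y → Y → E := fun y y' => Dop π y y' u
  have hs : ∀ y, π (sigma y) u = u := by
    intro y; simpa using hu y
  have hdiag : ∀ y, d y y = 0 := by
    intro y
    simp only [d]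
    rw [Dop_self, hs]; simp
  have hcomm : ∀ y y', d y y' = d y' y := by
    intro y y'
    simp only [d]
    rw [Dop_comm]
  have hsec : ∀ {y y' : Y}, y ≠ y' → d y y' ∈ sector π {y, y'} := by
    intro y y' h
    have := Dop_mem_sector h hu
    rwa [symmDiff_empty_left] at this
  have hinner : ∀ {y y' : Y}, y ≠ y' →
      ∑ z : Y, ∑ z' : Y, inner ℝ (d y y') (d z z') = 2 * ‖d y y'‖ ^ 2 := by
    intro y y' h
    let g : Y → Y → ℝ := fun z z' => inner ℝ (d y y') (d z z')
    have hne : (y, y') ≠ (y', y) := by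
      simp [h]
    calc ∑ z : Y, ∑ z' : Y, inner ℝ (d y y') (d z z')
        = ∑ p : Y × Y, g p.1 p.2 := (Fintype.sum_prod_type' g).symm
      _ = ∑ p ∈ ({(y, y'), (y', y)} : Finset (Y × Y)), g p.1 p.2 := by
          symm
          apply Finset.sum_subset (Finset.subset_univ _)
          rintro ⟨z, z'⟩ _ hp
          simp only [Finset.mem_insert, Finset.mem_singleton, not_or] at hp
          simp only [g]
          by_cases hzz : z = z'
          · subst hzz
            rw [hdiag]; simp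
          · refine sector_orthogonal hπ ?_ (hsec h) (hsec hzz)
            intro h0
            have h1 : z ∈ ({y, y'} : Finset Y) := by rw [h0]; simp
            have h2 : z' ∈ ({y, y'} : Finset Y) := by rw [h0]; simp
            simp only [Finset.mem_insert, Finset.mem_singleton] at h1 h2
            rcases h1 with rfl | rfl <;> rcases h2 with rfl | rfl <;> simp_all
      _ = g y y' + g y' y := Finset.sum_pair hne
      _ = 2 * ‖d y y'‖ ^ 2 := by
          simp only [g]
          rw [← hcomm y y', real_inner_self_eq_norm_sq]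
          ring
  have hnormsq : ‖∑ y : Y, ∑ y' : Y, d y y'‖ ^ 2
      = ∑ y : Y, ∑ y' : Y, (if y = y' then (0 : ℝ) else 2 * ‖d y y'‖ ^ 2) := by
    rw [← real_inner_self_eq_norm_sq, sum_inner]
    refine Finset.sum_congr rfl (fun y _ => ?_)
    rw [sum_inner]
    refine Finset.sum_congr rfl (fun y' _ => ?_)
    by_cases h : y = y'
    · subst h
      simp [hdiag]
    · rw [if_neg h, ← hinner h, inner_sum]
      simp only [inner_sum]
  let e : Bool → Bool → Y → Y → ℝ := fun s s' y y' =>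
    inner ℝ u ((1 - π (swap (s, y) (s', y'))) u)
  have henn : ∀ s s' y y', 0 ≤ e s s' y y' := fun s s' y y' => psdOp_one_sub_swap hπ _ _ u
  have hbound : ∀ y y' : Y, (if y = y' then (0 : ℝ) else 2 * ‖d y y'‖ ^ 2)
      ≤ 16 * (e false false y y' + e true true y y' + e false true y y' + e true false y y') := by
    intro y y'
    by_cases h : y = y'
    · rw [if_pos h]
      have := henn false false y y'
      have := henn true true y y'
      have := henn false true y y'
      have := henn true false y y'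
      linarith
    · rw [if_neg h]
      have h1 : ∀ s s', ‖u - π (swap (s, y) (s', y')) u‖ ^ 2 = 2 * e s s' y y' := by
        intro s s'
        simp only [e]
        rw [inner_one_sub_swap hπ]
        ring
      have hd : d y y' = - (u - π (swap (false, y) (false, y')) u)
          - (u - π (swap (true, y) (true, y')) u)
          + (u - π (swap (false, y) (true, y')) u)
          + (u - π (swap (true, y) (false, y')) u) := by
        simp only [d, Dop_apply]
        abel
      set p := u - π (swap (false, y) (false, y')) u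
      set q := u - π (swap (true, y) (true, y')) u
      set r := u - π (swap (false, y) (true, y')) u
      set v := u - π (swap (true, y) (false, y')) u
      have hn : ‖d y y'‖ ≤ ‖p‖ + ‖q‖ + ‖r‖ + ‖v‖ := by
        rw [hd]
        calc ‖-p - q + r + v‖ ≤ ‖-p - q + r‖ + ‖v‖ := norm_add_le _ _
          _ ≤ ‖-p - q‖ + ‖r‖ + ‖v‖ := by gcongr; exact norm_add_le _ _
          _ ≤ ‖-p‖ + ‖q‖ + ‖r‖ + ‖v‖ := by gcongr; exact norm_sub_le _ _
          _ = _ := by rw [norm_neg]
      have hsq : ‖d y y'‖ ^ 2 ≤ 4 * (‖p‖ ^ 2 + ‖q‖ ^ 2 + ‖r‖ ^ 2 + ‖v‖ ^ 2) := by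
        have h0 := norm_nonneg (d y y')
        have hp := norm_nonneg p
        have hq := norm_nonneg q
        have hr := norm_nonneg r
        have hv := norm_nonneg v
        calc ‖d y y'‖ ^ 2 ≤ (‖p‖ + ‖q‖ + ‖r‖ + ‖v‖) ^ 2 := by gcongr
          _ ≤ _ := by
            nlinarith [sq_nonneg (‖p‖ - ‖q‖), sq_nonneg (‖p‖ - ‖r‖), sq_nonneg (‖p‖ - ‖v‖),
              sq_nonneg (‖q‖ - ‖r‖), sq_nonneg (‖q‖ - ‖v‖), sq_nonneg (‖r‖ - ‖v‖)]
      rw [h1 false false, h1 true true, h1 false true, h1 true false] at hsq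
      linarith
  have hLS : inner ℝ u (LS π Finset.univ u) = (1 / 2) * ∑ y : Y, ∑ y' : Y,
      (e false false y y' + e true true y y' + e false true y y' + e true false y y') := by
    have h1 : LS π Finset.univ u
        = ∑ a : Bool × Y, ∑ b : Bool × Y, (1 / 2 : ℝ) • ((1 - π (swap a b)) u) := by
      unfold LS
      simp
    rw [h1, inner_sum]
    simp only [inner_sum, inner_smul_right, ← Finset.mul_sum]
    congr 1
    simp only [Fintype.sum_prod_type, Fintype.sum_bool, Finset.sum_add_distrib, e]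
    ring
  have hX : Xop π u = ((4 * N)⁻¹) • ∑ y : Y, ∑ y' : Y, d y y' := Xop_apply π u
  have hLhat : inner ℝ u (Lhat π u) = (2 * N)⁻¹ * inner ℝ u (LS π Finset.univ u) := by
    unfold Lhat
    have hcard : ((Fintype.card (Bool × Y) : ℕ) : ℝ) = 2 * N := by
      rw [Fintype.card_prod, Fintype.card_bool]; push_cast; rfl
    rw [hcard, smul_apply, inner_smul_right]
  have hfinal : ‖∑ y : Y, ∑ y' : Y, d y y'‖ ^ 2 ≤ 32 * inner ℝ u (LS π Finset.univ u) := by
    rw [hnormsq, hLS]
    calc _ ≤ ∑ y : Y, ∑ y' : Y, 16 * (e false false y y' + e true true y y'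
            + e false true y y' + e true false y y') :=
          Finset.sum_le_sum (fun y _ => Finset.sum_le_sum (fun y' _ => hbound y y'))
      _ = _ := by
          simp only [← Finset.mul_sum]
          ring
  rw [hX, norm_smul, mul_pow, hLhat]
  have hκ : ‖(4 * N)⁻¹‖ ^ 2 = ((4 * N)⁻¹) ^ 2 := by
    rw [Real.norm_eq_abs, sq_abs]
  rw [hκ]
  calc ((4 * N)⁻¹) ^ 2 * ‖∑ y : Y, ∑ y' : Y, d y y'‖ ^ 2
      ≤ ((4 * N)⁻¹) ^ 2 * (32 * inner ℝ u (LS π Finset.univ u)) := by
        gcongr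
    _ = (4 / N) * ((2 * N)⁻¹ * inner ℝ u (LS π Finset.univ u)) := by
        field_simp
        ring

/-- The key estimate. -/
theorem key_lemma [CompleteSpace E] (hπ : IsOrth π) (hN : 1 ≤ Fintype.card Y) {u : E}
    (hu : u ∈ sector π ∅) {t : ℝ} (ht0 : 0 ≤ t) (ht : t ≤ 1 / 18) :
    inner ℝ u (exp (t • Xop π) u)
      ≤ ‖u‖ ^ 2 + (1 / (72 * (Fintype.card Y : ℝ))) * inner ℝ u (Lhat π u) := by
  set N : ℝ := (Fintype.card Y : ℝ) with hNdef
  have hNpos : 0 < N := by
    have : (1 : ℝ) ≤ N := by rw [hNdef]; exact_mod_cast hN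
    linarith
  have hr : (10 : ℝ) * t < 1 := by linarith
  have h1 := inner_exp_le_of_moments (symOp_Xop hπ) u (C := 10) (t := t) (by norm_num) ht0 hr
    (inner_Xop_self hπ hu) (fun j => (moment_bound hπ hN hu j).2)
  have h2 := norm_X_sq_le hπ hN hu
  have hI : 0 ≤ inner ℝ u (Lhat π u) := psdOp_Lhat hπ u
  have hpos : 0 < 1 - 10 * t := by linarith
  have h3 : t ^ 2 / (2 * (1 - 10 * t)) ≤ 1 / 288 := by
    rw [div_le_div_iff₀ (by positivity) (by norm_num)]
    nlinarith
  have h4 : t ^ 2 / (2 * (1 - 10 * t)) * ‖Xop π u‖ ^ 2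
      ≤ (1 / 288) * ((4 / N) * inner ℝ u (Lhat π u)) := by
    have h5 : 0 ≤ t ^ 2 / (2 * (1 - 10 * t)) := by positivity
    exact mul_le_mul h3 h2 (by positivity) (by norm_num)
  have h6 : (1 / 288) * ((4 / N) * inner ℝ u (Lhat π u))
      = (1 / (72 * N)) * inner ℝ u (Lhat π u) := by
    field_simp
    ring
  linarith

end Vale.Agent.Lib.P162
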