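import Vale.Agent.Lib.P162.Key

/-! One step of the recursion: from the two sides to the whole deck. -/

namespace Vale.Agent.Lib.P162

open Equiv NormedSpace

set_option linter.unusedSectionVars false

variable {E : Type*} [NormedAddCommGroup E] [InnerProductSpace ℝ E]

section general

variable {P : Type*} [DecidableEq P] [Fintype P]

/-- Anything commuting with all values of a representation commutes with its energy operator. -/
theorem commute_LS_of_commute_pi {π : Perm P →* (E →L[ℝ] E)} {B : E →L[ℝ] E}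
    (h : ∀ g, Commute B (π g)) (S : Finset P) : Commute B (LS π S) := by
  unfold LS
  refine Commute.sum_right _ _ _ (fun a _ => Commute.sum_right _ _ _ (fun b _ => ?_))
  exact ((Commute.one_right B).sub_right (h _)).smul_right _

theorem commute_Lhat_of_commute_pi {π : Perm P →* (E →L[ℝ] E)} {B : E →L[ℝ] E}
    (h : ∀ g, Commute B (π g)) : Commute B (Lhat π) := by
  unfold Lhat
  exact (commute_LS_of_commute_pi h _).smul_right _

end general

section expo

variable [CompleteSpace E]

theorem inner_exp_neg_eq {L : E →L[ℝ] E} (hL : SymOp L) (t : ℝ) (u : E) :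
    inner ℝ u (exp ((-t) • L) u) = ‖exp ((-(t / 2)) • L) u‖ ^ 2 := by
  rw [inner_exp_eq_norm_sq (hL.smul (-t)), smul_smul]
  congr 3
  ring_nf

/-- Two commuting sides. -/
theorem side_step {L0 L1 R0 R1 : E →L[ℝ] E} (_hL0 : SymOp L0) (hL1 : SymOp L1)
    (h01 : Commute L0 L1) {t : ℝ}
    (hR0 : ∀ v, ‖R0 v‖ ^ 2 ≤ inner ℝ v (exp ((-t) • L0) v))
    (hR1 : ∀ v, ‖R1 v‖ ^ 2 ≤ inner ℝ v (exp ((-t) • L1) v))
    (hc : Commute R0 L1) (v : E) :
    ‖R1 (R0 v)‖ ^ 2 ≤ inner ℝ v (exp ((-t) • (L0 + L1)) v) := by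
  set A := exp ((-(t / 2)) • L1) with hA
  have hAsym : SymOp A := symOp_exp (hL1.smul _)
  have hcA : Commute R0 A := Commute.exp_right (hc.smul_right _)
  have h1 : ‖R1 (R0 v)‖ ^ 2 ≤ ‖A (R0 v)‖ ^ 2 := by
    refine (hR1 (R0 v)).trans (le_of_eq ?_)
    exact inner_exp_neg_eq hL1 t (R0 v)
  have h2 : A (R0 v) = R0 (A v) := by
    have := congrArg (fun B : E →L[ℝ] E => B v) hcA.eq
    exact this.symm
  rw [h2] at h1
  have h3 := hR0 (A v)
  have hexp : exp ((-t) • (L0 + L1)) = A * exp ((-t) • L0) * A := by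
    have hc1 : Commute ((-t) • L0) ((-t) • L1) := (h01.smul_left _).smul_right _
    have hc2 : Commute A (exp ((-t) • L0)) :=
      Commute.exp (((h01.symm).smul_left _).smul_right _)
    have hAA : A * A = exp ((-t) • L1) := by
      rw [hA, exp_smul_mul]
      congr 2
      ring
    rw [smul_add, exp_add_comm hc1, ← hAA, hc2.eq, mul_assoc]
  have h4 : inner ℝ (A v) (exp ((-t) • L0) (A v)) = inner ℝ v (exp ((-t) • (L0 + L1)) v) := by
    rw [hexp, hAsym v]
    rfl
  rw [h4] at h3
  exact h1.trans h3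

/-- Iterating a majorant. -/
theorem iterate_bound {R L : E →L[ℝ] E} (hL : SymOp L) {t : ℝ}
    (hR : ∀ u, ‖R u‖ ^ 2 ≤ inner ℝ u (exp ((-t) • L) u)) (hc : Commute R L) (k : ℕ) (u : E) :
    ‖(R ^ k) u‖ ^ 2 ≤ inner ℝ u (exp ((-(k * t)) • L) u) := by
  induction k generalizing u with
  | zero =>
    simp
  | succ k ih =>
    set A := exp ((-(t / 2)) • L) with hA
    have hAsym : SymOp A := symOp_exp (hL.smul _)
    have hcA : Commute R A := Commute.exp_right (hc.smul_right _)
    have hcAk : Commute (R ^ k) A := hcA.pow_left k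
    have h0 : (R ^ (k + 1)) u = R ((R ^ k) u) := by
      rw [pow_succ']; rfl
    rw [h0]
    have h1 := hR ((R ^ k) u)
    rw [inner_exp_neg_eq hL t] at h1
    have h2 : A ((R ^ k) u) = (R ^ k) (A u) := by
      have := congrArg (fun B : E →L[ℝ] E => B u) hcAk.eq
      exact this.symm
    rw [h2] at h1
    have h3 := ih (A u)
    have hexp : exp ((-(((k + 1 : ℕ) : ℝ) * t)) • L) = A * exp ((-(k * t)) • L) * A := by
      rw [hA, exp_smul_mul, exp_smul_mul]
      congr 2
      push_cast
      ring
    have h4 : inner ℝ (A u) (exp ((-(k * t)) • L) (A u))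
        = inner ℝ u (exp ((-(((k + 1 : ℕ) : ℝ) * t)) • L) u) := by
      rw [hexp, hAsym u]
      rfl
    rw [h4] at h3
    exact h1.trans h3

end expo

variable {Y : Type*} [DecidableEq Y] [Fintype Y]

/-- The random flip of side coordinates attached to a coin function. -/
def flipPerm (c : Y → Bool) : Perm (Bool × Y) where
  toFun x := (xor x.1 (c x.2), x.2)
  invFun x := (xor x.1 (c x.2), x.2)
  left_inv := by
    rintro ⟨s, y⟩
    simp
  right_inv := by
    rintro ⟨s, y⟩
    simp

@[simp] theorem flipPerm_apply (c : Y → Bool) (s : Bool) (y : Y) :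
    flipPerm c (s, y) = (xor s (c y), y) := rfl

/-- The uniform average of all flips. -/
noncomputable def T0 (π : Perm (Bool × Y) →* (E →L[ℝ] E)) : E →L[ℝ] E :=
  ((Fintype.card (Y → Bool) : ℝ)⁻¹) • ∑ c : Y → Bool, π (flipPerm c)

variable {π : Perm (Bool × Y) →* (E →L[ℝ] E)}

theorem T0_apply (u : E) :
    T0 π u = ((Fintype.card (Y → Bool) : ℝ)⁻¹) • ∑ c : Y → Bool, π (flipPerm c) u := by
  unfold T0
  simp

theorem sigma_mul_flipPerm (y : Y) (c : Y → Bool) :
    sigma y * flipPerm c = flipPerm (Function.update c y (!c y)) := by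
  ext ⟨s, w⟩
  all_goals
    by_cases h : w = y
    · subst h
      simp [sigma_self]
    · simp [sigma_ne h, Function.update_of_ne h]

/-- The average of flips lands in the invariant sector. -/
theorem T0_mem_sector (u : E) : T0 π u ∈ sector π ∅ := by
  intro y
  simp only [Finset.notMem_empty, if_false]
  rw [T0_apply, map_smul, map_sum]
  congr 1
  have hinv : Function.Involutive (fun c : Y → Bool => Function.update c y (!c y)) := by
    intro c
    simp
  have h := Equiv.sum_comp (hinv.toPerm) (fun c : Y → Bool => π (flipPerm c) u)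
  rw [← h]
  refine Finset.sum_congr rfl (fun c _ => ?_)
  have h2 := sigma_mul_flipPerm y c
  have h3 : π (sigma y) (π (flipPerm c) u) = π (sigma y * flipPerm c) u := by
    rw [map_mul]; rfl
  rw [h3, h2]
  rfl

theorem norm_T0_le (hπ : IsOrth π) (u : E) : ‖T0 π u‖ ≤ ‖u‖ := by
  rw [T0_apply, norm_smul]
  have hcard : (0 : ℝ) < (Fintype.card (Y → Bool) : ℝ) := by
    have : 0 < Fintype.card (Y → Bool) := Fintype.card_pos
    exact_mod_cast this
  have h1 : ‖∑ c : Y → Bool, π (flipPerm c) u‖ ≤ (Fintype.card (Y → Bool) : ℝ) * ‖u‖ := by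
    calc _ ≤ ∑ c : Y → Bool, ‖π (flipPerm c) u‖ := norm_sum_le _ _
      _ = ∑ _c : Y → Bool, ‖u‖ := Finset.sum_congr rfl (fun c _ => norm_pi hπ _ _)
      _ = _ := by simp
  rw [norm_inv, Real.norm_of_nonneg hcard.le]
  calc _ ≤ (Fintype.card (Y → Bool) : ℝ)⁻¹ * ((Fintype.card (Y → Bool) : ℝ) * ‖u‖) := by
        gcongr
    _ = ‖u‖ := by field_simp

theorem commute_T0_of_commute_pi {B : E →L[ℝ] E} (h : ∀ g, Commute B (π g)) :
    Commute B (T0 π) := by
  unfold T0
  exact (Commute.sum_right _ _ _ (fun c _ => h _)).smul_right _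

theorem isOrth_side (hπ : IsOrth π) (s : Bool) : IsOrth (π.comp (side s)) :=
  fun g x y => hπ _ x y

/-- Side energies commute with the other side. -/
theorem commute_side_pi (g h : Perm Y) :
    Commute (π (side true g)) (π (side false h)) := by
  unfold Commute SemiconjBy
  rw [← map_mul, ← map_mul, side_commute]

theorem commute_L1_pi0 (h : Perm Y) :
    Commute (Lhat (π.comp (side true))) (π (side false h)) := by
  have : Commute (π (side false h)) (Lhat (π.comp (side true))) :=
    commute_Lhat_of_commute_pi (fun g => (commute_side_pi g h).symm)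
  exact this.symm

theorem commute_L0_L1 :
    Commute (Lhat (π.comp (side false))) (Lhat (π.comp (side true))) := by
  have : Commute (Lhat (π.comp (side true))) (Lhat (π.comp (side false))) :=
    commute_Lhat_of_commute_pi (fun g => commute_L1_pi0 g)
  exact this.symm

variable [CompleteSpace E]

/-- Recursion step at the level of a fixed representation. -/
theorem rec_step (hπ : IsOrth π) (hN : 1 ≤ Fintype.card Y) {R0 R1 : E →L[ℝ] E} {t : ℝ}
    (ht0 : 0 ≤ t) (ht : t ≤ 1 / 18)
    (hR0 : ∀ v, ‖R0 v‖ ^ 2 ≤ inner ℝ v (exp ((-t) • Lhat (π.comp (side false))) v))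
    (hR1 : ∀ v, ‖R1 v‖ ^ 2 ≤ inner ℝ v (exp ((-t) • Lhat (π.comp (side true))) v))
    (hc : Commute R0 (Lhat (π.comp (side true)))) (u : E) :
    ‖R1 (R0 (T0 π u))‖ ^ 2 ≤
      inner ℝ u (exp ((-(t - 1 / (72 * (Fintype.card Y : ℝ)))) • Lhat π) u) := by
  set L := Lhat π with hLdef
  set L0 := Lhat (π.comp (side false)) with hL0def
  set L1 := Lhat (π.comp (side true)) with hL1def
  set X := Xop π with hXdef
  set a : ℝ := 1 / (72 * (Fintype.card Y : ℝ)) with hadef
  have hNpos : (0 : ℝ) < (Fintype.card Y : ℝ) := by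
    have : (1 : ℝ) ≤ (Fintype.card Y : ℝ) := by exact_mod_cast hN
    linarith
  have ha : 0 ≤ a := by positivity
  have hLs : SymOp L := symOp_Lhat hπ
  have hLp : PsdOp L := psdOp_Lhat hπ
  have hL0s : SymOp L0 := symOp_Lhat (isOrth_side hπ false)
  have hL1s : SymOp L1 := symOp_Lhat (isOrth_side hπ true)
  have hcent : ∀ g, Commute L (π g) := fun g => (commute_pi_Lhat π g).symm
  have hLL0 : Commute L L0 := commute_Lhat_of_commute_pi (fun _ => hcent _)
  have hLL1 : Commute L L1 := commute_Lhat_of_commute_pi (fun _ => hcent _)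
  have hLX : Commute L X := by
    rw [hXdef]
    unfold Xop
    exact ((Commute.refl L).sub_right hLL0).sub_right hLL1
  have hsum : (-t) • (L0 + L1) = (-t) • L + t • X := by
    rw [hXdef]
    unfold Xop
    module
  set v := T0 π u with hv
  have hvsec : v ∈ sector π ∅ := T0_mem_sector u
  have h1 := side_step hL0s hL1s commute_L0_L1 hR0 hR1 hc v
  -- split the exponential
  set A := exp ((-(t / 2)) • L) with hA
  have hAsym : SymOp A := symOp_exp (hLs.smul _)
  have hcAX : Commute A (exp (t • X)) :=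
    Commute.exp ((hLX.smul_left _).smul_right _)
  have hexp : exp ((-t) • (L0 + L1)) = A * exp (t • X) * A := by
    have hAA : exp ((-t) • L) = A * A := by
      rw [hA, exp_smul_mul]
      congr 2
      ring
    rw [hsum, exp_add_comm ((hLX.smul_left _).smul_right _), hAA]
    calc A * A * exp (t • X) = A * (A * exp (t • X)) := mul_assoc _ _ _
      _ = A * (exp (t • X) * A) := by rw [hcAX.eq]
      _ = A * exp (t • X) * A := (mul_assoc _ _ _).symm
  set w := A v with hw
  have hwsec : w ∈ sector π ∅ := by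
    intro y
    simp only [Finset.notMem_empty, if_false]
    have hc3 : Commute (π (sigma y)) A := Commute.exp_right ((hcent _).symm.smul_right _)
    have h3 := congrArg (fun B : E →L[ℝ] E => B v) hc3.eq
    have h4 : π (sigma y) v = v := by
      have := hvsec y
      simpa using this
    change π (sigma y) (A v) = A (π (sigma y) v) at h3
    rw [hw, h3, h4]
  have hkey := key_lemma hπ hN hwsec ht0 ht
  have h5 : inner ℝ v (exp ((-t) • (L0 + L1)) v) = inner ℝ w (exp (t • X) w) := by
    rw [hexp]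
    change inner ℝ v (A (exp (t • X) (A v))) = _
    rw [← hAsym v]
  rw [h5] at h1
  have h6 : ‖w‖ ^ 2 + a * inner ℝ w (L w) ≤ inner ℝ w (exp (a • L) w) := by
    have := one_add_le_exp (hLs.smul a) (hLp.smul ha) w
    simpa [inner_smul_right] using this
  have h7 : inner ℝ w (exp (a • L) w) = inner ℝ v (exp ((-(t - a)) • L) v) := by
    have hE : exp ((-(t - a)) • L) = A * exp (a • L) * A := by
      rw [hA, exp_smul_mul, exp_smul_mul]
      congr 2
      ring
    rw [hE]
    change _ = inner ℝ v (A (exp (a • L) (A v)))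
    rw [← hAsym v]
  -- remove the flip average
  set C := exp ((-((t - a) / 2)) • L) with hC
  have hCc : Commute (T0 π) C := by
    have : Commute C (T0 π) := commute_T0_of_commute_pi (fun g =>
      (Commute.exp_left ((hcent g).smul_left _)))
    exact this.symm
  have h8 : inner ℝ v (exp ((-(t - a)) • L) v) ≤ inner ℝ u (exp ((-(t - a)) • L) u) := by
    rw [inner_exp_neg_eq hLs, inner_exp_neg_eq hLs]
    have h9 : exp ((-((t - a) / 2)) • L) v = T0 π (C u) := by
      have := congrArg (fun B : E →L[ℝ] E => B u) hCc.eq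
      exact this.symm
    rw [h9]
    gcongr
    exact norm_T0_le hπ _
  calc ‖R1 (R0 v)‖ ^ 2 ≤ inner ℝ w (exp (t • X) w) := h1
    _ ≤ ‖w‖ ^ 2 + a * inner ℝ w (L w) := hkey
    _ ≤ inner ℝ w (exp (a • L) w) := h6
    _ = inner ℝ v (exp ((-(t - a)) • L) v) := h7
    _ ≤ _ := h8

end Vale.Agent.Lib.P162
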