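import Vale.Agent.Lib.P162.Diff
import Vale.Agent.Lib.P162.Step

/-! The projections to the flip sectors, the weighted form inequality for the difference
operator, and the resulting exponential bound on the invariant sector. -/

namespace Vale.Agent.Lib.P162

open Equiv NormedSpace

set_option linter.unusedSectionVars false

variable {Y : Type*} [DecidableEq Y] [Fintype Y]
variable {E : Type*} [NormedAddCommGroup E] [InnerProductSpace ℝ E]

/-- The character of a subset on the coin functions. -/
noncomputable def chi (S : Finset Y) (c : Y → Bool) : ℝ := ∏ y ∈ S, (if c y then -1 else 1)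

theorem chi_update (S : Finset Y) (c : Y → Bool) (y : Y) :
    chi S (Function.update c y (!c y)) = if y ∈ S then - chi S c else chi S c := by
  unfold chi
  by_cases hy : y ∈ S
  · simp only [hy, if_true]
    rw [← Finset.mul_prod_erase S _ hy, ← Finset.mul_prod_erase S _ hy]
    have h2 : ∏ x ∈ S.erase y, (if Function.update c y (!c y) x = true then (-1 : ℝ) else 1)
        = ∏ x ∈ S.erase y, (if c x = true then (-1 : ℝ) else 1) := by
      refine Finset.prod_congr rfl (fun x hx => ?_)
      rw [Function.update_of_ne (Finset.ne_of_mem_erase hx)]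
    rw [h2, Function.update_self]
    cases c y <;> simp
  · simp only [hy, if_false]
    refine Finset.prod_congr rfl (fun x hx => ?_)
    have : x ≠ y := fun e => hy (e ▸ hx)
    rw [Function.update_of_ne this]

/-- The sum of all characters at a coin function. -/
theorem sum_chi (c : Y → Bool) :
    ∑ S : Finset Y, chi S c = if c = (fun _ => false) then (Fintype.card (Y → Bool) : ℝ) else 0 := by
  unfold chi
  have h1 : ∑ S : Finset Y, ∏ y ∈ S, (if c y then (-1 : ℝ) else 1)
      = ∏ y : Y, (1 + (if c y then (-1 : ℝ) else 1)) := by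
    rw [Finset.prod_one_add, Finset.powerset_univ]
  rw [h1]
  by_cases hc : c = fun _ => false
  · subst hc
    simp only [if_true, Bool.false_eq_true, if_false]
    rw [Finset.prod_const, Finset.card_univ, Fintype.card_fun, Fintype.card_bool]
    norm_num
  · rw [if_neg hc]
    have : ∃ y, c y = true := by
      by_contra hcon
      push Not at hcon
      apply hc
      funext y
      simpa using hcon y
    obtain ⟨y, hy⟩ := this
    apply Finset.prod_eq_zero (Finset.mem_univ y)
    simp [hy]

theorem flipPerm_false : flipPerm (fun _ : Y => false) = 1 := by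
  ext ⟨s, y⟩ <;> simp

variable {π : Perm (Bool × Y) →* (E →L[ℝ] E)}

/-- The projection to a flip sector. -/
noncomputable def secProj (π : Perm (Bool × Y) →* (E →L[ℝ] E)) (S : Finset Y) : E →L[ℝ] E :=
  ((Fintype.card (Y → Bool) : ℝ)⁻¹) • ∑ c : Y → Bool, chi S c • π (flipPerm c)

theorem secProj_apply (S : Finset Y) (w : E) :
    secProj π S w = ((Fintype.card (Y → Bool) : ℝ)⁻¹) • ∑ c : Y → Bool, chi S c • π (flipPerm c) w := by
  unfold secProj
  simp

theorem secProj_mem (S : Finset Y) (w : E) : secProj π S w ∈ sector π S := by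
  intro y
  rw [secProj_apply, map_smul, map_sum]
  have hinv : Function.Involutive (fun c : Y → Bool => Function.update c y (!c y)) := by
    intro c
    simp
  have h := Equiv.sum_comp (hinv.toPerm)
    (fun c : Y → Bool => chi S (Function.update c y (!c y)) • π (flipPerm c) w)
  have h1 : ∑ c : Y → Bool, π (sigma y) (chi S c • π (flipPerm c) w)
      = ∑ c : Y → Bool, chi S (Function.update c y (!c y)) • π (flipPerm c) w := by
    rw [← h]
    refine Finset.sum_congr rfl (fun c _ => ?_)
    have h2 := sigma_mul_flipPerm y c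
    have h3 : π (sigma y) (π (flipPerm c) w) = π (sigma y * flipPerm c) w := by
      rw [map_mul]; rfl
    rw [map_smul, h3, h2]
    simp only [Function.Involutive.coe_toPerm, Function.update_self, Bool.not_not,
      Function.update_idem, Function.update_eq_self]
  rw [h1]
  simp only [chi_update]
  by_cases hy : y ∈ S
  · simp only [hy, if_true, neg_smul]
    rw [Finset.sum_neg_distrib, smul_neg]
  · simp only [hy, if_false]

theorem sum_secProj (w : E) : ∑ S : Finset Y, secProj π S w = w := by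
  simp only [secProj_apply]
  rw [← Finset.smul_sum, Finset.sum_comm]
  simp only [← Finset.sum_smul, sum_chi]
  rw [Finset.sum_eq_single (fun _ => false)]
  · simp only [if_true, flipPerm_false, map_one]
    have hc : (Fintype.card (Y → Bool) : ℝ) ≠ 0 := by
      have : 0 < Fintype.card (Y → Bool) := Fintype.card_pos
      exact_mod_cast this.ne'
    rw [smul_smul, inv_mul_cancel₀ hc, one_smul]
    rfl
  · intro c _ hc
    simp [hc]
  · simp

/-- A flip-invariant vector lies in the sector of the empty set only. -/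
theorem secProj_of_mem_empty (hπ : IsOrth π) {u : E} (hu : u ∈ sector π ∅) {S : Finset Y}
    (hS : S ≠ ∅) : secProj π S u = 0 := by
  have h1 : inner ℝ (secProj π S u) (∑ T, secProj π T u) = ‖secProj π S u‖ ^ 2 := by
    rw [inner_sum, Finset.sum_eq_single S]
    · exact real_inner_self_eq_norm_sq _
    · intro T _ hT
      exact sector_orthogonal hπ (Ne.symm hT) (secProj_mem S u) (secProj_mem T u)
    · simp
  rw [sum_secProj] at h1
  have h2 : inner ℝ (secProj π S u) u = 0 := sector_orthogonal hπ hS (secProj_mem S u) hu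
  rw [h2] at h1
  have : ‖secProj π S u‖ = 0 := by
    have h3 : ‖secProj π S u‖ ^ 2 = 0 := h1.symm
    simpa using h3
  simpa using this

theorem secProj_empty_of_mem (hπ : IsOrth π) {u : E} (hu : u ∈ sector π ∅) :
    secProj π ∅ u = u := by
  have h := sum_secProj (π := π) u
  rw [Finset.sum_eq_single ∅] at h
  · exact h
  · intro S _ hS
    exact secProj_of_mem_empty hπ hu hS
  · simp

theorem Lhat_mem_sector {S : Finset Y} {z : E} (hz : z ∈ sector π S) : Lhat π z ∈ sector π S := by
  intro y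
  have h2 := congrArg (fun B : E →L[ℝ] E => B z) (commute_pi_Lhat π (sigma y)).eq
  change π (sigma y) (Lhat π z) = Lhat π (π (sigma y) z) at h2
  rw [h2, hz y]
  by_cases h3 : y ∈ S <;> simp [h3]

theorem amgm_inner (x v : E) (b : ℝ) :
    2 * b * inner ℝ x v ≤ (1 / 2) * ‖x‖ ^ 2 + 2 * b ^ 2 * ‖v‖ ^ 2 := by
  have h := @norm_sub_sq_real E _ _ x ((2 * b) • v)
  rw [inner_smul_right, norm_smul, mul_pow, Real.norm_eq_abs, sq_abs] at h
  have h0 : 0 ≤ ‖x - (2 * b) • v‖ ^ 2 := by positivity
  nlinarith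

theorem sum_flip (y : Y) (g : Finset Y → ℝ) :
    ∑ S : Finset Y, g (symmDiff S {y}) = ∑ S : Finset Y, g S := by
  have hinv : Function.Involutive (fun S : Finset Y => symmDiff S {y}) := by
    intro S
    exact symmDiff_symmDiff_cancel_right _ _
  exact Equiv.sum_comp (hinv.toPerm) g

theorem mem_symmDiff_singleton_self (y : Y) (S : Finset Y) : y ∈ symmDiff S {y} ↔ y ∉ S := by
  rw [Finset.mem_symmDiff]
  simp

theorem card_symmDiff_of_mem {y : Y} {S : Finset Y} (h : y ∈ S) :
    ((symmDiff S {y}).card : ℝ) = (S.card : ℝ) - 1 := by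
  have h1 : symmDiff S {y} = S.erase y := by
    ext w
    rw [Finset.mem_symmDiff, Finset.mem_erase, Finset.mem_singleton]
    constructor
    · rintro (⟨h1, h2⟩ | ⟨h1, h2⟩)
      · exact ⟨h2, h1⟩
      · exact absurd (h1 ▸ h) h2
    · rintro ⟨h1, h2⟩
      exact Or.inl ⟨h2, h1⟩
  rw [h1, Finset.card_erase_of_mem h, Nat.cast_sub (Finset.card_pos.mpr ⟨y, h⟩)]
  simp

theorem card_symmDiff_of_not_mem {y : Y} {S : Finset Y} (h : y ∉ S) :
    ((symmDiff S {y}).card : ℝ) = (S.card : ℝ) + 1 := by
  have h1 : symmDiff S {y} = insert y S := by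
    ext w
    rw [Finset.mem_symmDiff, Finset.mem_insert, Finset.mem_singleton]
    constructor
    · rintro (⟨h1, h2⟩ | ⟨h1, h2⟩)
      · exact Or.inr h1
      · exact Or.inl h1
    · rintro (h1 | h1)
      · exact Or.inr ⟨h1, h1 ▸ h⟩
      · refine Or.inl ⟨h1, fun e => h (e ▸ h1)⟩
  rw [h1, Finset.card_insert_of_notMem h]
  push_cast
  ring

/-- Only the toggled sector contributes to the pairing with `Dy`. -/
theorem inner_family_Dy (hπ : IsOrth π) {f : Finset Y → E} (hf : ∀ S, f S ∈ sector π S)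
    (S : Finset Y) (y : Y) :
    inner ℝ (f S) (Dy π y (∑ T, f T)) = inner ℝ (f S) (Dy π y (f (symmDiff S {y}))) := by
  rw [map_sum, inner_sum, Finset.sum_eq_single (symmDiff S {y})]
  · intro T _ hT
    refine sector_orthogonal hπ ?_ (hf S) (Dy_mem_sector y (hf T))
    intro h
    apply hT
    rw [h]
    exact (symmDiff_symmDiff_cancel_right _ _).symm
  · simp

theorem inner_family_Lhat (hπ : IsOrth π) {f : Finset Y → E} (hf : ∀ S, f S ∈ sector π S)
    (S : Finset Y) :
    inner ℝ (f S) (Lhat π (∑ T, f T)) = inner ℝ (f S) (Lhat π (f S)) := by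
  rw [map_sum, inner_sum, Finset.sum_eq_single S]
  · intro T _ hT
    exact sector_orthogonal hπ (Ne.symm hT) (hf S) (Lhat_mem_sector (hf T))
  · simp

/-- The weighted form inequality. -/
theorem form_bound (hπ : IsOrth π) (hN : 1 ≤ Fintype.card Y) {f : Finset Y → E}
    (hf : ∀ S, f S ∈ sector π S) {b γ ρ : ℝ} (hb : b ^ 2 ≤ 1 / 64) (hγ : 240 * b ^ 2 ≤ γ)
    (hρ0 : 0 ≤ ρ) (hρ1 : ρ ≤ 1) :
    2 * ∑ S : Finset Y, Real.exp (ρ * (S.card : ℝ)) *
        inner ℝ (f S) ((b • Dlt π - γ • Lhat π) (∑ T, f T))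
      ≤ 2 * ∑ S : Finset Y, (S.card : ℝ) * Real.exp (ρ * (S.card : ℝ)) * ‖f S‖ ^ 2 := by
  set e : Finset Y → ℝ := fun S => Real.exp (ρ * (S.card : ℝ)) with he
  have hepos : ∀ S, 0 < e S := fun S => Real.exp_pos _
  set G : Finset Y → ℝ := fun S => inner ℝ (f S) (Lhat π (f S)) with hG
  have hG0 : ∀ S, 0 ≤ G S := fun S => psdOp_Lhat hπ (f S)
  set Q : Y → Finset Y → ℝ := fun y T => 2 * b ^ 2 * ‖Dy π y (f T)‖ ^ 2 with hQ
  have hQ0 : ∀ y T, 0 ≤ Q y T := fun y T => by simp only [hQ]; positivity
  set E0 : ℝ := Real.exp ρ with hE0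
  have hE1 : E0 ≤ 2.7182818286 := by
    calc E0 ≤ Real.exp 1 := Real.exp_le_exp.mpr hρ1
      _ ≤ _ := Real.exp_one_lt_d9.le
  have hE00 : 0 < E0 := Real.exp_pos _
  -- the exponential weights under toggling
  have he_up : ∀ {y : Y} {S : Finset Y}, y ∉ S → e (symmDiff S {y}) = E0 * e S := by
    intro y S h
    simp only [he, hE0]
    rw [card_symmDiff_of_not_mem h, ← Real.exp_add]
    congr 1
    ring
  have he_down : ∀ {y : Y} {S : Finset Y}, y ∈ S → e (symmDiff S {y}) ≤ e S := by
    intro y S h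
    simp only [he]
    rw [card_symmDiff_of_mem h]
    apply Real.exp_le_exp.mpr
    nlinarith
  -- expansion of the left side
  have hexpand : ∀ S, inner ℝ (f S) ((b • Dlt π - γ • Lhat π) (∑ T, f T))
      = b * ∑ y : Y, inner ℝ (f S) (Dy π y (f (symmDiff S {y}))) - γ * G S := by
    intro S
    have h1 : (b • Dlt π - γ • Lhat π) (∑ T, f T)
        = b • (Dlt π (∑ T, f T)) - γ • (Lhat π (∑ T, f T)) := rfl
    rw [h1, inner_sub_right, inner_smul_right, inner_smul_right, inner_family_Lhat hπ hf, Dlt_eq,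
      _root_.sum_apply, inner_sum]
    congr 2
    exact Finset.sum_congr rfl (fun y _ => inner_family_Dy hπ hf S y)
  -- the pointwise bound
  have hpt : ∀ (y : Y) (S : Finset Y), 2 * b * inner ℝ (f S) (Dy π y (f (symmDiff S {y})))
      ≤ if y ∈ S then (1 / 2) * ‖f S‖ ^ 2 + Q y (symmDiff S {y})
        else (1 / 2) * ‖f (symmDiff S {y})‖ ^ 2 + Q y S := by
    intro y S
    by_cases hy : y ∈ S
    · simp only [hy, if_true, hQ]
      exact amgm_inner _ _ _
    · simp only [hy, if_false, hQ]
      rw [← symOp_Dy hπ y (f S) (f (symmDiff S {y})), real_inner_comm]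
      exact amgm_inner _ _ _
  -- the sum for a fixed `y`
  have hfixed : ∀ y : Y, ∑ S : Finset Y, e S * (2 * b * inner ℝ (f S) (Dy π y (f (symmDiff S {y}))))
      ≤ ∑ S : Finset Y, (if y ∈ S then e S * ‖f S‖ ^ 2 else 0)
        + ∑ S : Finset Y, (if y ∈ S then 0 else (1 + E0) * (e S * Q y S)) := by
    intro y
    have h1 : ∑ S : Finset Y, e S * (2 * b * inner ℝ (f S) (Dy π y (f (symmDiff S {y}))))
        ≤ ∑ S : Finset Y, ((if y ∈ S then e S * ((1 / 2) * ‖f S‖ ^ 2) else 0)
          + (if y ∈ S then 0 else e S * ((1 / 2) * ‖f (symmDiff S {y})‖ ^ 2))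
          + (if y ∈ S then e S * Q y (symmDiff S {y}) else 0)
          + (if y ∈ S then 0 else e S * Q y S)) := by
      refine Finset.sum_le_sum (fun S _ => ?_)
      refine (mul_le_mul_of_nonneg_left (hpt y S) (hepos S).le).trans (le_of_eq ?_)
      by_cases hy : y ∈ S <;> simp [hy] <;> ring
    refine h1.trans ?_
    simp only [Finset.sum_add_distrib]
    have h2 : ∑ S : Finset Y, (if y ∈ S then 0 else e S * ((1 / 2) * ‖f (symmDiff S {y})‖ ^ 2))
        = ∑ S : Finset Y, (if y ∈ S then e (symmDiff S {y}) * ((1 / 2) * ‖f S‖ ^ 2) else 0) := by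
      rw [← sum_flip y]
      refine Finset.sum_congr rfl (fun S _ => ?_)
      rw [symmDiff_symmDiff_cancel_right]
      by_cases hy : y ∈ S
      · have h' : y ∉ symmDiff S {y} := by
          rw [mem_symmDiff_singleton_self]; simpa using hy
        simp [hy, h']
      · have h' : y ∈ symmDiff S {y} := by
          rw [mem_symmDiff_singleton_self]; exact hy
        simp [hy, h']
    have h3 : ∑ S : Finset Y, (if y ∈ S then e S * Q y (symmDiff S {y}) else 0)
        = ∑ S : Finset Y, (if y ∈ S then 0 else e (symmDiff S {y}) * Q y S) := by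
      rw [← sum_flip y]
      refine Finset.sum_congr rfl (fun S _ => ?_)
      rw [symmDiff_symmDiff_cancel_right]
      by_cases hy : y ∈ S
      · have h' : y ∉ symmDiff S {y} := by
          rw [mem_symmDiff_singleton_self]; simpa using hy
        simp [hy, h']
      · have h' : y ∈ symmDiff S {y} := by
          rw [mem_symmDiff_singleton_self]; exact hy
        simp [hy, h']
    rw [h2, h3]
    have h4 : ∑ S : Finset Y, (if y ∈ S then e S * ((1 / 2) * ‖f S‖ ^ 2) else 0)
        + ∑ S : Finset Y, (if y ∈ S then e (symmDiff S {y}) * ((1 / 2) * ‖f S‖ ^ 2) else 0)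
        ≤ ∑ S : Finset Y, (if y ∈ S then e S * ‖f S‖ ^ 2 else 0) := by
      rw [← Finset.sum_add_distrib]
      refine Finset.sum_le_sum (fun S _ => ?_)
      by_cases hy : y ∈ S
      · simp only [hy, if_true]
        have := he_down hy
        have h0 : 0 ≤ (1 / 2) * ‖f S‖ ^ 2 := by positivity
        nlinarith
      · simp [hy]
    have h5 : ∑ S : Finset Y, (if y ∈ S then 0 else e (symmDiff S {y}) * Q y S)
        + ∑ S : Finset Y, (if y ∈ S then 0 else e S * Q y S)
        = ∑ S : Finset Y, (if y ∈ S then 0 else (1 + E0) * (e S * Q y S)) := by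
      rw [← Finset.sum_add_distrib]
      refine Finset.sum_congr rfl (fun S _ => ?_)
      by_cases hy : y ∈ S
      · simp [hy]
      · simp only [hy, if_false]
        rw [he_up hy]
        ring
    linarith
  -- summing over `y`
  have hA : ∑ y : Y, ∑ S : Finset Y, (if y ∈ S then e S * ‖f S‖ ^ 2 else 0)
      = ∑ S : Finset Y, (S.card : ℝ) * e S * ‖f S‖ ^ 2 := by
    rw [Finset.sum_comm]
    refine Finset.sum_congr rfl (fun S _ => ?_)
    simp only [Finset.sum_ite_mem, Finset.univ_inter, Finset.sum_const, nsmul_eq_mul]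
    ring
  have hB : ∑ y : Y, ∑ S : Finset Y, (if y ∈ S then 0 else (1 + E0) * (e S * Q y S))
      ≤ ∑ S : Finset Y, e S * (2 * γ * G S + (S.card : ℝ) * ‖f S‖ ^ 2) := by
    rw [Finset.sum_comm]
    refine Finset.sum_le_sum (fun S _ => ?_)
    have h1 : ∑ y : Y, (if y ∈ S then 0 else (1 + E0) * (e S * Q y S))
        = (1 + E0) * (e S * (2 * b ^ 2)) * ∑ y : Y, (if y ∈ S then (0 : ℝ) else ‖Dy π y (f S)‖ ^ 2) := by
      rw [Finset.mul_sum]
      refine Finset.sum_congr rfl (fun y _ => ?_)
      by_cases hy : y ∈ S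
      · simp [hy]
      · simp only [hy, if_false, hQ]
        ring
    rw [h1]
    have h2 := sum_norm_Dy_sq hπ hN (hf S)
    have hb0 : 0 ≤ b ^ 2 := by positivity
    have h3 : 0 ≤ (1 + E0) * (e S * (2 * b ^ 2)) :=
      mul_nonneg (by linarith) (mul_nonneg (hepos S).le (by positivity))
    refine (mul_le_mul_of_nonneg_left h2 h3).trans ?_
    have hfS : 0 ≤ (S.card : ℝ) * ‖f S‖ ^ 2 := by positivity
    have hc1 : (1 + E0) * (2 * b ^ 2) * 64 ≤ 2 * γ := by nlinarith
    have hc2 : (1 + E0) * (2 * b ^ 2) * 8 ≤ 1 := by nlinarith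
    have hGS := hG0 S
    have hinnerG : inner ℝ (f S) (Lhat π (f S)) = G S := rfl
    rw [hinnerG]
    calc (1 + E0) * (e S * (2 * b ^ 2)) * (64 * G S + 8 * (S.card : ℝ) * ‖f S‖ ^ 2)
        = e S * (((1 + E0) * (2 * b ^ 2) * 64) * G S
            + ((1 + E0) * (2 * b ^ 2) * 8) * ((S.card : ℝ) * ‖f S‖ ^ 2)) := by ring
      _ ≤ e S * ((2 * γ) * G S + 1 * ((S.card : ℝ) * ‖f S‖ ^ 2)) := by
          gcongr
      _ = _ := by ring
  -- assembling
  have hL : 2 * ∑ S : Finset Y, e S * inner ℝ (f S) ((b • Dlt π - γ • Lhat π) (∑ T, f T))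
      = ∑ y : Y, ∑ S : Finset Y, e S * (2 * b * inner ℝ (f S) (Dy π y (f (symmDiff S {y}))))
        - 2 * γ * ∑ S : Finset Y, e S * G S := by
    simp only [hexpand]
    rw [Finset.sum_comm, Finset.mul_sum, Finset.mul_sum, ← Finset.sum_sub_distrib]
    refine Finset.sum_congr rfl (fun S _ => ?_)
    simp only [← Finset.mul_sum]
    ring
  rw [hL]
  have hsum : ∑ y : Y, ∑ S : Finset Y, e S * (2 * b * inner ℝ (f S) (Dy π y (f (symmDiff S {y}))))
      ≤ ∑ S : Finset Y, (S.card : ℝ) * e S * ‖f S‖ ^ 2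
        + ∑ S : Finset Y, e S * (2 * γ * G S + (S.card : ℝ) * ‖f S‖ ^ 2) := by
    calc _ ≤ ∑ y : Y, (∑ S : Finset Y, (if y ∈ S then e S * ‖f S‖ ^ 2 else 0)
            + ∑ S : Finset Y, (if y ∈ S then 0 else (1 + E0) * (e S * Q y S))) :=
          Finset.sum_le_sum (fun y _ => hfixed y)
      _ = ∑ y : Y, ∑ S : Finset Y, (if y ∈ S then e S * ‖f S‖ ^ 2 else 0)
            + ∑ y : Y, ∑ S : Finset Y, (if y ∈ S then 0 else (1 + E0) * (e S * Q y S)) :=
          Finset.sum_add_distrib
      _ ≤ _ := by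
          rw [hA]
          gcongr
  have hfin : ∑ S : Finset Y, e S * (2 * γ * G S + (S.card : ℝ) * ‖f S‖ ^ 2)
      = 2 * γ * ∑ S : Finset Y, e S * G S + ∑ S : Finset Y, (S.card : ℝ) * e S * ‖f S‖ ^ 2 := by
    rw [Finset.mul_sum, ← Finset.sum_add_distrib]
    refine Finset.sum_congr rfl (fun S _ => ?_)
    ring
  rw [hfin] at hsum
  linarith

end Vale.Agent.Lib.P162
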