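import Vale.Agent.Lib.P162.BlockMain
import Vale.Agent.Lib.P162.Final

/-! Assembly of the final bound for every even size of the deck. -/

namespace Vale.Agent.Lib.P162

open Equiv NormedSpace

set_option linter.unusedSectionVars false

variable {E : Type*} [NormedAddCommGroup E] [InnerProductSpace ℝ E]
variable {m : ℕ}

/-- The operator attached to the law of the shuffle is the averaged layer followed by the perfect
shuffle. -/
theorem avgOp_thorpLaw (π₀ : Perm (Fin (2 * m)) →* (E →L[ℝ] E)) :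
    avgOp π₀ (thorpLaw m) = rOp m π₀ := by
  unfold avgOp rOp tAvg
  have h1 : ∀ g : Perm (Fin (2 * m)), thorpLaw m g • π₀ g⁻¹
      = ((2 : ℝ) ^ m)⁻¹ • ∑ c : Fin m → Bool, (if g = thorpP m c then π₀ g⁻¹ else 0) := by
    intro g
    rw [thorpLaw_eq', div_eq_inv_mul, mul_smul]
    congr 1
    rw [Finset.card_filter]
    push_cast
    rw [Finset.sum_smul]
    refine Finset.sum_congr rfl (fun c _ => ?_)
    split_ifs <;> simp
  simp only [h1]
  rw [← Finset.smul_sum, Finset.sum_comm, mul_smul_comm, Finset.mul_sum]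
  congr 1
  refine Finset.sum_congr rfl (fun c _ => ?_)
  have h2 : (thorpP m c)⁻¹ = (pShuf m)⁻¹ * flipL m c := by
    unfold thorpP
    rw [mul_inv_rev, flipL_inv]
  simp [h2, map_mul]

/-- The majorant for powers of the operator of one shuffle. -/
theorem gen_majorant [CompleteSpace E] {π : Perm (Fin (2 * m)) →* (E →L[ℝ] E)} (hπ : IsOrth π)
    (hm : 0 < m) {s : ℕ} {κ : ℝ} (hM : Maj (Net m s π) (κ • LS π Finset.univ)) (k : ℕ) (u : E) :
    ‖((rOp m π) ^ (s * k)) u‖ ^ 2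
      ≤ inner ℝ u (exp ((-((k : ℝ) * (κ * (2 * (m : ℝ))))) • Lhat π) u) := by
  rw [pow_mul]
  refine iterate_bound (symOp_Lhat hπ) ?_ ((commute_rOp_LS_univ π).pow_left s) k u
  intro v
  rw [norm_rOp_pow hπ]
  have h := hM v
  have hm' : (2 * (m : ℝ)) ≠ 0 := by
    have : (0 : ℝ) < (m : ℝ) := by exact_mod_cast hm
    positivity
  have e : -(κ • LS π Finset.univ) = (-(κ * (2 * (m : ℝ)))) • Lhat π := by
    unfold Lhat
    rw [Fintype.card_fin, smul_smul]
    push_cast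
    have : -(κ * (2 * (m : ℝ))) * (2 * (m : ℝ))⁻¹ = -κ := by
      field_simp
    rw [this, neg_smul]
  rw [e] at h
  exact h

/-- The collision bound for the shuffle. -/
theorem l2_bound_gen {d k : ℕ} (hm : 0 < m) (hd : 2 * m ≤ 2 ^ d)
    (hnum : ((2 * m : ℕ) : ℝ) ^ 2 * Real.exp (-((k : ℝ) / 3050000) / 2) ≤ 1 / 25) :
    ∃ T ≤ (d + 3) * k, (Fintype.card (Perm (Fin (2 * m))) : ℝ) *
      ∑ g, convPow (thorpLaw m) T g ^ 2 ≤ 5 / 4 := by
  obtain ⟨s, κ, hs, hκ0, hκ, hall⟩ := block (E := RegE (Fin (2 * m))) hm hd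
  refine ⟨s * k, Nat.mul_le_mul_right _ hs, ?_⟩
  have hsum : ∑ g, convPow (thorpLaw m) (s * k) g ^ 2
      = ‖((rOp m rho) ^ (s * k)) (delta (1 : Perm (Fin (2 * m))))‖ ^ 2 := by
    rw [← avgOp_thorpLaw, ← toVec_convPow, norm_toVec_sq]
  rw [hsum]
  have hmaj := gen_majorant isOrth_rho hm (hall rho isOrth_rho) k (delta (1 : Perm (Fin (2 * m))))
  have hk : (0 : ℝ) ≤ (k : ℝ) := Nat.cast_nonneg k
  have hmono := inner_exp_neg_mono (symOp_Lhat (isOrth_rho (P := Fin (2 * m))))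
    (psdOp_Lhat (isOrth_rho (P := Fin (2 * m))))
    (a := (k : ℝ) / 3050000) (b := (k : ℝ) * (κ * (2 * (m : ℝ))))
    (by
      calc (k : ℝ) / 3050000 = (k : ℝ) * (1 / 3050000) := by ring
        _ ≤ (k : ℝ) * (κ * (2 * (m : ℝ))) := mul_le_mul_of_nonneg_left hκ hk)
    (delta (1 : Perm (Fin (2 * m))))
  have hcard : Fintype.card (Fin (2 * m)) = 2 * m := Fintype.card_fin _
  have hone : 1 ≤ Fintype.card (Fin (2 * m)) := by
    rw [hcard]
    omega
  have hchi := chi_bound (P := Fin (2 * m)) hone (s := (k : ℝ) / 3050000) (by positivity)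
    (by rw [hcard]; exact hnum)
  have hpos : (0 : ℝ) ≤ (Fintype.card (Perm (Fin (2 * m))) : ℝ) := Nat.cast_nonneg _
  exact (mul_le_mul_of_nonneg_left (hmaj.trans hmono) hpos).trans hchi

/-- The numerical condition. -/
theorem numeric_gen {d : ℕ} (hm : 0 < m) (hd : 2 * m ≤ 2 ^ d) :
    ((2 * m : ℕ) : ℝ) ^ 2 * Real.exp (-(((36600000 * d : ℕ) : ℝ) / 3050000) / 2) ≤ 1 / 25 := by
  have hd1 : 1 ≤ d := by
    rcases Nat.eq_zero_or_pos d with h | h
    · subst h
      simp at hd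
      omega
    · exact h
  have h1 : ((2 * m : ℕ) : ℝ) ≤ (2 : ℝ) ^ d := by exact_mod_cast hd
  have hexp : Real.exp (-(((36600000 * d : ℕ) : ℝ) / 3050000) / 2) = (Real.exp (-6)) ^ d := by
    rw [← Real.exp_nat_mul]
    congr 1
    push_cast
    ring
  rw [hexp]
  have h2 : ((2 * m : ℕ) : ℝ) ^ 2 ≤ ((2 : ℝ) ^ 2) ^ d := by
    rw [← pow_mul, mul_comm 2 d, pow_mul]
    exact pow_le_pow_left₀ (Nat.cast_nonneg _) h1 2
  have h3 : (2 : ℝ) ^ 2 * Real.exp (-6) ≤ 1 / 25 := by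
    have h4 : (100 : ℝ) ≤ Real.exp 6 := by
      have h5 : Real.exp 6 = Real.exp 1 ^ 6 := by
        rw [← Real.exp_nat_mul]
        norm_num
      have h6 : (2.7 : ℝ) ≤ Real.exp 1 := by
        have := Real.exp_one_gt_d9
        linarith
      have h7 : (2.7 : ℝ) ^ 6 ≤ Real.exp 1 ^ 6 := pow_le_pow_left₀ (by norm_num) h6 6
      have h8 : (100 : ℝ) ≤ (2.7 : ℝ) ^ 6 := by norm_num
      linarith
    rw [Real.exp_neg]
    have hpos := Real.exp_pos (6 : ℝ)
    rw [← div_eq_mul_inv, div_le_iff₀ hpos]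
    norm_num
    linarith
  have h9 : 0 ≤ (2 : ℝ) ^ 2 * Real.exp (-6) := by positivity
  have hE : 0 ≤ (Real.exp (-6)) ^ d := by positivity
  calc ((2 * m : ℕ) : ℝ) ^ 2 * (Real.exp (-6)) ^ d
      ≤ ((2 : ℝ) ^ 2) ^ d * (Real.exp (-6)) ^ d := mul_le_mul_of_nonneg_right h2 hE
    _ = ((2 : ℝ) ^ 2 * Real.exp (-6)) ^ d := by rw [mul_pow]
    _ ≤ ((2 : ℝ) ^ 2 * Real.exp (-6)) ^ 1 := pow_le_pow_of_le_one h9 (by linarith) hd1
    _ ≤ 1 / 25 := by simpa using h3

/-- The main theorem: a deck of `2 * m ≤ 2 ^ d` cards is mixed after `O(d²)` shuffles. -/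
theorem thorp_main_gen (m d t : ℕ) (hm : 0 < m) (hd : 2 * m ≤ 2 ^ d) (ht : 150000000 * d ^ 2 ≤ t) :
    tvUniform (convPow (thorpLaw m) t) ≤ 1 / 4 := by
  have hd1 : 1 ≤ d := by
    rcases Nat.eq_zero_or_pos d with h | h
    · subst h
      simp at hd
      omega
    · exact h
  obtain ⟨T, hT, hl2⟩ := l2_bound_gen hm hd (numeric_gen (d := d) hm hd)
  have hTt : T ≤ t := by
    refine hT.trans (le_trans ?_ ht)
    have h3 : d + 3 ≤ 4 * d := by omega
    calc (d + 3) * (36600000 * d) ≤ (4 * d) * (36600000 * d) := Nat.mul_le_mul_right _ h3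
      _ = 146400000 * d ^ 2 := by ring
      _ ≤ 150000000 * d ^ 2 := by omega
  refine (tv_convPow_anti _ thorpLaw_nonneg' thorpLaw_sum' hTt).trans ?_
  exact tv_le_of_l2 _ (sum_convPow _ thorpLaw_sum' _) hl2

end Vale.Agent.Lib.P162
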