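import Vale.Agent.Lib.P162.Step

/-! The recursive butterfly network on the discrete cube and its energy majorant. -/

namespace Vale.Agent.Lib.P162

open Equiv NormedSpace

set_option linter.unusedSectionVars false

variable {E : Type*} [NormedAddCommGroup E] [InnerProductSpace ℝ E]

section congr

variable {α β : Type*} [DecidableEq α] [DecidableEq β]

/-- Transport of a representation along a bijection of position sets. -/
def congrRep (e : α ≃ β) (π : Perm β →* (E →L[ℝ] E)) : Perm α →* (E →L[ℝ] E) :=
  π.comp (e.permCongrHom.toMonoidHom)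

theorem congrRep_apply (e : α ≃ β) (π : Perm β →* (E →L[ℝ] E)) (g : Perm α) :
    congrRep e π g = π (e.permCongr g) := rfl

theorem congrRep_swap (e : α ≃ β) (π : Perm β →* (E →L[ℝ] E)) (a b : α) :
    congrRep e π (swap a b) = π (swap (e a) (e b)) := by
  rw [congrRep_apply, Equiv.permCongr_def, Equiv.symm_trans_swap_trans]

theorem isOrth_congrRep (e : α ≃ β) {π : Perm β →* (E →L[ℝ] E)} (hπ : IsOrth π) :
    IsOrth (congrRep e π) := fun _ x y => hπ _ x y

theorem Lhat_congrRep [Fintype α] [Fintype β] (e : α ≃ β) (π : Perm β →* (E →L[ℝ] E)) :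
    Lhat (congrRep e π) = Lhat π := by
  unfold Lhat LS
  rw [Fintype.card_congr e]
  congr 1
  simp only [congrRep_swap]
  rw [← Equiv.sum_comp e]
  refine Finset.sum_congr rfl (fun a _ => ?_)
  exact Equiv.sum_comp e (fun b => (1 / 2 : ℝ) • (1 - π (swap (e a) b)))

end congr

/-- The discrete cube of dimension `d`. -/
abbrev Cube (d : ℕ) : Type := Fin d → Bool

/-- Splitting off the lowest coordinate of the cube. -/
def consE (d : ℕ) : Bool × Cube d ≃ Cube (d + 1) where
  toFun p := Fin.cons p.1 p.2
  invFun x := (x 0, Fin.tail x)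
  left_inv := by
    rintro ⟨s, y⟩
    simp
  right_inv := by
    intro x
    exact Fin.cons_self_tail x

@[simp] theorem consE_apply (d : ℕ) (s : Bool) (y : Cube d) :
    consE d (s, y) = Fin.cons s y := rfl

/-- The recursive network operator (read from the right: flips at the lowest coordinate first,
then independent networks on the two sides). -/
noncomputable def Rop : (d : ℕ) → (Perm (Cube d) →* (E →L[ℝ] E)) → (E →L[ℝ] E)
  | 0, _ => 1
  | d + 1, π =>
    Rop d ((congrRep (consE d) π).comp (side true)) *
      Rop d ((congrRep (consE d) π).comp (side false)) * T0 (congrRep (consE d) π)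

theorem Rop_commute {d : ℕ} {π : Perm (Cube d) →* (E →L[ℝ] E)} {B : E →L[ℝ] E}
    (h : ∀ g, Commute B (π g)) : Commute B (Rop d π) := by
  induction d with
  | zero => exact Commute.one_right B
  | succ d ih =>
    have h' : ∀ g, Commute B (congrRep (consE d) π g) := fun g => h _
    exact ((ih (fun g => h' _)).mul_right (ih (fun g => h' _))).mul_right
      (commute_T0_of_commute_pi h')

/-- The exponent sequence. -/
noncomputable def tseq (d : ℕ) : ℝ := (1 + (1 / 2 : ℝ) ^ d) / 36

theorem tseq_lower (d : ℕ) : 1 / 36 ≤ tseq d := by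
  unfold tseq
  have : (0 : ℝ) ≤ (1 / 2 : ℝ) ^ d := by positivity
  linarith

theorem tseq_upper (d : ℕ) : tseq d ≤ 1 / 18 := by
  unfold tseq
  have : (1 / 2 : ℝ) ^ d ≤ 1 := pow_le_one₀ (by norm_num) (by norm_num)
  linarith

theorem tseq_succ (d : ℕ) : tseq d - 1 / (72 * ((2 : ℝ) ^ d)) = tseq (d + 1) := by
  unfold tseq
  have : (1 / 2 : ℝ) ^ d = 1 / (2 : ℝ) ^ d := by
    rw [one_div_pow]
  rw [pow_succ, this]
  field_simp
  ring

theorem card_cube (d : ℕ) : Fintype.card (Cube d) = 2 ^ d := by
  simp [Cube]

/-- The energy majorant for the network. -/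
theorem main_rec (d : ℕ) {π : Perm (Cube d) →* (E →L[ℝ] E)} (hπ : IsOrth π) (u : E)
    [CompleteSpace E] :
    ‖Rop d π u‖ ^ 2 ≤ inner ℝ u (exp ((-(tseq d)) • Lhat π) u) := by
  induction d generalizing u with
  | zero =>
    have h0 : Lhat π = 0 := by
      unfold Lhat LS
      have : ∀ a b : Cube 0, swap a b = 1 := by
        intro a b
        rw [Subsingleton.elim a b, Equiv.swap_self]
        rfl
      simp [this]
    rw [h0]
    simp [Rop]
  | succ d ih =>
    set π' := congrRep (consE d) π with hπ'
    have hπ'o : IsOrth π' := isOrth_congrRep _ hπ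
    have hN : 1 ≤ Fintype.card (Cube d) := Fintype.card_pos
    have hc : Commute (Rop d (π'.comp (side false))) (Lhat (π'.comp (side true))) := by
      have : Commute (Lhat (π'.comp (side true))) (Rop d (π'.comp (side false))) :=
        Rop_commute (fun g => commute_L1_pi0 g)
      exact this.symm
    have h := rec_step hπ'o hN (R0 := Rop d (π'.comp (side false)))
      (R1 := Rop d (π'.comp (side true))) (t := tseq d)
      (by have := tseq_lower d; linarith) (tseq_upper d)
      (fun v => ih (isOrth_side hπ'o false) v) (fun v => ih (isOrth_side hπ'o true) v) hc u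
    have hcard : ((Fintype.card (Cube d) : ℕ) : ℝ) = (2 : ℝ) ^ d := by
      rw [card_cube]; push_cast; rfl
    rw [hcard, tseq_succ, hπ', Lhat_congrRep] at h
    exact h

/-- The energy majorant for iterates of the network. -/
theorem main_iter (d : ℕ) {π : Perm (Cube d) →* (E →L[ℝ] E)} (hπ : IsOrth π) (k : ℕ) (u : E)
    [CompleteSpace E] :
    ‖(Rop d π ^ k) u‖ ^ 2 ≤ inner ℝ u (exp ((-((k : ℝ) * tseq d)) • Lhat π) u) := by
  refine iterate_bound (symOp_Lhat hπ) (fun v => main_rec d hπ v) ?_ k u
  have : Commute (Lhat π) (Rop d π) :=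
    Rop_commute (fun g => (commute_pi_Lhat π g).symm)
  exact this.symm

end Vale.Agent.Lib.P162
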