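import Vale.Agent.Lib.P162.NMom
import Vale.Agent.Lib.P162.Net

/-! The coin trees of the butterfly network, the two-sided network, and the cycle moment bound. -/

namespace Vale.Agent.Lib.P162

open Equiv Finset

set_option linter.unusedSectionVars false

/-- The coins of the butterfly network of dimension `a`. -/
def NC : ℕ → Type
  | 0 => Unit
  | a + 1 => (Cube a → Bool) × NC a × NC a

/-- The finite type structure on coins. -/
@[instance_reducible] def ncFintype : (a : ℕ) → Fintype (NC a)
  | 0 => inferInstanceAs (Fintype Unit)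
  | a + 1 =>
    letI := ncFintype a
    inferInstanceAs (Fintype ((Cube a → Bool) × NC a × NC a))

instance (a : ℕ) : Fintype (NC a) := ncFintype a

theorem nc_nonempty : (a : ℕ) → Nonempty (NC a)
  | 0 => ⟨()⟩
  | a + 1 =>
    have h := nc_nonempty a
    ⟨(fun _ => false, h.some, h.some)⟩

instance (a : ℕ) : Nonempty (NC a) := nc_nonempty a

/-- The butterfly network of dimension `a`: flips at the lowest coordinate first, then independent
networks on the two sides. -/
noncomputable def net : (a : ℕ) → NC a → Perm (Cube a)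
  | 0, _ => 1
  | a + 1, ω => (consE a).permCongr
      (side true (net a ω.2.2) * side false (net a ω.2.1) * flipPerm ω.1)

theorem avg_NC_succ {a : ℕ} (f : NC (a + 1) → ℝ) :
    avg f = avg (fun A : Cube a → Bool => avg (fun ω₀ : NC a => avg (fun ω₁ : NC a => f (A, ω₀, ω₁)))) := by
  have h1 := avg_prod (α := Cube a → Bool) (β := NC a × NC a) f
  refine h1.trans ?_
  congr 1
  funext A
  exact avg_prod (α := NC a) (β := NC a) (fun p => f (A, p))

theorem sum_triple_mul {R : Type*} [Semiring R] {α β γ : Type*} [Fintype α] [Fintype β] [Fintype γ]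
    (f : α → R) (g : β → R) (h : γ → R) :
    (∑ x, f x) * (∑ y, g y) * (∑ z, h z) = ∑ z, ∑ y, ∑ x, f x * g y * h z := by
  simp only [Finset.sum_mul, Finset.mul_sum]

/-- The network operator as an average over coins. -/
theorem Rop_eq_avg {E : Type*} [NormedAddCommGroup E] [InnerProductSpace ℝ E] (a : ℕ)
    (π : Perm (Cube a) →* (E →L[ℝ] E)) :
    Rop a π = ((Fintype.card (NC a) : ℝ)⁻¹) • ∑ ω : NC a, π (net a ω) := by
  induction a with
  | zero =>
    have h1 : Fintype.card (NC 0) = 1 := Fintype.card_unit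
    have h3 : ∑ ω : NC 0, π (net 0 ω) = π 1 := by
      change ∑ _ω : Unit, π 1 = π 1
      simp
    rw [h3, h1]
    simp [Rop]
  | succ a ih =>
    set π' := congrRep (consE a) π with hπ'
    have h2 : Rop (a + 1) π = Rop a (π'.comp (side true)) *
      Rop a (π'.comp (side false)) * T0 π' := rfl
    rw [h2, ih, ih]
    unfold T0
    have hcard : (Fintype.card (NC (a + 1)) : ℝ)
        = (Fintype.card (Cube a → Bool) : ℝ) * ((Fintype.card (NC a) : ℝ) * (Fintype.card (NC a) : ℝ)) := by
      have : Fintype.card (NC (a + 1)) = Fintype.card ((Cube a → Bool) × NC a × NC a) := rfl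
      rw [this, Fintype.card_prod, Fintype.card_prod]
      push_cast
      ring
    have hsum : ∑ ω : NC (a + 1), π (net (a + 1) ω)
        = ∑ A : Cube a → Bool, ∑ ω₀ : NC a, ∑ ω₁ : NC a,
            π' (side true (net a ω₁)) * π' (side false (net a ω₀)) * π' (flipPerm A) := by
      have h3 : ∑ ω : NC (a + 1), π (net (a + 1) ω)
          = ∑ ω : (Cube a → Bool) × NC a × NC a, π (net (a + 1) ω) := rfl
      rw [h3, Fintype.sum_prod_type]
      refine Finset.sum_congr rfl (fun A _ => ?_)
      rw [Fintype.sum_prod_type]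
      refine Finset.sum_congr rfl (fun ω₀ _ => Finset.sum_congr rfl (fun ω₁ _ => ?_))
      rw [← map_mul, ← map_mul]
      rfl
    rw [hsum, hcard]
    simp only [MonoidHom.comp_apply]
    simp only [smul_mul_assoc, mul_smul_comm, smul_smul]
    rw [sum_triple_mul]
    congr 1
    rw [mul_inv, mul_inv]

/-- The coins of the two-sided network. -/
abbrev BC (a : ℕ) : Type := NC a × NC a

/-- The two-sided (Beneš) network. -/
noncomputable def ben (a : ℕ) (β : BC a) : Perm (Cube a) := (net a β.2)⁻¹ * net a β.1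

/-- Assembling coins of the two-sided network. -/
def mkB {a : ℕ} (A A' : Cube a → Bool) (β₀ β₁ : BC a) : BC (a + 1) :=
  ((A, β₀.1, β₁.1), (A', β₀.2, β₁.2))

theorem ben_mk {a : ℕ} (A A' : Cube a → Bool) (β₀ β₁ : BC a) :
    ben (a + 1) (mkB A A' β₀ β₁)
      = (consE a).permCongr (flipPerm A' * (side false (ben a β₀) * side true (ben a β₁)) * flipPerm A) := by
  have h1 : ben (a + 1) (mkB A A' β₀ β₁)
      = ((consE a).permCongrHom (side true (net a β₁.2) * side false (net a β₀.2) * flipPerm A'))⁻¹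
        * (consE a).permCongrHom (side true (net a β₁.1) * side false (net a β₀.1) * flipPerm A) := rfl
  rw [h1, ← map_inv, ← map_mul]
  change (consE a).permCongrHom _ = (consE a).permCongrHom _
  congr 1
  rw [mul_inv_rev, mul_inv_rev, flipPerm_inv]
  simp only [ben, map_mul, map_inv]
  set f' := flipPerm A'
  set f := flipPerm A
  set a' := side false (net a β₀.2)
  set b' := side true (net a β₁.2)
  set c' := side false (net a β₀.1)
  set d' := side true (net a β₁.1)
  have hc1 : c' * d' = d' * c' := side_commute _ _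
  have hc2 : c' * b'⁻¹ = b'⁻¹ * c' := by
    have := side_commute (net a β₀.1) (net a β₁.2)⁻¹
    simpa [map_inv] using this
  have key : b'⁻¹ * (d' * c') = c' * (b'⁻¹ * d') := by
    rw [← hc1, ← mul_assoc, ← hc2, mul_assoc]
  have key2 : b'⁻¹ * (d' * (c' * f)) = c' * (b'⁻¹ * (d' * f)) := by
    rw [← mul_assoc d' c' f, ← mul_assoc b'⁻¹, key]
    simp only [mul_assoc]
  simp only [mul_assoc]
  rw [key2]

/-- The rearrangement of coins of the two-sided network. -/
def bcEquiv (a : ℕ) : ((Cube a → Bool) × (Cube a → Bool)) × (BC a × BC a) ≃ BC (a + 1) where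
  toFun p := mkB p.1.1 p.1.2 p.2.1 p.2.2
  invFun β := ((β.1.1, β.2.1), ((β.1.2.1, β.2.2.1), (β.1.2.2, β.2.2.2)))
  left_inv := fun _ => rfl
  right_inv := fun _ => rfl

theorem avg_BC_succ {a : ℕ} (f : BC (a + 1) → ℝ) :
    avg f = avg (fun A' : Cube a → Bool => avg (fun A : Cube a → Bool =>
      avg (fun β₁ : BC a => avg (fun β₀ : BC a => f (mkB A A' β₀ β₁))))) := by
  rw [← avg_equiv (bcEquiv a) f, avg_prod]
  have h1 : ∀ p : (Cube a → Bool) × (Cube a → Bool),
      avg (fun q : BC a × BC a => f (bcEquiv a (p, q)))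
        = avg (fun β₁ : BC a => avg (fun β₀ : BC a => f (mkB p.1 p.2 β₀ β₁))) := by
    intro p
    rw [avg_prod]
    exact avg_comm (fun β₀ β₁ => f (mkB p.1 p.2 β₀ β₁))
  simp only [h1]
  rw [avg_prod]
  exact avg_comm (fun A A' => avg (fun β₁ : BC a => avg (fun β₀ : BC a => f (mkB A A' β₀ β₁))))

/-- Transport of cycle counts along a bijection. -/
theorem cyc_permCongr_le {α γ : Type*} [Fintype α] [DecidableEq α] [Fintype γ] [DecidableEq γ]
    (e : α ≃ γ) (π : Perm α) (D : Finset γ) :
    cyc (e.permCongr π) D ≤ cyc π (D.map e.symm.toEmbedding) := by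
  classical
  refine card_le_cyc_of_compare (T := cycSet (e.permCongr π) D) (fun _ h => h) e π
    (D.map e.symm.toEmbedding) ?_ ?_ ?_
  · intro O hO
    obtain ⟨⟨x, rfl⟩, -⟩ := mem_cycSet.mp hO
    exact ⟨e.symm x, by simpa using mem_orb_self _ _⟩
  · intro O hO y hy
    obtain ⟨⟨x, rfl⟩, -⟩ := mem_cycSet.mp hO
    have := orb_apply_mem hy
    simpa [Equiv.permCongr_apply] using this
  · intro O hO y hy
    have h := (mem_cycSet.mp hO).2 hy
    rw [Finset.mem_map]
    exact ⟨e y, h, by simp⟩

/-- **The cycle moment bound.** -/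
theorem cyc_moment (a : ℕ) {q : ℝ} (hq : 1 ≤ q) (t : Perm (Cube a)) (D : Finset (Cube a)) :
    avg (fun β : BC a => q ^ cyc (ben a β * t) D) ≤ (1 + (3 / 4 : ℝ) ^ a * (q - 1)) ^ D.card := by
  induction a with
  | zero =>
    refine avg_le_of_forall (fun β => ?_)
    simp only [pow_zero, one_mul, add_sub_cancel]
    exact pow_le_pow_right₀ hq (cyc_le_card _ _)
  | succ a ih =>
    have hb : 1 ≤ 1 + (3 / 4 : ℝ) ^ a * (q - 1) := by
      have : 0 ≤ (3 / 4 : ℝ) ^ a * (q - 1) := mul_nonneg (by positivity) (by linarith)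
      linarith
    set e := consE a with he
    set t' : Perm (Bool × Cube a) := e.symm.permCongr t with ht'
    set D' : Finset (Bool × Cube a) := D.map e.symm.toEmbedding with hD'
    have hstep := moment_step (σ := ben a) hq hb (fun t D => ih t D) t' D'
    have hcard : D'.card = D.card := Finset.card_map _
    have hval : (3 * (1 + (3 / 4 : ℝ) ^ a * (q - 1)) + 1) / 4 = 1 + (3 / 4 : ℝ) ^ (a + 1) * (q - 1) := by
      rw [pow_succ]
      ring
    rw [hval, hcard] at hstep
    refine le_trans ?_ hstep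
    rw [avg_BC_succ]
    refine avg_mono (fun A' => avg_mono (fun A => avg_mono (fun β₁ => avg_mono (fun β₀ => ?_))))
    apply pow_le_pow_right₀ hq
    rw [ben_mk]
    have h1 : e.permCongr (flipPerm A' * (side false (ben a β₀) * side true (ben a β₁)) * flipPerm A) * t
        = e.permCongr (flipPerm A' * (side false (ben a β₀) * side true (ben a β₁)) * flipPerm A * t') := by
      ext1 x
      simp [ht', Equiv.permCongr_apply]
    rw [h1]
    exact cyc_permCongr_le e _ D

/-- The cycle moment bound in the form used for the two sides of a node. -/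
theorem cyc_moment_inv (a : ℕ) {q : ℝ} (hq : 1 ≤ q) (τ : Perm (Cube a)) (D : Finset (Cube a)) :
    avg (fun β : BC a => q ^ cyc ((ben a β)⁻¹ * τ) D) ≤ (1 + (3 / 4 : ℝ) ^ a * (q - 1)) ^ D.card := by
  have h := cyc_moment a hq τ⁻¹ (D.map τ.toEmbedding)
  rw [Finset.card_map] at h
  refine le_trans (le_of_eq ?_) h
  congr 1
  funext β
  congr 1
  have h1 : cyc ((ben a β)⁻¹ * τ) D = cyc (τ⁻¹ * ben a β) D := by
    rw [← cyc_inv]
    congr 1
  have h2 : ben a β * τ⁻¹ = τ * (τ⁻¹ * ben a β) * τ⁻¹ := by group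
  rw [h1, h2, cyc_conj]
  congr 1
  ext z
  simp

/-- The points of the first side below a set of positions. -/
def S0 {a : ℕ} (A : Cube a → Bool) (S : Finset (Cube (a + 1))) : Finset (Cube a) :=
  Finset.univ.filter (fun p => (Fin.cons (A p) p : Cube (a + 1)) ∈ S)

/-- The points of the second side below a set of positions. -/
def S1 {a : ℕ} (A : Cube a → Bool) (S : Finset (Cube (a + 1))) : Finset (Cube a) :=
  Finset.univ.filter (fun p => (Fin.cons (!A p) p : Cube (a + 1)) ∈ S)

theorem card_S0_add_S1 {a : ℕ} (A : Cube a → Bool) (S : Finset (Cube (a + 1))) :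
    (S0 A S).card + (S1 A S).card = S.card := by
  classical
  set U : Finset (Bool × Cube a) := S.map (consE a).symm.toEmbedding with hU
  have hmem : ∀ i p, (i, p) ∈ U ↔ (Fin.cons i p : Cube (a + 1)) ∈ S := by
    intro i p
    rw [hU, Finset.mem_map]
    constructor
    · rintro ⟨z, hz, hzz⟩
      have : z = Fin.cons i p := by
        rw [← consE_apply, ← hzz]
        simp
      rwa [← this]
    · intro h
      exact ⟨_, h, by
        change (consE a).symm (Fin.cons i p) = _
        rw [Equiv.symm_apply_eq]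
        rfl⟩
  have hU2 : U.card = S.card := Finset.card_map _
  rw [← hU2, card_eq_sum_fib, S0, S1, Finset.card_filter, Finset.card_filter, ← Finset.sum_add_distrib]
  refine Finset.sum_congr rfl (fun p _ => ?_)
  simp only [fib, hmem]
  cases A p <;> simp [add_comm]

theorem card_inter_S (a : ℕ) (A : Cube a → Bool) (S : Finset (Cube (a + 1))) :
    2 * (S0 A S ∩ S1 A S).card ≤ S.card := by
  have h1 : (S0 A S ∩ S1 A S).card ≤ (S0 A S).card :=
    Finset.card_le_card Finset.inter_subset_left
  have h2 : (S0 A S ∩ S1 A S).card ≤ (S1 A S).card :=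
    Finset.card_le_card Finset.inter_subset_right
  have := card_S0_add_S1 A S
  omega

/-- The weighted number of closed cycles at the nodes of height above `a₀`. -/
noncomputable def Cnt (a₀ : ℕ) : (a : ℕ) → Finset (Cube a) → BC a → ℕ
  | 0, _, _ => 0
  | a + 1, S, β =>
    Cnt a₀ a (S0 β.1.1 S) (β.1.2.1, β.2.2.1) + Cnt a₀ a (S1 β.1.1 S) (β.1.2.2, β.2.2.2)
      + (if a₀ ≤ a then
          cyc ((ben a (β.1.2.1, β.2.2.1))⁻¹ * ben a (β.1.2.2, β.2.2.2)) (S0 β.1.1 S ∩ S1 β.1.1 S)
        else 0)

theorem Cnt_mk (a₀ : ℕ) {a : ℕ} (S : Finset (Cube (a + 1))) (A A' : Cube a → Bool) (β₀ β₁ : BC a) :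
    Cnt a₀ (a + 1) S (mkB A A' β₀ β₁)
      = Cnt a₀ a (S0 A S) β₀ + Cnt a₀ a (S1 A S) β₁
        + (if a₀ ≤ a then cyc ((ben a β₀)⁻¹ * ben a β₁) (S0 A S ∩ S1 A S) else 0) := rfl

theorem mkB_surj {a : ℕ} (β : BC (a + 1)) :
    β = mkB β.1.1 β.2.1 (β.1.2.1, β.2.2.1) (β.1.2.2, β.2.2.2) := rfl

/-- The trivial bound. -/
theorem Cnt_le (a₀ : ℕ) (a : ℕ) (S : Finset (Cube a)) (β : BC a) :
    2 * Cnt a₀ a S β ≤ S.card * (a - a₀) := by
  induction a with
  | zero => simp [Cnt]
  | succ a ih =>
    rw [mkB_surj β, Cnt_mk]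
    set A := β.1.1
    have h0 := ih (S0 A S) (β.1.2.1, β.2.2.1)
    have h1 := ih (S1 A S) (β.1.2.2, β.2.2.2)
    have hc := card_S0_add_S1 A S
    by_cases h : a₀ ≤ a
    · rw [if_pos h]
      have h2 := cyc_le_card ((ben a (β.1.2.1, β.2.2.1))⁻¹ * ben a (β.1.2.2, β.2.2.2)) (S0 A S ∩ S1 A S)
      have h3 := card_inter_S a A S
      have h4 : a + 1 - a₀ = a - a₀ + 1 := by omega
      have h6 : S.card * (a - a₀ + 1) = S.card * (a - a₀) + S.card := by ring
      rw [h4, h6]
      have h5 : S.card * (a - a₀) = (S0 A S).card * (a - a₀) + (S1 A S).card * (a - a₀) := by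
        rw [← hc, Nat.add_mul]
      omega
    · rw [if_neg h]
      have h4 : a - a₀ = 0 := by omega
      rw [h4, Nat.mul_zero] at h0 h1
      omega

/-- Truncation at height `a₀` loses at most `a₀ / 2` per point. -/
theorem Cnt_zero_le (a₀ : ℕ) (a : ℕ) (S : Finset (Cube a)) (β : BC a) :
    2 * Cnt 0 a S β ≤ 2 * Cnt a₀ a S β + S.card * a₀ := by
  induction a with
  | zero => simp [Cnt]
  | succ a ih =>
    by_cases h : a₀ ≤ a
    · rw [mkB_surj β, Cnt_mk, Cnt_mk]
      set A := β.1.1
      have h0 := ih (S0 A S) (β.1.2.1, β.2.2.1)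
      have h1 := ih (S1 A S) (β.1.2.2, β.2.2.2)
      have hc := card_S0_add_S1 A S
      rw [if_pos h, if_pos (Nat.zero_le a)]
      have h5 : S.card * a₀ = (S0 A S).card * a₀ + (S1 A S).card * a₀ := by
        rw [← hc, Nat.add_mul]
      omega
    · have h2 := Cnt_le 0 (a + 1) S β
      have h3 : a + 1 ≤ a₀ := by omega
      have h4 : S.card * (a + 1 - 0) ≤ S.card * a₀ := Nat.mul_le_mul_left _ (by omega)
      omega

end Vale.Agent.Lib.P162
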