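import Vale.Agent.Lib.P162.NKap

/-! Products of pair weights over a set of points, and the integration of one point. -/

namespace Vale.Agent.Lib.P162

open Equiv Finset

set_option linter.unusedSectionVars false

section coord

variable {ι Q : Type*} [Fintype ι] [DecidableEq ι] [Fintype Q] [DecidableEq Q]

/-- Averaging over one coordinate does not change a sum over all functions. -/
theorem sum_update_avg [Nonempty Q] (a : ι) (F : (ι → Q) → ℝ) :
    ∑ y, F y = ∑ y, ((Fintype.card Q : ℝ)⁻¹ * ∑ t, F (Function.update y a t)) := by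
  have hN : (Fintype.card Q : ℝ) ≠ 0 := by
    have : 0 < Fintype.card Q := Fintype.card_pos
    positivity
  let e : (ι → Q) × Q ≃ (ι → Q) × Q :=
    { toFun := fun p => (Function.update p.1 a p.2, p.1 a)
      invFun := fun p => (Function.update p.1 a p.2, p.1 a)
      left_inv := by
        rintro ⟨y, t⟩
        simp
      right_inv := by
        rintro ⟨y, t⟩
        simp }
  have h1 : ∑ y, ∑ t, F (Function.update y a t) = (Fintype.card Q : ℝ) * ∑ y, F y := by
    rw [← Fintype.sum_prod_type']
    have h2 := Equiv.sum_comp e (fun p : (ι → Q) × Q => F p.1)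
    simp only [e] at h2
    rw [show (∑ x : (ι → Q) × Q, F (Function.update x.1 a x.2))
        = ∑ x : (ι → Q) × Q, F (Function.update x.1 a x.2) from rfl]
    have h3 : ∑ x : (ι → Q) × Q, F (Function.update x.1 a x.2) = ∑ p : (ι → Q) × Q, F p.1 := h2
    rw [h3, Fintype.sum_prod_type]
    simp only [Finset.sum_const, Finset.card_univ, nsmul_eq_mul]
    rw [Finset.mul_sum]
  rw [← Finset.mul_sum, h1, ← mul_assoc, inv_mul_cancel₀ hN, one_mul]

end coord

section pp

variable {ι : Type*} [LinearOrder ι]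

/-- The product of a pair function over the pairs of a set. -/
def PP (V : Finset ι) (f : ι → ι → ℝ) : ℝ := ∏ c ∈ V, ∏ b ∈ V.filter (· < c), f b c

@[simp] theorem PP_empty (f : ι → ι → ℝ) : PP ∅ f = 1 := by
  simp [PP]

theorem PP_insert {V : Finset ι} {a : ι} (ha : a ∉ V) {f : ι → ι → ℝ} (hf : ∀ b c, f b c = f c b) :
    PP (insert a V) f = PP V f * ∏ b ∈ V, f a b := by
  unfold PP
  rw [Finset.prod_insert ha]
  have h1 : (insert a V).filter (· < a) = V.filter (· < a) := by
    rw [Finset.filter_insert, if_neg (lt_irrefl a)]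
  have h2 : ∀ c ∈ V, ∏ b ∈ (insert a V).filter (· < c), f b c
      = (∏ b ∈ V.filter (· < c), f b c) * (if a < c then f a c else 1) := by
    intro c _
    rw [Finset.filter_insert]
    by_cases hac : a < c
    · rw [if_pos hac, if_pos hac, Finset.prod_insert (by simp [ha])]
      ring
    · rw [if_neg hac, if_neg hac, mul_one]
  rw [h1, Finset.prod_congr rfl h2, Finset.prod_mul_distrib]
  have h3 : ∏ b ∈ V, f a b
      = (∏ b ∈ V.filter (· < a), f b a) * ∏ c ∈ V, (if a < c then f a c else 1) := by
    rw [Finset.prod_filter, ← Finset.prod_mul_distrib]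
    refine Finset.prod_congr rfl (fun b hb => ?_)
    have hne : b ≠ a := fun h => ha (h ▸ hb)
    rcases lt_or_gt_of_ne hne with h | h
    · rw [if_pos h, if_neg (not_lt.mpr h.le), mul_one, hf]
    · rw [if_neg (not_lt.mpr h.le), if_pos h, one_mul]
  rw [h3]
  ring

theorem PP_nonneg {V : Finset ι} {f : ι → ι → ℝ} (hf : ∀ b c, 0 ≤ f b c) : 0 ≤ PP V f :=
  Finset.prod_nonneg (fun _ _ => Finset.prod_nonneg (fun _ _ => hf _ _))

theorem PP_mul (V : Finset ι) (f g : ι → ι → ℝ) : PP V (fun b c => f b c * g b c) = PP V f * PP V g := by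
  unfold PP
  rw [← Finset.prod_mul_distrib]
  refine Finset.prod_congr rfl (fun c _ => ?_)
  rw [Finset.prod_mul_distrib]

theorem PP_congr {V : Finset ι} {f g : ι → ι → ℝ} (h : ∀ b ∈ V, ∀ c ∈ V, f b c = g b c) :
    PP V f = PP V g := by
  unfold PP
  refine Finset.prod_congr rfl (fun c hc => Finset.prod_congr rfl (fun b hb => ?_))
  exact h b (Finset.mem_filter.mp hb).1 c hc

/-- The pair weights of a family of points. -/
noncomputable def pr (a : ℕ) (x w : ι → Cube a) (b c : ι) : ℝ := kap a (x b) (x c) (w b) (w c)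

theorem pr_symm (a : ℕ) (x w : ι → Cube a) (b c : ι) : pr a x w b c = pr a x w c b :=
  kap_symm _ _ _ _ _

theorem pr_nonneg (a : ℕ) (x w : ι → Cube a) (b c : ι) : 0 ≤ pr a x w b c := kap_nonneg _ _ _ _ _

/-- All pair weights on `V` are nonzero. -/
def Comp (a : ℕ) (V : Finset ι) (x w : ι → Cube a) : Prop :=
  ∀ b ∈ V, ∀ c ∈ V, b ≠ c → pr a x w b c ≠ 0

theorem comp_of_PP_ne {a : ℕ} {V : Finset ι} {x w : ι → Cube a} (h : PP V (pr a x w) ≠ 0) :
    Comp a V x w := by
  intro b hb c hc hbc
  unfold PP at h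
  rw [Finset.prod_ne_zero_iff] at h
  rcases lt_or_gt_of_ne hbc with h1 | h1
  · have h2 := h c hc
    rw [Finset.prod_ne_zero_iff] at h2
    exact h2 b (Finset.mem_filter.mpr ⟨hb, h1⟩)
  · have h2 := h b hb
    rw [Finset.prod_ne_zero_iff] at h2
    rw [pr_symm]
    exact h2 c (Finset.mem_filter.mpr ⟨hc, h1⟩)

theorem PP_ne_of_comp {a : ℕ} {V : Finset ι} {x w : ι → Cube a} (h : Comp a V x w) :
    PP V (pr a x w) ≠ 0 := by
  unfold PP
  rw [Finset.prod_ne_zero_iff]
  intro c hc
  rw [Finset.prod_ne_zero_iff]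
  intro b hb
  have hb' := Finset.mem_filter.mp hb
  exact h b hb'.1 c hc (ne_of_lt hb'.2)

theorem Comp.mono {a : ℕ} {V V' : Finset ι} {x w : ι → Cube a} (h : Comp a V x w) (hs : V' ⊆ V) :
    Comp a V' x w := fun b hb c hc hbc => h b (hs hb) c (hs hc) hbc

theorem Comp.injOn {a : ℕ} {V : Finset ι} {x w : ι → Cube a} (h : Comp a V x w) :
    Set.InjOn x V := by
  intro b hb c hc hbc
  by_contra hne
  apply h b (Finset.mem_coe.mp hb) c (Finset.mem_coe.mp hc) hne
  unfold pr
  rw [hbc]
  exact kap_self _ _ _ _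

/-- The product formula for the joint law. -/
theorem Ev_eq (a : ℕ) (V : Finset ι) (x w : ι → Cube a) (hinj : Set.InjOn x V) :
    Ev a V x w = ((1 / 2 : ℝ) ^ a) ^ V.card * PP V (pr a x w) := by
  classical
  induction V using Finset.induction_on with
  | empty =>
    simp only [Ev, Finset.prod_empty, Finset.card_empty, pow_zero, one_mul, PP_empty]
    exact avg_const 1
  | insert c V hc ih =>
    have hinj' : Set.InjOn x V := hinj.mono (by simp)
    have h1 : Ev a (insert c V) x w = Evt a (x c) (w c) V x w := by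
      unfold Ev Evt
      congr 1
      funext ω
      rw [Finset.prod_insert hc]
    have hne : ∀ b ∈ V, x b ≠ x c := by
      intro b hb h
      have h2 := hinj (by simp [hb]) (by simp) h
      exact hc (h2 ▸ hb)
    rw [h1, onecard a V x w (x c) (w c) hinj' hne, ih hinj', PP_insert hc (pr_symm a x w),
      Finset.card_insert_of_notMem hc, pow_succ]
    unfold pr
    ring

theorem Ev_pos {a : ℕ} {V : Finset ι} {x w : ι → Cube a} (h : Comp a V x w) : 0 < Ev a V x w := by
  rw [Ev_eq a V x w h.injOn]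
  have h1 := PP_ne_of_comp h
  have h2 : 0 ≤ PP V (pr a x w) := PP_nonneg (pr_nonneg a x w)
  have h3 : 0 < PP V (pr a x w) := lt_of_le_of_ne h2 (Ne.symm h1)
  positivity

/-- Summing over the image of a point. -/
theorem sum_Evt_right (a : ℕ) (t : Cube a) (V : Finset ι) (x w : ι → Cube a) :
    ∑ u, Evt a t u V x w = Ev a V x w := by
  unfold Evt Ev
  rw [← avg_sum]
  congr 1
  funext ω
  rw [← Finset.sum_mul]
  have : ∑ u, ind (net a ω t = u) = 1 := by
    unfold ind
    simp
  rw [this, one_mul]

/-- Summing over the preimage of a point. -/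
theorem sum_Evt_left (a : ℕ) (u : Cube a) (V : Finset ι) (x w : ι → Cube a) :
    ∑ t, Evt a t u V x w = Ev a V x w := by
  unfold Evt Ev
  rw [← avg_sum]
  congr 1
  funext ω
  rw [← Finset.sum_mul]
  have : ∑ t, ind (net a ω t = u) = 1 := by
    have h2 : ∀ t, ind (net a ω t = u) = ind (t = (net a ω)⁻¹ u) := by
      intro t
      unfold ind
      have : net a ω t = u ↔ t = (net a ω)⁻¹ u := by
        rw [Equiv.Perm.eq_inv_iff_eq]
      simp only [this]
    simp only [h2]
    unfold ind
    simp
  rw [this, one_mul]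

/-- Integrating the image of a new point. -/
theorem cardA_right {a : ℕ} {V : Finset ι} {x w : ι → Cube a} (h : Comp a V x w) (t : Cube a) :
    ∑ u, (1 / 2 : ℝ) ^ a * ∏ c ∈ V, kap a t (x c) u (w c) ≤ 1 := by
  by_cases ht : ∃ c ∈ V, x c = t
  · obtain ⟨c, hc, hct⟩ := ht
    have : ∀ u, (1 / 2 : ℝ) ^ a * ∏ c ∈ V, kap a t (x c) u (w c) = 0 := by
      intro u
      rw [Finset.prod_eq_zero hc (by rw [hct]; exact kap_self _ _ _ _), mul_zero]
    rw [Finset.sum_eq_zero (fun u _ => this u)]
    norm_num
  · push Not at ht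
    have hpos := Ev_pos h
    have h1 : (∑ u, (1 / 2 : ℝ) ^ a * ∏ c ∈ V, kap a t (x c) u (w c)) * Ev a V x w = Ev a V x w := by
      rw [Finset.sum_mul]
      refine Eq.trans ?_ (sum_Evt_right a t V x w)
      refine Finset.sum_congr rfl (fun u _ => ?_)
      rw [onecard a V x w t u h.injOn ht]
    have h2 := mul_right_cancel₀ hpos.ne' (h1.trans (one_mul _).symm)
    exact h2.le

/-- Integrating the preimage of a new point. -/
theorem cardA_left {a : ℕ} {V : Finset ι} {x w : ι → Cube a} (h : Comp a V x w) (u : Cube a) :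
    ∑ t, (1 / 2 : ℝ) ^ a * ∏ c ∈ V, kap a t (x c) u (w c) ≤ 1 := by
  have hpos := Ev_pos h
  have h1 : (∑ t, (1 / 2 : ℝ) ^ a * ∏ c ∈ V, kap a t (x c) u (w c)) * Ev a V x w ≤ Ev a V x w := by
    rw [Finset.sum_mul]
    refine le_trans ?_ (le_of_eq (sum_Evt_left a u V x w))
    refine Finset.sum_le_sum (fun t _ => ?_)
    by_cases ht : ∃ c ∈ V, x c = t
    · obtain ⟨c, hc, hct⟩ := ht
      rw [Finset.prod_eq_zero hc (by rw [hct]; exact kap_self _ _ _ _), mul_zero, zero_mul]
      exact avg_nonneg (fun _ => mul_nonneg (ind_nonneg _) (prod_ind_nonneg _))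
    · push Not at ht
      exact le_of_eq (onecard a V x w t u h.injOn ht).symm
  have h2 : (∑ t, (1 / 2 : ℝ) ^ a * ∏ c ∈ V, kap a t (x c) u (w c)) * Ev a V x w ≤ 1 * Ev a V x w := by
    rw [one_mul]
    exact h1
  exact le_of_mul_le_mul_right h2 hpos

/-- The total weight of the preimages. -/
theorem sum_PP_le [Fintype ι] (a : ℕ) (V : Finset ι) (w : ι → Cube a) :
    ∑ y : ι → Cube a, PP V (pr a y w) ≤ ((2 : ℝ) ^ a) ^ Fintype.card ι := by
  classical
  induction V using Finset.induction_on with
  | empty =>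
    simp only [PP_empty, Finset.sum_const, Finset.card_univ, nsmul_eq_mul, mul_one]
    rw [Fintype.card_fun, card_cube]
    push_cast
    rfl
  | insert c V hc ih =>
    refine le_trans (le_of_eq (sum_update_avg c _)) (le_trans (Finset.sum_le_sum (fun y _ => ?_)) ih)
    have hcard : (Fintype.card (Cube a) : ℝ) = (2 : ℝ) ^ a := by
      rw [card_cube]
      push_cast
      rfl
    rw [hcard]
    have h1 : ∀ t, PP (insert c V) (pr a (Function.update y c t) w)
        = PP V (pr a y w) * ∏ b ∈ V, kap a t (y b) (w c) (w b) := by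
      intro t
      rw [PP_insert hc (pr_symm a _ w)]
      congr 1
      · refine PP_congr (fun b hb d hd => ?_)
        unfold pr
        have hb' : b ≠ c := fun h => hc (h ▸ hb)
        have hd' : d ≠ c := fun h => hc (h ▸ hd)
        rw [Function.update_of_ne hb', Function.update_of_ne hd']
      · refine Finset.prod_congr rfl (fun b hb => ?_)
        unfold pr
        have hb' : b ≠ c := fun h => hc (h ▸ hb)
        rw [Function.update_self, Function.update_of_ne hb']
    simp only [h1]
    rw [← Finset.mul_sum]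
    by_cases hz : PP V (pr a y w) = 0
    · rw [hz]
      simp
    · have h2 := cardA_left (comp_of_PP_ne hz) (w c)
      rw [← Finset.mul_sum] at h2
      have h0 : 0 ≤ PP V (pr a y w) := PP_nonneg (pr_nonneg a y w)
      have h3 : ((2 : ℝ) ^ a)⁻¹ = (1 / 2 : ℝ) ^ a := by
        rw [one_div, inv_pow]
      rw [h3]
      calc (1 / 2 : ℝ) ^ a * (PP V (pr a y w) * ∑ t, ∏ b ∈ V, kap a t (y b) (w c) (w b))
          = PP V (pr a y w) * ((1 / 2 : ℝ) ^ a * ∑ t, ∏ b ∈ V, kap a t (y b) (w c) (w b)) := by ring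
        _ ≤ PP V (pr a y w) * 1 := mul_le_mul_of_nonneg_left h2 h0
        _ = _ := mul_one _

end pp

section hh

/-- The level at which two points of the cube meet in the network. -/
def hh : (a : ℕ) → Cube a → Cube a → ℕ
  | 0, _, _ => 0
  | a + 1, x, x' => if Fin.tail x = Fin.tail x' then 0 else 1 + hh a (Fin.tail x) (Fin.tail x')

theorem hh_self (a : ℕ) (x : Cube a) : hh a x x = 0 := by
  cases a <;> simp [hh]

theorem sum_cube_succ {a : ℕ} (f : Cube (a + 1) → ℝ) :
    ∑ u, f u = ∑ p : Cube a, (f (Fin.cons false p) + f (Fin.cons true p)) := by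
  rw [← Equiv.sum_comp (consE a), Fintype.sum_prod_type, Finset.sum_comm]
  refine Finset.sum_congr rfl (fun p _ => ?_)
  simp [add_comm]

theorem hh_sum (a : ℕ) (z : Cube a) : ∑ t, (1 / 2 : ℝ) ^ hh a t z = (a : ℝ) + 1 := by
  induction a with
  | zero =>
    simp [hh]
  | succ a ih =>
    rw [sum_cube_succ]
    have h1 : ∀ p : Cube a, (1 / 2 : ℝ) ^ hh (a + 1) (Fin.cons false p) z
        + (1 / 2 : ℝ) ^ hh (a + 1) (Fin.cons true p) z
        = (if p = Fin.tail z then 1 else 0) + (1 / 2 : ℝ) ^ hh a p (Fin.tail z) := by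
      intro p
      simp only [hh, Fin.tail_cons]
      by_cases hp : p = Fin.tail z
      · simp only [hp, if_true, pow_zero, hh_self]
      · simp only [hp, if_false, pow_add]
        ring
    simp only [h1, Finset.sum_add_distrib, ih]
    simp only [Finset.sum_ite_eq', Finset.mem_univ, if_true]
    push_cast
    ring


/-- The tail of a compatible family with equal output heads is compatible. -/
theorem comp_tail {ι : Type*} [LinearOrder ι] {a : ℕ} {V : Finset ι} {x w : ι → Cube (a + 1)}
    (h : Comp (a + 1) V x w) (e : Bool) :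
    Comp a (V.filter (fun c => w c 0 = e)) (tl x) (tl w) := by
  intro b hb c hc hbc
  have hb' := Finset.mem_filter.mp hb
  have hc' := Finset.mem_filter.mp hc
  have h1 := h b hb'.1 c hc'.1 hbc
  have hw : w b 0 = w c 0 := hb'.2.trans hc'.2.symm
  unfold pr at h1
  by_cases htl : Fin.tail (x b) = Fin.tail (x c)
  · exfalso
    apply h1
    rw [kap_succ_eq htl, if_neg]
    rintro ⟨_, h2⟩
    exact h2 hw
  · rw [kap_succ_ne htl, if_neg (by rw [hw]; exact fun h => h rfl)] at h1
    exact h1

open Classical in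
/-- The point `b` is the first one to meet the new point. -/
def FirstP {ι : Type*} (a : ℕ) (T : Finset ι) (x w : ι → Cube a) (t u : Cube a) (b : ι) : Prop :=
  kap a t (x b) u (w b) ≠ 1 ∧ ∀ c ∈ T, kap a t (x c) u (w c) ≠ 1 → hh a t (x b) ≤ hh a t (x c)

open Classical in
/-- The weight of the event that `b` is the first one to meet the new point. -/
theorem cardB {ι : Type*} [LinearOrder ι] (a : ℕ) (T V : Finset ι) (x w : ι → Cube a) (b : ι)
    (hb : b ∈ T) (hV : V ⊆ T) (hc : Comp a V x w) (t : Cube a) :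
    ∑ u, (1 / 2 : ℝ) ^ a * (∏ c ∈ V, kap a t (x c) u (w c)) * ind (FirstP a T x w t u b)
      ≤ (1 / 2 : ℝ) ^ hh a t (x b) := by
  have hA : ∀ (a : ℕ) (V : Finset ι) (x w : ι → Cube a) (_ : Comp a V x w) (t : Cube a)
      (P : Cube a → Prop) [DecidablePred P],
      ∑ u, (1 / 2 : ℝ) ^ a * (∏ c ∈ V, kap a t (x c) u (w c)) * ind (P u) ≤ 1 := by
    intro a V x w hc t P _
    refine le_trans (Finset.sum_le_sum (fun u _ => ?_)) (cardA_right hc t)
    have h0 : 0 ≤ (1 / 2 : ℝ) ^ a * ∏ c ∈ V, kap a t (x c) u (w c) :=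
      mul_nonneg (by positivity) (Finset.prod_nonneg (fun _ _ => kap_nonneg _ _ _ _ _))
    calc _ ≤ (1 / 2 : ℝ) ^ a * (∏ c ∈ V, kap a t (x c) u (w c)) * 1 :=
          mul_le_mul_of_nonneg_left (ind_le_one _) h0
      _ = _ := mul_one _
  induction a generalizing T V b with
  | zero =>
    have h1 : hh 0 t (x b) = 0 := rfl
    rw [h1, pow_zero]
    exact hA 0 V x w hc t _
  | succ a ih =>
    by_cases h1 : Fin.tail t = Fin.tail (x b)
    · have h2 : hh (a + 1) t (x b) = 0 := by
        simp only [hh, h1, if_true]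
      rw [h2, pow_zero]
      exact hA (a + 1) V x w hc t _
    have h2 : hh (a + 1) t (x b) = 1 + hh a (Fin.tail t) (Fin.tail (x b)) := by
      simp only [hh, h1, if_false]
    by_cases h3 : ∃ c ∈ T, Fin.tail (x c) = Fin.tail t
    · obtain ⟨c, hc', htc⟩ := h3
      have hz : ∀ u, ¬ FirstP (a + 1) T x w t u b := by
        intro u ⟨_, h5⟩
        have h6 : kap (a + 1) t (x c) u (w c) ≠ 1 := by
          rw [kap_succ_eq htc.symm]
          split_ifs <;> norm_num
        have h7 := h5 c hc' h6
        have h8 : hh (a + 1) t (x c) = 0 := by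
          simp only [hh, htc.symm, if_true]
        omega
      have hs : ∀ u, (1 / 2 : ℝ) ^ (a + 1) * (∏ c ∈ V, kap (a + 1) t (x c) u (w c))
          * ind (FirstP (a + 1) T x w t u b) = 0 := by
        intro u
        rw [ind_false' (hz u), mul_zero]
      rw [Finset.sum_eq_zero (fun u _ => hs u)]
      positivity
    push Not at h3
    have hfree : ∀ c ∈ V, Fin.tail (x c) ≠ Fin.tail t := fun c hc => h3 c (hV hc)
    set e := w b 0 with he
    set Te := T.filter (fun c => w c 0 = e) with hTe
    set Ve := V.filter (fun c => w c 0 = e) with hVe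
    have hIH := ih Te Ve (tl x) (tl w) b (Finset.mem_filter.mpr ⟨hb, rfl⟩)
      (fun c hc => by
        have := Finset.mem_filter.mp hc
        exact Finset.mem_filter.mpr ⟨hV this.1, this.2⟩) (comp_tail hc e) (Fin.tail t)
    have hterm : ∀ p : Cube a, (1 / 2 : ℝ) ^ (a + 1) * (∏ c ∈ V, kap (a + 1) t (x c) (Fin.cons e p) (w c))
        * ind (FirstP (a + 1) T x w t (Fin.cons e p) b)
        ≤ (1 / 2) * ((1 / 2 : ℝ) ^ a * (∏ c ∈ Ve, kap a (Fin.tail t) (tl x c) p (tl w c))
          * ind (FirstP a Te (tl x) (tl w) (Fin.tail t) p b)) := by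
      intro p
      have h5 := kap_prod_free (a := a) (V := V) (x := x) (w := w) (t := t) (u := Fin.cons e p) hfree
      simp only [Fin.cons_zero, Fin.tail_cons] at h5
      rw [h5]
      have h6 : ind (FirstP (a + 1) T x w t (Fin.cons e p) b)
          ≤ ind (FirstP a Te (tl x) (tl w) (Fin.tail t) p b) := by
        refine ind_mono ?_
        rintro ⟨h7, h8⟩
        constructor
        · rw [kap_succ_ne (Ne.symm (h3 b hb))] at h7
          simp only [Fin.cons_zero, Fin.tail_cons, ← he, ne_eq, not_true_eq_false, if_false] at h7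
          exact h7
        · intro c hc h9
          have hc' := Finset.mem_filter.mp hc
          have h10 : kap (a + 1) t (x c) (Fin.cons e p) (w c) ≠ 1 := by
            rw [kap_succ_ne (Ne.symm (h3 c hc'.1))]
            simp only [Fin.cons_zero, Fin.tail_cons, hc'.2, ne_eq, not_true_eq_false, if_false]
            exact h9
          have h11 := h8 c hc'.1 h10
          have h12 : hh (a + 1) t (x c) = 1 + hh a (Fin.tail t) (Fin.tail (x c)) := by
            simp only [hh, Ne.symm (h3 c hc'.1), if_false]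
          rw [h2, h12] at h11
          simp only [tl]
          omega
      have h0 : 0 ≤ (1 / 2 : ℝ) ^ a * ∏ c ∈ Ve, kap a (Fin.tail t) (tl x c) p (tl w c) :=
        mul_nonneg (by positivity) (Finset.prod_nonneg (fun _ _ => kap_nonneg _ _ _ _ _))
      have h13 := mul_le_mul_of_nonneg_left h6 h0
      rw [pow_succ]
      calc _ = (1 / 2) * ((1 / 2 : ℝ) ^ a * (∏ c ∈ Ve, kap a (Fin.tail t) (tl x c) p (tl w c))
            * ind (FirstP (a + 1) T x w t (Fin.cons e p) b)) := by
            simp only [hVe]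
            ring
        _ ≤ _ := mul_le_mul_of_nonneg_left h13 (by norm_num)
    have hzero : ∀ p : Cube a, (1 / 2 : ℝ) ^ (a + 1) * (∏ c ∈ V, kap (a + 1) t (x c) (Fin.cons (!e) p) (w c))
        * ind (FirstP (a + 1) T x w t (Fin.cons (!e) p) b) = 0 := by
      intro p
      have : ¬ FirstP (a + 1) T x w t (Fin.cons (!e) p) b := by
        rintro ⟨h7, _⟩
        apply h7
        rw [kap_succ_ne (Ne.symm (h3 b hb))]
        simp [he]
      rw [ind_false' this, mul_zero]
    rw [sum_cube_succ]
    have hsplit : ∀ p : Cube a,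
        (1 / 2 : ℝ) ^ (a + 1) * (∏ c ∈ V, kap (a + 1) t (x c) (Fin.cons false p) (w c))
          * ind (FirstP (a + 1) T x w t (Fin.cons false p) b)
        + (1 / 2 : ℝ) ^ (a + 1) * (∏ c ∈ V, kap (a + 1) t (x c) (Fin.cons true p) (w c))
          * ind (FirstP (a + 1) T x w t (Fin.cons true p) b)
        ≤ (1 / 2) * ((1 / 2 : ℝ) ^ a * (∏ c ∈ Ve, kap a (Fin.tail t) (tl x c) p (tl w c))
          * ind (FirstP a Te (tl x) (tl w) (Fin.tail t) p b)) := by
      intro p
      have h5 := hterm p
      have h6 := hzero p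
      cases he' : e
      · rw [he'] at h5 h6
        simp only [Bool.not_false] at h6
        rw [h6, add_zero]
        exact h5
      · rw [he'] at h5 h6
        simp only [Bool.not_true] at h6
        rw [h6, zero_add]
        exact h5
    refine (Finset.sum_le_sum (fun p _ => hsplit p)).trans ?_
    rw [← Finset.mul_sum, h2, pow_add, pow_one]
    exact mul_le_mul_of_nonneg_left hIH (by norm_num)

end hh

end Vale.Agent.Lib.P162
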