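import Vale.Agent.Lib.P162.NJen

/-! Exponential moments of the cycle functional: the chain of exponents. -/

namespace Vale.Agent.Lib.P162

open Equiv Finset

set_option linter.unusedSectionVars false

/-- The square root of the cycle moment rate. -/
noncomputable def thetaA (a : ℕ) : ℝ := (3 / 4 : ℝ) ^ (a / 2)

theorem thetaA_pos (a : ℕ) : 0 < thetaA a := by
  unfold thetaA
  positivity

theorem thetaA_le_one (a : ℕ) : thetaA a ≤ 1 := by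
  unfold thetaA
  exact pow_le_one₀ (by norm_num) (by norm_num)

theorem xi_le (a : ℕ) : (3 / 4 : ℝ) ^ a ≤ thetaA a * thetaA a := by
  unfold thetaA
  rw [← pow_add]
  apply pow_le_pow_of_le_one (by norm_num) (by norm_num)
  omega

/-- The tail of the cycle count, in the form of a moment. -/
theorem tail_avg {a : ℕ} (τ : Perm (Cube a)) (D : Finset (Cube a)) (k : ℕ) (hD : 2 * D.card ≤ k)
    {h : ℝ} (h1 : 1 ≤ h) (h2 : h ≤ 2) {r : ℕ} {κ : ℝ} (hκ : thetaA a ≤ κ)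
    (hr : κ * (k : ℝ) ≤ (r : ℝ) + 1) :
    avg (fun β : BC a => if r < cyc ((ben a β)⁻¹ * τ) D then h ^ cyc ((ben a β)⁻¹ * τ) D else 0)
      ≤ (Real.exp 1 * thetaA a) ^ (r + 1) := by
  have hθ := thetaA_pos a
  set θ := thetaA a with hθdef
  set Q : ℝ := θ⁻¹ with hQdef
  have hθ1 : θ ≤ 1 := thetaA_le_one a
  have hQ1 : 1 ≤ Q := by
    rw [hQdef]
    exact (one_le_inv₀ hθ).mpr hθ1
  have hq1 : 1 ≤ h * Q := by nlinarith
  have hpt : ∀ β : BC a, (if r < cyc ((ben a β)⁻¹ * τ) D then h ^ cyc ((ben a β)⁻¹ * τ) D else 0)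
      ≤ θ ^ (r + 1) * (h * Q) ^ cyc ((ben a β)⁻¹ * τ) D := by
    intro β
    set Y := cyc ((ben a β)⁻¹ * τ) D
    split_ifs with hY
    · rw [mul_pow, ← mul_assoc, mul_comm (θ ^ (r + 1)), mul_assoc]
      have h3 : 1 ≤ θ ^ (r + 1) * Q ^ Y := by
        have h4 : Q ^ (r + 1) ≤ Q ^ Y := pow_le_pow_right₀ hQ1 hY
        have h5 : θ ^ (r + 1) * Q ^ (r + 1) = 1 := by
          rw [← mul_pow, hQdef, mul_inv_cancel₀ hθ.ne', one_pow]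
        calc (1 : ℝ) = θ ^ (r + 1) * Q ^ (r + 1) := h5.symm
          _ ≤ θ ^ (r + 1) * Q ^ Y := by gcongr
      have h6 : 0 ≤ h ^ Y := by positivity
      nlinarith
    · positivity
  have hm := cyc_moment_inv a hq1 τ D
  have hbase : 1 + (3 / 4 : ℝ) ^ a * (h * Q - 1) ≤ Real.exp (2 * θ) := by
    have h3 : (3 / 4 : ℝ) ^ a * (h * Q - 1) ≤ 2 * θ := by
      have h4 : (3 / 4 : ℝ) ^ a * Q ≤ θ := by
        have h5 := xi_le a
        rw [← hθdef] at h5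
        calc (3 / 4 : ℝ) ^ a * Q ≤ (θ * θ) * Q := by gcongr
          _ = θ := by
            rw [hQdef]
            field_simp
      have h7 : (0 : ℝ) ≤ (3 / 4 : ℝ) ^ a := by positivity
      nlinarith [mul_le_mul_of_nonneg_left h2 (mul_nonneg h7 (by linarith : (0 : ℝ) ≤ Q))]
    have := Real.add_one_le_exp (2 * θ)
    linarith
  have hb0 : 0 ≤ 1 + (3 / 4 : ℝ) ^ a * (h * Q - 1) := by
    have : 0 ≤ (3 / 4 : ℝ) ^ a * (h * Q - 1) := mul_nonneg (by positivity) (by linarith)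
    linarith
  have hbd : (1 + (3 / 4 : ℝ) ^ a * (h * Q - 1)) ^ D.card ≤ Real.exp ((r : ℝ) + 1) := by
    calc (1 + (3 / 4 : ℝ) ^ a * (h * Q - 1)) ^ D.card ≤ Real.exp (2 * θ) ^ D.card :=
          pow_le_pow_left₀ hb0 hbase _
      _ = Real.exp ((D.card : ℝ) * (2 * θ)) := by rw [Real.exp_nat_mul]
      _ ≤ Real.exp ((r : ℝ) + 1) := by
          apply Real.exp_le_exp.mpr
          have h3 : (2 : ℝ) * (D.card : ℝ) ≤ k := by exact_mod_cast hD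
          have h4 : θ * (k : ℝ) ≤ κ * (k : ℝ) := by gcongr
          nlinarith
  calc avg (fun β : BC a => if r < cyc ((ben a β)⁻¹ * τ) D then h ^ cyc ((ben a β)⁻¹ * τ) D else 0)
      ≤ avg (fun β : BC a => θ ^ (r + 1) * (h * Q) ^ cyc ((ben a β)⁻¹ * τ) D) := avg_mono hpt
    _ = θ ^ (r + 1) * avg (fun β : BC a => (h * Q) ^ cyc ((ben a β)⁻¹ * τ) D) := avg_mul_left _ _
    _ ≤ θ ^ (r + 1) * Real.exp ((r : ℝ) + 1) := by
        apply mul_le_mul_of_nonneg_left (hm.trans hbd)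
        positivity
    _ = (Real.exp 1 * θ) ^ (r + 1) := by
        rw [mul_pow, ← Real.exp_nat_mul]
        have : ((r + 1 : ℕ) : ℝ) * 1 = (r : ℝ) + 1 := by push_cast; ring
        rw [this, mul_comm]

/-- The exponential moment of the functional. -/
noncomputable def Zf (a₀ a : ℕ) (s : ℝ) (S : Finset (Cube a)) : ℝ :=
  avg (fun β : BC a => (2 : ℝ) ^ (s * (Cnt a₀ a S β : ℝ)))

/-- The bound of the exponential moment at rate `e` per point. -/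
def Phi (a₀ a : ℕ) (s e : ℝ) : Prop :=
  ∀ S : Finset (Cube a), Zf a₀ a s S ≤ (2 : ℝ) ^ (s * e * (S.card : ℝ))

theorem rpow_pow_comm {x : ℝ} (hx : 0 ≤ x) (y : ℝ) (n : ℕ) : (x ^ n) ^ y = (x ^ y) ^ n := by
  rw [← Real.rpow_natCast, ← Real.rpow_mul hx, ← Real.rpow_natCast (x ^ y), ← Real.rpow_mul hx,
    mul_comm]

/-- The tail term after Hölder's inequality. -/
theorem cross_bound {a₀ a : ℕ} {s e₂ κ L p q : ℝ} (hs : 0 < s) (he₂ : 0 ≤ e₂)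
    (hconj : p.HolderConjugate q) (hsp : s * q ≤ 1) (hκθ : thetaA a ≤ κ) (hκL : 2 * s * e₂ ≤ L * κ)
    (hL : 0 < L) (hLθ : (Real.exp 1 * thetaA a) ^ (1 / q) ≤ (2 : ℝ) ^ (-L))
    (H2 : Phi a₀ a (p * s) e₂) (k r : ℕ) (hr1 : κ * (k : ℝ) ≤ (r : ℝ) + 1)
    (S₀ : Finset (Cube a)) (τ : Perm (Cube a)) (D : Finset (Cube a))
    (hS₀ : S₀.card ≤ k) (hD : 2 * D.card ≤ k) :
    avg (fun β : BC a => (2 : ℝ) ^ (s * (Cnt a₀ a S₀ β : ℝ)) *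
        (if r < cyc ((ben a β)⁻¹ * τ) D then (2 : ℝ) ^ (s * (cyc ((ben a β)⁻¹ * τ) D : ℝ)) else 0))
      ≤ (2 : ℝ) ^ (-(L / 2)) := by
  have h20 : (0 : ℝ) < 2 := by norm_num
  have hp0 : 0 < p := hconj.pos
  have hq0 : 0 < q := hconj.symm.pos
  have hκ0 : 0 ≤ κ := (thetaA_pos a).le.trans hκθ
  have hh1 : 1 ≤ (2 : ℝ) ^ (s * q) := Real.one_le_rpow (by norm_num) (by positivity)
  have hh2 : (2 : ℝ) ^ (s * q) ≤ 2 := by
    calc (2 : ℝ) ^ (s * q) ≤ (2 : ℝ) ^ (1 : ℝ) := Real.rpow_le_rpow_of_exponent_le (by norm_num) hsp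
      _ = 2 := Real.rpow_one 2
  let f : BC a → ℝ := fun β₀ => (2 : ℝ) ^ (s * (Cnt a₀ a S₀ β₀ : ℝ))
  let Y : BC a → ℕ := fun β₀ => cyc ((ben a β₀)⁻¹ * τ) D
  let g : BC a → ℝ := fun β₀ => if r < Y β₀ then (2 : ℝ) ^ (s * (Y β₀ : ℝ)) else 0
  have hf0 : ∀ β, 0 ≤ f β := fun β => (Real.rpow_pos_of_pos h20 _).le
  have hg0 : ∀ β, 0 ≤ g β := by
    intro β
    simp only [g]
    split_ifs
    · exact (Real.rpow_pos_of_pos h20 _).le
    · exact le_rfl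
  have hH := avg_holder hf0 hg0 hconj
  have hfp : ∀ β, f β ^ p = (2 : ℝ) ^ (p * s * (Cnt a₀ a S₀ β : ℝ)) := by
    intro β
    simp only [f]
    rw [← Real.rpow_mul h20.le]
    congr 1
    ring
  have hZ2 : avg (fun β => f β ^ p) ≤ (2 : ℝ) ^ (p * s * e₂ * (S₀.card : ℝ)) := by
    simp only [hfp]
    exact H2 S₀
  have hgq : ∀ β, g β ^ q = if r < Y β then ((2 : ℝ) ^ (s * q)) ^ Y β else 0 := by
    intro β
    simp only [g]
    split_ifs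
    · rw [← Real.rpow_mul h20.le, ← Real.rpow_natCast, ← Real.rpow_mul h20.le]
      congr 1
      ring
    · exact Real.zero_rpow hq0.ne'
  have htail := tail_avg τ D k hD hh1 hh2 hκθ hr1
  have hg2 : avg (fun β => g β ^ q) ≤ (Real.exp 1 * thetaA a) ^ (r + 1) := by
    simp only [hgq]
    exact htail
  have hb0 : 0 ≤ Real.exp 1 * thetaA a := mul_nonneg (Real.exp_pos 1).le (thetaA_pos a).le
  have hterm1 : avg (fun β => f β ^ p) ^ (1 / p) ≤ (2 : ℝ) ^ (s * e₂ * (S₀.card : ℝ)) := by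
    have h1 : avg (fun β => f β ^ p) ^ (1 / p)
        ≤ ((2 : ℝ) ^ (p * s * e₂ * (S₀.card : ℝ))) ^ (1 / p) :=
      Real.rpow_le_rpow (avg_nonneg (fun β => Real.rpow_nonneg (hf0 β) _)) hZ2 (by positivity)
    refine h1.trans (le_of_eq ?_)
    rw [← Real.rpow_mul h20.le]
    congr 1
    field_simp
  have hterm2 : avg (fun β => g β ^ q) ^ (1 / q) ≤ (2 : ℝ) ^ (-(L * ((r : ℝ) + 1))) := by
    have h1 : avg (fun β => g β ^ q) ^ (1 / q)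
        ≤ ((Real.exp 1 * thetaA a) ^ (r + 1)) ^ (1 / q) :=
      Real.rpow_le_rpow (avg_nonneg (fun β => Real.rpow_nonneg (hg0 β) _)) hg2 (by positivity)
    refine h1.trans ?_
    rw [rpow_pow_comm hb0]
    calc ((Real.exp 1 * thetaA a) ^ (1 / q)) ^ (r + 1) ≤ ((2 : ℝ) ^ (-L)) ^ (r + 1) :=
          pow_le_pow_left₀ (Real.rpow_nonneg hb0 _) hLθ _
      _ = _ := by
          rw [← Real.rpow_natCast, ← Real.rpow_mul h20.le]
          congr 1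
          push_cast
          ring
  refine hH.trans ?_
  calc avg (fun β => f β ^ p) ^ (1 / p) * avg (fun β => g β ^ q) ^ (1 / q)
      ≤ (2 : ℝ) ^ (s * e₂ * (S₀.card : ℝ)) * (2 : ℝ) ^ (-(L * ((r : ℝ) + 1))) :=
        mul_le_mul hterm1 hterm2 (Real.rpow_nonneg (avg_nonneg (fun β => Real.rpow_nonneg (hg0 β) _)) _)
          (Real.rpow_nonneg h20.le _)
    _ ≤ (2 : ℝ) ^ (-(L / 2)) := by
        rw [← Real.rpow_add h20]
        apply Real.rpow_le_rpow_of_exponent_le (by norm_num)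
        have h1 : ((S₀.card : ℝ)) ≤ k := by exact_mod_cast hS₀
        have h2 : s * e₂ * (S₀.card : ℝ) ≤ s * e₂ * (k : ℝ) :=
          mul_le_mul_of_nonneg_left h1 (by positivity)
        have h3 : 2 * (s * e₂) * (k : ℝ) ≤ L * κ * (k : ℝ) :=
          mul_le_mul_of_nonneg_right (by linarith) (by positivity)
        have h4 : L * (κ * (k : ℝ)) ≤ L * ((r : ℝ) + 1) := mul_le_mul_of_nonneg_left hr1 hL.le
        have h5 : L * 1 ≤ L * ((r : ℝ) + 1) := by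
          apply mul_le_mul_of_nonneg_left _ hL.le
          have : (0 : ℝ) ≤ r := Nat.cast_nonneg r
          linarith
        nlinarith

/-- The inner bound at a node. -/
theorem inner_bound {a₀ a : ℕ} {s e₁ e₂ κ ϖ L p q : ℝ} (hs : 0 < s) (he₁ : 0 ≤ e₁) (he₂ : 0 ≤ e₂)
    (hconj : p.HolderConjugate q) (hsp : s * q ≤ 1) (hκθ : thetaA a ≤ κ) (hκL : 2 * s * e₂ ≤ L * κ)
    (hL : 0 < L) (hLθ : (Real.exp 1 * thetaA a) ^ (1 / q) ≤ (2 : ℝ) ^ (-L))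
    (hϖ : 1 + (2 : ℝ) ^ (-(L / 2)) ≤ (2 : ℝ) ^ (s * ϖ)) (hϖ0 : 0 ≤ ϖ)
    (H1 : Phi a₀ a s e₁) (H2 : Phi a₀ a (p * s) e₂) (k : ℕ) (hk : 1 ≤ k)
    (S₀ : Finset (Cube a)) (τ : Perm (Cube a)) (D : Finset (Cube a))
    (hS₀ : S₀.card ≤ k) (hD : 2 * D.card ≤ k) :
    avg (fun β₀ : BC a => (2 : ℝ) ^ (s * (Cnt a₀ a S₀ β₀ : ℝ))
        * (2 : ℝ) ^ (s * (cyc ((ben a β₀)⁻¹ * τ) D : ℝ)))
      ≤ (2 : ℝ) ^ (s * (κ * (k : ℝ) + e₁ * (S₀.card : ℝ) + ϖ * (k : ℝ))) := by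
  have h20 : (0 : ℝ) < 2 := by norm_num
  have hκ0 : 0 ≤ κ := (thetaA_pos a).le.trans hκθ
  have hkr : (1 : ℝ) ≤ (k : ℝ) := by exact_mod_cast hk
  obtain ⟨r, hr⟩ : ∃ r, r = ⌊κ * (k : ℝ)⌋₊ := ⟨_, rfl⟩
  have hr1 : κ * (k : ℝ) ≤ (r : ℝ) + 1 := by
    rw [hr]
    exact (Nat.lt_floor_add_one _).le
  have hr2 : (r : ℝ) ≤ κ * (k : ℝ) := by
    rw [hr]
    exact Nat.floor_le (by positivity)
  have hcross := cross_bound (a₀ := a₀) hs he₂ hconj hsp hκθ hκL hL hLθ H2 k r hr1 S₀ τ D hS₀ hD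
  have hZ1 : avg (fun β : BC a => (2 : ℝ) ^ (s * (Cnt a₀ a S₀ β : ℝ)))
      ≤ (2 : ℝ) ^ (s * e₁ * (S₀.card : ℝ)) := H1 S₀
  have hsplit : ∀ β : BC a, (2 : ℝ) ^ (s * (Cnt a₀ a S₀ β : ℝ))
        * (2 : ℝ) ^ (s * (cyc ((ben a β)⁻¹ * τ) D : ℝ))
      ≤ (2 : ℝ) ^ (s * (r : ℝ)) * (2 : ℝ) ^ (s * (Cnt a₀ a S₀ β : ℝ))
        + (2 : ℝ) ^ (s * (Cnt a₀ a S₀ β : ℝ)) *
        (if r < cyc ((ben a β)⁻¹ * τ) D then (2 : ℝ) ^ (s * (cyc ((ben a β)⁻¹ * τ) D : ℝ)) else 0) := by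
    intro β
    have hf0 : (0 : ℝ) ≤ (2 : ℝ) ^ (s * (Cnt a₀ a S₀ β : ℝ)) := by positivity
    split_ifs with hYr
    · have := mul_nonneg (Real.rpow_nonneg h20.le (s * (r : ℝ))) hf0
      linarith
    · have h1 : (2 : ℝ) ^ (s * (cyc ((ben a β)⁻¹ * τ) D : ℝ)) ≤ (2 : ℝ) ^ (s * (r : ℝ)) := by
        apply Real.rpow_le_rpow_of_exponent_le (by norm_num)
        have : (cyc ((ben a β)⁻¹ * τ) D : ℝ) ≤ r := by exact_mod_cast not_lt.mp hYr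
        exact mul_le_mul_of_nonneg_left this hs.le
      have := mul_le_mul_of_nonneg_left h1 hf0
      linarith
  have htot := (avg_mono hsplit).trans (le_of_eq (avg_add _ _))
  rw [avg_mul_left] at htot
  have he : (2 : ℝ) ^ (s * (r : ℝ)) * (2 : ℝ) ^ (s * e₁ * (S₀.card : ℝ))
      ≤ (2 : ℝ) ^ (s * (κ * (k : ℝ) + e₁ * (S₀.card : ℝ))) := by
    rw [← Real.rpow_add h20]
    apply Real.rpow_le_rpow_of_exponent_le (by norm_num)
    have := mul_le_mul_of_nonneg_left hr2 hs.le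
    nlinarith
  have hone : (1 : ℝ) ≤ (2 : ℝ) ^ (s * (κ * (k : ℝ) + e₁ * (S₀.card : ℝ))) :=
    Real.one_le_rpow (by norm_num) (by positivity)
  have hϖk : (2 : ℝ) ^ (s * ϖ) ≤ (2 : ℝ) ^ (s * (ϖ * (k : ℝ))) := by
    apply Real.rpow_le_rpow_of_exponent_le (by norm_num)
    have : s * (ϖ * 1) ≤ s * (ϖ * (k : ℝ)) := by gcongr
    simpa using this
  have h2pos : (0 : ℝ) ≤ (2 : ℝ) ^ (-(L / 2)) := by positivity
  have hmid : (2 : ℝ) ^ (s * (r : ℝ)) * avg (fun β : BC a => (2 : ℝ) ^ (s * (Cnt a₀ a S₀ β : ℝ)))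
      ≤ (2 : ℝ) ^ (s * (κ * (k : ℝ) + e₁ * (S₀.card : ℝ))) :=
    (mul_le_mul_of_nonneg_left hZ1 (by positivity)).trans he
  refine htot.trans ?_
  calc _ ≤ (2 : ℝ) ^ (s * (κ * (k : ℝ) + e₁ * (S₀.card : ℝ))) + (2 : ℝ) ^ (-(L / 2)) :=
        add_le_add hmid hcross
    _ ≤ (2 : ℝ) ^ (s * (κ * (k : ℝ) + e₁ * (S₀.card : ℝ))) * (1 + (2 : ℝ) ^ (-(L / 2))) := by
        nlinarith
    _ ≤ (2 : ℝ) ^ (s * (κ * (k : ℝ) + e₁ * (S₀.card : ℝ))) * (2 : ℝ) ^ (s * (ϖ * (k : ℝ))) := by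
        apply mul_le_mul_of_nonneg_left (hϖ.trans hϖk) (by positivity)
    _ = _ := by
        rw [← Real.rpow_add h20]
        congr 1
        ring

/-- One node of the chain. -/
theorem phi_step {a₀ a : ℕ} (ha : a₀ ≤ a) {s η e₁ e₂ κ ϖ L : ℝ} (hs : 0 < s) (hη : 0 < η)
    (he₁ : 0 ≤ e₁) (he₂ : 0 ≤ e₂) (hsp : s * ((1 + η) / η) ≤ 1) (hκθ : thetaA a ≤ κ)
    (hκL : 2 * s * e₂ ≤ L * κ) (hL : 0 < L)
    (hLθ : (Real.exp 1 * thetaA a) ^ (η / (1 + η)) ≤ (2 : ℝ) ^ (-L))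
    (hϖ : 1 + (2 : ℝ) ^ (-(L / 2)) ≤ (2 : ℝ) ^ (s * ϖ)) (hϖ0 : 0 ≤ ϖ)
    (H1 : Phi a₀ a s e₁) (H2 : Phi a₀ a ((1 + η) * s) e₂) : Phi a₀ (a + 1) s (e₁ + κ + ϖ) := by
  intro S
  have h20 : (0 : ℝ) < 2 := by norm_num
  have hκ0 : 0 ≤ κ := (thetaA_pos a).le.trans hκθ
  have hconj : (1 + η).HolderConjugate ((1 + η) / η) := by
    rw [Real.holderConjugate_iff]
    refine ⟨by linarith, ?_⟩
    rw [inv_div]
    field_simp
  have hq1 : 1 / ((1 + η) / η) = η / (1 + η) := by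
    rw [one_div, inv_div]
  obtain ⟨k, hk⟩ : ∃ k, k = S.card := ⟨_, rfl⟩
  rcases Nat.eq_zero_or_pos k with hk0 | hkpos
  · -- empty set
    have h1 : ∀ β : BC (a + 1), Cnt a₀ (a + 1) S β = 0 := by
      intro β
      have := Cnt_le a₀ (a + 1) S β
      rw [← hk, hk0] at this
      omega
    unfold Zf
    simp only [h1]
    rw [← hk, hk0]
    simp [avg_const]
  have hinner := inner_bound (a₀ := a₀) (ϖ := ϖ) (e₁ := e₁) hs he₁ he₂ hconj hsp hκθ hκL hL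
    (by rw [hq1]; exact hLθ) hϖ hϖ0 H1 H2 k hkpos
  -- assembling
  unfold Zf
  rw [avg_BC_succ]
  refine avg_le_of_forall (fun A' => avg_le_of_forall (fun A => ?_))
  have hc := card_S0_add_S1 A S
  have hcr : ((S0 A S).card : ℝ) + ((S1 A S).card : ℝ) = (k : ℝ) := by
    rw [hk]
    exact_mod_cast hc
  have hD := card_inter_S a A S
  have h1 : ∀ β₁ β₀ : BC a, (2 : ℝ) ^ (s * (Cnt a₀ (a + 1) S (mkB A A' β₀ β₁) : ℝ))
      = (2 : ℝ) ^ (s * (Cnt a₀ a (S1 A S) β₁ : ℝ)) * ((2 : ℝ) ^ (s * (Cnt a₀ a (S0 A S) β₀ : ℝ))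
          * (2 : ℝ) ^ (s * (cyc ((ben a β₀)⁻¹ * ben a β₁) (S0 A S ∩ S1 A S) : ℝ))) := by
    intro β₁ β₀
    rw [Cnt_mk, if_pos ha, ← Real.rpow_add h20, ← Real.rpow_add h20]
    congr 1
    push_cast
    ring
  simp only [h1]
  have h2 : ∀ β₁ : BC a, avg (fun β₀ : BC a => (2 : ℝ) ^ (s * (Cnt a₀ a (S1 A S) β₁ : ℝ)) * ((2 : ℝ) ^ (s * (Cnt a₀ a (S0 A S) β₀ : ℝ))
          * (2 : ℝ) ^ (s * (cyc ((ben a β₀)⁻¹ * ben a β₁) (S0 A S ∩ S1 A S) : ℝ))))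
      ≤ (2 : ℝ) ^ (s * (Cnt a₀ a (S1 A S) β₁ : ℝ)) * (2 : ℝ) ^ (s * (κ * (k : ℝ) + e₁ * ((S0 A S).card : ℝ) + ϖ * (k : ℝ))) := by
    intro β₁
    rw [avg_mul_left]
    apply mul_le_mul_of_nonneg_left _ (by positivity)
    refine hinner (S0 A S) (ben a β₁) (S0 A S ∩ S1 A S) ?_ (by rw [hk]; exact hD)
    rw [hk, ← hc]
    omega
  refine (avg_mono h2).trans ?_
  rw [avg_mul_right]
  have h3 : avg (fun β₁ : BC a => (2 : ℝ) ^ (s * (Cnt a₀ a (S1 A S) β₁ : ℝ))) ≤ (2 : ℝ) ^ (s * e₁ * ((S1 A S).card : ℝ)) := H1 (S1 A S)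
  calc avg (fun β₁ : BC a => (2 : ℝ) ^ (s * (Cnt a₀ a (S1 A S) β₁ : ℝ)))
        * (2 : ℝ) ^ (s * (κ * (k : ℝ) + e₁ * ((S0 A S).card : ℝ) + ϖ * (k : ℝ)))
      ≤ (2 : ℝ) ^ (s * e₁ * ((S1 A S).card : ℝ)) * (2 : ℝ) ^ (s * (κ * (k : ℝ) + e₁ * ((S0 A S).card : ℝ) + ϖ * (k : ℝ))) :=
        mul_le_mul_of_nonneg_right h3 (by positivity)
    _ = (2 : ℝ) ^ (s * (e₁ + κ + ϖ) * ((S.card : ℕ) : ℝ)) := by
        rw [← Real.rpow_add h20, ← hk]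
        congr 1
        rw [← hcr]
        ring

end Vale.Agent.Lib.P162
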