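import Vale.Agent.Lib.P162.NCard

/-! The cluster bound: the probability that many of the points interact in the network. -/

namespace Vale.Agent.Lib.P162

open Equiv Finset

set_option linter.unusedSectionVars false

open scoped Classical

variable {ι : Type*} [Fintype ι] [LinearOrder ι] {D : ℕ}

/-- The first point to meet `a` lies outside `R`. -/
def First (D : ℕ) (R T : Finset ι) (x w : ι → Cube D) (a : ι) : Prop :=
  ∃ b, b ∉ R ∧ b ≠ a ∧ kap D (x a) (x b) (w a) (w b) ≠ 1 ∧
    ∀ c ∈ T, c ≠ a → kap D (x a) (x c) (w a) (w c) ≠ 1 → hh D (x a) (x b) ≤ hh D (x a) (x c)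

/-- The summand of the cluster bound. -/
noncomputable def FZ (D : ℕ) (R W V T : Finset ι) (x w : ι → Cube D) : ℝ :=
  (∏ a ∈ W ∩ T, ind (First D R T x w a)) * PP (V ∩ T) (pr D x w)

/-- The size of the interaction probability per point. -/
noncomputable def qq (ι : Type*) [Fintype ι] (D : ℕ) : ℝ :=
  (Fintype.card ι : ℝ) * ((D : ℝ) + 1) * (1 / 2 : ℝ) ^ D

theorem qq_nonneg : 0 ≤ qq ι D := by
  unfold qq
  positivity

theorem FZ_nonneg (R W V T : Finset ι) (x w : ι → Cube D) : 0 ≤ FZ D R W V T x w := by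
  unfold FZ
  exact mul_nonneg (Finset.prod_nonneg (fun _ _ => ind_nonneg _)) (PP_nonneg (pr_nonneg D x w))

/-- Adding a point to the product of pair weights. -/
theorem PP_update {V T : Finset ι} {a : ι} (ha : a ∉ T) (x w : ι → Cube D) (t u : Cube D) :
    PP (V ∩ insert a T) (pr D (Function.update x a t) (Function.update w a u))
      = PP (V ∩ T) (pr D x w)
        * ∏ b ∈ (if a ∈ V then V ∩ T else ∅), kap D t (x b) u (w b) := by
  have hcongr : PP (V ∩ T) (pr D (Function.update x a t) (Function.update w a u))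
      = PP (V ∩ T) (pr D x w) := by
    refine PP_congr (fun b hb c hc => ?_)
    have hb' : b ≠ a := fun h => ha (h ▸ (Finset.mem_inter.mp hb).2)
    have hc' : c ≠ a := fun h => ha (h ▸ (Finset.mem_inter.mp hc).2)
    unfold pr
    rw [Function.update_of_ne hb', Function.update_of_ne hb', Function.update_of_ne hc',
      Function.update_of_ne hc']
  by_cases hV : a ∈ V
  · rw [if_pos hV, Finset.inter_insert_of_mem hV,
      PP_insert (by simp [ha]) (pr_symm D _ _), hcongr]
    congr 1
    refine Finset.prod_congr rfl (fun b hb => ?_)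
    have hb' : b ≠ a := fun h => ha (h ▸ (Finset.mem_inter.mp hb).2)
    unfold pr
    rw [Function.update_self, Function.update_self, Function.update_of_ne hb',
      Function.update_of_ne hb']
  · rw [if_neg hV, Finset.inter_insert_of_notMem hV, hcongr]
    simp

/-- Removing a point from the clause. -/
theorem First_update {R T : Finset ι} {a a' : ι} (haR : a ∈ R) (haT : a ∉ T) (ha' : a' ≠ a)
    (x w : ι → Cube D) (t u : Cube D)
    (h : First D R (insert a T) (Function.update x a t) (Function.update w a u) a') :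
    First D R T x w a' := by
  obtain ⟨b, hb, hba, h1, h2⟩ := h
  have hb' : b ≠ a := fun h => hb (h ▸ haR)
  rw [Function.update_of_ne ha', Function.update_of_ne ha', Function.update_of_ne hb',
    Function.update_of_ne hb'] at h1
  refine ⟨b, hb, hba, h1, fun c hc hca h3 => ?_⟩
  have hcc : c ≠ a := fun h => haT (h ▸ hc)
  have := h2 c (Finset.mem_insert_of_mem hc) hca
  simp only [Function.update_of_ne ha', Function.update_of_ne hb', Function.update_of_ne hcc] at this
  exact this h3

/-- The clause for the new point in terms of the points of `T`. -/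
theorem First_self {R T : Finset ι} {a : ι} (haT : a ∉ T) (hRT : ∀ b, b ∉ R → b ∈ T)
    (x w : ι → Cube D) (t u : Cube D)
    (h : First D R (insert a T) (Function.update x a t) (Function.update w a u) a) :
    ∃ b, b ∉ R ∧ FirstP D T x w t u b := by
  obtain ⟨b, hb, hba, h1, h2⟩ := h
  rw [Function.update_self, Function.update_self, Function.update_of_ne hba,
    Function.update_of_ne hba] at h1
  refine ⟨b, hb, h1, fun c hc h3 => ?_⟩
  have hcc : c ≠ a := fun h => haT (h ▸ hc)
  have := h2 c (Finset.mem_insert_of_mem hc) hcc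
  simp only [Function.update_self, Function.update_of_ne hba, Function.update_of_ne hcc] at this
  exact this h3

/-- Shorthand for the average over a point of the cube. -/
theorem inv_card_cube (D : ℕ) : ((Fintype.card (Cube D) : ℝ))⁻¹ = (1 / 2 : ℝ) ^ D := by
  rw [card_cube]
  push_cast
  rw [one_div, inv_pow]

/-- The product of clauses can only grow when a point is removed. -/
theorem prod_First_le {R W T : Finset ι} {a : ι} (haR : a ∈ R) (haT : a ∉ T) (x w : ι → Cube D)
    (t u : Cube D) :
    ∏ a' ∈ W ∩ T, ind (First D R (insert a T) (Function.update x a t) (Function.update w a u) a')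
      ≤ ∏ a' ∈ W ∩ T, ind (First D R T x w a') := by
  refine Finset.prod_le_prod (fun _ _ => ind_nonneg _) (fun a' ha' => ind_mono (fun h => ?_))
  have hne : a' ≠ a := fun h => haT (h ▸ (Finset.mem_inter.mp ha').2)
  exact First_update haR haT hne x w t u h

/-- The pointwise bound for one step, for a point without a clause. -/
theorem step_plain {R W V T : Finset ι} {a : ι} (haR : a ∈ R) (haT : a ∉ T) (haW : a ∉ W)
    (x w : ι → Cube D) :
    (1 / 2 : ℝ) ^ D * ∑ t, ((1 / 2 : ℝ) ^ D * ∑ u,
        FZ D R W V (insert a T) (Function.update x a t) (Function.update w a u))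
      ≤ FZ D R W V T x w := by
  set Ψ := ∏ a' ∈ W ∩ T, ind (First D R T x w a') with hΨ
  set Λ := PP (V ∩ T) (pr D x w) with hΛ
  set V' : Finset ι := if a ∈ V then V ∩ T else ∅ with hV'
  have hΨ0 : 0 ≤ Ψ := Finset.prod_nonneg (fun _ _ => ind_nonneg _)
  have hΛ0 : 0 ≤ Λ := PP_nonneg (pr_nonneg D x w)
  have hF : FZ D R W V T x w = Ψ * Λ := rfl
  have hterm : ∀ t u, FZ D R W V (insert a T) (Function.update x a t) (Function.update w a u)
      ≤ Ψ * Λ * ∏ b ∈ V', kap D t (x b) u (w b) := by
    intro t u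
    unfold FZ
    rw [Finset.inter_insert_of_notMem haW, PP_update haT]
    have h1 := prod_First_le (R := R) (W := W) haR haT x w t u
    have h2 : 0 ≤ Λ * ∏ b ∈ V', kap D t (x b) u (w b) :=
      mul_nonneg hΛ0 (Finset.prod_nonneg (fun _ _ => kap_nonneg _ _ _ _ _))
    calc _ ≤ Ψ * (Λ * ∏ b ∈ V', kap D t (x b) u (w b)) := mul_le_mul_of_nonneg_right h1 h2
      _ = _ := by ring
  rw [hF]
  by_cases hz : Λ = 0
  · have hall : ∀ t u, FZ D R W V (insert a T) (Function.update x a t) (Function.update w a u) ≤ 0 := by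
      intro t u
      have := hterm t u
      rw [hz] at this
      simpa using this
    rw [hz, mul_zero]
    refine mul_nonpos_of_nonneg_of_nonpos (by positivity) (Finset.sum_nonpos (fun t _ => ?_))
    exact mul_nonpos_of_nonneg_of_nonpos (by positivity) (Finset.sum_nonpos (fun u _ => hall t u))
  · have hcomp : Comp D V' x w := by
      have h1 := comp_of_PP_ne hz
      rw [hV']
      split_ifs
      · exact h1
      · intro b hb
        simp at hb
    have hA := fun t => cardA_right hcomp t
    have h3 : ∀ t, (1 / 2 : ℝ) ^ D * ∑ u,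
        FZ D R W V (insert a T) (Function.update x a t) (Function.update w a u) ≤ Ψ * Λ := by
      intro t
      have h4 : ∑ u, FZ D R W V (insert a T) (Function.update x a t) (Function.update w a u)
          ≤ ∑ u, Ψ * Λ * ∏ b ∈ V', kap D t (x b) u (w b) :=
        Finset.sum_le_sum (fun u _ => hterm t u)
      rw [← Finset.mul_sum] at h4
      have h5 := hA t
      rw [← Finset.mul_sum] at h5
      have h6 : 0 ≤ Ψ * Λ := mul_nonneg hΨ0 hΛ0
      calc _ ≤ (1 / 2 : ℝ) ^ D * (Ψ * Λ * ∑ u, ∏ b ∈ V', kap D t (x b) u (w b)) :=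
            mul_le_mul_of_nonneg_left h4 (by positivity)
        _ = (Ψ * Λ) * ((1 / 2 : ℝ) ^ D * ∑ u, ∏ b ∈ V', kap D t (x b) u (w b)) := by ring
        _ ≤ (Ψ * Λ) * 1 := mul_le_mul_of_nonneg_left h5 h6
        _ = _ := mul_one _
    calc _ ≤ (1 / 2 : ℝ) ^ D * ∑ _t : Cube D, Ψ * Λ :=
          mul_le_mul_of_nonneg_left (Finset.sum_le_sum (fun t _ => h3 t)) (by positivity)
      _ = Ψ * Λ := by
          rw [Finset.sum_const, Finset.card_univ, card_cube, nsmul_eq_mul]
          push_cast
          rw [← mul_assoc, ← mul_pow]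
          norm_num

/-- The pointwise bound for one step, for a point with a clause. -/
theorem step_first {R W V T : Finset ι} {a : ι} (haR : a ∈ R) (haT : a ∉ T) (haW : a ∈ W)
    (hRT : ∀ b, b ∉ R → b ∈ T) (x w : ι → Cube D) :
    (1 / 2 : ℝ) ^ D * ∑ t, ((1 / 2 : ℝ) ^ D * ∑ u,
        FZ D R W V (insert a T) (Function.update x a t) (Function.update w a u))
      ≤ qq ι D * FZ D R W V T x w := by
  set Ψ := ∏ a' ∈ W ∩ T, ind (First D R T x w a') with hΨ
  set Λ := PP (V ∩ T) (pr D x w) with hΛ
  set V' : Finset ι := if a ∈ V then V ∩ T else ∅ with hV'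
  have hΨ0 : 0 ≤ Ψ := Finset.prod_nonneg (fun _ _ => ind_nonneg _)
  have hΛ0 : 0 ≤ Λ := PP_nonneg (pr_nonneg D x w)
  have hF : FZ D R W V T x w = Ψ * Λ := rfl
  have hterm : ∀ t u, FZ D R W V (insert a T) (Function.update x a t) (Function.update w a u)
      ≤ Ψ * Λ * ((∏ b ∈ V', kap D t (x b) u (w b)) * ∑ b ∈ Finset.univ.filter (· ∉ R),
          ind (FirstP D T x w t u b)) := by
    intro t u
    unfold FZ
    rw [Finset.inter_insert_of_mem haW, Finset.prod_insert (by simp [haT]), PP_update haT]
    have h1 := prod_First_le (R := R) (W := W) haR haT x w t u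
    have h2 : ind (First D R (insert a T) (Function.update x a t) (Function.update w a u) a)
        ≤ ∑ b ∈ Finset.univ.filter (· ∉ R), ind (FirstP D T x w t u b) := by
      by_cases h3 : First D R (insert a T) (Function.update x a t) (Function.update w a u) a
      · obtain ⟨b, hb, hb2⟩ := First_self haT hRT x w t u h3
        rw [ind_true' h3]
        calc (1 : ℝ) = ind (FirstP D T x w t u b) := (ind_true' hb2).symm
          _ ≤ _ := Finset.single_le_sum (f := fun b => ind (FirstP D T x w t u b))
              (fun _ _ => ind_nonneg _) (Finset.mem_filter.mpr ⟨Finset.mem_univ _, hb⟩)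
      · rw [ind_false' h3]
        exact Finset.sum_nonneg (fun _ _ => ind_nonneg _)
    have hp0 : 0 ≤ ∏ b ∈ V', kap D t (x b) u (w b) :=
      Finset.prod_nonneg (fun _ _ => kap_nonneg _ _ _ _ _)
    have hs0 : 0 ≤ ∑ b ∈ Finset.univ.filter (· ∉ R), ind (FirstP D T x w t u b) :=
      Finset.sum_nonneg (fun _ _ => ind_nonneg _)
    have h4 := mul_le_mul h2 h1 (Finset.prod_nonneg (fun _ _ => ind_nonneg _)) hs0
    have h5 : 0 ≤ Λ * ∏ b ∈ V', kap D t (x b) u (w b) := mul_nonneg hΛ0 hp0
    calc _ ≤ ((∑ b ∈ Finset.univ.filter (· ∉ R), ind (FirstP D T x w t u b)) * Ψ)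
          * (Λ * ∏ b ∈ V', kap D t (x b) u (w b)) := mul_le_mul_of_nonneg_right h4 h5
      _ = _ := by ring
  rw [hF]
  by_cases hz : Λ = 0
  · have hall : ∀ t u, FZ D R W V (insert a T) (Function.update x a t) (Function.update w a u) ≤ 0 := by
      intro t u
      have := hterm t u
      rw [hz] at this
      simpa using this
    rw [hz, mul_zero, mul_zero]
    refine mul_nonpos_of_nonneg_of_nonpos (by positivity) (Finset.sum_nonpos (fun t _ => ?_))
    exact mul_nonpos_of_nonneg_of_nonpos (by positivity) (Finset.sum_nonpos (fun u _ => hall t u))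
  · have hcomp : Comp D V' x w := by
      have h1 := comp_of_PP_ne hz
      rw [hV']
      split_ifs
      · exact h1
      · intro b hb
        simp at hb
    have hV'T : V' ⊆ T := by
      rw [hV']
      split_ifs
      · exact Finset.inter_subset_right
      · exact Finset.empty_subset _
    have h6 : 0 ≤ Ψ * Λ := mul_nonneg hΨ0 hΛ0
    have hB : ∀ t, (1 / 2 : ℝ) ^ D * ∑ u, ((∏ b ∈ V', kap D t (x b) u (w b))
        * ∑ b ∈ Finset.univ.filter (· ∉ R), ind (FirstP D T x w t u b))
        ≤ ∑ b ∈ Finset.univ.filter (· ∉ R), (1 / 2 : ℝ) ^ hh D t (x b) := by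
      intro t
      simp only [Finset.mul_sum]
      rw [Finset.sum_comm]
      refine Finset.sum_le_sum (fun b hb => ?_)
      have hb' := (Finset.mem_filter.mp hb).2
      have := cardB D T V' x w b (hRT b hb') hV'T hcomp t
      refine le_trans (le_of_eq ?_) this
      refine Finset.sum_congr rfl (fun u _ => ?_)
      ring
    have h7 : ∀ t, (1 / 2 : ℝ) ^ D * ∑ u,
        FZ D R W V (insert a T) (Function.update x a t) (Function.update w a u)
        ≤ (Ψ * Λ) * ∑ b ∈ Finset.univ.filter (· ∉ R), (1 / 2 : ℝ) ^ hh D t (x b) := by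
      intro t
      have h4 := Finset.sum_le_sum (fun u (_ : u ∈ Finset.univ) => hterm t u)
      rw [← Finset.mul_sum] at h4
      calc _ ≤ (1 / 2 : ℝ) ^ D * (Ψ * Λ * ∑ u, ((∏ b ∈ V', kap D t (x b) u (w b))
              * ∑ b ∈ Finset.univ.filter (· ∉ R), ind (FirstP D T x w t u b))) :=
            mul_le_mul_of_nonneg_left h4 (by positivity)
        _ = (Ψ * Λ) * ((1 / 2 : ℝ) ^ D * ∑ u, ((∏ b ∈ V', kap D t (x b) u (w b))
              * ∑ b ∈ Finset.univ.filter (· ∉ R), ind (FirstP D T x w t u b))) := by ring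
        _ ≤ _ := mul_le_mul_of_nonneg_left (hB t) h6
    have h8 : ∑ t, ∑ b ∈ Finset.univ.filter (· ∉ R), (1 / 2 : ℝ) ^ hh D t (x b)
        ≤ (Fintype.card ι : ℝ) * ((D : ℝ) + 1) := by
      rw [Finset.sum_comm]
      simp only [hh_sum]
      rw [Finset.sum_const, nsmul_eq_mul]
      refine mul_le_mul_of_nonneg_right ?_ (by positivity)
      exact_mod_cast Finset.card_le_univ _
    calc _ ≤ (1 / 2 : ℝ) ^ D * ∑ t, ((Ψ * Λ) * ∑ b ∈ Finset.univ.filter (· ∉ R), (1 / 2 : ℝ) ^ hh D t (x b)) :=
          mul_le_mul_of_nonneg_left (Finset.sum_le_sum (fun t _ => h7 t)) (by positivity)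
      _ = (Ψ * Λ) * ((1 / 2 : ℝ) ^ D * ∑ t, ∑ b ∈ Finset.univ.filter (· ∉ R), (1 / 2 : ℝ) ^ hh D t (x b)) := by
          rw [← Finset.mul_sum]
          ring
      _ ≤ (Ψ * Λ) * ((1 / 2 : ℝ) ^ D * ((Fintype.card ι : ℝ) * ((D : ℝ) + 1))) :=
          mul_le_mul_of_nonneg_left (mul_le_mul_of_nonneg_left h8 (by positivity)) h6
      _ = _ := by
          unfold qq
          ring

/-- Averaging over one coordinate in both families. -/
theorem sum_sum_update (a : ι) (F : (ι → Cube D) → (ι → Cube D) → ℝ) :
    ∑ x, ∑ w, F x w = ∑ x, ∑ w, ((1 / 2 : ℝ) ^ D * ∑ t, ((1 / 2 : ℝ) ^ D * ∑ u,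
      F (Function.update x a t) (Function.update w a u))) := by
  rw [sum_update_avg a (fun x => ∑ w, F x w)]
  refine Finset.sum_congr rfl (fun x _ => ?_)
  rw [inv_card_cube]
  have h1 : ∀ t : Cube D, ∑ w, F (Function.update x a t) w
      = ∑ w, ((1 / 2 : ℝ) ^ D * ∑ u, F (Function.update x a t) (Function.update w a u)) := by
    intro t
    rw [sum_update_avg a (fun w => F (Function.update x a t) w)]
    refine Finset.sum_congr rfl (fun w _ => ?_)
    rw [inv_card_cube]
  simp only [h1]
  rw [Finset.sum_comm, Finset.mul_sum]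

/-- The summation over the points of `R`, one at a time. -/
theorem Z_bound (R W V : Finset ι) (hW : W ⊆ R) (S : Finset ι) (hS : S ⊆ R) :
    ∑ x : ι → Cube D, ∑ w : ι → Cube D, FZ D R W V (Rᶜ ∪ S) x w
      ≤ qq ι D ^ (W ∩ S).card * ((2 : ℝ) ^ D) ^ (2 * Fintype.card ι) := by
  induction S using Finset.induction_on with
  | empty =>
    have h0 : W ∩ (Rᶜ ∪ ∅) = ∅ := by
      rw [Finset.union_empty]
      ext c
      simp only [Finset.mem_inter, Finset.mem_compl, Finset.notMem_empty, iff_false, not_and, not_not]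
      exact fun hc => hW hc
    have h1 : ∀ x w : ι → Cube D, FZ D R W V (Rᶜ ∪ ∅) x w = PP (V ∩ (Rᶜ ∪ ∅)) (pr D x w) := by
      intro x w
      unfold FZ
      rw [h0]
      simp
    simp only [h1]
    rw [Finset.sum_comm]
    simp only [Finset.inter_empty, Finset.card_empty, pow_zero, one_mul]
    calc _ ≤ ∑ _w : ι → Cube D, ((2 : ℝ) ^ D) ^ Fintype.card ι :=
          Finset.sum_le_sum (fun w _ => sum_PP_le D _ w)
      _ = _ := by
          rw [Finset.sum_const, Finset.card_univ, Fintype.card_fun, card_cube, nsmul_eq_mul]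
          push_cast
          rw [two_mul, pow_add]
  | insert a S ha ih =>
    have haR : a ∈ R := hS (Finset.mem_insert_self a S)
    have hIH := ih (fun c hc => hS (Finset.mem_insert_of_mem hc))
    have haT : a ∉ Rᶜ ∪ S := by
      simp [haR, ha]
    have hT : Rᶜ ∪ insert a S = insert a (Rᶜ ∪ S) := Finset.union_insert a _ _
    have hRT : ∀ b, b ∉ R → b ∈ Rᶜ ∪ S := by
      intro b hb
      simp [hb]
    rw [hT, sum_sum_update a]
    by_cases haW : a ∈ W
    · have hcard : (W ∩ insert a S).card = (W ∩ S).card + 1 := by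
        rw [Finset.inter_insert_of_mem haW, Finset.card_insert_of_notMem (by simp [ha])]
      rw [hcard, pow_succ]
      calc _ ≤ ∑ x : ι → Cube D, ∑ w : ι → Cube D, qq ι D * FZ D R W V (Rᶜ ∪ S) x w :=
            Finset.sum_le_sum (fun x _ => Finset.sum_le_sum (fun w _ =>
              step_first haR haT haW hRT x w))
        _ = qq ι D * ∑ x : ι → Cube D, ∑ w : ι → Cube D, FZ D R W V (Rᶜ ∪ S) x w := by
            simp only [Finset.mul_sum]
        _ ≤ qq ι D * (qq ι D ^ (W ∩ S).card * ((2 : ℝ) ^ D) ^ (2 * Fintype.card ι)) :=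
            mul_le_mul_of_nonneg_left hIH qq_nonneg
        _ = _ := by ring
    · have hcard : (W ∩ insert a S) = (W ∩ S) := Finset.inter_insert_of_notMem haW
      rw [hcard]
      refine le_trans (Finset.sum_le_sum (fun x _ => Finset.sum_le_sum (fun w _ =>
        step_plain haR haT haW x w))) hIH

/-- The final form of the summation. -/
theorem cluster_fixed (R W V : Finset ι) (hW : W ⊆ R) :
    ∑ x : ι → Cube D, ∑ w : ι → Cube D, (∏ a ∈ W, ind (First D R Finset.univ x w a)) * PP V (pr D x w)
      ≤ qq ι D ^ W.card * ((2 : ℝ) ^ D) ^ (2 * Fintype.card ι) := by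
  have h := Z_bound (D := D) R W V hW R (Finset.Subset.refl _)
  have h1 : Rᶜ ∪ R = Finset.univ := by
    rw [Finset.union_comm]
    exact Finset.union_compl R
  have h2 : W ∩ R = W := Finset.inter_eq_left.mpr hW
  rw [h1, h2] at h
  refine le_trans (le_of_eq ?_) h
  refine Finset.sum_congr rfl (fun x _ => Finset.sum_congr rfl (fun w _ => ?_))
  unfold FZ
  rw [Finset.inter_univ, Finset.inter_univ]

end Vale.Agent.Lib.P162
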