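import Vale.Agent.Lib.P162.NAvg
import Vale.Agent.Lib.P162.Step

/-! Counting the cycles of a permutation contained in a set, and the first return map. -/

namespace Vale.Agent.Lib.P162

open Equiv Finset

set_option linter.unusedSectionVars false

section cycles

variable {α β : Type*} [Fintype α] [DecidableEq α] [Fintype β] [DecidableEq β]

open Classical in
/-- The cycle of `x` under `π`, as a finite set. -/
noncomputable def orb (π : Perm α) (x : α) : Finset α :=
  Finset.univ.filter (fun y => π.SameCycle x y)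

open Classical in
/-- The cycles of `π` contained in `D`. -/
noncomputable def cycSet (π : Perm α) (D : Finset α) : Finset (Finset α) :=
  (Finset.univ.image (orb π)).filter (fun O => O ⊆ D)

/-- The number of cycles of `π` contained in `D`. -/
noncomputable def cyc (π : Perm α) (D : Finset α) : ℕ := (cycSet π D).card

theorem mem_orb {π : Perm α} {x y : α} : y ∈ orb π x ↔ π.SameCycle x y := by
  simp [orb]

theorem mem_orb_self (π : Perm α) (x : α) : x ∈ orb π x := by
  rw [mem_orb]

theorem orb_eq_of_mem {π : Perm α} {x y : α} (h : y ∈ orb π x) : orb π y = orb π x := by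
  rw [mem_orb] at h
  ext z
  rw [mem_orb, mem_orb]
  exact ⟨fun hz => h.trans hz, fun hz => h.symm.trans hz⟩

theorem mem_cycSet {π : Perm α} {D O : Finset α} :
    O ∈ cycSet π D ↔ (∃ x, orb π x = O) ∧ O ⊆ D := by
  simp [cycSet]

theorem orb_apply_mem {π : Perm α} {x y : α} (h : y ∈ orb π x) : π y ∈ orb π x := by
  rw [mem_orb] at h ⊢
  exact h.trans ((Equiv.Perm.sameCycle_apply_right).mpr (Equiv.Perm.SameCycle.refl _ _))

theorem eq_of_common {π : Perm α} {D O O' : Finset α} (hO : O ∈ cycSet π D) (hO' : O' ∈ cycSet π D)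
    {z : α} (hz : z ∈ O) (hz' : z ∈ O') : O = O' := by
  obtain ⟨⟨x, rfl⟩, -⟩ := mem_cycSet.mp hO
  obtain ⟨⟨x', rfl⟩, -⟩ := mem_cycSet.mp hO'
  rw [← orb_eq_of_mem hz, orb_eq_of_mem hz']

/-- The comparison principle for cycle counts. -/
theorem card_le_cyc_of_compare {π : Perm α} {D : Finset α} {T : Finset (Finset α)}
    (hT : T ⊆ cycSet π D) (ι : β → α) (π' : Perm β) (D' : Finset β)
    (h1 : ∀ O ∈ T, ∃ y, ι y ∈ O) (h2 : ∀ O ∈ T, ∀ y, ι y ∈ O → ι (π' y) ∈ O)
    (h3 : ∀ O ∈ T, ∀ y, ι y ∈ O → y ∈ D') : T.card ≤ cyc π' D' := by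
  classical
  rcases T.eq_empty_or_nonempty with rfl | ⟨O₀, hO₀⟩
  · simp
  have : Nonempty β := ⟨(h1 O₀ hO₀).choose⟩
  choose! rep hrep using h1
  unfold cyc
  have hpow : ∀ O ∈ T, ∀ y, ι y ∈ O → ∀ k : ℕ, ι ((π' ^ k) y) ∈ O := by
    intro O hO y hy k
    induction k with
    | zero => simpa using hy
    | succ k ih =>
      rw [pow_succ', Equiv.Perm.mul_apply]
      exact h2 O hO _ ih
  have horb : ∀ O ∈ T, ∀ y, ι y ∈ O → ∀ z ∈ orb π' y, ι z ∈ O := by
    intro O hO y hy z hz
    rw [mem_orb] at hz
    obtain ⟨k, -, hk⟩ := hz.exists_pow_eq'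
    rw [← hk]
    exact hpow O hO y hy k
  refine Finset.card_le_card_of_injOn (fun O => orb π' (rep O)) ?_ ?_
  · intro O hO
    have hO' : O ∈ T := hO
    rw [Finset.mem_coe, mem_cycSet]
    refine ⟨⟨_, rfl⟩, ?_⟩
    intro z hz
    exact h3 O hO' z (horb O hO' _ (hrep O hO') z hz)
  · intro O hO O' hO' h
    have hO1 : O ∈ T := hO
    have hO2 : O' ∈ T := hO'
    have hz : rep O' ∈ orb π' (rep O) := by
      change orb π' (rep O) = orb π' (rep O') at h
      rw [h]
      exact mem_orb_self _ _
    exact eq_of_common (hT hO1) (hT hO2) (horb O hO1 _ (hrep O hO1) _ hz) (hrep O' hO2)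

theorem cyc_mono (π : Perm α) {D D' : Finset α} (h : D ⊆ D') : cyc π D ≤ cyc π D' := by
  classical
  unfold cyc cycSet
  apply Finset.card_le_card
  intro O hO
  rw [Finset.mem_filter] at hO ⊢
  exact ⟨hO.1, hO.2.trans h⟩

/-- Each cycle is nonempty and they are disjoint. -/
theorem cyc_le_card (π : Perm α) (D : Finset α) : cyc π D ≤ D.card := by
  classical
  have hne : ∀ O ∈ cycSet π D, ∃ x, x ∈ O := by
    intro O hO
    obtain ⟨⟨x, rfl⟩, -⟩ := mem_cycSet.mp hO
    exact ⟨x, mem_orb_self _ _⟩
  rcases (cycSet π D).eq_empty_or_nonempty with h0 | ⟨O₀, hO₀⟩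
  · simp [cyc, h0]
  have : Nonempty α := ⟨(hne O₀ hO₀).choose⟩
  choose! rep hrep using hne
  unfold cyc
  refine Finset.card_le_card_of_injOn rep ?_ ?_
  · intro O hO
    exact (mem_cycSet.mp hO).2 (hrep O hO)
  · intro O hO O' hO' h
    have h2 : rep O ∈ O' := by
      rw [h]
      exact hrep O' hO'
    exact eq_of_common hO hO' (hrep O hO) h2

/-- Cycle counts are invariant under conjugation. -/
theorem cyc_conj_le (g : Perm α) (π : Perm α) (D : Finset α) :
    cyc (g * π * g⁻¹) D ≤ cyc π (D.map g.symm.toEmbedding) := by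
  classical
  refine card_le_cyc_of_compare (T := cycSet (g * π * g⁻¹) D) (fun _ h => h) g π
    (D.map g.symm.toEmbedding) ?_ ?_ ?_
  · intro O hO
    obtain ⟨⟨x, rfl⟩, -⟩ := mem_cycSet.mp hO
    exact ⟨g⁻¹ x, by simpa using mem_orb_self _ _⟩
  · intro O hO y hy
    obtain ⟨⟨x, rfl⟩, -⟩ := mem_cycSet.mp hO
    have := orb_apply_mem hy
    simpa using this
  · intro O hO y hy
    have h := (mem_cycSet.mp hO).2 hy
    rw [Finset.mem_map]
    exact ⟨g y, h, by simp⟩

theorem cyc_conj (g : Perm α) (π : Perm α) (D : Finset α) :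
    cyc (g * π * g⁻¹) D = cyc π (D.map g.symm.toEmbedding) := by
  refine le_antisymm (cyc_conj_le g π D) ?_
  have h := cyc_conj_le g⁻¹ (g * π * g⁻¹) (D.map g.symm.toEmbedding)
  have h1 : g⁻¹ * (g * π * g⁻¹) * g⁻¹⁻¹ = π := by group
  rw [h1] at h
  have h2 : (D.map g.symm.toEmbedding).map (g⁻¹).symm.toEmbedding = D := by
    ext z
    simp [Finset.mem_map]
  rw [h2] at h
  exact h

theorem cyc_inv_le (π : Perm α) (D : Finset α) : cyc π⁻¹ D ≤ cyc π D := by
  classical
  refine card_le_cyc_of_compare (T := cycSet π⁻¹ D) (fun _ h => h) id π D ?_ ?_ ?_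
  · intro O hO
    obtain ⟨⟨x, rfl⟩, -⟩ := mem_cycSet.mp hO
    exact ⟨x, mem_orb_self _ _⟩
  · intro O hO y hy
    obtain ⟨⟨x, rfl⟩, -⟩ := mem_cycSet.mp hO
    simp only [id] at hy ⊢
    rw [mem_orb] at hy ⊢
    have h1 : π⁻¹.SameCycle y (π y) := by
      have : π⁻¹.SameCycle (π y) y := by
        refine ⟨1, ?_⟩
        simp
      exact this.symm
    exact hy.trans h1
  · intro O hO y hy
    exact (mem_cycSet.mp hO).2 hy

theorem cyc_inv (π : Perm α) (D : Finset α) : cyc π⁻¹ D = cyc π D := by
  refine le_antisymm (cyc_inv_le π D) ?_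
  have := cyc_inv_le π⁻¹ D
  rwa [inv_inv] at this

end cycles

section firstReturn

variable {Y : Type*} [Fintype Y] [DecidableEq Y]

/-- Return to the copy `c` exists. -/
theorem exists_return (c : Bool) (G : Perm (Bool × Y)) (x : Y) :
    ∃ k : ℕ, 0 < k ∧ ((G ^ k) (c, x)).1 = c := by
  refine ⟨orderOf G, orderOf_pos G, ?_⟩
  rw [pow_orderOf_eq_one]
  rfl

open Classical in
/-- The first return time to the copy `c`. -/
noncomputable def retTime (c : Bool) (G : Perm (Bool × Y)) (x : Y) : ℕ :=
  Nat.find (exists_return c G x)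

theorem retTime_pos (c : Bool) (G : Perm (Bool × Y)) (x : Y) : 0 < retTime c G x := by
  classical
  exact (Nat.find_spec (exists_return c G x)).1

theorem retTime_spec (c : Bool) (G : Perm (Bool × Y)) (x : Y) :
    ((G ^ (retTime c G x)) (c, x)).1 = c := by
  classical
  exact (Nat.find_spec (exists_return c G x)).2

theorem retTime_min (c : Bool) (G : Perm (Bool × Y)) (x : Y) {i : ℕ} (h0 : 0 < i)
    (hi : i < retTime c G x) : ((G ^ i) (c, x)).1 ≠ c := by
  classical
  intro h
  exact Nat.find_min (exists_return c G x) hi ⟨h0, h⟩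

/-- The value of the first return map. -/
noncomputable def retFun (c : Bool) (G : Perm (Bool × Y)) (x : Y) : Y :=
  ((G ^ (retTime c G x)) (c, x)).2

theorem retFun_spec (c : Bool) (G : Perm (Bool × Y)) (x : Y) :
    (G ^ (retTime c G x)) (c, x) = (c, retFun c G x) := by
  apply Prod.ext
  · exact retTime_spec c G x
  · rfl

theorem retFun_injective (c : Bool) (G : Perm (Bool × Y)) : Function.Injective (retFun c G) := by
  have key : ∀ x x' : Y, retFun c G x = retFun c G x' → retTime c G x ≤ retTime c G x' → x = x' := by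
    intro x x' h hle
    have h1 := retFun_spec c G x
    have h2 := retFun_spec c G x'
    rw [← h] at h2
    have h3 : (G ^ (retTime c G x')) (c, x') = (G ^ (retTime c G x)) (c, x) := by rw [h1, h2]
    obtain ⟨m, hm⟩ := Nat.exists_eq_add_of_le hle
    rw [hm, pow_add, Equiv.Perm.mul_apply] at h3
    have h4 := (G ^ (retTime c G x)).injective h3
    rcases Nat.eq_zero_or_pos m with h0 | hpos
    · rw [h0, pow_zero] at h4
      have : (c, x') = (c, x) := h4
      exact (Prod.ext_iff.mp this).2.symm
    · have hlt : m < retTime c G x' := by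
        rw [hm]
        have := retTime_pos c G x
        omega
      have h5 := retTime_min c G x' hpos hlt
      rw [h4] at h5
      exact absurd rfl h5
  intro x x' h
  rcases le_total (retTime c G x) (retTime c G x') with hle | hle
  · exact key x x' h hle
  · exact (key x' x h.symm hle).symm

/-- The first return map to the copy `c`. -/
noncomputable def firstRet (c : Bool) (G : Perm (Bool × Y)) : Perm Y :=
  Equiv.ofBijective (retFun c G) (Finite.injective_iff_bijective.mp (retFun_injective c G))

theorem firstRet_apply (c : Bool) (G : Perm (Bool × Y)) (x : Y) :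
    firstRet c G x = retFun c G x := rfl

/-- The first return map when the next step stays in the copy. -/
theorem firstRet_of_stay (c : Bool) (G : Perm (Bool × Y)) (x : Y) (h : (G (c, x)).1 = c) :
    firstRet c G x = (G (c, x)).2 := by
  classical
  have h1 : retTime c G x = 1 := by
    apply le_antisymm _ (retTime_pos c G x)
    exact Nat.find_min' (exists_return c G x) ⟨one_pos, by simpa using h⟩
  rw [firstRet_apply, retFun, h1, pow_one]

/-- Iterating `side c τ * G` from the copy `c` up to the return time. -/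
theorem side_iter (c : Bool) (τ : Perm Y) (G : Perm (Bool × Y)) (x : Y) {i : ℕ}
    (hi : i < retTime c G x) : ((side c τ * G) ^ i) (c, x) = (G ^ i) (c, x) := by
  induction i with
  | zero => rfl
  | succ i ih =>
    have hi' : i < retTime c G x := by omega
    rw [pow_succ', Equiv.Perm.mul_apply, ih hi', Equiv.Perm.mul_apply, pow_succ',
      Equiv.Perm.mul_apply]
    have h1 := retTime_min c G x (Nat.succ_pos i) hi
    rw [pow_succ', Equiv.Perm.mul_apply] at h1
    generalize G ((G ^ i) (c, x)) = z at h1 ⊢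
    obtain ⟨t, y⟩ := z
    have h2 : t ≠ c := h1
    simp [h2]

theorem side_return (c : Bool) (τ : Perm Y) (G : Perm (Bool × Y)) (x : Y) :
    ((side c τ * G) ^ (retTime c G x)) (c, x) = (c, (τ * firstRet c G) x) := by
  obtain ⟨i, hi⟩ := Nat.exists_eq_succ_of_ne_zero (retTime_pos c G x).ne'
  have h1 := side_iter c τ G x (i := i) (by omega)
  have h2 := retFun_spec c G x
  rw [hi] at h2 ⊢
  rw [pow_succ', Equiv.Perm.mul_apply, h1, Equiv.Perm.mul_apply]
  rw [pow_succ', Equiv.Perm.mul_apply] at h2
  rw [h2]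
  simp [firstRet_apply]

theorem sameCycle_side (c : Bool) (τ : Perm Y) (G : Perm (Bool × Y)) (x : Y) :
    (side c τ * G).SameCycle (c, x) (c, (τ * firstRet c G) x) :=
  ⟨(retTime c G x : ℤ), by
    rw [zpow_natCast]
    exact side_return c τ G x⟩

/-- The copy `false` part of a set of positions. -/
def D0 (D : Finset (Bool × Y)) : Finset Y := Finset.univ.filter (fun y => (false, y) ∈ D)

/-- The part of a set of positions in the copy `true` whose image stays in the copy `true`. -/
def D1 (h : Perm (Bool × Y)) (D : Finset (Bool × Y)) : Finset Y :=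
  Finset.univ.filter (fun y => (true, y) ∈ D ∧ (h (true, y)).1 = true)

/-- The splitting of cycles. -/
theorem cyc_split (σ₀ σ₁ : Perm Y) (h : Perm (Bool × Y)) (D : Finset (Bool × Y)) :
    cyc (side false σ₀ * side true σ₁ * h) D
      ≤ cyc (σ₀ * firstRet false (side true σ₁ * h)) (D0 D) + cyc (σ₁ * firstRet true h) (D1 h D) := by
  classical
  set F := side false σ₀ * side true σ₁ * h with hF
  have hF' : F = side false σ₀ * (side true σ₁ * h) := by rw [hF, mul_assoc]
  set T0 := (cycSet F D).filter (fun O => ∃ y, (false, y) ∈ O) with hT0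
  set T1 := (cycSet F D).filter (fun O => ¬ ∃ y, (false, y) ∈ O) with hT1
  have hU : cycSet F D = T0 ∪ T1 := by
    rw [hT0, hT1, Finset.filter_union_filter_not_eq]
  have h0 : T0.card ≤ cyc (σ₀ * firstRet false (side true σ₁ * h)) (D0 D) := by
    refine card_le_cyc_of_compare (π := F) (D := D) (Finset.filter_subset _ _) (fun y => (false, y)) _ _
      ?_ ?_ ?_
    · intro O hO
      exact (Finset.mem_filter.mp hO).2
    · intro O hO y hy
      obtain ⟨⟨x, rfl⟩, -⟩ := mem_cycSet.mp (Finset.mem_filter.mp hO).1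
      rw [mem_orb] at hy ⊢
      refine hy.trans ?_
      rw [hF']
      exact sameCycle_side false σ₀ _ y
    · intro O hO y hy
      have := (mem_cycSet.mp (Finset.mem_filter.mp hO).1).2 hy
      simp [D0, this]
  have h1 : T1.card ≤ cyc (σ₁ * firstRet true h) (D1 h D) := by
    have hstep : ∀ O ∈ T1, ∀ y, (true, y) ∈ O → F (true, y) ∈ O := by
      intro O hO y hy
      obtain ⟨⟨x, rfl⟩, -⟩ := mem_cycSet.mp (Finset.mem_filter.mp hO).1
      exact orb_apply_mem hy
    have hcopy : ∀ O ∈ T1, ∀ z ∈ O, z.1 = true := by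
      intro O hO z hz
      obtain ⟨b, y⟩ := z
      cases b
      · exact absurd ⟨y, hz⟩ (Finset.mem_filter.mp hO).2
      · rfl
    have hF1 : ∀ z, (F z).1 = (h z).1 := by
      intro z
      rw [hF]
      change ((side false σ₀ * side true σ₁) (h z)).1 = _
      generalize h z = w
      obtain ⟨b, y⟩ := w
      simp
    have hstay : ∀ O ∈ T1, ∀ y, (true, y) ∈ O → (h (true, y)).1 = true := by
      intro O hO y hy
      rw [← hF1]
      exact hcopy O hO _ (hstep O hO y hy)
    refine card_le_cyc_of_compare (π := F) (D := D) (Finset.filter_subset _ _) (fun y => (true, y)) _ _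
      ?_ ?_ ?_
    · intro O hO
      obtain ⟨⟨x, rfl⟩, -⟩ := mem_cycSet.mp (Finset.mem_filter.mp hO).1
      refine ⟨x.2, ?_⟩
      have h2 := hcopy _ hO x (mem_orb_self _ _)
      have h3 : (true, x.2) = x := by
        rw [← h2]
      rw [h3]
      exact mem_orb_self _ _
    · intro O hO y hy
      have h2 := hstep O hO y hy
      have h3 := hstay O hO y hy
      have h4 : (h (true, y)) = (true, firstRet true h y) := by
        apply Prod.ext
        · exact h3
        · rw [firstRet_of_stay true h y h3]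
      have h5 : F (true, y) = (true, (σ₁ * firstRet true h) y) := by
        rw [hF]
        change (side false σ₀ * side true σ₁) (h (true, y)) = _
        rw [h4]
        simp
      rw [h5] at h2
      exact h2
    · intro O hO y hy
      have := (mem_cycSet.mp (Finset.mem_filter.mp hO).1).2 hy
      simp [D1, this, hstay O hO y hy]
  unfold cyc at *
  rw [hU]
  exact (Finset.card_union_le _ _).trans (Nat.add_le_add h0 h1)

end firstReturn

end Vale.Agent.Lib.P162
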