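import Vale.Agent.Lib.P162.NChain

/-! The exponential moment bound for the cycle functional, with explicit parameters. -/

namespace Vale.Agent.Lib.P162

open Equiv Finset

set_option linter.unusedSectionVars false

theorem Phi_mono {a₀ a : ℕ} {s e e' : ℝ} (hs : 0 ≤ s) (he : e ≤ e') (h : Phi a₀ a s e) :
    Phi a₀ a s e' := by
  intro S
  refine (h S).trans ?_
  apply Real.rpow_le_rpow_of_exponent_le (by norm_num)
  have h1 : s * e ≤ s * e' := mul_le_mul_of_nonneg_left he hs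
  exact mul_le_mul_of_nonneg_right h1 (Nat.cast_nonneg _)

theorem Phi_trivial {a₀ a : ℕ} (ha : a₀ ≤ a) {s : ℝ} (hs : 0 ≤ s) :
    Phi a₀ a s (((a : ℝ) - (a₀ : ℝ)) / 2) := by
  intro S
  unfold Zf
  refine avg_le_of_forall (fun β => ?_)
  apply Real.rpow_le_rpow_of_exponent_le (by norm_num)
  have h1 := Cnt_le a₀ a S β
  have h2 : (2 : ℝ) * (Cnt a₀ a S β : ℝ) ≤ (S.card : ℝ) * ((a : ℝ) - (a₀ : ℝ)) := by
    have : ((a - a₀ : ℕ) : ℝ) = (a : ℝ) - (a₀ : ℝ) := by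
      rw [Nat.cast_sub ha]
    rw [← this]
    exact_mod_cast h1
  have h3 := mul_le_mul_of_nonneg_left h2 hs
  nlinarith

theorem two_rpow_ge (x : ℝ) (hx : 0 ≤ x) : 1 + x / 2 ≤ (2 : ℝ) ^ x := by
  have h1 : (2 : ℝ) ^ x = Real.exp (Real.log 2 * x) := by
    rw [Real.rpow_def_of_pos (by norm_num)]
  rw [h1]
  have h2 := Real.add_one_le_exp (Real.log 2 * x)
  have h3 : (1 / 2 : ℝ) ≤ Real.log 2 := by
    have := Real.log_two_gt_d9
    linarith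
  have h4 := mul_le_mul_of_nonneg_right h3 hx
  linarith

theorem pow_K_aux (K : ℕ) (hK : 4 ≤ K) : 6144 * (K + 1) ≤ 2 ^ (3 * K + 5) := by
  induction K, hK using Nat.le_induction with
  | base => norm_num
  | succ K hK ih =>
    have : 2 ^ (3 * (K + 1) + 5) = 8 * 2 ^ (3 * K + 5) := by
      rw [show 3 * (K + 1) + 5 = 3 * K + 5 + 3 by ring, pow_add]
      ring
    rw [this]
    omega

/-- The smallest exponent of the chain. -/
noncomputable def sStar (K : ℕ) : ℝ := 1 / (128 * ((K : ℝ) + 1))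

/-- The exponents of the chain. -/
noncomputable def sI (K i : ℕ) : ℝ := sStar K / (1 + 1 / (K : ℝ)) ^ i

theorem sStar_pos (K : ℕ) : 0 < sStar K := by
  unfold sStar
  positivity

theorem sI_pos (K i : ℕ) : 0 < sI K i := by
  unfold sI
  have := sStar_pos K
  positivity

theorem sI_le (K i : ℕ) : sI K i ≤ sStar K := by
  unfold sI
  apply div_le_self (sStar_pos K).le
  apply one_le_pow₀
  have : (0 : ℝ) ≤ 1 / (K : ℝ) := by positivity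
  linarith

theorem sI_ge {K i : ℕ} (hK : 1 ≤ K) (hi : i ≤ K) : sStar K / 3 ≤ sI K i := by
  unfold sI
  have hK0 : (0 : ℝ) < (K : ℝ) := by exact_mod_cast hK
  have h1 : (1 + 1 / (K : ℝ)) ^ i ≤ 3 := by
    have h2 : (1 + 1 / (K : ℝ)) ^ i ≤ (1 + 1 / (K : ℝ)) ^ K := by
      apply pow_le_pow_right₀ _ hi
      have : (0 : ℝ) ≤ 1 / (K : ℝ) := by positivity
      linarith
    have h3 : (1 + 1 / (K : ℝ)) ≤ Real.exp (1 / (K : ℝ)) := by
      have := Real.add_one_le_exp (1 / (K : ℝ))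
      linarith
    have h4 : (1 + 1 / (K : ℝ)) ^ K ≤ Real.exp (1 / (K : ℝ)) ^ K :=
      pow_le_pow_left₀ (by positivity) h3 _
    have h5 : Real.exp (1 / (K : ℝ)) ^ K = Real.exp 1 := by
      rw [← Real.exp_nat_mul]
      congr 1
      field_simp
    have h6 := Real.exp_one_lt_d9
    linarith
  have hpos : 0 < (1 + 1 / (K : ℝ)) ^ i := by positivity
  exact div_le_div_of_nonneg_left (sStar_pos K).le hpos h1

theorem sI_succ {K : ℕ} (hK : 1 ≤ K) (i : ℕ) :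
    (1 + 1 / (K : ℝ)) * sI K (i + 1) = sI K i := by
  unfold sI
  have hK0 : (0 : ℝ) < (K : ℝ) := by exact_mod_cast hK
  have h1 : (1 + 1 / (K : ℝ)) ≠ 0 := by positivity
  rw [pow_succ]
  field_simp

/-- Numerical facts at a node. -/
theorem node_numeric {K d a : ℕ} (hK : 4 ≤ K) (hd1 : 1 ≤ d) (hd : 2 * d ≤ 2 ^ K)
    (ha : 128 * (K + 1) ^ 2 ≤ a) {s : ℝ} (hs1 : sStar K / 3 ≤ s) (hs2 : s ≤ sStar K) :
    let L : ℝ := ((a / 16 : ℕ) : ℝ) / ((K : ℝ) + 1)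
    0 < L ∧ (Real.exp 1 * thetaA a) ^ ((1 / (K : ℝ)) / (1 + 1 / (K : ℝ))) ≤ (2 : ℝ) ^ (-L)
      ∧ thetaA a ≤ 1 / (8 * (d : ℝ))
      ∧ 1 + (2 : ℝ) ^ (-(L / 2)) ≤ (2 : ℝ) ^ (s * (2 * (2 : ℝ) ^ (-(L / 2)) / s))
      ∧ 2 * (2 : ℝ) ^ (-(L / 2)) / s ≤ 1 / (8 * (d : ℝ))
      ∧ 2 * s * (a : ℝ) ≤ L / 2 := by
  intro L
  have hK0 : (0 : ℝ) < (K : ℝ) + 1 := by positivity
  have hK1 : (0 : ℝ) < (K : ℝ) := by
    have : 0 < K := by omega
    exact_mod_cast this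
  have hd0 : (0 : ℝ) < (d : ℝ) := by exact_mod_cast hd1
  have hs0 : 0 < s := lt_of_lt_of_le (by have := sStar_pos K; positivity) hs1
  have h20 : (0 : ℝ) < 2 := by norm_num
  -- the integer t
  obtain ⟨t, ht⟩ : ∃ t, t = a / 16 := ⟨_, rfl⟩
  have hL : L = (t : ℝ) / ((K : ℝ) + 1) := by
    simp only [L]
    rw [ht]
  have ha16 : 16 * t ≤ a := by
    rw [ht]
    exact Nat.mul_div_le a 16
  have ha32 : a < 16 * t + 16 := by
    rw [ht]
    omega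
  have ht8 : 8 * (K + 1) ^ 2 ≤ t := by
    rw [ht]
    omega
  have ht1 : 1 ≤ t := by
    have : 1 ≤ (K + 1) ^ 2 := Nat.one_le_pow _ _ (by omega)
    omega
  have htr : (8 : ℝ) * ((K : ℝ) + 1) ^ 2 ≤ (t : ℝ) := by exact_mod_cast ht8
  have hLpos : 0 < L := by
    rw [hL]
    have : (0 : ℝ) < (t : ℝ) := by exact_mod_cast ht1
    positivity
  -- theta bound
  have hθ : thetaA a ≤ (1 / 8 : ℝ) ^ t := by
    unfold thetaA
    have h8t : 8 * t ≤ a / 2 := by omega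
    calc (3 / 4 : ℝ) ^ (a / 2) ≤ (3 / 4 : ℝ) ^ (8 * t) :=
          pow_le_pow_of_le_one (by norm_num) (by norm_num) h8t
      _ = ((3 / 4 : ℝ) ^ 8) ^ t := by rw [pow_mul]
      _ ≤ (1 / 8 : ℝ) ^ t := pow_le_pow_left₀ (by norm_num) (by norm_num) _
  have hθpos := thetaA_pos a
  have he4 : Real.exp 1 ≤ 4 := by
    have := Real.exp_one_lt_d9
    linarith
  have h4t : (4 : ℝ) ≤ (4 : ℝ) ^ t := by
    calc (4 : ℝ) = (4 : ℝ) ^ 1 := by norm_num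
      _ ≤ (4 : ℝ) ^ t := pow_le_pow_right₀ (by norm_num) ht1
  have hetheta : Real.exp 1 * thetaA a ≤ (2 : ℝ) ^ (-(t : ℝ)) := by
    rw [Real.rpow_neg h20.le, Real.rpow_natCast]
    calc Real.exp 1 * thetaA a ≤ (4 : ℝ) ^ t * (1 / 8 : ℝ) ^ t :=
          mul_le_mul (he4.trans h4t) hθ hθpos.le (by positivity)
      _ = ((2 : ℝ) ^ t)⁻¹ := by
          rw [← mul_pow, ← inv_pow]
          norm_num
  have hexp : (1 / (K : ℝ)) / (1 + 1 / (K : ℝ)) = 1 / ((K : ℝ) + 1) := by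
    field_simp
  have hb2 : (Real.exp 1 * thetaA a) ^ ((1 / (K : ℝ)) / (1 + 1 / (K : ℝ))) ≤ (2 : ℝ) ^ (-L) := by
    rw [hexp]
    have h1 : (0 : ℝ) ≤ Real.exp 1 * thetaA a := by positivity
    calc (Real.exp 1 * thetaA a) ^ (1 / ((K : ℝ) + 1))
        ≤ ((2 : ℝ) ^ (-(t : ℝ))) ^ (1 / ((K : ℝ) + 1)) :=
          Real.rpow_le_rpow h1 hetheta (by positivity)
      _ = (2 : ℝ) ^ (-L) := by
          rw [← Real.rpow_mul h20.le, hL]
          congr 1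
          ring
  -- theta against d
  have hdpow : (d : ℝ) ≤ (2 : ℝ) ^ K := by
    have : d ≤ 2 ^ K := by omega
    exact_mod_cast this
  have hb3 : thetaA a ≤ 1 / (8 * (d : ℝ)) := by
    refine hθ.trans ?_
    have htK : K + 1 ≤ t := by nlinarith
    have h1 : (1 / 8 : ℝ) ^ t ≤ (1 / 8 : ℝ) ^ (K + 1) :=
      pow_le_pow_of_le_one (by norm_num) (by norm_num) htK
    refine h1.trans ?_
    rw [one_div_pow, div_le_div_iff₀ (by positivity) (by positivity)]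
    have h2 : (2 : ℝ) ^ K ≤ (8 : ℝ) ^ K :=
      pow_le_pow_left₀ (by norm_num) (by norm_num) _
    rw [pow_succ]
    nlinarith
  -- the two rpow fact
  have hb4 : 1 + (2 : ℝ) ^ (-(L / 2)) ≤ (2 : ℝ) ^ (s * (2 * (2 : ℝ) ^ (-(L / 2)) / s)) := by
    have h1 : s * (2 * (2 : ℝ) ^ (-(L / 2)) / s) = 2 * (2 : ℝ) ^ (-(L / 2)) := by
      field_simp
    rw [h1]
    have h2 := two_rpow_ge (2 * (2 : ℝ) ^ (-(L / 2))) (by positivity)
    linarith
  -- the size of the slack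
  have hLhalf : (4 : ℝ) * ((K : ℝ) + 1) ≤ L / 2 := by
    rw [hL, div_div, le_div_iff₀ (by positivity)]
    nlinarith
  have hrp : (2 : ℝ) ^ (-(L / 2)) ≤ (2 : ℝ) ^ (-((4 : ℝ) * ((K : ℝ) + 1))) :=
    Real.rpow_le_rpow_of_exponent_le (by norm_num) (by linarith)
  have hrp2 : (2 : ℝ) ^ (-((4 : ℝ) * ((K : ℝ) + 1))) = ((2 : ℝ) ^ (4 * K + 4))⁻¹ := by
    rw [Real.rpow_neg h20.le, ← Real.rpow_natCast]
    congr 2
    push_cast
    ring
  have hb5 : 2 * (2 : ℝ) ^ (-(L / 2)) / s ≤ 1 / (8 * (d : ℝ)) := by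
    have h1 : (1 : ℝ) / s ≤ 384 * ((K : ℝ) + 1) := by
      rw [div_le_iff₀ hs0]
      have : (1 : ℝ) = 384 * ((K : ℝ) + 1) * (sStar K / 3) := by
        unfold sStar
        field_simp
        ring
      have h3 : 384 * ((K : ℝ) + 1) * (sStar K / 3) ≤ 384 * ((K : ℝ) + 1) * s := by
        apply mul_le_mul_of_nonneg_left hs1 (by positivity)
      linarith
    have h2 : 2 * (2 : ℝ) ^ (-(L / 2)) / s = 2 * (2 : ℝ) ^ (-(L / 2)) * (1 / s) := by ring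
    rw [h2]
    have h3 : 2 * (2 : ℝ) ^ (-(L / 2)) * (1 / s)
        ≤ 2 * ((2 : ℝ) ^ (4 * K + 4))⁻¹ * (384 * ((K : ℝ) + 1)) := by
      rw [← hrp2]
      apply mul_le_mul _ h1 (by positivity) (by positivity)
      linarith
    refine h3.trans ?_
    have h4 : (6144 : ℝ) * ((K : ℝ) + 1) ≤ (2 : ℝ) ^ (3 * K + 5) := by
      exact_mod_cast pow_K_aux K hK
    have h5 : (2 : ℝ) * (d : ℝ) ≤ (2 : ℝ) ^ K := by exact_mod_cast hd
    have h6 : (2 : ℝ) ^ (4 * K + 5) = (2 : ℝ) ^ (3 * K + 5) * (2 : ℝ) ^ K := by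
      rw [← pow_add]
      congr 1
      ring
    have h7 : (2 : ℝ) ^ (4 * K + 5) = 2 * (2 : ℝ) ^ (4 * K + 4) := by
      rw [pow_succ]
      ring
    rw [mul_assoc, mul_comm (_)⁻¹, ← mul_assoc, ← div_eq_mul_inv, div_le_div_iff₀ (by positivity) (by positivity)]
    have h8 : (6144 : ℝ) * ((K : ℝ) + 1) * (2 * (d : ℝ)) ≤ (2 : ℝ) ^ (3 * K + 5) * (2 : ℝ) ^ K :=
      mul_le_mul h4 h5 (by positivity) (by positivity)
    nlinarith
  -- the last fact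
  have hb6 : 2 * s * (a : ℝ) ≤ L / 2 := by
    have h1 : (a : ℝ) ≤ 32 * (t : ℝ) := by
      have : a ≤ 32 * t := by omega
      exact_mod_cast this
    have h2 : s ≤ 1 / (128 * ((K : ℝ) + 1)) := hs2
    rw [hL]
    calc 2 * s * (a : ℝ) ≤ 2 * (1 / (128 * ((K : ℝ) + 1))) * (32 * (t : ℝ)) := by
          gcongr
      _ = (t : ℝ) / ((K : ℝ) + 1) / 2 := by
          field_simp
          ring
  exact ⟨hLpos, hb2, hb3, hb4, hb5, hb6⟩

/-- The chain. -/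
theorem phi_chain {K d a₀ : ℕ} (ha₀ : a₀ = 128 * (K + 1) ^ 2) (hK : 4 ≤ K) (hd1 : 1 ≤ d)
    (hd : 2 * d ≤ 2 ^ K) (i : ℕ) (hi : i ≤ K) :
    ∀ a, a₀ ≤ a → Phi a₀ a (sI K i)
      (((a : ℝ) - (a₀ : ℝ)) * ((1 / 2 : ℝ) ^ i + 2 * (1 / (4 * (d : ℝ))))) := by
  have hd0 : (0 : ℝ) < (d : ℝ) := by exact_mod_cast hd1
  have hK1 : 1 ≤ K := by omega
  have hK0 : (0 : ℝ) < (K : ℝ) := by exact_mod_cast hK1
  set ϖ₀ : ℝ := 1 / (4 * (d : ℝ)) with hϖ₀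
  have hϖ₀0 : 0 < ϖ₀ := by positivity
  have hϖ₀8 : 1 / (8 * (d : ℝ)) = ϖ₀ / 2 := by
    rw [hϖ₀]
    field_simp
    ring
  induction i with
  | zero =>
    intro a ha
    have h1 : Phi a₀ a (sI K 0) (((a : ℝ) - (a₀ : ℝ)) / 2) := Phi_trivial ha (sI_pos K 0).le
    refine Phi_mono (sI_pos K 0).le ?_ h1
    have h2 : (0 : ℝ) ≤ (a : ℝ) - (a₀ : ℝ) := by
      have : (a₀ : ℝ) ≤ (a : ℝ) := by exact_mod_cast ha
      linarith
    rw [pow_zero]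
    nlinarith
  | succ i ih =>
    have hi' : i ≤ K := by omega
    have IH := ih hi'
    intro a ha
    have hs1 : sStar K / 3 ≤ sI K (i + 1) := sI_ge hK1 hi
    have hs2 : sI K (i + 1) ≤ sStar K := sI_le K _
    have hs0 := sI_pos K (i + 1)
    induction a, ha using Nat.le_induction with
    | base =>
      have h1 : Phi a₀ a₀ (sI K (i + 1)) (((a₀ : ℝ) - (a₀ : ℝ)) / 2) := Phi_trivial le_rfl hs0.le
      refine Phi_mono hs0.le ?_ h1
      simp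
    | succ a ha iha =>
      obtain ⟨hL, hb2, hb3, hb4, hb5, hb6⟩ := node_numeric hK hd1 hd (ha₀ ▸ ha) hs1 hs2
      set L : ℝ := ((a / 16 : ℕ) : ℝ) / ((K : ℝ) + 1) with hLdef
      have hax : (0 : ℝ) ≤ (a : ℝ) - (a₀ : ℝ) := by
        have : (a₀ : ℝ) ≤ (a : ℝ) := by exact_mod_cast ha
        linarith
      have he₂ : 0 ≤ ((a : ℝ) - (a₀ : ℝ)) * ((1 / 2 : ℝ) ^ i + 2 * ϖ₀) := by positivity
      have he₁ : 0 ≤ ((a : ℝ) - (a₀ : ℝ)) * ((1 / 2 : ℝ) ^ (i + 1) + 2 * ϖ₀) := by positivity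
      have hH2 : Phi a₀ a ((1 + 1 / (K : ℝ)) * sI K (i + 1))
          (((a : ℝ) - (a₀ : ℝ)) * ((1 / 2 : ℝ) ^ i + 2 * ϖ₀)) := by
        rw [sI_succ hK1]
        exact IH a ha
      have hsp : sI K (i + 1) * ((1 + 1 / (K : ℝ)) / (1 / (K : ℝ))) ≤ 1 := by
        have h1 : (1 + 1 / (K : ℝ)) / (1 / (K : ℝ)) = (K : ℝ) + 1 := by
          field_simp
        rw [h1]
        have h2 : sStar K * ((K : ℝ) + 1) = 1 / 128 := by
          unfold sStar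
          field_simp
        have h3 := mul_le_mul_of_nonneg_right hs2 (by positivity : (0 : ℝ) ≤ (K : ℝ) + 1)
        linarith
      set κ : ℝ := thetaA a + 2 * sI K (i + 1) * (((a : ℝ) - (a₀ : ℝ)) * ((1 / 2 : ℝ) ^ i + 2 * ϖ₀)) / L with hκ
      have hκθ : thetaA a ≤ κ := by
        rw [hκ]
        have : 0 ≤ 2 * sI K (i + 1) * (((a : ℝ) - (a₀ : ℝ)) * ((1 / 2 : ℝ) ^ i + 2 * ϖ₀)) / L := by
          positivity
        linarith
      have hκL : 2 * sI K (i + 1) * (((a : ℝ) - (a₀ : ℝ)) * ((1 / 2 : ℝ) ^ i + 2 * ϖ₀)) ≤ L * κ := by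
        have h1 : L * κ = L * thetaA a
            + 2 * sI K (i + 1) * (((a : ℝ) - (a₀ : ℝ)) * ((1 / 2 : ℝ) ^ i + 2 * ϖ₀)) := by
          rw [hκ]
          field_simp
        rw [h1]
        have := mul_nonneg hL.le (thetaA_pos a).le
        linarith
      have hstep := phi_step ha hs0 (by positivity : (0 : ℝ) < 1 / (K : ℝ)) he₁ he₂ hsp hκθ hκL hL hb2 hb4
        (by positivity) iha hH2
      refine Phi_mono hs0.le ?_ hstep
      -- numerics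
      have h1 : 2 * sI K (i + 1) * ((a : ℝ) - (a₀ : ℝ)) ≤ L / 2 := by
        have h2 : (0 : ℝ) ≤ (a₀ : ℝ) := Nat.cast_nonneg _
        have h3 : 2 * sI K (i + 1) * ((a : ℝ) - (a₀ : ℝ)) ≤ 2 * sI K (i + 1) * (a : ℝ) := by
          apply mul_le_mul_of_nonneg_left _ (by positivity)
          linarith
        linarith
      have h2 : 2 * sI K (i + 1) * (((a : ℝ) - (a₀ : ℝ)) * ((1 / 2 : ℝ) ^ i + 2 * ϖ₀)) / L
          ≤ (1 / 2 : ℝ) * ((1 / 2 : ℝ) ^ i + 2 * ϖ₀) := by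
        rw [div_le_iff₀ hL]
        have h3 : (0 : ℝ) ≤ (1 / 2 : ℝ) ^ i + 2 * ϖ₀ := by positivity
        calc 2 * sI K (i + 1) * (((a : ℝ) - (a₀ : ℝ)) * ((1 / 2 : ℝ) ^ i + 2 * ϖ₀))
            = (2 * sI K (i + 1) * ((a : ℝ) - (a₀ : ℝ))) * ((1 / 2 : ℝ) ^ i + 2 * ϖ₀) := by ring
          _ ≤ (L / 2) * ((1 / 2 : ℝ) ^ i + 2 * ϖ₀) := mul_le_mul_of_nonneg_right h1 h3
          _ = _ := by ring
      rw [hϖ₀8] at hb3 hb5
      have hpow : (1 / 2 : ℝ) ^ (i + 1) = (1 / 2 : ℝ) * (1 / 2 : ℝ) ^ i := by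
        rw [pow_succ]
        ring
      push_cast
      rw [hκ]
      rw [hpow] at *
      nlinarith

/-- **The exponential moment bound** for the cycle functional of the two-sided network. -/
theorem renyi_bound {K d : ℕ} (hK : 4 ≤ K) (hd1 : 1 ≤ d) (hd : 2 * d ≤ 2 ^ K)
    (ha : 128 * (K + 1) ^ 2 ≤ d) (S : Finset (Cube d)) :
    avg (fun β : BC d => (2 : ℝ) ^ (sI K K * (Cnt 0 d S β : ℝ)))
      ≤ (2 : ℝ) ^ (sI K K * ((64 * (K + 1) ^ 2 + 1 : ℕ) : ℝ) * (S.card : ℝ)) := by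
  have h20 : (0 : ℝ) < 2 := by norm_num
  have hd0 : (0 : ℝ) < (d : ℝ) := by exact_mod_cast hd1
  have hs0 := sI_pos K K
  obtain ⟨a₀, ha₀⟩ : ∃ a₀, a₀ = 128 * (K + 1) ^ 2 := ⟨_, rfl⟩
  rw [← ha₀] at ha
  have hchain := phi_chain ha₀ hK hd1 hd K le_rfl d ha
  have he : ((d : ℝ) - (a₀ : ℝ)) * ((1 / 2 : ℝ) ^ K + 2 * (1 / (4 * (d : ℝ)))) ≤ 1 := by
    have h1 : (0 : ℝ) ≤ (a₀ : ℝ) := Nat.cast_nonneg _
    have h2 : (0 : ℝ) ≤ (1 / 2 : ℝ) ^ K + 2 * (1 / (4 * (d : ℝ))) := by positivity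
    have h3 : ((d : ℝ) - (a₀ : ℝ)) * ((1 / 2 : ℝ) ^ K + 2 * (1 / (4 * (d : ℝ))))
        ≤ (d : ℝ) * ((1 / 2 : ℝ) ^ K + 2 * (1 / (4 * (d : ℝ)))) :=
      mul_le_mul_of_nonneg_right (by linarith) h2
    refine h3.trans ?_
    have h4 : (d : ℝ) * (1 / 2 : ℝ) ^ K ≤ 1 / 2 := by
      have h5 : (2 : ℝ) * (d : ℝ) ≤ (2 : ℝ) ^ K := by exact_mod_cast hd
      rw [one_div_pow, mul_div_assoc', div_le_div_iff₀ (by positivity) (by norm_num)]
      linarith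
    have h6 : (d : ℝ) * (2 * (1 / (4 * (d : ℝ)))) = 1 / 2 := by
      field_simp
      ring
    nlinarith
  have hPhi := Phi_mono hs0.le he hchain S
  unfold Zf at hPhi
  have hpt : ∀ β : BC d, (2 : ℝ) ^ (sI K K * (Cnt 0 d S β : ℝ))
      ≤ (2 : ℝ) ^ (sI K K * (64 * (K + 1) ^ 2 : ℕ) * (S.card : ℝ))
        * (2 : ℝ) ^ (sI K K * (Cnt a₀ d S β : ℝ)) := by
    intro β
    rw [← Real.rpow_add h20]
    apply Real.rpow_le_rpow_of_exponent_le (by norm_num)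
    have h1 := Cnt_zero_le a₀ d S β
    have h2 : (2 : ℝ) * (Cnt 0 d S β : ℝ) ≤ 2 * (Cnt a₀ d S β : ℝ) + (S.card : ℝ) * (a₀ : ℝ) := by
      exact_mod_cast h1
    have h3 : (a₀ : ℝ) = 2 * ((64 * (K + 1) ^ 2 : ℕ) : ℝ) := by
      rw [ha₀]
      push_cast
      ring
    rw [h3] at h2
    have h4 := mul_le_mul_of_nonneg_left h2 hs0.le
    nlinarith
  refine (avg_mono hpt).trans ?_
  rw [avg_mul_left]
  calc (2 : ℝ) ^ (sI K K * (64 * (K + 1) ^ 2 : ℕ) * (S.card : ℝ))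
        * avg (fun β : BC d => (2 : ℝ) ^ (sI K K * (Cnt a₀ d S β : ℝ)))
      ≤ (2 : ℝ) ^ (sI K K * (64 * (K + 1) ^ 2 : ℕ) * (S.card : ℝ))
        * (2 : ℝ) ^ (sI K K * 1 * (S.card : ℝ)) :=
        mul_le_mul_of_nonneg_left hPhi (by positivity)
    _ = _ := by
        rw [← Real.rpow_add h20]
        congr 1
        push_cast
        ring

end Vale.Agent.Lib.P162
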