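import Vale.Agent.Lib.P162.NTot
import Vale.Agent.Lib.P162.NRen

/-! The numerical assembly of the bound with the square of the logarithm of the dimension. -/

namespace Vale.Agent.Lib.P162

open Equiv Finset Matrix

set_option linter.unusedSectionVars false

open scoped Classical

/-- The exponent in the moment bound. -/
def fT (K : ℕ) : ℕ := 64 * (K + 1) ^ 2 + 1

/-- The number of iterations for flatness. -/
def fm (K : ℕ) : ℕ := (384 * (K + 1)) ^ 2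

/-- The exponent in the contraction. -/
def fE (K : ℕ) : ℕ := 2 * fm K + 3

/-- The number of steps to reach flatness. -/
def fL0 (K : ℕ) : ℕ := 2 * (fm K + 1)

/-- The number of steps of decay. -/
def fLp (K : ℕ) : ℕ := 24 * fE K

/-- The total number of blocks. -/
def fL (K : ℕ) : ℕ := fL0 K + fLp K

/-- The base of the flatness bound. -/
noncomputable def fY (K : ℕ) : ℝ := (2 : ℝ) ^ fT K

theorem fY_ge (K : ℕ) : 1 ≤ fY K := one_le_pow₀ (by norm_num)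

/-- The threshold between the regimes. -/
noncomputable def fTh (Y : ℝ) (D : ℕ) : ℝ := (32 : ℝ) ^ 13 * Y ^ 26 * ((D : ℝ) + 1) ^ 2

theorem expo_le {s T J : ℝ} (hs : 0 < s) (hs1 : s ≤ 1) (hT : 0 ≤ T) (hJ : 0 ≤ J) :
    (s * T * J / (1 + s)) * (1 + (1 + s) / (2 * s)) ≤ T * J := by
  have h1 : (s * T * J / (1 + s)) * (1 + (1 + s) / (2 * s)) = T * J * (s / (1 + s) + 1 / 2) := by
    field_simp
  rw [h1]
  have h2 : s / (1 + s) ≤ 1 / 2 := by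
    rw [div_le_div_iff₀ (by linarith) (by norm_num)]
    linarith
  have h3 : 0 ≤ T * J := mul_nonneg hT hJ
  nlinarith

theorem bern_cond {K : ℕ} {s : ℝ} (hs1 : 1 / (384 * ((K : ℝ) + 1)) ≤ s) :
    (1 + s) / s ≤ 2 * (1 + s) ^ fm K := by
  have hK : (0 : ℝ) < 384 * ((K : ℝ) + 1) := by positivity
  have hs0 : 0 < s := lt_of_lt_of_le (by positivity) hs1
  set R : ℝ := 384 * ((K : ℝ) + 1) with hR
  have hR1 : 1 ≤ R := by
    have : (0 : ℝ) ≤ (K : ℝ) := Nat.cast_nonneg K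
    rw [hR]
    linarith
  have hRs : 1 ≤ R * s := by
    rw [div_le_iff₀ hK] at hs1
    linarith
  have hm : ((fm K : ℕ) : ℝ) = R ^ 2 := by
    unfold fm
    push_cast
    rfl
  have hb := one_add_mul_le_pow (a := s) (by linarith) (fm K)
  rw [hm] at hb
  have h1 : (1 + s) / s ≤ R + 1 := by
    rw [div_le_iff₀ hs0]
    nlinarith
  have h2 : R + 1 ≤ 2 * (1 + R ^ 2 * s) := by
    nlinarith
  linarith

/-- The two consequences of the hypercontractive estimate, with round constants. -/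
theorem level_hyp {K D j : ℕ} (hK : 4 ≤ K) (hD1 : 1 ≤ D) (hD : 2 * D ≤ 2 ^ K)
    (ha : 128 * (K + 1) ^ 2 ≤ D) (hjn : j ≤ 2 ^ D) :
    (∀ f : (Fin j ↪ Cube D) → ℝ, (∀ x, 0 ≤ f x) → ∀ x,
      (((Rm (Fin j) D)ᵀ * Rm (Fin j) D) ^ (fm K + 1)).mulVec f x ≤ (fY K) ^ j * nrm 2 f)
    ∧ (∑ x, ∑ y, (((Rm (Fin j) D) ^ (2 * (fm K + 1))) x y) ^ 2 ≤ ((fY K) ^ j) ^ 2) := by
  have : Nonempty (Fin j ↪ Cube D) := Function.Embedding.nonempty_of_card_le (by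
    rw [card_cube, Fintype.card_fin]
    exact hjn)
  set s := sI K K with hs
  have hs0 : 0 < s := sI_pos K K
  have hs1 : s ≤ 1 := by
    refine (sI_le K K).trans ?_
    unfold sStar
    rw [div_le_one (by positivity)]
    have : (0 : ℝ) ≤ (K : ℝ) := Nat.cast_nonneg K
    linarith
  have hs2 : 1 / (384 * ((K : ℝ) + 1)) ≤ s := by
    have h := sI_ge (K := K) (i := K) (by omega) le_rfl
    refine le_trans (le_of_eq ?_) h
    unfold sStar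
    field_simp
    ring
  have hT : (0 : ℝ) ≤ ((fT K : ℕ) : ℝ) := Nat.cast_nonneg _
  have hRen : ∀ S : Finset (Cube D), avg (fun β : BC D => (2 : ℝ) ^ (s * (Cnt 0 D S β : ℝ)))
      ≤ (2 : ℝ) ^ (s * ((fT K : ℕ) : ℝ) * (S.card : ℝ)) :=
    fun S => renyi_bound hK hD1 hD ha S
  have H1 := Rm_HR (ι := Fin j) (D := D) hs0 hT hRen
  have H2 := Rm_HR_transpose H1
  set A : ℝ := (2 : ℝ) ^ (s * ((fT K : ℕ) : ℝ) * (Fintype.card (Fin j) : ℝ) / (1 + s)) with hA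
  have hA1 : 1 ≤ A := Real.one_le_rpow (by norm_num) (by positivity)
  obtain ⟨h1, h2⟩ := hyp_main Rm_DS hs0 hA1 H1 H2 (bern_cond hs2)
  have hΞ : A ^ (1 + (1 + s) / (2 * s)) ≤ (fY K) ^ j := by
    rw [hA, ← Real.rpow_mul (by norm_num)]
    have h3 := expo_le (J := (Fintype.card (Fin j) : ℝ)) hs0 hs1 hT (Nat.cast_nonneg _)
    refine (Real.rpow_le_rpow_of_exponent_le (by norm_num) h3).trans (le_of_eq ?_)
    rw [Real.rpow_mul (by norm_num), Real.rpow_natCast, Fintype.card_fin, Real.rpow_natCast]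
    rfl
  have hΞ0 : 0 ≤ A ^ (1 + (1 + s) / (2 * s)) := by positivity
  refine ⟨fun f hf x => (h1 f hf x).trans ?_, h2.trans (pow_le_pow_left₀ hΞ0 hΞ 2)⟩
  exact mul_le_mul_of_nonneg_right hΞ (nrm_nonneg 2 hf)

/-- The binomial coefficient. -/
theorem choose_bound (n j : ℕ) (hj : 1 ≤ j) :
    (Nat.choose n j : ℝ) ≤ (Real.exp 1 * ((n : ℝ) / (j : ℝ))) ^ j := by
  have hJ : (0 : ℝ) < (j : ℝ) := by exact_mod_cast hj
  have h1 : (Nat.choose n j : ℝ) ≤ ((n : ℝ) ^ j) / (j.factorial : ℝ) := Nat.choose_le_pow_div j n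
  have h2 := Real.pow_div_factorial_le_exp (j : ℝ) hJ.le j
  have hf : (0 : ℝ) < (j.factorial : ℝ) := by exact_mod_cast Nat.factorial_pos j
  rw [div_le_iff₀ hf] at h2
  rw [le_div_iff₀ hf] at h1
  have hexp : Real.exp (j : ℝ) = Real.exp 1 ^ j := by
    rw [← Real.exp_nat_mul, mul_one]
  rw [mul_pow, div_pow, ← hexp]
  have hJj : (0 : ℝ) < (j : ℝ) ^ j := by positivity
  rw [mul_div_assoc', le_div_iff₀ hJj]
  have hn : (0 : ℝ) ≤ (n : ℝ) ^ j := by positivity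
  have hc : (0 : ℝ) ≤ (Nat.choose n j : ℝ) := Nat.cast_nonneg _
  have h3 : (Nat.choose n j : ℝ) * (j : ℝ) ^ j * (j.factorial : ℝ)
      ≤ Real.exp (j : ℝ) * (n : ℝ) ^ j * (j.factorial : ℝ) := by
    calc (Nat.choose n j : ℝ) * (j : ℝ) ^ j * (j.factorial : ℝ)
        = ((Nat.choose n j : ℝ) * (j.factorial : ℝ)) * (j : ℝ) ^ j := by ring
      _ ≤ (n : ℝ) ^ j * (j : ℝ) ^ j := mul_le_mul_of_nonneg_right h1 hJj.le
      _ ≤ (n : ℝ) ^ j * (Real.exp (j : ℝ) * (j.factorial : ℝ)) := mul_le_mul_of_nonneg_left h2 hn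
      _ = _ := by ring
  exact le_of_mul_le_mul_right h3 hf

/-- The number of embeddings is comparable to the power. -/
theorem card_emb_ge {j D : ℕ} (hj : 2 * j ≤ 2 ^ D) :
    ((2 : ℝ) ^ D) ^ j ≤ (2 : ℝ) ^ j * (Fintype.card (Fin j ↪ Cube D) : ℝ) := by
  rw [Fintype.card_embedding_eq, card_cube, Fintype.card_fin]
  have h1 := Nat.pow_sub_le_descFactorial (2 ^ D) j
  have h2 : 2 ^ D ≤ 2 * (2 ^ D + 1 - j) := by omega
  have h3 : (2 ^ D) ^ j ≤ (2 * (2 ^ D + 1 - j)) ^ j := Nat.pow_le_pow_left h2 j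
  have h4 : (2 ^ D) ^ j ≤ 2 ^ j * (2 ^ D).descFactorial j := by
    calc (2 ^ D) ^ j ≤ (2 * (2 ^ D + 1 - j)) ^ j := h3
      _ = 2 ^ j * (2 ^ D + 1 - j) ^ j := mul_pow _ _ _
      _ ≤ _ := Nat.mul_le_mul_left _ h1
  exact_mod_cast h4

/-- The arithmetic of the bracket in the flat regime. -/
theorem flat_bracket {Y D1 a e : ℝ} (hY : 1 ≤ Y) (hD1 : 1 ≤ D1) (ha0 : 0 ≤ a) (he0 : 0 ≤ e)
    (he : e ≤ 3) (ha : a * ((32 : ℝ) ^ 13 * Y ^ 26 * D1 ^ 2) ≤ 1) :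
    e * (32 : ℝ) ^ 24 * Y ^ 50 * D1 ^ 3 * a ^ 2 ≤ 1 / 16 := by
  set X : ℝ := e * (32 : ℝ) ^ 24 * Y ^ 50 * D1 ^ 3 * a ^ 2 with hX
  have hX0 : 0 ≤ X := by positivity
  have h1 : (a * ((32 : ℝ) ^ 13 * Y ^ 26 * D1 ^ 2)) ^ 2 ≤ 1 := by
    have h0 : 0 ≤ a * ((32 : ℝ) ^ 13 * Y ^ 26 * D1 ^ 2) := by positivity
    nlinarith
  have h2 : X * ((32 : ℝ) ^ 2 * Y ^ 2 * D1) = e * (a * ((32 : ℝ) ^ 13 * Y ^ 26 * D1 ^ 2)) ^ 2 := by
    rw [hX]
    ring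
  have h3 : X * ((32 : ℝ) ^ 2 * Y ^ 2 * D1) ≤ 3 := by
    rw [h2]
    nlinarith
  have h4 : (1024 : ℝ) ≤ (32 : ℝ) ^ 2 * Y ^ 2 * D1 := by
    have h5 : (1 : ℝ) ≤ Y ^ 2 := one_le_pow₀ hY
    have h6 : (1 : ℝ) ≤ Y ^ 2 * D1 := one_le_mul_of_one_le_of_one_le h5 hD1
    nlinarith
  have h5 : X * 1024 ≤ X * ((32 : ℝ) ^ 2 * Y ^ 2 * D1) := mul_le_mul_of_nonneg_left h4 hX0
  linarith

/-- The numerical estimate in the flat regime. -/
theorem flat_numeric {D j : ℕ} {Y : ℝ} (hY : 1 ≤ Y) (hj1 : 1 ≤ j)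
    (hΘ : (j : ℝ) * fTh Y D ≤ (2 : ℝ) ^ D) :
    (Nat.choose (2 ^ D) j : ℝ) *
      (((Y ^ j) ^ 2 / (Fintype.card (Fin j ↪ Cube D) : ℝ) * Bd (Fin j) D) ^ 24 * (Y ^ j) ^ 2)
      ≤ (1 / 16 : ℝ) ^ j := by
  have hn : (0 : ℝ) < (2 : ℝ) ^ D := by positivity
  have hJ : (0 : ℝ) < (j : ℝ) := by exact_mod_cast hj1
  have hJ1 : (1 : ℝ) ≤ (j : ℝ) := by exact_mod_cast hj1
  have hY0 : 0 < Y := by linarith
  have hD0 : (0 : ℝ) ≤ (D : ℝ) := Nat.cast_nonneg D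
  have hD1 : (1 : ℝ) ≤ (D : ℝ) + 1 := by linarith
  have hY26 : (1 : ℝ) ≤ Y ^ 26 := one_le_pow₀ hY
  have hD2 : (1 : ℝ) ≤ ((D : ℝ) + 1) ^ 2 := one_le_pow₀ hD1
  -- the threshold is large
  have hΘ2 : (D : ℝ) + 1 ≤ fTh Y D ∧ (2 : ℝ) ≤ fTh Y D := by
    unfold fTh
    have h32 : (2 : ℝ) ≤ (32 : ℝ) ^ 13 := by norm_num
    have h1 : (32 : ℝ) ^ 13 * 1 ≤ (32 : ℝ) ^ 13 * Y ^ 26 :=
      mul_le_mul_of_nonneg_left hY26 (by norm_num)
    have h2 : (1 : ℝ) ≤ (32 : ℝ) ^ 13 * Y ^ 26 := by linarith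
    have h3 : (D : ℝ) + 1 ≤ ((D : ℝ) + 1) ^ 2 := by nlinarith
    have h4 : 1 * ((D : ℝ) + 1) ^ 2 ≤ (32 : ℝ) ^ 13 * Y ^ 26 * ((D : ℝ) + 1) ^ 2 :=
      mul_le_mul_of_nonneg_right h2 (by positivity)
    have h5 : ((32 : ℝ) ^ 13 * Y ^ 26) * 1 ≤ (32 : ℝ) ^ 13 * Y ^ 26 * ((D : ℝ) + 1) ^ 2 :=
      mul_le_mul_of_nonneg_left hD2 (by positivity)
    constructor <;> linarith
  have hjn2 : 2 * j ≤ 2 ^ D := by
    have h1 : (j : ℝ) * 2 ≤ (j : ℝ) * fTh Y D := mul_le_mul_of_nonneg_left hΘ2.2 hJ.le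
    have h2 : ((2 * j : ℕ) : ℝ) ≤ ((2 ^ D : ℕ) : ℝ) := by
      push_cast
      linarith
    exact_mod_cast h2
  have hN := card_emb_ge hjn2
  have hNpos : (0 : ℝ) < (Fintype.card (Fin j ↪ Cube D) : ℝ) := by
    have : Nonempty (Fin j ↪ Cube D) := Function.Embedding.nonempty_of_card_le (by
      rw [card_cube, Fintype.card_fin]
      omega)
    exact card_pos_real
  set N : ℝ := (Fintype.card (Fin j ↪ Cube D) : ℝ) with hNdef
  -- the collision parameter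
  set q : ℝ := qq (Fin j) D with hq
  have hq0 : 0 ≤ q := qq_nonneg
  have hqval : q = (j : ℝ) * ((D : ℝ) + 1) / (2 : ℝ) ^ D := by
    rw [hq]
    unfold qq
    rw [Fintype.card_fin, one_div, inv_pow]
    rfl
  have hq1 : q ≤ 1 := by
    rw [hqval, div_le_one hn]
    exact (mul_le_mul_of_nonneg_left hΘ2.1 hJ.le).trans hΘ
  set w : ℕ := (j + 7) / 8 with hw
  have hw3 : 3 * j ≤ 24 * w := by omega
  have hBd : Bd (Fin j) D = 2 * (8 : ℝ) ^ j * ((2 : ℝ) ^ D) ^ j * q ^ w := by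
    unfold Bd
    rw [Fintype.card_fin]
  have hqw : 0 ≤ q ^ w := pow_nonneg hq0 w
  -- the bound for the base
  set B : ℝ := (Y ^ j) ^ 2 / N * Bd (Fin j) D with hB
  have hB0 : 0 ≤ B := by
    rw [hB, hBd]
    positivity
  have hB1 : B ≤ (32 * Y ^ 2) ^ j * q ^ w := by
    have h2 : ((2 : ℝ) ^ D) ^ j / N ≤ (2 : ℝ) ^ j := by
      rw [div_le_iff₀ hNpos]
      exact hN
    have h3 : (2 : ℝ) ≤ (2 : ℝ) ^ j := by
      calc (2 : ℝ) = (2 : ℝ) ^ 1 := (pow_one _).symm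
        _ ≤ (2 : ℝ) ^ j := pow_le_pow_right₀ (by norm_num) hj1
    have h4 : B = (Y ^ j) ^ 2 * (8 : ℝ) ^ j * q ^ w * (2 * (((2 : ℝ) ^ D) ^ j / N)) := by
      rw [hB, hBd]
      ring
    have h5 : (32 * Y ^ 2) ^ j * q ^ w = (Y ^ j) ^ 2 * (8 : ℝ) ^ j * q ^ w * ((2 : ℝ) ^ j * (2 : ℝ) ^ j) := by
      have h6 : (32 : ℝ) = 8 * 2 * 2 := by norm_num
      rw [h6, mul_pow, mul_pow, mul_pow, ← pow_mul, ← pow_mul]
      rw [mul_comm j 2]
      ring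
    rw [h4, h5]
    refine mul_le_mul_of_nonneg_left ?_ (by positivity)
    have h7 : 0 ≤ ((2 : ℝ) ^ D) ^ j / N := by positivity
    exact mul_le_mul h3 h2 h7 (by positivity)
  have hB24 : B ^ 24 ≤ ((32 * Y ^ 2) ^ 24) ^ j * (q ^ 3) ^ j := by
    have h1 : B ^ 24 ≤ ((32 * Y ^ 2) ^ j * q ^ w) ^ 24 := pow_le_pow_left₀ hB0 hB1 24
    have h2 : ((32 * Y ^ 2) ^ j * q ^ w) ^ 24 = ((32 * Y ^ 2) ^ 24) ^ j * q ^ (24 * w) := by
      rw [mul_pow, ← pow_mul, ← pow_mul, ← pow_mul]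
      congr 2
      · ring
      · ring
    have h3 : q ^ (24 * w) ≤ (q ^ 3) ^ j := by
      rw [← pow_mul]
      exact pow_le_pow_of_le_one hq0 hq1 hw3
    rw [h2] at h1
    exact h1.trans (mul_le_mul_of_nonneg_left h3 (by positivity))
  -- the binomial coefficient
  have hC := choose_bound (2 ^ D) j hj1
  rw [show (((2 ^ D : ℕ)) : ℝ) = (2 : ℝ) ^ D by push_cast; rfl] at hC
  set e : ℝ := Real.exp 1 with he
  have he0 : 0 ≤ e := (Real.exp_pos 1).le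
  have he3 : e ≤ 3 := by
    have := Real.exp_one_lt_d9
    rw [he]
    linarith
  -- the bracket
  set a : ℝ := (j : ℝ) / (2 : ℝ) ^ D with ha
  have ha0 : 0 ≤ a := by positivity
  have haΘ : a * ((32 : ℝ) ^ 13 * Y ^ 26 * ((D : ℝ) + 1) ^ 2) ≤ 1 := by
    have h1 : a * fTh Y D ≤ 1 := by
      rw [ha, div_mul_eq_mul_div, div_le_one hn]
      exact hΘ
    exact h1
  have hbr := flat_bracket hY hD1 ha0 he0 he3 haΘ
  have hX : (e * ((2 : ℝ) ^ D / (j : ℝ))) * (32 * Y ^ 2) ^ 24 * q ^ 3 * Y ^ 2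
      = e * (32 : ℝ) ^ 24 * Y ^ 50 * ((D : ℝ) + 1) ^ 3 * a ^ 2 := by
    rw [hqval, ha]
    field_simp
  have hC0 : (0 : ℝ) ≤ (Nat.choose (2 ^ D) j : ℝ) := Nat.cast_nonneg _
  have hY2j : (Y ^ j) ^ 2 = (Y ^ 2) ^ j := by
    rw [← pow_mul, ← pow_mul, mul_comm]
  calc (Nat.choose (2 ^ D) j : ℝ) * (B ^ 24 * (Y ^ j) ^ 2)
      ≤ (e * ((2 : ℝ) ^ D / (j : ℝ))) ^ j * ((((32 * Y ^ 2) ^ 24) ^ j * (q ^ 3) ^ j) * (Y ^ 2) ^ j) := by
        rw [hY2j]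
        refine mul_le_mul hC ?_ (by positivity) (by positivity)
        exact mul_le_mul_of_nonneg_right hB24 (by positivity)
    _ = ((e * ((2 : ℝ) ^ D / (j : ℝ))) * (32 * Y ^ 2) ^ 24 * q ^ 3 * Y ^ 2) ^ j := by
        rw [mul_pow (e * ((2 : ℝ) ^ D / (j : ℝ)) * (32 * Y ^ 2) ^ 24 * q ^ 3), mul_pow (e * ((2 : ℝ) ^ D / (j : ℝ)) * (32 * Y ^ 2) ^ 24),
          mul_pow (e * ((2 : ℝ) ^ D / (j : ℝ)))]
        ring
    _ ≤ (1 / 16 : ℝ) ^ j := by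
        rw [hX]
        exact pow_le_pow_left₀ (by positivity) hbr j

/-- The numerical estimate in the central regime. -/
theorem central_numeric {D j L M : ℕ} {Y : ℝ} (hY : 1 ≤ Y) (hj1 : 1 ≤ j)
    (hΘ : (2 : ℝ) ^ D ≤ (j : ℝ) * fTh Y D) (hM : 144 * M ≤ L)
    (hnum : Real.exp 1 * fTh Y D * Y ^ 2 * (1 / 2 : ℝ) ^ M ≤ 1 / 16) :
    (Nat.choose (2 ^ D) j : ℝ) * ((Real.exp (-((j : ℝ) / 144))) ^ L * (Y ^ j) ^ 2)
      ≤ (1 / 16 : ℝ) ^ j := by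
  have hJ : (0 : ℝ) < (j : ℝ) := by exact_mod_cast hj1
  have hY0 : 0 < Y := by linarith
  have hC := choose_bound (2 ^ D) j hj1
  rw [show (((2 ^ D : ℕ)) : ℝ) = (2 : ℝ) ^ D by push_cast; rfl] at hC
  set e : ℝ := Real.exp 1 with he
  have he0 : 0 < e := Real.exp_pos 1
  have hTh0 : 0 < fTh Y D := by
    unfold fTh
    positivity
  have hC2 : (Nat.choose (2 ^ D) j : ℝ) ≤ (e * fTh Y D) ^ j := by
    refine hC.trans (pow_le_pow_left₀ (by positivity) ?_ j)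
    refine mul_le_mul_of_nonneg_left ?_ he0.le
    rw [div_le_iff₀ hJ, mul_comm]
    exact hΘ
  have hexp : (Real.exp (-((j : ℝ) / 144))) ^ L ≤ ((1 / 2 : ℝ) ^ M) ^ j := by
    rw [← Real.exp_nat_mul]
    have h1 : (L : ℝ) * (-((j : ℝ) / 144)) ≤ (j : ℝ) * (-(M : ℝ)) := by
      have h2 : (144 : ℝ) * (M : ℝ) ≤ (L : ℝ) := by exact_mod_cast hM
      nlinarith
    refine (Real.exp_le_exp.2 h1).trans ?_
    have h3 : Real.exp ((j : ℝ) * (-(M : ℝ))) = (Real.exp (-(M : ℝ))) ^ j := by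
      rw [← Real.exp_nat_mul]
    rw [h3]
    refine pow_le_pow_left₀ (Real.exp_pos _).le ?_ j
    have h4 : Real.exp (-(M : ℝ)) = (Real.exp (-1)) ^ M := by
      rw [← Real.exp_nat_mul]
      congr 1
      ring
    rw [h4]
    refine pow_le_pow_left₀ (Real.exp_pos _).le ?_ M
    rw [Real.exp_neg, one_div]
    refine inv_anti₀ (by norm_num) ?_
    have := Real.exp_one_gt_d9
    linarith
  have hY2j : (Y ^ j) ^ 2 = (Y ^ 2) ^ j := by
    rw [← pow_mul, ← pow_mul, mul_comm]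
  have h0 : 0 ≤ e * fTh Y D * Y ^ 2 * (1 / 2 : ℝ) ^ M := by positivity
  calc (Nat.choose (2 ^ D) j : ℝ) * ((Real.exp (-((j : ℝ) / 144))) ^ L * (Y ^ j) ^ 2)
      ≤ (e * fTh Y D) ^ j * (((1 / 2 : ℝ) ^ M) ^ j * (Y ^ 2) ^ j) := by
        rw [hY2j]
        refine mul_le_mul hC2 ?_ (by positivity) (by positivity)
        exact mul_le_mul_of_nonneg_right hexp (by positivity)
    _ = (e * fTh Y D * Y ^ 2 * (1 / 2 : ℝ) ^ M) ^ j := by
        rw [mul_pow (e * fTh Y D * Y ^ 2), mul_pow (e * fTh Y D)]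
        ring
    _ ≤ (1 / 16 : ℝ) ^ j := pow_le_pow_left₀ h0 hnum j

theorem fm_eq (K : ℕ) : fm K = 147456 * (K + 1) ^ 2 := by
  unfold fm
  ring

theorem expY_nonneg (K D : ℕ) : 0 ≤ Real.exp 1 * fTh (fY K) D * (fY K) ^ 2 := by
  have h6 : 0 < fY K := by
    have := fY_ge K
    linarith
  have h7 : 0 < fTh (fY K) D := by
    unfold fTh
    positivity
  positivity

/-- The numerical condition in the central regime. -/
theorem central_cond {K D : ℕ} (hD1 : 1 ≤ D) (hD : 2 * D ≤ 2 ^ K) :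
    Real.exp 1 * fTh (fY K) D * (fY K) ^ 2 * (1 / 2 : ℝ) ^ (49152 * (K + 1) ^ 2) ≤ 1 / 16 := by
  have hD2 : ((D : ℝ) + 1) ≤ (2 : ℝ) ^ K := by
    have h1 : D + 1 ≤ 2 ^ K := by omega
    exact_mod_cast h1
  have hD3 : ((D : ℝ) + 1) ^ 2 ≤ ((2 : ℝ) ^ K) ^ 2 := pow_le_pow_left₀ (by positivity) hD2 2
  have he : Real.exp 1 ≤ 2 ^ 2 := by
    have := Real.exp_one_lt_d9
    norm_num
    linarith
  set P : ℕ := 67 + 28 * fT K + 2 * K with hP
  have hM : 49152 * (K + 1) ^ 2 = P + 4 + (49152 * (K + 1) ^ 2 - (P + 4)) := by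
    have h1 : P + 4 ≤ 49152 * (K + 1) ^ 2 := by
      rw [hP]
      unfold fT
      have h2 : K + 1 ≤ (K + 1) ^ 2 := by nlinarith
      omega
    omega
  have h1 : Real.exp 1 * fTh (fY K) D * (fY K) ^ 2 ≤ (2 : ℝ) ^ P := by
    unfold fTh fY
    have h2 : (2 : ℝ) ^ P = 2 ^ 2 * ((32 : ℝ) ^ 13 * ((2 : ℝ) ^ fT K) ^ 26 * ((2 : ℝ) ^ K) ^ 2) * ((2 : ℝ) ^ fT K) ^ 2 := by
      rw [hP, show (32 : ℝ) = 2 ^ 5 by norm_num]
      ring
    rw [h2]
    refine mul_le_mul_of_nonneg_right ?_ (by positivity)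
    refine mul_le_mul he ?_ (by positivity) (by norm_num)
    exact mul_le_mul_of_nonneg_left hD3 (by positivity)
  have h3 : (2 : ℝ) ^ P * (1 / 2 : ℝ) ^ P = 1 := by
    rw [← mul_pow]
    norm_num
  have h4 : (1 / 2 : ℝ) ^ (49152 * (K + 1) ^ 2) ≤ (1 / 2 : ℝ) ^ P * (1 / 2 : ℝ) ^ 4 := by
    rw [← pow_add]
    exact pow_le_pow_of_le_one (by norm_num) (by norm_num) (by omega)
  have h5 : (0 : ℝ) ≤ (1 / 2 : ℝ) ^ (49152 * (K + 1) ^ 2) := by positivity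
  have hexpY : 0 ≤ Real.exp 1 * fTh (fY K) D * (fY K) ^ 2 := expY_nonneg K D
  calc Real.exp 1 * fTh (fY K) D * (fY K) ^ 2 * (1 / 2 : ℝ) ^ (49152 * (K + 1) ^ 2)
      ≤ (2 : ℝ) ^ P * ((1 / 2 : ℝ) ^ P * (1 / 2 : ℝ) ^ 4) := mul_le_mul h1 h4 h5 (by positivity)
    _ = ((2 : ℝ) ^ P * (1 / 2 : ℝ) ^ P) * (1 / 2 : ℝ) ^ 4 := by ring
    _ = 1 / 16 := by
        rw [h3]
        norm_num

/-- **The bound for the trace on each layer.** -/
theorem level_bound {K D j : ℕ} (hK : 4 ≤ K) (hD1 : 1 ≤ D) (hD : 2 * D ≤ 2 ^ K)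
    (ha : 128 * (K + 1) ^ 2 ≤ D) (hjn : j ≤ 2 ^ D) :
    LinearMap.trace ℝ (Ej (Cube D) j) ((XLin D (fL K)).restrict (XLin_mem j (fL K)))
      ≤ (1 / 16 : ℝ) ^ j := by
  rcases Nat.eq_zero_or_pos j with rfl | hj
  · have hc : ∀ h ∈ Vtop (Fin 0) (Cube D), ‖Rop D (pT (Fin 0) D) h‖ ^ 2 ≤ (1 : ℝ) * ‖h‖ ^ 2 := by
      intro h _
      rw [one_mul]
      exact pow_le_pow_left₀ (norm_nonneg _) (norm_Rop_le isOrth_piT h) 2
    have hHS : ∑ x, ∑ y, (((Rm (Fin 0) D) ^ 0) x y) ^ 2 ≤ (1 : ℝ) := by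
      simp
    have h := trace_level (D := D) (j := 0) zero_le_one hc (L₀ := 0) (L := fL K) (Nat.zero_le _) hHS
    simpa using h
  · obtain ⟨h1, h2⟩ := level_hyp (j := j) hK hD1 hD ha hjn
    have hne : Nonempty (Fin j ↪ Cube D) := Function.Embedding.nonempty_of_card_le (by
      rw [card_cube, Fintype.card_fin]
      exact hjn)
    have hY := fY_ge K
    by_cases hΘ : (j : ℝ) * fTh (fY K) D ≤ (2 : ℝ) ^ D
    · set B : ℝ := ((fY K) ^ j) ^ 2 / (Fintype.card (Fin j ↪ Cube D) : ℝ) * Bd (Fin j) D with hB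
      have hB0 : 0 ≤ B := by
        have := Bd_nonneg (ι := Fin j) (D := D)
        positivity
      set E : ℕ := 2 * fm K + 3 with hE
      set ρ : ℝ := B ^ (1 / ((E : ℕ) : ℝ)) with hρ
      have hρ0 : 0 ≤ ρ := Real.rpow_nonneg hB0 _
      have hc : ∀ h ∈ Vtop (Fin j) (Cube D), ‖Rop D (pT (Fin j) D) h‖ ^ 2 ≤ ρ * ‖h‖ ^ 2 :=
        fun h hh => flat_contr h1 hh
      have hL : 2 * (fm K + 1) ≤ fL K := by
        unfold fL fL0
        omega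
      have h3 := trace_level (D := D) (j := j) hρ0 hc hL h2
      have hL2 : fL K - 2 * (fm K + 1) = E * 24 := by
        unfold fL fL0 fLp fE
        omega
      have hρE : ρ ^ E = B := by
        rw [hρ, one_div]
        exact Real.rpow_inv_natCast_pow hB0 (by omega)
      rw [hL2, pow_mul, hρE] at h3
      exact h3.trans (flat_numeric hY hj hΘ)
    · push Not at hΘ
      have hc : ∀ h ∈ Vtop (Fin j) (Cube D), ‖Rop D (pT (Fin j) D) h‖ ^ 2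
          ≤ Real.exp (-((j : ℝ) / 144)) * ‖h‖ ^ 2 := by
        intro h hh
        obtain ⟨j', rfl⟩ : ∃ j', j = j' + 1 := ⟨j - 1, by omega⟩
        refine (central_decay (ι := Fin (j' + 1)) (j := j') (Fintype.card_fin _) hjn hh).trans ?_
        refine mul_le_mul_of_nonneg_right (Real.exp_le_exp.2 ?_) (by positivity)
        have hJ0 : (0 : ℝ) ≤ (j' : ℝ) + 1 := by positivity
        have hJn : (j' : ℝ) + 1 ≤ (2 : ℝ) ^ D := by exact_mod_cast hjn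
        have hmin : ((j' : ℝ) + 1) / 2 ≤ min ((j' : ℝ) + 1) (((2 : ℝ) ^ D) / 2) := by
          apply le_min <;> linarith
        push_cast
        linarith
      have hL : 2 * (fm K + 1) ≤ fL K := by
        unfold fL fL0
        omega
      have h3 := trace_level (D := D) (j := j) (Real.exp_pos _).le hc hL h2
      have hL2 : fL K - 2 * (fm K + 1) = fLp K := by
        unfold fL fL0
        omega
      rw [hL2] at h3
      refine h3.trans (central_numeric hY hj hΘ.le ?_ (central_cond hD1 hD))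
      unfold fLp fE
      rw [fm_eq]
      omega

/-- The chain of blocks for large dimension. -/
theorem mix_chain {K d t : ℕ} (hK : 4 ≤ K) (hD : 2 * (d + 1) ≤ 2 ^ K)
    (ha : 128 * (K + 1) ^ 2 ≤ d + 1) (ht : (d + 1) * fL K ≤ t) :
    tvUniform (convPow (thorpLaw (2 ^ d)) t) ≤ 1 / 4 := by
  refine mix_of_layers (L := fL K) (b := fun j => (1 / 16 : ℝ) ^ j)
    (fun j hj => level_bound hK (by omega) hD ha hj) ?_ ht
  rw [geom_sum_eq (by norm_num)]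
  have h1 : (0 : ℝ) ≤ (1 / 16 : ℝ) ^ (2 ^ (d + 1) + 1) := by positivity
  rw [div_le_iff_of_neg (by norm_num)]
  norm_num
  nlinarith

theorem fL_le (K : ℕ) : fL K ≤ 10000000 * (K + 1) ^ 2 := by
  unfold fL fL0 fLp fE
  rw [fm_eq]
  have h : 1 ≤ (K + 1) ^ 2 := Nat.one_le_pow _ _ (by omega)
  omega

/-- **Main theorem.** -/
theorem thorp_loglog (d t : ℕ) (ht : 10000000 * (d + 1) * (Nat.log 2 (d + 1) + 5) ^ 2 ≤ t) :
    tvUniform (convPow (thorpLaw (2 ^ d)) t) ≤ 1 / 4 := by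
  set K : ℕ := Nat.log 2 (d + 1) + 4 with hKdef
  have hK1 : K + 1 = Nat.log 2 (d + 1) + 5 := by omega
  rw [← hK1] at ht
  by_cases ha : 128 * (K + 1) ^ 2 ≤ d + 1
  · have hD : 2 * (d + 1) ≤ 2 ^ K := by
      have h1 : d + 1 < 2 ^ (Nat.log 2 (d + 1) + 1) := Nat.lt_pow_succ_log_self (by norm_num) _
      have h2 : 2 ^ (Nat.log 2 (d + 1) + 2) ≤ 2 ^ K := Nat.pow_le_pow_right (by norm_num) (by omega)
      have h3 : 2 ^ (Nat.log 2 (d + 1) + 2) = 2 * 2 ^ (Nat.log 2 (d + 1) + 1) := by ring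
      omega
    refine mix_chain (by omega) hD ha (le_trans ?_ ht)
    calc (d + 1) * fL K ≤ (d + 1) * (10000000 * (K + 1) ^ 2) := Nat.mul_le_mul_left _ (fL_le K)
      _ = _ := by ring
  · push Not at ha
    refine thorp_main d t (le_trans ?_ ht)
    calc 500 * (d + 1) ^ 2 = 500 * (d + 1) * (d + 1) := by ring
      _ ≤ 500 * (d + 1) * (128 * (K + 1) ^ 2) := Nat.mul_le_mul_left _ ha.le
      _ = 64000 * ((d + 1) * (K + 1) ^ 2) := by ring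
      _ ≤ 10000000 * ((d + 1) * (K + 1) ^ 2) := Nat.mul_le_mul_right _ (by norm_num)
      _ = _ := by ring

end Vale.Agent.Lib.P162
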