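import Vale.Agent.Lib.P162.NRe2

/-! The joint moment bound by induction on the dimension. -/

namespace Vale.Agent.Lib.P162

open Equiv Finset

set_option linter.unusedSectionVars false

/-- The base of the moments. -/
noncomputable def qR : ℝ := 21 / 20

/-- The rate of a test. -/
noncomputable def rr (j : ℕ) : ℝ := (9 / 10 : ℝ) ^ (j / 2)

theorem rr_succ2 (j : ℕ) : rr (j + 2) = (9 / 10) * rr j := by
  unfold rr
  rw [show (j + 2) / 2 = j / 2 + 1 by omega, pow_succ]
  ring

theorem rr_zero : rr 0 = 1 := by simp [rr]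

theorem rr_one : rr 1 = 1 := by simp [rr]

theorem rr_pos (j : ℕ) : 0 < rr j := by
  unfold rr
  positivity

/-- The partial sums of the rates. -/
noncomputable def GG (a : ℕ) : ℝ := ∑ i ∈ Finset.range a, rr i

theorem GG_even (k : ℕ) : GG (2 * k) = 20 * (1 - (9 / 10 : ℝ) ^ k) := by
  induction k with
  | zero => simp [GG]
  | succ k ih =>
    have h1 : GG (2 * (k + 1)) = GG (2 * k) + rr (2 * k) + rr (2 * k + 1) := by
      unfold GG
      rw [show 2 * (k + 1) = 2 * k + 1 + 1 by ring, Finset.sum_range_succ, Finset.sum_range_succ]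
    have h2 : rr (2 * k) = (9 / 10 : ℝ) ^ k := by
      unfold rr
      rw [show 2 * k / 2 = k by omega]
    have h3 : rr (2 * k + 1) = (9 / 10 : ℝ) ^ k := by
      unfold rr
      rw [show (2 * k + 1) / 2 = k by omega]
    rw [h1, ih, h2, h3, pow_succ]
    ring

theorem GG_le (a : ℕ) : GG a ≤ 20 := by
  obtain ⟨k, hk | hk⟩ := Nat.even_or_odd' a
  · rw [hk, GG_even]
    have : (0 : ℝ) ≤ (9 / 10 : ℝ) ^ k := by positivity
    linarith
  · have h1 : GG a = GG (2 * k) + rr (2 * k) := by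
      unfold GG
      rw [hk, Finset.sum_range_succ]
    have h2 : rr (2 * k) = (9 / 10 : ℝ) ^ k := by
      unfold rr
      rw [show 2 * k / 2 = k by omega]
    rw [h1, GG_even, h2]
    have : (0 : ℝ) ≤ (9 / 10 : ℝ) ^ k := by positivity
    linarith

theorem GG_nonneg (a : ℕ) : 0 ≤ GG a := Finset.sum_nonneg (fun i _ => (rr_pos i).le)

/-- The factor of a test. -/
noncomputable def fr (j : ℕ) : ℝ := 1 + rr j * (1 / 20)

theorem fr_pos (j : ℕ) : 0 < fr j := by
  have := rr_pos j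
  unfold fr
  positivity

theorem qR_pos : 0 < qR := by
  unfold qR
  norm_num

theorem qR_one_le : 1 ≤ qR := by
  unfold qR
  norm_num

theorem cyc_inv_form {α : Type*} [Fintype α] [DecidableEq α] (b τ : Perm α) (D : Finset α) :
    cyc (b⁻¹ * τ) D = cyc (b * τ⁻¹) (D.map τ.toEmbedding) := by
  have h1 : cyc (b⁻¹ * τ) D = cyc (τ⁻¹ * b) D := by
    rw [← cyc_inv]
    congr 1
  have h2 : b * τ⁻¹ = τ * (τ⁻¹ * b) * τ⁻¹ := by group
  rw [h1, h2, cyc_conj]
  congr 1
  ext z
  simp

/-- The bound at one level with a separated extra test. -/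
def MM (a : ℕ) : Prop :=
  ∀ (S : Finset (Cube a)) (t : ℕ → Perm (Cube a)) (D : ℕ → Finset (Cube a)),
    avg (fun β : BC a => qR ^ Cnt 0 a S β * ∏ j ∈ Finset.range (a + 1), qR ^ cyc (ben a β * t j) (D j))
      ≤ Real.exp ((1 / 40) * GG a * (S.card : ℝ)) * ∏ j ∈ Finset.range (a + 1), fr j ^ (D j).card

theorem MM_extra {a : ℕ} (h : MM a) (S : Finset (Cube a)) (t : ℕ → Perm (Cube a))
    (D : ℕ → Finset (Cube a)) (τ : Perm (Cube a)) (F : Finset (Cube a)) :
    avg (fun β : BC a => qR ^ Cnt 0 a S β * ((∏ j ∈ Finset.range a, qR ^ cyc (ben a β * t j) (D j))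
        * qR ^ cyc (ben a β * τ) F))
      ≤ Real.exp ((1 / 40) * GG a * (S.card : ℝ)) * ((∏ j ∈ Finset.range a, fr j ^ (D j).card) * fr a ^ F.card) := by
  classical
  have h1 := h S (fun j => if j < a then t j else τ) (fun j => if j < a then D j else F)
  simp only [Finset.prod_range_succ] at h1
  have h2 : ∀ β : BC a, ∏ j ∈ Finset.range a, qR ^ cyc (ben a β * (if j < a then t j else τ)) (if j < a then D j else F)
      = ∏ j ∈ Finset.range a, qR ^ cyc (ben a β * t j) (D j) := by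
    intro β
    refine Finset.prod_congr rfl (fun j hj => ?_)
    rw [if_pos (Finset.mem_range.mp hj), if_pos (Finset.mem_range.mp hj)]
  have h3 : ∏ j ∈ Finset.range a, fr j ^ (if j < a then D j else F).card = ∏ j ∈ Finset.range a, fr j ^ (D j).card := by
    refine Finset.prod_congr rfl (fun j hj => ?_)
    rw [if_pos (Finset.mem_range.mp hj)]
  simp only [h2, lt_irrefl, if_false] at h1
  rw [h3] at h1
  exact h1

theorem MM_zero : MM 0 := by
  intro S t D
  refine avg_le_of_forall (fun β => ?_)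
  simp only [zero_add, Finset.prod_range_one]
  have h1 : Cnt 0 0 S β = 0 := rfl
  rw [h1, pow_zero, one_mul]
  have h2 : GG 0 = 0 := by simp [GG]
  rw [h2]
  simp only [mul_zero, zero_mul, Real.exp_zero, one_mul]
  have h3 : fr 0 = qR := by
    unfold fr qR
    rw [rr_zero]
    norm_num
  rw [h3]
  exact pow_le_pow_right₀ qR_one_le (cyc_le_card _ _)

/-- The exponents of the tests. -/
noncomputable def lamR (j : ℕ) : ℝ := Real.log (fr j)

theorem lamR_nonneg (j : ℕ) : 0 ≤ lamR j := by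
  unfold lamR
  apply Real.log_nonneg
  have := rr_pos j
  unfold fr
  linarith

theorem lamR_le (j : ℕ) : lamR j ≤ rr j * (1 / 20) := by
  unfold lamR fr
  have h := Real.log_le_sub_one_of_pos (show 0 < 1 + rr j * (1 / 20) by
    have := rr_pos j
    positivity)
  linarith

theorem sum_lamR_le (a : ℕ) : ∑ j ∈ Finset.range a, lamR j ≤ 1 := by
  calc ∑ j ∈ Finset.range a, lamR j ≤ ∑ j ∈ Finset.range a, rr j * (1 / 20) :=
        Finset.sum_le_sum (fun j _ => lamR_le j)
    _ = GG a * (1 / 20) := by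
        unfold GG
        rw [Finset.sum_mul]
    _ ≤ 1 := by
        have := GG_le a
        linarith

theorem exp_lamR_le (j : ℕ) : Real.exp ((9 / 10) * lamR j) ≤ fr (j + 2) := by
  have h1 : Real.exp ((9 / 10) * lamR j) = (fr j) ^ ((9 / 10 : ℝ)) := by
    unfold lamR
    rw [Real.rpow_def_of_pos (fr_pos j), mul_comm]
  rw [h1]
  unfold fr
  rw [rr_succ2]
  have := rr_pos j
  have h2 := rpow_one_add_le_one_add_mul_self (s := rr j * (1 / 20)) (by linarith [mul_pos this (by norm_num : (0:ℝ) < 1/20)])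
    (p := 9 / 10) (by norm_num) (by norm_num)
  refine h2.trans (le_of_eq ?_)
  ring

theorem fr_pow_eq (j n : ℕ) : fr j ^ n = Real.exp (lamR j * (n : ℝ)) := by
  unfold lamR
  rw [mul_comm, Real.exp_nat_mul, Real.exp_log (fr_pos j)]

theorem prod_fr_pow {ι : Type*} (I : Finset ι) (f : ι → ℕ) (g : ι → ℕ) :
    ∏ j ∈ I, fr (f j) ^ (g j) = Real.exp (∑ j ∈ I, lamR (f j) * (g j : ℝ)) := by
  rw [Real.exp_sum]
  refine Finset.prod_congr rfl (fun j _ => fr_pow_eq _ _)

section stepdefs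

variable {Y : Type*} [Fintype Y] [DecidableEq Y]

/-- The first return test on the first side. -/
noncomputable def T0s (A' A : Y → Bool) (t : Perm (Bool × Y)) (s₁ : Perm Y) : Perm Y :=
  firstRet false (side true s₁ * hhh A' A t)

/-- The first return test on the second side. -/
noncomputable def T1s (A' A : Y → Bool) (t : Perm (Bool × Y)) : Perm Y :=
  firstRet true (hhh A' A t)

/-- The set of the test on the first side. -/
def D0s (A' : Y → Bool) (D : Finset (Bool × Y)) : Finset Y := D0 (Dtt A' D)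

/-- The set of the test on the second side. -/
noncomputable def D1s (A' A : Y → Bool) (t : Perm (Bool × Y)) (D : Finset (Bool × Y)) : Finset Y :=
  D1 (hhh A' A t) (Dtt A' D)

theorem test_split_pow (A' A : Y → Bool) (s₀ s₁ : Perm Y) (t : Perm (Bool × Y)) (D : Finset (Bool × Y)) :
    qR ^ cyc (flipPerm A' * (side false s₀ * side true s₁) * flipPerm A * t) D
      ≤ qR ^ cyc (s₀ * T0s A' A t s₁) (D0s A' D) * qR ^ cyc (s₁ * T1s A' A t) (D1s A' A t D) := by
  rw [← pow_add]
  exact pow_le_pow_right₀ qR_one_le (test_split A' A s₀ s₁ t D)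

end stepdefs

/-- The bound for the flips at one level. -/
theorem flips_bound (a : ℕ) (t' : ℕ → Perm (Bool × Cube a)) (D' : ℕ → Finset (Bool × Cube a)) :
    avg (fun A' : Cube a → Bool => avg (fun A : Cube a → Bool =>
      Real.exp (∑ j ∈ Finset.range a, lamR j * ((D0s A' (D' (j + 2))).card + (D1s A' A (t' (j + 2)) (D' (j + 2))).card : ℝ))))
      ≤ ∏ j ∈ Finset.range a, fr (j + 2) ^ (D' (j + 2)).card := by
  have h := two_flips_multi (Finset.range a) lamR (fun j _ => lamR_nonneg j) (sum_lamR_le a)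
    (fun j => D' (j + 2)) (fun A' j => Us A' (t' (j + 2)) (D' (j + 2)))
    (fun A' j => by rw [Us_card])
  have h2 : ∀ A' A : Cube a → Bool,
      Real.exp (∑ j ∈ Finset.range a, lamR j * ((D0s A' (D' (j + 2))).card + (D1s A' A (t' (j + 2)) (D' (j + 2))).card : ℝ))
      = Real.exp (∑ j ∈ Finset.range a, lamR j *
        (((Finset.univ.filter (fun y => (A' y, y) ∈ D' (j + 2))).card : ℝ)
          + (((Us A' (t' (j + 2)) (D' (j + 2))).filter (fun u => A u.2 ≠ u.1)).card : ℝ))) := by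
    intro A' A
    congr 1
    refine Finset.sum_congr rfl (fun j _ => ?_)
    unfold D0s D1s
    rw [card_D0_Dtt, card_D1_Dtt]
  simp only [h2]
  refine h.trans ?_
  rw [Finset.mul_sum, Real.exp_sum]
  refine Finset.prod_le_prod (fun j _ => (Real.exp_pos _).le) (fun j _ => ?_)
  have h3 : Real.exp ((9 / 10) * (lamR j * ((D' (j + 2)).card : ℝ)))
      = (Real.exp ((9 / 10) * lamR j)) ^ (D' (j + 2)).card := by
    rw [← Real.exp_nat_mul]
    congr 1
    ring
  rw [h3]
  exact pow_le_pow_left₀ (Real.exp_pos _).le (exp_lamR_le j) _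

theorem MM_succ {a : ℕ} (h : MM a) : MM (a + 1) := by
  intro S t D
  set e := consE a with he
  set t' : ℕ → Perm (Bool × Cube a) := fun j => e.symm.permCongr (t j) with ht'
  set D' : ℕ → Finset (Bool × Cube a) := fun j => (D j).map e.symm.toEmbedding with hD'
  have hcardD : ∀ j, (D' j).card = (D j).card := fun j => Finset.card_map _
  set K : ℝ := qR ^ (D 1).card * qR ^ (D 0).card with hK
  have hK0 : 0 ≤ K := by
    have := qR_pos
    positivity
  have hq0 := qR_pos
  -- pointwise bound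
  have hcyc : ∀ (A A' : Cube a → Bool) (β₀ β₁ : BC a) (j : ℕ),
      cyc (ben (a + 1) (mkB A A' β₀ β₁) * t j) (D j)
        ≤ cyc (flipPerm A' * (side false (ben a β₀) * side true (ben a β₁)) * flipPerm A * t' j) (D' j) := by
    intro A A' β₀ β₁ j
    rw [ben_mk]
    have h1 : e.permCongr (flipPerm A' * (side false (ben a β₀) * side true (ben a β₁)) * flipPerm A) * t j
        = e.permCongr (flipPerm A' * (side false (ben a β₀) * side true (ben a β₁)) * flipPerm A * t' j) := by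
      ext1 x
      simp [ht', Equiv.permCongr_apply]
    rw [h1]
    exact cyc_permCongr_le e _ (D j)
  set S₀ : (Cube a → Bool) → Finset (Cube a) := fun A => S0 A S with hS₀
  set S₁ : (Cube a → Bool) → Finset (Cube a) := fun A => S1 A S with hS₁
  let X₁ : (Cube a → Bool) → (Cube a → Bool) → BC a → ℝ := fun A' A β₁ =>
    qR ^ Cnt 0 a (S₁ A) β₁ * ((∏ j ∈ Finset.range a,
        qR ^ cyc (ben a β₁ * T1s A' A (t' (j + 2))) (D1s A' A (t' (j + 2)) (D' (j + 2))))
      * qR ^ cyc (ben a β₁ * 1) ∅)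
  let X₀ : (Cube a → Bool) → (Cube a → Bool) → BC a → BC a → ℝ := fun A' A β₁ β₀ =>
    qR ^ Cnt 0 a (S₀ A) β₀ * ((∏ j ∈ Finset.range a,
        qR ^ cyc (ben a β₀ * T0s A' A (t' (j + 2)) (ben a β₁)) (D0s A' (D' (j + 2))))
      * qR ^ cyc (ben a β₀ * (ben a β₁)⁻¹) ((S₀ A ∩ S₁ A).map (ben a β₁).toEmbedding))
  have hX₁0 : ∀ A' A β₁, 0 ≤ X₁ A' A β₁ := by
    intro A' A β₁
    simp only [X₁]
    positivity
  have hX₀0 : ∀ A' A β₁ β₀, 0 ≤ X₀ A' A β₁ β₀ := by
    intro A' A β₁ β₀
    simp only [X₀]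
    positivity
  have hpt : ∀ A' A β₁ β₀, qR ^ Cnt 0 (a + 1) S (mkB A A' β₀ β₁)
        * ∏ j ∈ Finset.range (a + 1 + 1), qR ^ cyc (ben (a + 1) (mkB A A' β₀ β₁) * t j) (D j)
      ≤ K * (X₁ A' A β₁ * X₀ A' A β₁ β₀) := by
    intro A' A β₁ β₀
    rw [Finset.prod_range_succ', Finset.prod_range_succ']
    have h0 : qR ^ cyc (ben (a + 1) (mkB A A' β₀ β₁) * t 0) (D 0) ≤ qR ^ (D 0).card :=
      pow_le_pow_right₀ qR_one_le (cyc_le_card _ _)
    have h1 : qR ^ cyc (ben (a + 1) (mkB A A' β₀ β₁) * t 1) (D 1) ≤ qR ^ (D 1).card :=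
      pow_le_pow_right₀ qR_one_le (cyc_le_card _ _)
    have h2 : ∏ j ∈ Finset.range a, qR ^ cyc (ben (a + 1) (mkB A A' β₀ β₁) * t (j + 1 + 1)) (D (j + 1 + 1))
        ≤ (∏ j ∈ Finset.range a, qR ^ cyc (ben a β₀ * T0s A' A (t' (j + 2)) (ben a β₁)) (D0s A' (D' (j + 2))))
          * ∏ j ∈ Finset.range a, qR ^ cyc (ben a β₁ * T1s A' A (t' (j + 2))) (D1s A' A (t' (j + 2)) (D' (j + 2))) := by
      rw [← Finset.prod_mul_distrib]
      refine Finset.prod_le_prod (fun j _ => by positivity) (fun j _ => ?_)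
      exact (pow_le_pow_right₀ qR_one_le (hcyc A A' β₀ β₁ (j + 2))).trans
        (test_split_pow A' A _ _ (t' (j + 2)) (D' (j + 2)))
    have h3 : qR ^ Cnt 0 (a + 1) S (mkB A A' β₀ β₁)
        = qR ^ Cnt 0 a (S₀ A) β₀ * qR ^ Cnt 0 a (S₁ A) β₁
          * qR ^ cyc (ben a β₀ * (ben a β₁)⁻¹) ((S₀ A ∩ S₁ A).map (ben a β₁).toEmbedding) := by
      rw [Cnt_mk, if_pos (Nat.zero_le a), pow_add, pow_add, cyc_inv_form]
    have h4 : cyc (ben a β₁ * 1) (∅ : Finset (Cube a)) = 0 := by
      have := cyc_le_card (ben a β₁ * 1) (∅ : Finset (Cube a))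
      simpa using this
    simp only [X₁, X₀]
    rw [h3, h4, pow_zero, mul_one]
    set P₀ := ∏ j ∈ Finset.range a, qR ^ cyc (ben a β₀ * T0s A' A (t' (j + 2)) (ben a β₁)) (D0s A' (D' (j + 2))) with hP₀
    set P₁ := ∏ j ∈ Finset.range a, qR ^ cyc (ben a β₁ * T1s A' A (t' (j + 2))) (D1s A' A (t' (j + 2)) (D' (j + 2))) with hP₁
    set Pm := ∏ j ∈ Finset.range a, qR ^ cyc (ben (a + 1) (mkB A A' β₀ β₁) * t (j + 1 + 1)) (D (j + 1 + 1)) with hPm
    have hPm0 : 0 ≤ Pm := by positivity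
    have hPr : Pm * qR ^ cyc (ben (a + 1) (mkB A A' β₀ β₁) * t 1) (D 1) * qR ^ cyc (ben (a + 1) (mkB A A' β₀ β₁) * t 0) (D 0)
        ≤ (P₀ * P₁) * K := by
      rw [hK, mul_assoc Pm]
      have h5 : qR ^ cyc (ben (a + 1) (mkB A A' β₀ β₁) * t 1) (D 1) * qR ^ cyc (ben (a + 1) (mkB A A' β₀ β₁) * t 0) (D 0)
          ≤ qR ^ (D 1).card * qR ^ (D 0).card := mul_le_mul h1 h0 (by positivity) (by positivity)
      exact mul_le_mul h2 h5 (by positivity) (by positivity)
    set Y := qR ^ Cnt 0 a (S₀ A) β₀ * qR ^ Cnt 0 a (S₁ A) β₁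
          * qR ^ cyc (ben a β₀ * (ben a β₁)⁻¹) ((S₀ A ∩ S₁ A).map (ben a β₁).toEmbedding) with hY
    have hY0 : 0 ≤ Y := by positivity
    calc Y * (Pm * qR ^ cyc (ben (a + 1) (mkB A A' β₀ β₁) * t 1) (D 1) * qR ^ cyc (ben (a + 1) (mkB A A' β₀ β₁) * t 0) (D 0))
        ≤ Y * ((P₀ * P₁) * K) := mul_le_mul_of_nonneg_left hPr hY0
      _ = _ := by
          rw [hY]
          ring
  -- the two averages over coins
  have hinner : ∀ A' A β₁, avg (fun β₀ : BC a => X₀ A' A β₁ β₀)
      ≤ Real.exp ((1 / 40) * GG a * ((S₀ A).card : ℝ))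
        * ((∏ j ∈ Finset.range a, fr j ^ (D0s A' (D' (j + 2))).card) * fr a ^ (S₀ A ∩ S₁ A).card) := by
    intro A' A β₁
    have := MM_extra h (S₀ A) (fun j => T0s A' A (t' (j + 2)) (ben a β₁)) (fun j => D0s A' (D' (j + 2)))
      (ben a β₁)⁻¹ ((S₀ A ∩ S₁ A).map (ben a β₁).toEmbedding)
    rwa [Finset.card_map] at this
  have hout : ∀ A' A, avg (fun β₁ : BC a => X₁ A' A β₁)
      ≤ Real.exp ((1 / 40) * GG a * ((S₁ A).card : ℝ))
        * (∏ j ∈ Finset.range a, fr j ^ (D1s A' A (t' (j + 2)) (D' (j + 2))).card) := by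
    intro A' A
    have h0 := MM_extra h (S₁ A) (fun j => T1s A' A (t' (j + 2))) (fun j => D1s A' A (t' (j + 2)) (D' (j + 2)))
      1 ∅
    rw [Finset.card_empty, pow_zero, mul_one] at h0
    exact h0
  -- the bound for fixed flips
  have hfix : ∀ A' A : Cube a → Bool, avg (fun β₁ : BC a => avg (fun β₀ : BC a =>
        qR ^ Cnt 0 (a + 1) S (mkB A A' β₀ β₁)
          * ∏ j ∈ Finset.range (a + 1 + 1), qR ^ cyc (ben (a + 1) (mkB A A' β₀ β₁) * t j) (D j)))
      ≤ K * (Real.exp ((1 / 40) * GG (a + 1) * (S.card : ℝ))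
        * Real.exp (∑ j ∈ Finset.range a, lamR j * ((D0s A' (D' (j + 2))).card + (D1s A' A (t' (j + 2)) (D' (j + 2))).card : ℝ))) := by
    intro A' A
    set R₀ : ℝ := Real.exp ((1 / 40) * GG a * ((S₀ A).card : ℝ))
        * ((∏ j ∈ Finset.range a, fr j ^ (D0s A' (D' (j + 2))).card) * fr a ^ (S₀ A ∩ S₁ A).card) with hR₀
    have hR₀0 : 0 ≤ R₀ := by
      have := fr_pos a
      have h5 : ∀ j, 0 < fr j := fr_pos
      rw [hR₀]
      refine mul_nonneg (Real.exp_pos _).le (mul_nonneg (Finset.prod_nonneg (fun j _ => (pow_pos (h5 j) _).le)) (by positivity))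
    have h1 : ∀ β₁ : BC a, avg (fun β₀ : BC a => qR ^ Cnt 0 (a + 1) S (mkB A A' β₀ β₁)
          * ∏ j ∈ Finset.range (a + 1 + 1), qR ^ cyc (ben (a + 1) (mkB A A' β₀ β₁) * t j) (D j))
        ≤ K * (X₁ A' A β₁ * R₀) := by
      intro β₁
      calc _ ≤ avg (fun β₀ : BC a => K * (X₁ A' A β₁ * X₀ A' A β₁ β₀)) := avg_mono (hpt A' A β₁)
        _ = K * (X₁ A' A β₁ * avg (fun β₀ : BC a => X₀ A' A β₁ β₀)) := by
            rw [avg_mul_left, avg_mul_left]
        _ ≤ _ := by
            refine mul_le_mul_of_nonneg_left ?_ hK0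
            exact mul_le_mul_of_nonneg_left (hinner A' A β₁) (hX₁0 A' A β₁)
    refine (avg_mono h1).trans ?_
    have h2 : avg (fun β₁ : BC a => K * (X₁ A' A β₁ * R₀)) = K * (avg (fun β₁ : BC a => X₁ A' A β₁) * R₀) := by
      rw [avg_mul_left, avg_mul_right]
    rw [h2]
    refine mul_le_mul_of_nonneg_left ?_ hK0
    refine (mul_le_mul_of_nonneg_right (hout A' A) hR₀0).trans ?_
    -- arithmetic
    have hc : ((S₀ A).card : ℝ) + ((S₁ A).card : ℝ) = (S.card : ℝ) := by
      exact_mod_cast card_S0_add_S1 A S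
    have hi : (2 : ℝ) * ((S₀ A ∩ S₁ A).card : ℝ) ≤ (S.card : ℝ) := by
      exact_mod_cast card_inter_S a A S
    have hf : fr a ^ (S₀ A ∩ S₁ A).card ≤ Real.exp (rr a * (1 / 40) * (S.card : ℝ)) := by
      have h3 : fr a ≤ Real.exp (rr a * (1 / 20)) := by
        unfold fr
        have := Real.add_one_le_exp (rr a * (1 / 20))
        linarith
      calc fr a ^ (S₀ A ∩ S₁ A).card ≤ (Real.exp (rr a * (1 / 20))) ^ (S₀ A ∩ S₁ A).card :=
            pow_le_pow_left₀ (fr_pos a).le h3 _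
        _ = Real.exp (((S₀ A ∩ S₁ A).card : ℝ) * (rr a * (1 / 20))) := (Real.exp_nat_mul _ _).symm
        _ ≤ _ := by
            apply Real.exp_le_exp.mpr
            have := rr_pos a
            nlinarith
    have hG : GG (a + 1) = GG a + rr a := by
      unfold GG
      rw [Finset.sum_range_succ]
    have hP0 : ∏ j ∈ Finset.range a, fr j ^ (D0s A' (D' (j + 2))).card
        = Real.exp (∑ j ∈ Finset.range a, lamR j * ((D0s A' (D' (j + 2))).card : ℝ)) :=
      prod_fr_pow _ (fun j => j) _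
    have hP1 : ∏ j ∈ Finset.range a, fr j ^ (D1s A' A (t' (j + 2)) (D' (j + 2))).card
        = Real.exp (∑ j ∈ Finset.range a, lamR j * ((D1s A' A (t' (j + 2)) (D' (j + 2))).card : ℝ)) :=
      prod_fr_pow _ (fun j => j) _
    have hsum : ∑ j ∈ Finset.range a, lamR j * ((D0s A' (D' (j + 2))).card + (D1s A' A (t' (j + 2)) (D' (j + 2))).card : ℝ)
        = ∑ j ∈ Finset.range a, lamR j * ((D0s A' (D' (j + 2))).card : ℝ)
          + ∑ j ∈ Finset.range a, lamR j * ((D1s A' A (t' (j + 2)) (D' (j + 2))).card : ℝ) := by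
      rw [← Finset.sum_add_distrib]
      refine Finset.sum_congr rfl (fun j _ => ?_)
      ring
    rw [hR₀, hP0, hP1, hsum, Real.exp_add (∑ j ∈ Finset.range a, lamR j * ((D0s A' (D' (j + 2))).card : ℝ))]
    set U₀ := Real.exp (∑ j ∈ Finset.range a, lamR j * ((D0s A' (D' (j + 2))).card : ℝ)) with hU₀
    set U₁ := Real.exp (∑ j ∈ Finset.range a, lamR j * ((D1s A' A (t' (j + 2)) (D' (j + 2))).card : ℝ)) with hU₁
    have hU₀0 : 0 ≤ U₀ := (Real.exp_pos _).le
    have hU₁0 : 0 ≤ U₁ := (Real.exp_pos _).le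
    have hE : Real.exp ((1 / 40) * GG a * ((S₁ A).card : ℝ)) * Real.exp ((1 / 40) * GG a * ((S₀ A).card : ℝ))
          * Real.exp (rr a * (1 / 40) * (S.card : ℝ))
        = Real.exp ((1 / 40) * GG (a + 1) * (S.card : ℝ)) := by
      rw [← Real.exp_add, ← Real.exp_add, hG, ← hc]
      congr 1
      ring
    rw [← hE]
    calc Real.exp ((1 / 40) * GG a * ((S₁ A).card : ℝ)) * U₁ * (Real.exp ((1 / 40) * GG a * ((S₀ A).card : ℝ))
          * (U₀ * fr a ^ (S₀ A ∩ S₁ A).card))
        = (Real.exp ((1 / 40) * GG a * ((S₁ A).card : ℝ)) * Real.exp ((1 / 40) * GG a * ((S₀ A).card : ℝ)))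
            * (fr a ^ (S₀ A ∩ S₁ A).card * (U₀ * U₁)) := by ring
      _ ≤ (Real.exp ((1 / 40) * GG a * ((S₁ A).card : ℝ)) * Real.exp ((1 / 40) * GG a * ((S₀ A).card : ℝ)))
            * (Real.exp (rr a * (1 / 40) * (S.card : ℝ)) * (U₀ * U₁)) := by
          refine mul_le_mul_of_nonneg_left ?_ (by positivity)
          exact mul_le_mul_of_nonneg_right hf (by positivity)
      _ = _ := by ring
  -- assembling
  rw [avg_BC_succ]
  have hfb := flips_bound a t' D'
  calc avg (fun A' : Cube a → Bool => avg (fun A : Cube a → Bool => avg (fun β₁ : BC a => avg (fun β₀ : BC a =>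
        qR ^ Cnt 0 (a + 1) S (mkB A A' β₀ β₁)
          * ∏ j ∈ Finset.range (a + 1 + 1), qR ^ cyc (ben (a + 1) (mkB A A' β₀ β₁) * t j) (D j)))))
      ≤ avg (fun A' : Cube a → Bool => avg (fun A : Cube a → Bool =>
          K * (Real.exp ((1 / 40) * GG (a + 1) * (S.card : ℝ))
            * Real.exp (∑ j ∈ Finset.range a, lamR j * ((D0s A' (D' (j + 2))).card + (D1s A' A (t' (j + 2)) (D' (j + 2))).card : ℝ))))) :=
        avg_mono (fun A' => avg_mono (fun A => hfix A' A))
    _ = K * (Real.exp ((1 / 40) * GG (a + 1) * (S.card : ℝ))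
          * avg (fun A' : Cube a → Bool => avg (fun A : Cube a → Bool =>
            Real.exp (∑ j ∈ Finset.range a, lamR j * ((D0s A' (D' (j + 2))).card + (D1s A' A (t' (j + 2)) (D' (j + 2))).card : ℝ))))) := by
        simp only [avg_mul_left]
    _ ≤ K * (Real.exp ((1 / 40) * GG (a + 1) * (S.card : ℝ))
          * ∏ j ∈ Finset.range a, fr (j + 2) ^ (D' (j + 2)).card) := by
        refine mul_le_mul_of_nonneg_left ?_ hK0
        exact mul_le_mul_of_nonneg_left hfb (Real.exp_pos _).le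
    _ = _ := by
        rw [Finset.prod_range_succ', Finset.prod_range_succ']
        have h00 : fr 0 = qR := by
          unfold fr qR
          rw [rr_zero]
          norm_num
        have h01 : fr (0 + 1) = qR := by
          unfold fr qR
          rw [zero_add, rr_one]
          norm_num
        rw [h00, h01, hK]
        simp only [hcardD]
        ring

theorem MM_all (a : ℕ) : MM a := by
  induction a with
  | zero => exact MM_zero
  | succ a ih => exact MM_succ ih

/-- **The exponential moment of the cycle functional at a constant rate.** -/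
theorem renyi_const (a : ℕ) (S : Finset (Cube a)) :
    avg (fun β : BC a => qR ^ Cnt 0 a S β) ≤ Real.exp ((1 / 2) * (S.card : ℝ)) := by
  have h := MM_all a S (fun _ => 1) (fun _ => ∅)
  have h1 : ∀ β : BC a, cyc (ben a β) (∅ : Finset (Cube a)) = 0 := by
    intro β
    have := cyc_le_card (ben a β) (∅ : Finset (Cube a))
    simpa using this
  have h2 : ∀ β : BC a, ∏ j ∈ Finset.range (a + 1), qR ^ cyc (ben a β) (∅ : Finset (Cube a)) = 1 := by
    intro β
    refine Finset.prod_eq_one (fun j _ => ?_)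
    rw [h1 β, pow_zero]
  simp only [mul_one, Finset.card_empty, pow_zero, Finset.prod_const_one, h2] at h
  refine h.trans (Real.exp_le_exp.mpr ?_)
  have h3 := GG_le a
  have h4 : (0 : ℝ) ≤ (S.card : ℝ) := Nat.cast_nonneg _
  nlinarith

end Vale.Agent.Lib.P162
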