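import Vale.Agent.Lib.P162.NP4
import Vale.Agent.Lib.P162.NFin
import Vale.Agent.Lib.P162.NRe3

/-! The numerical assembly of the bound linear in the dimension. -/

namespace Vale.Agent.Lib.P162

open Equiv Finset Matrix

set_option linter.unusedSectionVars false

open scoped Classical

/-- The rate of the constant Renyi bound. -/
noncomputable def sQ : ℝ := Real.logb 2 qR

theorem two_rpow_sQ (x : ℝ) : (2 : ℝ) ^ (sQ * x) = qR ^ x := by
  unfold sQ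
  rw [Real.rpow_mul (by norm_num), Real.rpow_logb (by norm_num) (by norm_num) qR_pos]

theorem sQ_lower : 1 / 15 ≤ sQ := by
  unfold sQ
  rw [Real.le_logb_iff_rpow_le (by norm_num) qR_pos]
  have h1 : ((2 : ℝ) ^ ((1 : ℝ) / 15)) ^ (15 : ℕ) = 2 := by
    rw [← Real.rpow_natCast, ← Real.rpow_mul (by norm_num)]
    norm_num
  by_contra h
  push Not at h
  have h2 : qR ^ (15 : ℕ) < ((2 : ℝ) ^ ((1 : ℝ) / 15)) ^ (15 : ℕ) :=
    pow_lt_pow_left₀ h qR_pos.le (by norm_num)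
  rw [h1] at h2
  unfold qR at h2
  norm_num at h2

theorem sQ_upper : sQ ≤ 1 := by
  unfold sQ
  rw [Real.logb_le_iff_le_rpow (by norm_num) qR_pos]
  unfold qR
  norm_num

theorem exp_half_le : Real.exp (1 / 2) ≤ qR ^ (11 : ℕ) := by
  have h1 : Real.exp (1 / 2) ^ 2 = Real.exp 1 := by
    rw [← Real.exp_nat_mul]
    norm_num
  have h2 := Real.exp_one_lt_d9
  have h3 : Real.exp (1 / 2) ≤ 165 / 100 := by
    by_contra h
    push Not at h
    have h4 : (165 / 100 : ℝ) ^ 2 < Real.exp (1 / 2) ^ 2 := pow_lt_pow_left₀ h (by norm_num) (by norm_num)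
    rw [h1] at h4
    norm_num at h4
    linarith
  refine h3.trans ?_
  unfold qR
  norm_num

theorem ren_hyp (D : ℕ) (S : Finset (Cube D)) :
    avg (fun β : BC D => (2 : ℝ) ^ (sQ * (Cnt 0 D S β : ℝ))) ≤ (2 : ℝ) ^ (sQ * ((11 : ℕ) : ℝ) * (S.card : ℝ)) := by
  have h1 : ∀ β : BC D, (2 : ℝ) ^ (sQ * (Cnt 0 D S β : ℝ)) = qR ^ Cnt 0 D S β := by
    intro β
    rw [two_rpow_sQ, Real.rpow_natCast]
  simp only [h1]
  refine (renyi_const D S).trans ?_
  have h2 : sQ * ((11 : ℕ) : ℝ) * (S.card : ℝ) = sQ * (((11 : ℕ) : ℝ) * (S.card : ℝ)) := by ring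
  rw [h2, two_rpow_sQ]
  have h3 : qR ^ (((11 : ℕ) : ℝ) * (S.card : ℝ)) = (qR ^ (11 : ℕ)) ^ S.card := by
    rw [Real.rpow_mul qR_pos.le, Real.rpow_natCast, Real.rpow_natCast]
  rw [h3]
  have h4 : Real.exp ((1 / 2) * (S.card : ℝ)) = Real.exp (1 / 2) ^ S.card := by
    rw [← Real.exp_nat_mul, mul_comm]
  rw [h4]
  exact pow_le_pow_left₀ (Real.exp_pos _).le exp_half_le _

theorem bern_const : (1 + sQ) / sQ ≤ 2 * (1 + sQ) ^ 33 := by
  have h1 := sQ_lower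
  have h0 : 0 < sQ := by linarith
  have h2 : (1 + sQ) / sQ ≤ 16 := by
    rw [div_le_iff₀ h0]
    linarith
  have h3 : (16 / 15 : ℝ) ^ 33 ≤ (1 + sQ) ^ 33 := pow_le_pow_left₀ (by norm_num) (by linarith) 33
  have h4 : (8 : ℝ) ≤ (16 / 15 : ℝ) ^ 33 := by norm_num
  linarith

/-- The Hilbert-Schmidt norm after a constant number of steps. -/
theorem hs_const {D j : ℕ} (hjn : j ≤ 2 ^ D) :
    ∑ x, ∑ y, (((Rm (Fin j) D) ^ (2 * (33 + 1))) x y) ^ 2 ≤ (((2 : ℝ) ^ 11) ^ j) ^ 2 := by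
  have : Nonempty (Fin j ↪ Cube D) := Function.Embedding.nonempty_of_card_le (by
    rw [card_cube, Fintype.card_fin]
    exact hjn)
  set s := sQ with hs
  have hs0 : 0 < s := by
    have := sQ_lower
    linarith
  have hs1 : s ≤ 1 := sQ_upper
  have hT : (0 : ℝ) ≤ ((11 : ℕ) : ℝ) := Nat.cast_nonneg _
  have H1 := Rm_HR (ι := Fin j) (D := D) hs0 hT (fun S => ren_hyp D S)
  have H2 := Rm_HR_transpose H1
  set A : ℝ := (2 : ℝ) ^ (s * ((11 : ℕ) : ℝ) * (Fintype.card (Fin j) : ℝ) / (1 + s)) with hA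
  have hA1 : 1 ≤ A := Real.one_le_rpow (by norm_num) (by positivity)
  obtain ⟨_, h2⟩ := hyp_main Rm_DS hs0 hA1 H1 H2 bern_const
  have hΞ : A ^ (1 + (1 + s) / (2 * s)) ≤ ((2 : ℝ) ^ 11) ^ j := by
    rw [hA, ← Real.rpow_mul (by norm_num)]
    have h3 := expo_le (J := (Fintype.card (Fin j) : ℝ)) hs0 hs1 hT (Nat.cast_nonneg _)
    refine (Real.rpow_le_rpow_of_exponent_le (by norm_num) h3).trans (le_of_eq ?_)
    rw [Real.rpow_mul (by norm_num), Real.rpow_natCast, Fintype.card_fin, Real.rpow_natCast]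
  have hΞ0 : 0 ≤ A ^ (1 + (1 + s) / (2 * s)) := by positivity
  exact h2.trans (pow_le_pow_left₀ hΞ0 hΞ 2)

/-- The threshold between the regimes. -/
noncomputable def Thet : ℝ := 16 * Real.exp 1 * Lam ^ 8 * ((2 : ℝ) ^ 11) ^ 2

theorem Thet_pos : 0 < Thet := by
  unfold Thet
  have := Real.exp_pos 1
  have := Lam_pos
  positivity

/-- The estimate in the regime of few cards. -/
theorem flat_num {D j L' : ℕ} (hj1 : 1 ≤ j) (hΘ : (j : ℝ) * Thet ≤ (2 : ℝ) ^ D) (hL' : 8 ≤ L') :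
    (Nat.choose (2 ^ D) j : ℝ) * ((PhQ (2 ^ D) j) ^ L' * (((2 : ℝ) ^ 11) ^ j) ^ 2) ≤ (1 / 16 : ℝ) ^ j := by
  have hN : (0 : ℝ) < (2 : ℝ) ^ D := by positivity
  have hJ : (0 : ℝ) < (j : ℝ) := by exact_mod_cast hj1
  set Y : ℝ := (2 : ℝ) ^ 11 with hY
  have hY0 : 0 < Y := by positivity
  have hL0 := Lam_pos
  have hL1 : 1 ≤ Lam := by
    unfold Lam
    norm_num
  set e : ℝ := Real.exp 1 with he
  have he0 : 0 < e := Real.exp_pos 1
  have he1 : 1 ≤ e := by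
    have := Real.add_one_le_exp (1 : ℝ)
    rw [← he] at this
    linarith
  have hNc : (((2 ^ D : ℕ)) : ℝ) = (2 : ℝ) ^ D := by push_cast; rfl
  set δ : ℝ := (j : ℝ) / (2 : ℝ) ^ D with hδ
  have hδ0 : 0 < δ := by positivity
  have hδΘ : δ * Thet ≤ 1 := by
    rw [hδ, div_mul_eq_mul_div, div_le_one hN]
    exact hΘ
  -- the size of the potential
  set x : ℝ := Lam * rt4 δ with hx
  have hx0 : 0 ≤ x := mul_nonneg hL0.le (rt4_nonneg _)
  have hx8 : x ^ 8 = Lam ^ 8 * δ ^ 2 := by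
    have h1 : rt4 δ ^ 4 = δ := rt4_pow4 hδ0.le
    rw [hx, mul_pow]
    congr 1
    calc rt4 δ ^ 8 = (rt4 δ ^ 4) ^ 2 := by ring
      _ = δ ^ 2 := by rw [h1]
  have hΦ : PhQ (2 ^ D) j ≤ x ^ j := by
    unfold PhQ
    split_ifs with h
    · exact pow_nonneg hx0 _
    · rw [hx, mul_pow]
      have h3 : rt4 (((j : ℝ) / ((2 ^ D : ℕ) : ℝ)) ^ j) = rt4 δ ^ j := by
        rw [hNc, rt4_pow hδ0.le]
      rw [h3]
      refine div_le_self (mul_nonneg (pow_nonneg hL0.le j) (pow_nonneg (rt4_nonneg _) j)) ?_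
      exact one_le_pow₀ (by
        have : (0 : ℝ) ≤ (j : ℝ) := Nat.cast_nonneg j
        linarith)
  have hΦ0 := PhQ_nonneg (2 ^ D) j
  -- the base is small
  have hΘbig : Lam ^ 4 ≤ Thet := by
    unfold Thet
    have h1 : Lam ^ 4 ≤ Lam ^ 8 := pow_le_pow_right₀ hL1 (by norm_num)
    have h2 : (1 : ℝ) ≤ 16 * e * (Y ^ 2) := by
      have h3 : (1 : ℝ) ≤ Y ^ 2 := one_le_pow₀ (by rw [hY]; norm_num)
      nlinarith
    have h3 : (0 : ℝ) ≤ Lam ^ 8 := by positivity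
    nlinarith
  have hx1 : x ≤ 1 := by
    have h1 : x ^ 4 ≤ 1 := by
      have h2 : rt4 δ ^ 4 = δ := rt4_pow4 hδ0.le
      rw [hx, mul_pow, h2]
      nlinarith
    by_contra h
    push Not at h
    have := one_lt_pow₀ h (by norm_num : (4 : ℕ) ≠ 0)
    linarith
  have hpow : (PhQ (2 ^ D) j) ^ L' ≤ (x ^ 8) ^ j := by
    calc (PhQ (2 ^ D) j) ^ L' ≤ (x ^ j) ^ L' := pow_le_pow_left₀ hΦ0 hΦ L'
      _ = (x ^ L') ^ j := by rw [← pow_mul, ← pow_mul, mul_comm]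
      _ ≤ (x ^ 8) ^ j := pow_le_pow_left₀ (by positivity) (pow_le_pow_of_le_one hx0 hx1 hL') j
  -- the binomial coefficient
  have hC := choose_bound (2 ^ D) j hj1
  rw [hNc, ← he] at hC
  have hC' : (Nat.choose (2 ^ D) j : ℝ) ≤ (e / δ) ^ j := by
    refine hC.trans (le_of_eq ?_)
    congr 1
    rw [hδ]
    field_simp
  have hY2j : (Y ^ j) ^ 2 = (Y ^ 2) ^ j := pow_right_comm Y j 2
  calc (Nat.choose (2 ^ D) j : ℝ) * ((PhQ (2 ^ D) j) ^ L' * (Y ^ j) ^ 2)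
      ≤ (e / δ) ^ j * ((x ^ 8) ^ j * (Y ^ 2) ^ j) := by
        rw [hY2j]
        refine mul_le_mul hC' ?_ (by positivity) (by positivity)
        exact mul_le_mul_of_nonneg_right hpow (by positivity)
    _ = ((e / δ) * (x ^ 8) * Y ^ 2) ^ j := by
        rw [mul_pow (e / δ * x ^ 8), mul_pow (e / δ)]
        ring
    _ ≤ (1 / 16 : ℝ) ^ j := by
        refine pow_le_pow_left₀ (by positivity) ?_ j
        rw [hx8]
        have hT : Thet = 16 * e * Lam ^ 8 * Y ^ 2 := rfl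
        have h1 : (e / δ) * (Lam ^ 8 * δ ^ 2) * Y ^ 2 = (δ * Thet) / 16 := by
          rw [hT]
          field_simp
        rw [h1]
        linarith

/-- The estimate in the regime of many cards. -/
theorem central_num {D j L M : ℕ} {Y Θ : ℝ} (hY : 1 ≤ Y) (hΘ0 : 0 < Θ) (hj1 : 1 ≤ j)
    (hΘ : (2 : ℝ) ^ D ≤ (j : ℝ) * Θ) (hM : 144 * M ≤ L)
    (hnum : Real.exp 1 * Θ * Y ^ 2 * (1 / 2 : ℝ) ^ M ≤ 1 / 16) :
    (Nat.choose (2 ^ D) j : ℝ) * ((Real.exp (-((j : ℝ) / 144))) ^ L * (Y ^ j) ^ 2)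
      ≤ (1 / 16 : ℝ) ^ j := by
  have hJ : (0 : ℝ) < (j : ℝ) := by exact_mod_cast hj1
  have hY0 : 0 < Y := by linarith
  have hC := choose_bound (2 ^ D) j hj1
  rw [show (((2 ^ D : ℕ)) : ℝ) = (2 : ℝ) ^ D by push_cast; rfl] at hC
  set e : ℝ := Real.exp 1 with he
  have he0 : 0 < e := Real.exp_pos 1
  have hC2 : (Nat.choose (2 ^ D) j : ℝ) ≤ (e * Θ) ^ j := by
    refine hC.trans (pow_le_pow_left₀ (by positivity) ?_ j)
    refine mul_le_mul_of_nonneg_left ?_ he0.le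
    rw [div_le_iff₀ hJ, mul_comm]
    exact hΘ
  have hexp : (Real.exp (-((j : ℝ) / 144))) ^ L ≤ ((1 / 2 : ℝ) ^ M) ^ j := by
    rw [← Real.exp_nat_mul]
    have h1 : (L : ℝ) * (-((j : ℝ) / 144)) ≤ (j : ℝ) * (-(M : ℝ)) := by
      have h2 : (144 : ℝ) * (M : ℝ) ≤ (L : ℝ) := by exact_mod_cast hM
      nlinarith
    refine (Real.exp_le_exp.2 h1).trans ?_
    have h3 : Real.exp ((j : ℝ) * (-(M : ℝ))) = (Real.exp (-(M : ℝ))) ^ j := by
      rw [← Real.exp_nat_mul]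
    rw [h3]
    refine pow_le_pow_left₀ (Real.exp_pos _).le ?_ j
    have h4 : Real.exp (-(M : ℝ)) = (Real.exp (-1)) ^ M := by
      rw [← Real.exp_nat_mul]
      congr 1
      ring
    rw [h4]
    refine pow_le_pow_left₀ (Real.exp_pos _).le ?_ M
    rw [Real.exp_neg, one_div]
    refine inv_anti₀ (by norm_num) ?_
    have := Real.exp_one_gt_d9
    linarith
  have hY2j : (Y ^ j) ^ 2 = (Y ^ 2) ^ j := by
    rw [← pow_mul, ← pow_mul, mul_comm]
  have h0 : 0 ≤ e * Θ * Y ^ 2 * (1 / 2 : ℝ) ^ M := by positivity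
  calc (Nat.choose (2 ^ D) j : ℝ) * ((Real.exp (-((j : ℝ) / 144))) ^ L * (Y ^ j) ^ 2)
      ≤ (e * Θ) ^ j * (((1 / 2 : ℝ) ^ M) ^ j * (Y ^ 2) ^ j) := by
        rw [hY2j]
        refine mul_le_mul hC2 ?_ (by positivity) (by positivity)
        exact mul_le_mul_of_nonneg_right hexp (by positivity)
    _ = (e * Θ * Y ^ 2 * (1 / 2 : ℝ) ^ M) ^ j := by
        rw [mul_pow (e * Θ * Y ^ 2), mul_pow (e * Θ)]
        ring
    _ ≤ (1 / 16 : ℝ) ^ j := pow_le_pow_left₀ h0 hnum j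

theorem central_cond' :
    Real.exp 1 * Thet * ((2 : ℝ) ^ 11) ^ 2 * (1 / 2 : ℝ) ^ 248 ≤ 1 / 16 := by
  have he : Real.exp 1 ≤ 4 := by
    have := Real.exp_one_lt_d9
    linarith
  have he0 := Real.exp_pos 1
  unfold Thet Lam
  have h1 : Real.exp 1 * (16 * Real.exp 1 * ((2 : ℝ) ^ 24) ^ 8 * ((2 : ℝ) ^ 11) ^ 2) * ((2 : ℝ) ^ 11) ^ 2 * (1 / 2 : ℝ) ^ 248
      = (Real.exp 1 * Real.exp 1) * (16 * ((2 : ℝ) ^ 24) ^ 8 * ((2 : ℝ) ^ 11) ^ 4 * (1 / 2 : ℝ) ^ 248) := by ring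
  rw [h1]
  have h2 : Real.exp 1 * Real.exp 1 ≤ 4 * 4 := mul_le_mul he he he0.le (by norm_num)
  have h3 : (16 * ((2 : ℝ) ^ 24) ^ 8 * ((2 : ℝ) ^ 11) ^ 4 * (1 / 2 : ℝ) ^ 248) = 1 / 256 := by norm_num
  rw [h3]
  nlinarith

/-- **The bound for the trace on each layer.** -/
theorem level_linear {D j : ℕ} (hjn : j ≤ 2 ^ D) :
    LinearMap.trace ℝ (Ej (Cube D) j) ((XLin D 36000).restrict (XLin_mem j 36000))
      ≤ (1 / 16 : ℝ) ^ j := by
  rcases Nat.eq_zero_or_pos j with rfl | hj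
  · have hc : ∀ h ∈ Vtop (Fin 0) (Cube D), ‖Rop D (pT (Fin 0) D) h‖ ^ 2 ≤ (1 : ℝ) * ‖h‖ ^ 2 := by
      intro h _
      rw [one_mul]
      exact pow_le_pow_left₀ (norm_nonneg _) (norm_Rop_le isOrth_piT h) 2
    have hHS : ∑ x, ∑ y, (((Rm (Fin 0) D) ^ 0) x y) ^ 2 ≤ (1 : ℝ) := by
      simp
    have h := trace_level (D := D) (j := 0) zero_le_one hc (L₀ := 0) (L := 36000) (Nat.zero_le _) hHS
    simpa using h
  · have h2 := hs_const (D := D) hjn
    have hne : Nonempty (Fin j ↪ Cube D) := Function.Embedding.nonempty_of_card_le (by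
      rw [card_cube, Fintype.card_fin]
      exact hjn)
    have hY : (1 : ℝ) ≤ (2 : ℝ) ^ 11 := by norm_num
    by_cases hΘ : (j : ℝ) * Thet ≤ (2 : ℝ) ^ D
    · have hc : ∀ h ∈ Vtop (Fin j) (Cube D), ‖Rop D (pT (Fin j) D) h‖ ^ 2 ≤ PhQ (2 ^ D) j * ‖h‖ ^ 2 := by
        intro h hh
        have := Vtop_contr (ι := Fin j) hh
        rwa [Fintype.card_fin] at this
      have h3 := trace_level (D := D) (j := j) (PhQ_nonneg _ _) hc (L := 36000) (by norm_num) h2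
      exact h3.trans (flat_num hj hΘ (by norm_num))
    · push Not at hΘ
      have hc : ∀ h ∈ Vtop (Fin j) (Cube D), ‖Rop D (pT (Fin j) D) h‖ ^ 2
          ≤ Real.exp (-((j : ℝ) / 144)) * ‖h‖ ^ 2 := by
        intro h hh
        obtain ⟨j', rfl⟩ : ∃ j', j = j' + 1 := ⟨j - 1, by omega⟩
        refine (central_decay (ι := Fin (j' + 1)) (j := j') (Fintype.card_fin _) hjn hh).trans ?_
        refine mul_le_mul_of_nonneg_right (Real.exp_le_exp.2 ?_) (by positivity)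
        have hJ0 : (0 : ℝ) ≤ (j' : ℝ) + 1 := by positivity
        have hJn : (j' : ℝ) + 1 ≤ (2 : ℝ) ^ D := by exact_mod_cast hjn
        have hmin : ((j' : ℝ) + 1) / 2 ≤ min ((j' : ℝ) + 1) (((2 : ℝ) ^ D) / 2) := by
          apply le_min <;> linarith
        push_cast
        linarith
      have h3 := trace_level (D := D) (j := j) (Real.exp_pos _).le hc (L := 36000) (by norm_num) h2
      exact h3.trans (central_num hY Thet_pos hj hΘ.le (M := 248) (by norm_num) central_cond')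

/-- **Thorp's shuffle mixes in time linear in the dimension.** -/
theorem thorp_linear36k (d t : ℕ) (ht : 36000 * (d + 1) ≤ t) :
    tvUniform (convPow (thorpLaw (2 ^ d)) t) ≤ 1 / 4 := by
  refine mix_of_layers (L := 36000) (b := fun j => (1 / 16 : ℝ) ^ j)
    (fun j hj => level_linear hj) ?_ (by rw [mul_comm]; exact ht)
  rw [geom_sum_eq (by norm_num)]
  have h1 : (0 : ℝ) ≤ (1 / 16 : ℝ) ^ (2 ^ (d + 1) + 1) := by positivity
  rw [div_le_iff_of_neg (by norm_num)]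
  norm_num
  nlinarith

end Vale.Agent.Lib.P162
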