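import Vale.Agent.Lib.P162.NTop

/-! The row bounds for the matrix of the network and the decay on flat eigenfunctions. -/

namespace Vale.Agent.Lib.P162

open Equiv Finset Matrix

set_option linter.unusedSectionVars false

open scoped Classical

section adjoint

variable {E : Type*} [NormedAddCommGroup E] [InnerProductSpace ℝ E] {D : ℕ}

/-- The adjoint of the network operator. -/
noncomputable def RopA (D : ℕ) (π : Perm (Cube D) →* (E →L[ℝ] E)) : E →L[ℝ] E :=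
  ((Fintype.card (NC D) : ℝ)⁻¹) • ∑ ω : NC D, π (net D ω)⁻¹

theorem inner_Rop_left {π : Perm (Cube D) →* (E →L[ℝ] E)} (hπ : IsOrth π) (u v : E) :
    inner ℝ (Rop D π u) v = inner ℝ u (RopA D π v) := by
  rw [Rop_eq_avg]
  unfold RopA
  simp only [_root_.smul_apply, _root_.sum_apply, inner_smul_left, inner_smul_right, sum_inner,
    inner_sum]
  simp only [map_inv₀, conj_trivial]
  congr 1
  refine Finset.sum_congr rfl (fun ω _ => ?_)
  exact inner_pi_left hπ _ _ _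

theorem inner_RopA_left {π : Perm (Cube D) →* (E →L[ℝ] E)} (hπ : IsOrth π) (u v : E) :
    inner ℝ (RopA D π u) v = inner ℝ u (Rop D π v) := by
  rw [real_inner_comm, ← inner_Rop_left hπ, real_inner_comm]

/-- The symmetrised operator. -/
noncomputable def Bop (D : ℕ) (π : Perm (Cube D) →* (E →L[ℝ] E)) : E →L[ℝ] E := RopA D π * Rop D π

theorem Bop_apply (π : Perm (Cube D) →* (E →L[ℝ] E)) (u : E) :
    Bop D π u = RopA D π (Rop D π u) := rfl

theorem symOp_Bop {π : Perm (Cube D) →* (E →L[ℝ] E)} (hπ : IsOrth π) : SymOp (Bop D π) := by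
  intro u v
  rw [Bop_apply, Bop_apply, inner_RopA_left hπ, inner_Rop_left hπ]

theorem inner_Bop {π : Perm (Cube D) →* (E →L[ℝ] E)} (hπ : IsOrth π) (u : E) :
    inner ℝ u (Bop D π u) = ‖Rop D π u‖ ^ 2 := by
  rw [Bop_apply, ← inner_Rop_left hπ, real_inner_self_eq_norm_sq]

end adjoint

section inv

variable {ι : Type*} [Fintype ι] [DecidableEq ι] {D : ℕ}

theorem Rop_mem_Vtop {h : TupE ι (Cube D)} (hh : h ∈ Vtop ι (Cube D)) :
    Rop D (piT : Perm (Cube D) →* (TupE ι (Cube D) →L[ℝ] TupE ι (Cube D))) h ∈ Vtop ι (Cube D) := by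
  rw [Rop_eq_avg, _root_.smul_apply]
  refine Submodule.smul_mem _ _ ?_
  rw [_root_.sum_apply]
  exact Submodule.sum_mem _ (fun ω _ => piT_mem_Vtop _ hh)

theorem RopA_mem_Vtop {h : TupE ι (Cube D)} (hh : h ∈ Vtop ι (Cube D)) :
    RopA D (piT : Perm (Cube D) →* (TupE ι (Cube D) →L[ℝ] TupE ι (Cube D))) h ∈ Vtop ι (Cube D) := by
  unfold RopA
  rw [_root_.smul_apply]
  refine Submodule.smul_mem _ _ ?_
  rw [_root_.sum_apply]
  exact Submodule.sum_mem _ (fun ω _ => piT_mem_Vtop _ hh)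

theorem Bop_mem_Vtop {h : TupE ι (Cube D)} (hh : h ∈ Vtop ι (Cube D)) :
    Bop D (piT : Perm (Cube D) →* (TupE ι (Cube D) →L[ℝ] TupE ι (Cube D))) h ∈ Vtop ι (Cube D) :=
  RopA_mem_Vtop (Rop_mem_Vtop hh)

end inv

/-- The tuple representation with explicit types. -/
noncomputable abbrev pT (ι : Type*) [Fintype ι] [DecidableEq ι] (D : ℕ) :
    Perm (Cube D) →* (TupE ι (Cube D) →L[ℝ] TupE ι (Cube D)) := piT

theorem Rop_pow_mem_Vtop {ι : Type*} [Fintype ι] [DecidableEq ι] {D : ℕ} (k : ℕ)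
    {h : TupE ι (Cube D)} (hh : h ∈ Vtop ι (Cube D)) :
    (Rop D (pT ι D) ^ k) h ∈ Vtop ι (Cube D) := by
  induction k with
  | zero => simpa using hh
  | succ k ih =>
    rw [pow_succ']
    exact Rop_mem_Vtop ih

section matrix

variable {ι : Type*} [Fintype ι] [LinearOrder ι] {D : ℕ}

/-- The network operator on tuples, as a function. -/
theorem Rop_coe (h : TupE ι (Cube D)) :
    ((Rop D (piT : Perm (Cube D) →* (TupE ι (Cube D) →L[ℝ] TupE ι (Cube D))) h : TupE ι (Cube D)) :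
      (ι ↪ Cube D) → ℝ) = (Rm ι D).mulVec h := by
  funext a
  exact Rop_piT_apply h a

theorem RopA_piT_apply (h : TupE ι (Cube D)) (a : ι ↪ Cube D) :
    (RopA D (piT : Perm (Cube D) →* (TupE ι (Cube D) →L[ℝ] TupE ι (Cube D))) h) a
      = (Rm ι D)ᵀ.mulVec h a := by
  have h1 := inner_RopA_left (D := D) (isOrth_piT (ι := ι) (Q := Cube D)) h (deltaT a)
  rw [inner_deltaT', inner_eq_sum] at h1
  rw [h1]
  simp only [Matrix.mulVec, dotProduct, Matrix.transpose_apply]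
  refine Finset.sum_congr rfl (fun y _ => ?_)
  rw [Rop_piT_apply, mulVec_deltaT, mul_comm]

theorem Bop_piT_apply (h : TupE ι (Cube D)) (a : ι ↪ Cube D) :
    (Bop D (piT : Perm (Cube D) →* (TupE ι (Cube D) →L[ℝ] TupE ι (Cube D))) h) a
      = ((Rm ι D)ᵀ * Rm ι D).mulVec h a := by
  rw [Bop_apply, RopA_piT_apply, ← Matrix.mulVec_mulVec]
  congr 2
  exact Rop_coe h

theorem Bop_pow_piT_apply (k : ℕ) (h : TupE ι (Cube D)) (a : ι ↪ Cube D) :
    ((Bop D (piT : Perm (Cube D) →* (TupE ι (Cube D) →L[ℝ] TupE ι (Cube D)))) ^ k) h a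
      = (((Rm ι D)ᵀ * Rm ι D) ^ k).mulVec h a := by
  induction k generalizing a with
  | zero => simp
  | succ k ih =>
    rw [pow_succ' (Bop D (pT ι D))]
    change (Bop D (pT ι D) (((Bop D (pT ι D)) ^ k) h)) a = _
    have hf : ((((Bop D (pT ι D)) ^ k) h : TupE ι (Cube D)) : (ι ↪ Cube D) → ℝ)
        = (((Rm ι D)ᵀ * Rm ι D) ^ k).mulVec h := funext ih
    rw [Bop_piT_apply, hf, Matrix.mulVec_mulVec, pow_succ']

theorem Rop_pow_piT_apply (k : ℕ) (h : TupE ι (Cube D)) (a : ι ↪ Cube D) :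
    ((Rop D (piT : Perm (Cube D) →* (TupE ι (Cube D) →L[ℝ] TupE ι (Cube D)))) ^ k) h a
      = ((Rm ι D) ^ k).mulVec h a := by
  induction k generalizing a with
  | zero => simp
  | succ k ih =>
    rw [pow_succ' (Rop D (pT ι D))]
    change (Rop D (pT ι D) (((Rop D (pT ι D)) ^ k) h)) a = _
    have hf : ((((Rop D (pT ι D)) ^ k) h : TupE ι (Cube D)) : (ι ↪ Cube D) → ℝ)
        = ((Rm ι D) ^ k).mulVec h := funext ih
    rw [Rop_piT_apply, hf, Matrix.mulVec_mulVec, pow_succ']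

/-- The norm on tuples as a sum of squares. -/
theorem norm_sq_tup (h : TupE ι (Cube D)) : ‖h‖ ^ 2 = ∑ y, h y ^ 2 := by
  rw [EuclideanSpace.real_norm_sq_eq]

/-- The target assignment. -/
noncomputable def yExt (x y : ι ↪ Cube D) (p : Cube D) : Cube D :=
  if h : ∃ c, x c = p then y h.choose else p

theorem yExt_coe (x y : ι ↪ Cube D) (c : ι) : yExt x y (x c) = y c := by
  unfold yExt
  have h : ∃ c', x c' = x c := ⟨c, rfl⟩
  rw [dif_pos h]
  rw [x.injective h.choose_spec]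

theorem ag_iff (x y : ι ↪ Cube D) (β : BC D) :
    Ag D (Finset.univ.image x) (yExt x y) β ↔ ∀ c, ben D β (x c) = y c := by
  unfold Ag
  constructor
  · intro h c
    have := h (x c) (Finset.mem_image_of_mem _ (Finset.mem_univ c))
    rwa [yExt_coe] at this
  · intro h p hp
    obtain ⟨c, _, rfl⟩ := Finset.mem_image.mp hp
    rw [yExt_coe, h c]

theorem Rm_sym_eq_Pa (x y : ι ↪ Cube D) :
    ((Rm ι D)ᵀ * Rm ι D) x y = Pa D (Finset.univ.image x) (yExt x y) := by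
  rw [Rm_sym_apply]
  unfold Pa
  congr 1
  funext β
  by_cases h : ∀ c, ben D β (x c) = y c
  · rw [ind_true' h, if_pos ((ag_iff x y β).mpr h)]
  · rw [ind_false' h, if_neg (fun h2 => h ((ag_iff x y β).mp h2))]

theorem sum_Qa_le {s : ℝ} (x : ι ↪ Cube D) :
    ∑ y : ι ↪ Cube D, Qa s D (Finset.univ.image x) (yExt x y)
      ≤ avg (fun β : BC D => (2 : ℝ) ^ (s * (Cnt 0 D (Finset.univ.image x) β : ℝ))) := by
  unfold Qa
  rw [← avg_sum]
  refine avg_mono (fun β => ?_)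
  rw [← Finset.mul_sum]
  have h1 : ∀ y : ι ↪ Cube D, (if Ag D (Finset.univ.image x) (yExt x y) β then (1 : ℝ) else 0)
      = if y = actE (ben D β) x then 1 else 0 := by
    intro y
    have : Ag D (Finset.univ.image x) (yExt x y) β ↔ y = actE (ben D β) x := by
      rw [ag_iff]
      constructor
      · intro h
        ext c
        rw [actE_apply, h c]
      · intro h c
        rw [h]
        rfl
    simp only [this]
  simp only [h1]
  simp

theorem card_emb_le : (Fintype.card (ι ↪ Cube D) : ℝ) ≤ ((2 : ℝ) ^ D) ^ Fintype.card ι := by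
  have h1 : Fintype.card (ι ↪ Cube D) ≤ Fintype.card (ι → Cube D) :=
    Fintype.card_le_of_injective (fun y : ι ↪ Cube D => (y : ι → Cube D)) DFunLike.coe_injective
  rw [Fintype.card_fun, card_cube] at h1
  exact_mod_cast h1

/-- **The row bound for the symmetrised kernel.** -/
theorem Rm_HR [Nonempty (ι ↪ Cube D)] {s T : ℝ} (hs : 0 < s) (hT : 0 ≤ T)
    (hRen : ∀ S : Finset (Cube D), avg (fun β : BC D => (2 : ℝ) ^ (s * (Cnt 0 D S β : ℝ)))
      ≤ (2 : ℝ) ^ (s * T * (S.card : ℝ))) :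
    HR (Rm ι D) ((2 : ℝ) ^ (s * T * (Fintype.card ι : ℝ) / (1 + s))) s := by
  intro x
  set S := Finset.univ.image x with hS
  have hcard : S.card = Fintype.card ι := by
    rw [hS, Finset.card_image_of_injective _ x.injective, Finset.card_univ]
  set N : ℝ := (Fintype.card (ι ↪ Cube D) : ℝ) with hN
  have hN0 : 0 < N := card_pos_real
  have h20 : (0 : ℝ) < 2 := by norm_num
  have hA : ((2 : ℝ) ^ (s * T * (Fintype.card ι : ℝ) / (1 + s))) ^ (1 + s)
      = (2 : ℝ) ^ (s * T * (Fintype.card ι : ℝ)) := by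
    rw [← Real.rpow_mul h20.le]
    congr 1
    have : (1 + s) ≠ 0 := by linarith
    field_simp
  rw [hA]
  have h1 : ∀ y : ι ↪ Cube D, (N * ((Rm ι D)ᵀ * Rm ι D) x y) ^ (1 + s)
      ≤ N ^ (1 + s) * ((2 : ℝ) ^ (-(s * (S.card : ℝ) * (D : ℝ))) * Qa s D S (yExt x y)) := by
    intro y
    rw [Rm_sym_eq_Pa, Real.mul_rpow hN0.le (Pa_nonneg _ _ _)]
    exact mul_le_mul_of_nonneg_left (jensen_main hs D S _) (by positivity)
  have h2 : avg (fun y : ι ↪ Cube D => (N * ((Rm ι D)ᵀ * Rm ι D) x y) ^ (1 + s))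
      ≤ (N ^ (1 + s) * (2 : ℝ) ^ (-(s * (S.card : ℝ) * (D : ℝ)))
          * avg (fun β : BC D => (2 : ℝ) ^ (s * (Cnt 0 D S β : ℝ)))) / N := by
    rw [avg_def]
    refine div_le_div_of_nonneg_right ?_ hN0.le
    refine (Finset.sum_le_sum (fun y _ => h1 y)).trans ?_
    have h3 := sum_Qa_le (s := s) x
    rw [← hS] at h3
    calc ∑ y : ι ↪ Cube D, N ^ (1 + s) * ((2 : ℝ) ^ (-(s * (S.card : ℝ) * (D : ℝ))) * Qa s D S (yExt x y))
        = N ^ (1 + s) * ((2 : ℝ) ^ (-(s * (S.card : ℝ) * (D : ℝ))) * ∑ y : ι ↪ Cube D, Qa s D S (yExt x y)) := by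
          simp only [Finset.mul_sum]
      _ ≤ N ^ (1 + s) * ((2 : ℝ) ^ (-(s * (S.card : ℝ) * (D : ℝ)))
            * avg (fun β : BC D => (2 : ℝ) ^ (s * (Cnt 0 D S β : ℝ)))) :=
          mul_le_mul_of_nonneg_left (mul_le_mul_of_nonneg_left h3 (by positivity)) (by positivity)
      _ = _ := by ring
  refine h2.trans ?_
  have h3 : N ^ (1 + s) = N * N ^ s := by
    rw [Real.rpow_add hN0, Real.rpow_one]
  have h4 : N ^ s * (2 : ℝ) ^ (-(s * (S.card : ℝ) * (D : ℝ))) ≤ 1 := by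
    have h5 : N ^ s ≤ (((2 : ℝ) ^ D) ^ Fintype.card ι) ^ s :=
      Real.rpow_le_rpow hN0.le card_emb_le hs.le
    have h6 : (((2 : ℝ) ^ D) ^ Fintype.card ι) ^ s = (2 : ℝ) ^ (s * (S.card : ℝ) * (D : ℝ)) := by
      rw [← pow_mul, ← Real.rpow_natCast, ← Real.rpow_mul h20.le, hcard]
      congr 1
      push_cast
      ring
    rw [h6] at h5
    calc N ^ s * (2 : ℝ) ^ (-(s * (S.card : ℝ) * (D : ℝ)))
        ≤ (2 : ℝ) ^ (s * (S.card : ℝ) * (D : ℝ)) * (2 : ℝ) ^ (-(s * (S.card : ℝ) * (D : ℝ))) :=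
          mul_le_mul_of_nonneg_right h5 (by positivity)
      _ = 1 := by
          rw [← Real.rpow_add h20]
          simp
  have h7 : (N ^ (1 + s) * (2 : ℝ) ^ (-(s * (S.card : ℝ) * (D : ℝ)))
          * avg (fun β : BC D => (2 : ℝ) ^ (s * (Cnt 0 D S β : ℝ)))) / N
      = (N ^ s * (2 : ℝ) ^ (-(s * (S.card : ℝ) * (D : ℝ))))
          * avg (fun β : BC D => (2 : ℝ) ^ (s * (Cnt 0 D S β : ℝ))) := by
    rw [h3]
    field_simp
  rw [h7]
  have h8 := hRen S
  rw [hcard] at h8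
  have h9 : 0 ≤ avg (fun β : BC D => (2 : ℝ) ^ (s * (Cnt 0 D S β : ℝ))) :=
    avg_nonneg (fun _ => by positivity)
  calc _ ≤ 1 * avg (fun β : BC D => (2 : ℝ) ^ (s * (Cnt 0 D S β : ℝ))) :=
        mul_le_mul_of_nonneg_right h4 h9
    _ ≤ _ := by
        rw [one_mul]
        exact h8

/-- The row bound for the other symmetrisation. -/
theorem Rm_HR_transpose {A s : ℝ} (H : HR (Rm ι D) A s) : HR (Rm ι D)ᵀ A s := by
  intro x
  rw [Matrix.transpose_transpose]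
  have h1 : ∀ y, (Fintype.card (ι ↪ Cube D) : ℝ) * (Rm ι D * (Rm ι D)ᵀ) x y
      = (Fintype.card (ι ↪ Cube D) : ℝ) * ((Rm ι D)ᵀ * Rm ι D) (actE (revP D) x) (actE (revP D) y) := by
    intro y
    rw [Rm_sym_rev]
  simp only [h1]
  have h2 := avg_equiv (actE (ι := ι) (revP D))
    (fun y => ((Fintype.card (ι ↪ Cube D) : ℝ) * ((Rm ι D)ᵀ * Rm ι D) (actE (revP D) x) y) ^ (1 + s))
  rw [h2]
  exact H _


/-- The bound of the sum against flat functions, as a number. -/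
noncomputable def Bd (ι : Type*) [Fintype ι] (D : ℕ) : ℝ :=
  2 * (8 : ℝ) ^ Fintype.card ι * ((2 : ℝ) ^ D) ^ Fintype.card ι
    * qq ι D ^ ((Fintype.card ι + 7) / 8)

theorem Bd_nonneg : 0 ≤ Bd ι D := by
  unfold Bd
  have := qq_nonneg (ι := ι) (D := D)
  positivity

theorem Bop_pow_eigen {g : TupE ι (Cube D)} {μ : ℝ} (heig : Bop D (pT ι D) g = μ • g) (k : ℕ) :
    ((Bop D (pT ι D)) ^ k) g = μ ^ k • g := by
  induction k with
  | zero => simp
  | succ k ih =>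
    rw [pow_succ, pow_succ']
    change ((Bop D (pT ι D)) ^ k) (Bop D (pT ι D) g) = _
    rw [heig, map_smul, ih, smul_smul]

theorem abs_mulVec_le {K : Matrix (ι ↪ Cube D) (ι ↪ Cube D) ℝ} (hK : ∀ x y, 0 ≤ K x y)
    (f : (ι ↪ Cube D) → ℝ) (x : ι ↪ Cube D) :
    |K.mulVec f x| ≤ K.mulVec (fun y => |f y|) x := by
  simp only [Matrix.mulVec, dotProduct]
  refine (Finset.abs_sum_le_sum_abs _ _).trans (Finset.sum_le_sum (fun y _ => ?_))
  rw [abs_mul, abs_of_nonneg (hK x y)]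

/-- The main inequality for eigenfunctions. -/
theorem flat_eig [Nonempty (ι ↪ Cube D)] {Ξ : ℝ} {m : ℕ}
    (hΞ : ∀ f : (ι ↪ Cube D) → ℝ, (∀ x, 0 ≤ f x) → ∀ x,
      (((Rm ι D)ᵀ * Rm ι D) ^ (m + 1)).mulVec f x ≤ Ξ * nrm 2 f)
    {g : TupE ι (Cube D)} (hg : g ∈ Vtop ι (Cube D)) (hnorm : ‖g‖ = 1) {μ : ℝ}
    (heig : Bop D (pT ι D) g = μ • g) :
    μ ^ (2 * m + 3) ≤ Ξ ^ 2 / (Fintype.card (ι ↪ Cube D) : ℝ) * Bd ι D := by
  have hπ := isOrth_piT (ι := ι) (Q := Cube D)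
  set N : ℝ := (Fintype.card (ι ↪ Cube D) : ℝ) with hN
  have hN0 : 0 < N := card_pos_real
  have hμ : μ = ‖Rop D (pT ι D) g‖ ^ 2 := by
    rw [← inner_Bop hπ, heig, inner_smul_right, real_inner_self_eq_norm_sq, hnorm]
    simp
  have hμ0 : 0 ≤ μ := by
    rw [hμ]
    positivity
  -- the pointwise bound
  have hnrm : nrm 2 (fun y => |g y|) = (1 / N) ^ (1 / 2 : ℝ) := by
    unfold nrm
    congr 1
    unfold avg
    have h1 : ∀ y, |g y| ^ (2 : ℝ) = g y ^ 2 := by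
      intro y
      rw [Real.rpow_two, sq_abs]
    simp only [h1]
    rw [← norm_sq_tup, hnorm]
    simp [hN]
  have hpt : ∀ x : ι ↪ Cube D, μ ^ (m + 1) * |g x| ≤ Ξ * (1 / N) ^ (1 / 2 : ℝ) := by
    intro x
    have h1 := Bop_pow_piT_apply (m + 1) g x
    have h2 : (((Bop D (pT ι D)) ^ (m + 1)) g) x = μ ^ (m + 1) * g x := by
      rw [Bop_pow_eigen heig]
      simp
    have h3 : μ ^ (m + 1) * |g x| = |(((Rm ι D)ᵀ * Rm ι D) ^ (m + 1)).mulVec g x| := by
      have h4 : (((Rm ι D)ᵀ * Rm ι D) ^ (m + 1)).mulVec g x = μ ^ (m + 1) * g x := by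
        rw [← h2]
        exact h1.symm
      rw [h4, abs_mul, abs_of_nonneg (pow_nonneg hμ0 _)]
    rw [h3]
    have hM := ((Rm_DS (ι := ι) (D := D)).transpose.mul Rm_DS).pow (m + 1)
    refine (abs_mulVec_le hM.nonneg g x).trans ?_
    have h5 := hΞ (fun y => |g y|) (fun y => abs_nonneg _) x
    rwa [hnrm] at h5
  set G₁ : ℝ := Ξ * (1 / N) ^ (1 / 2 : ℝ) with hG₁
  have hG₁0 : 0 ≤ G₁ := by
    obtain ⟨x⟩ := (inferInstance : Nonempty (ι ↪ Cube D))
    refine le_trans ?_ (hpt x)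
    exact mul_nonneg (pow_nonneg hμ0 _) (abs_nonneg _)
  have hG₁2 : G₁ ^ 2 = Ξ ^ 2 / N := by
    rw [hG₁, mul_pow, ← Real.rpow_natCast ((1 / N) ^ (1 / 2 : ℝ)), ← Real.rpow_mul (by positivity)]
    norm_num
    rw [div_eq_mul_inv]
  set g' : TupE ι (Cube D) := μ ^ (m + 1) • g with hg'
  have hg'V : g' ∈ Vtop ι (Cube D) := Submodule.smul_mem _ _ hg
  have hval : ∀ y : ι ↪ Cube D, g' y = μ ^ (m + 1) * g y := by
    intro y
    simp [hg']
  have hstar := sparse_star (g := extZ (g' : (ι ↪ Cube D) → ℝ)) (fun x hx => extZ_of_not_inj _ hx)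
    hg'V (G := G₁) (by
      intro x
      by_cases hx : Function.Injective x
      · have : extZ (g' : (ι ↪ Cube D) → ℝ) x = g' ⟨x, hx⟩ := extZ_coe _ ⟨x, hx⟩
        rw [this, hval, abs_mul, abs_of_nonneg (pow_nonneg hμ0 _)]
        exact hpt ⟨x, hx⟩
      · rw [extZ_of_not_inj _ hx, abs_zero]
        exact hG₁0)
  have hlow : ‖Rop D (pT ι D) g'‖ ^ 2
      ≤ ∑ w : ι → Cube D, (∑ x, Ev D Finset.univ x w * extZ (g' : (ι ↪ Cube D) → ℝ) x) ^ 2 := by
    refine le_trans (le_of_eq ?_) (sum_inj_le _ (fun w => sq_nonneg _))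
    rw [norm_sq_tup]
    refine Finset.sum_congr rfl (fun a _ => ?_)
    congr 1
    rw [Rop_piT_apply]
    simp only [Matrix.mulVec, dotProduct]
    rw [sum_of_inj _ (fun x hx => by rw [extZ_of_not_inj _ hx, mul_zero])]
    refine Finset.sum_congr rfl (fun y _ => ?_)
    rw [extZ_coe]
    rfl
  have hnorm' : ‖Rop D (pT ι D) g'‖ ^ 2 = μ ^ (2 * m + 3) := by
    rw [hg', map_smul, norm_smul, mul_pow, ← hμ, Real.norm_eq_abs, sq_abs]
    ring
  rw [← hnorm']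
  refine hlow.trans (hstar.trans (le_of_eq ?_))
  rw [hG₁2]
  rfl

/-- **The decay on the subspace, from flatness.** -/
theorem flat_contr [Nonempty (ι ↪ Cube D)] {Ξ : ℝ} {m : ℕ}
    (hΞ : ∀ f : (ι ↪ Cube D) → ℝ, (∀ x, 0 ≤ f x) → ∀ x,
      (((Rm ι D)ᵀ * Rm ι D) ^ (m + 1)).mulVec f x ≤ Ξ * nrm 2 f)
    {v : TupE ι (Cube D)} (hv : v ∈ Vtop ι (Cube D)) :
    ‖Rop D (pT ι D) v‖ ^ 2
      ≤ (Ξ ^ 2 / (Fintype.card (ι ↪ Cube D) : ℝ) * Bd ι D) ^ (1 / ((2 * m + 3 : ℕ) : ℝ)) * ‖v‖ ^ 2 := by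
  have hπ := isOrth_piT (ι := ι) (Q := Cube D)
  set B : ℝ := Ξ ^ 2 / (Fintype.card (ι ↪ Cube D) : ℝ) * Bd ι D with hB
  have hB0 : 0 ≤ B := mul_nonneg (by positivity) Bd_nonneg
  set ρ : ℝ := B ^ (1 / ((2 * m + 3 : ℕ) : ℝ)) with hρ
  have hρ0 : 0 ≤ ρ := Real.rpow_nonneg hB0 _
  set A : TupE ι (Cube D) →L[ℝ] TupE ι (Cube D) := (-1 : ℝ) • Bop D (pT ι D) with hA
  have hAs : SymOp A := (symOp_Bop hπ).smul _
  have hAU : ∀ w ∈ Vtop ι (Cube D), A w ∈ Vtop ι (Cube D) := by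
    intro w hw
    rw [hA, _root_.smul_apply]
    exact Submodule.smul_mem _ _ (Bop_mem_Vtop hw)
  have hray := rayleigh_of_eigen hAs (Vtop ι (Cube D)) hAU (-ρ) (by
    intro g hg hg0 μ hμ
    have hn : ‖g‖ ≠ 0 := norm_ne_zero_iff.mpr hg0
    have hBg : Bop D (pT ι D) g = (-μ) • g := by
      have : A g = (-1 : ℝ) • Bop D (pT ι D) g := rfl
      rw [this] at hμ
      have h2 := congrArg (fun u => (-1 : ℝ) • u) hμ
      simpa [smul_smul] using h2
    set g₀ : TupE ι (Cube D) := ‖g‖⁻¹ • g with hg₀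
    have hg₀V : g₀ ∈ Vtop ι (Cube D) := Submodule.smul_mem _ _ hg
    have hg₀n : ‖g₀‖ = 1 := by
      rw [hg₀, norm_smul, norm_inv, norm_norm, inv_mul_cancel₀ hn]
    have hg₀e : Bop D (pT ι D) g₀ = (-μ) • g₀ := by
      rw [hg₀, map_smul, hBg, smul_comm]
    have hfl := flat_eig hΞ hg₀V hg₀n hg₀e
    by_cases hμ0 : 0 ≤ -μ
    · have h1 : ((-μ) ^ (2 * m + 3)) ^ (1 / ((2 * m + 3 : ℕ) : ℝ)) = -μ := by
        rw [← Real.rpow_natCast, ← Real.rpow_mul hμ0]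
        have : ((2 * m + 3 : ℕ) : ℝ) ≠ 0 := by positivity
        rw [mul_one_div_cancel this, Real.rpow_one]
      have h2 := Real.rpow_le_rpow (pow_nonneg hμ0 _) hfl
        (by positivity : (0 : ℝ) ≤ 1 / ((2 * m + 3 : ℕ) : ℝ))
      rw [h1] at h2
      linarith
    · push Not at hμ0
      linarith) v hv
  have h1 : inner ℝ v (A v) = -‖Rop D (pT ι D) v‖ ^ 2 := by
    rw [hA, _root_.smul_apply, inner_smul_right, inner_Bop hπ]
    ring
  rw [h1] at hray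
  linarith

end matrix

end Vale.Agent.Lib.P162
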