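import Vale.Agent.Lib.P162.NAvg

/-! Improvement of integrability for doubly stochastic matrices, from a row bound for the
symmetrised kernel. -/

namespace Vale.Agent.Lib.P162

open Matrix Finset

set_option linter.unusedSectionVars false

variable {X : Type*} [Fintype X] [DecidableEq X] [Nonempty X]

/-- Doubly stochastic matrices. -/
structure DS (K : Matrix X X ℝ) : Prop where
  nonneg : ∀ x y, 0 ≤ K x y
  row : ∀ x, ∑ y, K x y = 1
  col : ∀ y, ∑ x, K x y = 1

theorem DS.transpose {K : Matrix X X ℝ} (h : DS K) : DS Kᵀ :=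
  ⟨fun x y => h.nonneg y x, fun x => h.col x, fun y => h.row y⟩

theorem DS.one : DS (1 : Matrix X X ℝ) := by
  refine ⟨fun x y => ?_, fun x => ?_, fun y => ?_⟩
  · rw [Matrix.one_apply]
    split_ifs <;> norm_num
  · simp [Matrix.one_apply]
  · simp [Matrix.one_apply]

theorem DS.mul {K L : Matrix X X ℝ} (hK : DS K) (hL : DS L) : DS (K * L) := by
  refine ⟨fun x y => ?_, fun x => ?_, fun y => ?_⟩
  · rw [Matrix.mul_apply]
    exact Finset.sum_nonneg (fun z _ => mul_nonneg (hK.nonneg _ _) (hL.nonneg _ _))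
  · simp only [Matrix.mul_apply]
    rw [Finset.sum_comm]
    simp only [← Finset.mul_sum, hL.row, mul_one, hK.row]
  · simp only [Matrix.mul_apply]
    rw [Finset.sum_comm]
    simp only [← Finset.sum_mul, hK.col, one_mul, hL.col]

theorem DS.pow {K : Matrix X X ℝ} (hK : DS K) (n : ℕ) : DS (K ^ n) := by
  induction n with
  | zero => simpa using DS.one
  | succ n ih =>
    rw [pow_succ]
    exact ih.mul hK

theorem DS.mulVec_nonneg {K : Matrix X X ℝ} (hK : DS K) {f : X → ℝ} (hf : ∀ x, 0 ≤ f x) (x : X) :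
    0 ≤ K.mulVec f x := by
  simp only [Matrix.mulVec, dotProduct]
  exact Finset.sum_nonneg (fun y _ => mul_nonneg (hK.nonneg _ _) (hf y))

theorem DS.mulVec_le {K : Matrix X X ℝ} (hK : DS K) {f : X → ℝ} {c : ℝ} (hf : ∀ x, f x ≤ c) (x : X) :
    K.mulVec f x ≤ c := by
  simp only [Matrix.mulVec, dotProduct]
  calc ∑ y, K x y * f y ≤ ∑ y, K x y * c :=
        Finset.sum_le_sum (fun y _ => mul_le_mul_of_nonneg_left (hf y) (hK.nonneg _ _))
    _ = c := by rw [← Finset.sum_mul, hK.row, one_mul]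

/-- Adjointness. -/
theorem avg_mulVec_mul (K : Matrix X X ℝ) (f g : X → ℝ) :
    avg (fun x => K.mulVec f x * g x) = avg (fun y => f y * Kᵀ.mulVec g y) := by
  unfold avg
  congr 1
  simp only [Matrix.mulVec, dotProduct, Finset.sum_mul, Finset.mul_sum, Matrix.transpose_apply]
  rw [Finset.sum_comm]
  refine Finset.sum_congr rfl (fun y _ => Finset.sum_congr rfl (fun x _ => ?_))
  ring

theorem DS.rpow_mulVec_le {K : Matrix X X ℝ} (hK : DS K) {f : X → ℝ} (hf : ∀ x, 0 ≤ f x) {p : ℝ}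
    (hp : 1 ≤ p) (x : X) : K.mulVec f x ^ p ≤ K.mulVec (fun y => f y ^ p) x := by
  simp only [Matrix.mulVec, dotProduct]
  exact Real.rpow_arith_mean_le_arith_mean_rpow Finset.univ (K x) f (fun y _ => hK.nonneg x y)
    (hK.row x) (fun y _ => hf y) hp

theorem DS.avg_mulVec {K : Matrix X X ℝ} (hK : DS K) (f : X → ℝ) :
    avg (K.mulVec f) = avg f := by
  unfold avg
  congr 1
  simp only [Matrix.mulVec, dotProduct]
  rw [Finset.sum_comm]
  simp only [← Finset.sum_mul, hK.col, one_mul]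

/-- The `L^p` norm for the uniform measure. -/
noncomputable def nrm (p : ℝ) (f : X → ℝ) : ℝ := avg (fun x => f x ^ p) ^ (1 / p)

theorem nrm_nonneg (p : ℝ) {f : X → ℝ} (hf : ∀ x, 0 ≤ f x) : 0 ≤ nrm p f := by
  unfold nrm
  exact Real.rpow_nonneg (avg_nonneg (fun x => Real.rpow_nonneg (hf x) _)) _

theorem nrm_mono {p p' : ℝ} (hp : 0 < p) (hpp : p ≤ p') {f : X → ℝ} (hf : ∀ x, 0 ≤ f x) :
    nrm p f ≤ nrm p' f := by
  unfold nrm
  have hp' : 0 < p' := lt_of_lt_of_le hp hpp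
  have h1 : 1 ≤ p' / p := (one_le_div hp).mpr hpp
  have h0 : ∀ x, 0 ≤ f x ^ p := fun x => Real.rpow_nonneg (hf x) _
  have h2 := avg_rpow_le h0 h1
  have h3 : ∀ x, (f x ^ p) ^ (p' / p) = f x ^ p' := by
    intro x
    rw [← Real.rpow_mul (hf x)]
    congr 1
    field_simp
  simp only [h3] at h2
  have h4 := Real.rpow_le_rpow (Real.rpow_nonneg (avg_nonneg h0) _) h2
    (by positivity : 0 ≤ 1 / p')
  rw [← Real.rpow_mul (avg_nonneg h0)] at h4
  have h5 : p' / p * (1 / p') = 1 / p := by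
    field_simp
  rwa [h5] at h4

/-- Young's inequality with three factors. -/
theorem young3 {s : ℝ} (hs : 0 < s) {x y z : ℝ} (hx : 0 ≤ x) (hy : 0 ≤ y) (hz : 0 ≤ z) :
    x * y * z ≤ (1 / (2 * (1 + s))) * (x ^ (1 + s) * y ^ (2 * (1 + s) / (1 + 2 * s)))
      + (1 / (2 * (1 + s))) * (x ^ (1 + s) * z ^ (2 * (1 + s) / (1 + 2 * s)))
      + (s / (1 + s)) * (y ^ (2 * (1 + s) / (1 + 2 * s)) * z ^ (2 * (1 + s) / (1 + 2 * s))) := by
  set r : ℝ := 1 + s with hr
  set q : ℝ := 2 * r / (1 + 2 * s) with hq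
  have hr0 : 0 < r := by linarith
  have hq0 : 0 < q := by positivity
  have hw1 : 0 ≤ 1 / (2 * r) := by positivity
  have hw3 : 0 ≤ s / r := by positivity
  have hsum : 1 / (2 * r) + 1 / (2 * r) + s / r = 1 := by
    rw [hr]
    field_simp
    ring
  have h1 := Real.geom_mean_le_arith_mean3_weighted hw1 hw1 hw3
    (mul_nonneg (Real.rpow_nonneg hx r) (Real.rpow_nonneg hy q))
    (mul_nonneg (Real.rpow_nonneg hx r) (Real.rpow_nonneg hz q))
    (mul_nonneg (Real.rpow_nonneg hy q) (Real.rpow_nonneg hz q)) hsum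
  refine le_trans (le_of_eq ?_) h1
  rw [Real.mul_rpow (Real.rpow_nonneg hx r) (Real.rpow_nonneg hy q),
    Real.mul_rpow (Real.rpow_nonneg hx r) (Real.rpow_nonneg hz q),
    Real.mul_rpow (Real.rpow_nonneg hy q) (Real.rpow_nonneg hz q),
    ← Real.rpow_mul hx, ← Real.rpow_mul hy, ← Real.rpow_mul hz, ← Real.rpow_mul hy,
    ← Real.rpow_mul hz]
  have e1 : r * (1 / (2 * r)) = 1 / 2 := by
    field_simp
  have e2 : 0 ≤ q * (1 / (2 * r)) := by positivity
  have e3 : 0 ≤ q * (s / r) := by positivity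
  have e4 : q * (1 / (2 * r)) + q * (s / r) = 1 := by
    rw [hq]
    field_simp
  rw [e1]
  have ex : x ^ (1 / 2 : ℝ) * x ^ (1 / 2 : ℝ) = x := by
    rw [← Real.rpow_add_of_nonneg hx (by norm_num) (by norm_num)]
    norm_num
  have ey : y ^ (q * (1 / (2 * r))) * y ^ (q * (s / r)) = y := by
    rw [← Real.rpow_add_of_nonneg hy e2 e3, e4, Real.rpow_one]
  have ez : z ^ (q * (1 / (2 * r))) * z ^ (q * (s / r)) = z := by
    rw [← Real.rpow_add_of_nonneg hz e2 e3, e4, Real.rpow_one]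
  calc x * y * z = (x ^ (1 / 2 : ℝ) * x ^ (1 / 2 : ℝ))
        * (y ^ (q * (1 / (2 * r))) * y ^ (q * (s / r)))
        * (z ^ (q * (1 / (2 * r))) * z ^ (q * (s / r))) := by rw [ex, ey, ez]
    _ = _ := by ring

/-- The row bound for the symmetrised kernel. -/
def HR (K : Matrix X X ℝ) (A s : ℝ) : Prop :=
  ∀ x, avg (fun y => ((Fintype.card X : ℝ) * (Kᵀ * K) x y) ^ (1 + s)) ≤ A ^ (1 + s)

theorem l2_expand (K : Matrix X X ℝ) (g : X → ℝ) :
    avg (fun w => K.mulVec g w ^ (2 : ℝ))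
      = avg (fun x => avg (fun y => ((Fintype.card X : ℝ) * (Kᵀ * K) x y) * g x * g y)) := by
  have hN : (0 : ℝ) < Fintype.card X := card_pos_real
  set S : ℝ := ∑ x, ∑ y, (Kᵀ * K) x y * g x * g y with hS
  have h1 : avg (fun w => K.mulVec g w ^ (2 : ℝ)) = S / (Fintype.card X : ℝ) := by
    unfold avg
    congr 1
    simp only [Real.rpow_two, hS, Matrix.mul_apply, Matrix.transpose_apply, Finset.sum_mul,
      Matrix.mulVec, dotProduct, sq, Finset.mul_sum]
    rw [Finset.sum_comm]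
    refine Finset.sum_congr rfl (fun x _ => ?_)
    rw [Finset.sum_comm]
    refine Finset.sum_congr rfl (fun y _ => Finset.sum_congr rfl (fun w _ => ?_))
    ring
  have h2 : avg (fun x => avg (fun y => ((Fintype.card X : ℝ) * (Kᵀ * K) x y) * g x * g y))
      = S / (Fintype.card X : ℝ) := by
    unfold avg
    have h3 : ∀ x, (∑ y, ((Fintype.card X : ℝ) * (Kᵀ * K) x y) * g x * g y) / (Fintype.card X : ℝ)
        = ∑ y, (Kᵀ * K) x y * g x * g y := by
      intro x
      rw [Finset.sum_div]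
      refine Finset.sum_congr rfl (fun y _ => ?_)
      field_simp
    simp only [h3]
    rfl
  rw [h1, h2]

/-- The quadratic form bound from the row bound. -/
theorem l2_q {K : Matrix X X ℝ} (hK : DS K) {A s : ℝ} (hA : 0 < A) (hs : 0 < s) (H : HR K A s)
    {g : X → ℝ} (hg : ∀ x, 0 ≤ g x) :
    avg (fun w => K.mulVec g w ^ (2 : ℝ))
      ≤ A * avg (fun x => g x ^ (2 * (1 + s) / (1 + 2 * s))) ^ (2 / (2 * (1 + s) / (1 + 2 * s))) := by
  have hN : (0 : ℝ) < Fintype.card X := card_pos_real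
  set r : ℝ := 1 + s with hr
  set q : ℝ := 2 * r / (1 + 2 * s) with hq
  have hr0 : 0 < r := by linarith
  have hq0 : 0 < q := by positivity
  set N : ℝ := avg (fun x => g x ^ q) with hNdef
  have hN0 : 0 ≤ N := avg_nonneg (fun x => Real.rpow_nonneg (hg x) _)
  rcases hN0.eq_or_lt with hzero | hpos
  · -- g vanishes
    have hg0 : ∀ x, g x = 0 := by
      have h1 : ∑ x, g x ^ q = 0 := by
        have h2 : (∑ x, g x ^ q) / (Fintype.card X : ℝ) = 0 := hzero.symm
        rcases div_eq_zero_iff.mp h2 with h3 | h3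
        · exact h3
        · exact absurd h3 hN.ne'
      intro x
      have h3 := (Finset.sum_eq_zero_iff_of_nonneg (fun x _ => Real.rpow_nonneg (hg x) q)).mp h1 x
        (Finset.mem_univ x)
      exact (Real.rpow_eq_zero (hg x) hq0.ne').mp h3
    have h1 : ∀ w, K.mulVec g w ^ (2 : ℝ) = 0 := by
      intro w
      simp [Matrix.mulVec, dotProduct, hg0]
    simp only [h1]
    rw [avg_const]
    positivity
  -- the normalised inequality
  rw [l2_expand]
  let ρ : X → X → ℝ := fun x y => (Fintype.card X : ℝ) * (Kᵀ * K) x y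
  have hρ0 : ∀ x y, 0 ≤ ρ x y := fun x y => mul_nonneg hN.le ((hK.transpose.mul hK).nonneg x y)
  have hρs : ∀ x y, ρ x y = ρ y x := by
    intro x y
    simp only [ρ, Matrix.mul_apply, Matrix.transpose_apply]
    congr 1
    refine Finset.sum_congr rfl (fun w _ => ?_)
    ring
  let u : X → ℝ := fun x => g x ^ q / N
  have hu0 : ∀ x, 0 ≤ u x := fun x => div_nonneg (Real.rpow_nonneg (hg x) _) hN0
  have hu1 : avg u = 1 := by
    have : avg u = N * N⁻¹ := by
      change avg (fun x => g x ^ q / N) = _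
      simp only [div_eq_mul_inv]
      rw [avg_mul_right]
    rw [this, mul_inv_cancel₀ hpos.ne']
  let v : X → X → ℝ := fun x y => (ρ x y / A) ^ r
  have hv0 : ∀ x y, 0 ≤ v x y := fun x y => Real.rpow_nonneg (div_nonneg (hρ0 x y) hA.le) _
  have hvs : ∀ x y, v x y = v y x := by
    intro x y
    simp only [v]
    rw [hρs x y]
  have hv1 : ∀ x, avg (v x) ≤ 1 := by
    intro x
    have h1 : ∀ y, v x y = ρ x y ^ r / A ^ r := fun y => Real.div_rpow (hρ0 x y) hA.le r
    have h1' : v x = fun y => ρ x y ^ r * (A ^ r)⁻¹ := by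
      funext y
      rw [h1 y, div_eq_mul_inv]
    rw [h1', avg_mul_right, ← div_eq_mul_inv, div_le_one (by positivity)]
    exact H x
  set c : ℝ := N ^ (1 / q) with hc
  have hc0 : 0 < c := Real.rpow_pos_of_pos hpos _
  have hYq : ∀ x, (g x / c) ^ q = u x := by
    intro x
    rw [Real.div_rpow (hg x) hc0.le, hc, ← Real.rpow_mul hN0]
    have : 1 / q * q = 1 := by field_simp
    rw [this, Real.rpow_one]
  have hcc : c * c = N ^ (2 / q) := by
    rw [hc, ← Real.rpow_add hpos]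
    congr 1
    ring
  have hpt : ∀ x y, ρ x y * g x * g y
      ≤ (A * N ^ (2 / q)) * ((1 / (2 * r)) * (v x y * u x) + (1 / (2 * r)) * (v x y * u y)
          + (s / r) * (u x * u y)) := by
    intro x y
    have h1 := young3 hs (div_nonneg (hρ0 x y) hA.le) (div_nonneg (hg x) hc0.le)
      (div_nonneg (hg y) hc0.le)
    rw [hYq, hYq] at h1
    have h2 : ρ x y * g x * g y = (A * N ^ (2 / q)) * (ρ x y / A * (g x / c) * (g y / c)) := by
      rw [← hcc]
      field_simp
    rw [h2]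
    apply mul_le_mul_of_nonneg_left h1 (by positivity)
  have hint : avg (fun x => avg (fun y => ρ x y * g x * g y)) ≤ (A * N ^ (2 / q)) * 1 := by
    have h1 : avg (fun x => avg (fun y => (1 / (2 * r)) * (v x y * u x) + (1 / (2 * r)) * (v x y * u y)
        + (s / r) * (u x * u y))) ≤ 1 := by
      have t1 : avg (fun x => avg (fun y => v x y * u x)) ≤ 1 := by
        have h2 : ∀ x, avg (fun y => v x y * u x) ≤ u x := by
          intro x
          rw [avg_mul_right]
          have := mul_le_mul_of_nonneg_right (hv1 x) (hu0 x)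
          linarith
        exact (avg_mono h2).trans (le_of_eq hu1)
      have t2 : avg (fun x => avg (fun y => v x y * u y)) ≤ 1 := by
        rw [avg_comm]
        have h2 : ∀ y, avg (fun x => v x y * u y) ≤ u y := by
          intro y
          rw [avg_mul_right]
          have h3 : avg (fun x => v x y) ≤ 1 := by
            have : (fun x => v x y) = v y := by
              funext x
              exact hvs x y
            rw [this]
            exact hv1 y
          have := mul_le_mul_of_nonneg_right h3 (hu0 y)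
          linarith
        exact (avg_mono h2).trans (le_of_eq hu1)
      have t3 : avg (fun x => avg (fun y => u x * u y)) = 1 := by
        have h2 : ∀ x, avg (fun y => u x * u y) = u x := by
          intro x
          rw [avg_mul_left, hu1, mul_one]
        simp only [h2]
        exact hu1
      have h4 : ∀ x, avg (fun y => (1 / (2 * r)) * (v x y * u x) + (1 / (2 * r)) * (v x y * u y)
          + (s / r) * (u x * u y))
          = (1 / (2 * r)) * avg (fun y => v x y * u x) + (1 / (2 * r)) * avg (fun y => v x y * u y)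
            + (s / r) * avg (fun y => u x * u y) := by
        intro x
        rw [avg_add, avg_add, avg_mul_left, avg_mul_left, avg_mul_left]
      simp only [h4]
      rw [avg_add, avg_add, avg_mul_left, avg_mul_left, avg_mul_left, t3]
      have hw1 : 0 ≤ 1 / (2 * r) := by positivity
      have hsum : 1 / (2 * r) + 1 / (2 * r) + s / r * 1 = 1 := by
        rw [hr]
        field_simp
        ring
      have := mul_le_mul_of_nonneg_left t1 hw1
      have := mul_le_mul_of_nonneg_left t2 hw1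
      linarith
    calc avg (fun x => avg (fun y => ρ x y * g x * g y))
        ≤ avg (fun x => avg (fun y => (A * N ^ (2 / q)) * ((1 / (2 * r)) * (v x y * u x)
            + (1 / (2 * r)) * (v x y * u y) + (s / r) * (u x * u y)))) :=
          avg_mono (fun x => avg_mono (fun y => hpt x y))
      _ = (A * N ^ (2 / q)) * avg (fun x => avg (fun y => (1 / (2 * r)) * (v x y * u x)
            + (1 / (2 * r)) * (v x y * u y) + (s / r) * (u x * u y))) := by
          simp only [avg_mul_left]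
      _ ≤ _ := mul_le_mul_of_nonneg_left h1 (by positivity)
  simpa using hint

/-- The dual form: from `L²` to `L^{2(1+s)}`. -/
theorem dual_step {K : Matrix X X ℝ} (hK : DS K) {A s : ℝ} (hA : 0 < A) (hs : 0 < s) (H : HR K A s)
    {h : X → ℝ} (hh : ∀ x, 0 ≤ h x) :
    nrm (2 * (1 + s)) (Kᵀ.mulVec h) ≤ A ^ (1 / 2 : ℝ) * nrm 2 h := by
  set r : ℝ := 1 + s with hr
  set q : ℝ := 2 * r / (1 + 2 * s) with hq
  have hr0 : 0 < r := by linarith
  have hq0 : 0 < q := by positivity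
  set F : X → ℝ := Kᵀ.mulVec h with hF
  have hF0 : ∀ x, 0 ≤ F x := hK.transpose.mulVec_nonneg hh
  set M : ℝ := avg (fun x => F x ^ (2 * r)) with hM
  have hM0 : 0 ≤ M := avg_nonneg (fun x => Real.rpow_nonneg (hF0 x) _)
  unfold nrm
  rw [← hM]
  rcases hM0.eq_or_lt with hzero | hpos
  · rw [← hzero, Real.zero_rpow (by positivity)]
    have h1 : 0 ≤ avg (fun x => h x ^ (2 : ℝ)) ^ (1 / 2 : ℝ) :=
      Real.rpow_nonneg (avg_nonneg (fun x => Real.rpow_nonneg (hh x) _)) _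
    positivity
  set φ : X → ℝ := fun x => F x ^ (1 + 2 * s) with hφ
  have hφ0 : ∀ x, 0 ≤ φ x := fun x => Real.rpow_nonneg (hF0 x) _
  have h1 : M = avg (fun x => F x * φ x) := by
    rw [hM]
    congr 1
    funext x
    have h2 : (2 * r) = 1 + (1 + 2 * s) := by
      rw [hr]
      ring
    rw [h2, Real.rpow_add_of_nonneg (hF0 x) (by norm_num) (by positivity), Real.rpow_one]
  have h2 : avg (fun x => F x * φ x) = avg (fun y => h y * K.mulVec φ y) := by
    rw [hF, avg_mulVec_mul, Matrix.transpose_transpose]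
  have hCS := avg_holder hh (hK.mulVec_nonneg hφ0) Real.HolderConjugate.two_two
  have hL2 : avg (fun w => K.mulVec φ w ^ (2 : ℝ)) ≤ A * avg (fun x => φ x ^ q) ^ (2 / q) :=
    l2_q hK hA hs H hφ0
  have hφq : ∀ x, φ x ^ q = F x ^ (2 * r) := by
    intro x
    simp only [hφ]
    rw [← Real.rpow_mul (hF0 x)]
    congr 1
    rw [hq]
    field_simp
  simp only [hφq] at hL2
  rw [← hM] at hL2
  have hK0 : 0 ≤ avg (fun w => K.mulVec φ w ^ (2 : ℝ)) :=
    avg_nonneg (fun w => Real.rpow_nonneg (hK.mulVec_nonneg hφ0 w) _)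
  have hH0 : 0 ≤ avg (fun x => h x ^ (2 : ℝ)) := avg_nonneg (fun x => Real.rpow_nonneg (hh x) _)
  have h3 : avg (fun w => K.mulVec φ w ^ (2 : ℝ)) ^ (1 / 2 : ℝ) ≤ A ^ (1 / 2 : ℝ) * M ^ (1 / q) := by
    have h4 := Real.rpow_le_rpow hK0 hL2 (by norm_num : (0 : ℝ) ≤ 1 / 2)
    refine h4.trans (le_of_eq ?_)
    rw [Real.mul_rpow hA.le (Real.rpow_nonneg hM0 _), ← Real.rpow_mul hM0]
    congr 2
    field_simp
  have h5 : M ≤ avg (fun x => h x ^ (2 : ℝ)) ^ (1 / 2 : ℝ) * (A ^ (1 / 2 : ℝ) * M ^ (1 / q)) := by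
    calc M = avg (fun y => h y * K.mulVec φ y) := h1.trans h2
      _ ≤ _ := hCS
      _ ≤ _ := mul_le_mul_of_nonneg_left h3 (Real.rpow_nonneg hH0 _)
  have h6 : M = M ^ (1 / (2 * r)) * M ^ (1 / q) := by
    rw [← Real.rpow_add hpos]
    have : 1 / (2 * r) + 1 / q = 1 := by
      rw [hq, hr]
      field_simp
      ring
    rw [this, Real.rpow_one]
  have hMq : 0 < M ^ (1 / q) := Real.rpow_pos_of_pos hpos _
  have h7 : M ^ (1 / (2 * r)) * M ^ (1 / q)
      ≤ (A ^ (1 / 2 : ℝ) * avg (fun x => h x ^ (2 : ℝ)) ^ (1 / 2 : ℝ)) * M ^ (1 / q) := by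
    rw [← h6]
    refine h5.trans (le_of_eq ?_)
    ring
  exact le_of_mul_le_mul_right h7 hMq

/-- The transpose improves integrability. -/
theorem good_step {K : Matrix X X ℝ} (hK : DS K) {A s : ℝ} (hA : 0 < A) (hs : 0 < s) (H : HR K A s)
    {p : ℝ} (hp : 2 ≤ p) {f : X → ℝ} (hf : ∀ x, 0 ≤ f x) :
    nrm ((1 + s) * p) (Kᵀ.mulVec f) ≤ A ^ (1 / p) * nrm p f := by
  set r : ℝ := 1 + s with hr
  have hr0 : 0 < r := by linarith
  have hp0 : 0 < p := by linarith
  set h : X → ℝ := fun x => f x ^ (p / 2) with hh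
  have hh0 : ∀ x, 0 ≤ h x := fun x => Real.rpow_nonneg (hf x) _
  have hd := dual_step hK hA hs H hh0
  rw [← hr] at hd
  set F : X → ℝ := Kᵀ.mulVec f with hF
  have hF0 : ∀ x, 0 ≤ F x := hK.transpose.mulVec_nonneg hf
  have hG0 : ∀ x, 0 ≤ Kᵀ.mulVec h x := hK.transpose.mulVec_nonneg hh0
  have h1 : ∀ x, F x ^ (r * p) ≤ Kᵀ.mulVec h x ^ (2 * r) := by
    intro x
    have h2 := hK.transpose.rpow_mulVec_le hf (by linarith : 1 ≤ p / 2) x
    have h3 : F x ^ (r * p) = (F x ^ (p / 2)) ^ (2 * r) := by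
      rw [← Real.rpow_mul (hF0 x)]
      congr 1
      ring
    rw [h3]
    exact Real.rpow_le_rpow (Real.rpow_nonneg (hF0 x) _) h2 (by positivity)
  have hhp : ∀ x, h x ^ (2 : ℝ) = f x ^ p := by
    intro x
    simp only [hh]
    rw [← Real.rpow_mul (hf x)]
    congr 1
    ring
  have h2 : nrm (r * p) F ≤ nrm (2 * r) (Kᵀ.mulVec h) ^ (2 / p) := by
    unfold nrm
    have h3 : avg (fun x => F x ^ (r * p)) ≤ avg (fun x => Kᵀ.mulVec h x ^ (2 * r)) := avg_mono h1
    have h4 : 0 ≤ avg (fun x => F x ^ (r * p)) := avg_nonneg (fun x => Real.rpow_nonneg (hF0 x) _)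
    have h5 : 0 ≤ avg (fun x => Kᵀ.mulVec h x ^ (2 * r)) :=
      avg_nonneg (fun x => Real.rpow_nonneg (hG0 x) _)
    rw [← Real.rpow_mul h5]
    have h6 : 1 / (2 * r) * (2 / p) = 1 / (r * p) := by
      field_simp
    rw [h6]
    exact Real.rpow_le_rpow h4 h3 (by positivity)
  have hn0 : 0 ≤ nrm (2 * r) (Kᵀ.mulVec h) := nrm_nonneg _ hG0
  refine h2.trans ?_
  have hA0 : 0 ≤ A ^ (1 / 2 : ℝ) := by positivity
  have hH0 : 0 ≤ nrm 2 h := nrm_nonneg _ hh0
  refine (Real.rpow_le_rpow hn0 hd (by positivity)).trans (le_of_eq ?_)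
  rw [Real.mul_rpow hA0 hH0, ← Real.rpow_mul hA.le]
  have h7 : (1 / 2 : ℝ) * (2 / p) = 1 / p := by
    field_simp
  rw [h7]
  congr 1
  unfold nrm
  simp only [hhp]
  rw [← Real.rpow_mul (avg_nonneg (fun x => Real.rpow_nonneg (hf x) _))]
  congr 1

/-- A matrix that improves integrability. -/
def GoodM (A s : ℝ) (T : Matrix X X ℝ) : Prop :=
  DS T ∧ ∀ p : ℝ, 2 ≤ p → ∀ f : X → ℝ, (∀ x, 0 ≤ f x) →
    nrm ((1 + s) * p) (T.mulVec f) ≤ A ^ (1 / p) * nrm p f

/-- A matrix that maps `L²` to a higher exponent. -/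
def Imp (s : ℝ) (m : ℕ) (C : ℝ) (T : Matrix X X ℝ) : Prop :=
  DS T ∧ ∀ f : X → ℝ, (∀ x, 0 ≤ f x) → nrm (2 * (1 + s) ^ m) (T.mulVec f) ≤ C * nrm 2 f

/-- The sum of the exponents along the chain. -/
noncomputable def cS (s : ℝ) (m : ℕ) : ℝ := ∑ i ∈ Finset.range m, 1 / (2 * (1 + s) ^ i)

theorem cS_succ (s : ℝ) (m : ℕ) : cS s (m + 1) = cS s m + 1 / (2 * (1 + s) ^ m) :=
  Finset.sum_range_succ _ _

theorem cS_le {s : ℝ} (hs : 0 < s) (m : ℕ) : cS s m ≤ (1 + s) / (2 * s) := by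
  have h : cS s m + ((1 + s) / (2 * s)) * (1 / (1 + s) ^ m) = (1 + s) / (2 * s) := by
    induction m with
    | zero => simp [cS]
    | succ m ih =>
      rw [cS_succ]
      have h1 : (0 : ℝ) < 1 + s := by linarith
      have h2 : cS s m + 1 / (2 * (1 + s) ^ m) + (1 + s) / (2 * s) * (1 / (1 + s) ^ (m + 1))
          = cS s m + (1 + s) / (2 * s) * (1 / (1 + s) ^ m) := by
        rw [pow_succ]
        field_simp
        ring
      rw [h2, ih]
  have h1 : 0 ≤ ((1 + s) / (2 * s)) * (1 / (1 + s) ^ m) := by positivity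
  linarith

theorem cS_nonneg {s : ℝ} (hs : 0 < s) (m : ℕ) : 0 ≤ cS s m := by
  unfold cS
  exact Finset.sum_nonneg (fun i _ => by positivity)

theorem imp_one (s : ℝ) : Imp (X := X) s 0 1 1 := by
  refine ⟨DS.one, fun f _ => ?_⟩
  simp

theorem imp_step {A s C : ℝ} (hs : 0 < s) {R T : Matrix X X ℝ} {m : ℕ} (hR : GoodM A s R)
    (hT : Imp s m C T) (hC : 0 ≤ C) (hA : 0 < A) :
    Imp s (m + 1) (C * A ^ (1 / (2 * (1 + s) ^ m))) (R * T) := by
  refine ⟨hR.1.mul hT.1, fun f hf => ?_⟩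
  rw [← Matrix.mulVec_mulVec]
  have h1 : (2 : ℝ) ≤ 2 * (1 + s) ^ m := by
    have : (1 : ℝ) ≤ (1 + s) ^ m := one_le_pow₀ (by linarith)
    linarith
  have h2 := hR.2 _ h1 _ (hT.1.mulVec_nonneg hf)
  have h3 : (1 + s) * (2 * (1 + s) ^ m) = 2 * (1 + s) ^ (m + 1) := by
    rw [pow_succ]
    ring
  rw [h3] at h2
  refine h2.trans ?_
  have h4 := hT.2 f hf
  calc A ^ (1 / (2 * (1 + s) ^ m)) * nrm (2 * (1 + s) ^ m) (T.mulVec f)
      ≤ A ^ (1 / (2 * (1 + s) ^ m)) * (C * nrm 2 f) :=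
        mul_le_mul_of_nonneg_left h4 (by positivity)
    _ = _ := by ring

theorem imp_pow {A s : ℝ} (hs : 0 < s) (hA : 0 < A) {R : Matrix X X ℝ} (hR : GoodM A s R) (m : ℕ) :
    Imp s m (A ^ cS s m) (R ^ m) := by
  induction m with
  | zero =>
    simpa [cS] using imp_one (X := X) s
  | succ m ih =>
    rw [pow_succ']
    have h := imp_step hs hR ih (by positivity) hA
    have h2 : A ^ cS s m * A ^ (1 / (2 * (1 + s) ^ m)) = A ^ cS s (m + 1) := by
      rw [cS_succ, Real.rpow_add hA]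
    rwa [h2] at h

theorem imp_alt {A s : ℝ} (hs : 0 < s) (hA : 0 < A) {R R' : Matrix X X ℝ} (hR : GoodM A s R)
    (hR' : GoodM A s R') (m : ℕ) : Imp s (2 * m) (A ^ cS s (2 * m)) ((R * R') ^ m) := by
  induction m with
  | zero =>
    simpa [cS] using imp_one (X := X) s
  | succ m ih =>
    rw [pow_succ', mul_assoc]
    have h1 := imp_step hs hR' ih (by positivity) hA
    have h2 : A ^ cS s (2 * m) * A ^ (1 / (2 * (1 + s) ^ (2 * m))) = A ^ cS s (2 * m + 1) := by
      rw [cS_succ, Real.rpow_add hA]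
    rw [h2] at h1
    have h3 := imp_step hs hR h1 (by positivity) hA
    have h4 : A ^ cS s (2 * m + 1) * A ^ (1 / (2 * (1 + s) ^ (2 * m + 1))) = A ^ cS s (2 * (m + 1)) := by
      rw [show 2 * (m + 1) = 2 * m + 1 + 1 by ring, cS_succ s (2 * m + 1), Real.rpow_add hA]
    rwa [h4] at h3

/-- The last step: the symmetrised kernel maps a high exponent to bounded functions. -/
theorem sup_step {K : Matrix X X ℝ} (hK : DS K) {A s : ℝ} (hA : 0 < A) (hs : 0 < s) (H : HR K A s)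
    {f : X → ℝ} (hf : ∀ x, 0 ≤ f x) (x : X) :
    (Kᵀ * K).mulVec f x ≤ A * nrm ((1 + s) / s) f := by
  have hN : (0 : ℝ) < Fintype.card X := card_pos_real
  have hconj : (1 + s).HolderConjugate ((1 + s) / s) := by
    rw [Real.holderConjugate_iff]
    refine ⟨by linarith, ?_⟩
    rw [inv_div]
    field_simp
  let ρ : X → ℝ := fun y => (Fintype.card X : ℝ) * (Kᵀ * K) x y
  have hρ0 : ∀ y, 0 ≤ ρ y := fun y => mul_nonneg hN.le ((hK.transpose.mul hK).nonneg x y)
  have h1 : (Kᵀ * K).mulVec f x = avg (fun y => ρ y * f y) := by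
    unfold avg
    simp only [Matrix.mulVec, dotProduct, ρ]
    rw [Finset.sum_div]
    refine Finset.sum_congr rfl (fun y _ => ?_)
    field_simp
  rw [h1]
  have h2 := avg_holder hρ0 hf hconj
  refine h2.trans ?_
  have h3 : avg (fun y => ρ y ^ (1 + s)) ^ (1 / (1 + s)) ≤ A := by
    have h4 : 0 ≤ avg (fun y => ρ y ^ (1 + s)) := avg_nonneg (fun y => Real.rpow_nonneg (hρ0 y) _)
    have h5 := Real.rpow_le_rpow h4 (H x) (by positivity : (0 : ℝ) ≤ 1 / (1 + s))
    refine h5.trans (le_of_eq ?_)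
    rw [← Real.rpow_mul hA.le]
    have : (1 + s) * (1 / (1 + s)) = 1 := by
      field_simp
    rw [this, Real.rpow_one]
  exact mul_le_mul_of_nonneg_right h3 (nrm_nonneg _ hf)

theorem sup_of_imp {K T : Matrix X X ℝ} (hK : DS K) {A s C : ℝ} (hA : 0 < A) (hs : 0 < s)
    (H : HR K A s) {m : ℕ} (hm : (1 + s) / s ≤ 2 * (1 + s) ^ m) (hT : Imp s m C T)
    {f : X → ℝ} (hf : ∀ x, 0 ≤ f x) (x : X) :
    ((Kᵀ * K) * T).mulVec f x ≤ A * (C * nrm 2 f) := by
  rw [← Matrix.mulVec_mulVec]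
  have hTf := hT.1.mulVec_nonneg hf
  have h1 := sup_step hK hA hs H hTf x
  have h2 := nrm_mono (by positivity : 0 < (1 + s) / s) hm hTf
  have h3 := hT.2 f hf
  refine h1.trans ?_
  exact mul_le_mul_of_nonneg_left (h2.trans h3) hA.le

/-- Hilbert Schmidt bound from the bound into bounded functions. -/
theorem hs_of_sup {W : Matrix X X ℝ} (hW : ∀ x y, 0 ≤ W x y) {Ξ : ℝ} (hΞ : 0 ≤ Ξ)
    (h : ∀ f : X → ℝ, (∀ x, 0 ≤ f x) → ∀ x, W.mulVec f x ≤ Ξ * nrm 2 f) :
    ∑ x, ∑ y, W x y ^ 2 ≤ Ξ ^ 2 := by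
  have hN : (0 : ℝ) < Fintype.card X := card_pos_real
  have hrow : ∀ x, (Fintype.card X : ℝ) * ∑ y, W x y ^ 2 ≤ Ξ ^ 2 := by
    intro x
    have h1 := h (W x) (hW x) x
    have h2 : W.mulVec (W x) x = ∑ y, W x y ^ 2 := by
      simp only [Matrix.mulVec, dotProduct, sq]
    set E := ∑ y, W x y ^ 2 with hE
    have hE0 : 0 ≤ E := Finset.sum_nonneg (fun y _ => sq_nonneg _)
    have h3 : nrm 2 (W x) = (E / (Fintype.card X : ℝ)) ^ (1 / 2 : ℝ) := by
      unfold nrm avg
      congr 2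
      simp only [Real.rpow_two, hE]
    rw [h2, h3] at h1
    have h4 : E ^ 2 ≤ Ξ ^ 2 * (E / (Fintype.card X : ℝ)) := by
      have h5 : ((E / (Fintype.card X : ℝ)) ^ (1 / 2 : ℝ)) ^ 2 = E / (Fintype.card X : ℝ) := by
        rw [← Real.rpow_natCast, ← Real.rpow_mul (by positivity)]
        norm_num
      calc E ^ 2 ≤ (Ξ * (E / (Fintype.card X : ℝ)) ^ (1 / 2 : ℝ)) ^ 2 :=
            pow_le_pow_left₀ hE0 h1 2
        _ = _ := by rw [mul_pow, h5]
    rcases hE0.eq_or_lt with hz | hpos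
    · rw [← hz, mul_zero]
      positivity
    · have h6 : E * E ≤ E * (Ξ ^ 2 / (Fintype.card X : ℝ)) := by
        have : Ξ ^ 2 * (E / (Fintype.card X : ℝ)) = E * (Ξ ^ 2 / (Fintype.card X : ℝ)) := by ring
        nlinarith
      have h7 := le_of_mul_le_mul_left h6 hpos
      rw [le_div_iff₀ hN] at h7
      linarith
  calc ∑ x, ∑ y, W x y ^ 2 ≤ ∑ _x : X, Ξ ^ 2 / (Fintype.card X : ℝ) := by
        refine Finset.sum_le_sum (fun x _ => ?_)
        rw [le_div_iff₀ hN]
        linarith [hrow x]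
    _ = Ξ ^ 2 := by
        simp [Finset.card_univ]
        field_simp

/-- The Hilbert Schmidt norm of a square is bounded by the norms of the two symmetrisations. -/
theorem hs_sq_le (U : Matrix X X ℝ) :
    (∑ x, ∑ z, ((U * U) x z) ^ 2) ^ 2
      ≤ (∑ y, ∑ y', ((Uᵀ * U) y y') ^ 2) * (∑ y, ∑ y', ((U * Uᵀ) y y') ^ 2) := by
  have h1 : ∑ x, ∑ z, ((U * U) x z) ^ 2 = ∑ y, ∑ y', (Uᵀ * U) y y' * (U * Uᵀ) y y' := by
    have e1 : ∀ x z, ((U * U) x z) ^ 2 = ∑ y, ∑ y', (U x y * U y z) * (U x y' * U y' z) := by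
      intro x z
      rw [Matrix.mul_apply, sq, Finset.sum_mul_sum]
    have e2 : ∀ y y', (Uᵀ * U) y y' * (U * Uᵀ) y y' = ∑ x, ∑ z, (U x y * U x y') * (U y z * U y' z) := by
      intro y y'
      simp only [Matrix.mul_apply, Matrix.transpose_apply]
      rw [Finset.sum_mul_sum]
    simp only [e1, e2]
    calc ∑ x, ∑ z, ∑ y, ∑ y', (U x y * U y z) * (U x y' * U y' z)
        = ∑ x, ∑ y, ∑ z, ∑ y', (U x y * U y z) * (U x y' * U y' z) :=
          Finset.sum_congr rfl (fun x _ => Finset.sum_comm)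
      _ = ∑ y, ∑ x, ∑ z, ∑ y', (U x y * U y z) * (U x y' * U y' z) := Finset.sum_comm
      _ = ∑ y, ∑ x, ∑ y', ∑ z, (U x y * U y z) * (U x y' * U y' z) :=
          Finset.sum_congr rfl (fun y _ => Finset.sum_congr rfl (fun x _ => Finset.sum_comm))
      _ = ∑ y, ∑ y', ∑ x, ∑ z, (U x y * U y z) * (U x y' * U y' z) :=
          Finset.sum_congr rfl (fun y _ => Finset.sum_comm)
      _ = _ := by
          refine Finset.sum_congr rfl (fun y _ => Finset.sum_congr rfl (fun y' _ =>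
            Finset.sum_congr rfl (fun x _ => Finset.sum_congr rfl (fun z _ => ?_))))
          ring
  rw [h1]
  have h2 := Finset.sum_mul_sq_le_sq_mul_sq (Finset.univ : Finset (X × X))
    (fun p => (Uᵀ * U) p.1 p.2) (fun p => (U * Uᵀ) p.1 p.2)
  simp only [Fintype.sum_prod_type] at h2
  exact h2

/-- **The main improvement theorem.** -/
theorem hyp_main {K : Matrix X X ℝ} (hK : DS K) {A s : ℝ} (hs : 0 < s) (hA : 1 ≤ A)
    (H1 : HR K A s) (H2 : HR Kᵀ A s) {m : ℕ} (hm : (1 + s) / s ≤ 2 * (1 + s) ^ m) :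
    (∀ f : X → ℝ, (∀ x, 0 ≤ f x) → ∀ x,
      ((Kᵀ * K) ^ (m + 1)).mulVec f x ≤ A ^ (1 + (1 + s) / (2 * s)) * nrm 2 f)
    ∧ (∑ x, ∑ y, ((K ^ (2 * (m + 1))) x y) ^ 2 ≤ (A ^ (1 + (1 + s) / (2 * s))) ^ 2) := by
  have hA0 : 0 < A := by linarith
  have hs1 : (0 : ℝ) < 1 + s := by linarith
  set Ξ : ℝ := A ^ (1 + (1 + s) / (2 * s)) with hΞ
  have hΞ0 : 0 ≤ Ξ := by positivity
  have hG1 : GoodM A s Kᵀ := ⟨hK.transpose, fun p hp f hf => good_step hK hA0 hs H1 hp hf⟩
  have hG2 : GoodM A s K := by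
    refine ⟨hK, fun p hp f hf => ?_⟩
    have := good_step hK.transpose hA0 hs H2 hp hf
    rwa [Matrix.transpose_transpose] at this
  have hconst : ∀ n : ℕ, A * A ^ cS s n ≤ Ξ := by
    intro n
    rw [hΞ, Real.rpow_add hA0, Real.rpow_one]
    apply mul_le_mul_of_nonneg_left _ hA0.le
    exact Real.rpow_le_rpow_of_exponent_le hA (cS_le hs n)
  have hnrm : ∀ f : X → ℝ, (∀ x, 0 ≤ f x) → 0 ≤ nrm 2 f := fun f hf => nrm_nonneg 2 hf
  have hscale : ∀ (n : ℕ) (f : X → ℝ), (∀ x, 0 ≤ f x) →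
      A * (A ^ cS s n * nrm 2 f) ≤ Ξ * nrm 2 f := by
    intro n f hf
    rw [← mul_assoc]
    exact mul_le_mul_of_nonneg_right (hconst n) (hnrm f hf)
  constructor
  · intro f hf x
    rw [pow_succ']
    have hm' : (1 + s) / s ≤ 2 * (1 + s) ^ (2 * m) := by
      refine hm.trans ?_
      apply mul_le_mul_of_nonneg_left _ (by norm_num)
      exact pow_le_pow_right₀ (by linarith) (by omega)
    have h1 := sup_of_imp hK hA0 hs H1 hm' (imp_alt hs hA0 hG1 hG2 m) hf x
    exact h1.trans (hscale _ f hf)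
  · -- the Hilbert Schmidt bound
    set U := K ^ (m + 1) with hU
    have hUDS : DS U := hK.pow _
    have hUt : Uᵀ = Kᵀ ^ (m + 1) := by rw [hU, Matrix.transpose_pow]
    have hW1 : ∑ y, ∑ y', ((Uᵀ * U) y y') ^ 2 ≤ Ξ ^ 2 := by
      refine hs_of_sup (fun x y => (hUDS.transpose.mul hUDS).nonneg x y) hΞ0 ?_
      intro f hf x
      have hdec : Uᵀ * U = Kᵀ ^ m * ((Kᵀ * K) * K ^ m) := by
        rw [hUt, hU, pow_succ Kᵀ m, pow_succ' K m]
        simp only [mul_assoc]
      rw [hdec, ← Matrix.mulVec_mulVec]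
      refine (hK.transpose.pow m).mulVec_le (c := Ξ * nrm 2 f) (fun x' => ?_) x
      have h1 := sup_of_imp hK hA0 hs H1 hm (imp_pow hs hA0 hG2 m) hf x'
      exact h1.trans (hscale _ f hf)
    have hW2 : ∑ y, ∑ y', ((U * Uᵀ) y y') ^ 2 ≤ Ξ ^ 2 := by
      refine hs_of_sup (fun x y => (hUDS.mul hUDS.transpose).nonneg x y) hΞ0 ?_
      intro f hf x
      have hdec : U * Uᵀ = K ^ m * ((Kᵀᵀ * Kᵀ) * Kᵀ ^ m) := by
        rw [hUt, hU, Matrix.transpose_transpose, pow_succ K m, pow_succ' Kᵀ m]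
        simp only [mul_assoc]
      rw [hdec, ← Matrix.mulVec_mulVec]
      refine (hK.pow m).mulVec_le (c := Ξ * nrm 2 f) (fun x' => ?_) x
      have h1 := sup_of_imp hK.transpose hA0 hs H2 hm (imp_pow hs hA0 hG1 m) hf x'
      exact h1.trans (hscale _ f hf)
    have hsq := hs_sq_le U
    have hpow : K ^ (2 * (m + 1)) = U * U := by
      rw [hU, two_mul, pow_add]
    rw [hpow]
    have h0 : 0 ≤ ∑ x, ∑ y, ((U * U) x y) ^ 2 :=
      Finset.sum_nonneg (fun x _ => Finset.sum_nonneg (fun y _ => sq_nonneg _))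
    have h3 : (∑ x, ∑ y, ((U * U) x y) ^ 2) ^ 2 ≤ (Ξ ^ 2) ^ 2 := by
      refine hsq.trans ?_
      rw [sq (Ξ ^ 2)]
      exact mul_le_mul hW1 hW2 (Finset.sum_nonneg (fun x _ => Finset.sum_nonneg (fun y _ => sq_nonneg _)))
        (by positivity)
    exact (pow_le_pow_iff_left₀ h0 (by positivity) (by norm_num)).mp h3

end Vale.Agent.Lib.P162
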