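import Vale.Agent.Lib.P162.NBen

/-! The collision count for two matchings and the Jensen step for the two-sided network. -/

namespace Vale.Agent.Lib.P162

open Equiv Finset

set_option linter.unusedSectionVars false

section count

variable {Y : Type*} [Fintype Y] [DecidableEq Y]

open Classical in
/-- The pairs of Boolean functions satisfying the constraints of the two matchings. -/
noncomputable def evSet (π : Perm Y) (S₀ S₁ : Finset Y) : Finset ((Y → Bool) × (Y → Bool)) :=
  Finset.univ.filter (fun p => (∀ x ∈ S₀, p.1 x = p.2 x) ∧ (∀ x ∈ S₁, p.1 x = p.2 (π x)))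

theorem mem_evSet {π : Perm Y} {S₀ S₁ : Finset Y} {p : (Y → Bool) × (Y → Bool)} :
    p ∈ evSet π S₀ S₁ ↔ (∀ x ∈ S₀, p.1 x = p.2 x) ∧ (∀ x ∈ S₁, p.1 x = p.2 (π x)) := by
  simp [evSet]

/-- Flip a value of the first function. -/
def fl1 (q : Y) (p : (Y → Bool) × (Y → Bool)) : (Y → Bool) × (Y → Bool) :=
  (Function.update p.1 q (!p.1 q), p.2)

/-- Flip a value of the second function. -/
def fl2 (q : Y) (p : (Y → Bool) × (Y → Bool)) : (Y → Bool) × (Y → Bool) :=
  (p.1, Function.update p.2 q (!p.2 q))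

theorem fl1_injective (q : Y) : Function.Injective (fl1 q) := by
  have h : Function.Involutive (fl1 q) := by
    intro p
    simp [fl1]
  exact h.injective

theorem fl2_injective (q : Y) : Function.Injective (fl2 q) := by
  have h : Function.Involutive (fl2 q) := by
    intro p
    simp [fl2]
  exact h.injective

theorem two_mul_card_le {P : Type*} [DecidableEq P] {F G : Finset P} {f : P → P}
    (hinj : Function.Injective f) (h1 : F ⊆ G) (h2 : ∀ x ∈ F, f x ∈ G) (h3 : ∀ x ∈ F, f x ∉ F) :
    2 * F.card ≤ G.card := by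
  have hd : Disjoint F (F.image f) := by
    rw [Finset.disjoint_left]
    intro x hx hx'
    obtain ⟨z, hz, rfl⟩ := Finset.mem_image.mp hx'
    exact h3 z hz hx
  have hc : (F.image f).card = F.card := Finset.card_image_of_injective _ hinj
  have hs : F ∪ F.image f ⊆ G := by
    intro x hx
    rcases Finset.mem_union.mp hx with h | h
    · exact h1 h
    · obtain ⟨z, hz, rfl⟩ := Finset.mem_image.mp h
      exact h2 z hz
  have := Finset.card_le_card hs
  rw [Finset.card_union_of_disjoint hd, hc] at this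
  omega

theorem cyc_erase_lt (π : Perm Y) {D : Finset Y} {q : Y} (hq : orb π q ⊆ D) :
    cyc π (D.erase q) + 1 ≤ cyc π D := by
  classical
  unfold cyc
  have h1 : insert (orb π q) (cycSet π (D.erase q)) ⊆ cycSet π D := by
    intro O hO
    rcases Finset.mem_insert.mp hO with rfl | h
    · exact mem_cycSet.mpr ⟨⟨q, rfl⟩, hq⟩
    · obtain ⟨h2, h3⟩ := mem_cycSet.mp h
      exact mem_cycSet.mpr ⟨h2, h3.trans (Finset.erase_subset _ _)⟩
  have h2 : orb π q ∉ cycSet π (D.erase q) := by
    intro h
    have := (mem_cycSet.mp h).2 (mem_orb_self π q)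
    simp at this
  have := Finset.card_le_card h1
  rwa [Finset.card_insert_of_notMem h2] at this

/-- The counting bound for the two matchings. -/
theorem evSet_card (π : Perm Y) (S₀ S₁ : Finset Y) :
    (evSet π S₀ S₁).card * 2 ^ (S₀.card + S₁.card)
      ≤ (2 ^ Fintype.card Y * 2 ^ Fintype.card Y) * 2 ^ cyc π (S₀ ∩ S₁) := by
  classical
  induction hk : S₀.card + S₁.card using Nat.strong_induction_on generalizing S₀ S₁ with
  | _ k ih =>
  by_cases h1 : ∃ p, p ∈ S₁ ∧ p ∉ S₀
  · -- a free edge of the second matching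
    obtain ⟨p, hp1, hp0⟩ := h1
    have hcard : (S₁.erase p).card + 1 = S₁.card := Finset.card_erase_add_one hp1
    have hle : 2 * (evSet π S₀ S₁).card ≤ (evSet π S₀ (S₁.erase p)).card := by
      refine two_mul_card_le (fl1_injective p) ?_ ?_ ?_
      · intro z hz
        rw [mem_evSet] at hz ⊢
        exact ⟨hz.1, fun x hx => hz.2 x (Finset.mem_of_mem_erase hx)⟩
      · intro z hz
        rw [mem_evSet] at hz ⊢
        constructor
        · intro x hx
          have hne : x ≠ p := fun h => hp0 (h ▸ hx)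
          simp [fl1, Function.update_of_ne hne, hz.1 x hx]
        · intro x hx
          have hne : x ≠ p := Finset.ne_of_mem_erase hx
          simp [fl1, Function.update_of_ne hne, hz.2 x (Finset.mem_of_mem_erase hx)]
      · intro z hz h
        rw [mem_evSet] at hz h
        have h2 := h.2 p hp1
        have h3 := hz.2 p hp1
        simp [fl1] at h2
        rw [h3] at h2
        simp at h2
    have hih := ih (S₀.card + (S₁.erase p).card) (by omega) S₀ (S₁.erase p) rfl
    have hinter : S₀ ∩ S₁.erase p = S₀ ∩ S₁ := by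
      ext x
      simp only [Finset.mem_inter, Finset.mem_erase]
      constructor
      · rintro ⟨h1, -, h3⟩
        exact ⟨h1, h3⟩
      · rintro ⟨h1, h3⟩
        exact ⟨h1, fun h => hp0 (h ▸ h1), h3⟩
    rw [hinter] at hih
    calc (evSet π S₀ S₁).card * 2 ^ k
        = (2 * (evSet π S₀ S₁).card) * 2 ^ (S₀.card + (S₁.erase p).card) := by
          rw [← hk, ← hcard, ← add_assoc, pow_succ]
          ring
      _ ≤ (evSet π S₀ (S₁.erase p)).card * 2 ^ (S₀.card + (S₁.erase p).card) :=
          Nat.mul_le_mul_right _ hle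
      _ ≤ _ := hih
  by_cases h2 : ∃ p, p ∈ S₀ ∧ p ∉ S₁
  · -- a free edge of the first matching
    obtain ⟨p, hp0, hp1⟩ := h2
    have hcard : (S₀.erase p).card + 1 = S₀.card := Finset.card_erase_add_one hp0
    have hle : 2 * (evSet π S₀ S₁).card ≤ (evSet π (S₀.erase p) S₁).card := by
      refine two_mul_card_le (fl1_injective p) ?_ ?_ ?_
      · intro z hz
        rw [mem_evSet] at hz ⊢
        exact ⟨fun x hx => hz.1 x (Finset.mem_of_mem_erase hx), hz.2⟩
      · intro z hz
        rw [mem_evSet] at hz ⊢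
        constructor
        · intro x hx
          have hne : x ≠ p := Finset.ne_of_mem_erase hx
          simp [fl1, Function.update_of_ne hne, hz.1 x (Finset.mem_of_mem_erase hx)]
        · intro x hx
          have hne : x ≠ p := fun h => hp1 (h ▸ hx)
          simp [fl1, Function.update_of_ne hne, hz.2 x hx]
      · intro z hz h
        rw [mem_evSet] at hz h
        have h2 := h.1 p hp0
        have h3 := hz.1 p hp0
        simp [fl1] at h2
        rw [h3] at h2
        simp at h2
    have hih := ih ((S₀.erase p).card + S₁.card) (by omega) (S₀.erase p) S₁ rfl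
    have hinter : S₀.erase p ∩ S₁ = S₀ ∩ S₁ := by
      ext x
      simp only [Finset.mem_inter, Finset.mem_erase]
      constructor
      · rintro ⟨⟨-, h1⟩, h3⟩
        exact ⟨h1, h3⟩
      · rintro ⟨h1, h3⟩
        exact ⟨⟨fun h => hp1 (h ▸ h3), h1⟩, h3⟩
    rw [hinter] at hih
    calc (evSet π S₀ S₁).card * 2 ^ k
        = (2 * (evSet π S₀ S₁).card) * 2 ^ ((S₀.erase p).card + S₁.card) := by
          rw [← hk, ← hcard, add_right_comm, pow_succ]
          ring
      _ ≤ (evSet π (S₀.erase p) S₁).card * 2 ^ ((S₀.erase p).card + S₁.card) :=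
          Nat.mul_le_mul_right _ hle
      _ ≤ _ := hih
  -- the two sets agree
  have hEq : S₀ = S₁ := by
    ext x
    push Not at h1 h2
    exact ⟨fun h => by_contra (fun hn => by exact absurd (h2 x h) hn),
      fun h => h1 x h⟩
  subst hEq
  rw [Finset.inter_self]
  by_cases hempty : S₀ = ∅
  · subst hempty
    have hk0 : k = 0 := by simpa using hk.symm
    subst hk0
    simp only [pow_zero, mul_one]
    have h3 : (evSet π (∅ : Finset Y) ∅).card ≤ Fintype.card ((Y → Bool) × (Y → Bool)) :=
      Finset.card_le_univ _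
    have h4 : Fintype.card ((Y → Bool) × (Y → Bool)) = 2 ^ Fintype.card Y * 2 ^ Fintype.card Y := by
      simp [Fintype.card_prod, Fintype.card_fun]
    rw [h4] at h3
    exact h3.trans (Nat.le_mul_of_pos_right _ (by positivity))
  by_cases h3 : ∃ q, q ∈ S₀ ∧ π⁻¹ q ∉ S₀
  · -- a free point of the second function
    obtain ⟨q, hq0, hq1⟩ := h3
    have hcard : (S₀.erase q).card + 1 = S₀.card := Finset.card_erase_add_one hq0
    have hle : 2 * (evSet π S₀ S₀).card ≤ (evSet π (S₀.erase q) S₀).card := by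
      refine two_mul_card_le (fl2_injective q) ?_ ?_ ?_
      · intro z hz
        rw [mem_evSet] at hz ⊢
        exact ⟨fun x hx => hz.1 x (Finset.mem_of_mem_erase hx), hz.2⟩
      · intro z hz
        rw [mem_evSet] at hz ⊢
        constructor
        · intro x hx
          have hne : x ≠ q := Finset.ne_of_mem_erase hx
          simp [fl2, Function.update_of_ne hne, hz.1 x (Finset.mem_of_mem_erase hx)]
        · intro x hx
          have hne : π x ≠ q := by
            intro h
            apply hq1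
            rw [← h]
            simpa using hx
          simp [fl2, Function.update_of_ne hne, hz.2 x hx]
      · intro z hz h
        rw [mem_evSet] at hz h
        have h2 := h.1 q hq0
        have h3 := hz.1 q hq0
        simp [fl2] at h2
        rw [h3] at h2
        simp at h2
    have hih := ih ((S₀.erase q).card + S₀.card) (by omega) (S₀.erase q) S₀ rfl
    have hinter : S₀.erase q ∩ S₀ = S₀.erase q := by
      ext x
      simp only [Finset.mem_inter, Finset.mem_erase]
      exact ⟨fun h => h.1, fun h => ⟨h, h.2⟩⟩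
    rw [hinter] at hih
    have hm : cyc π (S₀.erase q) ≤ cyc π S₀ := cyc_mono π (Finset.erase_subset _ _)
    calc (evSet π S₀ S₀).card * 2 ^ k
        = (2 * (evSet π S₀ S₀).card) * 2 ^ ((S₀.erase q).card + S₀.card) := by
          rw [← hk, ← hcard, add_right_comm, pow_succ]
          ring
      _ ≤ (evSet π (S₀.erase q) S₀).card * 2 ^ ((S₀.erase q).card + S₀.card) :=
          Nat.mul_le_mul_right _ hle
      _ ≤ _ := hih
      _ ≤ _ := Nat.mul_le_mul_left _ (Nat.pow_le_pow_right (by norm_num) hm)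
  · -- the set is a union of cycles
    push Not at h3
    obtain ⟨q, hq0⟩ := Finset.nonempty_iff_ne_empty.mpr hempty
    have hcard : (S₀.erase q).card + 1 = S₀.card := Finset.card_erase_add_one hq0
    have hle : (evSet π S₀ S₀).card ≤ (evSet π (S₀.erase q) S₀).card := by
      apply Finset.card_le_card
      intro z hz
      rw [mem_evSet] at hz ⊢
      exact ⟨fun x hx => hz.1 x (Finset.mem_of_mem_erase hx), hz.2⟩
    have hih := ih ((S₀.erase q).card + S₀.card) (by omega) (S₀.erase q) S₀ rfl
    have hinter : S₀.erase q ∩ S₀ = S₀.erase q := by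
      ext x
      simp only [Finset.mem_inter, Finset.mem_erase]
      exact ⟨fun h => h.1, fun h => ⟨h, h.2⟩⟩
    rw [hinter] at hih
    have horb : orb π q ⊆ S₀ := by
      intro z hz
      rw [mem_orb] at hz
      have hz' : (π⁻¹).SameCycle q z := (Equiv.Perm.sameCycle_inv).mpr hz
      obtain ⟨k, -, hk'⟩ := hz'.exists_pow_eq'
      rw [← hk']
      clear hk'
      induction k with
      | zero => simpa using hq0
      | succ k ih2 =>
        rw [pow_succ', Equiv.Perm.mul_apply]
        exact h3 _ ih2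
    have hm := cyc_erase_lt π horb
    calc (evSet π S₀ S₀).card * 2 ^ k
        ≤ (evSet π (S₀.erase q) S₀).card * 2 ^ k := Nat.mul_le_mul_right _ hle
      _ = ((evSet π (S₀.erase q) S₀).card * 2 ^ ((S₀.erase q).card + S₀.card)) * 2 := by
          rw [← hk, ← hcard, add_right_comm, pow_succ]
          ring
      _ ≤ ((2 ^ Fintype.card Y * 2 ^ Fintype.card Y) * 2 ^ cyc π (S₀.erase q)) * 2 :=
          Nat.mul_le_mul_right _ hih
      _ = (2 ^ Fintype.card Y * 2 ^ Fintype.card Y) * 2 ^ (cyc π (S₀.erase q) + 1) := by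
          rw [pow_succ]
          ring
      _ ≤ _ := Nat.mul_le_mul_left _ (Nat.pow_le_pow_right (by norm_num) hm)

end count

section jensen

variable {Ω : Type*} [Fintype Ω] [Nonempty Ω]

open Classical in
/-- Hölder's inequality for an indicator weight. -/
theorem holder_ind {s : ℝ} (hs : 0 < s) (w : Ω → Prop) (f : Ω → ℝ) (hf : ∀ ω, 0 ≤ f ω) :
    avg (fun ω => (if w ω then (1 : ℝ) else 0) * f ω) ^ (1 + s)
      ≤ avg (fun ω => if w ω then (1 : ℝ) else 0) ^ s
        * avg (fun ω => (if w ω then (1 : ℝ) else 0) * f ω ^ (1 + s)) := by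
  set u : Ω → ℝ := fun ω => if w ω then (1 : ℝ) else 0 with hu
  have hu0 : ∀ ω, 0 ≤ u ω := by
    intro ω
    simp only [hu]
    split_ifs <;> norm_num
  have hp : (1 + s) > 1 := by linarith
  set p : ℝ := 1 + s with hpdef
  set q : ℝ := (1 + s) / s with hqdef
  have hconj : p.HolderConjugate q := by
    rw [Real.holderConjugate_iff]
    refine ⟨hp, ?_⟩
    rw [hqdef, inv_div]
    rw [hpdef]
    field_simp
  have hq0 : q ≠ 0 := hconj.symm.ne_zero
  have hp0 : 0 < p := by linarith
  have hq00 : 0 < q := hconj.symm.pos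
  have h1 := avg_holder (Ω := Ω) (f := fun ω => u ω * f ω) (g := u)
    (fun ω => mul_nonneg (hu0 ω) (hf ω)) hu0 hconj
  have h2 : ∀ ω, u ω * f ω * u ω = u ω * f ω := by
    intro ω
    simp only [hu]
    split_ifs <;> simp
  have h3 : ∀ ω, u ω ^ q = u ω := by
    intro ω
    simp only [hu]
    split_ifs
    · simp
    · exact Real.zero_rpow hq0
  have h4 : ∀ ω, (u ω * f ω) ^ p = u ω * f ω ^ p := by
    intro ω
    simp only [hu]
    split_ifs
    · simp
    · rw [zero_mul, zero_mul]
      exact Real.zero_rpow hp0.ne'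
  simp only [h2, h3, h4] at h1
  set X := avg (fun ω => u ω * f ω) with hX
  set Y := avg (fun ω => u ω * f ω ^ p) with hY
  set Z := avg u with hZ
  have hX0 : 0 ≤ X := avg_nonneg (fun ω => mul_nonneg (hu0 ω) (hf ω))
  have hY0 : 0 ≤ Y := avg_nonneg (fun ω => mul_nonneg (hu0 ω) (Real.rpow_nonneg (hf ω) _))
  have hZ0 : 0 ≤ Z := avg_nonneg hu0
  have h5 : X ^ p ≤ (Y ^ (1 / p) * Z ^ (1 / q)) ^ p := Real.rpow_le_rpow hX0 h1 hp0.le
  refine h5.trans (le_of_eq ?_)
  rw [Real.mul_rpow (Real.rpow_nonneg hY0 _) (Real.rpow_nonneg hZ0 _), ← Real.rpow_mul hY0,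
    ← Real.rpow_mul hZ0]
  have h6 : 1 / p * p = 1 := by field_simp
  have h7 : 1 / q * p = s := by
    rw [hqdef, hpdef]
    field_simp
  rw [h6, h7, Real.rpow_one, mul_comm]

end jensen

section network

variable {a : ℕ}

theorem consE_symm_cons (i : Bool) (p : Cube a) : (consE a).symm (Fin.cons i p) = (i, p) := by
  rw [Equiv.symm_apply_eq]
  rfl

theorem ben_mk_cons (A A' : Cube a → Bool) (β₀ β₁ : BC a) (i : Bool) (p : Cube a) :
    ben (a + 1) (mkB A A' β₀ β₁) (Fin.cons i p)
      = Fin.cons (xor (xor i (A p)) (A' ((if xor i (A p) then ben a β₁ else ben a β₀) p)))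
          ((if xor i (A p) then ben a β₁ else ben a β₀) p) := by
  rw [ben_mk, Equiv.permCongr_apply, consE_symm_cons]
  simp only [Equiv.Perm.mul_apply, flipPerm_apply]
  cases xor i (A p) <;> simp

/-- The assignment `y` holds on `S`. -/
def Ag (a : ℕ) (S : Finset (Cube a)) (y : Cube a → Cube a) (β : BC a) : Prop :=
  ∀ x ∈ S, ben a β x = y x

/-- The constraints on the flips at the top node. -/
def Valid (S : Finset (Cube (a + 1))) (y : Cube (a + 1) → Cube (a + 1)) (A A' : Cube a → Bool) : Prop :=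
  ∀ i p, (Fin.cons i p : Cube (a + 1)) ∈ S →
    xor (xor i (A p)) (A' (Fin.tail (y (Fin.cons i p)))) = y (Fin.cons i p) 0

/-- The assignment for the first side. -/
def y0 (y : Cube (a + 1) → Cube (a + 1)) (A : Cube a → Bool) (p : Cube a) : Cube a :=
  Fin.tail (y (Fin.cons (A p) p))

/-- The assignment for the second side. -/
def y1 (y : Cube (a + 1) → Cube (a + 1)) (A : Cube a → Bool) (p : Cube a) : Cube a :=
  Fin.tail (y (Fin.cons (!A p) p))

theorem ag_mk (S : Finset (Cube (a + 1))) (y : Cube (a + 1) → Cube (a + 1)) (A A' : Cube a → Bool)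
    (β₀ β₁ : BC a) :
    Ag (a + 1) S y (mkB A A' β₀ β₁)
      ↔ Valid S y A A' ∧ Ag a (S0 A S) (y0 y A) β₀ ∧ Ag a (S1 A S) (y1 y A) β₁ := by
  constructor
  · intro h
    refine ⟨?_, ?_, ?_⟩
    · intro i p hx
      have h1 := h _ hx
      rw [ben_mk_cons] at h1
      rw [← h1]
      simp
    · intro p hp
      have hx : (Fin.cons (A p) p : Cube (a + 1)) ∈ S := by
        simpa [S0] using hp
      have h1 := h _ hx
      rw [ben_mk_cons] at h1
      unfold y0
      rw [← h1]
      simp
    · intro p hp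
      have hx : (Fin.cons (!A p) p : Cube (a + 1)) ∈ S := by
        simpa [S1] using hp
      have h1 := h _ hx
      rw [ben_mk_cons] at h1
      unfold y1
      rw [← h1]
      simp
  · rintro ⟨hV, h0, h1⟩ x hx
    obtain ⟨i, p, rfl⟩ : ∃ i p, x = (Fin.cons i p : Cube (a + 1)) :=
      ⟨x 0, Fin.tail x, (Fin.cons_self_tail x).symm⟩
    have hv := hV i p hx
    rw [ben_mk_cons]
    have hcons : ∀ z : Cube (a + 1), z = Fin.cons (z 0) (Fin.tail z) := fun z =>
      (Fin.cons_self_tail z).symm
    rw [hcons (y (Fin.cons i p))]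
    by_cases hc : xor i (A p) = true
    · have hi : i = !A p := by
        revert hc
        cases i <;> cases A p <;> simp
      have hp : p ∈ S1 A S := by
        simp only [S1, Finset.mem_filter, Finset.mem_univ, true_and]
        rw [← hi]
        exact hx
      have h2 := h1 p hp
      have h3 : y1 y A p = Fin.tail (y (Fin.cons i p)) := by
        unfold y1
        rw [← hi]
      rw [hc] at hv ⊢
      simp only [if_true]
      rw [h2, h3, hv]
    · have hc' : xor i (A p) = false := by simpa using hc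
      have hi : i = A p := by
        revert hc'
        cases i <;> cases A p <;> simp
      have hp : p ∈ S0 A S := by
        simp only [S0, Finset.mem_filter, Finset.mem_univ, true_and]
        rw [← hi]
        exact hx
      have h2 := h0 p hp
      have h3 : y0 y A p = Fin.tail (y (Fin.cons i p)) := by
        unfold y0
        rw [← hi]
      rw [hc'] at hv ⊢
      simp only [Bool.false_eq_true, if_false]
      rw [h2, h3, hv]

open Classical in
/-- The probability of the constraints on the flips at the top node. -/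
noncomputable def Pv (S : Finset (Cube (a + 1))) (y : Cube (a + 1) → Cube (a + 1)) : ℝ :=
  avg (fun A' : Cube a → Bool => avg (fun A : Cube a → Bool => if Valid S y A A' then (1 : ℝ) else 0))

theorem Pv_bound (S : Finset (Cube (a + 1))) (y : Cube (a + 1) → Cube (a + 1))
    {A₀ A₀' : Cube a → Bool} (σ₀ σ₁ : Perm (Cube a)) (hV : Valid S y A₀ A₀')
    (h0 : ∀ p ∈ S0 A₀ S, σ₀ p = y0 y A₀ p) (h1 : ∀ p ∈ S1 A₀ S, σ₁ p = y1 y A₀ p) :
    Pv S y * (2 : ℝ) ^ S.card ≤ (2 : ℝ) ^ cyc (σ₀⁻¹ * σ₁) (S0 A₀ S ∩ S1 A₀ S) := by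
  classical
  set π := σ₀⁻¹ * σ₁ with hπ
  set V : Finset ((Cube a → Bool) × (Cube a → Bool)) :=
    Finset.univ.filter (fun T => Valid S y T.2 T.1) with hVdef
  have hvc : V.card ≤ (evSet π (S0 A₀ S) (S1 A₀ S)).card := by
    refine Finset.card_le_card_of_injOn
      (fun T => (fun p => xor (T.2 p) (A₀ p), fun q => xor (T.1 (σ₀ q)) (A₀' (σ₀ q)))) ?_ ?_
    · intro T hT
      have hT' : Valid S y T.2 T.1 := by simpa [hVdef] using hT
      simp only [Finset.mem_coe]
      rw [mem_evSet]
      constructor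
      · intro x hx
        have hmem : (Fin.cons (A₀ x) x : Cube (a + 1)) ∈ S := by simpa [S0] using hx
        have h2 := hT' _ _ hmem
        have h3 := hV _ _ hmem
        have h4 : Fin.tail (y (Fin.cons (A₀ x) x)) = σ₀ x := (h0 x hx).symm
        rw [h4] at h2 h3
        simp only
        rw [← h3] at h2
        revert h2
        cases T.2 x <;> cases A₀ x <;> cases T.1 (σ₀ x) <;> cases A₀' (σ₀ x) <;> simp
      · intro x hx
        have hmem : (Fin.cons (!A₀ x) x : Cube (a + 1)) ∈ S := by simpa [S1] using hx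
        have h2 := hT' _ _ hmem
        have h3 := hV _ _ hmem
        have h4 : Fin.tail (y (Fin.cons (!A₀ x) x)) = σ₁ x := (h1 x hx).symm
        rw [h4] at h2 h3
        have h8 : σ₀ (π x) = σ₁ x := by simp [hπ, Equiv.Perm.mul_apply]
        simp only
        rw [h8]
        rw [← h3] at h2
        revert h2
        cases T.2 x <;> cases A₀ x <;> cases T.1 (σ₁ x) <;> cases A₀' (σ₁ x) <;> simp
    · intro T _ T' _ hTT
      have h2 := (Prod.ext_iff.mp hTT).1
      have h3 := (Prod.ext_iff.mp hTT).2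
      simp only at h2 h3
      apply Prod.ext
      · funext q
        have h4 := congrFun h3 (σ₀⁻¹ q)
        have h5 : σ₀ (σ₀⁻¹ q) = q := by simp
        rw [h5] at h4
        revert h4
        cases T.1 q <;> cases T'.1 q <;> cases A₀' q <;> simp
      · funext p
        have h4 := congrFun h2 p
        revert h4
        cases T.2 p <;> cases T'.2 p <;> cases A₀ p <;> simp
  have hcount := evSet_card π (S0 A₀ S) (S1 A₀ S)
  rw [card_S0_add_S1] at hcount
  have hN : (Fintype.card (Cube a → Bool) : ℝ) = (2 : ℝ) ^ Fintype.card (Cube a) := by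
    simp [Fintype.card_fun]
  have hPv : Pv S y = (V.card : ℝ) / ((2 : ℝ) ^ Fintype.card (Cube a) * (2 : ℝ) ^ Fintype.card (Cube a)) := by
    unfold Pv
    rw [← avg_prod (α := Cube a → Bool) (β := Cube a → Bool)
      (fun T => if Valid S y T.2 T.1 then (1 : ℝ) else 0)]
    unfold avg
    rw [Fintype.card_prod]
    push_cast
    rw [hN]
    congr 1
    rw [hVdef, Finset.card_filter]
    push_cast
    rfl
  rw [hPv, div_mul_eq_mul_div, div_le_iff₀ (by positivity)]
  have h5 : (V.card : ℝ) * (2 : ℝ) ^ S.card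
      ≤ ((2 : ℝ) ^ Fintype.card (Cube a) * (2 : ℝ) ^ Fintype.card (Cube a))
        * (2 : ℝ) ^ cyc π (S0 A₀ S ∩ S1 A₀ S) := by
    have h6 : V.card * 2 ^ S.card
        ≤ (2 ^ Fintype.card (Cube a) * 2 ^ Fintype.card (Cube a)) * 2 ^ cyc π (S0 A₀ S ∩ S1 A₀ S) :=
      (Nat.mul_le_mul_right _ hvc).trans hcount
    exact_mod_cast h6
  linarith

open Classical in
/-- The probability that the two-sided network realises the assignment `y` on `S`. -/
noncomputable def Pa (a : ℕ) (S : Finset (Cube a)) (y : Cube a → Cube a) : ℝ :=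
  avg (fun β : BC a => if Ag a S y β then (1 : ℝ) else 0)

open Classical in
/-- The weighted version of `Pa`. -/
noncomputable def Qa (s : ℝ) (a : ℕ) (S : Finset (Cube a)) (y : Cube a → Cube a) : ℝ :=
  avg (fun β : BC a => (2 : ℝ) ^ (s * (Cnt 0 a S β : ℝ)) * (if Ag a S y β then (1 : ℝ) else 0))

theorem Pa_nonneg (a : ℕ) (S : Finset (Cube a)) (y : Cube a → Cube a) : 0 ≤ Pa a S y := by
  unfold Pa
  refine avg_nonneg (fun β => ?_)
  split_ifs <;> norm_num

theorem Pa_le_one (a : ℕ) (S : Finset (Cube a)) (y : Cube a → Cube a) : Pa a S y ≤ 1 := by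
  unfold Pa
  refine avg_le_of_forall (fun β => ?_)
  split_ifs <;> norm_num

theorem Qa_nonneg (s : ℝ) (a : ℕ) (S : Finset (Cube a)) (y : Cube a → Cube a) : 0 ≤ Qa s a S y := by
  unfold Qa
  refine avg_nonneg (fun β => mul_nonneg (Real.rpow_nonneg (by norm_num) _) ?_)
  split_ifs <;> norm_num

theorem avg_avg_mul {α γ : Type*} [Fintype α] [Fintype γ] (f : α → ℝ) (g : γ → ℝ) :
    avg (fun c => avg (fun b => f b * g c)) = avg f * avg g := by
  have h1 : ∀ c, avg (fun b => f b * g c) = avg f * g c := fun c => avg_mul_right _ _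
  simp only [h1]
  exact avg_mul_left _ _

/-- **The Jensen step**: the power mean bound for the law of the two-sided network. -/
theorem jensen_main {s : ℝ} (hs : 0 < s) (a : ℕ) (S : Finset (Cube a)) (y : Cube a → Cube a) :
    Pa a S y ^ (1 + s) ≤ (2 : ℝ) ^ (-(s * (S.card : ℝ) * (a : ℝ))) * Qa s a S y := by
  classical
  induction a with
  | zero =>
    have h1 : Qa s 0 S y = Pa 0 S y := by
      unfold Qa Pa
      congr 1
      funext β
      have : Cnt 0 0 S β = 0 := rfl
      rw [this]
      simp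
    rw [h1]
    simp only [Nat.cast_zero, mul_zero, neg_zero, Real.rpow_zero, one_mul]
    have h2 := Real.rpow_le_rpow_of_exponent_ge' (Pa_nonneg 0 S y) (Pa_le_one 0 S y)
      (by norm_num : (0 : ℝ) ≤ 1) (by linarith : (1 : ℝ) ≤ 1 + s)
    simpa using h2
  | succ a ih =>
    have h20 : (0 : ℝ) < 2 := by norm_num
    let w : (Cube a → Bool) × (Cube a → Bool) → Prop := fun T => Valid S y T.2 T.1
    let P₀ : (Cube a → Bool) → ℝ := fun A => Pa a (S0 A S) (y0 y A)
    let P₁ : (Cube a → Bool) → ℝ := fun A => Pa a (S1 A S) (y1 y A)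
    let Q₀ : (Cube a → Bool) → ℝ := fun A => Qa s a (S0 A S) (y0 y A)
    let Q₁ : (Cube a → Bool) → ℝ := fun A => Qa s a (S1 A S) (y1 y A)
    -- the probability
    have hP : Pa (a + 1) S y
        = avg (fun T : (Cube a → Bool) × (Cube a → Bool) =>
            (if w T then (1 : ℝ) else 0) * (P₀ T.2 * P₁ T.2)) := by
      rw [avg_prod]
      unfold Pa
      rw [avg_BC_succ]
      refine congrArg _ (funext (fun A' => congrArg _ (funext (fun A => ?_))))
      have h1 : ∀ β₁ β₀ : BC a, (if Ag (a + 1) S y (mkB A A' β₀ β₁) then (1 : ℝ) else 0)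
          = (if Valid S y A A' then (1 : ℝ) else 0)
            * ((if Ag a (S0 A S) (y0 y A) β₀ then (1 : ℝ) else 0)
              * (if Ag a (S1 A S) (y1 y A) β₁ then (1 : ℝ) else 0)) := by
        intro β₁ β₀
        simp only [ag_mk]
        by_cases h1 : Valid S y A A' <;> by_cases h2 : Ag a (S0 A S) (y0 y A) β₀ <;>
          by_cases h3 : Ag a (S1 A S) (y1 y A) β₁ <;> simp [h1, h2, h3]
      simp only [h1]
      have h2 : ∀ β₁ : BC a, avg (fun β₀ : BC a => (if Valid S y A A' then (1 : ℝ) else 0)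
            * ((if Ag a (S0 A S) (y0 y A) β₀ then (1 : ℝ) else 0)
              * (if Ag a (S1 A S) (y1 y A) β₁ then (1 : ℝ) else 0)))
          = (if Valid S y A A' then (1 : ℝ) else 0)
            * avg (fun β₀ : BC a => ((if Ag a (S0 A S) (y0 y A) β₀ then (1 : ℝ) else 0)
              * (if Ag a (S1 A S) (y1 y A) β₁ then (1 : ℝ) else 0))) := fun β₁ => avg_mul_left _ _
      simp only [h2]
      rw [avg_mul_left, avg_avg_mul]
      rfl
    have hPv : avg (fun T : (Cube a → Bool) × (Cube a → Bool) => if w T then (1 : ℝ) else 0)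
        = Pv S y := by
      rw [avg_prod]
      rfl
    have hf0 : ∀ T : (Cube a → Bool) × (Cube a → Bool), 0 ≤ P₀ T.2 * P₁ T.2 := fun T =>
      mul_nonneg (Pa_nonneg _ _ _) (Pa_nonneg _ _ _)
    have hH := holder_ind hs w (fun T => P₀ T.2 * P₁ T.2) hf0
    rw [← hP, hPv] at hH
    refine hH.trans ?_
    -- pointwise bound
    have hPv0 : 0 ≤ Pv S y := by
      rw [← hPv]
      refine avg_nonneg (fun T => ?_)
      split_ifs <;> norm_num
    have hQ : Qa s (a + 1) S y = avg (fun T : (Cube a → Bool) × (Cube a → Bool) =>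
        avg (fun β₁ : BC a => avg (fun β₀ : BC a => (2 : ℝ) ^ (s * (Cnt 0 (a + 1) S (mkB T.2 T.1 β₀ β₁) : ℝ))
          * (if Ag (a + 1) S y (mkB T.2 T.1 β₀ β₁) then (1 : ℝ) else 0)))) := by
      rw [avg_prod]
      unfold Qa
      rw [avg_BC_succ]
    rw [hQ, ← avg_mul_left, ← avg_mul_left]
    refine avg_mono (fun T => ?_)
    obtain ⟨A', A⟩ := T
    by_cases hw : w (A', A)
    · have hw' : Valid S y A A' := hw
      simp only [hw, if_true, one_mul]
      have hcard := card_S0_add_S1 A S
      have hcardr : ((S0 A S).card : ℝ) + ((S1 A S).card : ℝ) = (S.card : ℝ) := by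
        exact_mod_cast hcard
      have h1 : (P₀ A * P₁ A) ^ (1 + s)
          ≤ (2 : ℝ) ^ (-(s * (S.card : ℝ) * (a : ℝ))) * (Q₀ A * Q₁ A) := by
        rw [Real.mul_rpow (Pa_nonneg _ _ _) (Pa_nonneg _ _ _)]
        have h2 := ih (S0 A S) (y0 y A)
        have h3 := ih (S1 A S) (y1 y A)
        calc P₀ A ^ (1 + s) * P₁ A ^ (1 + s)
            ≤ ((2 : ℝ) ^ (-(s * ((S0 A S).card : ℝ) * (a : ℝ))) * Q₀ A)
              * ((2 : ℝ) ^ (-(s * ((S1 A S).card : ℝ) * (a : ℝ))) * Q₁ A) :=
              mul_le_mul h2 h3 (Real.rpow_nonneg (Pa_nonneg _ _ _) _)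
                (mul_nonneg (Real.rpow_nonneg h20.le _) (Qa_nonneg _ _ _ _))
          _ = _ := by
              have h4 : (2 : ℝ) ^ (-(s * (S.card : ℝ) * (a : ℝ)))
                  = (2 : ℝ) ^ (-(s * ((S0 A S).card : ℝ) * (a : ℝ)))
                    * (2 : ℝ) ^ (-(s * ((S1 A S).card : ℝ) * (a : ℝ))) := by
                rw [← Real.rpow_add h20, ← hcardr]
                congr 1
                ring
              rw [h4]
              ring
      have hQQ : Q₀ A * Q₁ A = avg (fun β₁ : BC a => avg (fun β₀ : BC a =>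
          ((2 : ℝ) ^ (s * (Cnt 0 a (S0 A S) β₀ : ℝ)) * (if Ag a (S0 A S) (y0 y A) β₀ then (1 : ℝ) else 0))
            * ((2 : ℝ) ^ (s * (Cnt 0 a (S1 A S) β₁ : ℝ)) * (if Ag a (S1 A S) (y1 y A) β₁ then (1 : ℝ) else 0)))) := by
        rw [avg_avg_mul]
        rfl
      calc Pv S y ^ s * (P₀ A * P₁ A) ^ (1 + s)
          ≤ Pv S y ^ s * ((2 : ℝ) ^ (-(s * (S.card : ℝ) * (a : ℝ))) * (Q₀ A * Q₁ A)) :=
            mul_le_mul_of_nonneg_left h1 (Real.rpow_nonneg hPv0 _)
        _ = avg (fun β₁ : BC a => avg (fun β₀ : BC a => Pv S y ^ s * (2 : ℝ) ^ (-(s * (S.card : ℝ) * (a : ℝ))) *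
              (((2 : ℝ) ^ (s * (Cnt 0 a (S0 A S) β₀ : ℝ)) * (if Ag a (S0 A S) (y0 y A) β₀ then (1 : ℝ) else 0))
                * ((2 : ℝ) ^ (s * (Cnt 0 a (S1 A S) β₁ : ℝ)) * (if Ag a (S1 A S) (y1 y A) β₁ then (1 : ℝ) else 0))))) := by
            have : ∀ β₁ : BC a, avg (fun β₀ : BC a => Pv S y ^ s * (2 : ℝ) ^ (-(s * (S.card : ℝ) * (a : ℝ))) *
              (((2 : ℝ) ^ (s * (Cnt 0 a (S0 A S) β₀ : ℝ)) * (if Ag a (S0 A S) (y0 y A) β₀ then (1 : ℝ) else 0))
                * ((2 : ℝ) ^ (s * (Cnt 0 a (S1 A S) β₁ : ℝ)) * (if Ag a (S1 A S) (y1 y A) β₁ then (1 : ℝ) else 0))))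
                = Pv S y ^ s * (2 : ℝ) ^ (-(s * (S.card : ℝ) * (a : ℝ))) * avg (fun β₀ : BC a =>
              (((2 : ℝ) ^ (s * (Cnt 0 a (S0 A S) β₀ : ℝ)) * (if Ag a (S0 A S) (y0 y A) β₀ then (1 : ℝ) else 0))
                * ((2 : ℝ) ^ (s * (Cnt 0 a (S1 A S) β₁ : ℝ)) * (if Ag a (S1 A S) (y1 y A) β₁ then (1 : ℝ) else 0)))) :=
              fun β₁ => avg_mul_left _ _
            simp only [this]
            rw [avg_mul_left, ← hQQ]
            ring
        _ ≤ (2 : ℝ) ^ (-(s * ((S.card : ℝ) * ((a + 1 : ℕ) : ℝ)))) * avg (fun β₁ : BC a => avg (fun β₀ : BC a =>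
              (2 : ℝ) ^ (s * (Cnt 0 (a + 1) S (mkB A A' β₀ β₁) : ℝ))
                * (if Ag (a + 1) S y (mkB A A' β₀ β₁) then (1 : ℝ) else 0))) := by
            rw [← avg_mul_left]
            refine avg_mono (fun β₁ => ?_)
            rw [← avg_mul_left]
            refine avg_mono (fun β₀ => ?_)
            by_cases h0 : Ag a (S0 A S) (y0 y A) β₀
            · by_cases h1' : Ag a (S1 A S) (y1 y A) β₁
              · have hag : Ag (a + 1) S y (mkB A A' β₀ β₁) := (ag_mk S y A A' β₀ β₁).mpr ⟨hw', h0, h1'⟩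
                simp only [h0, h1', hag, if_true, mul_one]
                have hb := Pv_bound S y (ben a β₀) (ben a β₁) hw' h0 h1'
                set Y0 := cyc ((ben a β₀)⁻¹ * ben a β₁) (S0 A S ∩ S1 A S) with hY0
                have hb2 : Pv S y ≤ (2 : ℝ) ^ ((Y0 : ℝ) - (S.card : ℝ)) := by
                  rw [Real.rpow_sub h20, Real.rpow_natCast, Real.rpow_natCast, le_div_iff₀ (by positivity)]
                  exact hb
                have hb3 : Pv S y ^ s ≤ (2 : ℝ) ^ (((Y0 : ℝ) - (S.card : ℝ)) * s) := by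
                  rw [Real.rpow_mul h20.le]
                  exact Real.rpow_le_rpow hPv0 hb2 hs.le
                have hC : Cnt 0 (a + 1) S (mkB A A' β₀ β₁)
                    = Cnt 0 a (S0 A S) β₀ + Cnt 0 a (S1 A S) β₁ + Y0 := by
                  rw [Cnt_mk, if_pos (Nat.zero_le a)]
                rw [hC]
                push_cast
                have h5 : (2 : ℝ) ^ (-(s * ((S.card : ℝ) * ((a : ℝ) + 1))))
                    * (2 : ℝ) ^ (s * ((Cnt 0 a (S0 A S) β₀ : ℝ) + (Cnt 0 a (S1 A S) β₁ : ℝ) + (Y0 : ℝ)))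
                    = (2 : ℝ) ^ (((Y0 : ℝ) - (S.card : ℝ)) * s) * (2 : ℝ) ^ (-(s * (S.card : ℝ) * (a : ℝ)))
                      * ((2 : ℝ) ^ (s * (Cnt 0 a (S0 A S) β₀ : ℝ)) * (2 : ℝ) ^ (s * (Cnt 0 a (S1 A S) β₁ : ℝ))) := by
                  rw [← Real.rpow_add h20, ← Real.rpow_add h20, ← Real.rpow_add h20, ← Real.rpow_add h20]
                  congr 1
                  ring
                rw [h5]
                refine mul_le_mul_of_nonneg_right ?_ (by positivity)
                exact mul_le_mul_of_nonneg_right hb3 (by positivity)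
              · simp only [h1', if_false, mul_zero]
                refine mul_nonneg (by positivity) (mul_nonneg (by positivity) ?_)
                split_ifs <;> norm_num
            · simp only [h0, if_false, mul_zero, zero_mul]
              refine mul_nonneg (by positivity) (mul_nonneg (by positivity) ?_)
              split_ifs <;> norm_num
        _ = _ := by
            push_cast
            congr 2
            ring
    · simp only [hw, if_false, zero_mul, mul_zero]
      refine mul_nonneg (by positivity) (avg_nonneg (fun β₁ => avg_nonneg (fun β₀ => ?_)))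
      refine mul_nonneg (by positivity) ?_
      split_ifs <;> norm_num

end network

end Vale.Agent.Lib.P162
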