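import Vale.Agent.Lib.P162.NBen

/-! The pair weights of the butterfly network: the joint law of the images of several points. -/

namespace Vale.Agent.Lib.P162

open Equiv Finset

set_option linter.unusedSectionVars false

/-- The pair weight of the butterfly network. -/
noncomputable def kap : (a : ℕ) → Cube a → Cube a → Cube a → Cube a → ℝ
  | 0, _, _, _, _ => 0
  | a + 1, x, x', w, w' =>
    if Fin.tail x = Fin.tail x' then
      (if x 0 ≠ x' 0 ∧ w 0 ≠ w' 0 then 2 else 0)
    else
      (if w 0 ≠ w' 0 then 1 else kap a (Fin.tail x) (Fin.tail x') (Fin.tail w) (Fin.tail w'))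

theorem kap_nonneg (a : ℕ) (x x' w w' : Cube a) : 0 ≤ kap a x x' w w' := by
  induction a with
  | zero => simp [kap]
  | succ a ih =>
    simp only [kap]
    split_ifs <;> first | exact ih _ _ _ _ | norm_num

theorem kap_symm (a : ℕ) (x x' w w' : Cube a) : kap a x x' w w' = kap a x' x w' w := by
  induction a with
  | zero => simp [kap]
  | succ a ih =>
    simp only [kap]
    rw [ih]
    by_cases h1 : Fin.tail x = Fin.tail x'
    · simp only [h1, if_true, ne_comm (a := x 0), ne_comm (a := w 0)]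
    · have h1' : ¬ Fin.tail x' = Fin.tail x := fun h => h1 h.symm
      simp only [h1, h1', if_false, ne_comm (a := w 0)]

theorem kap_self (a : ℕ) (x w w' : Cube a) : kap a x x w w' = 0 := by
  cases a with
  | zero => simp [kap]
  | succ a => simp [kap]

theorem kap_le_two (a : ℕ) (x x' w w' : Cube a) : kap a x x' w w' ≤ 2 := by
  induction a with
  | zero => simp [kap]
  | succ a ih =>
    simp only [kap]
    split_ifs <;> first | exact ih _ _ _ _ | norm_num

theorem tail_cons_tail {a : ℕ} (x : Cube (a + 1)) : (Fin.cons (x 0) (Fin.tail x) : Cube (a + 1)) = x :=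
  Fin.cons_self_tail x

theorem cube_eq_of_head_tail {a : ℕ} {x y : Cube (a + 1)} (h0 : x 0 = y 0)
    (h1 : Fin.tail x = Fin.tail y) : x = y := by
  rw [← Fin.cons_self_tail x, ← Fin.cons_self_tail y, h0, h1]

theorem net_head_tail {a : ℕ} (ω : NC (a + 1)) (x : Cube (a + 1)) :
    net (a + 1) ω x = Fin.cons (xor (x 0) (ω.1 (Fin.tail x)))
      (net a (if xor (x 0) (ω.1 (Fin.tail x)) then ω.2.2 else ω.2.1) (Fin.tail x)) := by
  have h1 : net (a + 1) ω x = (consE a).permCongr
      (side true (net a ω.2.2) * side false (net a ω.2.1) * flipPerm ω.1) x := rfl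
  rw [h1, Equiv.permCongr_apply]
  have h2 : (consE a).symm x = (x 0, Fin.tail x) := rfl
  rw [h2]
  simp only [Equiv.Perm.mul_apply, flipPerm_apply]
  cases xor (x 0) (ω.1 (Fin.tail x)) <;> simp

/-- The event that the network sends `x` to `w`, in terms of the top coin and the lower networks. -/
theorem net_eq_iff {a : ℕ} (ω : NC (a + 1)) (x w : Cube (a + 1)) :
    net (a + 1) ω x = w ↔ xor (x 0) (ω.1 (Fin.tail x)) = w 0 ∧
      net a (if w 0 then ω.2.2 else ω.2.1) (Fin.tail x) = Fin.tail w := by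
  rw [net_head_tail]
  constructor
  · intro h
    have h0 := congrFun h 0
    simp only [Fin.cons_zero] at h0
    refine ⟨h0, ?_⟩
    rw [← h0, ← h]
    funext i
    simp [Fin.tail]
  · rintro ⟨h0, h1⟩
    rw [h0, h1]
    exact Fin.cons_self_tail w

section ev

variable {ι : Type*} [DecidableEq ι]

/-- The indicator. -/
noncomputable def ind (p : Prop) [Decidable p] : ℝ := if p then 1 else 0

@[simp] theorem ind_nonneg (p : Prop) [Decidable p] : 0 ≤ ind p := by
  unfold ind
  split_ifs <;> norm_num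

theorem ind_le_one (p : Prop) [Decidable p] : ind p ≤ 1 := by
  unfold ind
  split_ifs <;> norm_num

theorem ind_and (p q : Prop) [Decidable p] [Decidable q] : ind (p ∧ q) = ind p * ind q := by
  unfold ind
  by_cases hp : p <;> by_cases hq : q <;> simp [hp, hq]

theorem ind_true' {p : Prop} [Decidable p] (h : p) : ind p = 1 := by
  unfold ind
  simp [h]

theorem ind_false' {p : Prop} [Decidable p] (h : ¬ p) : ind p = 0 := by
  unfold ind
  simp [h]

theorem ind_mono {p q : Prop} [Decidable p] [Decidable q] (h : p → q) : ind p ≤ ind q := by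
  unfold ind
  by_cases hp : p
  · simp [hp, h hp]
  · simp only [hp, if_false]
    split_ifs <;> norm_num

theorem prod_ind_nonneg {V : Finset ι} (p : ι → Prop) [DecidablePred p] :
    0 ≤ ∏ c ∈ V, ind (p c) := Finset.prod_nonneg (fun _ _ => ind_nonneg _)

/-- The joint probability of the images of the points of `V`. -/
noncomputable def Ev (a : ℕ) (V : Finset ι) (x w : ι → Cube a) : ℝ :=
  avg (fun ω : NC a => ∏ c ∈ V, ind (net a ω (x c) = w c))

/-- The same with one more point. -/
noncomputable def Evt (a : ℕ) (t u : Cube a) (V : Finset ι) (x w : ι → Cube a) : ℝ :=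
  avg (fun ω : NC a => ind (net a ω t = u) * ∏ c ∈ V, ind (net a ω (x c) = w c))

theorem Ev_nonneg (a : ℕ) (V : Finset ι) (x w : ι → Cube a) : 0 ≤ Ev a V x w :=
  avg_nonneg (fun _ => prod_ind_nonneg _)

theorem net_ind {a : ℕ} (ω : NC (a + 1)) (x w : Cube (a + 1)) :
    ind (net (a + 1) ω x = w) = ind (xor (x 0) (ω.1 (Fin.tail x)) = w 0) *
      ind (net a (if w 0 then ω.2.2 else ω.2.1) (Fin.tail x) = Fin.tail w) := by
  rw [← ind_and]
  unfold ind
  simp only [net_eq_iff]

/-- Splitting a product according to a Boolean label. -/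
theorem prod_split (V : Finset ι) (e : ι → Bool) (f : Bool → ι → ℝ) :
    ∏ c ∈ V, f (e c) c
      = (∏ c ∈ V.filter (fun c => e c = false), f false c)
        * ∏ c ∈ V.filter (fun c => e c = true), f true c := by
  induction V using Finset.induction_on with
  | empty => simp
  | insert a s ha ih =>
    rw [Finset.prod_insert ha, ih]
    cases h : e a
    · rw [Finset.filter_insert, Finset.filter_insert]
      simp only [h, if_true, Bool.false_eq_true, if_false]
      rw [Finset.prod_insert (by simp [ha])]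
      ring
    · rw [Finset.filter_insert, Finset.filter_insert]
      simp only [h, if_true, Bool.true_eq_false, if_false]
      rw [Finset.prod_insert (by simp [ha])]
      ring

/-- The product over a set of points, split according to the top coin and the two lower networks. -/
theorem prod_net_succ {a : ℕ} (V : Finset ι) (x w : ι → Cube (a + 1)) (ω : NC (a + 1)) :
    ∏ c ∈ V, ind (net (a + 1) ω (x c) = w c)
      = (∏ c ∈ V, ind (xor (x c 0) (ω.1 (Fin.tail (x c))) = w c 0))
        * (∏ c ∈ V.filter (fun c => w c 0 = false), ind (net a ω.2.1 (Fin.tail (x c)) = Fin.tail (w c)))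
        * ∏ c ∈ V.filter (fun c => w c 0 = true), ind (net a ω.2.2 (Fin.tail (x c)) = Fin.tail (w c)) := by
  simp only [net_ind, Finset.prod_mul_distrib]
  rw [mul_assoc]
  congr 1
  exact prod_split V (fun c => w c 0)
    (fun e c => ind (net a (if e then ω.2.2 else ω.2.1) (Fin.tail (x c)) = Fin.tail (w c)))

/-- Independence of the three parts of the coins. -/
theorem avg_triple {a : ℕ} (φ : (Cube a → Bool) → ℝ) (ψ χ : NC a → ℝ) :
    avg (fun ω : NC (a + 1) => φ ω.1 * ψ ω.2.1 * χ ω.2.2) = avg φ * avg ψ * avg χ := by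
  rw [avg_NC_succ]
  simp only [avg_mul_left, avg_mul_right]

/-- The constraint of the top coin. -/
noncomputable def Fz (a : ℕ) (V : Finset ι) (x w : ι → Cube (a + 1)) : ℝ :=
  avg (fun A : Cube a → Bool => ∏ c ∈ V, ind (xor (x c 0) (A (Fin.tail (x c))) = w c 0))

/-- The constraint of the top coin, with one more point. -/
noncomputable def Fzt (a : ℕ) (t u : Cube (a + 1)) (V : Finset ι) (x w : ι → Cube (a + 1)) : ℝ :=
  avg (fun A : Cube a → Bool => ind (xor (t 0) (A (Fin.tail t)) = u 0) *
    ∏ c ∈ V, ind (xor (x c 0) (A (Fin.tail (x c))) = w c 0))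

/-- Tails of a family of points. -/
def tl {a : ℕ} (x : ι → Cube (a + 1)) : ι → Cube a := fun c => Fin.tail (x c)

theorem Ev_succ {a : ℕ} (V : Finset ι) (x w : ι → Cube (a + 1)) :
    Ev (a + 1) V x w = Fz a V x w * Ev a (V.filter (fun c => w c 0 = false)) (tl x) (tl w)
      * Ev a (V.filter (fun c => w c 0 = true)) (tl x) (tl w) := by
  unfold Ev Fz
  simp only [prod_net_succ]
  exact avg_triple (a := a) (fun A => ∏ c ∈ V, ind (xor (x c 0) (A (Fin.tail (x c))) = w c 0))
    (fun ω => ∏ c ∈ V.filter (fun c => w c 0 = false), ind (net a ω (tl x c) = tl w c))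
    (fun ω => ∏ c ∈ V.filter (fun c => w c 0 = true), ind (net a ω (tl x c) = tl w c))

theorem Evt_succ_false {a : ℕ} (t u : Cube (a + 1)) (hu : u 0 = false) (V : Finset ι)
    (x w : ι → Cube (a + 1)) :
    Evt (a + 1) t u V x w = Fzt a t u V x w
      * Evt a (Fin.tail t) (Fin.tail u) (V.filter (fun c => w c 0 = false)) (tl x) (tl w)
      * Ev a (V.filter (fun c => w c 0 = true)) (tl x) (tl w) := by
  unfold Evt Ev Fzt
  rw [← avg_triple]
  congr 1
  funext ω
  rw [prod_net_succ, net_ind, hu]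
  simp only [Bool.false_eq_true, if_false]
  simp only [tl]
  ring_nf
  congr 1

theorem Evt_succ_true {a : ℕ} (t u : Cube (a + 1)) (hu : u 0 = true) (V : Finset ι)
    (x w : ι → Cube (a + 1)) :
    Evt (a + 1) t u V x w = Fzt a t u V x w
      * Ev a (V.filter (fun c => w c 0 = false)) (tl x) (tl w)
      * Evt a (Fin.tail t) (Fin.tail u) (V.filter (fun c => w c 0 = true)) (tl x) (tl w) := by
  unfold Evt Ev Fzt
  rw [← avg_triple]
  congr 1
  funext ω
  rw [prod_net_succ, net_ind, hu]
  simp only [if_true]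
  simp only [tl]
  ring_nf
  congr 1

/-- Flipping one value of a function gives an independent fair bit. -/
theorem avg_flip_half {Y : Type*} [Fintype Y] [DecidableEq Y] (p : Y) (τ : Bool)
    (G : (Y → Bool) → ℝ) (hG : ∀ A b, G (Function.update A p b) = G A) :
    avg (fun A : Y → Bool => ind (A p = τ) * G A) = (1 / 2) * avg G := by
  let e : (Y → Bool) ≃ (Y → Bool) :=
    { toFun := fun A => Function.update A p (!A p)
      invFun := fun A => Function.update A p (!A p)
      left_inv := by
        intro A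
        simp
      right_inv := by
        intro A
        simp }
  have h1 : avg (fun A : Y → Bool => ind (A p = τ) * G A)
      = avg (fun A : Y → Bool => ind (A p = !τ) * G A) := by
    rw [← avg_equiv e]
    congr 1
    funext A
    have : e A p = !A p := by simp [e]
    simp only [this]
    rw [show (e A) = Function.update A p (!A p) from rfl, hG]
    congr 1
    unfold ind
    cases A p <;> cases τ <;> simp
  have h2 : avg G = avg (fun A : Y → Bool => ind (A p = τ) * G A)
      + avg (fun A : Y → Bool => ind (A p = !τ) * G A) := by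
    rw [← avg_add]
    congr 1
    funext A
    unfold ind
    cases A p <;> cases τ <;> simp
  rw [h2, ← h1]
  ring


theorem Fz_nonneg (a : ℕ) (V : Finset ι) (x w : ι → Cube (a + 1)) : 0 ≤ Fz a V x w :=
  avg_nonneg (fun _ => prod_ind_nonneg _)

/-- Two points with the same tail and the same output head cannot both satisfy the constraint. -/
theorem Fz_clash {a : ℕ} {V : Finset ι} {x w : ι → Cube (a + 1)} {b c : ι} (hb : b ∈ V) (hc : c ∈ V)
    (hx : x b 0 ≠ x c 0) (ht : Fin.tail (x b) = Fin.tail (x c)) (hw : w b 0 = w c 0)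
    (A : Cube a → Bool) :
    ∏ c ∈ V, ind (xor (x c 0) (A (Fin.tail (x c))) = w c 0) = 0 := by
  by_cases h1 : xor (x b 0) (A (Fin.tail (x b))) = w b 0
  · refine Finset.prod_eq_zero hc (ind_false' ?_)
    intro h2
    apply hx
    rw [← ht, ← hw, ← h1] at h2
    cases h3 : x b 0 <;> cases h4 : x c 0 <;> cases h5 : A (Fin.tail (x b)) <;> simp_all
  · exact Finset.prod_eq_zero hb (ind_false' h1)

/-- The top-level pair weight when the points have different tails. -/
theorem kap_succ_ne {a : ℕ} {x x' w w' : Cube (a + 1)} (h : Fin.tail x ≠ Fin.tail x') :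
    kap (a + 1) x x' w w'
      = if w 0 ≠ w' 0 then 1 else kap a (Fin.tail x) (Fin.tail x') (Fin.tail w) (Fin.tail w') := by
  simp only [kap, h, if_false]

theorem kap_succ_eq {a : ℕ} {x x' w w' : Cube (a + 1)} (h : Fin.tail x = Fin.tail x') :
    kap (a + 1) x x' w w' = if x 0 ≠ x' 0 ∧ w 0 ≠ w' 0 then 2 else 0 := by
  simp only [kap, h, if_true]


theorem bool_aux1 : ∀ a b c e : Bool, xor a c = e → xor b c = e → a = b := by decide

theorem bool_aux2 : ∀ a b c : Bool, a ≠ c → b ≠ c → a = b := by decide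

theorem bool_aux3 : ∀ a b c e e' : Bool, a ≠ b → e ≠ e' → xor a c = e → xor b c = e' := by decide

theorem onecard_zero (V : Finset ι) (x w : ι → Cube 0) (t u : Cube 0)
    (ht : ∀ c ∈ V, x c ≠ t) :
    Evt 0 t u V x w = (1 / 2 : ℝ) ^ 0 * (∏ c ∈ V, kap 0 t (x c) u (w c)) * Ev 0 V x w := by
  have hV : V = ∅ := by
    rw [Finset.eq_empty_iff_forall_notMem]
    intro c hc
    exact ht c hc (Subsingleton.elim _ _)
  subst hV
  have hne : Evt 0 t u (∅ : Finset ι) x w = 1 := by
    unfold Evt
    simp only [Finset.prod_empty, mul_one]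
    have : ∀ ω : NC 0, ind (net 0 ω t = u) = 1 := fun ω => ind_true' (Subsingleton.elim _ _)
    simp only [this]
    exact avg_const 1
  have hev : Ev 0 (∅ : Finset ι) x w = 1 := by
    unfold Ev
    simp only [Finset.prod_empty]
    exact avg_const 1
  rw [hne, hev]
  simp

theorem onecard_clash {a : ℕ} {V : Finset ι} {x w : ι → Cube (a + 1)} (t u : Cube (a + 1))
    {b c : ι} (hb : b ∈ V) (hc : c ∈ V) (hx : x b 0 ≠ x c 0) (htl : Fin.tail (x b) = Fin.tail (x c))
    (hww : w b 0 = w c 0) :
    Evt (a + 1) t u V x w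
      = (1 / 2 : ℝ) ^ (a + 1) * (∏ c ∈ V, kap (a + 1) t (x c) u (w c)) * Ev (a + 1) V x w := by
  have hz := fun A => Fz_clash hb hc hx htl hww A
  have hF : Fz a V x w = 0 := by
    unfold Fz
    simp only [hz]
    exact avg_const 0
  have hFt : Fzt a t u V x w = 0 := by
    unfold Fzt
    simp only [hz, mul_zero]
    exact avg_const 0
  rw [Ev_succ, hF]
  cases hu : u 0
  · rw [Evt_succ_false t u hu, hFt]
    simp
  · rw [Evt_succ_true t u hu, hFt]
    simp

theorem onecard_combine {a : ℕ} {V : Finset ι} {x w : ι → Cube (a + 1)} {t u : Cube (a + 1)}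
    (c₂ : ℝ) (hF : Fzt a t u V x w = c₂ * Fz a V x w)
    (hkap : ∏ c ∈ V, kap (a + 1) t (x c) u (w c)
      = (2 * c₂) * ∏ c ∈ V.filter (fun c => w c 0 = u 0),
          kap a (Fin.tail t) (tl x c) (Fin.tail u) (tl w c))
    (hIH : Evt a (Fin.tail t) (Fin.tail u) (V.filter (fun c => w c 0 = u 0)) (tl x) (tl w)
      = (1 / 2 : ℝ) ^ a * (∏ c ∈ V.filter (fun c => w c 0 = u 0),
          kap a (Fin.tail t) (tl x c) (Fin.tail u) (tl w c))
        * Ev a (V.filter (fun c => w c 0 = u 0)) (tl x) (tl w)) :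
    Evt (a + 1) t u V x w
      = (1 / 2 : ℝ) ^ (a + 1) * (∏ c ∈ V, kap (a + 1) t (x c) u (w c)) * Ev (a + 1) V x w := by
  rw [Ev_succ, hkap]
  cases hu : u 0
  · rw [Evt_succ_false t u hu, hF]
    rw [hu] at hIH
    rw [hIH, pow_succ]
    ring
  · rw [Evt_succ_true t u hu, hF]
    rw [hu] at hIH
    rw [hIH, pow_succ]
    ring

theorem kap_partner_same {a : ℕ} {V : Finset ι} {x w : ι → Cube (a + 1)} {t u : Cube (a + 1)}
    {c₀ : ι} (hc₀ : c₀ ∈ V) (htl : Fin.tail (x c₀) = Fin.tail t) (hx₀ : x c₀ 0 ≠ t 0)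
    (hw₀ : w c₀ 0 = u 0) :
    Evt (a + 1) t u V x w
      = (1 / 2 : ℝ) ^ (a + 1) * (∏ c ∈ V, kap (a + 1) t (x c) u (w c)) * Ev (a + 1) V x w := by
  have hk : ∏ c ∈ V, kap (a + 1) t (x c) u (w c) = 0 := by
    refine Finset.prod_eq_zero hc₀ ?_
    rw [kap_succ_eq htl.symm]
    rw [if_neg]
    rintro ⟨_, h2⟩
    exact h2 hw₀.symm
  have hFt : Fzt a t u V x w = 0 := by
    unfold Fzt
    have : ∀ A : Cube a → Bool, ind (xor (t 0) (A (Fin.tail t)) = u 0)
        * ∏ c ∈ V, ind (xor (x c 0) (A (Fin.tail (x c))) = w c 0) = 0 := by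
      intro A
      by_cases h1 : xor (t 0) (A (Fin.tail t)) = u 0
      · have h3 : ¬ xor (x c₀ 0) (A (Fin.tail (x c₀))) = w c₀ 0 := by
          intro h2
          apply hx₀
          rw [htl, hw₀] at h2
          exact bool_aux1 _ _ _ _ h2 h1
        rw [Finset.prod_eq_zero hc₀ (ind_false' h3), mul_zero]
      · rw [ind_false' h1, zero_mul]
    simp only [this]
    exact avg_const 0
  rw [hk]
  cases hu : u 0
  · rw [Evt_succ_false t u hu, hFt]
    simp
  · rw [Evt_succ_true t u hu, hFt]
    simp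

theorem Fzt_partner {a : ℕ} {V : Finset ι} {x w : ι → Cube (a + 1)} {t u : Cube (a + 1)}
    {c₀ : ι} (hc₀ : c₀ ∈ V) (htl : Fin.tail (x c₀) = Fin.tail t) (hx₀ : x c₀ 0 ≠ t 0)
    (hw₀ : w c₀ 0 ≠ u 0) : Fzt a t u V x w = 1 * Fz a V x w := by
  rw [one_mul]
  unfold Fzt Fz
  congr 1
  funext A
  by_cases hG : ∏ c ∈ V, ind (xor (x c 0) (A (Fin.tail (x c))) = w c 0) = 0
  · rw [hG, mul_zero]
  · have h1 : xor (x c₀ 0) (A (Fin.tail (x c₀))) = w c₀ 0 := by
      by_contra hcon
      exact hG (Finset.prod_eq_zero hc₀ (ind_false' hcon))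
    have h2 : xor (t 0) (A (Fin.tail t)) = u 0 := by
      rw [htl] at h1
      exact bool_aux3 _ _ _ _ _ hx₀ hw₀ h1
    rw [ind_true' h2, one_mul]

theorem kap_prod_partner {a : ℕ} {V : Finset ι} {x w : ι → Cube (a + 1)} {t u : Cube (a + 1)}
    {c₀ : ι} (hc₀ : c₀ ∈ V) (htl : Fin.tail (x c₀) = Fin.tail t) (hx₀ : x c₀ 0 ≠ t 0)
    (hw₀ : w c₀ 0 ≠ u 0) (huniq : ∀ c ∈ V, Fin.tail (x c) = Fin.tail t → c = c₀) :
    ∏ c ∈ V, kap (a + 1) t (x c) u (w c)
      = (2 * 1) * ∏ c ∈ V.filter (fun c => w c 0 = u 0),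
          kap a (Fin.tail t) (tl x c) (Fin.tail u) (tl w c) := by
  have h1 : ∀ c ∈ V, kap (a + 1) t (x c) u (w c)
      = (if c = c₀ then 2 else 1) * (if w c 0 = u 0 then
          kap a (Fin.tail t) (tl x c) (Fin.tail u) (tl w c) else 1) := by
    intro c hc
    by_cases hcc : c = c₀
    · subst hcc
      rw [kap_succ_eq htl.symm, if_pos ⟨hx₀.symm, fun h => hw₀ h.symm⟩, if_pos rfl, if_neg hw₀,
        mul_one]
    · have h2 : Fin.tail t ≠ Fin.tail (x c) := fun h => hcc (huniq c hc h.symm)
      rw [kap_succ_ne h2, if_neg hcc, one_mul]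
      by_cases h3 : w c 0 = u 0
      · rw [if_pos h3, if_neg (by rw [h3]; exact fun h => h rfl)]
        rfl
      · rw [if_neg h3, if_pos (fun h => h3 h.symm)]
  rw [Finset.prod_congr rfl h1, Finset.prod_mul_distrib, Finset.prod_ite_eq' V c₀, if_pos hc₀,
    Finset.prod_filter, mul_one]

theorem Fzt_free {a : ℕ} {V : Finset ι} {x w : ι → Cube (a + 1)} {t u : Cube (a + 1)}
    (hp : ∀ c ∈ V, Fin.tail (x c) ≠ Fin.tail t) : Fzt a t u V x w = (1 / 2) * Fz a V x w := by
  unfold Fzt Fz
  have h1 := avg_flip_half (Fin.tail t) (xor (t 0) (u 0))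
    (fun A : Cube a → Bool => ∏ c ∈ V, ind (xor (x c 0) (A (Fin.tail (x c))) = w c 0)) (by
      intro A b
      refine Finset.prod_congr rfl (fun c hc => ?_)
      rw [Function.update_of_ne (hp c hc)])
  rw [← h1]
  congr 1
  funext A
  congr 1
  unfold ind
  cases h3 : t 0 <;> cases h4 : u 0 <;> cases h5 : A (Fin.tail t) <;> simp

theorem kap_prod_free {a : ℕ} {V : Finset ι} {x w : ι → Cube (a + 1)} {t u : Cube (a + 1)}
    (hp : ∀ c ∈ V, Fin.tail (x c) ≠ Fin.tail t) :
    ∏ c ∈ V, kap (a + 1) t (x c) u (w c)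
      = (2 * (1 / 2)) * ∏ c ∈ V.filter (fun c => w c 0 = u 0),
          kap a (Fin.tail t) (tl x c) (Fin.tail u) (tl w c) := by
  have h1 : ∀ c ∈ V, kap (a + 1) t (x c) u (w c) = (if w c 0 = u 0 then
      kap a (Fin.tail t) (tl x c) (Fin.tail u) (tl w c) else 1) := by
    intro c hc
    rw [kap_succ_ne (fun h => hp c hc h.symm)]
    by_cases h3 : w c 0 = u 0
    · rw [if_pos h3, if_neg (by rw [h3]; exact fun h => h rfl)]
      rfl
    · rw [if_neg h3, if_pos (fun h => h3 h.symm)]
  rw [Finset.prod_congr rfl h1, Finset.prod_filter]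
  norm_num

/-- The one point formula. -/
theorem onecard (a : ℕ) (V : Finset ι) (x w : ι → Cube a) (t u : Cube a)
    (hinj : Set.InjOn x V) (ht : ∀ c ∈ V, x c ≠ t) :
    Evt a t u V x w = (1 / 2 : ℝ) ^ a * (∏ c ∈ V, kap a t (x c) u (w c)) * Ev a V x w := by
  induction a generalizing V with
  | zero => exact onecard_zero V x w t u ht
  | succ a ih =>
    -- the clash case
    by_cases hcl : ∃ b ∈ V, ∃ c ∈ V, b ≠ c ∧ Fin.tail (x b) = Fin.tail (x c) ∧ w b 0 = w c 0
    · obtain ⟨b, hb, c, hc, hbc, htl, hww⟩ := hcl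
      have hx : x b 0 ≠ x c 0 := by
        intro h0
        exact hbc (hinj hb hc (cube_eq_of_head_tail h0 htl))
      exact onecard_clash t u hb hc hx htl hww
    push Not at hcl
    have hinjE : Set.InjOn (tl x) (V.filter (fun c => w c 0 = u 0) : Finset ι) := by
      intro b hb c hc hbc
      have hb' := Finset.mem_filter.mp (Finset.mem_coe.mp hb)
      have hc' := Finset.mem_filter.mp (Finset.mem_coe.mp hc)
      by_contra hne
      exact hcl b hb'.1 c hc'.1 hne hbc (hb'.2.trans hc'.2.symm)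
    by_cases hp : ∃ c₀ ∈ V, Fin.tail (x c₀) = Fin.tail t
    · obtain ⟨c₀, hc₀, htl⟩ := hp
      have hx₀ : x c₀ 0 ≠ t 0 := by
        intro h0
        exact ht c₀ hc₀ (cube_eq_of_head_tail h0 htl)
      by_cases hw₀ : w c₀ 0 = u 0
      · exact kap_partner_same hc₀ htl hx₀ hw₀
      · have hc₀' : ∀ c ∈ V, Fin.tail (x c) = Fin.tail t → c = c₀ := by
          intro c hc htc
          apply hinj hc hc₀
          refine cube_eq_of_head_tail ?_ (htc.trans htl.symm)
          have h1 : x c 0 ≠ t 0 := by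
            intro h0
            exact ht c hc (cube_eq_of_head_tail h0 htc)
          exact bool_aux2 _ _ _ h1 hx₀
        refine onecard_combine 1 (Fzt_partner hc₀ htl hx₀ hw₀) (kap_prod_partner hc₀ htl hx₀ hw₀ hc₀') ?_
        refine ih _ (tl x) (tl w) (Fin.tail t) (Fin.tail u) hinjE ?_
        intro c hc h2
        have hc' := Finset.mem_filter.mp hc
        have h3 := hc₀' c hc'.1 h2
        rw [h3] at hc'
        exact hw₀ hc'.2
    · push Not at hp
      refine onecard_combine (1 / 2) (Fzt_free hp) (kap_prod_free hp) ?_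
      refine ih _ (tl x) (tl w) (Fin.tail t) (Fin.tail u) hinjE ?_
      intro c hc
      exact hp c (Finset.mem_filter.mp hc).1

end ev

end Vale.Agent.Lib.P162
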