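import Vale.Agent.Lib.P162.NTra

/-! The layers of the regular representation and their traces. -/

namespace Vale.Agent.Lib.P162

open Equiv Finset Matrix

set_option linter.unusedSectionVars false

open scoped Classical

section layers

variable {Q : Type*} [Fintype Q] [DecidableEq Q]

/-- The layers of the regular representation. -/
noncomputable def Ej (Q : Type*) [Fintype Q] [DecidableEq Q] : ℕ → Submodule ℝ (RegE Q)
  | 0 => Dl Q 0
  | j + 1 => Dl Q (j + 1) ⊓ (Dl Q j)ᗮ

theorem Ej_le_Dl (j : ℕ) : Ej Q j ≤ Dl Q j := by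
  cases j with
  | zero => exact le_rfl
  | succ j => exact inf_le_left

theorem Ej_invariant (j : ℕ) (g : Perm Q) {v : RegE Q} (hv : v ∈ Ej Q j) : rho g v ∈ Ej Q j := by
  cases j with
  | zero => exact Dl_invariant 0 g hv
  | succ j =>
    exact ⟨Dl_invariant _ g hv.1, orth_invariant (fun k v hv => Dl_invariant j k hv) g hv.2⟩

/-- The extension by zero of `phi`. -/
theorem extZ_phi {ι : Type*} [Fintype ι] [DecidableEq ι] (b : ι ↪ Q) (u : RegE Q) (z : ι → Q) :
    extZ (phi b u : (ι ↪ Q) → ℝ) z = ∑ y : Perm Q, if (actE y⁻¹ b : ι → Q) = z then u y else 0 := by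
  by_cases hz : Function.Injective z
  · have h1 : extZ (phi b u : (ι ↪ Q) → ℝ) z = phi b u ⟨z, hz⟩ := extZ_coe _ ⟨z, hz⟩
    rw [h1, phi_apply]
    refine Finset.sum_congr rfl (fun y _ => ?_)
    have h2 : actE y⁻¹ b = ⟨z, hz⟩ ↔ (actE y⁻¹ b : ι → Q) = z := by
      constructor
      · intro h
        rw [h]
        rfl
      · intro h
        ext c
        rw [h]
        rfl
    simp only [h2]
  · rw [extZ_of_not_inj _ hz]
    symm
    refine Finset.sum_eq_zero (fun y _ => if_neg ?_)
    intro h
    apply hz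
    rw [← h]
    exact (actE y⁻¹ b).injective

/-- The sum over one coordinate. -/
theorem sum_update_ite {ι : Type*} [DecidableEq ι] (z x : ι → Q) (c : ι) (r : ℝ)
    [∀ t, Decidable (z = Function.update x c t)] [Decidable (∀ c', c' ≠ c → z c' = x c')] :
    ∑ t, (if z = Function.update x c t then r else 0) = if ∀ c', c' ≠ c → z c' = x c' then r else 0 := by
  by_cases h : ∀ c', c' ≠ c → z c' = x c'
  · rw [if_pos h, Finset.sum_eq_single (z c)]
    · rw [if_pos]
      funext c'
      by_cases hc : c' = c
      · subst hc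
        simp
      · rw [Function.update_of_ne hc, h c' hc]
    · intro t _ ht
      rw [if_neg]
      intro h2
      apply ht
      rw [h2]
      simp
    · intro h2
      exact absurd (Finset.mem_univ _) h2
  · rw [if_neg h]
    refine Finset.sum_eq_zero (fun t _ => if_neg ?_)
    intro h2
    apply h
    intro c' hc
    rw [h2, Function.update_of_ne hc]

/-- Vectors of a layer have vanishing marginals. -/
theorem phi_mem_Vtop {j : ℕ} (b : Fin j ↪ Q) {u : RegE Q} (hu : u ∈ Ej Q j) :
    phi b u ∈ Vtop (Fin j) Q := by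
  cases j with
  | zero =>
    intro x c
    exact c.elim0
  | succ j =>
    intro x c
    have hperp := hu.2
    have h0 : ∀ t, extZ (phi b u : (Fin (j + 1) ↪ Q) → ℝ) (Function.update x c t)
        = ∑ y : Perm Q, if (actE y⁻¹ b : Fin (j + 1) → Q) = Function.update x c t then u y else 0 :=
      fun t => extZ_phi b u _
    simp only [h0]
    rw [Finset.sum_comm]
    have h1 : ∀ y : Perm Q, ∑ t, (if (actE y⁻¹ b : Fin (j + 1) → Q) = Function.update x c t then u y else 0)
        = if ∀ c', c' ≠ c → y⁻¹ (b c') = x c' then u y else 0 := by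
      intro y
      exact sum_update_ite (Q := Q) (ι := Fin (j + 1)) _ _ _ _
    simp only [h1]
    set e : Fin j ↪ Fin (j + 1) := Fin.succAboveEmb c with he
    have hsucc : ∀ c', c' ≠ c → ∃ i, e i = c' := by
      intro c' hc
      obtain ⟨i, hi⟩ := Fin.exists_succAbove_eq hc
      exact ⟨i, hi⟩
    have hne : ∀ i, e i ≠ c := fun i => Fin.succAbove_ne c i
    by_cases hinj : Function.Injective (fun i => x (e i))
    · let a' : Fin j ↪ Q := ⟨fun i => x (e i), hinj⟩
      let b' : Fin j ↪ Q := e.trans b
      have hmem : psi b' (EuclideanSpace.single a' (1 : ℝ)) ∈ Dl Q j := psi_mem_Dl b' _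
      have h2 := (Submodule.mem_orthogonal _ _).mp hperp _ hmem
      rw [inner_reg] at h2
      refine Eq.trans ?_ h2
      refine Finset.sum_congr rfl (fun y _ => ?_)
      rw [psi_apply]
      have h3 : (∀ c', c' ≠ c → y⁻¹ (b c') = x c') ↔ actE y⁻¹ b' = a' := by
        constructor
        · intro h
          ext i
          exact h (e i) (hne i)
        · intro h c' hc
          obtain ⟨i, rfl⟩ := hsucc c' hc
          have := DFunLike.congr_fun h i
          exact this
      by_cases h4 : actE y⁻¹ b' = a'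
      · rw [if_pos (h3.mpr h4), h4]
        simp
      · rw [if_neg (fun h => h4 (h3.mp h))]
        simp [h4]
    · refine Finset.sum_eq_zero (fun y _ => if_neg ?_)
      intro h
      apply hinj
      intro i k hik
      simp only at hik
      rw [← h (e i) (hne i), ← h (e k) (hne k)] at hik
      exact e.injective (b.injective ((y⁻¹).injective hik))

/-- The sets of cards. -/
abbrev Bb (j : ℕ) (Q : Type*) [Fintype Q] [DecidableEq Q] := {S : Finset Q // S.card = j}

/-- An enumeration of a set of cards. -/
noncomputable def bS {j : ℕ} (S : Bb j Q) : Fin j ↪ Q :=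
  (S.1.equivFinOfCardEq S.2).symm.toEmbedding.trans (Function.Embedding.subtype _)

theorem bS_mem {j : ℕ} (S : Bb j Q) (i : Fin j) : bS S i ∈ S.1 :=
  ((S.1.equivFinOfCardEq S.2).symm i).2

theorem bS_surj {j : ℕ} (S : Bb j Q) {q : Q} (hq : q ∈ S.1) : ∃ i, bS S i = q := by
  refine ⟨S.1.equivFinOfCardEq S.2 ⟨q, hq⟩, ?_⟩
  simp [bS]

/-- All enumerations are obtained from the chosen one by a permutation. -/
theorem exists_reindex {j : ℕ} (b : Fin j ↪ Q) :
    ∃ (S : Bb j Q) (σ : Perm (Fin j)), ∀ i, b i = bS S (σ i) := by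
  let S0 : Finset Q := Finset.univ.image b
  have hS0 : S0.card = j := by
    rw [Finset.card_image_of_injective _ b.injective, Finset.card_univ, Fintype.card_fin]
  let S : Bb j Q := ⟨S0, hS0⟩
  have h1 : ∀ i, ∃ k, bS S k = b i := fun i =>
    bS_surj S (Finset.mem_image_of_mem _ (Finset.mem_univ i))
  choose f hf using h1
  have hfinj : Function.Injective f := by
    intro i k hik
    apply b.injective
    rw [← hf i, ← hf k, hik]
  have hfbij : Function.Bijective f := Finite.injective_iff_bijective.mp hfinj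
  exact ⟨S, Equiv.ofBijective f hfbij, fun i => (hf i).symm⟩

/-- Vectors of a level are determined by the chosen enumerations. -/
theorem eq_zero_of_phi {j : ℕ} {u : RegE Q} (hu : u ∈ Dl Q j)
    (h : ∀ S : Bb j Q, phi (bS S) u = 0) : u = 0 := by
  have hall : ∀ b : Fin j ↪ Q, phi b u = 0 := by
    intro b
    obtain ⟨S, σ, hσ⟩ := exists_reindex b
    ext a
    rw [phi_apply]
    have h0 := congrArg (fun v : TupE (Fin j) Q => v ((σ⁻¹).toEmbedding.trans a)) (h S)
    simp only [phi_apply] at h0
    have hz : (0 : TupE (Fin j) Q) ((σ⁻¹).toEmbedding.trans a) = 0 := rfl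
    rw [hz] at h0
    change _ = (0 : ℝ)
    refine Eq.trans ?_ h0
    refine Finset.sum_congr rfl (fun x _ => ?_)
    have h1 : actE x⁻¹ b = a ↔ actE x⁻¹ (bS S) = (σ⁻¹).toEmbedding.trans a := by
      constructor
      · rintro rfl
        ext i
        simp [hσ]
      · intro h2
        ext i
        have := DFunLike.congr_fun h2 (σ i)
        simpa [hσ] using this
    simp only [h1]
  have hle : Dl Q j ≤ (ℝ ∙ u)ᗮ := by
    refine iSup_le (fun b => ?_)
    rintro _ ⟨k, rfl⟩
    rw [Submodule.mem_orthogonal_singleton_iff_inner_right, real_inner_comm, inner_psi_phi, hall b]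
    simp
  have h2 := hle hu
  rw [Submodule.mem_orthogonal_singleton_iff_inner_right] at h2
  exact inner_self_eq_zero.mp h2

end layers

section wspace

variable {Q : Type*} [Fintype Q] [DecidableEq Q] {j : ℕ}

/-- The action on pairs of a set of cards and a tuple of positions. -/
def actW (g : Perm Q) : (Bb j Q × (Fin j ↪ Q)) ≃ (Bb j Q × (Fin j ↪ Q)) :=
  (Equiv.refl _).prodCongr (actE g)

/-- The direct sum of the tuple spaces, over all sets of cards. -/
abbrev WE (j : ℕ) (Q : Type*) [Fintype Q] [DecidableEq Q] :=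
  EuclideanSpace ℝ (Bb j Q × (Fin j ↪ Q))

/-- The operators of the representation on the direct sum. -/
noncomputable def piWF (g : Perm Q) : WE j Q →L[ℝ] WE j Q :=
  ((LinearIsometryEquiv.piLpCongrLeft 2 ℝ ℝ (actW (j := j) g)).toLinearIsometry).toContinuousLinearMap

theorem piWF_apply (g : Perm Q) (h : WE j Q) (p : Bb j Q × (Fin j ↪ Q)) :
    piWF g h p = h ((actW g).symm p) := by
  simp [piWF, LinearIsometryEquiv.piLpCongrLeft_apply]

/-- The representation on the direct sum. -/
noncomputable def piW : Perm Q →* (WE j Q →L[ℝ] WE j Q) where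
  toFun := piWF
  map_one' := by
    ext h p
    rw [piWF_apply]
    congr 1
  map_mul' g k := by
    ext h p
    change piWF (g * k) h p = piWF g (piWF k h) p
    rw [piWF_apply, piWF_apply, piWF_apply]
    congr 1

theorem piW_apply (g : Perm Q) (h : WE j Q) (S : Bb j Q) (a : Fin j ↪ Q) :
    piW g h (S, a) = h (S, (actE g).symm a) := piWF_apply g h (S, a)

theorem isOrth_piW : IsOrth (piW : Perm Q →* (WE j Q →L[ℝ] WE j Q)) := by
  intro g x y
  exact LinearIsometry.inner_map_map
    ((LinearIsometryEquiv.piLpCongrLeft 2 ℝ ℝ (actW (j := j) g)).toLinearIsometry) x y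

/-- The fibres over a set of cards. -/
noncomputable def fibW (S : Bb j Q) : WE j Q →ₗ[ℝ] TupE (Fin j) Q where
  toFun h := WithLp.toLp 2 (fun a => h (S, a))
  map_add' := by
    intro u v
    rfl
  map_smul' := by
    intro c u
    rfl

theorem fibW_apply (S : Bb j Q) (h : WE j Q) (a : Fin j ↪ Q) : fibW S h a = h (S, a) := rfl

theorem fibW_piW (S : Bb j Q) (g : Perm Q) (h : WE j Q) : fibW S (piW g h) = piT g (fibW S h) := by
  ext a
  rw [fibW_apply, piW_apply, piT_apply]
  rfl

/-- The map from the regular representation to the direct sum. -/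
noncomputable def PhiW : RegE Q →ₗ[ℝ] WE j Q where
  toFun f := WithLp.toLp 2 (fun p => phi (bS p.1) f p.2)
  map_add' := by
    intro u v
    ext p
    change phi (bS p.1) (u + v) p.2 = phi (bS p.1) u p.2 + phi (bS p.1) v p.2
    rw [map_add]
    rfl
  map_smul' := by
    intro c u
    ext p
    change phi (bS p.1) (c • u) p.2 = c * phi (bS p.1) u p.2
    rw [map_smul]
    rfl

theorem fibW_PhiW (S : Bb j Q) (f : RegE Q) : fibW S (PhiW f) = phi (bS S) f := by
  ext a
  rfl

theorem PhiW_rho (g : Perm Q) (f : RegE Q) : PhiW (rho g f) = piW g (PhiW (j := j) f) := by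
  ext ⟨S, a⟩
  rw [piW_apply]
  change phi (bS S) (rho g f) a = phi (bS S) f ((actE g).symm a)
  rw [phi_rho, piT_apply]

theorem norm_sq_W (h : WE j Q) : ‖h‖ ^ 2 = ∑ S : Bb j Q, ‖fibW S h‖ ^ 2 := by
  rw [EuclideanSpace.real_norm_sq_eq, Fintype.sum_prod_type]
  refine Finset.sum_congr rfl (fun S _ => ?_)
  rw [EuclideanSpace.real_norm_sq_eq]
  rfl

end wspace

end Vale.Agent.Lib.P162
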