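import Vale.Agent.Lib.P162.NCyc

/-! The moment step for the number of cycles contained in a set. -/

namespace Vale.Agent.Lib.P162

open Equiv Finset

set_option linter.unusedSectionVars false

variable {Y : Type*} [Fintype Y] [DecidableEq Y]

theorem pow_card_filter {α : Type*} (s : Finset α) (P : α → Prop) [DecidablePred P] (c : ℝ) :
    c ^ (s.filter P).card = ∏ y ∈ s, (if P y then c else 1) := by
  rw [Finset.prod_ite]
  simp

/-- The number of points of `U` above `p`. -/
def fib (U : Finset (Bool × Y)) (p : Y) : ℕ :=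
  (if (false, p) ∈ U then 1 else 0) + (if (true, p) ∈ U then 1 else 0)

theorem card_eq_sum_fib (U : Finset (Bool × Y)) : U.card = ∑ p, fib U p := by
  classical
  have h1 : U.card = ∑ u : Bool × Y, (if u ∈ U then 1 else 0) := by
    rw [Finset.sum_ite_mem]
    simp
  rw [h1, Fintype.sum_prod_type_right]
  refine Finset.sum_congr rfl (fun p _ => ?_)
  rw [Fintype.sum_bool, fib, add_comm]

/-- The thinning average. -/
theorem thin_avg {b : ℝ} (hb : 1 ≤ b) (U : Finset (Bool × Y)) :
    avg (fun A : Y → Bool => b ^ (U.filter (fun u => A u.2 ≠ u.1)).card)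
      ≤ ((1 + b) / 2) ^ U.card := by
  classical
  let φ : Y → Bool → ℝ := fun p a =>
    (if (true, p) ∈ U ∧ a ≠ true then b else 1) * (if (false, p) ∈ U ∧ a ≠ false then b else 1)
  have h1 : ∀ A : Y → Bool, b ^ (U.filter (fun u => A u.2 ≠ u.1)).card = ∏ p, φ p (A p) := by
    intro A
    have h2 : U.filter (fun u => A u.2 ≠ u.1)
        = Finset.univ.filter (fun u : Bool × Y => u ∈ U ∧ A u.2 ≠ u.1) := by
      ext u
      simp
    rw [h2, pow_card_filter, Fintype.prod_prod_type_right]
    refine Finset.prod_congr rfl (fun p _ => ?_)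
    rw [Fintype.prod_bool]
  simp only [h1]
  have hc : (0 : ℝ) ≤ (1 + b) / 2 := by linarith
  have hb0 : (0 : ℝ) ≤ b := by linarith
  have h3 : ∀ p, 0 ≤ avg (φ p) := by
    intro p
    refine avg_nonneg (fun a => ?_)
    simp only [φ]
    refine mul_nonneg ?_ ?_ <;> split_ifs <;> linarith
  have h4 : ∀ p, avg (φ p) ≤ ((1 + b) / 2) ^ fib U p := by
    intro p
    rw [avg_bool]
    simp only [φ, fib]
    by_cases h0 : (false, p) ∈ U <;> by_cases h1 : (true, p) ∈ U <;> simp [h0, h1]
    all_goals first | nlinarith | linarith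
  calc avg (fun A : Y → Bool => ∏ p, φ p (A p))
      ≤ ∏ p, ((1 + b) / 2) ^ fib U p := avg_fun_prod_le φ _ h3 h4
    _ = ((1 + b) / 2) ^ U.card := by
        rw [Finset.prod_pow_eq_pow_sum, ← card_eq_sum_fib]

/-- The average over the second flip. -/
theorem flip_avg {b : ℝ} (hb : 1 ≤ b) (D : Finset (Bool × Y)) :
    avg (fun A' : Y → Bool =>
      b ^ (Finset.univ.filter (fun y => (A' y, y) ∈ D)).card
        * ((1 + b) / 2) ^ (Finset.univ.filter (fun y => (!A' y, y) ∈ D)).card)
      ≤ ((3 * b + 1) / 4) ^ D.card := by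
  classical
  let φ : Y → Bool → ℝ := fun p a =>
    (if (a, p) ∈ D then b else 1) * (if (!a, p) ∈ D then (1 + b) / 2 else 1)
  have h1 : ∀ A : Y → Bool, b ^ (Finset.univ.filter (fun y => (A y, y) ∈ D)).card
        * ((1 + b) / 2) ^ (Finset.univ.filter (fun y => (!A y, y) ∈ D)).card = ∏ p, φ p (A p) := by
    intro A
    rw [pow_card_filter, pow_card_filter, ← Finset.prod_mul_distrib]
  simp only [h1]
  have hc : (0 : ℝ) ≤ (1 + b) / 2 := by linarith
  have hb0 : (0 : ℝ) ≤ b := by linarith
  have h3 : ∀ p, 0 ≤ avg (φ p) := by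
    intro p
    refine avg_nonneg (fun a => ?_)
    simp only [φ]
    refine mul_nonneg ?_ ?_ <;> split_ifs <;> linarith
  have h4 : ∀ p, avg (φ p) ≤ ((3 * b + 1) / 4) ^ fib D p := by
    intro p
    rw [avg_bool]
    simp only [φ, fib]
    by_cases h0 : (false, p) ∈ D <;> by_cases h1 : (true, p) ∈ D <;> simp [h0, h1]
    all_goals first | nlinarith | linarith
  calc avg (fun A : Y → Bool => ∏ p, φ p (A p))
      ≤ ∏ p, ((3 * b + 1) / 4) ^ fib D p := avg_fun_prod_le φ _ h3 h4
    _ = ((3 * b + 1) / 4) ^ D.card := by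
        rw [Finset.prod_pow_eq_pow_sum, ← card_eq_sum_fib]

theorem flipPerm_inv (c : Y → Bool) : (flipPerm c)⁻¹ = flipPerm c := by
  ext1 x
  rfl

theorem flipPerm_mul_self (c : Y → Bool) : flipPerm c * flipPerm c = 1 := by
  nth_rewrite 1 [← flipPerm_inv c]
  exact inv_mul_cancel _

variable {Ω : Type*} [Fintype Ω] [Nonempty Ω]

/-- The moment step. -/
theorem moment_step {σ : Ω → Perm Y} {q b : ℝ} (hq : 1 ≤ q) (hb : 1 ≤ b)
    (H : ∀ (t : Perm Y) (D : Finset Y), avg (fun ω => q ^ cyc (σ ω * t) D) ≤ b ^ D.card)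
    (t : Perm (Bool × Y)) (D : Finset (Bool × Y)) :
    avg (fun A' : Y → Bool => avg (fun A : Y → Bool => avg (fun ω₁ => avg (fun ω₀ =>
      q ^ cyc (flipPerm A' * (side false (σ ω₀) * side true (σ ω₁)) * flipPerm A * t) D))))
      ≤ ((3 * b + 1) / 4) ^ D.card := by
  classical
  have hq0 : (0 : ℝ) ≤ q := by linarith
  have hb0 : (0 : ℝ) ≤ b := by linarith
  -- the sets
  let Dt : (Y → Bool) → Finset (Bool × Y) := fun A' => D.map (flipPerm A').symm.toEmbedding
  let hh : (Y → Bool) → (Y → Bool) → Perm (Bool × Y) := fun A' A => flipPerm A * t * flipPerm A'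
  let Y1 : (Y → Bool) → Finset Y := fun A' => Finset.univ.filter (fun y => (!A' y, y) ∈ D)
  let ff : (Y → Bool) → Y → Bool × Y := fun A' y => t (!A' y, y)
  have hff : ∀ A', Function.Injective (ff A') := by
    intro A' y y' h
    have := t.injective h
    exact (Prod.ext_iff.mp this).2
  let U : (Y → Bool) → Finset (Bool × Y) := fun A' => (Y1 A').image (ff A')
  have hUcard : ∀ A', (U A').card = (Y1 A').card := fun A' =>
    Finset.card_image_of_injective _ (hff A')
  have hmemDt : ∀ A' i y, (i, y) ∈ Dt A' ↔ (xor i (A' y), y) ∈ D := by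
    intro A' i y
    simp only [Dt, Finset.mem_map]
    constructor
    · rintro ⟨z, hz, hzz⟩
      have h2 : z = flipPerm A' (i, y) := by
        rw [← hzz]
        simp [flipPerm]
      rw [h2] at hz
      simpa using hz
    · intro h
      refine ⟨_, h, ?_⟩
      simp [flipPerm]
  have hD0 : ∀ A', (D0 (Dt A')).card = (Finset.univ.filter (fun y => (A' y, y) ∈ D)).card := by
    intro A'
    congr 1
    ext y
    simp only [D0, Finset.mem_filter, Finset.mem_univ, true_and]
    rw [hmemDt]
    simp
  have hD1 : ∀ A' A, (D1 (hh A' A) (Dt A')).card = ((U A').filter (fun u => A u.2 ≠ u.1)).card := by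
    intro A' A
    have h2 : (U A').filter (fun u => A u.2 ≠ u.1) = (D1 (hh A' A) (Dt A')).image (ff A') := by
      ext u
      simp only [U, Finset.mem_filter, Finset.mem_image, D1, Finset.mem_univ, true_and, Y1]
      constructor
      · rintro ⟨⟨y, hy, rfl⟩, hu⟩
        refine ⟨y, ⟨?_, ?_⟩, rfl⟩
        · rw [hmemDt]; simpa using hy
        · simp only [hh, Equiv.Perm.mul_apply]
          have h3 : flipPerm A' (true, y) = (!A' y, y) := by simp
          rw [h3]
          change (flipPerm A (ff A' y)).1 = true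
          generalize ff A' y = w at hu
          obtain ⟨i, p⟩ := w
          simp only [flipPerm_apply]
          revert hu
          cases i <;> cases A p <;> simp
      · rintro ⟨y, ⟨h3, h4⟩, rfl⟩
        rw [hmemDt] at h3
        refine ⟨⟨y, by simpa using h3, rfl⟩, ?_⟩
        simp only [hh, Equiv.Perm.mul_apply] at h4
        have h5 : flipPerm A' (true, y) = (!A' y, y) := by simp
        rw [h5] at h4
        change (flipPerm A (ff A' y)).1 = true at h4
        generalize ff A' y = w at h4 ⊢
        obtain ⟨i, p⟩ := w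
        simp only [flipPerm_apply] at h4
        revert h4
        cases i <;> cases A p <;> simp
    rw [h2, Finset.card_image_of_injective _ (hff A')]
  -- pointwise splitting
  have hsplit : ∀ A' A ω₀ ω₁,
      q ^ cyc (flipPerm A' * (side false (σ ω₀) * side true (σ ω₁)) * flipPerm A * t) D
        ≤ q ^ cyc (σ ω₀ * firstRet false (side true (σ ω₁) * hh A' A)) (D0 (Dt A'))
          * q ^ cyc (σ ω₁ * firstRet true (hh A' A)) (D1 (hh A' A) (Dt A')) := by
    intro A' A ω₀ ω₁
    rw [← pow_add]
    apply pow_le_pow_right₀ hq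
    have h1 : flipPerm A' * (side false (σ ω₀) * side true (σ ω₁)) * flipPerm A * t
        = flipPerm A' * (side false (σ ω₀) * side true (σ ω₁) * hh A' A) * (flipPerm A')⁻¹ := by
      simp only [hh, flipPerm_inv]
      simp only [mul_assoc, flipPerm_mul_self, mul_one]
    rw [h1, cyc_conj]
    exact cyc_split _ _ _ _
  -- first two averages
  have hinner : ∀ A' A, avg (fun ω₁ => avg (fun ω₀ =>
      q ^ cyc (flipPerm A' * (side false (σ ω₀) * side true (σ ω₁)) * flipPerm A * t) D))
      ≤ b ^ (D0 (Dt A')).card * b ^ (D1 (hh A' A) (Dt A')).card := by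
    intro A' A
    have h1 : ∀ ω₁, avg (fun ω₀ =>
        q ^ cyc (flipPerm A' * (side false (σ ω₀) * side true (σ ω₁)) * flipPerm A * t) D)
        ≤ b ^ (D0 (Dt A')).card * q ^ cyc (σ ω₁ * firstRet true (hh A' A)) (D1 (hh A' A) (Dt A')) := by
      intro ω₁
      calc avg (fun ω₀ =>
            q ^ cyc (flipPerm A' * (side false (σ ω₀) * side true (σ ω₁)) * flipPerm A * t) D)
          ≤ avg (fun ω₀ => q ^ cyc (σ ω₀ * firstRet false (side true (σ ω₁) * hh A' A)) (D0 (Dt A'))
              * q ^ cyc (σ ω₁ * firstRet true (hh A' A)) (D1 (hh A' A) (Dt A'))) :=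
            avg_mono (fun ω₀ => hsplit A' A ω₀ ω₁)
        _ = avg (fun ω₀ => q ^ cyc (σ ω₀ * firstRet false (side true (σ ω₁) * hh A' A)) (D0 (Dt A')))
              * q ^ cyc (σ ω₁ * firstRet true (hh A' A)) (D1 (hh A' A) (Dt A')) := avg_mul_right _ _
        _ ≤ _ := by
            apply mul_le_mul_of_nonneg_right (H _ _)
            positivity
    calc avg (fun ω₁ => avg (fun ω₀ =>
          q ^ cyc (flipPerm A' * (side false (σ ω₀) * side true (σ ω₁)) * flipPerm A * t) D))
        ≤ avg (fun ω₁ => b ^ (D0 (Dt A')).card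
            * q ^ cyc (σ ω₁ * firstRet true (hh A' A)) (D1 (hh A' A) (Dt A'))) := avg_mono h1
      _ = b ^ (D0 (Dt A')).card
            * avg (fun ω₁ => q ^ cyc (σ ω₁ * firstRet true (hh A' A)) (D1 (hh A' A) (Dt A'))) :=
          avg_mul_left _ _
      _ ≤ _ := by
          apply mul_le_mul_of_nonneg_left (H _ _)
          positivity
  -- average over A
  have hA : ∀ A', avg (fun A : Y → Bool => avg (fun ω₁ => avg (fun ω₀ =>
      q ^ cyc (flipPerm A' * (side false (σ ω₀) * side true (σ ω₁)) * flipPerm A * t) D)))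
      ≤ b ^ (Finset.univ.filter (fun y => (A' y, y) ∈ D)).card
        * ((1 + b) / 2) ^ (Finset.univ.filter (fun y => (!A' y, y) ∈ D)).card := by
    intro A'
    calc avg (fun A : Y → Bool => avg (fun ω₁ => avg (fun ω₀ =>
          q ^ cyc (flipPerm A' * (side false (σ ω₀) * side true (σ ω₁)) * flipPerm A * t) D)))
        ≤ avg (fun A : Y → Bool => b ^ (D0 (Dt A')).card * b ^ ((U A').filter (fun u => A u.2 ≠ u.1)).card) := by
          refine avg_mono (fun A => ?_)
          rw [← hD1]
          exact hinner A' A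
      _ = b ^ (D0 (Dt A')).card * avg (fun A : Y → Bool => b ^ ((U A').filter (fun u => A u.2 ≠ u.1)).card) :=
          avg_mul_left _ _
      _ ≤ b ^ (D0 (Dt A')).card * ((1 + b) / 2) ^ (U A').card := by
          apply mul_le_mul_of_nonneg_left (thin_avg hb _)
          positivity
      _ = _ := by rw [hD0, hUcard]
  exact (avg_mono hA).trans (flip_avg hb D)

end Vale.Agent.Lib.P162
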