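import Vale.Agent.Lib.P162.NQ9

/-! The numerical potential: tail bound for binomial weights and the splitting identity. -/

namespace Vale.Agent.Lib.P162

open Finset

set_option linter.unusedSectionVars false

/-- The fourth root. -/
noncomputable def rt4 (x : ℝ) : ℝ := Real.sqrt (Real.sqrt x)

theorem rt4_nonneg (x : ℝ) : 0 ≤ rt4 x := Real.sqrt_nonneg _

theorem rt4_mul {x y : ℝ} (hx : 0 ≤ x) : rt4 (x * y) = rt4 x * rt4 y := by
  unfold rt4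
  rw [Real.sqrt_mul hx, Real.sqrt_mul (Real.sqrt_nonneg x)]

theorem rt4_le {x y : ℝ} (h : x ≤ y) : rt4 x ≤ rt4 y :=
  Real.sqrt_le_sqrt (Real.sqrt_le_sqrt h)

theorem rt4_sq {x : ℝ} : rt4 x ^ 2 = Real.sqrt x := Real.sq_sqrt (Real.sqrt_nonneg x)

theorem rt4_pow4 {x : ℝ} (hx : 0 ≤ x) : rt4 x ^ 4 = x := by
  have h : rt4 x ^ 4 = (rt4 x ^ 2) ^ 2 := by ring
  rw [h, rt4_sq, Real.sq_sqrt hx]

@[simp] theorem rt4_one : rt4 1 = 1 := by
  unfold rt4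
  simp

theorem rt4_pow {x : ℝ} (hx : 0 ≤ x) (n : ℕ) : rt4 (x ^ n) = rt4 x ^ n := by
  induction n with
  | zero => simp
  | succ n ih => rw [pow_succ, rt4_mul (pow_nonneg hx n), ih, pow_succ]

/-- The entropy factor. -/
noncomputable def RR (a₀ a₁ : ℕ) : ℝ :=
  (2 * (a₀ : ℝ) / ((a₀ : ℝ) + a₁)) ^ a₀ * (2 * (a₁ : ℝ) / ((a₀ : ℝ) + a₁)) ^ a₁

theorem RR_nonneg (a₀ a₁ : ℕ) : 0 ≤ RR a₀ a₁ := by
  unfold RR
  positivity

/-- The entropy factor is at most Gaussian. -/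
theorem RR_le (a₀ a₁ : ℕ) (ha : 1 ≤ a₀ + a₁) :
    RR a₀ a₁ ≤ Real.exp (((a₀ : ℝ) - a₁) ^ 2 / ((a₀ : ℝ) + a₁)) := by
  have ha' : (0 : ℝ) < (a₀ : ℝ) + a₁ := by exact_mod_cast (by omega : 0 < a₀ + a₁)
  set A : ℝ := (a₀ : ℝ) + a₁ with hA
  have h1 : ∀ m : ℕ, (2 * (m : ℝ) / A) ^ m ≤ Real.exp ((m : ℝ) * (2 * (m : ℝ) / A - 1)) := by
    intro m
    have h2 : 2 * (m : ℝ) / A ≤ Real.exp (2 * (m : ℝ) / A - 1) := by
      have := Real.add_one_le_exp (2 * (m : ℝ) / A - 1)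
      linarith
    calc (2 * (m : ℝ) / A) ^ m ≤ Real.exp (2 * (m : ℝ) / A - 1) ^ m :=
          pow_le_pow_left₀ (by positivity) h2 m
      _ = _ := by rw [← Real.exp_nat_mul]
  unfold RR
  calc _ ≤ Real.exp ((a₀ : ℝ) * (2 * (a₀ : ℝ) / A - 1)) * Real.exp ((a₁ : ℝ) * (2 * (a₁ : ℝ) / A - 1)) :=
        mul_le_mul (h1 a₀) (h1 a₁) (by positivity) (Real.exp_pos _).le
    _ = _ := by
        rw [← Real.exp_add]
        congr 1
        field_simp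
        rw [hA]
        ring

/-- The tail bound of the binomial weights. -/
theorem Pn_le_exp (n b : ℕ) (hn : 1 ≤ n) (hb : b ≤ n) :
    Pn n b ≤ Real.exp (-((2 * (b : ℝ) - n) ^ 2 / (2 * (n : ℝ)))) := by
  have hn' : (0 : ℝ) < (n : ℝ) := by exact_mod_cast hn
  set l : ℝ := (2 * (b : ℝ) - n) / n with hl
  have h1 : (n.choose b : ℝ) * Real.exp (l * (2 * (b : ℝ) - n)) ≤ (Real.exp l + Real.exp (-l)) ^ n := by
    rw [add_pow]
    have h2 : ∀ m ∈ Finset.range (n + 1), (0 : ℝ) ≤ Real.exp l ^ m * Real.exp (-l) ^ (n - m) * (n.choose m : ℝ) :=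
      fun m _ => by positivity
    have h3 := Finset.single_le_sum h2 (Finset.mem_range.mpr (Nat.lt_succ_of_le hb))
    refine le_trans (le_of_eq ?_) h3
    rw [← Real.exp_nat_mul, ← Real.exp_nat_mul, ← Real.exp_add, mul_comm]
    congr 2
    rw [Nat.cast_sub hb]
    ring
  have h4 : Real.exp l + Real.exp (-l) ≤ 2 * Real.exp (l ^ 2 / 2) := by
    have := Real.cosh_le_exp_half_sq l
    rw [Real.cosh_eq] at this
    linarith
  have h5 : (Real.exp l + Real.exp (-l)) ^ n ≤ 2 ^ n * Real.exp ((n : ℝ) * (l ^ 2 / 2)) := by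
    rw [Real.exp_nat_mul, ← mul_pow]
    exact pow_le_pow_left₀ (by positivity) h4 n
  have h6 := h1.trans h5
  have h2n : (0 : ℝ) < 2 ^ n := by positivity
  unfold Pn
  rw [div_le_iff₀ h2n]
  have h7 : (n.choose b : ℝ) ≤ 2 ^ n * Real.exp ((n : ℝ) * (l ^ 2 / 2) - l * (2 * (b : ℝ) - n)) := by
    rw [Real.exp_sub, ← mul_div_assoc, le_div_iff₀ (Real.exp_pos _)]
    exact h6
  refine h7.trans (le_of_eq ?_)
  rw [mul_comm]
  congr 2
  rw [hl]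
  field_simp
  ring

theorem Pn_le_one (n b : ℕ) : Pn n b ≤ 1 := by
  unfold Pn
  rw [div_le_one (by positivity)]
  exact_mod_cast Nat.choose_le_two_pow n b

/-- **The binomial weight against the entropy factor.** -/
theorem Pn_sq_RR (p n b : ℕ) (hb : b ≤ n) : Pn n b ^ 2 * RR (p + b) (p + (n - b)) ≤ 1 := by
  rcases Nat.eq_zero_or_pos (2 * p + n) with h0 | h0
  · have hp : p = 0 := by omega
    have hn : n = 0 := by omega
    subst hp hn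
    have hb0 : b = 0 := by omega
    subst hb0
    simp [Pn, RR]
  have hP0 := Pn_nonneg n b
  have h1 := RR_le (p + b) (p + (n - b)) (by omega)
  have hd : (((p + b : ℕ) : ℝ) - ((p + (n - b) : ℕ) : ℝ)) = 2 * (b : ℝ) - n := by
    push_cast
    rw [Nat.cast_sub hb]
    ring
  have hs : (((p + b : ℕ) : ℝ) + ((p + (n - b) : ℕ) : ℝ)) = 2 * (p : ℝ) + n := by
    push_cast
    rw [Nat.cast_sub hb]
    ring
  rw [hd, hs] at h1
  rcases Nat.eq_zero_or_pos n with hn | hn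
  · subst hn
    have hb0 : b = 0 := by omega
    subst hb0
    have h2 : Pn 0 0 = 1 := by simp [Pn]
    rw [h2]
    simp only [Nat.cast_zero, mul_zero, sub_self, ne_eq, OfNat.ofNat_ne_zero, not_false_eq_true,
      zero_pow, zero_div, Real.exp_zero] at h1
    simpa using h1
  have hn' : (0 : ℝ) < (n : ℝ) := by exact_mod_cast hn
  have h3 := Pn_le_exp n b hn hb
  set D : ℝ := (2 * (b : ℝ) - n) ^ 2 with hD
  have hD0 : 0 ≤ D := sq_nonneg _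
  have h4 : Pn n b ^ 2 ≤ Real.exp (-(D / (n : ℝ))) := by
    have h5 : Real.exp (-(D / (n : ℝ))) = Real.exp (-(D / (2 * (n : ℝ)))) ^ 2 := by
      rw [← Real.exp_nat_mul]
      congr 1
      push_cast
      field_simp
    rw [h5]
    exact pow_le_pow_left₀ hP0 h3 2
  have hp0 : (0 : ℝ) ≤ (p : ℝ) := Nat.cast_nonneg p
  have h6 : D / (2 * (p : ℝ) + n) ≤ D / (n : ℝ) :=
    div_le_div_of_nonneg_left hD0 hn' (by linarith)
  calc Pn n b ^ 2 * RR (p + b) (p + (n - b))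
      ≤ Real.exp (-(D / (n : ℝ))) * Real.exp (D / (2 * (p : ℝ) + n)) :=
        mul_le_mul h4 h1 (RR_nonneg _ _) (Real.exp_pos _).le
    _ = Real.exp (D / (2 * (p : ℝ) + n) - D / (n : ℝ)) := by
        rw [← Real.exp_add]
        congr 1
        ring
    _ ≤ 1 := by
        rw [Real.exp_le_one_iff]
        linarith

/-- The two consequences. -/
theorem Pn_sqrt_RR (p n b : ℕ) (hb : b ≤ n) : Pn n b * Real.sqrt (RR (p + b) (p + (n - b))) ≤ 1 := by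
  have h1 := Pn_sq_RR p n b hb
  have h0 := Pn_nonneg n b
  have h2 : (Pn n b * Real.sqrt (RR (p + b) (p + (n - b)))) ^ 2 ≤ 1 := by
    rw [mul_pow, Real.sq_sqrt (RR_nonneg _ _)]
    exact h1
  have h3 : 0 ≤ Pn n b * Real.sqrt (RR (p + b) (p + (n - b))) := by positivity
  nlinarith

theorem Pn_rt4_RR (p n b : ℕ) (hb : b ≤ n) : Pn n b * rt4 (RR (p + b) (p + (n - b))) ≤ 1 := by
  have h1 := Pn_sqrt_RR p n b hb
  have h0 := Pn_nonneg n b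
  have hP := Pn_le_one n b
  have h2 : (Pn n b * rt4 (RR (p + b) (p + (n - b)))) ^ 2 ≤ 1 := by
    rw [mul_pow, rt4_sq]
    calc Pn n b ^ 2 * Real.sqrt (RR (p + b) (p + (n - b)))
        = Pn n b * (Pn n b * Real.sqrt (RR (p + b) (p + (n - b)))) := by ring
      _ ≤ 1 * 1 := mul_le_mul hP h1 (by positivity) (by norm_num)
      _ = 1 := by norm_num
  have h3 : 0 ≤ Pn n b * rt4 (RR (p + b) (p + (n - b))) := mul_nonneg h0 (rt4_nonneg _)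
  nlinarith

/-- The scale of the potential. -/
noncomputable def Lam : ℝ := 2 ^ 24

theorem Lam_pos : 0 < Lam := by
  unfold Lam
  positivity

/-- **The potential.** -/
noncomputable def PhQ (N a : ℕ) : ℝ :=
  if a = 1 then 0 else Lam ^ a * rt4 (((a : ℝ) / (N : ℝ)) ^ a) / ((a : ℝ) + 1) ^ 12

theorem PhQ_nonneg (N a : ℕ) : 0 ≤ PhQ N a := by
  unfold PhQ
  have := Lam_pos
  have := rt4_nonneg (((a : ℝ) / (N : ℝ)) ^ a)
  split_ifs
  · exact le_rfl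
  · positivity

@[simp] theorem PhQ_one (N : ℕ) : PhQ N 1 = 0 := by
  simp [PhQ]

@[simp] theorem PhQ_zero (N : ℕ) : PhQ N 0 = 1 := by
  simp [PhQ]

/-- The splitting identity. -/
theorem PhQ_split {N : ℕ} (hN : 1 ≤ N) {a₀ a₁ : ℕ} (h0 : a₀ ≠ 1) (h1 : a₁ ≠ 1) (h : a₀ + a₁ ≠ 1) :
    PhQ N a₀ * PhQ N a₁ = PhQ (2 * N) (a₀ + a₁) *
      (rt4 (RR a₀ a₁) * (((a₀ : ℝ) + a₁ + 1) / (((a₀ : ℝ) + 1) * ((a₁ : ℝ) + 1))) ^ 12) := by
  unfold PhQ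
  rw [if_neg h0, if_neg h1, if_neg h]
  have hN' : (0 : ℝ) < (N : ℝ) := by exact_mod_cast hN
  have hA0 : (0 : ℝ) < (a₀ : ℝ) + 1 := by positivity
  have hA1 : (0 : ℝ) < (a₁ : ℝ) + 1 := by positivity
  have hA : (0 : ℝ) < (a₀ : ℝ) + a₁ + 1 := by positivity
  have hkey : ((a₀ : ℝ) / (N : ℝ)) ^ a₀ * ((a₁ : ℝ) / (N : ℝ)) ^ a₁
      = (((a₀ + a₁ : ℕ) : ℝ) / ((2 * N : ℕ) : ℝ)) ^ (a₀ + a₁) * RR a₀ a₁ := by
    rcases Nat.eq_zero_or_pos (a₀ + a₁) with h2 | h2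
    · have h3 : a₀ = 0 := by omega
      have h4 : a₁ = 0 := by omega
      subst h3 h4
      simp [RR]
    · have h3 : (0 : ℝ) < (a₀ : ℝ) + a₁ := by exact_mod_cast h2
      unfold RR
      push_cast
      have h4 : ∀ m : ℕ, ((m : ℝ) / (N : ℝ)) = ((a₀ : ℝ) + a₁) / (2 * (N : ℝ)) * (2 * (m : ℝ) / ((a₀ : ℝ) + a₁)) := by
        intro m
        field_simp
      rw [h4 a₀, h4 a₁, mul_pow, mul_pow, pow_add]
      ring
  have h5 : rt4 (((a₀ : ℝ) / (N : ℝ)) ^ a₀) * rt4 (((a₁ : ℝ) / (N : ℝ)) ^ a₁)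
      = rt4 ((((a₀ + a₁ : ℕ) : ℝ) / ((2 * N : ℕ) : ℝ)) ^ (a₀ + a₁)) * rt4 (RR a₀ a₁) := by
    rw [← rt4_mul (by positivity), ← rt4_mul (by positivity), hkey]
  have hL : Lam ^ (a₀ + a₁) = Lam ^ a₀ * Lam ^ a₁ := pow_add _ _ _
  have hρ : (((a₀ : ℝ) + a₁ + 1) / (((a₀ : ℝ) + 1) * ((a₁ : ℝ) + 1))) ^ 12
      = ((a₀ : ℝ) + a₁ + 1) ^ 12 / (((a₀ : ℝ) + 1) * ((a₁ : ℝ) + 1)) ^ 12 := div_pow _ _ _
  rw [hL, hρ]
  push_cast at h5 ⊢
  calc Lam ^ a₀ * rt4 (((a₀ : ℝ) / (N : ℝ)) ^ a₀) / ((a₀ : ℝ) + 1) ^ 12 *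
        (Lam ^ a₁ * rt4 (((a₁ : ℝ) / (N : ℝ)) ^ a₁) / ((a₁ : ℝ) + 1) ^ 12)
      = Lam ^ a₀ * Lam ^ a₁ * (rt4 (((a₀ : ℝ) / (N : ℝ)) ^ a₀) * rt4 (((a₁ : ℝ) / (N : ℝ)) ^ a₁))
          / (((a₀ : ℝ) + 1) ^ 12 * ((a₁ : ℝ) + 1) ^ 12) := by
        field_simp
    _ = _ := by
        rw [h5, mul_pow]
        field_simp

end Vale.Agent.Lib.P162
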