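import Vale.Agent.Lib.P162.NP1

/-! The numerical hypotheses of the recursion for the potential. -/

namespace Vale.Agent.Lib.P162

open Finset

set_option linter.unusedSectionVars false

open scoped Classical

/-- The summable weights. -/
noncomputable def fq (x : ℕ) : ℝ := if x < 2 then 0 else 1 / ((x : ℝ) + 1) ^ 2

theorem fq_nonneg (x : ℕ) : 0 ≤ fq x := by
  unfold fq
  split_ifs
  · exact le_rfl
  · positivity

theorem sum_fq_aux (M : ℕ) : ∑ x ∈ Finset.range (M + 2), fq x ≤ 1 / 2 - 1 / ((M : ℝ) + 2) := by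
  induction M with
  | zero =>
    simp [fq, Finset.sum_range_succ]
  | succ M ih =>
    rw [Finset.sum_range_succ]
    have h1 : fq (M + 2) = 1 / ((M : ℝ) + 3) ^ 2 := by
      unfold fq
      rw [if_neg (by omega)]
      push_cast
      ring_nf
    rw [h1]
    have h2 : 1 / ((M : ℝ) + 3) ^ 2 ≤ 1 / ((M : ℝ) + 2) - 1 / ((M : ℝ) + 3) := by
      have h3 : (0 : ℝ) < (M : ℝ) + 2 := by positivity
      have h4 : (0 : ℝ) < (M : ℝ) + 3 := by positivity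
      rw [div_sub_div _ _ h3.ne' h4.ne', div_le_div_iff₀ (by positivity) (by positivity)]
      nlinarith
    have h5 : (((M + 1 : ℕ) : ℝ) + 2) = (M : ℝ) + 3 := by
      push_cast
      ring
    rw [h5]
    linarith

theorem sum_fq_le (M : ℕ) : ∑ x ∈ Finset.range M, fq x ≤ 1 / 2 := by
  have h1 : ∑ x ∈ Finset.range M, fq x ≤ ∑ x ∈ Finset.range (M + 2), fq x :=
    Finset.sum_le_sum_of_subset_of_nonneg (Finset.range_subset_range.mpr (by omega))
      (fun x _ _ => fq_nonneg x)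
  have h2 := sum_fq_aux M
  have h3 : (0 : ℝ) ≤ 1 / ((M : ℝ) + 2) := by positivity
  linarith

theorem sum_shift_fq (p n : ℕ) : ∑ b ∈ Finset.range (n + 1), fq (p + b) ≤ 1 / 2 := by
  have h1 : ∑ b ∈ Finset.range (n + 1), fq (p + b) = ∑ x ∈ Finset.Ico p (p + (n + 1)), fq x := by
    rw [Finset.sum_Ico_eq_sum_range]
    simp
  rw [h1]
  refine (Finset.sum_le_sum_of_subset_of_nonneg ?_ (fun x _ _ => fq_nonneg x)).trans
    (sum_fq_le (p + (n + 1)))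
  intro x hx
  exact Finset.mem_range.mpr (Finset.mem_Ico.mp hx).2

theorem sum_shift_zero (p n : ℕ) :
    ∑ b ∈ Finset.range (n + 1), ind (p + b = 0) ≤ ind (p = 0) := by
  by_cases hp : p = 0
  · subst hp
    rw [ind_true' rfl]
    rw [Finset.sum_eq_single 0]
    · rw [ind_true' rfl]
    · intro b _ hb
      exact ind_false' (by omega)
    · intro h
      exact absurd (Finset.mem_range.mpr (by omega)) h
  · rw [ind_false' hp]
    refine le_of_eq (Finset.sum_eq_zero (fun b _ => ind_false' (by omega)))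

theorem sum_reflect (g : ℕ → ℝ) (p n : ℕ) :
    ∑ b ∈ Finset.range (n + 1), g (p + (n - b)) = ∑ b ∈ Finset.range (n + 1), g (p + b) :=
  Finset.sum_range_reflect (fun b => g (p + b)) (n + 1)

/-- The reciprocal factor. -/
noncomputable def rhoQ (a₀ a₁ : ℕ) : ℝ := ((a₀ : ℝ) + a₁ + 1) / (((a₀ : ℝ) + 1) * ((a₁ : ℝ) + 1))

theorem rhoQ_nonneg (a₀ a₁ : ℕ) : 0 ≤ rhoQ a₀ a₁ := by
  unfold rhoQ
  positivity

theorem rhoQ_zero_left (a₁ : ℕ) : rhoQ 0 a₁ = 1 := by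
  unfold rhoQ
  have : (0 : ℝ) < (a₁ : ℝ) + 1 := by positivity
  push_cast
  field_simp
  ring

theorem rhoQ_zero_right (a₀ : ℕ) : rhoQ a₀ 0 = 1 := by
  unfold rhoQ
  have : (0 : ℝ) < (a₀ : ℝ) + 1 := by positivity
  push_cast
  field_simp
  ring

theorem rhoQ_large {a₀ a₁ : ℕ} (h0 : 2 ≤ a₀) (h1 : 2 ≤ a₁) :
    rhoQ a₀ a₁ ≤ 2 / 3 ∧ rhoQ a₀ a₁ ^ 2 ≤ 2 * (fq a₀ + fq a₁) := by
  have h2 : (2 : ℝ) ≤ (a₀ : ℝ) := by exact_mod_cast h0
  have h3 : (2 : ℝ) ≤ (a₁ : ℝ) := by exact_mod_cast h1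
  set u : ℝ := 1 / ((a₀ : ℝ) + 1) with hu
  set v : ℝ := 1 / ((a₁ : ℝ) + 1) with hv
  have hu0 : 0 < u := by positivity
  have hv0 : 0 < v := by positivity
  have hu1 : u ≤ 1 / 3 := by
    rw [hu]
    exact one_div_le_one_div_of_le (by norm_num) (by linarith)
  have hv1 : v ≤ 1 / 3 := by
    rw [hv]
    exact one_div_le_one_div_of_le (by norm_num) (by linarith)
  have hr : rhoQ a₀ a₁ = u + v - u * v := by
    unfold rhoQ
    rw [hu, hv]
    field_simp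
    ring
  have hf0 : fq a₀ = u ^ 2 := by
    unfold fq
    rw [if_neg (by omega), hu, div_pow, one_pow]
  have hf1 : fq a₁ = v ^ 2 := by
    unfold fq
    rw [if_neg (by omega), hv, div_pow, one_pow]
  rw [hf0, hf1, hr]
  have huv : 0 < u * v := by positivity
  have h5 : u + v - u * v ≤ u + v := by linarith
  have h6 : 0 ≤ u + v - u * v := by nlinarith
  constructor
  · linarith
  · nlinarith [sq_nonneg (u - v)]

/-- The pointwise bound of the powers. -/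
theorem rho_pow_le {a₀ a₁ : ℕ} (h0 : 2 ≤ a₀) (h1 : 2 ≤ a₁) (m : ℕ) :
    rhoQ a₀ a₁ ^ (m + 2) ≤ (2 / 3 : ℝ) ^ m * (2 * (fq a₀ + fq a₁)) := by
  obtain ⟨h2, h3⟩ := rhoQ_large h0 h1
  rw [pow_add]
  exact mul_le_mul (pow_le_pow_left₀ (rhoQ_nonneg _ _) h2 m) h3 (by positivity) (by positivity)

theorem RR_zero_left (a : ℕ) (ha : 1 ≤ a) : RR 0 a = 2 ^ a := by
  unfold RR
  have : (a : ℝ) ≠ 0 := by
    have : (0 : ℝ) < (a : ℝ) := by exact_mod_cast ha
    exact this.ne'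
  simp [this]

theorem RR_zero_right (a : ℕ) (ha : 1 ≤ a) : RR a 0 = 2 ^ a := by
  unfold RR
  have : (a : ℝ) ≠ 0 := by
    have : (0 : ℝ) < (a : ℝ) := by exact_mod_cast ha
    exact this.ne'
  simp [this]

theorem rt4_two_le : rt4 2 ≤ 6 / 5 := by
  have h1 : rt4 2 ^ 4 = 2 := rt4_pow4 (by norm_num)
  have h0 := rt4_nonneg 2
  by_contra h
  push Not at h
  have h2 : (6 / 5 : ℝ) ^ 4 < rt4 2 ^ 4 := pow_lt_pow_left₀ h (by norm_num) (by norm_num)
  rw [h1] at h2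
  norm_num at h2

/-- The end terms of the binomial sum. -/
theorem end_term (a : ℕ) (ha : 2 ≤ a) : (1 / 2 : ℝ) ^ a * rt4 (2 ^ a) ≤ 9 / 25 := by
  rw [rt4_pow (by norm_num), ← mul_pow]
  have h0 := rt4_nonneg 2
  have h1 : (1 / 2 : ℝ) * rt4 2 ≤ 3 / 5 := by
    have := rt4_two_le
    linarith
  have h2 : 0 ≤ (1 / 2 : ℝ) * rt4 2 := by positivity
  calc ((1 / 2 : ℝ) * rt4 2) ^ a ≤ ((1 / 2 : ℝ) * rt4 2) ^ 2 :=
        pow_le_pow_of_le_one h2 (by linarith) ha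
    _ ≤ (3 / 5 : ℝ) ^ 2 := pow_le_pow_left₀ h2 h1 2
    _ = 9 / 25 := by norm_num

theorem Pn_zero_right (a : ℕ) : Pn a 0 = (1 / 2 : ℝ) ^ a := by
  unfold Pn
  simp

theorem Pn_self (a : ℕ) : Pn a a = (1 / 2 : ℝ) ^ a := by
  unfold Pn
  simp

/-- The weights for the sum with one power. -/
noncomputable def gq (x : ℕ) : ℝ := (2 * (2 / 3 : ℝ) ^ 10) * fq x + (9 / 25 : ℝ) * ind (x = 0)

theorem gq_nonneg (x : ℕ) : 0 ≤ gq x := by
  unfold gq
  have := fq_nonneg x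
  have := ind_nonneg (x = 0)
  positivity

/-- The bound of one term, one power. -/
theorem term_ZZ {N : ℕ} (hN : 1 ≤ N) (p n b : ℕ) (hb : b ≤ n) (h2 : 2 ≤ 2 * p + n) :
    Pn n b * (PhQ N (p + b) * PhQ N (p + (n - b)))
      ≤ PhQ (2 * N) (2 * p + n) * (gq (p + b) + gq (p + (n - b))) := by
  set a₀ := p + b with ha₀
  set a₁ := p + (n - b) with ha₁
  have hsum : a₀ + a₁ = 2 * p + n := by omega
  have hPh0 := PhQ_nonneg (2 * N) (2 * p + n)
  have hg0 := gq_nonneg a₀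
  have hg1 := gq_nonneg a₁
  have hP0 := Pn_nonneg n b
  by_cases h3 : a₀ = 1
  · rw [h3, PhQ_one, zero_mul, mul_zero]
    rw [h3] at hg0
    positivity
  by_cases h4 : a₁ = 1
  · rw [h4, PhQ_one, mul_zero, mul_zero]
    rw [h4] at hg1
    positivity
  have hsplit := PhQ_split hN h3 h4 (by omega : a₀ + a₁ ≠ 1)
  rw [hsum] at hsplit
  rw [hsplit]
  have hkey : Pn n b * (rt4 (RR a₀ a₁) * rhoQ a₀ a₁ ^ 12) ≤ gq a₀ + gq a₁ := by
    have hrt := Pn_rt4_RR p n b hb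
    rw [← ha₀, ← ha₁] at hrt
    by_cases h5 : a₀ = 0
    · -- the left end
      have hp : p = 0 := by omega
      have hb0 : b = 0 := by omega
      subst hp hb0
      have ha : a₁ = n := by omega
      have h6 : 2 ≤ n := by omega
      rw [h5, ha, rhoQ_zero_left, RR_zero_left n (by omega), Pn_zero_right, one_pow, mul_one]
      have h7 := end_term n h6
      have h8 : gq 0 = (2 * (2 / 3 : ℝ) ^ 10) * fq 0 + (9 / 25 : ℝ) * 1 := by
        unfold gq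
        rw [ind_true' rfl]
      have h9 := gq_nonneg n
      have h10 : 0 ≤ (2 * (2 / 3 : ℝ) ^ 10) * fq 0 := mul_nonneg (by positivity) (fq_nonneg 0)
      rw [h8]
      linarith
    by_cases h6 : a₁ = 0
    · -- the right end
      have hp : p = 0 := by omega
      have hb0 : b = n := by omega
      subst hp hb0
      have ha : a₀ = b := by omega
      have h7 : 2 ≤ b := by omega
      rw [ha, h6, rhoQ_zero_right, RR_zero_right b (by omega), Pn_self, one_pow, mul_one]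
      have h8 := end_term b h7
      have h9 : gq 0 = (2 * (2 / 3 : ℝ) ^ 10) * fq 0 + (9 / 25 : ℝ) * 1 := by
        unfold gq
        rw [ind_true' rfl]
      have h10 := gq_nonneg b
      have h11 : 0 ≤ (2 * (2 / 3 : ℝ) ^ 10) * fq 0 := mul_nonneg (by positivity) (fq_nonneg 0)
      rw [h9]
      linarith
    -- the bulk
    have h7 : 2 ≤ a₀ := by omega
    have h8 : 2 ≤ a₁ := by omega
    have h9 := rho_pow_le h7 h8 10
    have h10 : rhoQ a₀ a₁ ^ 12 ≤ (2 * (2 / 3 : ℝ) ^ 10) * (fq a₀ + fq a₁) := by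
      calc rhoQ a₀ a₁ ^ 12 ≤ (2 / 3 : ℝ) ^ 10 * (2 * (fq a₀ + fq a₁)) := h9
        _ = _ := by ring
    have h11 : 0 ≤ rhoQ a₀ a₁ ^ 12 := pow_nonneg (rhoQ_nonneg _ _) _
    have hind : ∀ x : ℕ, 0 ≤ (9 / 25 : ℝ) * ind (x = 0) := fun x => by
      have := ind_nonneg (x = 0)
      positivity
    calc Pn n b * (rt4 (RR a₀ a₁) * rhoQ a₀ a₁ ^ 12)
        = (Pn n b * rt4 (RR a₀ a₁)) * rhoQ a₀ a₁ ^ 12 := by ring
      _ ≤ 1 * rhoQ a₀ a₁ ^ 12 := mul_le_mul_of_nonneg_right hrt h11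
      _ ≤ (2 * (2 / 3 : ℝ) ^ 10) * (fq a₀ + fq a₁) := by linarith
      _ ≤ gq a₀ + gq a₁ := by
          unfold gq
          have := hind a₀
          have := hind a₁
          linarith
  calc Pn n b * (PhQ (2 * N) (2 * p + n) * (rt4 (RR a₀ a₁) *
        (((a₀ : ℝ) + a₁ + 1) / (((a₀ : ℝ) + 1) * ((a₁ : ℝ) + 1))) ^ 12))
      = PhQ (2 * N) (2 * p + n) * (Pn n b * (rt4 (RR a₀ a₁) * rhoQ a₀ a₁ ^ 12)) := by
        unfold rhoQ
        ring
    _ ≤ _ := mul_le_mul_of_nonneg_left hkey hPh0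

theorem sum_gq (p n : ℕ) :
    ∑ b ∈ Finset.range (n + 1), (gq (p + b) + gq (p + (n - b)))
      ≤ 2 * (2 / 3 : ℝ) ^ 10 + (18 / 25 : ℝ) * ind (p = 0) := by
  rw [Finset.sum_add_distrib, sum_reflect gq p n]
  have h1 : ∑ b ∈ Finset.range (n + 1), gq (p + b)
      ≤ (2 / 3 : ℝ) ^ 10 + (9 / 25 : ℝ) * ind (p = 0) := by
    unfold gq
    rw [Finset.sum_add_distrib, ← Finset.mul_sum, ← Finset.mul_sum]
    have h2 := sum_shift_fq p n
    have h3 := sum_shift_zero p n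
    have h4 : (2 * (2 / 3 : ℝ) ^ 10) * ∑ b ∈ Finset.range (n + 1), fq (p + b) ≤ (2 / 3 : ℝ) ^ 10 := by
      nlinarith [pow_pos (show (0 : ℝ) < 2 / 3 by norm_num) 10]
    have h5 : (9 / 25 : ℝ) * ∑ b ∈ Finset.range (n + 1), ind (p + b = 0) ≤ (9 / 25 : ℝ) * ind (p = 0) :=
      mul_le_mul_of_nonneg_left h3 (by norm_num)
    linarith
  linarith

/-- The sum of the first moment. -/
theorem ZZ_le {N : ℕ} (hN : 1 ≤ N) {a p : ℕ} (hp : 2 * p ≤ a) (ha : 2 ≤ a) :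
    ZZ (PhQ N) a p ≤ PhQ (2 * N) a * (2 * (2 / 3 : ℝ) ^ 10 + (18 / 25 : ℝ) * ind (p = 0)) := by
  obtain ⟨n, rfl⟩ : ∃ n, a = 2 * p + n := ⟨a - 2 * p, by omega⟩
  unfold ZZ
  have h0 : 2 * p + n - 2 * p = n := by omega
  rw [h0]
  have h1 : ∀ b ∈ Finset.range (n + 1), Pn n b * (PhQ N (p + b) * PhQ N (2 * p + n - p - b))
      ≤ PhQ (2 * N) (2 * p + n) * (gq (p + b) + gq (p + (n - b))) := by
    intro b hb
    have hb' : b ≤ n := Nat.lt_succ_iff.mp (Finset.mem_range.mp hb)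
    have h2 : 2 * p + n - p - b = p + (n - b) := by omega
    rw [h2]
    exact term_ZZ hN p n b hb' ha
  refine (Finset.sum_le_sum h1).trans ?_
  rw [← Finset.mul_sum]
  exact mul_le_mul_of_nonneg_left (sum_gq p n) (PhQ_nonneg _ _)

/-- The weights for the sum with two powers. -/
noncomputable def gr (x : ℕ) : ℝ := (2 * (2 / 3 : ℝ) ^ 22) * fq x + ind (x = 0)

theorem gr_nonneg (x : ℕ) : 0 ≤ gr x := by
  unfold gr
  have := fq_nonneg x
  have := ind_nonneg (x = 0)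
  positivity

/-- The bound of one term, two powers. -/
theorem term_WW {N : ℕ} (hN : 1 ≤ N) (p n b : ℕ) (hb : b ≤ n) :
    Pn n b * (PhQ N (p + b) * PhQ N (p + (n - b))) ^ 2
      ≤ PhQ (2 * N) (2 * p + n) ^ 2 * (gr (p + b) + gr (p + (n - b))) := by
  set a₀ := p + b with ha₀
  set a₁ := p + (n - b) with ha₁
  have hsum : a₀ + a₁ = 2 * p + n := by omega
  have hg0 := gr_nonneg a₀
  have hg1 := gr_nonneg a₁
  have hP0 := Pn_nonneg n b
  by_cases h3 : a₀ = 1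
  · rw [h3, PhQ_one, zero_mul]
    rw [h3] at hg0
    simp only [ne_eq, OfNat.ofNat_ne_zero, not_false_eq_true, zero_pow, mul_zero]
    positivity
  by_cases h4 : a₁ = 1
  · rw [h4, PhQ_one, mul_zero]
    rw [h4] at hg1
    simp only [ne_eq, OfNat.ofNat_ne_zero, not_false_eq_true, zero_pow, mul_zero]
    positivity
  have hsplit := PhQ_split hN h3 h4 (by omega : a₀ + a₁ ≠ 1)
  rw [hsum] at hsplit
  rw [hsplit]
  have hkey : Pn n b * (Real.sqrt (RR a₀ a₁) * rhoQ a₀ a₁ ^ 24) ≤ gr a₀ + gr a₁ := by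
    have hrt := Pn_sqrt_RR p n b hb
    rw [← ha₀, ← ha₁] at hrt
    have h11 : 0 ≤ rhoQ a₀ a₁ ^ 24 := pow_nonneg (rhoQ_nonneg _ _) _
    have h12 : Pn n b * (Real.sqrt (RR a₀ a₁) * rhoQ a₀ a₁ ^ 24) ≤ rhoQ a₀ a₁ ^ 24 := by
      calc Pn n b * (Real.sqrt (RR a₀ a₁) * rhoQ a₀ a₁ ^ 24)
          = (Pn n b * Real.sqrt (RR a₀ a₁)) * rhoQ a₀ a₁ ^ 24 := by ring
        _ ≤ 1 * rhoQ a₀ a₁ ^ 24 := mul_le_mul_of_nonneg_right hrt h11
        _ = _ := one_mul _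
    refine h12.trans ?_
    by_cases h5 : a₀ = 0
    · rw [h5, rhoQ_zero_left, one_pow]
      have h8 : gr 0 = (2 * (2 / 3 : ℝ) ^ 22) * fq 0 + 1 := by
        unfold gr
        rw [ind_true' rfl]
      have h10 : 0 ≤ (2 * (2 / 3 : ℝ) ^ 22) * fq 0 := mul_nonneg (by positivity) (fq_nonneg 0)
      have h9 := gr_nonneg a₁
      rw [h8]
      linarith
    by_cases h6 : a₁ = 0
    · rw [h6, rhoQ_zero_right, one_pow]
      have h8 : gr 0 = (2 * (2 / 3 : ℝ) ^ 22) * fq 0 + 1 := by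
        unfold gr
        rw [ind_true' rfl]
      have h10 : 0 ≤ (2 * (2 / 3 : ℝ) ^ 22) * fq 0 := mul_nonneg (by positivity) (fq_nonneg 0)
      have h9 := gr_nonneg a₀
      rw [h8]
      linarith
    have h7 : 2 ≤ a₀ := by omega
    have h8 : 2 ≤ a₁ := by omega
    have h9 := rho_pow_le h7 h8 22
    have h10 : rhoQ a₀ a₁ ^ 24 ≤ (2 * (2 / 3 : ℝ) ^ 22) * (fq a₀ + fq a₁) := by
      calc rhoQ a₀ a₁ ^ 24 ≤ (2 / 3 : ℝ) ^ 22 * (2 * (fq a₀ + fq a₁)) := h9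
        _ = _ := by ring
    unfold gr
    have hi0 := ind_nonneg (a₀ = 0)
    have hi1 := ind_nonneg (a₁ = 0)
    linarith
  have hPh := sq_nonneg (PhQ (2 * N) (2 * p + n))
  calc Pn n b * (PhQ (2 * N) (2 * p + n) * (rt4 (RR a₀ a₁) *
        (((a₀ : ℝ) + a₁ + 1) / (((a₀ : ℝ) + 1) * ((a₁ : ℝ) + 1))) ^ 12)) ^ 2
      = PhQ (2 * N) (2 * p + n) ^ 2 * (Pn n b * (rt4 (RR a₀ a₁) ^ 2 * rhoQ a₀ a₁ ^ 24)) := by
        unfold rhoQ
        ring
    _ = PhQ (2 * N) (2 * p + n) ^ 2 * (Pn n b * (Real.sqrt (RR a₀ a₁) * rhoQ a₀ a₁ ^ 24)) := by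
        rw [rt4_sq]
    _ ≤ _ := mul_le_mul_of_nonneg_left hkey hPh

theorem sum_gr (p n : ℕ) :
    ∑ b ∈ Finset.range (n + 1), (gr (p + b) + gr (p + (n - b))) ≤ 3 := by
  rw [Finset.sum_add_distrib, sum_reflect gr p n]
  have h1 : ∑ b ∈ Finset.range (n + 1), gr (p + b) ≤ 3 / 2 := by
    unfold gr
    rw [Finset.sum_add_distrib, ← Finset.mul_sum]
    have h2 := sum_shift_fq p n
    have h3 := (sum_shift_zero p n).trans (ind_le_one _)
    have h4 : (2 * (2 / 3 : ℝ) ^ 22) * ∑ b ∈ Finset.range (n + 1), fq (p + b) ≤ (2 / 3 : ℝ) ^ 22 := by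
      nlinarith [pow_pos (show (0 : ℝ) < 2 / 3 by norm_num) 22]
    have h5 : (2 / 3 : ℝ) ^ 22 ≤ 1 / 2 := by norm_num
    linarith
  linarith

/-- The bound of the second moment. -/
theorem WWs_le {N : ℕ} (hN : 1 ≤ N) {m p : ℕ} (hp : 2 * p ≤ m) :
    WWs (PhQ N) m p ≤ 3 * PhQ (2 * N) m ^ 2 := by
  obtain ⟨n, rfl⟩ : ∃ n, m = 2 * p + n := ⟨m - 2 * p, by omega⟩
  unfold WWs
  have h0 : 2 * p + n - 2 * p = n := by omega
  rw [h0]
  have h1 : ∀ b ∈ Finset.range (n + 1), Pn n b * (PhQ N (p + b) * PhQ N (2 * p + n - p - b)) ^ 2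
      ≤ PhQ (2 * N) (2 * p + n) ^ 2 * (gr (p + b) + gr (p + (n - b))) := by
    intro b hb
    have hb' : b ≤ n := Nat.lt_succ_iff.mp (Finset.mem_range.mp hb)
    have h2 : 2 * p + n - p - b = p + (n - b) := by omega
    rw [h2]
    exact term_WW hN p n b hb'
  refine (Finset.sum_le_sum h1).trans ?_
  rw [← Finset.mul_sum, mul_comm 3]
  exact mul_le_mul_of_nonneg_left (sum_gr p n) (sq_nonneg _)

theorem sqrt_WWs_le {N : ℕ} (hN : 1 ≤ N) {m p : ℕ} (hp : 2 * p ≤ m) :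
    Real.sqrt (WWs (PhQ N) m p) ≤ 2 * PhQ (2 * N) m := by
  have h0 := PhQ_nonneg (2 * N) m
  refine Real.sqrt_le_iff.mpr ⟨by positivity, (WWs_le hN hp).trans ?_⟩
  nlinarith [sq_nonneg (PhQ (2 * N) m)]

end Vale.Agent.Lib.P162
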