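import Vale.Agent.Lib.P162.NP2

/-! The last numerical hypothesis and the assembly of the recursion on the cube. -/

namespace Vale.Agent.Lib.P162

open Finset Equiv

set_option linter.unusedSectionVars false

open scoped Classical

theorem choose_bound' (n j : ℕ) (hj : 1 ≤ j) :
    (Nat.choose n j : ℝ) ≤ (Real.exp 1 * ((n : ℝ) / (j : ℝ))) ^ j := by
  have hJ : (0 : ℝ) < (j : ℝ) := by exact_mod_cast hj
  have h1 : (Nat.choose n j : ℝ) ≤ ((n : ℝ) ^ j) / (j.factorial : ℝ) := Nat.choose_le_pow_div j n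
  have h2 := Real.pow_div_factorial_le_exp (j : ℝ) hJ.le j
  have hf : (0 : ℝ) < (j.factorial : ℝ) := by exact_mod_cast Nat.factorial_pos j
  rw [div_le_iff₀ hf] at h2
  rw [le_div_iff₀ hf] at h1
  have hexp : Real.exp (j : ℝ) = Real.exp 1 ^ j := by
    rw [← Real.exp_nat_mul, mul_one]
  rw [mul_pow, div_pow, ← hexp]
  have hJj : (0 : ℝ) < (j : ℝ) ^ j := by positivity
  rw [mul_div_assoc', le_div_iff₀ hJj]
  have hn : (0 : ℝ) ≤ (n : ℝ) ^ j := by positivity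
  have hc : (0 : ℝ) ≤ (Nat.choose n j : ℝ) := Nat.cast_nonneg _
  have h3 : (Nat.choose n j : ℝ) * (j : ℝ) ^ j * (j.factorial : ℝ)
      ≤ Real.exp (j : ℝ) * (n : ℝ) ^ j * (j.factorial : ℝ) := by
    calc (Nat.choose n j : ℝ) * (j : ℝ) ^ j * (j.factorial : ℝ)
        = ((Nat.choose n j : ℝ) * (j.factorial : ℝ)) * (j : ℝ) ^ j := by ring
      _ ≤ (n : ℝ) ^ j * (j : ℝ) ^ j := mul_le_mul_of_nonneg_right h1 hJj.le
      _ ≤ (n : ℝ) ^ j * (Real.exp (j : ℝ) * (j.factorial : ℝ)) := mul_le_mul_of_nonneg_left h2 hn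
      _ = _ := by ring
  exact le_of_mul_le_mul_right h3 hf

/-- The arithmetic of the constants. -/
theorem const_arith {t k : ℕ} (ht : 1 ≤ t) (htk : t ≤ k) :
    (Real.exp 1 * Real.exp 1) ^ t * (4 : ℝ) ^ t * 20 * (3 : ℝ) ^ k * (2 : ℝ) ^ (12 * k) ≤ Lam ^ k := by
  have he : Real.exp 1 * Real.exp 1 ≤ 8 := by
    have := Real.exp_one_lt_d9
    have h0 := Real.exp_pos 1
    nlinarith
  have h0 : 0 ≤ Real.exp 1 * Real.exp 1 := by positivity
  have h1 : (Real.exp 1 * Real.exp 1) ^ t * (4 : ℝ) ^ t ≤ (32 : ℝ) ^ k := by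
    rw [← mul_pow]
    calc (Real.exp 1 * Real.exp 1 * 4) ^ t ≤ (32 : ℝ) ^ t :=
          pow_le_pow_left₀ (by positivity) (by linarith) t
      _ ≤ (32 : ℝ) ^ k := pow_le_pow_right₀ (by norm_num) htk
  have h2 : (20 : ℝ) ≤ (32 : ℝ) ^ k := by
    calc (20 : ℝ) ≤ (32 : ℝ) ^ 1 := by norm_num
      _ ≤ (32 : ℝ) ^ k := pow_le_pow_right₀ (by norm_num) (by omega)
  have h3 : (3 : ℝ) ^ k ≤ (4 : ℝ) ^ k := pow_le_pow_left₀ (by norm_num) (by norm_num) k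
  have h4 : (2 : ℝ) ^ (12 * k) = (4096 : ℝ) ^ k := by
    rw [pow_mul]
    norm_num
  have h5 : Lam ^ k = (32 : ℝ) ^ k * (32 : ℝ) ^ k * (4 : ℝ) ^ k * (4096 : ℝ) ^ k := by
    unfold Lam
    rw [← mul_pow, ← mul_pow, ← mul_pow]
    norm_num
  rw [h4, h5]
  have h6 : (0 : ℝ) ≤ (Real.exp 1 * Real.exp 1) ^ t * (4 : ℝ) ^ t := by positivity
  calc (Real.exp 1 * Real.exp 1) ^ t * (4 : ℝ) ^ t * 20 * (3 : ℝ) ^ k * (4096 : ℝ) ^ k
      ≤ (32 : ℝ) ^ k * (32 : ℝ) ^ k * (4 : ℝ) ^ k * (4096 : ℝ) ^ k := by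
        refine mul_le_mul_of_nonneg_right ?_ (by positivity)
        refine mul_le_mul ?_ h3 (by positivity) (by positivity)
        exact mul_le_mul h1 h2 (by norm_num) (by positivity)

/-- The key inequality for the ratio. -/
theorem ratio_key {N a p t k m : ℕ} (hN : 1 ≤ N) (ht : 1 ≤ t) (htp : t ≤ p) (hp2 : 2 * p ≤ a)
    (ha2N : a ≤ 2 * N) (htk : t ≤ k) (hk : k ≤ 2 * t) (hm : a = m + k) :
    (p.choose t : ℝ) * kpp N t * (4 : ℝ) ^ t * 20 * (3 : ℝ) ^ k * ((a : ℝ) + 1) ^ 12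
      ≤ Lam ^ k * rt4 (((a : ℝ) / ((2 * N : ℕ) : ℝ)) ^ k) * ((m : ℝ) + 1) ^ 12 := by
  have hN' : (0 : ℝ) < (N : ℝ) := by exact_mod_cast hN
  have hJ : (0 : ℝ) < (t : ℝ) := by exact_mod_cast ht
  have h2N : ((2 * N : ℕ) : ℝ) = 2 * (N : ℝ) := by push_cast; ring
  rw [h2N]
  set ϱ : ℝ := (a : ℝ) / (2 * (N : ℝ)) with hϱ
  have hϱ0 : 0 ≤ ϱ := by positivity
  have hϱ1 : ϱ ≤ 1 := by
    rw [hϱ, div_le_one (by positivity)]
    have : ((a : ℕ) : ℝ) ≤ ((2 * N : ℕ) : ℝ) := by exact_mod_cast ha2N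
    rw [h2N] at this
    exact this
  set e : ℝ := Real.exp 1 with he
  have he0 : 0 < e := Real.exp_pos 1
  -- the binomial coefficient
  have h1 : (p.choose t : ℝ) * kpp N t ≤ (e * e) ^ t * ϱ ^ t := by
    have h2 := choose_bound' p t ht
    rw [← he] at h2
    unfold kpp
    rw [← he]
    have h3 : 0 ≤ (e * (t : ℝ) / (N : ℝ)) ^ t := by positivity
    refine (mul_le_mul_of_nonneg_right h2 h3).trans ?_
    rw [← mul_pow, ← mul_pow]
    refine pow_le_pow_left₀ (by positivity) ?_ t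
    have h4 : e * ((p : ℝ) / (t : ℝ)) * (e * (t : ℝ) / (N : ℝ)) = e * e * ((p : ℝ) / (N : ℝ)) := by
      field_simp
    rw [h4]
    refine mul_le_mul_of_nonneg_left ?_ (by positivity)
    rw [hϱ, div_le_div_iff₀ hN' (by positivity)]
    have : (2 : ℝ) * (p : ℝ) ≤ (a : ℝ) := by exact_mod_cast hp2
    nlinarith
  -- the size of the factor
  have h5 : ϱ ^ t ≤ rt4 (ϱ ^ k) := by
    have h6 : ϱ ^ (2 * t) ≤ ϱ ^ k := pow_le_pow_of_le_one hϱ0 hϱ1 hk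
    refine le_trans ?_ (rt4_le h6)
    rw [pow_mul, rt4_pow (by positivity)]
    refine pow_le_pow_left₀ hϱ0 ?_ t
    have h7 : rt4 (ϱ ^ 2) = Real.sqrt ϱ := by
      unfold rt4
      rw [Real.sqrt_sq hϱ0]
    rw [h7]
    exact Real.le_sqrt_of_sq_le (by nlinarith)
  -- the polynomial factor
  have h8 : ((a : ℝ) + 1) ^ 12 ≤ (2 : ℝ) ^ (12 * k) * ((m : ℝ) + 1) ^ 12 := by
    rw [mul_comm 12 k, pow_mul, ← mul_pow]
    refine pow_le_pow_left₀ (by positivity) ?_ 12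
    have h10 : k + 1 ≤ 2 ^ k := Nat.lt_two_pow_self
    have h9 : a + 1 ≤ 2 ^ k * (m + 1) := by
      calc a + 1 = m + k + 1 := by omega
        _ ≤ (k + 1) * (m + 1) := by nlinarith
        _ ≤ 2 ^ k * (m + 1) := Nat.mul_le_mul_right _ h10
    exact_mod_cast h9
  have hc := const_arith ht htk
  have hm0 : (0 : ℝ) ≤ ((m : ℝ) + 1) ^ 12 := by positivity
  have hL : 0 ≤ Lam ^ k := pow_nonneg Lam_pos.le k
  calc (p.choose t : ℝ) * kpp N t * (4 : ℝ) ^ t * 20 * (3 : ℝ) ^ k * ((a : ℝ) + 1) ^ 12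
      ≤ ((e * e) ^ t * ϱ ^ t) * (4 : ℝ) ^ t * 20 * (3 : ℝ) ^ k * ((2 : ℝ) ^ (12 * k) * ((m : ℝ) + 1) ^ 12) := by
        refine mul_le_mul ?_ h8 (by positivity) (by positivity)
        refine mul_le_mul_of_nonneg_right ?_ (by positivity)
        refine mul_le_mul_of_nonneg_right ?_ (by norm_num)
        exact mul_le_mul_of_nonneg_right h1 (by positivity)
    _ = ((e * e) ^ t * (4 : ℝ) ^ t * 20 * (3 : ℝ) ^ k * (2 : ℝ) ^ (12 * k)) * (ϱ ^ t * ((m : ℝ) + 1) ^ 12) := by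
        ring
    _ ≤ Lam ^ k * (rt4 (ϱ ^ k) * ((m : ℝ) + 1) ^ 12) :=
        mul_le_mul hc (mul_le_mul_of_nonneg_right h5 hm0) (by positivity) hL
    _ = _ := by ring

/-- The hypothesis on the terms with nonempty sets. -/
theorem H2_bound {N a p t k : ℕ} (hN : 1 ≤ N) (ht : 1 ≤ t) (htp : t ≤ p) (hp2 : 2 * p ≤ a)
    (hpM : a - p ≤ N) (htk : t ≤ k) (hk : k ≤ 2 * t) :
    (p.choose t : ℝ) * (4 : ℝ) ^ t * (Real.sqrt (WWs (PhQ N) (a - k) (p - t)) * (3 : ℝ) ^ k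
      * (kpp N t * (1 / 2 : ℝ) ^ t)) ≤ (1 / 10 : ℝ) * (1 / 2 : ℝ) ^ t * PhQ (2 * N) a := by
  obtain ⟨m, hm⟩ : ∃ m, a = m + k := ⟨a - k, by omega⟩
  have ham : a - k = m := by omega
  rw [ham]
  have hW := sqrt_WWs_le hN (m := m) (p := p - t) (by omega)
  have hC : (0 : ℝ) ≤ (p.choose t : ℝ) * kpp N t := mul_nonneg (Nat.cast_nonneg _) (kpp_nonneg _ _)
  have hPh0 := PhQ_nonneg (2 * N) m
  have hq : (0 : ℝ) < (1 / 2 : ℝ) ^ t := by positivity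
  have hL0 := Lam_pos
  have key : (p.choose t : ℝ) * kpp N t * (4 : ℝ) ^ t * (2 * PhQ (2 * N) m) * (3 : ℝ) ^ k
      ≤ (1 / 10 : ℝ) * PhQ (2 * N) a := by
    by_cases hm1 : m = 1
    · rw [hm1, PhQ_one]
      have := PhQ_nonneg (2 * N) a
      simp only [mul_zero, zero_mul]
      positivity
    have ha1 : a ≠ 1 := by omega
    have hk1 : (0 : ℝ) < (a : ℝ) + 1 := by positivity
    have hm0 : (0 : ℝ) < (m : ℝ) + 1 := by positivity
    have h1 := ratio_key hN ht htp hp2 (by omega) htk hk hm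
    unfold PhQ
    rw [if_neg hm1, if_neg ha1]
    set ϱ : ℝ := (a : ℝ) / ((2 * N : ℕ) : ℝ) with hϱ
    have hϱ0 : 0 ≤ ϱ := by positivity
    set D : ℝ := rt4 (ϱ ^ m) with hD
    have hD0 : 0 ≤ D := rt4_nonneg _
    have h2 : rt4 (((m : ℝ) / ((2 * N : ℕ) : ℝ)) ^ m) ≤ D := by
      refine rt4_le (pow_le_pow_left₀ (by positivity) ?_ m)
      rw [hϱ]
      refine div_le_div_of_nonneg_right ?_ (by positivity)
      have : m ≤ a := by omega
      exact_mod_cast this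
    have h3 : rt4 (ϱ ^ a) = D * rt4 (ϱ ^ k) := by
      rw [hm, pow_add, rt4_mul (by positivity)]
    rw [h3, hm, pow_add]
    have hLm : 0 ≤ Lam ^ m := pow_nonneg hL0.le m
    have h4 : Lam ^ m * rt4 (((m : ℝ) / ((2 * N : ℕ) : ℝ)) ^ m) / ((m : ℝ) + 1) ^ 12
        ≤ Lam ^ m * D / ((m : ℝ) + 1) ^ 12 :=
      div_le_div_of_nonneg_right (mul_le_mul_of_nonneg_left h2 hLm) (by positivity)
    have h5 : ((m + k : ℕ) : ℝ) = (a : ℝ) := by rw [hm]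
    rw [h5]
    have h6 : (0 : ℝ) ≤ (p.choose t : ℝ) * kpp N t * (4 : ℝ) ^ t * 2 * (3 : ℝ) ^ k := by positivity
    calc (p.choose t : ℝ) * kpp N t * (4 : ℝ) ^ t *
          (2 * (Lam ^ m * rt4 (((m : ℝ) / ((2 * N : ℕ) : ℝ)) ^ m) / ((m : ℝ) + 1) ^ 12)) * (3 : ℝ) ^ k
        = ((p.choose t : ℝ) * kpp N t * (4 : ℝ) ^ t * 2 * (3 : ℝ) ^ k) *
            (Lam ^ m * rt4 (((m : ℝ) / ((2 * N : ℕ) : ℝ)) ^ m) / ((m : ℝ) + 1) ^ 12) := by ring
      _ ≤ ((p.choose t : ℝ) * kpp N t * (4 : ℝ) ^ t * 2 * (3 : ℝ) ^ k) *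
            (Lam ^ m * D / ((m : ℝ) + 1) ^ 12) := mul_le_mul_of_nonneg_left h4 h6
      _ ≤ _ := by
          have h7 : 0 ≤ Lam ^ m * D := by positivity
          have h8 := mul_le_mul_of_nonneg_right h1 h7
          have hA : (0 : ℝ) < 10 * ((m : ℝ) + 1) ^ 12 * ((a : ℝ) + 1) ^ 12 := by positivity
          have h9 := div_le_div_of_nonneg_right h8 hA.le
          refine le_trans (le_of_eq ?_) (h9.trans (le_of_eq ?_))
          · field_simp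
            ring
          · field_simp
  have hT : (p.choose t : ℝ) * (4 : ℝ) ^ t * (Real.sqrt (WWs (PhQ N) m (p - t)) * (3 : ℝ) ^ k
        * (kpp N t * (1 / 2 : ℝ) ^ t))
      = (1 / 2 : ℝ) ^ t * ((p.choose t : ℝ) * kpp N t * (4 : ℝ) ^ t * Real.sqrt (WWs (PhQ N) m (p - t)) * (3 : ℝ) ^ k) := by
    ring
  rw [hT]
  have h1 : (p.choose t : ℝ) * kpp N t * (4 : ℝ) ^ t * Real.sqrt (WWs (PhQ N) m (p - t)) * (3 : ℝ) ^ k
      ≤ (1 / 10 : ℝ) * PhQ (2 * N) a := by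
    refine le_trans ?_ key
    refine mul_le_mul_of_nonneg_right ?_ (by positivity)
    exact mul_le_mul_of_nonneg_left hW (by positivity)
  calc (1 / 2 : ℝ) ^ t * ((p.choose t : ℝ) * kpp N t * (4 : ℝ) ^ t * Real.sqrt (WWs (PhQ N) m (p - t)) * (3 : ℝ) ^ k)
      ≤ (1 / 2 : ℝ) ^ t * ((1 / 10 : ℝ) * PhQ (2 * N) a) := mul_le_mul_of_nonneg_left h1 hq.le
    _ = _ := by ring

/-- **The numerical hypotheses hold for the potential.** -/
theorem numH {N : ℕ} (hN : 1 ≤ N) : NumH (PhQ N) (PhQ (2 * N)) N where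
  nn := PhQ_nonneg N
  nn' := PhQ_nonneg (2 * N)
  h0 := by
    intro a _
    rcases Nat.lt_or_ge a 2 with h2 | h2
    · interval_cases a
      · simp [ZZ, Pn]
      · simp [ZZ, Finset.sum_range_succ]
    · have h3 := ZZ_le hN (a := a) (p := 0) (by omega) h2
      refine h3.trans ?_
      rw [ind_true' rfl]
      have h4 := PhQ_nonneg (2 * N) a
      have h5 : (2 * (2 / 3 : ℝ) ^ 10 + (18 / 25 : ℝ) * 1) ≤ 1 := by norm_num
      nlinarith
  h1 := by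
    intro a p hp hp2 _
    have h3 := ZZ_le hN (a := a) (p := p) hp2 (by omega)
    refine h3.trans ?_
    rw [ind_false' (by omega)]
    have h4 := PhQ_nonneg (2 * N) a
    have h5 : (2 * (2 / 3 : ℝ) ^ 10 + (18 / 25 : ℝ) * 0) ≤ 9 / 10 := by norm_num
    nlinarith
  h2 := by
    intro a p t k ht htp hp2 hpM htk hk
    exact H2_bound hN ht htp hp2 hpM htk hk

end Vale.Agent.Lib.P162
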