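import Vale.Agent.Lib.P162.NP3
import Vale.Agent.Lib.P162.NFlat

/-! The quadratic form inequality on the cube and the contraction on functions with vanishing marginals. -/

namespace Vale.Agent.Lib.P162

open Finset Equiv

set_option linter.unusedSectionVars false

open scoped Classical

section cube

variable {α : Type*} [Fintype α] [DecidableEq α]

/-- The inverse network. -/
noncomputable def nI (d : ℕ) (ω : NC d) (q : Cube d) : Cube d := (net d ω)⁻¹ q

theorem QF_base {ψ : ℕ → ℝ} (hnn : ∀ a, 0 ≤ ψ a) (h0 : ψ 0 = 1) : QF α (Cube 0) (NC 0) (nI 0) ψ := by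
  intro A u _
  have hsub : ∀ y y' : α → Cube 0, y = y' := fun y y' => Subsingleton.elim _ _
  have hR : ∀ y, Rf (nI 0) A u y = u y := by
    intro y
    unfold Rf
    have : ∀ ω : NC 0, u (apS A (nI 0 ω) y) = u y := fun ω => by rw [hsub (apS A (nI 0 ω) y) y]
    simp only [this]
    exact avg_const _
  have hS : ∀ y, Sf A u y = u y := by
    intro y
    unfold Sf
    have : ∀ t : α → Cube 0, u (mg A t y) = u y := fun t => by rw [hsub (mg A t y) y]
    simp only [this]
    exact avg_const _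
  simp only [hR]
  have h1 : ∀ C ∈ A.powerset, 0 ≤ ψ (A.card - C.card) * avg (fun y => Sf C u y ^ 2) :=
    fun C _ => mul_nonneg (hnn _) (avg_nonneg (fun _ => sq_nonneg _))
  refine le_trans (le_of_eq ?_) (Finset.single_le_sum h1 (Finset.mem_powerset_self A))
  simp only [hS]
  rw [Nat.sub_self, h0, one_mul]

theorem nI_succ (d : ℕ) (B : Cube d → Bool) (ω₀ ω₁ : NC d) (p : Bool × Cube d) :
    nI (d + 1) (B, ω₀, ω₁) (consE d p) = consE d (nTop (nI d) (B, ω₀, ω₁) p) := by
  obtain ⟨e, q⟩ := p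
  unfold nI
  rw [Equiv.Perm.inv_eq_iff_eq]
  set q' : Cube d := (net d (if e then ω₁ else ω₀))⁻¹ q with hq'
  have hn : nTop (fun ω q => (net d ω)⁻¹ q) (B, ω₀, ω₁) (e, q) = (xor e (B q'), q') := rfl
  rw [hn]
  have h0 := net_head_tail (a := d) (B, ω₀, ω₁) (consE d (xor e (B q'), q'))
  refine Eq.trans ?_ h0.symm
  simp only [consE_apply, Fin.cons_zero, Fin.tail_cons]
  have h1 : xor (xor e (B q')) (B q') = e := by
    cases e <;> cases B q' <;> rfl
  rw [h1, hq']
  simp

/-- The transfer along a bijection of the state space. -/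
theorem QF_transfer {X X' 𝒩 𝒩' : Type*} [Fintype X] [Nonempty X] [Fintype X'] [Nonempty X']
    [Fintype 𝒩] [Fintype 𝒩'] (E : X ≃ X') (n : 𝒩 → X → X) (n' : 𝒩' → X' → X') {ψ : ℕ → ℝ}
    (hR : ∀ (A : Finset α) (u : (α → X') → ℝ) (x : α → X),
      Rf n' A u (fun c => E (x c)) = Rf n A (fun x' => u (fun c => E (x' c))) x)
    (h : QF α X 𝒩 n ψ) : QF α X' 𝒩' n' ψ := by
  intro A u hu
  set Ē : (α → X) ≃ (α → X') := Equiv.arrowCongr (Equiv.refl α) E with hĒ
  have hĒa : ∀ x : α → X, Ē x = fun c => E (x c) := fun x => rfl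
  set ũ : (α → X) → ℝ := fun x => u (fun c => E (x c)) with hũ
  have hũ0 : ∀ x : α → X, ¬ Set.InjOn x (A : Set α) → ũ x = 0 := by
    intro x hx
    refine hu _ (fun hinj => hx ?_)
    intro a ha b hb hab
    refine hinj ha hb ?_
    simp [hab]
  have hS : ∀ (C : Finset α) (x : α → X), Sf C u (fun c => E (x c)) = Sf C ũ x := by
    intro C x
    unfold Sf
    rw [← avg_equiv Ē (fun t => u (mg C t (fun c => E (x c))))]
    congr 1
    funext t
    simp only [hũ]
    congr 1
    funext c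
    by_cases hc : c ∈ C <;> simp [hc, hĒa]
  have h1 := h A ũ hũ0
  have h2 : avg (fun y => Rf n' A u y ^ 2) = avg (fun x => Rf n A ũ x ^ 2) := by
    rw [← avg_equiv Ē (fun y => Rf n' A u y ^ 2)]
    congr 1
    funext x
    rw [hĒa, hR]
  rw [h2]
  refine h1.trans (le_of_eq (Finset.sum_congr rfl (fun C _ => ?_)))
  congr 1
  rw [← avg_equiv Ē (fun y => Sf C u y ^ 2)]
  congr 1
  funext x
  rw [hĒa, hS]

theorem QF_succ (d : ℕ) {ψ' : ℕ → ℝ}
    (h : QF α (Bool × Cube d) ((Cube d → Bool) × NC d × NC d) (nTop (nI d)) ψ') :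
    QF α (Cube (d + 1)) (NC (d + 1)) (nI (d + 1)) ψ' := by
  refine QF_transfer (consE d) (nTop (nI d)) (nI (d + 1)) ?_ h
  intro A u x
  unfold Rf
  rw [avg_NC_succ, avg_prod]
  congr 1
  funext B
  rw [avg_prod]
  congr 1
  funext ω₀
  congr 1
  funext ω₁
  congr 1
  funext c
  by_cases hc : c ∈ A
  · simp only [apS_mem hc]
    exact nI_succ d B ω₀ ω₁ (x c)
  · simp only [apS_not_mem hc]

/-- **The quadratic form inequality on the cube.** -/
theorem QF_cube (d : ℕ) : QF α (Cube d) (NC d) (nI d) (PhQ (2 ^ d)) := by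
  induction d with
  | zero => exact QF_base (PhQ_nonneg _) (PhQ_zero _)
  | succ d ih =>
    refine QF_succ d ?_
    have hN : NumH (PhQ (2 ^ d)) (PhQ (2 * 2 ^ d)) (Fintype.card (Cube d)) := by
      rw [card_cube]
      exact numH Nat.one_le_two_pow
    have h1 := step ih hN
    rw [pow_succ']
    exact h1

end cube

section contr

variable {ι : Type*} [Fintype ι] [DecidableEq ι] {D : ℕ}

theorem avg_extZ_sq (f : TupE ι (Cube D)) :
    avg (fun y : ι → Cube D => extZ (f : (ι ↪ Cube D) → ℝ) y ^ 2)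
      = ‖f‖ ^ 2 / (Fintype.card (ι → Cube D) : ℝ) := by
  unfold avg
  congr 1
  rw [sum_of_inj (fun y => extZ (f : (ι ↪ Cube D) → ℝ) y ^ 2)
    (fun x hx => by rw [extZ_of_not_inj _ hx]; norm_num)]
  rw [EuclideanSpace.real_norm_sq_eq]
  refine Finset.sum_congr rfl (fun a _ => ?_)
  rw [extZ_coe]

/-- The average over the network of the extension. -/
theorem Rf_extZ (h : TupE ι (Cube D)) (y : ι → Cube D) :
    Rf (nI D) Finset.univ (extZ (h : (ι ↪ Cube D) → ℝ)) y
      = extZ ((Rop D (piT : Perm (Cube D) →* (TupE ι (Cube D) →L[ℝ] TupE ι (Cube D))) h : TupE ι (Cube D)) : (ι ↪ Cube D) → ℝ) y := by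
  unfold Rf
  have h1 : ∀ ω : NC D, extZ (h : (ι ↪ Cube D) → ℝ) (apS Finset.univ (nI D ω) y)
      = extZ (piT (net D ω) h : (ι ↪ Cube D) → ℝ) y := by
    intro ω
    rw [extZ_piT]
    congr 1
    funext c
    simp [nI]
  simp only [h1]
  by_cases hy : Function.Injective y
  · have hval : ∀ f : TupE ι (Cube D), extZ (f : (ι ↪ Cube D) → ℝ) y = f ⟨y, hy⟩ := by
      intro f
      exact extZ_coe _ ⟨y, hy⟩
    simp only [hval]
    rw [Rop_eq_avg]
    unfold avg
    simp only [_root_.smul_apply, _root_.sum_apply]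
    simp only [PiLp.smul_apply, smul_eq_mul]
    rw [div_eq_inv_mul]
    congr 1
    simp
  · rw [extZ_of_not_inj _ hy]
    have : ∀ ω : NC D, extZ (piT (net D ω) h : (ι ↪ Cube D) → ℝ) y = 0 :=
      fun ω => extZ_of_not_inj _ hy
    simp only [this]
    exact avg_const 0

/-- The averages over nonempty sets of coordinates vanish. -/
theorem Sf_extZ_zero {h : TupE ι (Cube D)} (hh : h ∈ Vtop ι (Cube D)) {C : Finset ι} (hC : C.Nonempty)
    (y : ι → Cube D) : Sf C (extZ (h : (ι ↪ Cube D) → ℝ)) y = 0 := by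
  obtain ⟨c, hc⟩ := hC
  unfold Sf
  rw [avg_update c, avg_comm]
  have h1 : ∀ t : ι → Cube D, avg (fun b : Cube D =>
      extZ (h : (ι ↪ Cube D) → ℝ) (mg C (Function.update t c b) y)) = 0 := by
    intro t
    have h2 : ∀ b : Cube D, mg C (Function.update t c b) y = Function.update (mg C t y) c b := by
      intro b
      funext c'
      by_cases h3 : c' = c
      · subst h3
        simp [hc]
      · by_cases h4 : c' ∈ C <;> simp [h3, h4]
    simp only [h2]
    unfold avg
    rw [hh (mg C t y) c, zero_div]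
  simp only [h1]
  exact avg_const 0

/-- **The contraction on functions with vanishing marginals.** -/
theorem Vtop_contr {h : TupE ι (Cube D)} (hh : h ∈ Vtop ι (Cube D)) :
    ‖Rop D (piT : Perm (Cube D) →* (TupE ι (Cube D) →L[ℝ] TupE ι (Cube D))) h‖ ^ 2
      ≤ PhQ (2 ^ D) (Fintype.card ι) * ‖h‖ ^ 2 := by
  have hq := QF_cube (α := ι) D Finset.univ (extZ (h : (ι ↪ Cube D) → ℝ)) (by
    intro y hy
    refine extZ_of_not_inj _ (fun hinj => hy ?_)
    exact hinj.injOn)
  simp only [Rf_extZ] at hq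
  rw [avg_extZ_sq] at hq
  have h1 : ∑ C ∈ (Finset.univ : Finset ι).powerset, PhQ (2 ^ D) ((Finset.univ : Finset ι).card - C.card)
        * avg (fun y => Sf C (extZ (h : (ι ↪ Cube D) → ℝ)) y ^ 2)
      = PhQ (2 ^ D) (Fintype.card ι) * (‖h‖ ^ 2 / (Fintype.card (ι → Cube D) : ℝ)) := by
    rw [Finset.sum_eq_single ∅]
    · have h2 : ∀ y, Sf ∅ (extZ (h : (ι ↪ Cube D) → ℝ)) y = extZ (h : (ι ↪ Cube D) → ℝ) y := by
        intro y
        unfold Sf
        simp only [mg_empty]
        exact avg_const _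
      simp only [h2, Finset.card_empty, Nat.sub_zero, Finset.card_univ]
      rw [avg_extZ_sq]
    · intro C _ hC
      have h2 : ∀ y, Sf C (extZ (h : (ι ↪ Cube D) → ℝ)) y = 0 :=
        fun y => Sf_extZ_zero hh (Finset.nonempty_iff_ne_empty.mpr hC) y
      simp only [h2]
      have h3 : avg (fun _ : ι → Cube D => (0 : ℝ) ^ 2) = 0 := by
        simp only [ne_eq, OfNat.ofNat_ne_zero, not_false_eq_true, zero_pow]
        exact avg_const 0
      rw [h3, mul_zero]
    · intro h2
      exact absurd (Finset.empty_mem_powerset _) h2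
  rw [h1] at hq
  have hc : (0 : ℝ) < (Fintype.card (ι → Cube D) : ℝ) := by exact_mod_cast Fintype.card_pos
  have h4 : PhQ (2 ^ D) (Fintype.card ι) * (‖h‖ ^ 2 / (Fintype.card (ι → Cube D) : ℝ))
      = (PhQ (2 ^ D) (Fintype.card ι) * ‖h‖ ^ 2) / (Fintype.card (ι → Cube D) : ℝ) := by ring
  rw [h4] at hq
  exact (div_le_div_iff_of_pos_right hc).mp hq

end contr

end Vale.Agent.Lib.P162
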