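import Vale.Agent.Lib.P162.NKap

/-! Coordinate tools for functions of several coordinates: merging, Parseval on Boolean
coordinates, the fourth moment inequality. -/

namespace Vale.Agent.Lib.P162

open Equiv Finset

set_option linter.unusedSectionVars false

open scoped Classical

section merge

variable {α : Type*} [Fintype α] [DecidableEq α] {X : Type*} [Fintype X] [Nonempty X]

/-- The coordinates in `C` from `t`, the others from `x`. -/
noncomputable def mg (C : Finset α) (t x : α → X) : α → X := fun c => if c ∈ C then t c else x c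

@[simp] theorem mg_mem {C : Finset α} {c : α} (h : c ∈ C) (t x : α → X) : mg C t x c = t c := by
  simp [mg, h]

@[simp] theorem mg_not_mem {C : Finset α} {c : α} (h : c ∉ C) (t x : α → X) : mg C t x c = x c := by
  simp [mg, h]

@[simp] theorem mg_empty (t x : α → X) : mg ∅ t x = x := by
  funext c
  simp

theorem mg_swap_equiv (C : Finset α) : Function.Involutive
    (fun p : (α → X) × (α → X) => (mg C p.2 p.1, mg C p.1 p.2)) := by
  rintro ⟨x, t⟩
  ext c <;> by_cases h : c ∈ C <;> simp [h]

/-- Averaging out coordinates. -/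
theorem avg_mg (C : Finset α) (F : (α → X) → ℝ) :
    avg (fun x => avg (fun t => F (mg C t x))) = avg F := by
  have h1 := avg_equiv (mg_swap_equiv (X := X) C).toPerm (fun p : (α → X) × (α → X) => F p.1)
  have h2 : avg (fun p : (α → X) × (α → X) => F p.1) = avg F := by
    rw [avg_prod]
    simp only [avg_const]
  rw [h2] at h1
  rw [← h1, avg_prod]
  rfl

theorem avg_mg' (C : Finset α) (F : (α → X) → (α → X) → ℝ) :
    avg (fun x => avg (fun t => F (mg C t x) (mg C x t))) = avg (fun x => avg (fun t => F x t)) := by
  have h1 := avg_equiv (mg_swap_equiv (X := X) C).toPerm (fun p : (α → X) × (α → X) => F p.1 p.2)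
  rw [avg_prod, avg_prod] at h1
  exact h1

/-- Independence of functions of disjoint coordinates. -/
theorem avg_indep (K : Finset α) (u w : (α → X) → ℝ) (hu : ∀ x x', (∀ c ∈ K, x c = x' c) → u x = u x')
    (hw : ∀ x x', (∀ c, c ∉ K → x c = x' c) → w x = w x') :
    avg (fun x => u x * w x) = avg u * avg w := by
  rw [← avg_mg K (fun x => u x * w x)]
  have h1 : ∀ x t : α → X, u (mg K t x) * w (mg K t x) = u t * w x := by
    intro x t
    rw [hu (mg K t x) t (fun c hc => by simp [hc]), hw (mg K t x) x (fun c hc => by simp [hc])]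
  simp only [h1, avg_mul_right]
  rw [avg_mul_left, mul_comm]

/-- Averaging out one coordinate. -/
theorem avg_update (c : α) (F : (α → X) → ℝ) :
    avg F = avg (fun b : X => avg (fun t : α → X => F (Function.update t c b))) := by
  have hinv : Function.Involutive (fun p : X × (α → X) => (p.2 c, Function.update p.2 c p.1)) := by
    rintro ⟨b, t⟩
    simp
  have h1 := avg_equiv hinv.toPerm (fun p : X × (α → X) => F p.2)
  have h2 : avg (fun p : X × (α → X) => F p.2) = avg F := by
    rw [avg_prod]
    simp only [avg_const]
  rw [h2] at h1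
  rw [← h1, avg_prod]
  rfl

/-- A product over coordinates in `E` of a function of one coordinate. -/
theorem avg_prod_coord (E : Finset α) (u : X → ℝ) :
    avg (fun z : α → X => ∏ c ∈ E, u (z c)) = avg u ^ E.card := by
  classical
  induction E using Finset.induction_on with
  | empty => simp [avg_const]
  | insert c E hc ih =>
    rw [Finset.card_insert_of_notMem hc, pow_succ, ← ih, avg_update c]
    have h1 : ∀ (b : X) (t : α → X), ∏ c' ∈ insert c E, u (Function.update t c b c')
        = u b * ∏ c' ∈ E, u (t c') := by
      intro b t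
      rw [Finset.prod_insert hc, Function.update_self]
      congr 1
      refine Finset.prod_congr rfl (fun c' hc' => ?_)
      rw [Function.update_of_ne (by rintro rfl; exact hc hc')]
    simp only [h1, avg_mul_left]
    rw [avg_mul_right, mul_comm]

/-- Iterated merges in one step. -/
theorem mg_mg_comm {E C : Finset α} (h : Disjoint E C) (t t' x : α → X) :
    mg E t (mg C t' x) = mg C t' (mg E t x) := by
  funext c
  by_cases h1 : c ∈ E
  · have h2 : c ∉ C := Finset.disjoint_left.mp h h1
    simp [h1, h2]
  · by_cases h2 : c ∈ C <;> simp [h1, h2]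

theorem mg_union (E C : Finset α) (t t' x : α → X) (h : Disjoint E C) :
    mg (E ∪ C) (mg E t t') x = mg E t (mg C t' x) := by
  funext c
  by_cases h1 : c ∈ E
  · simp [h1]
  · by_cases h2 : c ∈ C <;> simp [h1, h2]

end merge

section cs

variable {Ω : Type*} [Fintype Ω]

/-- Cauchy Schwarz for averages. -/
theorem avg_cs (u w : Ω → ℝ) :
    (avg (fun s => u s * w s)) ^ 2 ≤ avg (fun s => u s ^ 2) * avg (fun s => w s ^ 2) := by
  unfold avg
  have h := Finset.sum_mul_sq_le_sq_mul_sq (Finset.univ : Finset Ω) u w
  rw [div_pow, div_mul_div_comm]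
  have hN : (0 : ℝ) ≤ (Fintype.card Ω : ℝ) := Nat.cast_nonneg _
  rcases eq_or_lt_of_le hN with h0 | h0
  · rw [← h0]
    simp
  · rw [div_le_div_iff₀ (by positivity) (by positivity)]
    have h1 : ((Fintype.card Ω : ℝ)) ^ 2 = (Fintype.card Ω : ℝ) * (Fintype.card Ω : ℝ) := by ring
    rw [h1]
    exact mul_le_mul_of_nonneg_right h (by positivity)

theorem avg_cs_bound {u w : Ω → ℝ} {A B : ℝ} (hA : 0 ≤ A) (hB : 0 ≤ B)
    (h1 : avg (fun s => u s ^ 2) ≤ A ^ 2) (h2 : avg (fun s => w s ^ 2) ≤ B ^ 2) :
    avg (fun s => u s * w s) ≤ A * B := by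
  have h3 := avg_cs u w
  have h4 : 0 ≤ avg (fun s => w s ^ 2) := avg_nonneg (fun s => sq_nonneg _)
  have h5 : (avg (fun s => u s * w s)) ^ 2 ≤ (A * B) ^ 2 := by
    calc _ ≤ avg (fun s => u s ^ 2) * avg (fun s => w s ^ 2) := h3
      _ ≤ A ^ 2 * B ^ 2 := mul_le_mul h1 h2 h4 (sq_nonneg _)
      _ = _ := by ring
  exact abs_le_of_sq_le_sq' h5 (by positivity) |>.2

end cs

section chiB

variable {α : Type*} [Fintype α] [DecidableEq α]

/-- The sign of a bit. -/
noncomputable def chiB (b : Bool) : ℝ := if b then -1 else 1

@[simp] theorem chi_false : chiB false = 1 := by simp [chiB]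

@[simp] theorem chi_true : chiB true = -1 := by simp [chiB]

theorem chi_sq (b : Bool) : chiB b * chiB b = 1 := by
  cases b <;> simp

theorem chi_not (b : Bool) : chiB (!b) = - chiB b := by
  cases b <;> simp

theorem abs_chi (b : Bool) : |chiB b| = 1 := by
  cases b <;> simp

/-- The character of a set of coordinates. -/
noncomputable def chiS (N : Finset α) (s : α → Bool) : ℝ := ∏ c ∈ N, chiB (s c)

@[simp] theorem chiS_empty (s : α → Bool) : chiS ∅ s = 1 := by simp [chiS]

theorem chiS_insert {N : Finset α} {c : α} (hc : c ∉ N) (s : α → Bool) :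
    chiS (insert c N) s = chiB (s c) * chiS N s := by
  simp [chiS, Finset.prod_insert hc]

theorem chiS_sq (N : Finset α) (s : α → Bool) : chiS N s * chiS N s = 1 := by
  unfold chiS
  rw [← Finset.prod_mul_distrib]
  exact Finset.prod_eq_one (fun c _ => chi_sq _)

theorem chiS_update_not_mem {N : Finset α} {c : α} (hc : c ∉ N) (s : α → Bool) (b : Bool) :
    chiS N (Function.update s c b) = chiS N s := by
  unfold chiS
  refine Finset.prod_congr rfl (fun c' hc' => ?_)
  rw [Function.update_of_ne (by rintro rfl; exact hc hc')]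

theorem chiS_congr {N : Finset α} {s s' : α → Bool} (h : ∀ c ∈ N, s c = s' c) :
    chiS N s = chiS N s' := by
  unfold chiS
  exact Finset.prod_congr rfl (fun c hc => by rw [h c hc])

/-- Two point Parseval. -/
theorem avg_bool_parseval (u : Bool → ℝ) :
    avg (fun b => u b ^ 2) = avg u ^ 2 + avg (fun b => chiB b * u b) ^ 2 := by
  simp only [avg_bool, chi_false, chi_true]
  ring

/-- Parseval for the Boolean coordinates in `C`. -/
theorem parseval_mg (C : Finset α) (F : (α → Bool) → ℝ) (s : α → Bool) :
    avg (fun t : α → Bool => F (mg C t s) ^ 2)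
      = ∑ E ∈ C.powerset, (avg (fun t : α → Bool => chiS E t * F (mg C t s))) ^ 2 := by
  induction C using Finset.induction_on generalizing s with
  | empty =>
    simp [avg_const]
  | insert c C hc ih =>
    have hm : ∀ (b : Bool) (t : α → Bool), mg (insert c C) (Function.update t c b) s
        = mg C t (Function.update s c b) := by
      intro b t
      funext c'
      by_cases h1 : c' = c
      · subst h1
        simp [hc]
      · by_cases h2 : c' ∈ C <;> simp [h1, h2, Function.update_of_ne h1]
    have hav : ∀ G : (α → Bool) → ℝ, avg (fun t : α → Bool => G (mg (insert c C) t s))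
        = avg (fun b : Bool => avg (fun t : α → Bool => G (mg C t (Function.update s c b)))) := by
      intro G
      rw [avg_update c]
      simp only [hm]
    rw [hav (fun x => F x ^ 2)]
    simp only [ih]
    rw [avg_sum, Finset.sum_powerset_insert hc, ← Finset.sum_add_distrib]
    refine Finset.sum_congr rfl (fun E hE => ?_)
    have hcE : c ∉ E := fun h => hc (Finset.mem_powerset.mp hE h)
    rw [avg_bool_parseval]
    congr 2
    · rw [avg_update c (fun t : α → Bool => chiS E t * F (mg (insert c C) t s))]
      simp only [hm, chiS_update_not_mem hcE]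
    · rw [avg_update c (fun t : α → Bool => chiS (insert c E) t * F (mg (insert c C) t s))]
      simp only [hm, chiS_insert hcE, Function.update_self, chiS_update_not_mem hcE]
      congr 1
      funext b
      rw [← avg_mul_left]
      congr 1
      funext t
      ring

/-- The fourth moment inequality of Bonami. -/
theorem bonami (L : Finset α) (k : ℕ) (e : Finset α → ℝ)
    (he : ∀ N ∈ L.powerset, k < N.card → e N = 0) :
    avg (fun s : α → Bool => (∑ N ∈ L.powerset, e N * chiS N s) ^ 4)
      ≤ (9 : ℝ) ^ k * (∑ N ∈ L.powerset, e N ^ 2) ^ 2 := by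
  induction L using Finset.induction_on generalizing k e with
  | empty =>
    simp only [Finset.powerset_empty, Finset.sum_singleton, chiS_empty, mul_one, avg_const]
    have : (1 : ℝ) ≤ 9 ^ k := one_le_pow₀ (by norm_num)
    have h2 : 0 ≤ e ∅ ^ 4 := by positivity
    nlinarith [h2]
  | insert c L hc ih =>
    rw [Finset.sum_powerset_insert hc (f := fun N => e N ^ 2)]
    set G : ℝ := ∑ N ∈ L.powerset, e N ^ 2 with hG
    set H : ℝ := ∑ N ∈ L.powerset, e (insert c N) ^ 2 with hH
    have hG0 : 0 ≤ G := Finset.sum_nonneg (fun _ _ => sq_nonneg _)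
    have hH0 : 0 ≤ H := Finset.sum_nonneg (fun _ _ => sq_nonneg _)
    let g : (α → Bool) → ℝ := fun s => ∑ N ∈ L.powerset, e N * chiS N s
    let h : (α → Bool) → ℝ := fun s => ∑ N ∈ L.powerset, e (insert c N) * chiS N s
    have hgu : ∀ s b, g (Function.update s c b) = g s := by
      intro s b
      refine Finset.sum_congr rfl (fun N hN => ?_)
      rw [chiS_update_not_mem (fun h' => hc (Finset.mem_powerset.mp hN h'))]
    have hhu : ∀ s b, h (Function.update s c b) = h s := by
      intro s b
      refine Finset.sum_congr rfl (fun N hN => ?_)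
      rw [chiS_update_not_mem (fun h' => hc (Finset.mem_powerset.mp hN h'))]
    have hsum : ∀ s : α → Bool, ∑ N ∈ (insert c L).powerset, e N * chiS N s = g s + chiB (s c) * h s := by
      intro s
      rw [Finset.sum_powerset_insert hc]
      congr 1
      simp only [h]
      rw [Finset.mul_sum]
      refine Finset.sum_congr rfl (fun N hN => ?_)
      rw [chiS_insert (fun h' => hc (Finset.mem_powerset.mp hN h'))]
      ring
    have hL1 : ∀ N ∈ L.powerset, N ⊆ insert c L := fun N hN =>
      (Finset.mem_powerset.mp hN).trans (Finset.subset_insert _ _)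
    have hg4 : avg (fun s => g s ^ 4) ≤ (9 : ℝ) ^ k * G ^ 2 :=
      ih k e (fun N hN hk => he N (Finset.mem_powerset.mpr (hL1 N hN)) hk)
    have hexp : avg (fun s : α → Bool => (g s + chiB (s c) * h s) ^ 4)
        = avg (fun s => g s ^ 4 + 6 * (g s ^ 2 * h s ^ 2) + h s ^ 4) := by
      rw [avg_update c]
      have h1 : ∀ b : Bool, avg (fun t : α → Bool =>
          (g (Function.update t c b) + chiB (Function.update t c b c) * h (Function.update t c b)) ^ 4)
          = avg (fun t : α → Bool => (g t + chiB b * h t) ^ 4) := by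
        intro b
        congr 1
        funext t
        rw [hgu, hhu, Function.update_self]
      simp only [h1]
      rw [avg_comm]
      congr 1
      funext s
      rw [avg_bool]
      simp only [chi_false, chi_true]
      ring
    simp only [hsum]
    rw [hexp, avg_add, avg_add, avg_mul_left]
    rcases Nat.eq_zero_or_pos k with rfl | hk
    · -- degree zero: no second part
      have h0 : ∀ N ∈ L.powerset, e (insert c N) = 0 := by
        intro N hN
        refine he _ ?_ (by
          rw [Finset.card_insert_of_notMem (fun h' => hc (Finset.mem_powerset.mp hN h'))]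
          omega)
        rw [Finset.mem_powerset]
        exact Finset.insert_subset_insert _ (Finset.mem_powerset.mp hN)
      have hh0 : ∀ s, h s = 0 := by
        intro s
        refine Finset.sum_eq_zero (fun N hN => ?_)
        rw [h0 N hN, zero_mul]
      have hH00 : H = 0 := by
        refine Finset.sum_eq_zero (fun N hN => ?_)
        rw [h0 N hN]
        simp
      simp only [hh0]
      rw [hH00]
      simp only [ne_eq, OfNat.ofNat_ne_zero, not_false_eq_true, zero_pow, mul_zero, avg_const, add_zero]
      simpa using hg4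
    · obtain ⟨k', rfl⟩ : ∃ k', k = k' + 1 := ⟨k - 1, by omega⟩
      have hh4 : avg (fun s => h s ^ 4) ≤ (9 : ℝ) ^ k' * H ^ 2 := by
        refine ih k' (fun N => e (insert c N)) (fun N hN hk => ?_)
        refine he _ ?_ (by
          rw [Finset.card_insert_of_notMem (fun h' => hc (Finset.mem_powerset.mp hN h'))]
          omega)
        rw [Finset.mem_powerset]
        exact Finset.insert_subset_insert _ (Finset.mem_powerset.mp hN)
      have hmix : avg (fun s => g s ^ 2 * h s ^ 2) ≤ ((3 : ℝ) ^ (k' + 1) * G) * ((3 : ℝ) ^ k' * H) := by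
        refine avg_cs_bound (by positivity) (by positivity) ?_ ?_
        · have : ∀ s, (g s ^ 2) ^ 2 = g s ^ 4 := fun s => by ring
          simp only [this]
          refine hg4.trans (le_of_eq ?_)
          rw [mul_pow, ← pow_mul, mul_comm (k' + 1) 2, pow_mul]
          norm_num
        · have : ∀ s, (h s ^ 2) ^ 2 = h s ^ 4 := fun s => by ring
          simp only [this]
          refine hh4.trans (le_of_eq ?_)
          rw [mul_pow, ← pow_mul, mul_comm k' 2, pow_mul]
          norm_num
      have h3 : (3 : ℝ) ^ (k' + 1) * (3 : ℝ) ^ k' = (9 : ℝ) ^ k' * 3 := by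
        rw [pow_succ, show (9 : ℝ) = 3 * 3 by norm_num, mul_pow]
        ring
      have h9 : (9 : ℝ) ^ (k' + 1) = 9 * (9 : ℝ) ^ k' := by
        rw [pow_succ]
        ring
      have h9p : (0 : ℝ) < (9 : ℝ) ^ k' := by positivity
      have hGH : 0 ≤ G * H := mul_nonneg hG0 hH0
      calc avg (fun s => g s ^ 4) + 6 * avg (fun s => g s ^ 2 * h s ^ 2) + avg (fun s => h s ^ 4)
          ≤ (9 : ℝ) ^ (k' + 1) * G ^ 2 + 6 * (((3 : ℝ) ^ (k' + 1) * G) * ((3 : ℝ) ^ k' * H))
            + (9 : ℝ) ^ k' * H ^ 2 := by
            gcongr
        _ = (9 : ℝ) ^ k' * (9 * G ^ 2 + 18 * (G * H) + H ^ 2) := by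
            have h4 : ((3 : ℝ) ^ (k' + 1) * G) * ((3 : ℝ) ^ k' * H)
                = ((3 : ℝ) ^ (k' + 1) * (3 : ℝ) ^ k') * (G * H) := by ring
            rw [h4, h3, h9]
            ring
        _ ≤ (9 : ℝ) ^ k' * (9 * (G ^ 2 + 2 * (G * H) + H ^ 2)) := by
            apply mul_le_mul_of_nonneg_left _ h9p.le
            nlinarith [sq_nonneg H]
        _ = (9 : ℝ) ^ (k' + 1) * (G + H) ^ 2 := by
            rw [h9]
            ring

/-- Parseval for characters. -/
theorem avg_chiS_mul (N N' : Finset α) :
    avg (fun s : α → Bool => chiS N s * chiS N' s) = if N = N' then 1 else 0 := by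
  by_cases h : N = N'
  · subst h
    rw [if_pos rfl]
    simp only [chiS_sq]
    exact avg_const 1
  · rw [if_neg h]
    -- a coordinate in the symmetric difference
    obtain ⟨c, hc⟩ : ∃ c, (c ∈ N ∧ c ∉ N') ∨ (c ∈ N' ∧ c ∉ N) := by
      by_contra hcon
      push Not at hcon
      apply h
      ext c
      have := hcon c
      tauto
    rw [avg_update c]
    have key : ∀ (M M' : Finset α), c ∈ M → c ∉ M' → ∀ (b : Bool) (t : α → Bool),
        chiS M (Function.update t c b) * chiS M' (Function.update t c b)
          = chiB b * (chiS (M.erase c) t * chiS M' t) := by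
      intro M M' h1 h2 b t
      have h3 : M = insert c (M.erase c) := (Finset.insert_erase h1).symm
      rw [h3, chiS_insert (Finset.notMem_erase c M), Finset.erase_insert (Finset.notMem_erase c M),
        chiS_update_not_mem (Finset.notMem_erase c M), chiS_update_not_mem h2, Function.update_self]
      ring
    rcases hc with ⟨h1, h2⟩ | ⟨h1, h2⟩
    · simp only [key N N' h1 h2, avg_mul_left]
      rw [avg_mul_right]
      simp [avg_bool]
    · have : ∀ (b : Bool) (t : α → Bool),
          chiS N (Function.update t c b) * chiS N' (Function.update t c b)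
            = chiB b * (chiS (N'.erase c) t * chiS N t) := by
        intro b t
        rw [mul_comm]
        exact key N' N h1 h2 b t
      simp only [this, avg_mul_left]
      rw [avg_mul_right]
      simp [avg_bool]

/-- Parseval for a sum of characters. -/
theorem avg_sum_chi_sq (L : Finset (Finset α)) (e : Finset α → ℝ) :
    avg (fun s : α → Bool => (∑ N ∈ L, e N * chiS N s) ^ 2) = ∑ N ∈ L, e N ^ 2 := by
  have h1 : ∀ s : α → Bool, (∑ N ∈ L, e N * chiS N s) ^ 2
      = ∑ N ∈ L, ∑ N' ∈ L, e N * e N' * (chiS N s * chiS N' s) := by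
    intro s
    rw [sq, Finset.sum_mul_sum]
    refine Finset.sum_congr rfl (fun N _ => Finset.sum_congr rfl (fun N' _ => ?_))
    ring
  simp only [h1]
  rw [avg_sum]
  refine Finset.sum_congr rfl (fun N hN => ?_)
  rw [avg_sum]
  simp only [avg_mul_left, avg_chiS_mul]
  rw [Finset.sum_eq_single N]
  · simp
    ring
  · intro N' _ hne
    rw [if_neg (Ne.symm hne), mul_zero]
  · intro h
    exact absurd hN h

end chiB

end Vale.Agent.Lib.P162
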