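import Vale.Agent.Lib.P162.NQ1

/-! The structure of the side assignments compatible with given fibres. -/

namespace Vale.Agent.Lib.P162

open Equiv Finset

set_option linter.unusedSectionVars false

open scoped Classical

section valid

variable {α : Type*} [Fintype α] [DecidableEq α] {Q : Type*} [Fintype Q] [DecidableEq Q]

/-- Validity among the cards of `G`: two cards of `G` in a common fibre lie on different sides. -/
def Val (G : Finset α) (s : α → Bool) (y : α → Q) : Prop :=
  ∀ c ∈ G, ∀ c' ∈ G, c ≠ c' → y c = y c' → s c ≠ s c'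

/-- No fibre holds three cards of `G`. -/
def Yt (G : Finset α) (y : α → Q) : Prop :=
  ∀ c ∈ G, ∀ c' ∈ G, ∀ c'' ∈ G, c ≠ c' → c ≠ c'' → c' ≠ c'' → y c = y c' → y c = y c'' → False

/-- The number of double fibres of `G`. -/
def pD (G : Finset α) (y : α → Q) : ℕ := G.card - (G.image y).card

/-- The cards of `G` alone in their fibre. -/
def Ln (G : Finset α) (y : α → Q) : Finset α :=
  G.filter (fun c => ∀ c' ∈ G, c' ≠ c → y c' ≠ y c)

theorem image_card_le (G : Finset α) (y : α → Q) : (G.image y).card ≤ G.card := Finset.card_image_le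

theorem Val_of_subset {G G' : Finset α} (h : G ⊆ G') {s : α → Bool} {y : α → Q} (hv : Val G' s y) :
    Val G s y := fun c hc c' hc' => hv c (h hc) c' (h hc')

theorem Yt_of_subset {G G' : Finset α} (h : G ⊆ G') {y : α → Q} (hv : Yt G' y) : Yt G y :=
  fun c hc c' hc' c'' hc'' => hv c (h hc) c' (h hc') c'' (h hc'')

theorem Yt_of_Val {G : Finset α} {s : α → Bool} {y : α → Q} (hv : Val G s y) : Yt G y := by
  intro c hc c' hc' c'' hc'' h1 h2 h3 h4 h5
  have h6 := hv c hc c' hc' h1 h4
  have h7 := hv c hc c'' hc'' h2 h5
  have h8 := hv c' hc' c'' hc'' h3 (h4.symm.trans h5)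
  revert h6 h7 h8
  cases s c <;> cases s c' <;> cases s c'' <;> simp

theorem Val_congr {G : Finset α} {s s' : α → Bool} {y y' : α → Q}
    (h1 : ∀ c ∈ G, s c = s' c) (h2 : ∀ c ∈ G, y c = y' c) : Val G s y ↔ Val G s' y' := by
  constructor
  · intro h c hc c' hc' hne hy
    rw [← h1 c hc, ← h1 c' hc']
    exact h c hc c' hc' hne (by rw [h2 c hc, h2 c' hc']; exact hy)
  · intro h c hc c' hc' hne hy
    rw [h1 c hc, h1 c' hc']
    exact h c hc c' hc' hne (by rw [← h2 c hc, ← h2 c' hc']; exact hy)

/-- Validity does not see the cards alone in their fibre. -/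
theorem Val_congr_lone {G : Finset α} {s s' : α → Bool} {y : α → Q}
    (h1 : ∀ c ∈ G, c ∉ Ln G y → s c = s' c) : Val G s y ↔ Val G s' y := by
  have key : ∀ c ∈ G, ∀ c' ∈ G, c ≠ c' → y c = y c' → c ∉ Ln G y := by
    intro c hc c' hc' hne hy hl
    exact (Finset.mem_filter.mp hl).2 c' hc' hne.symm hy.symm
  constructor
  · intro h c hc c' hc' hne hy
    rw [← h1 c hc (key c hc c' hc' hne hy), ← h1 c' hc' (key c' hc' c hc hne.symm hy.symm)]
    exact h c hc c' hc' hne hy
  · intro h c hc c' hc' hne hy
    rw [h1 c hc (key c hc c' hc' hne hy), h1 c' hc' (key c' hc' c hc hne.symm hy.symm)]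
    exact h c hc c' hc' hne hy

/-- Adding a card to the set. -/
theorem pD_insert {G : Finset α} {c : α} (hc : c ∉ G) (y : α → Q) :
    pD (insert c G) y = pD G y + (if ∃ c' ∈ G, y c' = y c then 1 else 0) := by
  unfold pD
  rw [Finset.card_insert_of_notMem hc, Finset.image_insert]
  have h1 := image_card_le G y
  split_ifs with h
  · obtain ⟨c', hc', hy⟩ := h
    have : y c ∈ G.image y := Finset.mem_image.mpr ⟨c', hc', hy⟩
    rw [Finset.insert_eq_of_mem this]
    omega
  · have : y c ∉ G.image y := by
      intro h2
      obtain ⟨c', hc', hy⟩ := Finset.mem_image.mp h2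
      exact h ⟨c', hc', hy⟩
    rw [Finset.card_insert_of_notMem this]
    omega

/-- The probability of validity. -/
theorem avg_Val (G : Finset α) (y : α → Q) (hY : Yt G y) :
    avg (fun s : α → Bool => ind (Val G s y)) = (1 / 2 : ℝ) ^ pD G y := by
  induction G using Finset.induction_on with
  | empty =>
    have h1 : ∀ s : α → Bool, ind (Val ∅ s y) = 1 := by
      intro s
      apply ind_true'
      intro c hc
      simp at hc
    simp only [h1]
    simp [avg_const, pD]
  | insert c G hc ih =>
    have hY' : Yt G y := Yt_of_subset (Finset.subset_insert _ _) hY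
    rw [pD_insert hc, pow_add, ← ih hY']
    by_cases h : ∃ c' ∈ G, y c' = y c
    · rw [if_pos h, pow_one]
      obtain ⟨c', hc', hy⟩ := h
      have h1 : ∀ s : α → Bool, Val (insert c G) s y ↔ (Val G s y ∧ s c ≠ s c') := by
        intro s
        constructor
        · intro hv
          refine ⟨Val_of_subset (Finset.subset_insert _ _) hv, ?_⟩
          exact hv c (Finset.mem_insert_self _ _) c' (Finset.mem_insert_of_mem hc')
            (fun h => hc (h ▸ hc')) hy.symm
        · rintro ⟨hv, hne⟩ c₁ hc₁ c₂ hc₂ hc₁₂ hy₁₂
          rw [Finset.mem_insert] at hc₁ hc₂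
          rcases hc₁ with rfl | hc₁
          · rcases hc₂ with rfl | hc₂
            · exact absurd rfl hc₁₂
            · by_cases h3 : c₂ = c'
              · rw [h3]
                exact hne
              · exact (hY c₁ (Finset.mem_insert_self _ _) c' (Finset.mem_insert_of_mem hc') c₂
                  (Finset.mem_insert_of_mem hc₂) (fun h => hc (h ▸ hc')) hc₁₂ (Ne.symm h3) hy.symm hy₁₂).elim
          · rcases hc₂ with rfl | hc₂
            · by_cases h3 : c₁ = c'
              · rw [h3]
                exact Ne.symm hne
              · exact (hY c₂ (Finset.mem_insert_self _ _) c' (Finset.mem_insert_of_mem hc') c₁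
                  (Finset.mem_insert_of_mem hc₁) (fun h => hc (h ▸ hc')) (Ne.symm hc₁₂) (Ne.symm h3) hy.symm hy₁₂.symm).elim
            · exact hv c₁ hc₁ c₂ hc₂ hc₁₂ hy₁₂
      have h2 : ∀ s : α → Bool, ind (Val (insert c G) s y) = ind (Val G s y) * ind (s c ≠ s c') := by
        intro s
        rw [← ind_and]
        unfold ind
        simp only [h1]
      simp only [h2]
      rw [avg_update c]
      have hcc' : c' ≠ c := fun h => hc (h ▸ hc')
      have h3 : ∀ (b : Bool) (t : α → Bool), ind (Val G (Function.update t c b) y)
          * ind (Function.update t c b c ≠ Function.update t c b c')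
          = ind (Val G t y) * ind (b ≠ t c') := by
        intro b t
        rw [Function.update_self, Function.update_of_ne hcc']
        congr 1
        unfold ind
        have : Val G (Function.update t c b) y ↔ Val G t y :=
          Val_congr (fun c₁ hc₁ => Function.update_of_ne (by rintro rfl; exact hc hc₁) _ _) (fun _ _ => rfl)
        simp only [this]
      simp only [h3]
      rw [avg_comm]
      have h4 : ∀ t : α → Bool, avg (fun b : Bool => ind (Val G t y) * ind (b ≠ t c'))
          = ind (Val G t y) * (1 / 2) := by
        intro t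
        rw [avg_mul_left, avg_bool]
        congr 1
        unfold ind
        cases t c' <;> simp
      simp only [h4, avg_mul_right]
    · rw [if_neg h, pow_zero, mul_one]
      have h1 : ∀ s : α → Bool, Val (insert c G) s y ↔ Val G s y := by
        intro s
        constructor
        · exact Val_of_subset (Finset.subset_insert _ _)
        · intro hv c₁ hc₁ c₂ hc₂ hc₁₂ hy₁₂
          rw [Finset.mem_insert] at hc₁ hc₂
          rcases hc₁ with rfl | hc₁
          · rcases hc₂ with rfl | hc₂
            · exact absurd rfl hc₁₂
            · exact absurd ⟨c₂, hc₂, hy₁₂.symm⟩ h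
          · rcases hc₂ with rfl | hc₂
            · exact absurd ⟨c₁, hc₁, hy₁₂⟩ h
            · exact hv c₁ hc₁ c₂ hc₂ hc₁₂ hy₁₂
      unfold ind
      simp only [h1]

/-- The count of the cards on a given side. -/
theorem card_side (G : Finset α) (s : α → Bool) (y : α → Q) (hv : Val G s y) (e : Bool) :
    (G.filter (fun c => s c = e)).card = pD G y + ((Ln G y).filter (fun c => s c = e)).card := by
  set Te := G.filter (fun c => s c = e) with hTe
  set Tn := G.filter (fun c => s c = !e) with hTn
  set Le := (Ln G y).filter (fun c => s c = e) with hLe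
  have h1 : G.card = Te.card + Tn.card := by
    rw [hTe, hTn, ← Finset.card_union_of_disjoint, ← Finset.filter_or]
    · congr 1
      ext c
      simp only [Finset.mem_filter]
      constructor
      · intro h
        refine ⟨h, ?_⟩
        cases hs : s c <;> cases e <;> simp [hs] at *
      · exact fun h => h.1
    · rw [Finset.disjoint_left]
      intro c h2 h3
      have h4 := (Finset.mem_filter.mp h2).2
      have h5 := (Finset.mem_filter.mp h3).2
      rw [h4] at h5
      cases e <;> simp at h5
  have hsub : Le ⊆ Te := by
    intro c hc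
    obtain ⟨h2, h3⟩ := Finset.mem_filter.mp hc
    exact Finset.mem_filter.mpr ⟨(Finset.mem_filter.mp h2).1, h3⟩
  have himg : G.image y = Tn.image y ∪ Le.image y := by
    ext i
    simp only [Finset.mem_image, Finset.mem_union]
    constructor
    · rintro ⟨c, hc, rfl⟩
      by_cases h2 : s c = !e
      · exact Or.inl ⟨c, Finset.mem_filter.mpr ⟨hc, h2⟩, rfl⟩
      · have h3 : s c = e := by
          cases hs : s c <;> cases e <;> simp [hs] at h2 ⊢
        by_cases h4 : c ∈ Ln G y
        · exact Or.inr ⟨c, Finset.mem_filter.mpr ⟨h4, h3⟩, rfl⟩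
        · have h5 : ∃ c' ∈ G, c' ≠ c ∧ y c' = y c := by
            by_contra hcon
            push Not at hcon
            exact h4 (Finset.mem_filter.mpr ⟨hc, hcon⟩)
          obtain ⟨c', hc', hne, hy⟩ := h5
          refine Or.inl ⟨c', Finset.mem_filter.mpr ⟨hc', ?_⟩, hy⟩
          have h6 := hv c' hc' c hc hne hy
          rw [h3] at h6
          cases hs : s c' <;> cases e <;> simp [hs] at h6 ⊢
    · rintro (⟨c, hc, rfl⟩ | ⟨c, hc, rfl⟩)
      · exact ⟨c, (Finset.mem_filter.mp hc).1, rfl⟩
      · exact ⟨c, hsub hc |> fun h => (Finset.mem_filter.mp h).1, rfl⟩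
  have hdisj : Disjoint (Tn.image y) (Le.image y) := by
    rw [Finset.disjoint_left]
    intro i h2 h3
    obtain ⟨c, hc, rfl⟩ := Finset.mem_image.mp h2
    obtain ⟨c', hc', hy⟩ := Finset.mem_image.mp h3
    obtain ⟨hc1, hc2⟩ := Finset.mem_filter.mp hc
    obtain ⟨hc'1, hc'2⟩ := Finset.mem_filter.mp hc'
    have hne : c ≠ c' := by
      rintro rfl
      rw [hc2] at hc'2
      cases e <;> simp at hc'2
    exact (Finset.mem_filter.mp hc'1).2 c hc1 hne hy.symm
  have hinj1 : (Tn.image y).card = Tn.card := by
    apply Finset.card_image_of_injOn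
    intro c hc c' hc' hy
    by_contra hne
    have h2 := hv c (Finset.mem_filter.mp hc).1 c' (Finset.mem_filter.mp hc').1 hne hy
    exact h2 ((Finset.mem_filter.mp hc).2.trans (Finset.mem_filter.mp hc').2.symm)
  have hinj2 : (Le.image y).card = Le.card := by
    apply Finset.card_image_of_injOn
    intro c hc c' hc' hy
    by_contra hne
    have h2 := (Finset.mem_filter.mp hc).1
    have h3 := (Finset.mem_filter.mp hc').1
    exact (Finset.mem_filter.mp h2).2 c' (Finset.mem_filter.mp h3).1 (Ne.symm hne) hy.symm
  have himgc : (G.image y).card = Tn.card + Le.card := by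
    rw [himg, Finset.card_union_of_disjoint hdisj, hinj1, hinj2]
  unfold pD
  have hle : Le.card ≤ Te.card := Finset.card_le_card hsub
  omega

theorem card_lone (G : Finset α) (s : α → Bool) (y : α → Q) (hv : Val G s y) :
    (Ln G y).card + 2 * pD G y = G.card := by
  have h1 := card_side G s y hv false
  have h2 := card_side G s y hv true
  have h3 : G.card = (G.filter (fun c => s c = false)).card + (G.filter (fun c => s c = true)).card := by
    rw [← Finset.card_union_of_disjoint, ← Finset.filter_or]
    · congr 1
      ext c
      simp only [Finset.mem_filter]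
      constructor
      · intro h
        refine ⟨h, ?_⟩
        cases s c <;> simp
      · exact fun h => h.1
    · rw [Finset.disjoint_left]
      intro c h2 h3
      have h4 := (Finset.mem_filter.mp h2).2
      have h5 := (Finset.mem_filter.mp h3).2
      rw [h4] at h5
      simp at h5
  have h4 : (Ln G y).card = ((Ln G y).filter (fun c => s c = false)).card + ((Ln G y).filter (fun c => s c = true)).card := by
    rw [← Finset.card_union_of_disjoint, ← Finset.filter_or]
    · congr 1
      ext c
      simp only [Finset.mem_filter]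
      constructor
      · intro h
        refine ⟨h, ?_⟩
        cases s c <;> simp
      · exact fun h => h.1
    · rw [Finset.disjoint_left]
      intro c h2 h3
      have h4 := (Finset.mem_filter.mp h2).2
      have h5 := (Finset.mem_filter.mp h3).2
      rw [h4] at h5
      simp at h5
  omega

end valid

end Vale.Agent.Lib.P162
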