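import Vale.Agent.Lib.P162.NQ2

/-! The Fourier coefficients of the indicator of validity. -/

namespace Vale.Agent.Lib.P162

open Equiv Finset

set_option linter.unusedSectionVars false

open scoped Classical

section theta

variable {α : Type*} [Fintype α] [DecidableEq α] {Q : Type*} [Fintype Q] [DecidableEq Q]

/-- Every card of `E` shares its fibre inside `A`, and no fibre holds three cards of `A`. -/
def Zz (A E : Finset α) (y : α → Q) : Prop := Yt A y ∧ ∀ c ∈ E, ∃ c' ∈ A, c' ≠ c ∧ y c' = y c

/-- The number of fibres touched by `E`. -/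
def tt (E : Finset α) (y : α → Q) : ℕ := (E.image y).card

/-- The cards of `A` outside `E` sharing a fibre with a card of `E`. -/
def Nb (A E : Finset α) (y : α → Q) : Finset α := (A \ E).filter (fun c' => ∃ c ∈ E, y c = y c')

/-- The Fourier coefficient of validity in the coordinates of `E`. -/
noncomputable def Th (A E : Finset α) (s : α → Bool) (y : α → Q) : ℝ :=
  avg (fun t : α → Bool => chiS E t * ind (Val A (mg E t s) y))

theorem Val_insert {G : Finset α} {c : α} (hc : c ∉ G) (s : α → Bool) (y : α → Q) :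
    Val (insert c G) s y ↔ (Val G s y ∧ ∀ c' ∈ G, y c' = y c → s c ≠ s c') := by
  constructor
  · intro hv
    refine ⟨Val_of_subset (Finset.subset_insert _ _) hv, fun c' hc' hy => ?_⟩
    exact hv c (Finset.mem_insert_self _ _) c' (Finset.mem_insert_of_mem hc')
      (by rintro rfl; exact hc hc') hy.symm
  · rintro ⟨hv, h⟩ c₁ hc₁ c₂ hc₂ hc₁₂ hy₁₂
    rw [Finset.mem_insert] at hc₁ hc₂
    rcases hc₁ with rfl | hc₁
    · rcases hc₂ with rfl | hc₂
      · exact absurd rfl hc₁₂
      · exact h c₂ hc₂ hy₁₂.symm
    · rcases hc₂ with rfl | hc₂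
      · exact (h c₁ hc₁ hy₁₂).symm
      · exact hv c₁ hc₁ c₂ hc₂ hc₁₂ hy₁₂

theorem Val_insert_update {G : Finset α} {c : α} (hc : c ∉ G) (s : α → Bool) (b : Bool) (y : α → Q) :
    Val (insert c G) (Function.update s c b) y ↔ (Val G s y ∧ ∀ c' ∈ G, y c' = y c → b ≠ s c') := by
  rw [Val_insert hc]
  have h1 : Val G (Function.update s c b) y ↔ Val G s y :=
    Val_congr (fun c₁ hc₁ => Function.update_of_ne (by rintro rfl; exact hc hc₁) _ _) (fun _ _ => rfl)
  rw [h1, Function.update_self]
  have h2 : ∀ c' ∈ G, Function.update s c b c' = s c' := fun c' hc' =>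
    Function.update_of_ne (by rintro rfl; exact hc hc') _ _
  constructor
  · rintro ⟨h3, h4⟩
    exact ⟨h3, fun c' hc' hy => by rw [← h2 c' hc']; exact h4 c' hc' hy⟩
  · rintro ⟨h3, h4⟩
    exact ⟨h3, fun c' hc' hy => by rw [h2 c' hc']; exact h4 c' hc' hy⟩

theorem Th_insert (A : Finset α) {E : Finset α} {c : α} (hc : c ∉ E) (s : α → Bool) (y : α → Q) :
    Th A (insert c E) s y = avg (fun b : Bool => chiB b * Th A E (Function.update s c b) y) := by
  unfold Th
  rw [avg_update c]
  have hm : ∀ (b : Bool) (t : α → Bool), mg (insert c E) (Function.update t c b) s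
      = mg E t (Function.update s c b) := by
    intro b t
    funext c'
    by_cases h1 : c' = c
    · subst h1
      simp [hc]
    · by_cases h2 : c' ∈ E <;> simp [h1, h2]
  simp only [hm, chiS_insert hc, Function.update_self, chiS_update_not_mem hc]
  congr 1
  funext b
  rw [← avg_mul_left]
  congr 1
  funext t
  ring

theorem sdiff_insert_eq {A E : Finset α} {c : α} (hcA : c ∈ A) (hc : c ∉ E) :
    A \ E = insert c (A \ insert c E) := by
  ext c'
  simp only [Finset.mem_sdiff, Finset.mem_insert, not_or]
  by_cases h : c' = c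
  · subst h
    simp [hc, hcA]
  · simp [h]

theorem not_mem_sdiff_insert (A E : Finset α) (c : α) : c ∉ A \ insert c E := by
  simp

theorem Zz_of_insert {A E : Finset α} {c : α} {y : α → Q} (h : Zz A (insert c E) y) : Zz A E y :=
  ⟨h.1, fun c' hc' => h.2 c' (Finset.mem_insert_of_mem hc')⟩

theorem Zz_empty_iff (A : Finset α) (y : α → Q) : Zz A (∅ : Finset α) y ↔ Yt A y := by
  simp [Zz]

theorem mate_unique {A : Finset α} {y : α → Q} (hY : Yt A y) {c c₁ c₂ : α} (hc : c ∈ A) (hc₁ : c₁ ∈ A)
    (hc₂ : c₂ ∈ A) (h1 : c₁ ≠ c) (h2 : c₂ ≠ c)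
    (h3 : y c₁ = y c) (h4 : y c₂ = y c) : c₁ = c₂ := by
  by_contra hne
  exact hY c hc c₁ hc₁ c₂ hc₂ h1.symm h2.symm hne h3.symm h4.symm

section cases

variable {A E : Finset α} {c : α} {y : α → Q}

/-- The case of a mate in the set. -/
theorem Nb_case1 (hcA : c ∈ A) (hc : c ∉ E) {c' : α} (hc' : c' ∈ E) (hy : y c' = y c) :
    c ∈ Nb A E y ∧ Nb A (insert c E) y = (Nb A E y).erase c := by
  have h1 : c ∈ Nb A E y := Finset.mem_filter.mpr ⟨by simp [hcA, hc], c', hc', hy⟩
  refine ⟨h1, ?_⟩
  ext c₁
  simp only [Nb, Finset.mem_filter, Finset.mem_sdiff, Finset.mem_insert, not_or, Finset.mem_erase]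
  constructor
  · rintro ⟨⟨h0, h2, h3⟩, c₂, h4, h5⟩
    refine ⟨h2, ⟨h0, h3⟩, ?_⟩
    rcases h4 with rfl | h4
    · refine ⟨c', hc', ?_⟩
      rw [hy, h5]
    · exact ⟨c₂, h4, h5⟩
  · rintro ⟨h2, ⟨h0, h3⟩, c₂, h4, h5⟩
    exact ⟨⟨h0, h2, h3⟩, c₂, Or.inr h4, h5⟩

/-- The case of a mate outside the set. -/
theorem Nb_case2 (hE : E ⊆ A) (hcA : c ∈ A) (hc : c ∉ E) (hY : Yt A y) {c' : α} (hc'A : c' ∈ A)
    (hc' : c' ∉ E) (hne : c' ≠ c) (hy : y c' = y c) :
    c ∉ Nb A E y ∧ c' ∉ Nb A E y ∧ Nb A (insert c E) y = insert c' (Nb A E y) ∧ y c ∉ E.image y := by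
  have h0 : ∀ c₂ ∈ E, y c₂ ≠ y c := by
    intro c₂ hc₂ h
    have h1 : c₂ ≠ c := by
      rintro rfl
      exact hc hc₂
    have := mate_unique hY hcA (hE hc₂) hc'A h1 hne h hy
    exact hc' (this ▸ hc₂)
  refine ⟨?_, ?_, ?_, ?_⟩
  · intro h
    obtain ⟨_, c₂, h3, h4⟩ := Finset.mem_filter.mp h
    exact h0 c₂ h3 h4
  · intro h
    obtain ⟨_, c₂, h3, h4⟩ := Finset.mem_filter.mp h
    exact h0 c₂ h3 (h4.trans hy)
  · ext c₁
    simp only [Nb, Finset.mem_filter, Finset.mem_sdiff, Finset.mem_insert, not_or]
    constructor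
    · rintro ⟨⟨h1, h2, h3⟩, c₂, h4, h5⟩
      rcases h4 with rfl | h4
      · left
        exact mate_unique hY hcA h1 hc'A h2 hne h5.symm hy
      · right
        exact ⟨⟨h1, h3⟩, c₂, h4, h5⟩
    · rintro (rfl | ⟨⟨h1, h3⟩, c₂, h4, h5⟩)
      · exact ⟨⟨hc'A, hne, hc'⟩, c, Or.inl rfl, hy.symm⟩
      · refine ⟨⟨h1, ?_, h3⟩, c₂, Or.inr h4, h5⟩
        rintro rfl
        exact h0 c₂ h4 h5
  · intro h
    obtain ⟨c₂, h3, h4⟩ := Finset.mem_image.mp h
    exact h0 c₂ h3 h4

end cases

/-- **The formula for the Fourier coefficient.** -/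
theorem Th_formula (A E : Finset α) (hE : E ⊆ A) (y : α → Q) (s : α → Bool) :
    Th A E s y = if Zz A E y then (-1 / 2 : ℝ) ^ tt E y * chiS (Nb A E y) s * ind (Val (A \ E) s y) else 0 := by
  induction E using Finset.induction_on generalizing s with
  | empty =>
    unfold Th
    simp only [chiS_empty, one_mul, mg_empty, avg_const, Finset.sdiff_empty]
    by_cases h : Yt A y
    · rw [if_pos ((Zz_empty_iff A y).mpr h)]
      have : Nb A ∅ y = (∅ : Finset α) := by
        ext c
        simp [Nb]
      rw [this]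
      simp [tt]
    · rw [if_neg (fun h2 => h ((Zz_empty_iff A y).mp h2))]
      exact ind_false' (fun hv => h (Yt_of_Val hv))
  | insert c E hc ih =>
    have hcA : c ∈ A := hE (Finset.mem_insert_self _ _)
    have hE' : E ⊆ A := (Finset.subset_insert _ _).trans hE
    have ih := ih hE'
    rw [Th_insert A hc]
    by_cases hZ : Zz A E y
    · simp only [ih, if_pos hZ]
      have hY := hZ.1
      set κ : ℝ := (-1 / 2 : ℝ) ^ tt E y with hκ
      have hG : A \ E = insert c (A \ insert c E) := sdiff_insert_eq hcA hc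
      have hcG := not_mem_sdiff_insert A E c
      set G := A \ insert c E with hGdef
      simp only [hG, Val_insert_update hcG]
      by_cases hm : ∃ c' ∈ A, c' ≠ c ∧ y c' = y c
      · obtain ⟨c', hc'A, hne, hy⟩ := hm
        have hZ' : Zz A (insert c E) y := by
          refine ⟨hY, fun c₁ hc₁ => ?_⟩
          rcases Finset.mem_insert.mp hc₁ with rfl | h
          · exact ⟨c', hc'A, hne, hy⟩
          · exact hZ.2 c₁ h
        rw [if_pos hZ']
        by_cases hc' : c' ∈ E
        · -- the mate lies in the set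
          obtain ⟨h1, h2⟩ := Nb_case1 (A := A) hcA hc hc' hy
          have htt : tt (insert c E) y = tt E y := by
            unfold tt
            rw [Finset.image_insert, Finset.insert_eq_of_mem]
            rw [← hy]
            exact Finset.mem_image_of_mem y hc'
          have hnone : ∀ c₁ ∈ G, y c₁ = y c → False := by
            intro c₁ hc₁ hy₁
            have h3 : c₁ ≠ c := by
              rintro rfl
              exact hcG hc₁
            have hc₁A : c₁ ∈ A := (Finset.mem_sdiff.mp hc₁).1
            have := mate_unique hY hcA hc₁A hc'A h3 hne hy₁ hy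
            rw [hGdef, Finset.mem_sdiff, this] at hc₁
            exact hc₁.2 (Finset.mem_insert_of_mem hc')
          have hV : ∀ b : Bool, (Val G s y ∧ ∀ c₁ ∈ G, y c₁ = y c → b ≠ s c₁) ↔ Val G s y := by
            intro b
            constructor
            · exact fun h => h.1
            · exact fun h => ⟨h, fun c₁ hc₁ hy₁ => (hnone c₁ hc₁ hy₁).elim⟩
          have hchi : ∀ b : Bool, chiS (Nb A E y) (Function.update s c b)
              = chiB b * chiS ((Nb A E y).erase c) s := by
            intro b
            have h3 : Nb A E y = insert c ((Nb A E y).erase c) := (Finset.insert_erase h1).symm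
            nth_rewrite 1 [h3]
            rw [chiS_insert (Finset.notMem_erase c _), Function.update_self,
              chiS_update_not_mem (Finset.notMem_erase c _)]
          have h4 : ∀ b : Bool, chiB b * (κ * chiS (Nb A E y) (Function.update s c b)
                * ind (Val G s y ∧ ∀ c₁ ∈ G, y c₁ = y c → b ≠ s c₁))
              = κ * chiS ((Nb A E y).erase c) s * ind (Val G s y) := by
            intro b
            rw [hchi]
            have h5 : ind (Val G s y ∧ ∀ c₁ ∈ G, y c₁ = y c → b ≠ s c₁) = ind (Val G s y) := by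
              unfold ind
              simp only [hV b]
            rw [h5]
            have := chi_sq b
            calc chiB b * (κ * (chiB b * chiS ((Nb A E y).erase c) s) * ind (Val G s y))
                = (chiB b * chiB b) * (κ * chiS ((Nb A E y).erase c) s * ind (Val G s y)) := by ring
              _ = _ := by rw [this, one_mul]
          simp only [h4]
          rw [avg_const, h2, htt]
        · -- the mate lies outside the set
          obtain ⟨h1, h1', h2, h3⟩ := Nb_case2 hE' hcA hc hY hc'A hc' hne hy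
          have htt : tt (insert c E) y = tt E y + 1 := by
            unfold tt
            rw [Finset.image_insert, Finset.card_insert_of_notMem h3]
          have hc'G : c' ∈ G := by
            rw [hGdef, Finset.mem_sdiff, Finset.mem_insert, not_or]
            exact ⟨hc'A, hne, hc'⟩
          have hV : ∀ b : Bool, (Val G s y ∧ ∀ c₁ ∈ G, y c₁ = y c → b ≠ s c₁) ↔ (Val G s y ∧ b ≠ s c') := by
            intro b
            constructor
            · exact fun h => ⟨h.1, h.2 c' hc'G hy⟩
            · rintro ⟨h4, h5⟩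
              refine ⟨h4, fun c₁ hc₁ hy₁ => ?_⟩
              have h6 : c₁ ≠ c := by
                rintro rfl
                exact hcG hc₁
              have hc₁A : c₁ ∈ A := (Finset.mem_sdiff.mp hc₁).1
              rw [mate_unique hY hcA hc₁A hc'A h6 hne hy₁ hy]
              exact h5
          have h4 : ∀ b : Bool, chiB b * (κ * chiS (Nb A E y) (Function.update s c b)
                * ind (Val G s y ∧ ∀ c₁ ∈ G, y c₁ = y c → b ≠ s c₁))
              = κ * chiS (Nb A E y) s * ind (Val G s y) * (chiB b * ind (b ≠ s c')) := by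
            intro b
            rw [chiS_update_not_mem h1]
            have h5 : ind (Val G s y ∧ ∀ c₁ ∈ G, y c₁ = y c → b ≠ s c₁) = ind (Val G s y) * ind (b ≠ s c') := by
              rw [← ind_and]
              unfold ind
              simp only [hV b]
            rw [h5]
            ring
          simp only [h4]
          rw [avg_mul_left]
          have h5 : avg (fun b : Bool => chiB b * ind (b ≠ s c')) = (-1 / 2) * chiB (s c') := by
            rw [avg_bool]
            unfold ind
            cases s c' <;> simp <;> norm_num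
          rw [h5, h2, chiS_insert h1', htt, pow_succ]
          ring
      · -- no mate: the average vanishes
        have hZ' : ¬ Zz A (insert c E) y := by
          intro h
          exact hm (h.2 c (Finset.mem_insert_self _ _))
        rw [if_neg hZ']
        have h1 : c ∉ Nb A E y := by
          intro h
          obtain ⟨_, c₂, h3, h4⟩ := Finset.mem_filter.mp h
          exact hm ⟨c₂, hE' h3, by rintro rfl; exact hc h3, h4⟩
        have hV : ∀ b : Bool, (Val G s y ∧ ∀ c₁ ∈ G, y c₁ = y c → b ≠ s c₁) ↔ Val G s y := by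
          intro b
          constructor
          · exact fun h => h.1
          · refine fun h => ⟨h, fun c₁ hc₁ hy₁ => ?_⟩
            exact absurd ⟨c₁, (Finset.mem_sdiff.mp hc₁).1, by rintro rfl; exact hcG hc₁, hy₁⟩ hm
        have h4 : ∀ b : Bool, chiB b * (κ * chiS (Nb A E y) (Function.update s c b)
              * ind (Val G s y ∧ ∀ c₁ ∈ G, y c₁ = y c → b ≠ s c₁))
            = chiB b * (κ * chiS (Nb A E y) s * ind (Val G s y)) := by
          intro b
          rw [chiS_update_not_mem h1]
          have h5 : ind (Val G s y ∧ ∀ c₁ ∈ G, y c₁ = y c → b ≠ s c₁) = ind (Val G s y) := by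
            unfold ind
            simp only [hV b]
          rw [h5]
        simp only [h4]
        rw [avg_mul_right]
        simp [avg_bool]
    · have hZ' : ¬ Zz A (insert c E) y := fun h => hZ (Zz_of_insert h)
      rw [if_neg hZ']
      simp only [ih, if_neg hZ, mul_zero]
      exact avg_const 0

/-- The counting facts for a set of cards with mates. -/
theorem Zz_facts (A E : Finset α) (hE : E ⊆ A) (y : α → Q) (h : Zz A E y) :
    pD A y = pD (A \ E) y + tt E y ∧ E.card + (Nb A E y).card = 2 * tt E y := by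
  induction E using Finset.induction_on with
  | empty =>
    have : Nb A ∅ y = (∅ : Finset α) := by
      ext c
      simp [Nb]
    simp [tt, this]
  | insert c E hc ih =>
    have hcA : c ∈ A := hE (Finset.mem_insert_self _ _)
    have hE' : E ⊆ A := (Finset.subset_insert _ _).trans hE
    obtain ⟨h1, h2⟩ := ih hE' (Zz_of_insert h)
    have hY := h.1
    obtain ⟨c', hc'A, hne, hy⟩ := h.2 c (Finset.mem_insert_self _ _)
    have hG : A \ E = insert c (A \ insert c E) := sdiff_insert_eq hcA hc
    have hcG := not_mem_sdiff_insert A E c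
    have hp := pD_insert hcG y
    rw [← hG] at hp
    by_cases hc' : c' ∈ E
    · obtain ⟨h3, h4⟩ := Nb_case1 (A := A) hcA hc hc' hy
      have htt : tt (insert c E) y = tt E y := by
        unfold tt
        rw [Finset.image_insert, Finset.insert_eq_of_mem]
        rw [← hy]
        exact Finset.mem_image_of_mem y hc'
      have hnone : ¬ ∃ c₁ ∈ A \ insert c E, y c₁ = y c := by
        rintro ⟨c₁, hc₁, hy₁⟩
        have h5 : c₁ ≠ c := by
          rintro rfl
          exact hcG hc₁
        have hc₁A : c₁ ∈ A := (Finset.mem_sdiff.mp hc₁).1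
        have := mate_unique hY hcA hc₁A hc'A h5 hne hy₁ hy
        rw [Finset.mem_sdiff, this] at hc₁
        exact hc₁.2 (Finset.mem_insert_of_mem hc')
      rw [if_neg hnone] at hp
      have hcard : ((Nb A E y).erase c).card + 1 = (Nb A E y).card := Finset.card_erase_add_one h3
      rw [htt, h4, Finset.card_insert_of_notMem hc]
      omega
    · obtain ⟨h3, h3', h4, h5⟩ := Nb_case2 hE' hcA hc hY hc'A hc' hne hy
      have htt : tt (insert c E) y = tt E y + 1 := by
        unfold tt
        rw [Finset.image_insert, Finset.card_insert_of_notMem h5]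
      have hex : ∃ c₁ ∈ A \ insert c E, y c₁ = y c := by
        refine ⟨c', ?_, hy⟩
        rw [Finset.mem_sdiff, Finset.mem_insert, not_or]
        exact ⟨hc'A, hne, hc'⟩
      rw [if_pos hex] at hp
      rw [htt, h4, Finset.card_insert_of_notMem hc, Finset.card_insert_of_notMem h3']
      omega

/-- The cards of `Nb` are alone outside `E`. -/
theorem Nb_subset_Ln {A E : Finset α} {y : α → Q} (hE : E ⊆ A) (h : Zz A E y) :
    Nb A E y ⊆ Ln (A \ E) y := by
  intro c' hc'
  obtain ⟨h1, c, hc, hy⟩ := Finset.mem_filter.mp hc'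
  have h1A := (Finset.mem_sdiff.mp h1).1
  refine Finset.mem_filter.mpr ⟨h1, fun c'' hc'' hne hy' => ?_⟩
  have hcc' : c' ≠ c := by
    rintro rfl
    exact (Finset.mem_sdiff.mp h1).2 hc
  have hcc'' : c'' ≠ c := by
    rintro rfl
    exact (Finset.mem_sdiff.mp hc'').2 hc
  exact hne (mate_unique h.1 (hE hc) (Finset.mem_sdiff.mp hc'').1 h1A hcc'' hcc' (hy'.trans hy.symm) hy.symm)

/-- The fibres of `Nb` are distinct. -/
theorem Nb_injOn {A E : Finset α} {y : α → Q} (hE : E ⊆ A) (h : Zz A E y) :
    Set.InjOn y (Nb A E y : Set α) := by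
  intro c₁ h1 c₂ h2 hy
  obtain ⟨h3, c, hc, hy₁⟩ := Finset.mem_filter.mp (Finset.mem_coe.mp h1)
  obtain ⟨h4, _⟩ := Finset.mem_filter.mp (Finset.mem_coe.mp h2)
  have h5 : c₁ ≠ c := by
    rintro rfl
    exact (Finset.mem_sdiff.mp h3).2 hc
  have h6 : c₂ ≠ c := by
    rintro rfl
    exact (Finset.mem_sdiff.mp h4).2 hc
  exact mate_unique h.1 (hE hc) (Finset.mem_sdiff.mp h3).1 (Finset.mem_sdiff.mp h4).1 h5 h6 hy₁.symm
    (hy.symm.trans hy₁.symm)

theorem Nb_image_subset (A E : Finset α) (y : α → Q) : (Nb A E y).image y ⊆ E.image y := by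
  intro i hi
  obtain ⟨c', hc', rfl⟩ := Finset.mem_image.mp hi
  obtain ⟨_, c, hc, hy⟩ := Finset.mem_filter.mp hc'
  exact Finset.mem_image.mpr ⟨c, hc, hy⟩

end theta

end Vale.Agent.Lib.P162
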