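import Vale.Agent.Lib.P162.NQ3

/-! Binomial averages over the side assignments and the formula for the coefficients. -/

namespace Vale.Agent.Lib.P162

open Equiv Finset

set_option linter.unusedSectionVars false

open scoped Classical

/-- The binomial weights. -/
noncomputable def Pn (n b : ℕ) : ℝ := (n.choose b : ℝ) / 2 ^ n

theorem Pn_nonneg (n b : ℕ) : 0 ≤ Pn n b := by
  unfold Pn
  positivity

theorem Pn_step (n : ℕ) (F : ℕ → ℝ) :
    ∑ b ∈ Finset.range (n + 2), Pn (n + 1) b * F b
      = (1 / 2 : ℝ) * ∑ b ∈ Finset.range (n + 1), Pn n b * F (b + 1)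
        + (1 / 2 : ℝ) * ∑ b ∈ Finset.range (n + 1), Pn n b * F b := by
  have h0 : (2 : ℝ) ^ (n + 1) = 2 * 2 ^ n := by ring
  have h1 : ∀ b, Pn (n + 1) (b + 1) = (1 / 2 : ℝ) * Pn n b + (1 / 2 : ℝ) * Pn n (b + 1) := by
    intro b
    unfold Pn
    rw [Nat.choose_succ_succ, h0]
    push_cast
    ring
  have h2 : Pn n (n + 1) = 0 := by
    unfold Pn
    rw [Nat.choose_succ_self]
    simp
  have h3 : Pn (n + 1) 0 = (1 / 2 : ℝ) * Pn n 0 := by
    unfold Pn
    rw [h0]
    simp
    ring
  rw [Finset.sum_range_succ' _ (n + 1)]
  simp only [h1, add_mul, Finset.sum_add_distrib, h3]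
  have h4 : ∑ b ∈ Finset.range (n + 1), (1 / 2 : ℝ) * Pn n b * F (b + 1)
      = (1 / 2 : ℝ) * ∑ b ∈ Finset.range (n + 1), Pn n b * F (b + 1) := by
    rw [Finset.mul_sum]
    exact Finset.sum_congr rfl (fun _ _ => by ring)
  have h5 : ∑ b ∈ Finset.range (n + 1), (1 / 2 : ℝ) * Pn n (b + 1) * F (b + 1) + (1 / 2 : ℝ) * Pn n 0 * F 0
      = (1 / 2 : ℝ) * ∑ b ∈ Finset.range (n + 1), Pn n b * F b := by
    have h6 : ∑ b ∈ Finset.range (n + 1), Pn n b * F b
        = ∑ b ∈ Finset.range (n + 2), Pn n b * F b := by
      rw [Finset.sum_range_succ _ (n + 1), h2]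
      ring
    rw [h6, Finset.sum_range_succ' _ (n + 1), mul_add, Finset.mul_sum]
    congr 1
    · exact Finset.sum_congr rfl (fun _ _ => by ring)
    · ring
  rw [h4]
  linarith

section bin

variable {α : Type*} [Fintype α] [DecidableEq α]

/-- The number of `false` values in `L` is binomial. -/
theorem avg_bin (L : Finset α) (F : ℕ → ℝ) :
    avg (fun t : α → Bool => F ((L.filter (fun c => t c = false)).card))
      = ∑ b ∈ Finset.range (L.card + 1), Pn L.card b * F b := by
  induction L using Finset.induction_on generalizing F with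
  | empty =>
    simp [Pn, avg_const]
  | insert c L hc ih =>
    rw [avg_update c]
    have h1 : ∀ (b : Bool) (t : α → Bool),
        ((insert c L).filter (fun c' => Function.update t c b c' = false)).card
          = (L.filter (fun c' => t c' = false)).card + (if b = false then 1 else 0) := by
      intro b t
      have h2 : L.filter (fun c' => Function.update t c b c' = false)
          = L.filter (fun c' => t c' = false) := by
        refine Finset.filter_congr (fun c' hc' => ?_)
        rw [Function.update_of_ne (by rintro rfl; exact hc hc')]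
      rw [Finset.filter_insert]
      simp only [Function.update_self]
      have h3 : c ∉ L.filter (fun c' => Function.update t c b c' = false) := by
        intro h
        exact hc (Finset.mem_filter.mp h).1
      by_cases hb : b = false
      · rw [if_pos hb, if_pos hb, Finset.card_insert_of_notMem h3, h2]
      · rw [if_neg hb, if_neg hb, h2]
        rfl
    simp only [h1]
    rw [avg_bool, Finset.card_insert_of_notMem hc]
    simp only [if_true, Bool.true_eq_false, if_false, add_zero]
    rw [Pn_step]
    rw [ih (fun k => F (k + 1)), ih F]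
    ring

end bin

section side

variable {α : Type*} [Fintype α] [DecidableEq α] {Q : Type*} [Fintype Q] [DecidableEq Q]

theorem exists_val {G : Finset α} {y : α → Q} (hY : Yt G y) : ∃ s : α → Bool, Val G s y := by
  by_contra hne
  push Not at hne
  have h1 := avg_Val G y hY
  have h2 : avg (fun s : α → Bool => ind (Val G s y)) = 0 := by
    have : ∀ s : α → Bool, ind (Val G s y) = 0 := fun s => ind_false' (hne s)
    simp only [this]
    exact avg_const 0
  rw [h2] at h1
  have h3 : (0 : ℝ) < (1 / 2 : ℝ) ^ pD G y := by positivity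
  linarith

/-- The lone cards and double fibres make up the set. -/
theorem card_lone' {G : Finset α} {y : α → Q} (hY : Yt G y) :
    (Ln G y).card + 2 * pD G y = G.card := by
  obtain ⟨s, hs⟩ := exists_val hY
  exact card_lone G s y hs

theorem filter_true_card (L : Finset α) (t : α → Bool) :
    (L.filter (fun c => t c = true)).card + (L.filter (fun c => t c = false)).card = L.card := by
  have h := Finset.card_filter_add_card_filter_not (s := L) (fun c => t c = true)
  have h2 : L.filter (fun c => ¬ t c = true) = L.filter (fun c => t c = false) := by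
    refine Finset.filter_congr (fun c _ => ?_)
    simp
  rw [h2] at h
  exact h

/-- The average of a function of the two sides over the valid assignments. -/
theorem avg_Val_side (G : Finset α) (y : α → Q) (hY : Yt G y) (φ : ℕ → ℕ → ℝ) :
    avg (fun t : α → Bool => ind (Val G t y) *
        φ (G.filter (fun c => t c = false)).card (G.filter (fun c => t c = true)).card)
      = (1 / 2 : ℝ) ^ pD G y * ∑ b ∈ Finset.range (G.card - 2 * pD G y + 1),
          Pn (G.card - 2 * pD G y) b * φ (pD G y + b) (G.card - pD G y - b) := by
  set p := pD G y with hp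
  set L := Ln G y with hL
  have hcard : L.card + 2 * p = G.card := card_lone' hY
  have hl : G.card - 2 * p = L.card := by omega
  rw [hl]
  set ρ : (α → Bool) → ℝ := fun t =>
    (fun b => φ (p + b) (G.card - p - b)) ((L.filter (fun c => t c = false)).card) with hρ
  have h1 : ∀ t : α → Bool, ind (Val G t y) *
        φ (G.filter (fun c => t c = false)).card (G.filter (fun c => t c = true)).card
      = ind (Val G t y) * ρ t := by
    intro t
    by_cases hv : Val G t y
    · congr 1
      rw [card_side G t y hv false, card_side G t y hv true, hρ]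
      have h2 := filter_true_card L t
      have h3 : G.card - p - (L.filter (fun c => t c = false)).card = p + (L.filter (fun c => t c = true)).card := by
        omega
      simp only [h3]
      rfl
    · rw [ind_false' hv, zero_mul, zero_mul]
  simp only [h1]
  have h2 := avg_indep (X := Bool) Lᶜ (fun t => ind (Val G t y)) ρ
    (by
      intro x x' hxx
      unfold ind
      have : Val G x y ↔ Val G x' y := Val_congr_lone (fun c _ hc => hxx c (Finset.mem_compl.mpr hc))
      simp only [this])
    (by
      intro x x' hxx
      have : L.filter (fun c => x c = false) = L.filter (fun c => x' c = false) := by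
        refine Finset.filter_congr (fun c hc => ?_)
        rw [hxx c (by simpa using hc)]
      simp only [hρ, this])
  rw [h2, avg_Val G y hY, hρ, avg_bin L (fun b => φ (p + b) (G.card - p - b))]

end side

section formula

variable {α : Type*} [Fintype α] [DecidableEq α] {Q : Type*} [Fintype Q] [DecidableEq Q] [Nonempty Q]

/-- The coefficient of a function of the fibres. -/
noncomputable def cT (A E : Finset α) (u : (α → Q) → ℝ) (t : α → Bool) (y : α → Q) : ℝ :=
  avg (fun z : α → Q => Th A E t (mg E z y) * u (mg E z y))

/-- The Fourier weights of the coefficient. -/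
noncomputable def eN (A E : Finset α) (u : (α → Q) → ℝ) (y : α → Q) (N : Finset α) : ℝ :=
  avg (fun z : α → Q => ind (Zz A E (mg E z y) ∧ Nb A E (mg E z y) = N)
    * ((-1 / 2 : ℝ) ^ tt E (mg E z y) * u (mg E z y)))

theorem Ln_mg (A E : Finset α) (z y : α → Q) : Ln (A \ E) (mg E z y) = Ln (A \ E) y := by
  unfold Ln
  refine Finset.filter_congr (fun c hc => ?_)
  have h1 : c ∉ E := (Finset.mem_sdiff.mp hc).2
  constructor
  · intro h c' hc' hne
    have := h c' hc' hne
    rwa [mg_not_mem (Finset.mem_sdiff.mp hc').2, mg_not_mem h1] at this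
  · intro h c' hc' hne
    rw [mg_not_mem (Finset.mem_sdiff.mp hc').2, mg_not_mem h1]
    exact h c' hc' hne

theorem pD_mg (A E : Finset α) (z y : α → Q) : pD (A \ E) (mg E z y) = pD (A \ E) y := by
  unfold pD
  congr 2
  refine Finset.image_congr (fun c hc => ?_)
  exact mg_not_mem (Finset.mem_sdiff.mp hc).2 _ _

theorem Val_mg (A E : Finset α) (t : α → Bool) (z y : α → Q) :
    Val (A \ E) t (mg E z y) ↔ Val (A \ E) t y :=
  Val_congr (fun _ _ => rfl) (fun c hc => mg_not_mem (Finset.mem_sdiff.mp hc).2 _ _)

theorem Yt_mg (A E : Finset α) (z y : α → Q) : Yt (A \ E) (mg E z y) ↔ Yt (A \ E) y := by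
  have key : ∀ c ∈ A \ E, mg E z y c = y c := fun c hc => mg_not_mem (Finset.mem_sdiff.mp hc).2 _ _
  unfold Yt
  constructor
  · intro h c hc c' hc' c'' hc'' h1 h2 h3 h4 h5
    exact h c hc c' hc' c'' hc'' h1 h2 h3 (by rw [key c hc, key c' hc']; exact h4)
      (by rw [key c hc, key c'' hc'']; exact h5)
  · intro h c hc c' hc' c'' hc'' h1 h2 h3 h4 h5
    rw [key c hc, key c' hc'] at h4
    rw [key c hc, key c'' hc''] at h5
    exact h c hc c' hc' c'' hc'' h1 h2 h3 h4 h5

/-- **The formula for the coefficient.** -/
theorem cT_formula {A E : Finset α} (hE : E ⊆ A) (u : (α → Q) → ℝ) (t : α → Bool) (y : α → Q) :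
    cT A E u t y = ind (Val (A \ E) t y) *
      ∑ N ∈ (Ln (A \ E) y).powerset, eN A E u y N * chiS N t := by
  unfold cT eN
  have h1 : ∑ N ∈ (Ln (A \ E) y).powerset, avg (fun z : α → Q =>
        ind (Zz A E (mg E z y) ∧ Nb A E (mg E z y) = N)
          * ((-1 / 2 : ℝ) ^ tt E (mg E z y) * u (mg E z y))) * chiS N t
      = avg (fun z : α → Q => if Zz A E (mg E z y) then
          (-1 / 2 : ℝ) ^ tt E (mg E z y) * chiS (Nb A E (mg E z y)) t * u (mg E z y) else 0) := by
    simp only [← avg_mul_right]
    rw [← avg_sum]
    congr 1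
    funext z
    by_cases hZ : Zz A E (mg E z y)
    · rw [if_pos hZ]
      have hmem : Nb A E (mg E z y) ∈ (Ln (A \ E) y).powerset := by
        rw [Finset.mem_powerset, ← Ln_mg A E z y]
        exact Nb_subset_Ln hE hZ
      rw [Finset.sum_eq_single (Nb A E (mg E z y))]
      · rw [ind_true' ⟨hZ, rfl⟩]
        ring
      · intro N _ hne
        rw [ind_false' (fun h => hne h.2.symm)]
        ring
      · exact fun h => absurd hmem h
    · rw [if_neg hZ]
      refine Finset.sum_eq_zero (fun N _ => ?_)
      rw [ind_false' (fun h => hZ h.1)]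
      ring
  rw [h1, ← avg_mul_left]
  congr 1
  funext z
  rw [Th_formula A E hE]
  have hV : ind (Val (A \ E) t (mg E z y)) = ind (Val (A \ E) t y) := by
    unfold ind
    simp only [Val_mg]
  rw [hV]
  split_ifs
  · ring
  · ring

end formula

end Vale.Agent.Lib.P162
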