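import Vale.Agent.Lib.P162.NQ4

/-! The estimate for one coefficient. -/

namespace Vale.Agent.Lib.P162

open Equiv Finset

set_option linter.unusedSectionVars false

open scoped Classical

/-- The product weight. -/
noncomputable def Wg {α : Type*} (ψ : ℕ → ℝ) (G : Finset α) (t : α → Bool) : ℝ :=
  ψ (G.filter (fun c => t c = false)).card * ψ (G.filter (fun c => t c = true)).card

/-- The binomial mean of the squared product. -/
noncomputable def WWs (ψ : ℕ → ℝ) (m p : ℕ) : ℝ :=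
  ∑ b ∈ Finset.range (m - 2 * p + 1), Pn (m - 2 * p) b * (ψ (p + b) * ψ (m - p - b)) ^ 2

/-- The binomial mean of the product. -/
noncomputable def ZZ (ψ : ℕ → ℝ) (m p : ℕ) : ℝ :=
  ∑ b ∈ Finset.range (m - 2 * p + 1), Pn (m - 2 * p) b * (ψ (p + b) * ψ (m - p - b))

theorem WWs_nonneg (ψ : ℕ → ℝ) (m p : ℕ) : 0 ≤ WWs ψ m p :=
  Finset.sum_nonneg (fun b _ => mul_nonneg (Pn_nonneg _ _) (sq_nonneg _))

/-- The counting bound for the fibres. -/
noncomputable def kpp (M t : ℕ) : ℝ := (Real.exp 1 * (t : ℝ) / (M : ℝ)) ^ t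

theorem kpp_nonneg (M t : ℕ) : 0 ≤ kpp M t := by
  unfold kpp
  have := Real.exp_pos 1
  positivity

theorem choose_pow_le (M m t : ℕ) (hM : 0 < M) :
    (M.choose m : ℝ) * ((t : ℝ) / (M : ℝ)) ^ (t + m) ≤ kpp M t := by
  have hM' : (0 : ℝ) < (M : ℝ) := by exact_mod_cast hM
  have h1 : (M.choose m : ℝ) ≤ (M : ℝ) ^ m / (m.factorial : ℝ) := Nat.choose_le_pow_div m M
  have h2 : (t : ℝ) ^ m / (m.factorial : ℝ) ≤ Real.exp (t : ℝ) :=
    Real.pow_div_factorial_le_exp _ (Nat.cast_nonneg t) m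
  have h3 : Real.exp (t : ℝ) = Real.exp 1 ^ t := by
    rw [← Real.exp_nat_mul, mul_one]
  have h4 : kpp M t = Real.exp 1 ^ t * ((t : ℝ) / (M : ℝ)) ^ t := by
    unfold kpp
    rw [← mul_pow]
    congr 1
    ring
  rw [h4, ← h3]
  have h5 : (0 : ℝ) ≤ ((t : ℝ) / (M : ℝ)) ^ t := by positivity
  calc (M.choose m : ℝ) * ((t : ℝ) / (M : ℝ)) ^ (t + m)
      ≤ ((M : ℝ) ^ m / (m.factorial : ℝ)) * ((t : ℝ) / (M : ℝ)) ^ (t + m) :=
        mul_le_mul_of_nonneg_right h1 (by positivity)
    _ = ((t : ℝ) ^ m / (m.factorial : ℝ)) * ((t : ℝ) / (M : ℝ)) ^ t := by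
        rw [pow_add, div_pow (t : ℝ) (M : ℝ) m]
        field_simp
    _ ≤ Real.exp (t : ℝ) * ((t : ℝ) / (M : ℝ)) ^ t := mul_le_mul_of_nonneg_right h2 h5

section bound

variable {α : Type*} [Fintype α] [DecidableEq α] {Q : Type*} [Fintype Q] [DecidableEq Q] [Nonempty Q]

theorem ind_mul_self (p : Prop) [Decidable p] : ind p * ind p = ind p := by
  unfold ind
  split_ifs <;> simp

/-- The weights vanish above the size of `E`. -/
theorem eN_zero {A E : Finset α} (hE : E ⊆ A) (u : (α → Q) → ℝ) (y : α → Q) (N : Finset α)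
    (hN : E.card < N.card) : eN A E u y N = 0 := by
  unfold eN
  have h1 : ∀ z : α → Q, ind (Zz A E (mg E z y) ∧ Nb A E (mg E z y) = N)
      * ((-1 / 2 : ℝ) ^ tt E (mg E z y) * u (mg E z y)) = 0 := by
    intro z
    rw [ind_false']
    · ring
    · rintro ⟨h2, h3⟩
      have h4 := (Zz_facts A E hE _ h2).2
      have h5 : tt E (mg E z y) ≤ E.card := Finset.card_image_le
      rw [h3] at h4
      omega
  simp only [h1]
  exact avg_const 0

/-- **The estimate by the fourth moment.** -/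
theorem term_boundQ {A E : Finset α} (hE : E ⊆ A) (ψ : ℕ → ℝ) (u : (α → Q) → ℝ) (y : α → Q)
    (hY : Yt (A \ E) y) :
    avg (fun t : α → Bool => Wg ψ (A \ E) t * cT A E u t y ^ 2)
      ≤ (1 / 2 : ℝ) ^ pD (A \ E) y * (Real.sqrt (WWs ψ (A \ E).card (pD (A \ E) y)) * (3 : ℝ) ^ E.card
          * ∑ N ∈ (Ln (A \ E) y).powerset, eN A E u y N ^ 2) := by
  set G := A \ E with hG
  set p := pD G y with hp
  set L := Ln G y with hL
  set S := ∑ N ∈ L.powerset, eN A E u y N ^ 2 with hS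
  have hS0 : 0 ≤ S := Finset.sum_nonneg (fun _ _ => sq_nonneg _)
  set W := WWs ψ G.card p with hW
  have hW0 : 0 ≤ W := WWs_nonneg _ _ _
  set Γ : (α → Bool) → ℝ := fun t => ∑ N ∈ L.powerset, eN A E u y N * chiS N t with hΓ
  have hc : ∀ t, cT A E u t y = ind (Val G t y) * Γ t := fun t => cT_formula hE u t y
  have hsplit : ∀ t : α → Bool, Wg ψ G t * cT A E u t y ^ 2
      = (Wg ψ G t * ind (Val G t y)) * (ind (Val G t y) * Γ t ^ 2) := by
    intro t
    rw [hc]
    have := ind_mul_self (Val G t y)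
    calc Wg ψ G t * (ind (Val G t y) * Γ t) ^ 2
        = Wg ψ G t * (ind (Val G t y) * ind (Val G t y)) * Γ t ^ 2 := by ring
      _ = Wg ψ G t * ind (Val G t y) * Γ t ^ 2 := by rw [this]
      _ = Wg ψ G t * (ind (Val G t y) * ind (Val G t y)) * Γ t ^ 2 := by rw [this]
      _ = _ := by ring
  simp only [hsplit]
  have hq : (0 : ℝ) ≤ (1 / 2 : ℝ) ^ p := by positivity
  -- first factor
  have h1 : avg (fun t : α → Bool => (Wg ψ G t * ind (Val G t y)) ^ 2) = (1 / 2 : ℝ) ^ p * W := by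
    have h2 := avg_Val_side G y hY (fun b b' => (ψ b * ψ b') ^ 2)
    have h3 : ∀ t : α → Bool, (Wg ψ G t * ind (Val G t y)) ^ 2
        = ind (Val G t y) * (fun b b' => (ψ b * ψ b') ^ 2)
          (G.filter (fun c => t c = false)).card (G.filter (fun c => t c = true)).card := by
      intro t
      have := ind_mul_self (Val G t y)
      unfold Wg
      calc (ψ (G.filter (fun c => t c = false)).card * ψ (G.filter (fun c => t c = true)).card * ind (Val G t y)) ^ 2
          = (ind (Val G t y) * ind (Val G t y)) * (ψ (G.filter (fun c => t c = false)).card * ψ (G.filter (fun c => t c = true)).card) ^ 2 := by ring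
        _ = _ := by rw [this]
    simp only [h3]
    rw [h2]
    rfl
  -- second factor
  have h4 : avg (fun t : α → Bool => (ind (Val G t y) * Γ t ^ 2) ^ 2)
      ≤ (1 / 2 : ℝ) ^ p * ((9 : ℝ) ^ E.card * S ^ 2) := by
    have h5 : ∀ t : α → Bool, (ind (Val G t y) * Γ t ^ 2) ^ 2 = ind (Val G t y) * Γ t ^ 4 := by
      intro t
      have := ind_mul_self (Val G t y)
      calc (ind (Val G t y) * Γ t ^ 2) ^ 2 = (ind (Val G t y) * ind (Val G t y)) * Γ t ^ 4 := by ring
        _ = _ := by rw [this]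
    simp only [h5]
    have h6 := avg_indep (X := Bool) Lᶜ (fun t => ind (Val G t y)) (fun t => Γ t ^ 4)
      (by
        intro x x' hxx
        unfold ind
        have : Val G x y ↔ Val G x' y := Val_congr_lone (fun c _ hc => hxx c (Finset.mem_compl.mpr hc))
        simp only [this])
      (by
        intro x x' hxx
        have : Γ x = Γ x' := by
          refine Finset.sum_congr rfl (fun N hN => ?_)
          congr 1
          exact chiS_congr (fun c hc => hxx c (by simpa using Finset.mem_powerset.mp hN hc))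
        simp only [this])
    rw [h6, avg_Val G y hY]
    refine mul_le_mul_of_nonneg_left ?_ hq
    exact bonami L E.card (fun N => eN A E u y N)
      (fun N _ hN => eN_zero hE u y N hN)
  set C₁ : ℝ := Real.sqrt ((1 / 2 : ℝ) ^ p) * Real.sqrt W with hC₁
  set C₂ : ℝ := Real.sqrt ((1 / 2 : ℝ) ^ p) * ((3 : ℝ) ^ E.card * S) with hC₂
  have hsq : Real.sqrt ((1 / 2 : ℝ) ^ p) * Real.sqrt ((1 / 2 : ℝ) ^ p) = (1 / 2 : ℝ) ^ p :=
    Real.mul_self_sqrt hq
  have hsq2 : Real.sqrt W * Real.sqrt W = W := Real.mul_self_sqrt hW0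
  have hC₁0 : 0 ≤ C₁ := by positivity
  have hC₂0 : 0 ≤ C₂ := by positivity
  have h7 : avg (fun t : α → Bool => (Wg ψ G t * ind (Val G t y)) ^ 2) ≤ C₁ ^ 2 := by
    rw [h1, hC₁]
    calc (1 / 2 : ℝ) ^ p * W = (Real.sqrt ((1 / 2 : ℝ) ^ p) * Real.sqrt ((1 / 2 : ℝ) ^ p)) * (Real.sqrt W * Real.sqrt W) := by
          rw [hsq, hsq2]
      _ = _ := by ring
      _ ≤ _ := le_rfl
  have h8 : avg (fun t : α → Bool => (ind (Val G t y) * Γ t ^ 2) ^ 2) ≤ C₂ ^ 2 := by
    refine h4.trans (le_of_eq ?_)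
    rw [hC₂]
    calc (1 / 2 : ℝ) ^ p * ((9 : ℝ) ^ E.card * S ^ 2)
        = (Real.sqrt ((1 / 2 : ℝ) ^ p) * Real.sqrt ((1 / 2 : ℝ) ^ p)) * ((3 * 3 : ℝ) ^ E.card * S ^ 2) := by
          rw [hsq]
          norm_num
      _ = _ := by
          rw [mul_pow (3 : ℝ) 3]
          ring
  refine (avg_cs_bound hC₁0 hC₂0 h7 h8).trans (le_of_eq ?_)
  rw [hC₁, hC₂]
  calc Real.sqrt ((1 / 2 : ℝ) ^ p) * Real.sqrt W * (Real.sqrt ((1 / 2 : ℝ) ^ p) * ((3 : ℝ) ^ E.card * S))
      = (Real.sqrt ((1 / 2 : ℝ) ^ p) * Real.sqrt ((1 / 2 : ℝ) ^ p)) * (Real.sqrt W * (3 : ℝ) ^ E.card * S) := by ring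
    _ = _ := by rw [hsq]

/-- Cauchy's inequality for the weights. -/
theorem eN_sq_le (A E : Finset α) (u : (α → Q) → ℝ) (y : α → Q) (N : Finset α) :
    eN A E u y N ^ 2 ≤ avg (fun z : α → Q => ind (Zz A E (mg E z y) ∧ Nb A E (mg E z y) = N))
      * avg (fun z : α → Q => ind (Zz A E (mg E z y) ∧ Nb A E (mg E z y) = N)
          * ((1 / 4 : ℝ) ^ tt E (mg E z y) * u (mg E z y) ^ 2)) := by
  have h := avg_cs (fun z : α → Q => ind (Zz A E (mg E z y) ∧ Nb A E (mg E z y) = N))
    (fun z : α → Q => ind (Zz A E (mg E z y) ∧ Nb A E (mg E z y) = N)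
      * ((-1 / 2 : ℝ) ^ tt E (mg E z y) * u (mg E z y)))
  have h1 : (fun z : α → Q => ind (Zz A E (mg E z y) ∧ Nb A E (mg E z y) = N) *
      (ind (Zz A E (mg E z y) ∧ Nb A E (mg E z y) = N)
      * ((-1 / 2 : ℝ) ^ tt E (mg E z y) * u (mg E z y))))
      = fun z : α → Q => ind (Zz A E (mg E z y) ∧ Nb A E (mg E z y) = N)
      * ((-1 / 2 : ℝ) ^ tt E (mg E z y) * u (mg E z y)) := by
    funext z
    rw [← mul_assoc, ind_mul_self]
  have h2 : (fun z : α → Q => ind (Zz A E (mg E z y) ∧ Nb A E (mg E z y) = N) ^ 2)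
      = fun z : α → Q => ind (Zz A E (mg E z y) ∧ Nb A E (mg E z y) = N) := by
    funext z
    rw [sq, ind_mul_self]
  have h3 : (fun z : α → Q => (ind (Zz A E (mg E z y) ∧ Nb A E (mg E z y) = N)
      * ((-1 / 2 : ℝ) ^ tt E (mg E z y) * u (mg E z y))) ^ 2)
      = fun z : α → Q => ind (Zz A E (mg E z y) ∧ Nb A E (mg E z y) = N)
          * ((1 / 4 : ℝ) ^ tt E (mg E z y) * u (mg E z y) ^ 2) := by
    funext z
    have h4 : ((-1 / 2 : ℝ) ^ tt E (mg E z y)) ^ 2 = (1 / 4 : ℝ) ^ tt E (mg E z y) := by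
      rw [← pow_mul, mul_comm, pow_mul]
      norm_num
    rw [mul_pow, mul_pow, h4, sq (ind _), ind_mul_self]
  rw [h1, h2, h3] at h
  exact h

/-- The counting bound. -/
theorem avg_BN_le {A E : Finset α} (hE : E ⊆ A) (y : α → Q) (N : Finset α) (z₀ : α → Q)
    (h₀ : Zz A E (mg E z₀ y) ∧ Nb A E (mg E z₀ y) = N) :
    avg (fun z : α → Q => ind (Zz A E (mg E z y) ∧ Nb A E (mg E z y) = N))
      ≤ kpp (Fintype.card Q) (tt E (mg E z₀ y)) := by
  set t := tt E (mg E z₀ y) with ht
  have hfacts := (Zz_facts A E hE _ h₀.1).2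
  rw [h₀.2, ← ht] at hfacts
  have htE : t ≤ E.card := Finset.card_image_le
  set m := E.card - t with hm
  have hk : E.card = t + m := by omega
  have hNm : N.card + m = t := by omega
  set M := Fintype.card Q with hMdef
  have hM : 0 < M := Fintype.card_pos
  have hM' : (0 : ℝ) < (M : ℝ) := by exact_mod_cast hM
  -- the fibres of the neighbours
  have hNout : ∀ z : α → Q, ∀ c ∈ N, c ∉ E := by
    intro z c hc
    rw [← h₀.2] at hc
    exact (Finset.mem_sdiff.mp (Finset.mem_filter.mp hc).1).2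
  have hNy : ∀ z : α → Q, ∀ c ∈ N, mg E z y c = y c := fun z c hc => mg_not_mem (hNout z c hc) _ _
  have hinj : Set.InjOn y (N : Set α) := by
    intro c₁ h1 c₂ h2 hy
    have h3 := Nb_injOn hE h₀.1
    rw [h₀.2] at h3
    exact h3 h1 h2 (by rw [hNy z₀ c₁ h1, hNy z₀ c₂ h2]; exact hy)
  set D := N.image y with hD
  have hDcard : D.card = N.card := Finset.card_image_of_injOn hinj
  -- the pointwise bound
  have hpt : ∀ z : α → Q, ind (Zz A E (mg E z y) ∧ Nb A E (mg E z y) = N)
      ≤ ∑ F ∈ Finset.powersetCard m (Finset.univ : Finset Q),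
          ∏ c ∈ E, ind (z c ∈ D ∪ F) := by
    intro z
    have hnn : ∀ F ∈ Finset.powersetCard m (Finset.univ : Finset Q),
        0 ≤ ∏ c ∈ E, ind (z c ∈ D ∪ F) := fun F _ => prod_ind_nonneg _
    by_cases hB : Zz A E (mg E z y) ∧ Nb A E (mg E z y) = N
    · rw [ind_true' hB]
      have h1 := (Zz_facts A E hE _ hB.1).2
      rw [hB.2] at h1
      have h2 : tt E (mg E z y) = t := by omega
      set T := E.image (mg E z y) with hT
      have hTc : T.card = t := h2
      have hDT : D ⊆ T := by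
        intro i hi
        obtain ⟨c, hc, rfl⟩ := Finset.mem_image.mp hi
        have h3 := Nb_image_subset A E (mg E z y)
        rw [hB.2] at h3
        refine h3 (Finset.mem_image.mpr ⟨c, hc, hNy z c hc⟩)
      set F := T \ D with hF
      have hFc : F.card = m := by
        rw [hF, Finset.card_sdiff_of_subset hDT, hTc, hDcard]
        omega
      have hFmem : F ∈ Finset.powersetCard m (Finset.univ : Finset Q) :=
        Finset.mem_powersetCard.mpr ⟨Finset.subset_univ _, hFc⟩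
      have h3 : ∏ c ∈ E, ind (z c ∈ D ∪ F) = 1 := by
        refine Finset.prod_eq_one (fun c hc => ind_true' ?_)
        have h4 : mg E z y c ∈ T := Finset.mem_image_of_mem _ hc
        rw [mg_mem hc] at h4
        rw [hF, Finset.union_sdiff_of_subset hDT]
        exact h4
      calc (1 : ℝ) = ∏ c ∈ E, ind (z c ∈ D ∪ F) := h3.symm
        _ ≤ _ := Finset.single_le_sum hnn hFmem
    · rw [ind_false' hB]
      exact Finset.sum_nonneg hnn
  refine (avg_mono hpt).trans ?_
  rw [avg_sum]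
  have hF : ∀ F ∈ Finset.powersetCard m (Finset.univ : Finset Q),
      avg (fun z : α → Q => ∏ c ∈ E, ind (z c ∈ D ∪ F)) ≤ ((t : ℝ) / (M : ℝ)) ^ (t + m) := by
    intro F hF
    have hFc : F.card = m := (Finset.mem_powersetCard.mp hF).2
    have h1 := avg_prod_coord (α := α) (X := Q) E (fun q => ind (q ∈ D ∪ F))
    rw [h1, hk]
    refine pow_le_pow_left₀ (avg_nonneg (fun _ => ind_nonneg _)) ?_ _
    unfold avg
    have h2 : ∑ q : Q, ind (q ∈ D ∪ F) = ((D ∪ F).card : ℝ) := by
      unfold ind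
      rw [Finset.sum_boole]
      congr 2
      ext q
      simp
    rw [h2, ← hMdef]
    refine div_le_div_of_nonneg_right ?_ (Nat.cast_nonneg _)
    have h3 : (D ∪ F).card ≤ t := by
      refine (Finset.card_union_le _ _).trans ?_
      rw [hDcard, hFc]
      omega
    exact_mod_cast h3
  refine (Finset.sum_le_sum hF).trans ?_
  rw [Finset.sum_const, Finset.card_powersetCard, Finset.card_univ, nsmul_eq_mul]
  exact choose_pow_le M m t hM

/-- Adding up the weights. -/
theorem sum_eN_le {A E : Finset α} (hE : E ⊆ A) (u : (α → Q) → ℝ) (y : α → Q) :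
    ∑ N ∈ (Ln (A \ E) y).powerset, eN A E u y N ^ 2
      ≤ avg (fun z : α → Q => ind (Zz A E (mg E z y)) * (kpp (Fintype.card Q) (tt E (mg E z y))
          * ((1 / 4 : ℝ) ^ tt E (mg E z y) * u (mg E z y) ^ 2))) := by
  set X : (α → Q) → ℝ := fun z => kpp (Fintype.card Q) (tt E (mg E z y))
      * ((1 / 4 : ℝ) ^ tt E (mg E z y) * u (mg E z y) ^ 2) with hX
  have hX0 : ∀ z, 0 ≤ X z := fun z => mul_nonneg (kpp_nonneg _ _) (by positivity)
  have h1 : ∀ N ∈ (Ln (A \ E) y).powerset, eN A E u y N ^ 2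
      ≤ avg (fun z : α → Q => ind (Zz A E (mg E z y) ∧ Nb A E (mg E z y) = N) * X z) := by
    intro N _
    refine (eN_sq_le A E u y N).trans ?_
    rw [← avg_mul_left]
    refine avg_mono (fun z => ?_)
    by_cases hB : Zz A E (mg E z y) ∧ Nb A E (mg E z y) = N
    · rw [ind_true' hB, one_mul, one_mul]
      have h2 := avg_BN_le hE y N z hB
      rw [hX]
      calc _ = avg (fun z : α → Q => ind (Zz A E (mg E z y) ∧ Nb A E (mg E z y) = N)) *
            ((1 / 4 : ℝ) ^ tt E (mg E z y) * u (mg E z y) ^ 2) := rfl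
        _ ≤ _ := mul_le_mul_of_nonneg_right h2 (by positivity)
    · rw [ind_false' hB, zero_mul, mul_zero, zero_mul]
  refine (Finset.sum_le_sum h1).trans ?_
  rw [← avg_sum]
  refine avg_mono (fun z => ?_)
  rw [← Finset.sum_mul]
  refine mul_le_mul_of_nonneg_right ?_ (hX0 z)
  by_cases hZ : Zz A E (mg E z y)
  · rw [ind_true' hZ]
    have hmem : Nb A E (mg E z y) ∈ (Ln (A \ E) y).powerset := by
      rw [Finset.mem_powerset, ← Ln_mg A E z y]
      exact Nb_subset_Ln hE hZ
    rw [Finset.sum_eq_single (Nb A E (mg E z y))]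
    · rw [ind_true' ⟨hZ, rfl⟩]
    · intro N _ hne
      exact ind_false' (fun h => hne h.2.symm)
    · exact fun h => absurd hmem h
  · rw [ind_false' hZ]
    refine le_of_eq (Finset.sum_eq_zero (fun N _ => ind_false' (fun h => hZ h.1)))

/-- The bound for one set, as a function of the fibres. -/
noncomputable def HE (ψ : ℕ → ℝ) (M : ℕ) (A E : Finset α) (u : (α → Q) → ℝ) (y : α → Q) : ℝ :=
  ind (Zz A E y) * (((1 / 2 : ℝ) ^ pD A y * u y ^ 2) *
    (Real.sqrt (WWs ψ (A.card - E.card) (pD A y - tt E y)) * (3 : ℝ) ^ E.card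
      * (kpp M (tt E y) * (1 / 2 : ℝ) ^ tt E y)))

theorem HE_nonneg (ψ : ℕ → ℝ) (M : ℕ) (A E : Finset α) (u : (α → Q) → ℝ) (y : α → Q) :
    0 ≤ HE ψ M A E u y := by
  unfold HE
  have := kpp_nonneg M (tt E y)
  have := ind_nonneg (Zz A E y)
  positivity

/-- The estimate for one set at fixed fibres. -/
theorem term_E {A E : Finset α} (hE : E ⊆ A) (ψ : ℕ → ℝ) (u : (α → Q) → ℝ) (y : α → Q) :
    avg (fun t : α → Bool => Wg ψ (A \ E) t * cT A E u t y ^ 2)
      ≤ avg (fun z : α → Q => HE ψ (Fintype.card Q) A E u (mg E z y)) := by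
  by_cases hY : Yt (A \ E) y
  · refine (term_boundQ hE ψ u y hY).trans ?_
    have hS := sum_eN_le hE u y
    set p := pD (A \ E) y with hp
    set W := Real.sqrt (WWs ψ (A \ E).card p) with hW
    have hW0 : 0 ≤ W := Real.sqrt_nonneg _
    have hC0 : 0 ≤ W * (3 : ℝ) ^ E.card := by positivity
    calc (1 / 2 : ℝ) ^ p * (W * (3 : ℝ) ^ E.card * ∑ N ∈ (Ln (A \ E) y).powerset, eN A E u y N ^ 2)
        ≤ (1 / 2 : ℝ) ^ p * (W * (3 : ℝ) ^ E.card * avg (fun z : α → Q => ind (Zz A E (mg E z y))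
            * (kpp (Fintype.card Q) (tt E (mg E z y))
              * ((1 / 4 : ℝ) ^ tt E (mg E z y) * u (mg E z y) ^ 2)))) :=
          mul_le_mul_of_nonneg_left (mul_le_mul_of_nonneg_left hS hC0) (by positivity)
      _ = avg (fun z : α → Q => (1 / 2 : ℝ) ^ p * (W * (3 : ℝ) ^ E.card * (ind (Zz A E (mg E z y))
            * (kpp (Fintype.card Q) (tt E (mg E z y))
              * ((1 / 4 : ℝ) ^ tt E (mg E z y) * u (mg E z y) ^ 2))))) := by
          rw [avg_mul_left, avg_mul_left]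
      _ = _ := by
          congr 1
          funext z
          unfold HE
          by_cases hZ : Zz A E (mg E z y)
          · rw [ind_true' hZ, one_mul, one_mul]
            have h1 := (Zz_facts A E hE _ hZ).1
            rw [pD_mg, ← hp] at h1
            have h2 : pD A (mg E z y) - tt E (mg E z y) = p := by omega
            have h3 : A.card - E.card = (A \ E).card := (Finset.card_sdiff_of_subset hE).symm
            rw [h2, h3, ← hW, h1, pow_add]
            have h4 : (1 / 4 : ℝ) ^ tt E (mg E z y)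
                = (1 / 2 : ℝ) ^ tt E (mg E z y) * (1 / 2 : ℝ) ^ tt E (mg E z y) := by
              rw [← mul_pow]
              norm_num
            rw [h4]
            ring
          · rw [ind_false' hZ]
            ring
  · have h1 : ∀ t : α → Bool, cT A E u t y = 0 := by
      intro t
      rw [cT_formula hE, ind_false' (fun hv => hY (Yt_of_Val hv)), zero_mul]
    simp only [h1]
    have h2 : avg (fun t : α → Bool => Wg ψ (A \ E) t * (0 : ℝ) ^ 2) = 0 := by
      simp only [ne_eq, OfNat.ofNat_ne_zero, not_false_eq_true, zero_pow, mul_zero]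
      exact avg_const 0
    rw [h2]
    exact avg_nonneg (fun z => HE_nonneg _ _ _ _ _ _)

/-- The estimate for one set on average. -/
theorem avg_term_E {A E : Finset α} (hE : E ⊆ A) (ψ : ℕ → ℝ) (u : (α → Q) → ℝ) :
    avg (fun y : α → Q => avg (fun t : α → Bool => Wg ψ (A \ E) t * cT A E u t y ^ 2))
      ≤ avg (fun y : α → Q => HE ψ (Fintype.card Q) A E u y) := by
  refine (avg_mono (fun y => term_E hE ψ u y)).trans (le_of_eq ?_)
  exact avg_mg E _

end bound

end Vale.Agent.Lib.P162
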