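import Vale.Agent.Lib.P162.NQ5

/-! Summing over the sets of coordinates: the core inequality. -/

namespace Vale.Agent.Lib.P162

open Equiv Finset

set_option linter.unusedSectionVars false

open scoped Classical

/-- The numerical hypotheses of the recursion. -/
structure NumH (ψ ψ' : ℕ → ℝ) (M : ℕ) : Prop where
  nn : ∀ a, 0 ≤ ψ a
  nn' : ∀ a, 0 ≤ ψ' a
  h0 : ∀ a, a ≤ M → ZZ ψ a 0 ≤ ψ' a
  h1 : ∀ a p, 1 ≤ p → 2 * p ≤ a → a - p ≤ M → ZZ ψ a p ≤ (9 / 10 : ℝ) * ψ' a
  h2 : ∀ a p t k, 1 ≤ t → t ≤ p → 2 * p ≤ a → a - p ≤ M → t ≤ k → k ≤ 2 * t →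
    (p.choose t : ℝ) * (4 : ℝ) ^ t * (Real.sqrt (WWs ψ (a - k) (p - t)) * (3 : ℝ) ^ k
      * (kpp M t * (1 / 2 : ℝ) ^ t)) ≤ (1 / 10 : ℝ) * (1 / 2 : ℝ) ^ t * ψ' a

theorem sum_half_le (n : ℕ) :
    ∑ t ∈ Finset.range (n + 1), (if t = 0 then (0 : ℝ) else (1 / 2 : ℝ) ^ t) = 1 - (1 / 2 : ℝ) ^ n := by
  induction n with
  | zero => simp
  | succ n ih =>
    rw [Finset.sum_range_succ, ih, if_neg (by omega), pow_succ]
    ring

section sums

variable {α : Type*} [Fintype α] [DecidableEq α] {Q : Type*} [Fintype Q] [DecidableEq Q] [Nonempty Q]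

/-- The factor of one set. -/
noncomputable def Gm (ψ : ℕ → ℝ) (M : ℕ) (A E : Finset α) (y : α → Q) : ℝ :=
  Real.sqrt (WWs ψ (A.card - E.card) (pD A y - tt E y)) * (3 : ℝ) ^ E.card
    * (kpp M (tt E y) * (1 / 2 : ℝ) ^ tt E y)

theorem Gm_nonneg (ψ : ℕ → ℝ) (M : ℕ) (A E : Finset α) (y : α → Q) : 0 ≤ Gm ψ M A E y := by
  unfold Gm
  have := kpp_nonneg M (tt E y)
  positivity

theorem HE_eq (ψ : ℕ → ℝ) (M : ℕ) (A E : Finset α) (u : (α → Q) → ℝ) (y : α → Q) :
    HE ψ M A E u y = ((1 / 2 : ℝ) ^ pD A y * u y ^ 2) * (ind (Zz A E y) * Gm ψ M A E y) := by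
  unfold HE Gm
  ring

theorem card_sub_pD_le (A : Finset α) (y : α → Q) : A.card - pD A y ≤ Fintype.card Q := by
  unfold pD
  have h1 : (A.image y).card ≤ A.card := Finset.card_image_le
  have h2 : (A.image y).card ≤ Fintype.card Q := Finset.card_le_univ _
  omega

theorem two_pD_le {A : Finset α} {y : α → Q} (hY : Yt A y) : 2 * pD A y ≤ A.card := by
  have := card_lone' hY
  omega

/-- The number of sets with given fibres. -/
theorem card_fibre_le {A : Finset α} {y : α → Q} (hY : Yt A y) (T : Finset Q)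
    (𝓕 : Finset (Finset α)) (h𝓕 : ∀ E ∈ 𝓕, E ⊆ A) :
    ((𝓕.filter (fun E => E.image y = T)).card : ℝ) ≤ (4 : ℝ) ^ T.card := by
  set R := A.filter (fun c => y c ∈ T) with hR
  have h1 : 𝓕.filter (fun E => E.image y = T) ⊆ R.powerset := by
    intro E hE
    obtain ⟨hE1, hE2⟩ := Finset.mem_filter.mp hE
    rw [Finset.mem_powerset]
    intro c hc
    refine Finset.mem_filter.mpr ⟨h𝓕 E hE1 hc, ?_⟩
    rw [← hE2]
    exact Finset.mem_image_of_mem y hc
  have h2 : R.card ≤ 2 * T.card := by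
    have h3 := Finset.card_le_mul_card_image (f := y) R 2 (by
      intro b _
      by_contra hlt
      push Not at hlt
      obtain ⟨c₁, h₁, c₂, h₂, c₃, h₃, h12, h13, h23⟩ := Finset.two_lt_card.mp hlt
      obtain ⟨h₁a, h₁b⟩ := Finset.mem_filter.mp h₁
      obtain ⟨h₂a, h₂b⟩ := Finset.mem_filter.mp h₂
      obtain ⟨h₃a, h₃b⟩ := Finset.mem_filter.mp h₃
      exact hY c₁ (Finset.mem_filter.mp h₁a).1 c₂ (Finset.mem_filter.mp h₂a).1 c₃ (Finset.mem_filter.mp h₃a).1
        h12 h13 h23 (h₁b.trans h₂b.symm) (h₁b.trans h₃b.symm))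
    have h4 : (R.image y).card ≤ T.card := by
      refine Finset.card_le_card (fun i hi => ?_)
      obtain ⟨c, hc, rfl⟩ := Finset.mem_image.mp hi
      exact (Finset.mem_filter.mp hc).2
    omega
  have h3 := Finset.card_le_card h1
  rw [Finset.card_powerset] at h3
  have h4 : (2 : ℕ) ^ R.card ≤ 4 ^ T.card := by
    calc (2 : ℕ) ^ R.card ≤ 2 ^ (2 * T.card) := Nat.pow_le_pow_right (by norm_num) h2
      _ = 4 ^ T.card := by rw [pow_mul]; norm_num
  exact_mod_cast h3.trans h4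

/-- **The sum over nonempty sets.** -/
theorem sum_Gm_le {ψ ψ' : ℕ → ℝ} (hN : NumH ψ ψ' (Fintype.card Q)) {A : Finset α} {y : α → Q}
    (hY : Yt A y) :
    ∑ E ∈ A.powerset.erase ∅, ind (Zz A E y) * Gm ψ (Fintype.card Q) A E y ≤ (1 / 10 : ℝ) * ψ' A.card := by
  set M := Fintype.card Q with hM
  set a := A.card with ha
  set p := pD A y with hp
  have hp2 : 2 * p ≤ a := two_pD_le hY
  have hpM : a - p ≤ M := card_sub_pD_le A y
  set Dc := A.filter (fun c => ∃ c' ∈ A, c' ≠ c ∧ y c' = y c) with hDc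
  have hDcA : Dc ⊆ A := Finset.filter_subset _ _
  have hZDc : Zz A Dc y := ⟨hY, fun c hc => (Finset.mem_filter.mp hc).2⟩
  set Dbl := Dc.image y with hDbl
  have hq : Dbl.card ≤ p := by
    have := (Zz_facts A Dc hDcA y hZDc).1
    have h2 : tt Dc y = Dbl.card := rfl
    omega
  set 𝓕 := (A.powerset.erase ∅).filter (fun E => Zz A E y) with h𝓕
  have h𝓕A : ∀ E ∈ 𝓕, E ⊆ A := fun E hE =>
    Finset.mem_powerset.mp (Finset.mem_of_mem_erase (Finset.mem_filter.mp hE).1)
  have h1 : ∑ E ∈ A.powerset.erase ∅, ind (Zz A E y) * Gm ψ M A E y = ∑ E ∈ 𝓕, Gm ψ M A E y := by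
    rw [h𝓕, Finset.sum_filter]
    refine Finset.sum_congr rfl (fun E _ => ?_)
    unfold ind
    split_ifs
    · ring
    · ring
  rw [h1]
  -- the bound by the fibres
  set B : ℕ → ℝ := fun t => if t = 0 then 0 else (1 / 10 : ℝ) * (1 / 2 : ℝ) ^ t * ψ' a / (p.choose t : ℝ) with hB
  have hψ' : 0 ≤ ψ' a := hN.nn' a
  have hB0 : ∀ t, 0 ≤ B t := by
    intro t
    simp only [hB]
    split_ifs
    · exact le_rfl
    · positivity
  have hmaps : ∀ E ∈ 𝓕, E.image y ∈ Dbl.powerset := by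
    intro E hE
    rw [Finset.mem_powerset]
    refine Finset.image_subset_image (fun c hc => ?_)
    obtain ⟨h2, h3⟩ := Finset.mem_filter.mp hE
    exact Finset.mem_filter.mpr ⟨h𝓕A E hE hc, h3.2 c hc⟩
  have hterm : ∀ E ∈ 𝓕, Gm ψ M A E y ≤ B (E.image y).card / (4 : ℝ) ^ (E.image y).card := by
    intro E hE
    obtain ⟨h2, h3⟩ := Finset.mem_filter.mp hE
    have hEne : E ≠ ∅ := (Finset.mem_erase.mp h2).1
    have hEA := h𝓕A E hE
    set t := (E.image y).card with ht
    have htt : tt E y = t := rfl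
    have ht1 : 1 ≤ t := by
      rw [ht, Nat.succ_le_iff, Finset.card_pos]
      exact (Finset.nonempty_iff_ne_empty.mpr hEne).image y
    obtain ⟨h4, h5⟩ := Zz_facts A E hEA y h3
    have htp : t ≤ p := by
      rw [htt] at h4
      omega
    have htk : t ≤ E.card := Finset.card_image_le
    have hkt : E.card ≤ 2 * t := by
      rw [htt] at h5
      omega
    have h6 := hN.h2 a p t E.card ht1 htp hp2 hpM htk hkt
    have hC : (0 : ℝ) < (p.choose t : ℝ) := by
      exact_mod_cast Nat.choose_pos htp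
    have h4t : (0 : ℝ) < (4 : ℝ) ^ t := by positivity
    simp only [hB]
    rw [if_neg (by omega), le_div_iff₀ h4t, le_div_iff₀ hC]
    unfold Gm
    rw [htt]
    calc _ = (p.choose t : ℝ) * (4 : ℝ) ^ t * (Real.sqrt (WWs ψ (a - E.card) (p - t)) * (3 : ℝ) ^ E.card
          * (kpp M t * (1 / 2 : ℝ) ^ t)) := by ring
      _ ≤ _ := h6
  have hfib : ∀ T ∈ Dbl.powerset, ∑ E ∈ 𝓕 with E.image y = T, Gm ψ M A E y ≤ B T.card := by
    intro T _
    by_cases hT : T = ∅
    · subst hT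
      have : 𝓕.filter (fun E => E.image y = ∅) = ∅ := by
        refine Finset.filter_eq_empty_iff.mpr (fun E hE => ?_)
        have hEne : E ≠ ∅ := (Finset.mem_erase.mp (Finset.mem_filter.mp hE).1).1
        intro h
        exact hEne (Finset.image_eq_empty.mp h)
      rw [this, Finset.sum_empty]
      exact hB0 _
    · have h2 : ∀ E ∈ 𝓕.filter (fun E => E.image y = T), Gm ψ M A E y ≤ B T.card / (4 : ℝ) ^ T.card := by
        intro E hE
        obtain ⟨h3, h4⟩ := Finset.mem_filter.mp hE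
        have := hterm E h3
        rwa [h4] at this
      refine (Finset.sum_le_card_nsmul _ _ _ h2).trans ?_
      rw [nsmul_eq_mul]
      have h3 := card_fibre_le hY T 𝓕 h𝓕A
      have h4t : (0 : ℝ) < (4 : ℝ) ^ T.card := by positivity
      have h5 : (0 : ℝ) ≤ B T.card / (4 : ℝ) ^ T.card := div_nonneg (hB0 _) h4t.le
      calc _ ≤ (4 : ℝ) ^ T.card * (B T.card / (4 : ℝ) ^ T.card) := mul_le_mul_of_nonneg_right h3 h5
        _ = B T.card := by field_simp
  rw [← Finset.sum_fiberwise_of_maps_to hmaps]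
  refine (Finset.sum_le_sum hfib).trans ?_
  rw [Finset.sum_powerset_apply_card]
  have hq2 : ∀ t ∈ Finset.range (Dbl.card + 1), Dbl.card.choose t • B t
      ≤ ((1 / 10 : ℝ) * ψ' a) * (if t = 0 then (0 : ℝ) else (1 / 2 : ℝ) ^ t) := by
    intro t ht
    have ht' : t ≤ Dbl.card := Nat.lt_succ_iff.mp (Finset.mem_range.mp ht)
    rw [nsmul_eq_mul]
    by_cases h0 : t = 0
    · simp [hB, h0]
    · simp only [hB, if_neg h0]
      have hC : (0 : ℝ) < (p.choose t : ℝ) := by
        exact_mod_cast Nat.choose_pos (ht'.trans hq)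
      have hC2 : (Dbl.card.choose t : ℝ) ≤ (p.choose t : ℝ) := by
        exact_mod_cast Nat.choose_le_choose t hq
      have h3 : (0 : ℝ) ≤ (1 / 10 : ℝ) * (1 / 2 : ℝ) ^ t * ψ' a / (p.choose t : ℝ) := by positivity
      calc (Dbl.card.choose t : ℝ) * ((1 / 10 : ℝ) * (1 / 2 : ℝ) ^ t * ψ' a / (p.choose t : ℝ))
          ≤ (p.choose t : ℝ) * ((1 / 10 : ℝ) * (1 / 2 : ℝ) ^ t * ψ' a / (p.choose t : ℝ)) :=
            mul_le_mul_of_nonneg_right hC2 h3
        _ = _ := by
            field_simp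
  refine (Finset.sum_le_sum hq2).trans ?_
  rw [← Finset.mul_sum, sum_half_le]
  have h2 : (0 : ℝ) ≤ (1 / 2 : ℝ) ^ Dbl.card := by positivity
  have h3 : 0 ≤ (1 / 10 : ℝ) * ψ' a := by positivity
  nlinarith

/-- Without double fibres no nonempty set qualifies. -/
theorem sum_Gm_zero {ψ : ℕ → ℝ} {M : ℕ} {A : Finset α} {y : α → Q} (hp : pD A y = 0) :
    ∑ E ∈ A.powerset.erase ∅, ind (Zz A E y) * Gm ψ M A E y = 0 := by
  refine Finset.sum_eq_zero (fun E hE => ?_)
  have hEne : E ≠ ∅ := (Finset.mem_erase.mp hE).1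
  have hEA : E ⊆ A := Finset.mem_powerset.mp (Finset.mem_of_mem_erase hE)
  rw [ind_false', zero_mul]
  intro hZ
  have h1 := (Zz_facts A E hEA y hZ).1
  have h2 : 0 < tt E y := by
    unfold tt
    rw [Finset.card_pos]
    exact (Finset.nonempty_iff_ne_empty.mpr hEne).image y
  omega

/-- The term of the empty set. -/
theorem term_empty (ψ : ℕ → ℝ) (A : Finset α) (u : (α → Q) → ℝ) (y : α → Q) :
    avg (fun t : α → Bool => Wg ψ (A \ ∅) t * cT A ∅ u t y ^ 2)
      = ind (Yt A y) * (((1 / 2 : ℝ) ^ pD A y * u y ^ 2) * ZZ ψ A.card (pD A y)) := by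
  have h0 : ∀ t : α → Bool, cT A ∅ u t y = ind (Val A t y) * u y := by
    intro t
    unfold cT
    simp only [mg_empty]
    rw [avg_const]
    congr 1
    unfold Th
    simp only [chiS_empty, one_mul, mg_empty]
    exact avg_const _
  by_cases hY : Yt A y
  · rw [ind_true' hY, one_mul, Finset.sdiff_empty]
    have h1 : ∀ t : α → Bool, Wg ψ A t * cT A ∅ u t y ^ 2
        = (ind (Val A t y) * Wg ψ A t) * u y ^ 2 := by
      intro t
      rw [h0]
      have := ind_mul_self (Val A t y)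
      calc Wg ψ A t * (ind (Val A t y) * u y) ^ 2
          = (ind (Val A t y) * ind (Val A t y)) * Wg ψ A t * u y ^ 2 := by ring
        _ = _ := by rw [this]
    simp only [h1]
    rw [avg_mul_right]
    have h2 := avg_Val_side A y hY (fun b b' => ψ b * ψ b')
    have h3 : avg (fun t : α → Bool => ind (Val A t y) * Wg ψ A t)
        = (1 / 2 : ℝ) ^ pD A y * ZZ ψ A.card (pD A y) := by
      unfold Wg ZZ
      exact h2
    rw [h3]
    ring
  · rw [ind_false' hY, zero_mul]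
    have h1 : ∀ t : α → Bool, Wg ψ (A \ ∅) t * cT A ∅ u t y ^ 2 = 0 := by
      intro t
      rw [h0, ind_false' (fun hv => hY (Yt_of_Val hv))]
      ring
    simp only [h1]
    exact avg_const 0

/-- **The core inequality for functions of the fibres.** -/
theorem core2 {ψ ψ' : ℕ → ℝ} (hN : NumH ψ ψ' (Fintype.card Q)) (A : Finset α) (u : (α → Q) → ℝ) :
    ∑ E ∈ A.powerset, avg (fun y : α → Q => avg (fun t : α → Bool => Wg ψ (A \ E) t * cT A E u t y ^ 2))
      ≤ ψ' A.card * avg (fun y : α → Q => ind (Yt A y) * ((1 / 2 : ℝ) ^ pD A y * u y ^ 2)) := by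
  set M := Fintype.card Q with hM
  rw [← Finset.add_sum_erase A.powerset _ (Finset.empty_mem_powerset A)]
  have h1 : ∑ E ∈ A.powerset.erase ∅,
        avg (fun y : α → Q => avg (fun t : α → Bool => Wg ψ (A \ E) t * cT A E u t y ^ 2))
      ≤ ∑ E ∈ A.powerset.erase ∅, avg (fun y : α → Q => HE ψ M A E u y) := by
    refine Finset.sum_le_sum (fun E hE => ?_)
    exact avg_term_E (Finset.mem_powerset.mp (Finset.mem_of_mem_erase hE)) ψ u
  have h1' := (avg_sum (A.powerset.erase ∅) (fun E (y : α → Q) => HE ψ M A E u y)).symm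
  simp only [term_empty]
  refine (add_le_add_right (h1.trans_eq h1') _).trans ?_
  rw [← avg_add, ← avg_mul_left]
  refine avg_mono (fun y => ?_)
  set V : ℝ := (1 / 2 : ℝ) ^ pD A y * u y ^ 2 with hV
  have hV0 : 0 ≤ V := by positivity
  have h2 : ∑ E ∈ A.powerset.erase ∅, HE ψ M A E u y
      = V * ∑ E ∈ A.powerset.erase ∅, ind (Zz A E y) * Gm ψ M A E y := by
    rw [Finset.mul_sum]
    exact Finset.sum_congr rfl (fun E _ => HE_eq ψ M A E u y)
  rw [h2]
  by_cases hY : Yt A y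
  · rw [ind_true' hY, one_mul, one_mul]
    have h3 : V * ZZ ψ A.card (pD A y) + V * ∑ E ∈ A.powerset.erase ∅, ind (Zz A E y) * Gm ψ M A E y
        = V * (ZZ ψ A.card (pD A y) + ∑ E ∈ A.powerset.erase ∅, ind (Zz A E y) * Gm ψ M A E y) := by ring
    rw [h3, mul_comm (ψ' A.card)]
    refine mul_le_mul_of_nonneg_left ?_ hV0
    have hp2 := two_pD_le hY
    have hpM := card_sub_pD_le A y
    rcases Nat.eq_zero_or_pos (pD A y) with hp | hp
    · rw [sum_Gm_zero hp, add_zero, hp]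
      rw [hp] at hpM
      exact hN.h0 _ (by omega)
    · have h4 := hN.h1 _ _ hp hp2 hpM
      have h5 := sum_Gm_le hN hY
      linarith
  · rw [ind_false' hY]
    have h3 : ∀ E ∈ A.powerset.erase ∅, ind (Zz A E y) * Gm ψ M A E y = 0 := by
      intro E _
      rw [ind_false' (fun h => hY h.1), zero_mul]
    rw [Finset.sum_eq_zero h3]
    simp

end sums

end Vale.Agent.Lib.P162
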