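import Vale.Agent.Lib.P162.NQ6

/-! The core inequality for functions of pairs: flips at the top coordinate. -/

namespace Vale.Agent.Lib.P162

open Equiv Finset

set_option linter.unusedSectionVars false

open scoped Classical

section core

variable {α : Type*} [Fintype α] [DecidableEq α] {Q : Type*} [Fintype Q] [DecidableEq Q] [Nonempty Q]

/-- Pairing the two components. -/
def pk (s : α → Bool) (y : α → Q) : α → Bool × Q := fun c => (s c, y c)

@[simp] theorem pk_apply (s : α → Bool) (y : α → Q) (c : α) : pk s y c = (s c, y c) := rfl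

omit [DecidableEq Q] [Nonempty Q] in
theorem avg_pk (F : (α → Bool × Q) → ℝ) :
    avg F = avg (fun s : α → Bool => avg (fun y : α → Q => F (pk s y))) := by
  have h1 := avg_equiv (Equiv.arrowProdEquivProdArrow α (fun _ => Bool) (fun _ => Q)).symm F
  rw [← h1, avg_prod]
  rfl

theorem mg_pk (C : Finset α) (t s : α → Bool) (z y : α → Q) :
    mg C (pk t z) (pk s y) = pk (mg C t s) (mg C z y) := by
  funext c
  by_cases h : c ∈ C <;> simp [h]

/-- The flips on the set `A`. -/
def flA (A : Finset α) (B : Q → Bool) (x : α → Bool × Q) : α → Bool × Q :=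
  fun c => if c ∈ A then (xor (x c).1 (B (x c).2), (x c).2) else x c

theorem flA_invol (A : Finset α) (B : Q → Bool) : Function.Involutive (flA A B) := by
  intro x
  funext c
  unfold flA
  by_cases h : c ∈ A
  · simp [h]
  · simp [h]

/-- The average over the flips. -/
noncomputable def Fop (A : Finset α) (f : (α → Bool × Q) → ℝ) (x : α → Bool × Q) : ℝ :=
  avg (fun B : Q → Bool => f (flA A B x))

theorem avg_sq_le' {Ω : Type*} [Fintype Ω] [Nonempty Ω] (u : Ω → ℝ) :
    avg u ^ 2 ≤ avg (fun ω => u ω ^ 2) := by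
  have h := avg_cs u (fun _ => (1 : ℝ))
  simp only [mul_one, one_pow] at h
  rwa [avg_const, mul_one] at h

theorem Fop_sq_le (A : Finset α) (f : (α → Bool × Q) → ℝ) :
    avg (fun x => Fop A f x ^ 2) ≤ avg (fun x => f x ^ 2) := by
  have h1 : ∀ x, Fop A f x ^ 2 ≤ avg (fun B : Q → Bool => f (flA A B x) ^ 2) := fun x => avg_sq_le' _
  refine (avg_mono h1).trans (le_of_eq ?_)
  rw [avg_comm]
  have h2 : ∀ B : Q → Bool, avg (fun x => f (flA A B x) ^ 2) = avg (fun x => f x ^ 2) := by
    intro B
    exact avg_equiv (flA_invol A B).toPerm (fun x => f x ^ 2)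
  simp only [h2]
  exact avg_const _

/-- The vanishing on invalid assignments. -/
theorem Fop_of_not_val {A : Finset α} {f : (α → Bool × Q) → ℝ}
    (hf : ∀ x : α → Bool × Q, ¬ Set.InjOn x (A : Set α) → f x = 0) {s : α → Bool} {y : α → Q}
    (h : ¬ Val A s y) : Fop A f (pk s y) = 0 := by
  unfold Val at h
  push Not at h
  obtain ⟨c, hc, c', hc', hne, hy, hs⟩ := h
  have h1 : ∀ B : Q → Bool, f (flA A B (pk s y)) = 0 := by
    intro B
    refine hf _ (fun hinj => hne ?_)
    refine hinj (Finset.mem_coe.mpr hc) (Finset.mem_coe.mpr hc') ?_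
    unfold flA
    simp [hc, hc', hy, hs]
  unfold Fop
  simp only [h1]
  exact avg_const 0

/-- The invariance under flips. -/
theorem Fop_shift {A : Finset α} (f : (α → Bool × Q) → ℝ) {s s' : α → Bool} {y : α → Q}
    (hv : Val A s y) (hv' : Val A s' y) (hout : ∀ c, c ∉ A → s c = s' c) :
    Fop A f (pk s y) = Fop A f (pk s' y) := by
  set D : Q → Bool := fun q => if h : ∃ c ∈ A, y c = q then xor (s h.choose) (s' h.choose) else false with hD
  have hD1 : ∀ c ∈ A, s' c = xor (s c) (D (y c)) := by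
    intro c hc
    have hex : ∃ c₁ ∈ A, y c₁ = y c := ⟨c, hc, rfl⟩
    have hD2 : D (y c) = xor (s hex.choose) (s' hex.choose) := by
      simp only [hD]
      rw [dif_pos hex]
    rw [hD2]
    obtain ⟨h1, h2⟩ := hex.choose_spec
    by_cases hcc : hex.choose = c
    · rw [hcc]
      cases s c <;> cases s' c <;> rfl
    · have h3 := hv _ h1 c hc hcc h2
      have h4 := hv' _ h1 c hc hcc h2
      revert h3 h4
      cases s c <;> cases s' c <;> cases s hex.choose <;> cases s' hex.choose <;> simp
  have hperm : Function.Involutive (fun B : Q → Bool => fun q => xor (B q) (D q)) := by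
    intro B
    funext q
    show xor (xor (B q) (D q)) (D q) = B q
    cases B q <;> cases D q <;> rfl
  unfold Fop
  rw [← avg_equiv hperm.toPerm (fun B : Q → Bool => f (flA A B (pk s y)))]
  congr 1
  funext B
  simp only [Function.Involutive.coe_toPerm]
  congr 1
  funext c
  unfold flA
  by_cases hc : c ∈ A
  · simp only [hc, if_true, pk_apply]
    rw [hD1 c hc]
    cases s c <;> cases B (y c) <;> cases D (y c) <;> rfl
  · simp only [hc, if_false, pk_apply]
    rw [hout c hc]

/-- The value on the fibres. -/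
noncomputable def hb (A : Finset α) (f : (α → Bool × Q) → ℝ) (s : α → Bool) (y : α → Q) : ℝ :=
  (2 : ℝ) ^ pD A y * avg (fun t : α → Bool => Fop A f (pk (mg A t s) y))

theorem Val_mg_self (A : Finset α) (t s : α → Bool) (y : α → Q) : Val A (mg A t s) y ↔ Val A t y :=
  Val_congr (fun c hc => mg_mem hc _ _) (fun _ _ => rfl)

/-- The separation of the validity from the value. -/
theorem Fop_eq_hb {A : Finset α} {f : (α → Bool × Q) → ℝ}
    (hf : ∀ x : α → Bool × Q, ¬ Set.InjOn x (A : Set α) → f x = 0) (s t : α → Bool) (y : α → Q) :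
    Fop A f (pk (mg A t s) y) = ind (Val A t y) * hb A f s y := by
  by_cases hex : ∃ t₀ : α → Bool, Val A t₀ y
  · obtain ⟨t₀, h₀⟩ := hex
    set v₀ := Fop A f (pk (mg A t₀ s) y) with hv₀
    have hall : ∀ t : α → Bool, Fop A f (pk (mg A t s) y) = ind (Val A t y) * v₀ := by
      intro t
      by_cases hv : Val A t y
      · rw [ind_true' hv, one_mul, hv₀]
        refine Fop_shift f ((Val_mg_self A t s y).mpr hv) ((Val_mg_self A t₀ s y).mpr h₀) (fun c hc => ?_)
        rw [mg_not_mem hc, mg_not_mem hc]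
      · rw [ind_false' hv, zero_mul]
        exact Fop_of_not_val hf (fun h => hv ((Val_mg_self A t s y).mp h))
    have hh : hb A f s y = v₀ := by
      unfold hb
      simp only [hall]
      rw [avg_mul_right, avg_Val A y (Yt_of_Val h₀), ← mul_assoc, ← mul_pow]
      norm_num
    rw [hh]
    exact hall t
  · push Not at hex
    rw [ind_false' (hex t), zero_mul]
    exact Fop_of_not_val hf (fun h => hex t ((Val_mg_self A t s y).mp h))

theorem hb_mg (A : Finset α) (f : (α → Bool × Q) → ℝ) (t s : α → Bool) (y : α → Q) :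
    hb A f (mg A t s) y = hb A f s y := by
  unfold hb
  have : ∀ t' : α → Bool, mg A t' (mg A t s) = mg A t' s := by
    intro t'
    funext c
    by_cases h : c ∈ A <;> simp [h]
  simp only [this]

/-- The coefficient of a function of pairs. -/
noncomputable def cE (A E : Finset α) (f : (α → Bool × Q) → ℝ) (s : α → Bool) (y : α → Q) : ℝ :=
  avg (fun z : α → Q => avg (fun t : α → Bool => chiS E t * Fop A f (pk (mg E t s) (mg E z y))))

theorem mg_sub_self {A E : Finset α} (hE : E ⊆ A) (t s : α → Bool) :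
    mg A (mg E t s) s = mg E t s := by
  funext c
  by_cases h : c ∈ A
  · rw [mg_mem h]
  · rw [mg_not_mem h, mg_not_mem (fun h2 => h (hE h2))]

theorem cE_eq {A E : Finset α} (hE : E ⊆ A) {f : (α → Bool × Q) → ℝ}
    (hf : ∀ x : α → Bool × Q, ¬ Set.InjOn x (A : Set α) → f x = 0) (s : α → Bool) (y : α → Q) :
    cE A E f s y = cT A E (hb A f s) s y := by
  unfold cE cT
  congr 1
  funext z
  unfold Th
  rw [← avg_mul_right]
  congr 1
  funext t
  have h1 := Fop_eq_hb hf s (mg E t s) (mg E z y)
  rw [mg_sub_self hE] at h1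
  rw [h1]
  ring

theorem Th_mg (A E : Finset α) (hE : E ⊆ A) (t s : α → Bool) (y : α → Q) :
    Th A E (mg A t s) y = Th A E t y := by
  unfold Th
  congr 1
  funext τ
  congr 1
  unfold ind
  have : Val A (mg E τ (mg A t s)) y ↔ Val A (mg E τ t) y := by
    refine Val_congr (fun c hc => ?_) (fun _ _ => rfl)
    by_cases h : c ∈ E
    · rw [mg_mem h, mg_mem h]
    · rw [mg_not_mem h, mg_not_mem h, mg_mem hc]
  simp only [this]

theorem cT_mg (A E : Finset α) (hE : E ⊆ A) (u : (α → Q) → ℝ) (t s : α → Bool) (y : α → Q) :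
    cT A E u (mg A t s) y = cT A E u t y := by
  unfold cT
  simp only [Th_mg A E hE]

theorem Wg_mg {A G : Finset α} (hG : G ⊆ A) (ψ : ℕ → ℝ) (t s : α → Bool) :
    Wg ψ G (mg A t s) = Wg ψ G t := by
  unfold Wg
  have h1 : ∀ e : Bool, G.filter (fun c => mg A t s c = e) = G.filter (fun c => t c = e) := by
    intro e
    refine Finset.filter_congr (fun c hc => ?_)
    rw [mg_mem (hG hc)]
  rw [h1, h1]

/-- The reduction to fibres. -/
theorem term_core {A E : Finset α} (hE : E ⊆ A) (ψ : ℕ → ℝ) {f : (α → Bool × Q) → ℝ}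
    (hf : ∀ x : α → Bool × Q, ¬ Set.InjOn x (A : Set α) → f x = 0) :
    avg (fun s : α → Bool => avg (fun y : α → Q => Wg ψ (A \ E) s * cE A E f s y ^ 2))
      = avg (fun s : α → Bool => avg (fun y : α → Q => avg (fun t : α → Bool =>
          Wg ψ (A \ E) t * cT A E (hb A f s) t y ^ 2))) := by
  rw [← avg_mg A (fun s : α → Bool => avg (fun y : α → Q => Wg ψ (A \ E) s * cE A E f s y ^ 2))]
  congr 1
  funext s
  rw [avg_comm]
  congr 1
  funext y
  congr 1
  funext t
  have hfun : hb A f (mg A t s) = hb A f s := funext (fun y' => hb_mg A f t s y')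
  rw [cE_eq hE hf, hfun, cT_mg A E hE, Wg_mg Finset.sdiff_subset]

/-- The mass of the value on fibres. -/
theorem mass_hb (A : Finset α) {f : (α → Bool × Q) → ℝ}
    (hf : ∀ x : α → Bool × Q, ¬ Set.InjOn x (A : Set α) → f x = 0) :
    avg (fun s : α → Bool => avg (fun y : α → Q =>
        ind (Yt A y) * ((1 / 2 : ℝ) ^ pD A y * hb A f s y ^ 2))) = avg (fun x => Fop A f x ^ 2) := by
  rw [avg_pk (fun x => Fop A f x ^ 2)]
  rw [← avg_mg A (fun s : α → Bool => avg (fun y : α → Q => Fop A f (pk s y) ^ 2))]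
  congr 1
  funext s
  rw [avg_comm]
  congr 1
  funext y
  have h1 : ∀ t : α → Bool, Fop A f (pk (mg A t s) y) ^ 2 = ind (Val A t y) * hb A f s y ^ 2 := by
    intro t
    rw [Fop_eq_hb hf, mul_pow, sq (ind _), ind_mul_self]
  simp only [h1]
  rw [avg_mul_right]
  by_cases hY : Yt A y
  · rw [avg_Val A y hY, ind_true' hY, one_mul]
  · have h2 : ∀ t : α → Bool, ind (Val A t y) = 0 := fun t => ind_false' (fun hv => hY (Yt_of_Val hv))
    simp only [h2]
    rw [ind_false' hY, avg_const]
    ring

/-- **The core inequality.** -/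
theorem core {ψ ψ' : ℕ → ℝ} (hN : NumH ψ ψ' (Fintype.card Q)) (A : Finset α) {f : (α → Bool × Q) → ℝ}
    (hf : ∀ x : α → Bool × Q, ¬ Set.InjOn x (A : Set α) → f x = 0) :
    ∑ E ∈ A.powerset, avg (fun s : α → Bool => avg (fun y : α → Q => Wg ψ (A \ E) s * cE A E f s y ^ 2))
      ≤ ψ' A.card * avg (fun x => f x ^ 2) := by
  have h1 : ∀ E ∈ A.powerset, avg (fun s : α → Bool => avg (fun y : α → Q => Wg ψ (A \ E) s * cE A E f s y ^ 2))
      = avg (fun s : α → Bool => avg (fun y : α → Q => avg (fun t : α → Bool =>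
          Wg ψ (A \ E) t * cT A E (hb A f s) t y ^ 2))) :=
    fun E hE => term_core (Finset.mem_powerset.mp hE) ψ hf
  rw [Finset.sum_congr rfl h1, ← avg_sum]
  have h2 : ∀ s : α → Bool, ∑ E ∈ A.powerset, avg (fun y : α → Q => avg (fun t : α → Bool =>
        Wg ψ (A \ E) t * cT A E (hb A f s) t y ^ 2))
      ≤ ψ' A.card * avg (fun y : α → Q => ind (Yt A y) * ((1 / 2 : ℝ) ^ pD A y * hb A f s y ^ 2)) :=
    fun s => core2 hN A (hb A f s)
  refine (avg_mono h2).trans ?_
  rw [avg_mul_left, mass_hb A hf]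
  exact mul_le_mul_of_nonneg_left (Fop_sq_le A f) (hN.nn' _)

end core

end Vale.Agent.Lib.P162
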