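import Vale.Agent.Lib.P162.NQ7

/-! The quadratic form inequality and its recursion: preparations. -/

namespace Vale.Agent.Lib.P162

open Equiv Finset

set_option linter.unusedSectionVars false

open scoped Classical

section forms

variable {α : Type*} [Fintype α] [DecidableEq α] {X : Type*} [Fintype X] [Nonempty X]
  {𝒩 : Type*} [Fintype 𝒩]

/-- Applying a map on the coordinates of `A`. -/
def apS (A : Finset α) (π : X → X) (y : α → X) : α → X := fun c => if c ∈ A then π (y c) else y c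

@[simp] theorem apS_mem {A : Finset α} {c : α} (h : c ∈ A) (π : X → X) (y : α → X) :
    apS A π y c = π (y c) := by
  simp [apS, h]

@[simp] theorem apS_not_mem {A : Finset α} {c : α} (h : c ∉ A) (π : X → X) (y : α → X) :
    apS A π y c = y c := by
  simp [apS, h]

/-- The average over the network. -/
noncomputable def Rf (n : 𝒩 → X → X) (A : Finset α) (u : (α → X) → ℝ) (y : α → X) : ℝ :=
  avg (fun ω : 𝒩 => u (apS A (n ω) y))

/-- The average over the coordinates of `C`. -/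
noncomputable def Sf (C : Finset α) (u : (α → X) → ℝ) (y : α → X) : ℝ :=
  avg (fun t : α → X => u (mg C t y))

/-- **The quadratic form inequality.** -/
def QF (α X 𝒩 : Type*) [Fintype α] [DecidableEq α] [Fintype X] [Nonempty X] [Fintype 𝒩]
    (n : 𝒩 → X → X) (ψ : ℕ → ℝ) : Prop :=
  ∀ (A : Finset α) (u : (α → X) → ℝ), (∀ y : α → X, ¬ Set.InjOn y (A : Set α) → u y = 0) →
    avg (fun y => Rf n A u y ^ 2) ≤ ∑ C ∈ A.powerset, ψ (A.card - C.card) * avg (fun y => Sf C u y ^ 2)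

theorem apS_mg_comm {C A : Finset α} (hd : Disjoint C A) (π : X → X) (t y : α → X) :
    apS A π (mg C t y) = mg C t (apS A π y) := by
  funext c
  by_cases h1 : c ∈ C
  · have h2 : c ∉ A := Finset.disjoint_left.mp hd h1
    simp [h1, h2]
  · by_cases h2 : c ∈ A <;> simp [h1, h2]

theorem Sf_Rf_comm {C A : Finset α} (hd : Disjoint C A) (n : 𝒩 → X → X) (u : (α → X) → ℝ) :
    Sf C (Rf n A u) = Rf n A (Sf C u) := by
  funext y
  unfold Sf Rf
  rw [avg_comm]
  congr 1
  funext ω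
  congr 1
  funext t
  rw [apS_mg_comm hd]

theorem Sf_Sf {C₀ C₁ : Finset α} (hd : Disjoint C₀ C₁) (v : (α → X) → ℝ) :
    Sf C₁ (Sf C₀ v) = Sf (C₀ ∪ C₁) v := by
  funext y
  unfold Sf
  have h1 : ∀ t t' : α → X, v (mg C₀ t' (mg C₁ t y)) = v (mg (C₀ ∪ C₁) (mg C₀ t' t) y) := by
    intro t t'
    rw [mg_union C₀ C₁ t' t y hd]
  simp only [h1]
  exact avg_mg C₀ (fun τ => v (mg (C₀ ∪ C₁) τ y))

theorem not_inj_congr {A : Finset α} {y y' : α → X} (hy : ∀ c ∈ A, y' c = y c)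
    (h : ¬ Set.InjOn y (A : Set α)) : ¬ Set.InjOn y' (A : Set α) := by
  intro hinj
  apply h
  intro a ha b hb hab
  refine hinj ha hb ?_
  rw [hy a (Finset.mem_coe.mp ha), hy b (Finset.mem_coe.mp hb)]
  exact hab

/-- The two-step estimate. -/
theorem two_step {n : 𝒩 → X → X} {ψ : ℕ → ℝ} (h : QF α X 𝒩 n ψ) (hnn : ∀ a, 0 ≤ ψ a)
    {A₀ A₁ : Finset α} (hd : Disjoint A₀ A₁) {v : (α → X) → ℝ}
    (hv0 : ∀ y : α → X, ¬ Set.InjOn y (A₀ : Set α) → v y = 0)
    (hv1 : ∀ y : α → X, ¬ Set.InjOn y (A₁ : Set α) → v y = 0) :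
    avg (fun y => Rf n A₀ (Rf n A₁ v) y ^ 2)
      ≤ ∑ C₀ ∈ A₀.powerset, ∑ C₁ ∈ A₁.powerset, ψ (A₀.card - C₀.card) * ψ (A₁.card - C₁.card)
          * avg (fun y => Sf (C₀ ∪ C₁) v y ^ 2) := by
  have h1 := h A₀ (Rf n A₁ v) (by
    intro y hy
    unfold Rf
    have : ∀ ω : 𝒩, v (apS A₁ (n ω) y) = 0 := by
      intro ω
      refine hv0 _ (not_inj_congr (fun c hc => ?_) hy)
      exact apS_not_mem (Finset.disjoint_left.mp hd hc) _ _
    simp only [this]
    unfold avg
    simp)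
  refine h1.trans (Finset.sum_le_sum (fun C₀ hC₀ => ?_))
  have hC₀ : C₀ ⊆ A₀ := Finset.mem_powerset.mp hC₀
  have hd₀ : Disjoint C₀ A₁ := Finset.disjoint_of_subset_left hC₀ hd
  rw [Sf_Rf_comm hd₀]
  have h2 := h A₁ (Sf C₀ v) (by
    intro y hy
    unfold Sf
    have : ∀ t : α → X, v (mg C₀ t y) = 0 := by
      intro t
      refine hv1 _ (not_inj_congr (fun c hc => ?_) hy)
      exact mg_not_mem (fun h3 => Finset.disjoint_left.mp hd₀ h3 hc) _ _
    simp only [this]
    exact avg_const 0)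
  refine (mul_le_mul_of_nonneg_left h2 (hnn _)).trans (le_of_eq ?_)
  rw [Finset.mul_sum]
  refine Finset.sum_congr rfl (fun C₁ hC₁ => ?_)
  have hC₁ : C₁ ⊆ A₁ := Finset.mem_powerset.mp hC₁
  have hd₂ : Disjoint C₀ C₁ := Finset.disjoint_of_subset_right hC₁ hd₀
  rw [Sf_Sf hd₂]
  ring

omit [Fintype α] in
/-- Splitting the subsets of a disjoint union. -/
theorem sum_powerset_union {β : Type*} [AddCommMonoid β] (A₀ A₁ : Finset α) (hd : Disjoint A₀ A₁)
    (F : Finset α → β) :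
    ∑ C ∈ (A₀ ∪ A₁).powerset, F C = ∑ C₀ ∈ A₀.powerset, ∑ C₁ ∈ A₁.powerset, F (C₀ ∪ C₁) := by
  induction A₁ using Finset.induction_on generalizing F with
  | empty => simp
  | insert a A₁ ha ih =>
    have ha0 : a ∉ A₀ := fun h => Finset.disjoint_right.mp hd (Finset.mem_insert_self _ _) h
    have hd' : Disjoint A₀ A₁ := Finset.disjoint_of_subset_right (Finset.subset_insert _ _) hd
    rw [Finset.union_insert, Finset.sum_powerset_insert (by simp [ha0, ha]), ih hd', ih hd']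
    rw [← Finset.sum_add_distrib]
    refine Finset.sum_congr rfl (fun C₀ _ => ?_)
    rw [Finset.sum_powerset_insert ha]
    congr 1
    refine Finset.sum_congr rfl (fun C₁ _ => ?_)
    rw [Finset.union_insert]

omit [Fintype α] in
/-- The reindexing of nested subsets. -/
theorem sum_nested {β : Type*} [AddCommMonoid β] (A : Finset α) (F : Finset α → Finset α → β) :
    ∑ C ∈ A.powerset, ∑ E ∈ C.powerset, F (C \ E) E
      = ∑ C₁ ∈ A.powerset, ∑ E ∈ (A \ C₁).powerset, F C₁ E := by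
  rw [Finset.sum_sigma', Finset.sum_sigma']
  refine Finset.sum_bij' (fun p _ => ⟨p.1 \ p.2, p.2⟩) (fun p _ => ⟨p.1 ∪ p.2, p.2⟩) ?_ ?_ ?_ ?_ ?_
  · rintro ⟨C, E⟩ h
    simp only [Finset.mem_sigma, Finset.mem_powerset] at h ⊢
    obtain ⟨h1, h2⟩ := h
    refine ⟨Finset.sdiff_subset.trans h1, fun c hc => ?_⟩
    simp only [Finset.mem_sdiff, not_and, not_not]
    exact ⟨h1 (h2 hc), fun _ => hc⟩
  · rintro ⟨C₁, E⟩ h
    simp only [Finset.mem_sigma, Finset.mem_powerset] at h ⊢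
    obtain ⟨h1, h2⟩ := h
    refine ⟨Finset.union_subset h1 (h2.trans Finset.sdiff_subset), Finset.subset_union_right⟩
  · rintro ⟨C, E⟩ h
    simp only [Finset.mem_sigma, Finset.mem_powerset] at h
    obtain ⟨h1, h2⟩ := h
    simp only [Sigma.mk.injEq, heq_eq_eq, and_true]
    exact Finset.sdiff_union_of_subset h2
  · rintro ⟨C₁, E⟩ h
    simp only [Finset.mem_sigma, Finset.mem_powerset] at h
    obtain ⟨h1, h2⟩ := h
    simp only [Sigma.mk.injEq, heq_eq_eq, and_true]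
    have hd : Disjoint C₁ E := Finset.disjoint_left.mpr (fun c hc hE =>
      (Finset.mem_sdiff.mp (h2 hE)).2 hc)
    exact Finset.union_sdiff_cancel_right hd
  · rintro ⟨C, E⟩ _
    rfl

end forms

end Vale.Agent.Lib.P162
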