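import Vale.Agent.Lib.P162.NQ8

/-! The recursion step for the quadratic form inequality. -/

namespace Vale.Agent.Lib.P162

open Equiv Finset

set_option linter.unusedSectionVars false

open scoped Classical

section top

variable {α : Type*} [Fintype α] [DecidableEq α] {Q : Type*} [Fintype Q] [DecidableEq Q] [Nonempty Q]
  {𝒩 : Type*} [Fintype 𝒩] [Nonempty 𝒩]

/-- The network one level up. -/
def nTop (n : 𝒩 → Q → Q) (ω : (Q → Bool) × 𝒩 × 𝒩) (p : Bool × Q) : Bool × Q :=
  (xor p.1 (ω.1 (n (if p.1 then ω.2.2 else ω.2.1) p.2)), n (if p.1 then ω.2.2 else ω.2.1) p.2)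

/-- The cards on one side. -/
def Sd (A : Finset α) (s : α → Bool) (e : Bool) : Finset α := A.filter (fun c => s c = e)

theorem Sd_disjoint (A : Finset α) (s : α → Bool) : Disjoint (Sd A s false) (Sd A s true) := by
  refine Finset.disjoint_left.mpr (fun c h1 h2 => ?_)
  have h3 := (Finset.mem_filter.mp h1).2
  have h4 := (Finset.mem_filter.mp h2).2
  rw [h3] at h4
  exact absurd h4 (by simp)

theorem Sd_union (A : Finset α) (s : α → Bool) : Sd A s false ∪ Sd A s true = A := by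
  ext c
  simp only [Sd, Finset.mem_union, Finset.mem_filter]
  cases s c <;> simp

theorem apS_top (n : 𝒩 → Q → Q) (A : Finset α) (B : Q → Bool) (ω₀ ω₁ : 𝒩) (s : α → Bool) (y : α → Q) :
    apS A (nTop n (B, ω₀, ω₁)) (pk s y)
      = flA A B (pk s (apS (Sd A s true) (n ω₁) (apS (Sd A s false) (n ω₀) y))) := by
  funext c
  unfold flA
  by_cases hc : c ∈ A
  · have h1 : ∀ e, s c = e → c ∈ Sd A s e := fun e he => Finset.mem_filter.mpr ⟨hc, he⟩
    have h2 : ∀ e, s c ≠ e → c ∉ Sd A s e := fun e he h => he (Finset.mem_filter.mp h).2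
    simp only [hc, if_true, apS_mem, pk_apply]
    cases hs : s c
    · have h3 := h1 false hs
      have h4 := h2 true (by rw [hs]; simp)
      rw [apS_not_mem h4, apS_mem h3]
      simp [nTop]
    · have h3 := h1 true hs
      have h4 := h2 false (by rw [hs]; simp)
      rw [apS_mem h3, apS_not_mem h4]
      simp [nTop]
  · have h2 : ∀ e, c ∉ Sd A s e := fun e h => hc (Finset.mem_filter.mp h).1
    simp only [hc, if_false, apS_not_mem hc, pk_apply, apS_not_mem (h2 _)]

/-- The network one level up as two lower networks. -/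
theorem Rf_top (n : 𝒩 → Q → Q) (A : Finset α) (g : (α → Bool × Q) → ℝ) (s : α → Bool) (y : α → Q) :
    Rf (nTop n) A g (pk s y)
      = Rf n (Sd A s false) (Rf n (Sd A s true) (fun y' => Fop A g (pk s y'))) y := by
  unfold Rf Fop
  rw [avg_prod]
  simp only [avg_prod (α := 𝒩) (β := 𝒩)]
  simp only [apS_top]
  rw [avg_comm]
  congr 1
  funext ω₀
  rw [avg_comm]

theorem Fop_not_inj_side {A : Finset α} {g : (α → Bool × Q) → ℝ}
    (hg : ∀ x : α → Bool × Q, ¬ Set.InjOn x (A : Set α) → g x = 0) (s : α → Bool) (e : Bool) (y : α → Q)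
    (hy : ¬ Set.InjOn y (Sd A s e : Set α)) : Fop A g (pk s y) = 0 := by
  refine Fop_of_not_val hg (fun hv => hy ?_)
  intro c hc c' hc' hyy
  by_contra hne
  have h1 := Finset.mem_filter.mp (Finset.mem_coe.mp hc)
  have h2 := Finset.mem_filter.mp (Finset.mem_coe.mp hc')
  exact hv c h1.1 c' h2.1 hne hyy (h1.2.trans h2.2.symm)

theorem Wg_sides {A C₀ C₁ : Finset α} (ψ : ℕ → ℝ) (s : α → Bool) (h₀ : C₀ ⊆ Sd A s false)
    (h₁ : C₁ ⊆ Sd A s true) :
    Wg ψ (A \ (C₀ ∪ C₁)) s = ψ ((Sd A s false).card - C₀.card) * ψ ((Sd A s true).card - C₁.card) := by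
  unfold Wg
  have hd := Sd_disjoint A s
  have h1 : (A \ (C₀ ∪ C₁)).filter (fun c => s c = false) = Sd A s false \ C₀ := by
    ext c
    simp only [Finset.mem_filter, Finset.mem_sdiff, Finset.mem_union, not_or, Sd]
    constructor
    · rintro ⟨⟨h2, h3, _⟩, h5⟩
      exact ⟨⟨h2, h5⟩, h3⟩
    · rintro ⟨⟨h2, h5⟩, h3⟩
      refine ⟨⟨h2, h3, fun h4 => ?_⟩, h5⟩
      have := (Finset.mem_filter.mp (h₁ h4)).2
      rw [h5] at this
      exact absurd this (by simp)
  have h2 : (A \ (C₀ ∪ C₁)).filter (fun c => s c = true) = Sd A s true \ C₁ := by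
    ext c
    simp only [Finset.mem_filter, Finset.mem_sdiff, Finset.mem_union, not_or, Sd]
    constructor
    · rintro ⟨⟨h2, _, h3⟩, h5⟩
      exact ⟨⟨h2, h5⟩, h3⟩
    · rintro ⟨⟨h2, h5⟩, h3⟩
      refine ⟨⟨h2, fun h4 => ?_, h3⟩, h5⟩
      have := (Finset.mem_filter.mp (h₀ h4)).2
      rw [h5] at this
      exact absurd this (by simp)
  rw [h1, h2, Finset.card_sdiff_of_subset h₀, Finset.card_sdiff_of_subset h₁]

/-- The estimate at fixed sides. -/
theorem side_bound {n : 𝒩 → Q → Q} {ψ : ℕ → ℝ} (h : QF α Q 𝒩 n ψ) (hnn : ∀ a, 0 ≤ ψ a)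
    (A : Finset α) {g : (α → Bool × Q) → ℝ}
    (hg : ∀ x : α → Bool × Q, ¬ Set.InjOn x (A : Set α) → g x = 0) (s : α → Bool) :
    avg (fun y : α → Q => Rf (nTop n) A g (pk s y) ^ 2)
      ≤ ∑ C ∈ A.powerset, Wg ψ (A \ C) s * avg (fun y : α → Q => Sf C (fun y' => Fop A g (pk s y')) y ^ 2) := by
  simp only [Rf_top]
  have h1 := two_step h hnn (Sd_disjoint A s) (v := fun y' => Fop A g (pk s y'))
    (fun y hy => Fop_not_inj_side hg s false y hy) (fun y hy => Fop_not_inj_side hg s true y hy)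
  refine h1.trans (le_of_eq ?_)
  have h2 := sum_powerset_union (Sd A s false) (Sd A s true) (Sd_disjoint A s)
    (fun C => Wg ψ (A \ C) s * avg (fun y : α → Q => Sf C (fun y' => Fop A g (pk s y')) y ^ 2))
  rw [Sd_union] at h2
  rw [h2]
  refine Finset.sum_congr rfl (fun C₀ hC₀ => Finset.sum_congr rfl (fun C₁ hC₁ => ?_))
  rw [Wg_sides ψ s (Finset.mem_powerset.mp hC₀) (Finset.mem_powerset.mp hC₁)]

/-- The order of flips and averages. -/
theorem S_flip {A C₁ : Finset α} (hC₁ : C₁ ⊆ A) (g : (α → Bool × Q) → ℝ) (x : α → Bool × Q) :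
    Fop (A \ C₁) (Sf C₁ g) x = Sf C₁ (Fop A g) x := by
  unfold Fop Sf
  have h1 : avg (fun T : α → Bool × Q => avg (fun B : Q → Bool => g (flA A B (mg C₁ T x))))
      = avg (fun B : Q → Bool => avg (fun T : α → Bool × Q => g (flA A B (mg C₁ T x)))) := avg_comm _
  show avg (fun B : Q → Bool => avg (fun T : α → Bool × Q => g (mg C₁ T (flA (A \ C₁) B x))))
    = avg (fun T : α → Bool × Q => avg (fun B : Q → Bool => g (flA A B (mg C₁ T x))))
  rw [h1]
  congr 1
  funext B
  rw [← avg_equiv (flA_invol Finset.univ B).toPerm (fun T => g (mg C₁ T (flA (A \ C₁) B x)))]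
  congr 1
  funext T
  simp only [Function.Involutive.coe_toPerm]
  congr 1
  funext c
  unfold flA
  by_cases h1 : c ∈ C₁
  · simp [h1, hC₁ h1]
  · by_cases h2 : c ∈ A <;> simp [h1, h2]

theorem Sf_pk (C : Finset α) (G : (α → Bool × Q) → ℝ) (s : α → Bool) (y : α → Q) :
    Sf C G (pk s y) = avg (fun t : α → Bool => avg (fun z : α → Q => G (pk (mg C t s) (mg C z y)))) := by
  unfold Sf
  rw [avg_pk]
  simp only [mg_pk]

/-- The identification of the Fourier coefficients. -/
theorem coef_id {A C E : Finset α} (hC : C ⊆ A) (hE : E ⊆ C) (g : (α → Bool × Q) → ℝ) (s : α → Bool)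
    (y : α → Q) :
    avg (fun t : α → Bool => chiS E t * Sf C (fun y' => Fop A g (pk (mg C t s) y')) y)
      = cE (A \ (C \ E)) E (Sf (C \ E) g) s y := by
  set C₁ := C \ E with hC₁
  have hC₁A : C₁ ⊆ A := Finset.sdiff_subset.trans hC
  have hd : Disjoint C₁ E := Finset.sdiff_disjoint
  have hU : C₁ ∪ E = C := Finset.sdiff_union_of_subset hE
  set G := Fop A g with hG
  unfold cE
  simp only [S_flip hC₁A, Sf_pk]
  have hs : ∀ t₁ t : α → Bool, mg C₁ t₁ (mg E t s) = mg C (mg C₁ t₁ t) s := by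
    intro t₁ t
    rw [← hU, mg_union C₁ E t₁ t s hd]
  have hz : ∀ z₁ z : α → Q, mg C₁ z₁ (mg E z y) = mg C (mg C₁ z₁ z) y := by
    intro z₁ z
    rw [← hU, mg_union C₁ E z₁ z y hd]
  simp only [hs, hz]
  have hχ : ∀ t₁ t : α → Bool, chiS E (mg C₁ t₁ t) = chiS E t := by
    intro t₁ t
    refine chiS_congr (fun c hc => ?_)
    exact mg_not_mem (fun h => Finset.disjoint_left.mp hd h hc) _ _
  -- the right side
  have hR : ∀ (t : α → Bool), avg (fun z : α → Q => chiS E t * avg (fun t₁ : α → Bool => avg (fun z₁ : α → Q =>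
        G (pk (mg C (mg C₁ t₁ t) s) (mg C (mg C₁ z₁ z) y)))))
      = avg (fun t₁ : α → Bool => chiS E (mg C₁ t₁ t) * avg (fun ζ : α → Q => G (pk (mg C (mg C₁ t₁ t) s) (mg C ζ y)))) := by
    intro t
    simp only [hχ]
    rw [avg_mul_left, avg_mul_left]
    congr 1
    rw [avg_comm]
    congr 1
    funext t₁
    exact avg_mg C₁ (fun ζ => G (pk (mg C (mg C₁ t₁ t) s) (mg C ζ y)))
  have h1 : avg (fun z : α → Q => avg (fun t : α → Bool => chiS E t * avg (fun t₁ : α → Bool => avg (fun z₁ : α → Q =>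
        G (pk (mg C (mg C₁ t₁ t) s) (mg C (mg C₁ z₁ z) y))))))
      = avg (fun t : α → Bool => avg (fun z : α → Q => chiS E t * avg (fun t₁ : α → Bool => avg (fun z₁ : α → Q =>
        G (pk (mg C (mg C₁ t₁ t) s) (mg C (mg C₁ z₁ z) y)))))) := avg_comm _
  rw [h1]
  simp only [hR]
  exact (avg_mg C₁ (fun τ : α → Bool => chiS E τ * avg (fun ζ : α → Q => G (pk (mg C τ s) (mg C ζ y))))).symm

/-- The weight does not see the averaged coordinates. -/
theorem Wg_mg_out {G C : Finset α} (hd : Disjoint G C) (ψ : ℕ → ℝ) (t s : α → Bool) :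
    Wg ψ G (mg C t s) = Wg ψ G s := by
  unfold Wg
  have h1 : ∀ e : Bool, G.filter (fun c => mg C t s c = e) = G.filter (fun c => s c = e) := by
    intro e
    refine Finset.filter_congr (fun c hc => ?_)
    rw [mg_not_mem (Finset.disjoint_left.mp hd hc)]
  rw [h1, h1]

/-- Parseval in the sides of the averaged coordinates. -/
theorem parseval_part {A C : Finset α} (hC : C ⊆ A) (ψ : ℕ → ℝ) (g : (α → Bool × Q) → ℝ) :
    avg (fun s : α → Bool => Wg ψ (A \ C) s * avg (fun y : α → Q => Sf C (fun y' => Fop A g (pk s y')) y ^ 2))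
      = ∑ E ∈ C.powerset, avg (fun s : α → Bool => avg (fun y : α → Q =>
          Wg ψ (A \ C) s * cE (A \ (C \ E)) E (Sf (C \ E) g) s y ^ 2)) := by
  rw [← avg_mg C (fun s : α → Bool => Wg ψ (A \ C) s *
    avg (fun y : α → Q => Sf C (fun y' => Fop A g (pk s y')) y ^ 2)), ← avg_sum]
  congr 1
  funext s
  simp only [Wg_mg_out (Finset.sdiff_disjoint : Disjoint (A \ C) C)]
  rw [avg_mul_left, avg_comm]
  have h1 : ∀ y : α → Q, avg (fun t : α → Bool => Sf C (fun y' => Fop A g (pk (mg C t s) y')) y ^ 2)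
      = ∑ E ∈ C.powerset, cE (A \ (C \ E)) E (Sf (C \ E) g) s y ^ 2 := by
    intro y
    have h2 := parseval_mg C (fun s' => Sf C (fun y' => Fop A g (pk s' y')) y) s
    rw [h2]
    refine Finset.sum_congr rfl (fun E hE => ?_)
    rw [coef_id hC (Finset.mem_powerset.mp hE)]
  simp only [h1]
  rw [avg_sum, Finset.mul_sum]
  refine Finset.sum_congr rfl (fun E _ => ?_)
  rw [avg_mul_left]

/-- **The recursion step.** -/
theorem step {n : 𝒩 → Q → Q} {ψ ψ' : ℕ → ℝ} (h : QF α Q 𝒩 n ψ) (hN : NumH ψ ψ' (Fintype.card Q)) :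
    QF α (Bool × Q) ((Q → Bool) × 𝒩 × 𝒩) (nTop n) ψ' := by
  intro A g hg
  rw [avg_pk]
  have h1 := avg_mono (fun s => side_bound h hN.nn A hg s)
  refine h1.trans ?_
  rw [avg_sum]
  have h2 : ∀ C ∈ A.powerset, avg (fun s : α → Bool => Wg ψ (A \ C) s *
        avg (fun y : α → Q => Sf C (fun y' => Fop A g (pk s y')) y ^ 2))
      = ∑ E ∈ C.powerset, avg (fun s : α → Bool => avg (fun y : α → Q =>
          Wg ψ ((A \ (C \ E)) \ E) s * cE (A \ (C \ E)) E (Sf (C \ E) g) s y ^ 2)) := by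
    intro C hC
    have hC' := Finset.mem_powerset.mp hC
    rw [parseval_part hC']
    refine Finset.sum_congr rfl (fun E hE => ?_)
    have hE' := Finset.mem_powerset.mp hE
    have h3 : (A \ (C \ E)) \ E = A \ C := by
      ext c
      simp only [Finset.mem_sdiff, not_and, not_not]
      constructor
      · rintro ⟨⟨h4, h5⟩, h6⟩
        exact ⟨h4, fun h7 => h6 (h5 h7)⟩
      · rintro ⟨h4, h5⟩
        exact ⟨⟨h4, fun h7 => absurd h7 h5⟩, fun h7 => h5 (hE' h7)⟩
    rw [h3]
  rw [Finset.sum_congr rfl h2]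
  rw [sum_nested A (fun C₁ E => avg (fun s : α → Bool => avg (fun y : α → Q =>
    Wg ψ ((A \ C₁) \ E) s * cE (A \ C₁) E (Sf C₁ g) s y ^ 2)))]
  refine Finset.sum_le_sum (fun C₁ hC₁ => ?_)
  have hC₁' := Finset.mem_powerset.mp hC₁
  have hf : ∀ x : α → Bool × Q, ¬ Set.InjOn x ((A \ C₁ : Finset α) : Set α) → Sf C₁ g x = 0 := by
    intro x hx
    unfold Sf
    have : ∀ t : α → Bool × Q, g (mg C₁ t x) = 0 := by
      intro t
      refine hg _ (fun hinj => hx ?_)
      intro a ha b hb hab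
      have ha' := Finset.mem_sdiff.mp (Finset.mem_coe.mp ha)
      have hb' := Finset.mem_sdiff.mp (Finset.mem_coe.mp hb)
      refine hinj (Finset.mem_coe.mpr ha'.1) (Finset.mem_coe.mpr hb'.1) ?_
      rw [mg_not_mem ha'.2, mg_not_mem hb'.2]
      exact hab
    simp only [this]
    exact avg_const 0
  have h3 := core hN (A \ C₁) hf
  rw [Finset.card_sdiff_of_subset hC₁'] at h3
  exact h3

end top

end Vale.Agent.Lib.P162
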