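import Vale.Agent.Lib.P162.NBen

/-! The exponential moment of the cycle functional with a constant rate: joint moments of the
functional and of several cycle counts. -/

namespace Vale.Agent.Lib.P162

open Equiv Finset

set_option linter.unusedSectionVars false

theorem exp_avg_le {x y c : ℝ} (hx : 0 ≤ x) (hy : 0 ≤ y) (hc : |x - y| ≤ c) :
    (Real.exp x + Real.exp y) / 2 ≤ Real.exp ((x + y) * (1 / 2 + c / 8)) := by
  have h1 : (Real.exp x + Real.exp y) / 2 = Real.exp ((x + y) / 2) * Real.cosh ((x - y) / 2) := by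
    rw [Real.cosh_eq, ← mul_div_assoc, mul_add, ← Real.exp_add, ← Real.exp_add]
    congr 2 <;> ring_nf
  rw [h1]
  have h2 := Real.cosh_le_exp_half_sq ((x - y) / 2)
  have h3 : |x - y| ≤ x + y := by
    rw [abs_le]
    constructor <;> linarith
  have h4 : (x - y) ^ 2 ≤ c * (x + y) := by
    rw [← sq_abs]
    have h5 : 0 ≤ |x - y| := abs_nonneg _
    nlinarith
  calc Real.exp ((x + y) / 2) * Real.cosh ((x - y) / 2)
      ≤ Real.exp ((x + y) / 2) * Real.exp (((x - y) / 2) ^ 2 / 2) :=
        mul_le_mul_of_nonneg_left h2 (Real.exp_pos _).le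
    _ = Real.exp ((x + y) / 2 + ((x - y) / 2) ^ 2 / 2) := (Real.exp_add _ _).symm
    _ ≤ _ := by
        apply Real.exp_le_exp.mpr
        nlinarith

section flips

variable {Y : Type*} [Fintype Y] [DecidableEq Y]

theorem card_filter_fib (U : Finset (Bool × Y)) (P : Bool × Y → Prop) [DecidablePred P] :
    ((U.filter P).card : ℝ) = ∑ p, ((if (true, p) ∈ U ∧ P (true, p) then 1 else 0)
      + (if (false, p) ∈ U ∧ P (false, p) then 1 else 0) : ℝ) := by
  have h1 : U.filter P = Finset.univ.filter (fun u => u ∈ U ∧ P u) := by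
    ext u
    simp
  rw [h1, Finset.card_filter]
  push_cast
  rw [Fintype.sum_prod_type_right]
  refine Finset.sum_congr rfl (fun p _ => ?_)
  rw [Fintype.sum_bool]

theorem card_eq_fib_real (U : Finset (Bool × Y)) :
    (U.card : ℝ) = ∑ p, ((if (true, p) ∈ U then 1 else 0) + (if (false, p) ∈ U then 1 else 0) : ℝ) := by
  have := card_filter_fib U (fun _ => True)
  simpa using this

variable {ι : Type*}

/-- The thinning average for several sets at once. -/
theorem thin_multi (I : Finset ι) (lam : ι → ℝ) (h0 : ∀ i ∈ I, 0 ≤ lam i) (h1 : ∑ i ∈ I, lam i ≤ 1)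
    (U : ι → Finset (Bool × Y)) :
    avg (fun A : Y → Bool => Real.exp (∑ i ∈ I, lam i * (((U i).filter (fun u => A u.2 ≠ u.1)).card : ℝ)))
      ≤ Real.exp ((5 / 8) * ∑ i ∈ I, lam i * ((U i).card : ℝ)) := by
  classical
  let ψ : Y → Bool → ℝ := fun p a =>
    ∑ i ∈ I, lam i * ((if (true, p) ∈ U i ∧ a ≠ true then 1 else 0)
      + (if (false, p) ∈ U i ∧ a ≠ false then 1 else 0) : ℝ)
  let φ : Y → Bool → ℝ := fun p a => Real.exp (ψ p a)
  have h2 : ∀ A : Y → Bool, Real.exp (∑ i ∈ I, lam i * (((U i).filter (fun u => A u.2 ≠ u.1)).card : ℝ))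
      = ∏ p, φ p (A p) := by
    intro A
    simp only [φ, ψ]
    rw [← Real.exp_sum]
    congr 1
    rw [Finset.sum_comm]
    refine Finset.sum_congr rfl (fun i _ => ?_)
    rw [← Finset.mul_sum, card_filter_fib]
  simp only [h2]
  have hx : ∀ p, ψ p false = ∑ i ∈ I, lam i * (if (true, p) ∈ U i then 1 else 0 : ℝ) := by
    intro p
    simp [ψ]
  have hy : ∀ p, ψ p true = ∑ i ∈ I, lam i * (if (false, p) ∈ U i then 1 else 0 : ℝ) := by
    intro p
    simp [ψ]
  have hb : ∀ (P : ι → Prop) [DecidablePred P], 0 ≤ ∑ i ∈ I, lam i * (if P i then 1 else 0 : ℝ)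
      ∧ ∑ i ∈ I, lam i * (if P i then 1 else 0 : ℝ) ≤ 1 := by
    intro P _
    constructor
    · refine Finset.sum_nonneg (fun i hi => mul_nonneg (h0 i hi) ?_)
      split_ifs <;> norm_num
    · refine le_trans (Finset.sum_le_sum (fun i hi => ?_)) h1
      have := h0 i hi
      split_ifs <;> linarith
  have h3 : ∀ p, avg (φ p) ≤ Real.exp ((5 / 8) * ∑ i ∈ I, lam i *
      ((if (true, p) ∈ U i then 1 else 0) + (if (false, p) ∈ U i then 1 else 0) : ℝ) ) := by
    intro p
    rw [avg_bool]
    simp only [φ]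
    rw [hx, hy]
    have hx1 := hb (fun i => (true, p) ∈ U i)
    have hy1 := hb (fun i => (false, p) ∈ U i)
    have := exp_avg_le (c := 1) hx1.1 hy1.1 (by
      rw [abs_le]
      constructor <;> linarith [hx1.1, hx1.2, hy1.1, hy1.2])
    refine this.trans (Real.exp_le_exp.mpr (le_of_eq ?_))
    simp only [mul_add, Finset.sum_add_distrib]
    ring
  have h4 := avg_fun_prod_le φ _ (fun p => avg_nonneg (fun a => (Real.exp_pos _).le)) h3
  refine h4.trans (le_of_eq ?_)
  rw [← Real.exp_sum]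
  congr 1
  rw [← Finset.mul_sum, Finset.sum_comm]
  congr 1
  refine Finset.sum_congr rfl (fun i _ => ?_)
  rw [← Finset.mul_sum, card_eq_fib_real]

/-- The average over the second flip for several sets at once. -/
theorem flip_multi (I : Finset ι) (lam : ι → ℝ) (h0 : ∀ i ∈ I, 0 ≤ lam i) (h1 : ∑ i ∈ I, lam i ≤ 1)
    (D : ι → Finset (Bool × Y)) :
    avg (fun A' : Y → Bool => Real.exp (∑ i ∈ I, lam i *
        (((Finset.univ.filter (fun y => (A' y, y) ∈ D i)).card : ℝ)
          + (5 / 8) * ((Finset.univ.filter (fun y => (!A' y, y) ∈ D i)).card : ℝ))))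
      ≤ Real.exp ((9 / 10) * ∑ i ∈ I, lam i * ((D i).card : ℝ)) := by
  classical
  let ψ : Y → Bool → ℝ := fun p a =>
    ∑ i ∈ I, lam i * ((if (a, p) ∈ D i then 1 else 0) + (5 / 8) * (if (!a, p) ∈ D i then 1 else 0) : ℝ)
  let φ : Y → Bool → ℝ := fun p a => Real.exp (ψ p a)
  have h2 : ∀ A : Y → Bool, Real.exp (∑ i ∈ I, lam i *
        (((Finset.univ.filter (fun y => (A y, y) ∈ D i)).card : ℝ)
          + (5 / 8) * ((Finset.univ.filter (fun y => (!A y, y) ∈ D i)).card : ℝ)))
      = ∏ p, φ p (A p) := by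
    intro A
    simp only [φ, ψ]
    rw [← Real.exp_sum]
    congr 1
    rw [Finset.sum_comm]
    refine Finset.sum_congr rfl (fun i _ => ?_)
    rw [← Finset.mul_sum]
    congr 1
    rw [Finset.sum_add_distrib, ← Finset.mul_sum, Finset.card_filter, Finset.card_filter]
    push_cast
    rfl
  simp only [h2]
  set F : ι → Y → ℝ := fun i p => if (false, p) ∈ D i then 1 else 0 with hF
  set T : ι → Y → ℝ := fun i p => if (true, p) ∈ D i then 1 else 0 with hT
  have hF0 : ∀ i p, 0 ≤ F i p ∧ F i p ≤ 1 := by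
    intro i p
    simp only [hF]
    split_ifs <;> norm_num
  have hT0 : ∀ i p, 0 ≤ T i p ∧ T i p ≤ 1 := by
    intro i p
    simp only [hT]
    split_ifs <;> norm_num
  have hx : ∀ p, ψ p false = ∑ i ∈ I, lam i * (F i p + (5 / 8) * T i p) := by
    intro p
    simp [ψ, hF, hT]
  have hy : ∀ p, ψ p true = ∑ i ∈ I, lam i * (T i p + (5 / 8) * F i p) := by
    intro p
    simp [ψ, hF, hT]
  have h3 : ∀ p, avg (φ p) ≤ Real.exp ((9 / 10) * ∑ i ∈ I, lam i * (T i p + F i p)) := by
    intro p
    rw [avg_bool]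
    simp only [φ]
    rw [hx, hy]
    have hx1 : 0 ≤ ∑ i ∈ I, lam i * (F i p + (5 / 8) * T i p) :=
      Finset.sum_nonneg (fun i hi => mul_nonneg (h0 i hi) (by linarith [(hF0 i p).1, (hT0 i p).1]))
    have hy1 : 0 ≤ ∑ i ∈ I, lam i * (T i p + (5 / 8) * F i p) :=
      Finset.sum_nonneg (fun i hi => mul_nonneg (h0 i hi) (by linarith [(hF0 i p).1, (hT0 i p).1]))
    have hd : ∑ i ∈ I, lam i * (F i p + (5 / 8) * T i p) - ∑ i ∈ I, lam i * (T i p + (5 / 8) * F i p)
        = (3 / 8) * ∑ i ∈ I, lam i * (F i p - T i p) := by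
      rw [← Finset.sum_sub_distrib, Finset.mul_sum]
      refine Finset.sum_congr rfl (fun i _ => ?_)
      ring
    have hc : |∑ i ∈ I, lam i * (F i p + (5 / 8) * T i p) - ∑ i ∈ I, lam i * (T i p + (5 / 8) * F i p)|
        ≤ 3 / 8 := by
      rw [hd, abs_mul, abs_of_pos (by norm_num : (0 : ℝ) < 3 / 8)]
      have h5 : |∑ i ∈ I, lam i * (F i p - T i p)| ≤ 1 := by
        refine (Finset.abs_sum_le_sum_abs _ _).trans (le_trans (Finset.sum_le_sum (fun i hi => ?_)) h1)
        rw [abs_mul, abs_of_nonneg (h0 i hi)]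
        have h6 : |F i p - T i p| ≤ 1 := by
          rw [abs_le]
          constructor <;> linarith [(hF0 i p).1, (hF0 i p).2, (hT0 i p).1, (hT0 i p).2]
        have := h0 i hi
        nlinarith
      nlinarith
    have := exp_avg_le hx1 hy1 hc
    refine this.trans (Real.exp_le_exp.mpr ?_)
    have hs : ∑ i ∈ I, lam i * (F i p + (5 / 8) * T i p) + ∑ i ∈ I, lam i * (T i p + (5 / 8) * F i p)
        = (13 / 8) * ∑ i ∈ I, lam i * (T i p + F i p) := by
      rw [← Finset.sum_add_distrib, Finset.mul_sum]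
      refine Finset.sum_congr rfl (fun i _ => ?_)
      ring
    rw [hs]
    have h7 : 0 ≤ ∑ i ∈ I, lam i * (T i p + F i p) :=
      Finset.sum_nonneg (fun i hi => mul_nonneg (h0 i hi) (by linarith [(hF0 i p).1, (hT0 i p).1]))
    nlinarith
  have h4 := avg_fun_prod_le φ _ (fun p => avg_nonneg (fun a => (Real.exp_pos _).le)) h3
  refine h4.trans (le_of_eq ?_)
  rw [← Real.exp_sum]
  congr 1
  rw [← Finset.mul_sum, Finset.sum_comm]
  congr 1
  refine Finset.sum_congr rfl (fun i _ => ?_)
  rw [← Finset.mul_sum, card_eq_fib_real]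

/-- The two flips together. -/
theorem two_flips_multi (I : Finset ι) (lam : ι → ℝ) (h0 : ∀ i ∈ I, 0 ≤ lam i) (h1 : ∑ i ∈ I, lam i ≤ 1)
    (D : ι → Finset (Bool × Y)) (U : (Y → Bool) → ι → Finset (Bool × Y))
    (hU : ∀ A' i, ((U A' i).card : ℝ) = ((Finset.univ.filter (fun y => (!A' y, y) ∈ D i)).card : ℝ)) :
    avg (fun A' : Y → Bool => avg (fun A : Y → Bool => Real.exp (∑ i ∈ I, lam i *
        (((Finset.univ.filter (fun y => (A' y, y) ∈ D i)).card : ℝ)
          + (((U A' i).filter (fun u => A u.2 ≠ u.1)).card : ℝ)))))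
      ≤ Real.exp ((9 / 10) * ∑ i ∈ I, lam i * ((D i).card : ℝ)) := by
  refine le_trans (avg_mono (fun A' => ?_)) (flip_multi I lam h0 h1 D)
  have h2 : ∀ A : Y → Bool, Real.exp (∑ i ∈ I, lam i *
        (((Finset.univ.filter (fun y => (A' y, y) ∈ D i)).card : ℝ)
          + (((U A' i).filter (fun u => A u.2 ≠ u.1)).card : ℝ)))
      = Real.exp (∑ i ∈ I, lam i * ((Finset.univ.filter (fun y => (A' y, y) ∈ D i)).card : ℝ))
        * Real.exp (∑ i ∈ I, lam i * (((U A' i).filter (fun u => A u.2 ≠ u.1)).card : ℝ)) := by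
    intro A
    rw [← Real.exp_add, ← Finset.sum_add_distrib]
    congr 1
    refine Finset.sum_congr rfl (fun i _ => ?_)
    ring
  simp only [h2]
  rw [avg_mul_left]
  have h3 := thin_multi I lam h0 h1 (U A')
  refine (mul_le_mul_of_nonneg_left h3 (Real.exp_pos _).le).trans (le_of_eq ?_)
  rw [← Real.exp_add]
  congr 1
  rw [Finset.mul_sum, ← Finset.sum_add_distrib]
  refine Finset.sum_congr rfl (fun i _ => ?_)
  rw [hU]
  ring

end flips

section split

variable {Y : Type*} [Fintype Y] [DecidableEq Y]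

/-- The transported set. -/
def Dtt (A' : Y → Bool) (D : Finset (Bool × Y)) : Finset (Bool × Y) :=
  D.map (flipPerm A').symm.toEmbedding

/-- The conjugated permutation. -/
def hhh (A' A : Y → Bool) (t : Perm (Bool × Y)) : Perm (Bool × Y) := flipPerm A * t * flipPerm A'

/-- The points passed to the second side. -/
def Y1s (A' : Y → Bool) (D : Finset (Bool × Y)) : Finset Y :=
  Finset.univ.filter (fun y => (!A' y, y) ∈ D)

/-- The images of the points passed to the second side. -/
def Us (A' : Y → Bool) (t : Perm (Bool × Y)) (D : Finset (Bool × Y)) : Finset (Bool × Y) :=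
  (Y1s A' D).image (fun y => t (!A' y, y))

theorem ffs_inj (A' : Y → Bool) (t : Perm (Bool × Y)) :
    Function.Injective (fun y => t (!A' y, y)) := by
  intro y y' h
  have := t.injective h
  exact (Prod.ext_iff.mp this).2

theorem Us_card (A' : Y → Bool) (t : Perm (Bool × Y)) (D : Finset (Bool × Y)) :
    (Us A' t D).card = (Finset.univ.filter (fun y => (!A' y, y) ∈ D)).card :=
  Finset.card_image_of_injective _ (ffs_inj A' t)

theorem mem_Dtt (A' : Y → Bool) (D : Finset (Bool × Y)) (i : Bool) (y : Y) :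
    (i, y) ∈ Dtt A' D ↔ (xor i (A' y), y) ∈ D := by
  simp only [Dtt, Finset.mem_map]
  constructor
  · rintro ⟨z, hz, hzz⟩
    have h2 : z = flipPerm A' (i, y) := by
      rw [← hzz]
      simp [flipPerm]
    rw [h2] at hz
    simpa using hz
  · intro h
    refine ⟨_, h, ?_⟩
    simp [flipPerm]

theorem card_D0_Dtt (A' : Y → Bool) (D : Finset (Bool × Y)) :
    (D0 (Dtt A' D)).card = (Finset.univ.filter (fun y => (A' y, y) ∈ D)).card := by
  congr 1
  ext y
  simp only [D0, Finset.mem_filter, Finset.mem_univ, true_and]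
  rw [mem_Dtt]
  simp

theorem card_D1_Dtt (A' A : Y → Bool) (t : Perm (Bool × Y)) (D : Finset (Bool × Y)) :
    (D1 (hhh A' A t) (Dtt A' D)).card = ((Us A' t D).filter (fun u => A u.2 ≠ u.1)).card := by
  have h2 : (Us A' t D).filter (fun u => A u.2 ≠ u.1)
      = (D1 (hhh A' A t) (Dtt A' D)).image (fun y => t (!A' y, y)) := by
    ext u
    simp only [Us, Finset.mem_filter, Finset.mem_image, D1, Finset.mem_univ, true_and, Y1s]
    constructor
    · rintro ⟨⟨y, hy, rfl⟩, hu⟩
      refine ⟨y, ⟨?_, ?_⟩, rfl⟩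
      · rw [mem_Dtt]; simpa using hy
      · simp only [hhh, Equiv.Perm.mul_apply]
        have h3 : flipPerm A' (true, y) = (!A' y, y) := by simp
        rw [h3]
        generalize t (!A' y, y) = w at hu
        obtain ⟨i, p⟩ := w
        simp only [flipPerm_apply]
        revert hu
        cases i <;> cases A p <;> simp
    · rintro ⟨y, ⟨h3, h4⟩, rfl⟩
      rw [mem_Dtt] at h3
      refine ⟨⟨y, by simpa using h3, rfl⟩, ?_⟩
      simp only [hhh, Equiv.Perm.mul_apply] at h4
      have h5 : flipPerm A' (true, y) = (!A' y, y) := by simp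
      rw [h5] at h4
      generalize t (!A' y, y) = w at h4 ⊢
      obtain ⟨i, p⟩ := w
      simp only [flipPerm_apply] at h4
      revert h4
      cases i <;> cases A p <;> simp
  rw [h2, Finset.card_image_of_injective _ (ffs_inj A' t)]

/-- The pointwise splitting of a test. -/
theorem test_split (A' A : Y → Bool) (s₀ s₁ : Perm Y) (t : Perm (Bool × Y)) (D : Finset (Bool × Y)) :
    cyc (flipPerm A' * (side false s₀ * side true s₁) * flipPerm A * t) D
      ≤ cyc (s₀ * firstRet false (side true s₁ * hhh A' A t)) (D0 (Dtt A' D))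
        + cyc (s₁ * firstRet true (hhh A' A t)) (D1 (hhh A' A t) (Dtt A' D)) := by
  have h1 : flipPerm A' * (side false s₀ * side true s₁) * flipPerm A * t
      = flipPerm A' * (side false s₀ * side true s₁ * hhh A' A t) * (flipPerm A')⁻¹ := by
    simp only [hhh, flipPerm_inv]
    simp only [mul_assoc, flipPerm_mul_self, mul_one]
  rw [h1, cyc_conj]
  exact cyc_split _ _ _ _

end split

end Vale.Agent.Lib.P162
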