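import Vale.Agent.Lib.P162.NTup
import Vale.Agent.Lib.P162.Dir

/-! The reversal symmetry of the network and the row bounds. -/

namespace Vale.Agent.Lib.P162

open Equiv Finset Matrix

set_option linter.unusedSectionVars false

section rev

variable {E : Type*} [NormedAddCommGroup E] [InnerProductSpace ℝ E] {D : ℕ}

/-- The reversal of coordinates. -/
def revP (D : ℕ) : Perm (Cube D) where
  toFun x := fun i => x (Fin.rev i)
  invFun x := fun i => x (Fin.rev i)
  left_inv := by
    intro x
    funext i
    simp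
  right_inv := by
    intro x
    funext i
    simp

theorem revP_apply (x : Cube D) (i : Fin D) : revP D x i = x (Fin.rev i) := rfl

theorem revP_inv : (revP D)⁻¹ = revP D := rfl

theorem revP_toggle (i : Fin D) (x : Cube D) : revP D (toggle i x) = toggle (Fin.rev i) (revP D x) := by
  funext k
  rw [revP_apply]
  unfold toggle
  by_cases h : k = Fin.rev i
  · subst h
    simp [revP_apply]
  · have h2 : Fin.rev k ≠ i := by
      intro h3
      apply h
      rw [← h3, Fin.rev_rev]
    rw [Function.update_of_ne h2, Function.update_of_ne h, revP_apply]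

theorem revP_clearBit (i : Fin D) (x : Cube D) :
    revP D (clearBit i x) = clearBit (Fin.rev i) (revP D x) := by
  funext k
  rw [revP_apply]
  unfold clearBit
  by_cases h : k = Fin.rev i
  · subst h
    simp
  · have h2 : Fin.rev k ≠ i := by
      intro h3
      apply h
      rw [← h3, Fin.rev_rev]
    rw [Function.update_of_ne h2, Function.update_of_ne h, revP_apply]

theorem revP_mul_flipAt (i : Fin D) (c : Cube D → Bool) :
    revP D * flipAt i c = flipAt (Fin.rev i) (c ∘ revP D) * revP D := by
  ext1 x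
  simp only [Equiv.Perm.mul_apply, flipAt_apply, Function.comp]
  have h1 : revP D (clearBit (Fin.rev i) (revP D x)) = clearBit i x := by
    rw [← revP_clearBit]
    funext k
    simp [revP_apply]
  simp only [h1]
  split_ifs
  · exact revP_toggle i x
  · rfl

theorem revP_mul_Tdir (π : Perm (Cube D) →* (E →L[ℝ] E)) (i : Fin D) :
    π (revP D) * Tdir π i = Tdir π (Fin.rev i) * π (revP D) := by
  unfold Tdir
  rw [mul_smul_comm, smul_mul_assoc, Finset.mul_sum, Finset.sum_mul]
  congr 1
  have h1 : ∀ c : Cube D → Bool, π (revP D) * π (flipAt i c)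
      = π (flipAt (Fin.rev i) (c ∘ revP D)) * π (revP D) := by
    intro c
    rw [← map_mul, ← map_mul, revP_mul_flipAt]
  simp only [h1]
  exact Equiv.sum_comp ((revP D).arrowCongr (Equiv.refl Bool)).symm
    (fun c : Cube D → Bool => π (flipAt (Fin.rev i) c) * π (revP D))

theorem symOp_Tdir {π : Perm (Cube D) →* (E →L[ℝ] E)} (hπ : IsOrth π) (i : Fin D) :
    SymOp (Tdir π i) := by
  unfold Tdir
  refine SymOp.smul _ (SymOp.sum _ _ (fun c _ => ?_))
  intro x y
  rw [inner_pi_left hπ]
  rfl

theorem PrT_last {A : Type*} [Monoid A] (D : ℕ) (T : Fin (D + 1) → A) :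
    PrT (D + 1) T = T (Fin.last D) * PrT D (fun i => T i.castSucc) := by
  induction D with
  | zero => simp [PrT]
  | succ D ih =>
    have h1 : PrT (D + 1 + 1) T = PrT (D + 1) (fun i => T i.succ) * T 0 := rfl
    have h2 : PrT (D + 1) (fun i => T i.castSucc)
        = PrT D (fun i => T i.castSucc.succ) * T (Fin.castSucc 0) := rfl
    rw [h1, h2, ih, mul_assoc]
    rfl

theorem PrT_semiconj {A : Type*} [Monoid A] (D : ℕ) (a : A) (T T' : Fin D → A)
    (h : ∀ i, a * T i = T' i * a) : a * PrT D T = PrT D T' * a := by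
  induction D with
  | zero => simp [PrT]
  | succ D ih =>
    have h1 : ∀ U : Fin (D + 1) → A, PrT (D + 1) U = PrT D (fun i => U i.succ) * U 0 := fun _ => rfl
    rw [h1, h1, ← mul_assoc, ih _ _ (fun i => h i.succ), mul_assoc, h 0, mul_assoc]

theorem PrT_adj (D : ℕ) (T : Fin D → E →L[ℝ] E) (hT : ∀ i, SymOp (T i)) (u v : E) :
    inner ℝ (PrT D T u) v = inner ℝ u (PrT D (fun i => T (Fin.rev i)) v) := by
  induction D generalizing u v with
  | zero => rfl
  | succ D ih =>
    have h1 : PrT (D + 1) T u = PrT D (fun i => T i.succ) (T 0 u) := rfl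
    rw [h1, ih (fun i => T i.succ) (fun i => hT _), hT 0]
    have h2 : T (Fin.rev (Fin.last D)) = T 0 := by
      rw [Fin.rev_last]
    have h3 : (fun i : Fin D => T (Fin.rev i.castSucc)) = fun i => T (Fin.rev i).succ := by
      funext i
      rw [Fin.rev_castSucc]
    have h4 : PrT (D + 1) (fun i => T (Fin.rev i)) = T 0 * PrT D (fun i => T (Fin.rev i).succ) := by
      rw [PrT_last, h2, h3]
    rw [h4]
    rfl

/-- The reversal symmetry of the network operator. -/
theorem inner_Rop_rev {π : Perm (Cube D) →* (E →L[ℝ] E)} (hπ : IsOrth π) (u v : E) :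
    inner ℝ (Rop D π u) v = inner ℝ u (π (revP D) (Rop D π (π (revP D) v))) := by
  rw [Rop_eq_PrT, PrT_adj D (Tdir π) (symOp_Tdir hπ)]
  congr 1
  have h1 := PrT_semiconj D (π (revP D)) (Tdir π) (fun i => Tdir π (Fin.rev i))
    (fun i => revP_mul_Tdir π i)
  have h2 : π (revP D) (PrT D (Tdir π) (π (revP D) v))
      = (π (revP D) * PrT D (Tdir π)) (π (revP D) v) := rfl
  rw [h2, h1]
  change _ = PrT D (fun i => Tdir π (Fin.rev i)) (π (revP D) (π (revP D) v))
  have h3 : π (revP D) (π (revP D) v) = v := by
    have := pi_inv_apply π (revP D) v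
    rwa [revP_inv] at this
  rw [h3]

end rev

section matrix

variable {ι : Type*} [Fintype ι] [LinearOrder ι] {D : ℕ}

/-- Point masses on tuples. -/
noncomputable def deltaT (y : ι ↪ Cube D) : TupE ι (Cube D) := EuclideanSpace.single y (1 : ℝ)

theorem deltaT_apply (y a : ι ↪ Cube D) : deltaT y a = if a = y then 1 else 0 := by
  simp [deltaT]

theorem mulVec_deltaT (K : Matrix (ι ↪ Cube D) (ι ↪ Cube D) ℝ) (a y : ι ↪ Cube D) :
    K.mulVec (deltaT y) a = K a y := by
  simp only [Matrix.mulVec, dotProduct, deltaT_apply]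
  simp

theorem inner_deltaT (y : ι ↪ Cube D) (f : TupE ι (Cube D)) : inner ℝ (deltaT y) f = f y := by
  simp [deltaT, EuclideanSpace.inner_single_left]

theorem inner_deltaT' (y : ι ↪ Cube D) (f : TupE ι (Cube D)) : inner ℝ f (deltaT y) = f y := by
  rw [real_inner_comm, inner_deltaT]

theorem piT_deltaT (g : Perm (Cube D)) (a : ι ↪ Cube D) : piT g (deltaT a) = deltaT (actE g a) := by
  ext z
  rw [piT_apply, deltaT_apply, deltaT_apply]
  have : (actE g).symm z = a ↔ z = actE g a := by
    constructor
    · rintro rfl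
      simp
    · rintro rfl
      simp
  simp only [this]

/-- The reversal symmetry of the matrix. -/
theorem Rm_rev (a y : ι ↪ Cube D) :
    Rm ι D a y = Rm ι D (actE (revP D) y) (actE (revP D) a) := by
  have h := inner_Rop_rev (D := D) (isOrth_piT (ι := ι) (Q := Cube D)) (deltaT y) (deltaT a)
  rw [inner_deltaT', inner_deltaT, Rop_piT_apply, mulVec_deltaT, piT_apply, Rop_piT_apply,
    piT_deltaT, mulVec_deltaT] at h
  rw [h]
  rfl

/-- The other symmetrised matrix in terms of the first. -/
theorem Rm_sym_rev (x y : ι ↪ Cube D) :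
    (Rm ι D * (Rm ι D)ᵀ) x y
      = ((Rm ι D)ᵀ * Rm ι D) (actE (revP D) x) (actE (revP D) y) := by
  rw [Matrix.mul_apply, Matrix.mul_apply]
  simp only [Matrix.transpose_apply]
  rw [← Equiv.sum_comp (actE (revP D))]
  refine Finset.sum_congr rfl (fun a _ => ?_)
  rw [Rm_rev x (actE (revP D) a), Rm_rev y (actE (revP D) a)]
  have h : actE (ι := ι) (revP D) (actE (revP D) a) = a := by
    ext c i
    simp [revP_apply]
  rw [h]

end matrix

end Vale.Agent.Lib.P162
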