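import Vale.Agent.Lib.P162.NClu

/-! The estimate for flat functions with vanishing marginals. -/

namespace Vale.Agent.Lib.P162

open Equiv Finset

set_option linter.unusedSectionVars false

open scoped Classical

variable {ι : Type*} [Fintype ι] [LinearOrder ι] {D : ℕ}

/-- The points which interact with another point. -/
noncomputable def JJ (D : ℕ) (x w : ι → Cube D) : Finset ι :=
  Finset.univ.filter (fun c => ∃ b, b ≠ c ∧ kap D (x c) (x b) (w c) (w b) ≠ 1)

/-- The set of indices labelled `true`. -/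
noncomputable def Rof (ρ : ι → Bool) : Finset ι := Finset.univ.filter (fun c => ρ c = true)

theorem exists_ge_avg {Ω : Type*} [Fintype Ω] [Nonempty Ω] (g : Ω → ℝ) : ∃ ω, avg g ≤ g ω := by
  by_contra h
  push Not at h
  have h1 : ∑ ω, g ω < ∑ _ω : Ω, avg g :=
    Finset.sum_lt_sum_of_nonempty Finset.univ_nonempty (fun ω _ => h ω)
  have hN : (0 : ℝ) < Fintype.card Ω := card_pos_real
  rw [Finset.sum_const, Finset.card_univ, nsmul_eq_mul] at h1
  unfold avg at h1
  rw [mul_div_cancel₀ _ hN.ne'] at h1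
  exact lt_irrefl _ h1

theorem avg_pair {a b : ι} (hab : a ≠ b) :
    avg (fun ρ : ι → Bool => ind (ρ a = true ∧ ρ b = false)) = 1 / 4 := by
  have h1 : ∀ ρ : ι → Bool, ind (ρ a = true ∧ ρ b = false) = ind (ρ a = true) * ind (ρ b = false) :=
    fun ρ => ind_and _ _
  simp only [h1]
  rw [avg_flip_half a true (fun ρ => ind (ρ b = false)) (by
    intro A β
    rw [Function.update_of_ne hab.symm])]
  have h2 := avg_flip_half b false (fun _ : ι → Bool => (1 : ℝ)) (fun _ _ => rfl)
  simp only [mul_one] at h2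
  rw [h2, avg_const]
  norm_num

/-- Covering the event that many points interact. -/
theorem big_cover (x w : ι → Cube D) (hbig : Fintype.card ι ≤ 2 * (JJ D x w).card) :
    1 ≤ ∑ ρ : ι → Bool, ∑ W ∈ Finset.powersetCard ((Fintype.card ι + 7) / 8) (Finset.univ : Finset ι),
      ind (W ⊆ Rof ρ) * ∏ a ∈ W, ind (First D (Rof ρ) Finset.univ x w a) := by
  have hf : ∀ a, ∃ b, a ∈ JJ D x w → b ≠ a ∧ kap D (x a) (x b) (w a) (w b) ≠ 1 ∧
      ∀ c, c ≠ a → kap D (x a) (x c) (w a) (w c) ≠ 1 → hh D (x a) (x b) ≤ hh D (x a) (x c) := by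
    intro a
    by_cases ha : a ∈ JJ D x w
    · obtain ⟨b₀, hb₀, hb₀'⟩ := (Finset.mem_filter.mp ha).2
      have hne : (Finset.univ.filter (fun b => b ≠ a ∧ kap D (x a) (x b) (w a) (w b) ≠ 1)).Nonempty :=
        ⟨b₀, Finset.mem_filter.mpr ⟨Finset.mem_univ _, hb₀, hb₀'⟩⟩
      obtain ⟨b, hb, hmin⟩ := Finset.exists_min_image _ (fun b => hh D (x a) (x b)) hne
      have hb' := (Finset.mem_filter.mp hb).2
      refine ⟨b, fun _ => ⟨hb'.1, hb'.2, fun c hc hc' => ?_⟩⟩
      exact hmin c (Finset.mem_filter.mpr ⟨Finset.mem_univ _, hc, hc'⟩)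
    · exact ⟨a, fun h => absurd h ha⟩
  choose f hf using hf
  let g : (ι → Bool) → ℝ := fun ρ => ∑ a ∈ JJ D x w, ind (ρ a = true ∧ ρ (f a) = false)
  have hg : avg g = ((JJ D x w).card : ℝ) / 4 := by
    simp only [g]
    rw [avg_sum]
    have h1 : ∀ a ∈ JJ D x w, avg (fun ρ : ι → Bool => ind (ρ a = true ∧ ρ (f a) = false)) = 1 / 4 :=
      fun a ha => avg_pair (hf a ha).1.symm
    rw [Finset.sum_congr rfl h1, Finset.sum_const, nsmul_eq_mul]
    ring
  obtain ⟨ρ, hρ⟩ := exists_ge_avg g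
  rw [hg] at hρ
  set A := (JJ D x w).filter (fun a => ρ a = true ∧ ρ (f a) = false) with hA
  have hgA : g ρ = (A.card : ℝ) := by
    simp only [g, hA]
    rw [Finset.card_filter]
    push_cast
    rfl
  rw [hgA, div_le_iff₀ (by norm_num)] at hρ
  have hρ' : (JJ D x w).card ≤ A.card * 4 := by exact_mod_cast hρ
  have hw₀ : (Fintype.card ι + 7) / 8 ≤ A.card := by omega
  obtain ⟨W, hWA, hWc⟩ := Finset.exists_subset_card_eq hw₀
  have hWmem : W ∈ Finset.powersetCard ((Fintype.card ι + 7) / 8) (Finset.univ : Finset ι) :=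
    Finset.mem_powersetCard.mpr ⟨Finset.subset_univ _, hWc⟩
  have hterm : ind (W ⊆ Rof ρ) * ∏ a ∈ W, ind (First D (Rof ρ) Finset.univ x w a) = 1 := by
    have h1 : W ⊆ Rof ρ := by
      intro a ha
      have := (Finset.mem_filter.mp (hWA ha)).2.1
      exact Finset.mem_filter.mpr ⟨Finset.mem_univ _, this⟩
    rw [ind_true' h1, one_mul]
    refine Finset.prod_eq_one (fun a ha => ind_true' ?_)
    have h2 := Finset.mem_filter.mp (hWA ha)
    obtain ⟨h3, h4, h5⟩ := hf a h2.1
    refine ⟨f a, ?_, h3, h4, fun c _ hc h6 => h5 c hc h6⟩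
    intro h7
    have := (Finset.mem_filter.mp h7).2
    rw [h2.2.2] at this
    exact absurd this (by simp)
  have hnn : ∀ (ρ' : ι → Bool) (W' : Finset ι),
      0 ≤ ind (W' ⊆ Rof ρ') * ∏ a ∈ W', ind (First D (Rof ρ') Finset.univ x w a) := fun _ _ =>
    mul_nonneg (ind_nonneg _) (Finset.prod_nonneg (fun _ _ => ind_nonneg _))
  calc (1 : ℝ) = ind (W ⊆ Rof ρ) * ∏ a ∈ W, ind (First D (Rof ρ) Finset.univ x w a) := hterm.symm
    _ ≤ ∑ W' ∈ Finset.powersetCard ((Fintype.card ι + 7) / 8) (Finset.univ : Finset ι),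
        ind (W' ⊆ Rof ρ) * ∏ a ∈ W', ind (First D (Rof ρ) Finset.univ x w a) :=
        Finset.single_le_sum (f := fun W' => ind (W' ⊆ Rof ρ) * ∏ a ∈ W', ind (First D (Rof ρ) Finset.univ x w a))
          (fun W' _ => hnn ρ W') hWmem
    _ ≤ _ := Finset.single_le_sum (f := fun ρ' : ι → Bool => ∑ W' ∈ Finset.powersetCard ((Fintype.card ι + 7) / 8) (Finset.univ : Finset ι),
        ind (W' ⊆ Rof ρ') * ∏ a ∈ W', ind (First D (Rof ρ') Finset.univ x w a))
        (fun ρ' _ => Finset.sum_nonneg (fun W' _ => hnn ρ' W')) (Finset.mem_univ ρ)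

/-- The size of the event that many points interact, weighted by the pair weights. -/
theorem big_bound (V : Finset ι) :
    ∑ x : ι → Cube D, ∑ w : ι → Cube D,
        ind (Fintype.card ι ≤ 2 * (JJ D x w).card) * PP V (pr D x w)
      ≤ ((2 : ℝ) ^ Fintype.card ι * (2 : ℝ) ^ Fintype.card ι)
        * (qq ι D ^ ((Fintype.card ι + 7) / 8) * ((2 : ℝ) ^ D) ^ (2 * Fintype.card ι)) := by
  set w₀ := (Fintype.card ι + 7) / 8 with hw₀
  set Bd := qq ι D ^ w₀ * ((2 : ℝ) ^ D) ^ (2 * Fintype.card ι) with hBd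
  have hBd0 : 0 ≤ Bd := mul_nonneg (pow_nonneg qq_nonneg _) (by positivity)
  have h1 : ∀ x w : ι → Cube D, ind (Fintype.card ι ≤ 2 * (JJ D x w).card) * PP V (pr D x w)
      ≤ ∑ ρ : ι → Bool, ∑ W ∈ Finset.powersetCard w₀ (Finset.univ : Finset ι),
        ind (W ⊆ Rof ρ) * ((∏ a ∈ W, ind (First D (Rof ρ) Finset.univ x w a)) * PP V (pr D x w)) := by
    intro x w
    have hP : 0 ≤ PP V (pr D x w) := PP_nonneg (pr_nonneg D x w)
    by_cases hb : Fintype.card ι ≤ 2 * (JJ D x w).card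
    · rw [ind_true' hb, one_mul]
      have h2 := mul_le_mul_of_nonneg_right (big_cover x w hb) hP
      rw [one_mul] at h2
      refine h2.trans (le_of_eq ?_)
      rw [Finset.sum_mul]
      refine Finset.sum_congr rfl (fun ρ _ => ?_)
      rw [Finset.sum_mul]
      refine Finset.sum_congr rfl (fun W _ => ?_)
      ring
    · rw [ind_false' hb, zero_mul]
      refine Finset.sum_nonneg (fun ρ _ => Finset.sum_nonneg (fun W _ => ?_))
      exact mul_nonneg (ind_nonneg _) (mul_nonneg (Finset.prod_nonneg (fun _ _ => ind_nonneg _)) hP)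
  have h2 : ∀ (ρ : ι → Bool) (W : Finset ι), W ∈ Finset.powersetCard w₀ (Finset.univ : Finset ι) →
      ∑ x : ι → Cube D, ∑ w : ι → Cube D,
        ind (W ⊆ Rof ρ) * ((∏ a ∈ W, ind (First D (Rof ρ) Finset.univ x w a)) * PP V (pr D x w)) ≤ Bd := by
    intro ρ W hW
    have hcard := (Finset.mem_powersetCard.mp hW).2
    by_cases hsub : W ⊆ Rof ρ
    · simp only [ind_true' hsub, one_mul]
      have := cluster_fixed (D := D) (Rof ρ) W V hsub
      rwa [hcard] at this
    · simp only [ind_false' hsub, zero_mul]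
      simpa using hBd0
  calc _ ≤ ∑ x : ι → Cube D, ∑ w : ι → Cube D, ∑ ρ : ι → Bool, ∑ W ∈ Finset.powersetCard w₀ (Finset.univ : Finset ι),
        ind (W ⊆ Rof ρ) * ((∏ a ∈ W, ind (First D (Rof ρ) Finset.univ x w a)) * PP V (pr D x w)) :=
        Finset.sum_le_sum (fun x _ => Finset.sum_le_sum (fun w _ => h1 x w))
    _ = ∑ ρ : ι → Bool, ∑ W ∈ Finset.powersetCard w₀ (Finset.univ : Finset ι), ∑ x : ι → Cube D, ∑ w : ι → Cube D,
        ind (W ⊆ Rof ρ) * ((∏ a ∈ W, ind (First D (Rof ρ) Finset.univ x w a)) * PP V (pr D x w)) := by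
        have e1 : ∀ x : ι → Cube D, ∑ w : ι → Cube D, ∑ ρ : ι → Bool, ∑ W ∈ Finset.powersetCard w₀ (Finset.univ : Finset ι),
            ind (W ⊆ Rof ρ) * ((∏ a ∈ W, ind (First D (Rof ρ) Finset.univ x w a)) * PP V (pr D x w))
            = ∑ ρ : ι → Bool, ∑ W ∈ Finset.powersetCard w₀ (Finset.univ : Finset ι), ∑ w : ι → Cube D,
            ind (W ⊆ Rof ρ) * ((∏ a ∈ W, ind (First D (Rof ρ) Finset.univ x w a)) * PP V (pr D x w)) := by
          intro x
          rw [Finset.sum_comm]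
          refine Finset.sum_congr rfl (fun ρ _ => ?_)
          rw [Finset.sum_comm]
        simp only [e1]
        rw [Finset.sum_comm]
        refine Finset.sum_congr rfl (fun ρ _ => ?_)
        rw [Finset.sum_comm]
    _ ≤ ∑ _ρ : ι → Bool, ∑ _W ∈ Finset.powersetCard w₀ (Finset.univ : Finset ι), Bd :=
        Finset.sum_le_sum (fun ρ _ => Finset.sum_le_sum (fun W hW => h2 ρ W hW))
    _ ≤ _ := by
        simp only [Finset.sum_const, nsmul_eq_mul, Finset.card_powersetCard, Finset.card_univ,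
          Fintype.card_fun, Fintype.card_bool]
        push_cast
        rw [mul_assoc]
        refine mul_le_mul_of_nonneg_left ?_ (by positivity)
        refine mul_le_mul_of_nonneg_right ?_ hBd0
        exact_mod_cast Nat.choose_le_two_pow _ _


/-- Adding a point which interacts with nothing does not change the product. -/
theorem PP_insert_free {V : Finset ι} {c : ι} (hc : c ∉ V) {x w : ι → Cube D}
    (h : c ∉ JJ D x w) : PP (insert c V) (pr D x w) = PP V (pr D x w) := by
  rw [PP_insert hc (pr_symm D x w)]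
  have : ∏ b ∈ V, pr D x w c b = 1 := by
    refine Finset.prod_eq_one (fun b hb => ?_)
    by_contra hne
    apply h
    refine Finset.mem_filter.mpr ⟨Finset.mem_univ _, b, fun h => hc (h ▸ hb), hne⟩
  rw [this, mul_one]

/-- The signed sum of products. -/
noncomputable def Pic (D : ℕ) (x y w : ι → Cube D) : ℝ :=
  ∑ V : Finset ι, (-1 : ℝ) ^ V.card * (PP V (pr D x w) * PP V (pr D y w))

/-- The signed sum vanishes when one point interacts with nothing. -/
theorem Pic_eq_zero {x y w : ι → Cube D} {c : ι} (hx : c ∉ JJ D x w) (hy : c ∉ JJ D y w) :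
    Pic D x y w = 0 := by
  unfold Pic
  refine Finset.sum_involution (fun V _ => if c ∈ V then V.erase c else insert c V) ?_ ?_ ?_ ?_
  · intro V _
    by_cases hV : c ∈ V
    · rw [if_pos hV]
      have hV' : c ∉ V.erase c := Finset.notMem_erase c V
      have hins : insert c (V.erase c) = V := Finset.insert_erase hV
      have h1 := PP_insert_free hV' hx
      have h2 := PP_insert_free hV' hy
      rw [hins] at h1 h2
      rw [h1, h2]
      have hcard : V.card = (V.erase c).card + 1 := by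
        rw [Finset.card_erase_of_mem hV]
        have : 0 < V.card := Finset.card_pos.mpr ⟨c, hV⟩
        omega
      rw [hcard, pow_succ]
      ring
    · rw [if_neg hV, PP_insert_free hV hx, PP_insert_free hV hy, Finset.card_insert_of_notMem hV,
        pow_succ]
      ring
  · intro V _ _ h
    by_cases hV : c ∈ V
    · rw [if_pos hV] at h
      rw [← h] at hV
      exact Finset.notMem_erase c V hV
    · rw [if_neg hV] at h
      rw [← h] at hV
      exact hV (Finset.mem_insert_self c V)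
  · intro V _
    exact Finset.mem_univ _
  · intro V _
    by_cases hV : c ∈ V
    · simp only [if_pos hV, Finset.notMem_erase, if_false, Finset.insert_erase hV]
    · simp [if_neg hV, hV]

/-- The bound for the signed sum. -/
theorem abs_Pic_le (x y w : ι → Cube D) :
    |Pic D x y w| ≤ (ind (Fintype.card ι ≤ 2 * (JJ D x w).card) + ind (Fintype.card ι ≤ 2 * (JJ D y w).card))
      * ∑ V : Finset ι, PP V (pr D x w) * PP V (pr D y w) := by
  have hS0 : 0 ≤ ∑ V : Finset ι, PP V (pr D x w) * PP V (pr D y w) :=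
    Finset.sum_nonneg (fun V _ => mul_nonneg (PP_nonneg (pr_nonneg D x w)) (PP_nonneg (pr_nonneg D y w)))
  have hle : |Pic D x y w| ≤ ∑ V : Finset ι, PP V (pr D x w) * PP V (pr D y w) := by
    unfold Pic
    refine (Finset.abs_sum_le_sum_abs _ _).trans (Finset.sum_le_sum (fun V _ => ?_))
    rw [abs_mul, abs_pow, abs_neg, abs_one, one_pow, one_mul,
      abs_of_nonneg (mul_nonneg (PP_nonneg (pr_nonneg D x w)) (PP_nonneg (pr_nonneg D y w)))]
  by_cases hx : Fintype.card ι ≤ 2 * (JJ D x w).card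
  · rw [ind_true' hx]
    have := ind_nonneg (Fintype.card ι ≤ 2 * (JJ D y w).card)
    nlinarith
  by_cases hy : Fintype.card ι ≤ 2 * (JJ D y w).card
  · rw [ind_true' hy]
    have := ind_nonneg (Fintype.card ι ≤ 2 * (JJ D x w).card)
    nlinarith
  rw [ind_false' hx, ind_false' hy]
  have hex : ∃ c, c ∉ JJ D x w ∧ c ∉ JJ D y w := by
    by_contra hcon
    push Not at hcon
    have h1 : (Finset.univ : Finset ι) ⊆ JJ D x w ∪ JJ D y w := by
      intro c _
      by_cases hc : c ∈ JJ D x w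
      · exact Finset.mem_union_left _ hc
      · exact Finset.mem_union_right _ (hcon c hc)
    have h2 := Finset.card_le_card h1
    have h3 := Finset.card_union_le (JJ D x w) (JJ D y w)
    rw [Finset.card_univ] at h2
    omega
  obtain ⟨c, h1, h2⟩ := hex
  rw [Pic_eq_zero h1 h2]
  simp

/-- The sum against a product of pair weights. -/
noncomputable def SV (D : ℕ) (g : (ι → Cube D) → ℝ) (V : Finset ι) (w : ι → Cube D) : ℝ :=
  ∑ x, g x * PP V (pr D x w)

/-- The sum vanishes unless all points are involved. -/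
theorem SV_eq_zero {g : (ι → Cube D) → ℝ} (hmarg : ∀ x c, ∑ t, g (Function.update x c t) = 0)
    {V : Finset ι} (hV : V ≠ Finset.univ) (w : ι → Cube D) : SV D g V w = 0 := by
  obtain ⟨c, hc⟩ : ∃ c, c ∉ V := by
    by_contra hcon
    push Not at hcon
    exact hV (Finset.eq_univ_iff_forall.mpr hcon)
  unfold SV
  rw [sum_update_avg c]
  refine Finset.sum_eq_zero (fun x _ => ?_)
  have h1 : ∀ t, g (Function.update x c t) * PP V (pr D (Function.update x c t) w)
      = g (Function.update x c t) * PP V (pr D x w) := by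
    intro t
    congr 1
    refine PP_congr (fun b hb d hd => ?_)
    have hb' : b ≠ c := fun h => hc (h ▸ hb)
    have hd' : d ≠ c := fun h => hc (h ▸ hd)
    unfold pr
    rw [Function.update_of_ne hb', Function.update_of_ne hd']
  simp only [h1]
  rw [← Finset.sum_mul, hmarg, zero_mul, mul_zero]

theorem SV_univ_sq {g : (ι → Cube D) → ℝ} (hmarg : ∀ x c, ∑ t, g (Function.update x c t) = 0)
    (w : ι → Cube D) :
    (SV D g Finset.univ w) ^ 2 = (-1 : ℝ) ^ Fintype.card ι * ∑ x, ∑ y, g x * g y * Pic D x y w := by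
  have h1 : ∑ V : Finset ι, (-1 : ℝ) ^ V.card * (SV D g V w) ^ 2
      = (-1 : ℝ) ^ Fintype.card ι * (SV D g Finset.univ w) ^ 2 := by
    rw [Finset.sum_eq_single Finset.univ]
    · rw [Finset.card_univ]
    · intro V _ hV
      rw [SV_eq_zero hmarg hV w]
      simp
    · intro h
      exact absurd (Finset.mem_univ _) h
  have h2 : ∑ V : Finset ι, (-1 : ℝ) ^ V.card * (SV D g V w) ^ 2
      = ∑ x, ∑ y, g x * g y * Pic D x y w := by
    have e : ∀ V : Finset ι, (-1 : ℝ) ^ V.card * (SV D g V w) ^ 2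
        = ∑ x, ∑ y, g x * g y * ((-1 : ℝ) ^ V.card * (PP V (pr D x w) * PP V (pr D y w))) := by
      intro V
      unfold SV
      rw [sq, Finset.sum_mul_sum, Finset.mul_sum]
      refine Finset.sum_congr rfl (fun x _ => ?_)
      rw [Finset.mul_sum]
      refine Finset.sum_congr rfl (fun y _ => ?_)
      ring
    simp only [e]
    rw [Finset.sum_comm]
    refine Finset.sum_congr rfl (fun x _ => ?_)
    rw [Finset.sum_comm]
    refine Finset.sum_congr rfl (fun y _ => ?_)
    unfold Pic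
    rw [Finset.mul_sum]
  rw [← h2, h1, ← mul_assoc, ← mul_pow]
  norm_num

/-- The main sum, for fixed `w`. -/
theorem SV_univ_sq_le {g : (ι → Cube D) → ℝ} (hmarg : ∀ x c, ∑ t, g (Function.update x c t) = 0)
    {G : ℝ} (hG : ∀ x, |g x| ≤ G) (w : ι → Cube D) :
    (SV D g Finset.univ w) ^ 2 ≤ G ^ 2 * ∑ V : Finset ι,
      (2 * ((2 : ℝ) ^ D) ^ Fintype.card ι) * ∑ x, ind (Fintype.card ι ≤ 2 * (JJ D x w).card) * PP V (pr D x w) := by
  have hG0 : 0 ≤ G := (abs_nonneg _).trans (hG w)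
  rw [SV_univ_sq hmarg]
  have hA : ∀ V : Finset ι, 0 ≤ ∑ x, ind (Fintype.card ι ≤ 2 * (JJ D x w).card) * PP V (pr D x w) :=
    fun V => Finset.sum_nonneg (fun x _ => mul_nonneg (ind_nonneg _) (PP_nonneg (pr_nonneg D x w)))
  have hB := fun V => sum_PP_le D V w
  have hB0 : ∀ V : Finset ι, 0 ≤ ∑ y : ι → Cube D, PP V (pr D y w) :=
    fun V => Finset.sum_nonneg (fun y _ => PP_nonneg (pr_nonneg D y w))
  have h1 : ∀ x y, (-1 : ℝ) ^ Fintype.card ι * (g x * g y * Pic D x y w)
      ≤ G ^ 2 * ((ind (Fintype.card ι ≤ 2 * (JJ D x w).card) + ind (Fintype.card ι ≤ 2 * (JJ D y w).card))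
      * ∑ V : Finset ι, PP V (pr D x w) * PP V (pr D y w)) := by
    intro x y
    refine (le_abs_self _).trans ?_
    rw [abs_mul, abs_mul, abs_mul, abs_pow, abs_neg, abs_one, one_pow, one_mul]
    have h2 : |g x| * |g y| ≤ G ^ 2 := by
      rw [sq]
      exact mul_le_mul (hG x) (hG y) (abs_nonneg _) hG0
    exact mul_le_mul h2 (abs_Pic_le x y w) (abs_nonneg _) (by positivity)
  have h3 : (-1 : ℝ) ^ Fintype.card ι * ∑ x, ∑ y, g x * g y * Pic D x y w
      ≤ ∑ x, ∑ y, G ^ 2 * ((ind (Fintype.card ι ≤ 2 * (JJ D x w).card) + ind (Fintype.card ι ≤ 2 * (JJ D y w).card))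
      * ∑ V : Finset ι, PP V (pr D x w) * PP V (pr D y w)) := by
    rw [Finset.mul_sum]
    refine Finset.sum_le_sum (fun x _ => ?_)
    rw [Finset.mul_sum]
    exact Finset.sum_le_sum (fun y _ => h1 x y)
  -- exchange the order of summation
  have h4 : ∑ x, ∑ y, (ind (Fintype.card ι ≤ 2 * (JJ D x w).card) + ind (Fintype.card ι ≤ 2 * (JJ D y w).card))
      * ∑ V : Finset ι, PP V (pr D x w) * PP V (pr D y w)
      = ∑ V : Finset ι, 2 * ((∑ x, ind (Fintype.card ι ≤ 2 * (JJ D x w).card) * PP V (pr D x w))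
          * ∑ y, PP V (pr D y w)) := by
    have e : ∀ V : Finset ι, 2 * ((∑ x, ind (Fintype.card ι ≤ 2 * (JJ D x w).card) * PP V (pr D x w))
          * ∑ y, PP V (pr D y w))
        = ∑ x, ∑ y, (ind (Fintype.card ι ≤ 2 * (JJ D x w).card) + ind (Fintype.card ι ≤ 2 * (JJ D y w).card))
          * (PP V (pr D x w) * PP V (pr D y w)) := by
      intro V
      have e1 : ∑ x, ∑ y, ind (Fintype.card ι ≤ 2 * (JJ D x w).card) * (PP V (pr D x w) * PP V (pr D y w))
          = ∑ x, ∑ y, ind (Fintype.card ι ≤ 2 * (JJ D y w).card) * (PP V (pr D x w) * PP V (pr D y w)) := by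
        rw [Finset.sum_comm]
        refine Finset.sum_congr rfl (fun x _ => Finset.sum_congr rfl (fun y _ => ?_))
        ring
      have e2 : ∑ x, ∑ y, (ind (Fintype.card ι ≤ 2 * (JJ D x w).card) + ind (Fintype.card ι ≤ 2 * (JJ D y w).card))
          * (PP V (pr D x w) * PP V (pr D y w))
          = ∑ x, ∑ y, ind (Fintype.card ι ≤ 2 * (JJ D x w).card) * (PP V (pr D x w) * PP V (pr D y w))
            + ∑ x, ∑ y, ind (Fintype.card ι ≤ 2 * (JJ D y w).card) * (PP V (pr D x w) * PP V (pr D y w)) := by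
        rw [← Finset.sum_add_distrib]
        refine Finset.sum_congr rfl (fun x _ => ?_)
        rw [← Finset.sum_add_distrib]
        refine Finset.sum_congr rfl (fun y _ => ?_)
        ring
      rw [e2, ← e1, Finset.sum_mul_sum]
      rw [two_mul]
      congr 1 <;> (refine Finset.sum_congr rfl (fun x _ => Finset.sum_congr rfl (fun y _ => ?_)); ring)
    simp only [e]
    have e3 : ∀ f : Finset ι → (ι → Cube D) → (ι → Cube D) → ℝ,
        ∑ V, ∑ x, ∑ y, f V x y = ∑ x, ∑ y, ∑ V, f V x y := by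
      intro f
      rw [Finset.sum_comm]
      refine Finset.sum_congr rfl (fun x _ => ?_)
      rw [Finset.sum_comm]
    rw [e3]
    simp only [Finset.mul_sum]
  refine h3.trans ?_
  have h6 : ∑ x, ∑ y, G ^ 2 * ((ind (Fintype.card ι ≤ 2 * (JJ D x w).card) + ind (Fintype.card ι ≤ 2 * (JJ D y w).card))
      * ∑ V : Finset ι, PP V (pr D x w) * PP V (pr D y w))
      = G ^ 2 * ∑ x, ∑ y, (ind (Fintype.card ι ≤ 2 * (JJ D x w).card) + ind (Fintype.card ι ≤ 2 * (JJ D y w).card))
      * ∑ V : Finset ι, PP V (pr D x w) * PP V (pr D y w) := by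
    simp only [Finset.mul_sum]
  rw [h6, h4]
  have h7 : ∑ V : Finset ι, 2 * ((∑ x, ind (Fintype.card ι ≤ 2 * (JJ D x w).card) * PP V (pr D x w))
        * ∑ y, PP V (pr D y w))
      ≤ ∑ V : Finset ι, (2 * ((2 : ℝ) ^ D) ^ Fintype.card ι)
        * ∑ x, ind (Fintype.card ι ≤ 2 * (JJ D x w).card) * PP V (pr D x w) := by
    refine Finset.sum_le_sum (fun V _ => ?_)
    have h5 := mul_le_mul_of_nonneg_left (hB V) (hA V)
    calc 2 * ((∑ x, ind (Fintype.card ι ≤ 2 * (JJ D x w).card) * PP V (pr D x w)) * ∑ y, PP V (pr D y w))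
        ≤ 2 * ((∑ x, ind (Fintype.card ι ≤ 2 * (JJ D x w).card) * PP V (pr D x w)) * ((2 : ℝ) ^ D) ^ Fintype.card ι) :=
          mul_le_mul_of_nonneg_left h5 (by norm_num)
      _ = _ := by ring
  exact mul_le_mul_of_nonneg_left h7 (sq_nonneg G)

/-- **The estimate for flat functions with vanishing marginals.** -/
theorem sparse_star {g : (ι → Cube D) → ℝ} (hinj : ∀ x, ¬ Function.Injective x → g x = 0)
    (hmarg : ∀ x c, ∑ t, g (Function.update x c t) = 0) {G : ℝ} (hG : ∀ x, |g x| ≤ G) :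
    ∑ w : ι → Cube D, (∑ x, Ev D Finset.univ x w * g x) ^ 2
      ≤ G ^ 2 * (2 * (8 : ℝ) ^ Fintype.card ι * ((2 : ℝ) ^ D) ^ Fintype.card ι
          * qq ι D ^ ((Fintype.card ι + 7) / 8)) := by
  set j := Fintype.card ι with hj
  set n : ℝ := (2 : ℝ) ^ D with hn
  have hn0 : 0 < n := by positivity
  have hG0 : 0 ≤ G := (abs_nonneg _).trans (hG (fun _ => fun _ => false))
  have h1 : ∀ w : ι → Cube D, ∑ x, Ev D Finset.univ x w * g x = (n⁻¹) ^ j * SV D g Finset.univ w := by
    intro w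
    unfold SV
    rw [Finset.mul_sum]
    refine Finset.sum_congr rfl (fun x _ => ?_)
    by_cases hx : Function.Injective x
    · have h5 : (1 / 2 : ℝ) ^ D = n⁻¹ := by rw [hn, one_div, inv_pow]
      rw [Ev_eq D Finset.univ x w (hx.injOn), Finset.card_univ, ← hj, h5]
      ring
    · rw [hinj x hx]
      simp
  have h2 : ∑ w : ι → Cube D, (SV D g Finset.univ w) ^ 2
      ≤ G ^ 2 * ((2 : ℝ) ^ j * ((2 * n ^ j) * (((2 : ℝ) ^ j * (2 : ℝ) ^ j)
        * (qq ι D ^ ((j + 7) / 8) * n ^ (2 * j))))) := by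
    calc ∑ w : ι → Cube D, (SV D g Finset.univ w) ^ 2
        ≤ ∑ w : ι → Cube D, G ^ 2 * ∑ V : Finset ι, (2 * n ^ j)
            * ∑ x, ind (j ≤ 2 * (JJ D x w).card) * PP V (pr D x w) :=
          Finset.sum_le_sum (fun w _ => SV_univ_sq_le hmarg hG w)
      _ = G ^ 2 * ∑ V : Finset ι, (2 * n ^ j) * ∑ x, ∑ w : ι → Cube D, ind (j ≤ 2 * (JJ D x w).card) * PP V (pr D x w) := by
          rw [← Finset.mul_sum]
          congr 1
          rw [Finset.sum_comm]
          refine Finset.sum_congr rfl (fun V _ => ?_)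
          rw [← Finset.mul_sum]
          congr 1
          rw [Finset.sum_comm]
      _ ≤ G ^ 2 * ∑ _V : Finset ι, (2 * n ^ j) * (((2 : ℝ) ^ j * (2 : ℝ) ^ j)
            * (qq ι D ^ ((j + 7) / 8) * n ^ (2 * j))) := by
          refine mul_le_mul_of_nonneg_left (Finset.sum_le_sum (fun V _ => ?_)) (by positivity)
          exact mul_le_mul_of_nonneg_left (big_bound V) (by positivity)
      _ = _ := by
          congr 1
          rw [Finset.sum_const, Finset.card_univ, Fintype.card_finset, nsmul_eq_mul]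
          push_cast
          rfl
  simp only [h1, mul_pow]
  rw [← Finset.mul_sum]
  have h3 : ((n⁻¹) ^ j) ^ 2 * n ^ (2 * j) = 1 := by
    calc ((n⁻¹) ^ j) ^ 2 * n ^ (2 * j) = ((n⁻¹) ^ j * n ^ j) ^ 2 := by
          rw [mul_pow, ← pow_mul n j 2, mul_comm j 2]
      _ = 1 := by
          rw [← mul_pow, inv_mul_cancel₀ hn0.ne']
          simp
  have hq0 : 0 ≤ qq ι D ^ ((j + 7) / 8) := pow_nonneg qq_nonneg _
  calc ((n⁻¹) ^ j) ^ 2 * ∑ w : ι → Cube D, (SV D g Finset.univ w) ^ 2
      ≤ ((n⁻¹) ^ j) ^ 2 * (G ^ 2 * ((2 : ℝ) ^ j * ((2 * n ^ j) * (((2 : ℝ) ^ j * (2 : ℝ) ^ j)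
        * (qq ι D ^ ((j + 7) / 8) * n ^ (2 * j)))))) :=
        mul_le_mul_of_nonneg_left h2 (by positivity)
    _ = (((n⁻¹) ^ j) ^ 2 * n ^ (2 * j)) * (G ^ 2 * (2 * ((2 : ℝ) ^ j * (2 : ℝ) ^ j * (2 : ℝ) ^ j) * n ^ j
        * qq ι D ^ ((j + 7) / 8))) := by ring
    _ = G ^ 2 * (2 * (8 : ℝ) ^ j * n ^ j * qq ι D ^ ((j + 7) / 8)) := by
        rw [h3, one_mul, ← mul_pow, ← mul_pow]
        norm_num

end Vale.Agent.Lib.P162
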