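import Vale.Agent.Lib.P162.NRev
import Vale.Agent.Lib.P162.Chi

/-! The functions on injective tuples with vanishing marginals. -/

namespace Vale.Agent.Lib.P162

open Equiv Finset Matrix

set_option linter.unusedSectionVars false

open scoped Classical

section top

variable {ι Q : Type*} [Fintype ι] [DecidableEq ι] [Fintype Q] [DecidableEq Q]

theorem extZ_add (h k : (ι ↪ Q) → ℝ) (x : ι → Q) :
    extZ (h + k) x = extZ h x + extZ k x := by
  unfold extZ
  split_ifs
  · rfl
  · simp

theorem extZ_smul (c : ℝ) (h : (ι ↪ Q) → ℝ) (x : ι → Q) :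
    extZ (c • h) x = c * extZ h x := by
  unfold extZ
  split_ifs
  · rfl
  · simp

/-- The functions with vanishing marginals. -/
noncomputable def Vtop (ι Q : Type*) [Fintype ι] [DecidableEq ι] [Fintype Q] [DecidableEq Q] :
    Submodule ℝ (TupE ι Q) where
  carrier := {h | ∀ (x : ι → Q) (c : ι), ∑ t, extZ (h : (ι ↪ Q) → ℝ) (Function.update x c t) = 0}
  add_mem' := by
    intro a b ha hb x c
    have h1 : ∀ t, extZ ((a + b : TupE ι Q) : (ι ↪ Q) → ℝ) (Function.update x c t)
        = extZ (a : (ι ↪ Q) → ℝ) (Function.update x c t) + extZ (b : (ι ↪ Q) → ℝ) (Function.update x c t) := by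
      intro t
      exact extZ_add _ _ _
    simp only [h1, Finset.sum_add_distrib]
    rw [ha x c, hb x c, add_zero]
  zero_mem' := by
    intro x c
    refine Finset.sum_eq_zero (fun t _ => ?_)
    unfold extZ
    split_ifs <;> rfl
  smul_mem' := by
    intro r a ha x c
    have h1 : ∀ t, extZ ((r • a : TupE ι Q) : (ι ↪ Q) → ℝ) (Function.update x c t)
        = r * extZ (a : (ι ↪ Q) → ℝ) (Function.update x c t) := by
      intro t
      exact extZ_smul _ _ _
    simp only [h1]
    rw [← Finset.mul_sum, ha x c, mul_zero]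

theorem mem_Vtop {h : TupE ι Q} :
    h ∈ Vtop ι Q ↔ ∀ (x : ι → Q) (c : ι), ∑ t, extZ (h : (ι ↪ Q) → ℝ) (Function.update x c t) = 0 :=
  Iff.rfl

/-- The extension of a translate. -/
theorem extZ_piT (g : Perm Q) (h : TupE ι Q) (x : ι → Q) :
    extZ (piT g h : (ι ↪ Q) → ℝ) x = extZ (h : (ι ↪ Q) → ℝ) (fun c => g⁻¹ (x c)) := by
  unfold extZ
  by_cases hx : Function.Injective x
  · have hx' : Function.Injective (fun c => g⁻¹ (x c)) := fun a b hab =>
      hx ((g⁻¹).injective hab)
    rw [dif_pos hx, dif_pos hx']
    exact piT_apply g h ⟨x, hx⟩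
  · have hx' : ¬ Function.Injective (fun c => g⁻¹ (x c)) := by
      intro h2
      apply hx
      intro a b hab
      exact h2 (by simp [hab])
    rw [dif_neg hx, dif_neg hx']

/-- The subspace is invariant under the representation. -/
theorem piT_mem_Vtop (g : Perm Q) {h : TupE ι Q} (hh : h ∈ Vtop ι Q) : piT g h ∈ Vtop ι Q := by
  intro x c
  simp only [extZ_piT]
  have h1 : ∀ t, (fun c' => g⁻¹ (Function.update x c t c'))
      = Function.update (fun c' => g⁻¹ (x c')) c (g⁻¹ t) := by
    intro t
    funext c'
    by_cases hc : c' = c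
    · subst hc
      simp
    · simp [hc]
  simp only [h1]
  rw [Equiv.sum_comp (g⁻¹) (fun t => extZ (h : (ι ↪ Q) → ℝ) (Function.update (fun c' => g⁻¹ (x c')) c t))]
  exact hh _ c

/-- Inclusion and exclusion for the marginals. -/
theorem van [Nonempty Q] {h : (ι ↪ Q) → ℝ}
    (hz : ∀ (x : ι → Q) (c : ι), ∑ t, extZ h (Function.update x c t) = 0) (E' : Finset Q) :
    ∀ (Fr : Finset ι) (σ : ι → Q), E'.card < Fr.card →
      ∑ x : ι → Q, (ind (∀ c, c ∉ Fr → x c = σ c) * ind (∀ c ∈ Fr, x c ∉ E')) * extZ h x = 0 := by
  induction E' using Finset.induction_on with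
  | empty =>
    intro Fr σ hcard
    have hFr : Fr.Nonempty := by
      rw [← Finset.card_pos]
      exact lt_of_le_of_lt (Nat.zero_le _) hcard
    obtain ⟨c, hc⟩ := hFr
    rw [sum_update_avg c]
    refine Finset.sum_eq_zero (fun x _ => ?_)
    have h1 : ∀ t, (ind (∀ c', c' ∉ Fr → Function.update x c t c' = σ c')
          * ind (∀ c' ∈ Fr, Function.update x c t c' ∉ (∅ : Finset Q)))
          * extZ h (Function.update x c t)
        = ind (∀ c', c' ∉ Fr → x c' = σ c') * extZ h (Function.update x c t) := by
      intro t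
      congr 1
      have hE : ind (∀ c' ∈ Fr, Function.update x c t c' ∉ (∅ : Finset Q)) = 1 :=
        ind_true' (fun _ _ => Finset.notMem_empty _)
      rw [hE, mul_one]
      unfold ind
      have : (∀ c', c' ∉ Fr → Function.update x c t c' = σ c') ↔ ∀ c', c' ∉ Fr → x c' = σ c' := by
        refine forall_congr' (fun c' => forall_congr' (fun hc' => ?_))
        have hne : c' ≠ c := fun h => hc' (h ▸ hc)
        rw [Function.update_of_ne hne]
      simp only [this]
    simp only [h1]
    rw [← Finset.mul_sum, hz x c, mul_zero, mul_zero]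
  | insert e E'' he ih =>
    intro Fr σ hcard
    rw [Finset.card_insert_of_notMem he] at hcard
    have hkey : ∀ x : ι → Q,
        (ind (∀ c, c ∉ Fr → x c = σ c) * ind (∀ c ∈ Fr, x c ∉ insert e E'')) * extZ h x
        = (ind (∀ c, c ∉ Fr → x c = σ c) * ind (∀ c ∈ Fr, x c ∉ E'')) * extZ h x
          - ∑ c₀ ∈ Fr, (ind (∀ c, c ∉ Fr.erase c₀ → x c = Function.update σ c₀ e c)
              * ind (∀ c ∈ Fr.erase c₀, x c ∉ E'')) * extZ h x := by
      intro x
      by_cases hx : Function.Injective x
      · by_cases hc₁ : ∃ c₁ ∈ Fr, x c₁ = e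
        · obtain ⟨c₁, hc₁, hx₁⟩ := hc₁
          have h0 : ind (∀ c ∈ Fr, x c ∉ insert e E'') = 0 := by
            refine ind_false' (fun hcon => ?_)
            exact hcon c₁ hc₁ (by simp [hx₁])
          rw [h0, mul_zero, zero_mul]
          have h1 : ∀ c₀ ∈ Fr, c₀ ≠ c₁ →
              (ind (∀ c, c ∉ Fr.erase c₀ → x c = Function.update σ c₀ e c)
                * ind (∀ c ∈ Fr.erase c₀, x c ∉ E'')) * extZ h x = 0 := by
            intro c₀ _ hne
            have : ¬ (∀ c, c ∉ Fr.erase c₀ → x c = Function.update σ c₀ e c) := by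
              intro hcon
              have h3 := hcon c₀ (Finset.notMem_erase c₀ Fr)
              rw [Function.update_self] at h3
              exact hne (hx (h3.trans hx₁.symm))
            rw [ind_false' this, zero_mul, zero_mul]
          rw [Finset.sum_eq_single_of_mem c₁ hc₁ h1]
          have h2 : (∀ c, c ∉ Fr.erase c₁ → x c = Function.update σ c₁ e c) ↔ (∀ c, c ∉ Fr → x c = σ c) := by
            constructor
            · intro hcon c hc
              have hne : c ≠ c₁ := fun h => hc (h ▸ hc₁)
              have := hcon c (fun h2 => hc (Finset.mem_of_mem_erase h2))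
              rwa [Function.update_of_ne hne] at this
            · intro hcon c hc
              by_cases hcc : c = c₁
              · subst hcc
                rw [Function.update_self, hx₁]
              · rw [Function.update_of_ne hcc]
                refine hcon c (fun h2 => hc (Finset.mem_erase.mpr ⟨hcc, h2⟩))
          have h3 : (∀ c ∈ Fr.erase c₁, x c ∉ E'') ↔ (∀ c ∈ Fr, x c ∉ E'') := by
            constructor
            · intro hcon c hc
              by_cases hcc : c = c₁
              · subst hcc
                rw [hx₁]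
                exact he
              · exact hcon c (Finset.mem_erase.mpr ⟨hcc, hc⟩)
            · intro hcon c hc
              exact hcon c (Finset.mem_of_mem_erase hc)
          have h4 : ind (∀ c, c ∉ Fr.erase c₁ → x c = Function.update σ c₁ e c)
              = ind (∀ c, c ∉ Fr → x c = σ c) := by
            unfold ind
            simp only [h2]
          have h5 : ind (∀ c ∈ Fr.erase c₁, x c ∉ E'') = ind (∀ c ∈ Fr, x c ∉ E'') := by
            unfold ind
            simp only [h3]
          rw [h4, h5]
          ring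
        · push Not at hc₁
          have h0 : ∀ c₀ ∈ Fr, (ind (∀ c, c ∉ Fr.erase c₀ → x c = Function.update σ c₀ e c)
                * ind (∀ c ∈ Fr.erase c₀, x c ∉ E'')) * extZ h x = 0 := by
            intro c₀ hc₀
            have : ¬ (∀ c, c ∉ Fr.erase c₀ → x c = Function.update σ c₀ e c) := by
              intro hcon
              have h3 := hcon c₀ (Finset.notMem_erase c₀ Fr)
              rw [Function.update_self] at h3
              exact hc₁ c₀ hc₀ h3
            rw [ind_false' this, zero_mul, zero_mul]
          rw [Finset.sum_eq_zero h0, sub_zero]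
          have h2 : (∀ c ∈ Fr, x c ∉ insert e E'') ↔ (∀ c ∈ Fr, x c ∉ E'') := by
            refine forall_congr' (fun c => forall_congr' (fun hc => ?_))
            rw [Finset.mem_insert]
            constructor
            · exact fun h h2 => h (Or.inr h2)
            · rintro h (h2 | h2)
              · exact hc₁ c hc h2
              · exact h h2
          have h3 : ind (∀ c ∈ Fr, x c ∉ insert e E'') = ind (∀ c ∈ Fr, x c ∉ E'') := by
            unfold ind
            simp only [h2]
          rw [h3]
      · rw [extZ_of_not_inj h hx]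
        simp
    simp only [hkey]
    rw [Finset.sum_sub_distrib, ih Fr σ (by omega), zero_sub, neg_eq_zero, Finset.sum_comm]
    refine Finset.sum_eq_zero (fun c₀ hc₀ => ?_)
    refine ih (Fr.erase c₀) (Function.update σ c₀ e) ?_
    rw [Finset.card_erase_of_mem hc₀]
    omega

/-- The fixed vectors are constant on the classes of tuples with the same pattern. -/
theorem fix_const {T : Finset Q} {w : TupE ι Q} (hw : w ∈ fixS piT T) (n : ℕ) :
    ∀ y y₀ : ι ↪ Q, (Finset.univ.filter (fun c => y c ≠ y₀ c)).card ≤ n →
      (∀ c, y c ∈ T ↔ y₀ c ∈ T) → (∀ c, y₀ c ∉ T → y c = y₀ c) → w y = w y₀ := by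
  induction n with
  | zero =>
    intro y y₀ hn _ _
    have : y = y₀ := by
      ext c
      by_contra hc
      have h1 : c ∈ Finset.univ.filter (fun c => y c ≠ y₀ c) := by
        simp only [Finset.mem_filter, Finset.mem_univ, true_and]
        intro h2
        exact hc (by rw [h2])
      have := Finset.card_pos.mpr ⟨c, h1⟩
      omega
    rw [this]
  | succ n ih =>
    intro y y₀ hn h1 h2
    by_cases hne : y = y₀
    · rw [hne]
    obtain ⟨c, hc⟩ : ∃ c, y c ≠ y₀ c := by
      by_contra hcon
      push Not at hcon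
      apply hne
      ext c
      rw [hcon c]
    have hy₀ : y₀ c ∈ T := by
      by_contra h3
      exact hc (h2 c h3)
    have hy : y c ∈ T := (h1 c).mpr hy₀
    set τ := swap (y₀ c) (y c) with hτ
    set y₁ := actE τ y₀ with hy₁
    have hfix : w y₁ = w y₀ := by
      have h3 := hw (y₀ c) hy₀ (y c) hy
      have h4 := congrArg (fun v : TupE ι Q => v y₁) h3
      simp only at h4
      rw [piT_apply] at h4
      have h5 : (actE (swap (y₀ c) (y c))).symm y₁ = y₀ := by
        rw [hy₁, hτ]
        exact (actE _).symm_apply_apply y₀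
      rw [h5] at h4
      exact h4.symm
    have hval : ∀ c', y₁ c' = τ (y₀ c') := fun c' => rfl
    have hT : ∀ v, τ v ∈ T ↔ v ∈ T := by
      intro v
      by_cases hv1 : v = y₀ c
      · subst hv1
        rw [hτ, Equiv.swap_apply_left]
        exact ⟨fun _ => hy₀, fun _ => hy⟩
      · by_cases hv2 : v = y c
        · subst hv2
          rw [hτ, Equiv.swap_apply_right]
          exact ⟨fun _ => hy, fun _ => hy₀⟩
        · rw [hτ, Equiv.swap_apply_of_ne_of_ne hv1 hv2]
    have hfixv : ∀ v, v ∉ T → τ v = v := by
      intro v hv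
      have hv1 : v ≠ y₀ c := fun h => hv (h ▸ hy₀)
      have hv2 : v ≠ y c := fun h => hv (h ▸ hy)
      rw [hτ, Equiv.swap_apply_of_ne_of_ne hv1 hv2]
    have hstep : w y = w y₁ := by
      refine ih y y₁ ?_ ?_ ?_
      · have hsub : Finset.univ.filter (fun c' => y c' ≠ y₁ c') ⊂ Finset.univ.filter (fun c' => y c' ≠ y₀ c') := by
          refine Finset.ssubset_iff_of_subset ?_ |>.mpr ⟨c, ?_, ?_⟩
          · intro c' hc'
            simp only [Finset.mem_filter, Finset.mem_univ, true_and] at hc' ⊢
            intro h3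
            apply hc'
            rw [hval, ← h3]
            have hne1 : y c' ≠ y₀ c := by
              intro h4
              have : c' = c := y₀.injective (by rw [← h3, h4])
              exact hc (by rw [← this, h3])
            have hne2 : y c' ≠ y c := by
              intro h4
              have : c' = c := y.injective h4
              exact hc (by rw [← this, h3])
            rw [hτ, Equiv.swap_apply_of_ne_of_ne hne1 hne2]
          · simp only [Finset.mem_filter, Finset.mem_univ, true_and]
            exact hc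
          · simp only [Finset.mem_filter, Finset.mem_univ, true_and, not_not]
            rw [hval, hτ, Equiv.swap_apply_left]
        have := Finset.card_lt_card hsub
        omega
      · intro c'
        rw [hval, hT]
        exact h1 c'
      · intro c' hc'
        rw [hval, hT] at hc'
        rw [hval, hfixv _ hc']
        exact h2 c' hc'
    rw [hstep, hfix]


/-- The vanishing of the marginals implies orthogonality to functions fixed by a large group. -/
theorem orth_fix [Nonempty Q] {h : TupE ι Q} (hh : h ∈ Vtop ι Q) {T : Finset Q}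
    (hT : Tᶜ.card < Fintype.card ι) {w : TupE ι Q} (hw : w ∈ fixS piT T) :
    ∑ y : ι ↪ Q, h y * w y = 0 := by
  let pat : (ι ↪ Q) → (ι → Option Q) := fun y c => if y c ∈ T then none else some (y c)
  rw [← Finset.sum_fiberwise Finset.univ pat (fun y => h y * w y)]
  refine Finset.sum_eq_zero (fun p _ => ?_)
  by_cases hp : (Finset.univ.filter (fun y => pat y = p)).Nonempty
  · obtain ⟨y₀, hy₀⟩ := hp
    have hy₀p : pat y₀ = p := (Finset.mem_filter.mp hy₀).2
    have hpat : ∀ y, pat y = p → (∀ c, y c ∈ T ↔ y₀ c ∈ T) ∧ (∀ c, y₀ c ∉ T → y c = y₀ c) := by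
      intro y hy
      rw [← hy₀p] at hy
      constructor
      · intro c
        have h1 := congrFun hy c
        simp only [pat] at h1
        by_cases h2 : y c ∈ T <;> by_cases h3 : y₀ c ∈ T <;> simp_all
      · intro c h3
        have h1 := congrFun hy c
        simp only [pat] at h1
        by_cases h2 : y c ∈ T <;> simp_all
    have hconst : ∀ y ∈ Finset.univ.filter (fun y => pat y = p), h y * w y = h y * w y₀ := by
      intro y hy
      have hy' := hpat y (Finset.mem_filter.mp hy).2
      rw [fix_const hw _ y y₀ le_rfl hy'.1 hy'.2]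
    rw [Finset.sum_congr rfl hconst, ← Finset.sum_mul]
    set Fr := Finset.univ.filter (fun c => y₀ c ∈ T) with hFr
    set E' := Tᶜ.filter (fun v => ∀ c, c ∉ Fr → y₀ c ≠ v) with hE'
    have hcard : E'.card < Fr.card := by
      have hdisj : Disjoint E' (Frᶜ.image y₀) := by
        rw [Finset.disjoint_left]
        intro v hv hv2
        obtain ⟨c, hc, hcv⟩ := Finset.mem_image.mp hv2
        exact (Finset.mem_filter.mp hv).2 c (Finset.mem_compl.mp hc) hcv
      have hsub : E' ∪ Frᶜ.image y₀ ⊆ Tᶜ := by
        intro v hv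
        rcases Finset.mem_union.mp hv with h1 | h1
        · exact (Finset.mem_filter.mp h1).1
        · obtain ⟨c, hc, hcv⟩ := Finset.mem_image.mp h1
          rw [Finset.mem_compl, ← hcv]
          intro h2
          exact (Finset.mem_compl.mp hc) (Finset.mem_filter.mpr ⟨Finset.mem_univ _, h2⟩)
      have h1 := Finset.card_le_card hsub
      rw [Finset.card_union_of_disjoint hdisj, Finset.card_image_of_injective _ y₀.injective,
        Finset.card_compl] at h1
      have h2 : Fr.card ≤ Fintype.card ι := Finset.card_le_univ _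
      omega
    have hkey := van hh E' Fr y₀ hcard
    rw [sum_of_inj _ (fun x hx => by rw [extZ_of_not_inj _ hx, mul_zero])] at hkey
    simp only [extZ_coe] at hkey
    have hiff : ∀ y : ι ↪ Q, ((∀ c, c ∉ Fr → y c = y₀ c) ∧ (∀ c ∈ Fr, y c ∉ E')) ↔ pat y = p := by
      intro y
      constructor
      · rintro ⟨h1, h2⟩
        rw [← hy₀p]
        funext c
        by_cases hc : c ∈ Fr
        · have hc' : y₀ c ∈ T := (Finset.mem_filter.mp hc).2
          have hyT : y c ∈ T := by
            by_contra hn
            have h3 := h2 c hc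
            rw [hE', Finset.mem_filter] at h3
            push Not at h3
            obtain ⟨c', hc1, hc2⟩ := h3 (Finset.mem_compl.mpr hn)
            have h4 := h1 c' hc1
            have h5 : c' = c := y.injective (h4.trans hc2)
            exact hc1 (h5 ▸ hc)
          simp only [pat, hc', hyT, if_true]
        · have hc' : y₀ c ∉ T := fun h => hc (Finset.mem_filter.mpr ⟨Finset.mem_univ _, h⟩)
          simp only [pat, h1 c hc, hc', if_false]
      · intro hy
        have hy' := hpat y hy
        refine ⟨fun c hc => hy'.2 c (fun h => hc (Finset.mem_filter.mpr ⟨Finset.mem_univ _, h⟩)), ?_⟩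
        intro c hc h2
        have h3 := (hy'.1 c).mpr (Finset.mem_filter.mp hc).2
        exact (Finset.mem_compl.mp (Finset.mem_filter.mp h2).1) h3
    have h6 : ∑ y ∈ Finset.univ.filter (fun y => pat y = p), h y = 0 := by
      rw [Finset.sum_filter]
      refine Eq.trans ?_ hkey
      refine Finset.sum_congr rfl (fun y _ => ?_)
      rw [← ind_and]
      by_cases h7 : pat y = p
      · rw [if_pos h7, ind_true' ((hiff y).mpr h7), one_mul]
      · rw [if_neg h7, ind_false' (fun h8 => h7 ((hiff y).mp h8)), zero_mul]
    rw [h6, zero_mul]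
  · rw [Finset.not_nonempty_iff_eq_empty] at hp
    rw [hp, Finset.sum_empty]

theorem inner_eq_sum (u v : TupE ι Q) : inner ℝ u v = ∑ y, u y * v y := by
  rw [PiLp.inner_apply]
  refine Finset.sum_congr rfl (fun y _ => ?_)
  simp [RCLike.inner_apply, mul_comm]

/-- The subspace lies in the vanishing subspaces of the energy bound. -/
theorem Vtop_le_Um [Nonempty Q] {j : ℕ} (hj : Fintype.card ι = j + 1) (hjn : j + 1 ≤ Fintype.card Q)
    {h : TupE ι Q} (hh : h ∈ Vtop ι Q) :
    h ∈ Um (piT : Perm Q →* (TupE ι Q →L[ℝ] TupE ι Q)) Finset.univ (Fintype.card Q - j) := by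
  intro T _ hc w hw
  rw [inner_eq_sum]
  refine orth_fix hh ?_ hw
  rw [Finset.card_compl, hc, hj]
  omega

/-- The energy operator preserves the subspace. -/
theorem Lhat_mem_Vtop {h : TupE ι Q} (hh : h ∈ Vtop ι Q) :
    Lhat (piT : Perm Q →* (TupE ι Q →L[ℝ] TupE ι Q)) h ∈ Vtop ι Q := by
  unfold Lhat LS
  rw [_root_.smul_apply]
  refine Submodule.smul_mem _ _ ?_
  rw [_root_.sum_apply]
  refine Submodule.sum_mem _ (fun a _ => ?_)
  rw [_root_.sum_apply]
  refine Submodule.sum_mem _ (fun b _ => ?_)
  rw [_root_.smul_apply]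
  refine Submodule.smul_mem _ _ ?_
  change h - piT (swap a b) h ∈ Vtop ι Q
  exact Submodule.sub_mem _ hh (piT_mem_Vtop _ hh)

end top

section central

variable {ι : Type*} [Fintype ι] [DecidableEq ι] {D : ℕ}

/-- **The decay from the energy bound.** -/
theorem central_decay {j : ℕ} (hj : Fintype.card ι = j + 1) (hjn : j + 1 ≤ 2 ^ D)
    {h : TupE ι (Cube D)} (hh : h ∈ Vtop ι (Cube D)) :
    ‖Rop D (piT : Perm (Cube D) →* (TupE ι (Cube D) →L[ℝ] TupE ι (Cube D))) h‖ ^ 2
      ≤ Real.exp (-((1 / 36) * ((1 / 2) * min ((j : ℝ) + 1) (((2 : ℝ) ^ D) / 2)))) * ‖h‖ ^ 2 := by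
  have hπ := isOrth_piT (ι := ι) (Q := Cube D)
  have hQ : Fintype.card (Cube D) = 2 ^ D := card_cube D
  have hjlt : j < Fintype.card (Cube D) := by
    rw [hQ]
    omega
  have hlow : ∀ v ∈ Vtop ι (Cube D), ((1 / 2) * min ((j : ℝ) + 1) (((2 : ℝ) ^ D) / 2)) * ‖v‖ ^ 2
      ≤ inner ℝ v (Lhat (piT : Perm (Cube D) →* (TupE ι (Cube D) →L[ℝ] TupE ι (Cube D))) v) := by
    intro v hv
    have h1 := Lhat_lower hπ hjlt (Vtop_le_Um hj (by rw [hQ]; omega) hv)
    rw [hQ] at h1
    push_cast at h1
    exact h1
  have hs0 : 0 ≤ tseq D := le_trans (by norm_num) (tseq_lower D)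
  have h2 := exp_bound_of_rayleigh (symOp_Lhat hπ) (Vtop ι (Cube D)) (fun v hv => Lhat_mem_Vtop hv) _
    hlow hs0 h hh
  have h3 := main_rec D hπ h
  refine h3.trans (h2.trans ?_)
  refine mul_le_mul_of_nonneg_right (Real.exp_le_exp.mpr ?_) (by positivity)
  have h4 := tseq_lower D
  have h5 : 0 ≤ (1 / 2) * min ((j : ℝ) + 1) (((2 : ℝ) ^ D) / 2) := by
    have : 0 ≤ min ((j : ℝ) + 1) (((2 : ℝ) ^ D) / 2) := le_min (by positivity) (by positivity)
    positivity
  nlinarith

end central


end Vale.Agent.Lib.P162
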