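import Vale.Agent.Lib.P162.NTrc
import Vale.Agent.Lib.P162.Final

/-! The sum of the traces over all layers and the transport to the deck of the shuffle. -/

namespace Vale.Agent.Lib.P162

open Equiv Finset Matrix

set_option linter.unusedSectionVars false

open scoped Classical

section total

variable {Q : Type*} [Fintype Q] [DecidableEq Q]

theorem Ej_orth_of_lt {i k : ℕ} (hik : i < k) (hk : k ≤ Fintype.card Q) {v w : RegE Q}
    (hv : v ∈ Ej Q i) (hw : w ∈ Ej Q k) : inner ℝ v w = 0 := by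
  obtain ⟨k', rfl⟩ : ∃ k', k = k' + 1 := ⟨k - 1, by omega⟩
  have h1 : v ∈ Dl Q k' := Dl_mono (by omega) (by omega) (Ej_le_Dl i hv)
  exact (Submodule.mem_orthogonal _ _).1 hw.2 v h1

theorem Dl_le_iSup (j : ℕ) (hj : j ≤ Fintype.card Q) :
    Dl Q j ≤ ⨆ i : Fin (Fintype.card Q + 1), Ej Q i := by
  induction j with
  | zero =>
    exact le_iSup (fun i : Fin (Fintype.card Q + 1) => Ej Q i) (0 : Fin (Fintype.card Q + 1))
  | succ j ih =>
    intro v hv
    have hD : Dl Q j ≤ ⨆ i : Fin (Fintype.card Q + 1), Ej Q i := ih (by omega)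
    let P := (Dl Q j).starProjection
    have h1 : P v ∈ Dl Q j := Submodule.starProjection_apply_mem _ v
    have h2 : v - P v ∈ (Dl Q j)ᗮ := Submodule.sub_starProjection_mem_orthogonal v
    have h3 : v - P v ∈ Dl Q (j + 1) :=
      Submodule.sub_mem _ hv (Dl_mono_succ hj h1)
    have h4 : v - P v ∈ Ej Q (j + 1) := ⟨h3, h2⟩
    have h5 : v - P v ∈ ⨆ i : Fin (Fintype.card Q + 1), Ej Q i :=
      Submodule.mem_iSup_of_mem (⟨j + 1, by omega⟩ : Fin (Fintype.card Q + 1)) h4
    have : v = P v + (v - P v) := by abel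
    rw [this]
    exact Submodule.add_mem _ (hD h1) h5

theorem iSup_Ej : (⨆ i : Fin (Fintype.card Q + 1), Ej Q i) = ⊤ := by
  rw [eq_top_iff, ← Dl_top (Q := Q)]
  exact Dl_le_iSup _ le_rfl

theorem Ej_orthFam : OrthogonalFamily ℝ (fun i : Fin (Fintype.card Q + 1) => Ej Q i)
    (fun i => (Ej Q i).subtypeₗᵢ) := by
  intro i k hik v w
  rcases lt_or_gt_of_ne (fun h => hik (Fin.ext h) : (i : ℕ) ≠ k) with h | h
  · exact Ej_orth_of_lt h (by have := k.2; omega) v.2 w.2
  · rw [real_inner_comm]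
    exact Ej_orth_of_lt h (by have := i.2; omega) w.2 v.2

theorem Ej_internal : DirectSum.IsInternal (fun i : Fin (Fintype.card Q + 1) => Ej Q i) := by
  rw [Ej_orthFam.isInternal_iff, iSup_Ej]
  simp

end total

section transl

variable {Q : Type*} [Fintype Q] [DecidableEq Q]

/-- Left translation. -/
noncomputable def ltr (k : Perm Q) : RegE Q →ₗ[ℝ] RegE Q where
  toFun f := WithLp.toLp 2 (fun x => f (k⁻¹ * x))
  map_add' := by
    intro u v
    rfl
  map_smul' := by
    intro c u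
    rfl

theorem ltr_apply (k : Perm Q) (f : RegE Q) (x : Perm Q) : ltr k f x = f (k⁻¹ * x) := rfl

theorem ltr_rho (k g : Perm Q) (f : RegE Q) : ltr k (rho g f) = rho g (ltr k f) := by
  ext x
  rw [ltr_apply, rho_apply, rho_apply, ltr_apply, mul_assoc]

theorem ltr_delta (k h : Perm Q) : ltr k (delta h) = delta (k * h) := by
  ext x
  rw [ltr_apply, delta_apply, delta_apply]
  have : k⁻¹ * x = h ↔ x = k * h := by
    constructor
    · rintro rfl; simp
    · rintro rfl; simp
  simp [this]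

theorem norm_ltr (k : Perm Q) (f : RegE Q) : ‖ltr k f‖ ^ 2 = ‖f‖ ^ 2 := by
  rw [EuclideanSpace.real_norm_sq_eq, EuclideanSpace.real_norm_sq_eq]
  simp only [ltr_apply]
  exact Equiv.sum_comp (Equiv.mulLeft k⁻¹) (fun x => (f x) ^ 2)

end transl

section regtrace

variable {D : ℕ}

theorem basis_eq_delta (g : Perm (Cube D)) :
    EuclideanSpace.basisFun (Perm (Cube D)) ℝ g = delta g := by
  simp [delta]

theorem trace_XLin (L : ℕ) :
    LinearMap.trace ℝ (RegE (Cube D)) (XLin D L)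
      = (Fintype.card (Perm (Cube D)) : ℝ) * ‖(Rop D (rho : Perm (Cube D) →* _) ^ L) (delta 1)‖ ^ 2 := by
  rw [LinearMap.trace_eq_sum_inner _ (EuclideanSpace.basisFun (Perm (Cube D)) ℝ)]
  have h1 : ∀ g : Perm (Cube D), inner ℝ (EuclideanSpace.basisFun (Perm (Cube D)) ℝ g)
      (XLin D L (EuclideanSpace.basisFun (Perm (Cube D)) ℝ g))
      = ‖(Rop D (rho : Perm (Cube D) →* _) ^ L) (delta 1)‖ ^ 2 := by
    intro g
    rw [basis_eq_delta]
    have h2 := inner_XL (D := D) (π := (rho : Perm (Cube D) →* (RegE (Cube D) →L[ℝ] RegE (Cube D))))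
      isOrth_rho L (delta g)
    refine Eq.trans h2 ?_
    have h3 := Rop_pow_inter (D := D) (π₁ := (rho : Perm (Cube D) →* (RegE (Cube D) →L[ℝ] RegE (Cube D))))
      (π₂ := (rho : Perm (Cube D) →* (RegE (Cube D) →L[ℝ] RegE (Cube D)))) (ltr g) (ltr_rho g) L (delta 1)
    rw [ltr_delta, mul_one] at h3
    rw [← h3, norm_ltr]
  simp only [h1]
  rw [Finset.sum_const, Finset.card_univ, nsmul_eq_mul]

/-- The trace is the sum over the layers. -/
theorem trace_sum (L : ℕ) :
    (Fintype.card (Perm (Cube D)) : ℝ) * ‖(Rop D (rho : Perm (Cube D) →* _) ^ L) (delta 1)‖ ^ 2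
      = ∑ j : Fin (Fintype.card (Cube D) + 1),
        LinearMap.trace ℝ (Ej (Cube D) j) ((XLin D L).restrict (XLin_mem (j : ℕ) L)) := by
  rw [← trace_XLin]
  exact LinearMap.trace_eq_sum_trace_restrict Ej_internal (fun j => XLin_mem (j : ℕ) L)

end regtrace

section transport

variable {d : ℕ}

/-- The unitary map between the regular representations of the two decks. -/
noncomputable def Ur (d : ℕ) : RegE (Fin (2 * 2 ^ d)) →ₗ[ℝ] RegE (Cube (d + 1)) where
  toFun f := WithLp.toLp 2 (fun y => f ((encTop d).symm.permCongr y))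
  map_add' := by
    intro u v
    rfl
  map_smul' := by
    intro c u
    rfl

theorem Ur_apply (f : RegE (Fin (2 * 2 ^ d))) (y : Perm (Cube (d + 1))) :
    Ur d f y = f ((encTop d).symm.permCongr y) := rfl

theorem Ur_inter (g : Perm (Cube (d + 1))) (f : RegE (Fin (2 * 2 ^ d))) :
    Ur d (congrRep (encTop d).symm (rho : Perm (Fin (2 * 2 ^ d)) →* _) g f) = rho g (Ur d f) := by
  ext y
  rw [Ur_apply, congrRep_apply, rho_apply, rho_apply, Ur_apply]
  have h : (encTop d).symm.permCongr y * (encTop d).symm.permCongr g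
      = (encTop d).symm.permCongr (y * g) :=
    ((encTop d).symm.permCongrHom.map_mul y g).symm
  rw [h]

theorem Ur_delta : Ur d (delta 1) = delta 1 := by
  ext y
  rw [Ur_apply, delta_apply, delta_apply]
  have : (encTop d).symm.permCongr y = 1 ↔ y = 1 := by
    constructor
    · intro h
      apply (encTop d).symm.permCongrHom.injective
      rw [map_one]
      exact h
    · rintro rfl
      exact map_one (encTop d).symm.permCongrHom
  simp [this]

theorem norm_Ur (f : RegE (Fin (2 * 2 ^ d))) : ‖Ur d f‖ ^ 2 = ‖f‖ ^ 2 := by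
  rw [EuclideanSpace.real_norm_sq_eq, EuclideanSpace.real_norm_sq_eq]
  simp only [Ur_apply]
  exact Equiv.sum_comp ((encTop d).symm.permCongr) (fun x => (f x) ^ 2)

/-- The sum of squares of the law after some blocks of shuffles. -/
theorem sum_sq_convPow (L : ℕ) :
    ∑ g, (convPow (thorpLaw (2 ^ d)) ((d + 1) * L) g) ^ 2
      = ‖(Rop (d + 1) (rho : Perm (Cube (d + 1)) →* _) ^ L) (delta 1)‖ ^ 2 := by
  rw [← norm_toVec_sq, toVec_convPow, pow_mul, avgOp_pow]
  have h := Rop_pow_inter (D := d + 1)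
    (π₁ := congrRep (encTop d).symm (rho : Perm (Fin (2 * 2 ^ d)) →* (RegE (Fin (2 * 2 ^ d)) →L[ℝ] RegE (Fin (2 * 2 ^ d)))))
    (π₂ := (rho : Perm (Cube (d + 1)) →* (RegE (Cube (d + 1)) →L[ℝ] RegE (Cube (d + 1)))))
    (Ur d) Ur_inter L (delta 1)
  rw [Ur_delta] at h
  rw [← h, norm_Ur]

theorem card_perm_eq :
    Fintype.card (Perm (Fin (2 * 2 ^ d))) = Fintype.card (Perm (Cube (d + 1))) := by
  rw [Fintype.card_perm, Fintype.card_perm, card_cube, Fintype.card_fin, pow_succ]
  congr 1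
  ring

/-- **The chi square bound from the sum over the layers.** -/
theorem mix_of_layers {L : ℕ} {b : ℕ → ℝ} (hb : ∀ j : ℕ, j ≤ 2 ^ (d + 1) →
      LinearMap.trace ℝ (Ej (Cube (d + 1)) j) ((XLin (d + 1) L).restrict (XLin_mem j L)) ≤ b j)
    (hsum : ∑ j ∈ Finset.range (2 ^ (d + 1) + 1), b j ≤ 5 / 4) {t : ℕ} (ht : (d + 1) * L ≤ t) :
    tvUniform (convPow (thorpLaw (2 ^ d)) t) ≤ 1 / 4 := by
  refine (tv_convPow_anti _ thorpLaw_nonneg thorpLaw_sum ht).trans ?_
  refine tv_le_of_l2 _ (sum_convPow _ thorpLaw_sum _) ?_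
  rw [sum_sq_convPow, card_perm_eq]
  rw [trace_sum]
  refine le_trans ?_ hsum
  have h1 := Fin.sum_univ_eq_sum_range (fun j : ℕ =>
    LinearMap.trace ℝ (Ej (Cube (d + 1)) j) ((XLin (d + 1) L).restrict (XLin_mem j L)))
    (Fintype.card (Cube (d + 1)) + 1)
  rw [h1, card_cube]
  refine Finset.sum_le_sum (fun j hj => hb j ?_)
  have := Finset.mem_range.1 hj
  omega

end transport

end Vale.Agent.Lib.P162
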