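import Vale.Agent.Lib.P162.Flag
import Vale.Agent.Lib.P162.Energy

/-! The right regular representation of a symmetric group and the dimension count of the
subspaces of functions depending on few coordinates. -/

namespace Vale.Agent.Lib.P162

open Equiv

set_option linter.unusedSectionVars false

variable {P : Type*} [Fintype P] [DecidableEq P]

/-- The `L²` space of functions on the symmetric group. -/
abbrev RegE (P : Type*) [Fintype P] [DecidableEq P] := EuclideanSpace ℝ (Perm P)

/-- Right translation. -/
noncomputable def rhoF (g : Perm P) : RegE P →L[ℝ] RegE P :=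
  ((LinearIsometryEquiv.piLpCongrLeft 2 ℝ ℝ (Equiv.mulRight g⁻¹)).toLinearIsometry).toContinuousLinearMap

theorem rhoF_apply (g : Perm P) (f : RegE P) (x : Perm P) : rhoF g f x = f (x * g) := by
  simp [rhoF, LinearIsometryEquiv.piLpCongrLeft_apply]

/-- The right regular representation. -/
noncomputable def rho : Perm P →* (RegE P →L[ℝ] RegE P) where
  toFun := rhoF
  map_one' := by
    ext f x
    simp [rhoF_apply]
  map_mul' g h := by
    ext f x
    change rhoF (g * h) f x = rhoF g (rhoF h f) x
    rw [rhoF_apply, rhoF_apply, rhoF_apply, mul_assoc]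

theorem rho_apply (g : Perm P) (f : RegE P) (x : Perm P) : rho g f x = f (x * g) :=
  rhoF_apply g f x

theorem isOrth_rho : IsOrth (rho : Perm P →* (RegE P →L[ℝ] RegE P)) := by
  intro g x y
  exact LinearIsometry.inner_map_map
    ((LinearIsometryEquiv.piLpCongrLeft 2 ℝ ℝ (Equiv.mulRight g⁻¹)).toLinearIsometry) x y

/-- Point masses. -/
noncomputable def delta (g : Perm P) : RegE P := EuclideanSpace.single g (1 : ℝ)

theorem delta_apply (g x : Perm P) : delta g x = if x = g then 1 else 0 := by
  simp [delta]

theorem rho_delta (g h : Perm P) : rho g (delta h) = delta (h * g⁻¹) := by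
  ext x
  rw [rho_apply, delta_apply, delta_apply]
  have : x * g = h ↔ x = h * g⁻¹ := by
    constructor
    · rintro rfl; simp
    · rintro rfl; simp
  simp [this]

/-- A function fixed by the transpositions inside `T` is fixed by every permutation supported
in `T`. -/
theorem fixS_of_supported {T : Finset P} {f : RegE P} (hf : f ∈ fixS rho T) (g : Perm P)
    (hg : ∀ a, a ∉ T → g a = a) (x : Perm P) : f (x * g) = f x := by
  classical
  have hg' : ∀ a, g a ∈ T ↔ a ∈ T := by
    intro a
    constructor
    · intro h
      by_contra hna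
      rw [hg a hna] at h
      exact hna h
    · intro h
      by_contra hna
      have h2 := hg (g a) hna
      have h3 : g a = a := g.injective h2
      rw [h3] at hna
      exact hna h
  let g' : Perm {a // a ∈ T} := g.subtypePerm hg'
  have hofs : Perm.ofSubtype g' = g := by
    refine Perm.ofSubtype_subtypePerm hg' ?_
    intro a ha
    by_contra hna
    exact ha (hg a hna)
  rw [← hofs]
  have key : ∀ (k : Perm {a // a ∈ T}) (x : Perm P), f (x * Perm.ofSubtype k) = f x := by
    intro k
    induction k using Perm.swap_induction_on with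
    | one => intro x; simp
    | swap_mul k a b hab ih =>
      intro x
      rw [map_mul, Perm.ofSubtype_swap_eq, ← mul_assoc, ih]
      have := congrArg (fun v : RegE P => v x) (hf a a.2 b b.2)
      simpa [rho_apply] using this
  exact key g' x

/-- Restriction of a bijection to the complement of `T`. -/
def resT (T : Finset P) (x : Perm P) : {a // a ∉ T} → P := fun a => x a

theorem fixS_factor {T : Finset P} {f : RegE P} (hf : f ∈ fixS rho T) {x y : Perm P}
    (h : resT T x = resT T y) : f x = f y := by
  have hg : ∀ a, a ∉ T → (x⁻¹ * y) a = a := by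
    intro a ha
    have := congrFun h ⟨a, ha⟩
    simp only [resT] at this
    simp [← this]
  have := fixS_of_supported hf (x⁻¹ * y) hg x
  rw [mul_inv_cancel_left] at this
  exact this.symm

/-- Dimension bound for the fixed vectors of `T`. -/
theorem finrank_fixS_le (T : Finset P) :
    Module.finrank ℝ (fixS (rho : Perm P →* (RegE P →L[ℝ] RegE P)) T)
      ≤ (Fintype.card P) ^ (Fintype.card P - T.card) := by
  classical
  let Q := {a // a ∉ T} → P
  let Ψ : (Q → ℝ) →ₗ[ℝ] RegE P :=
    { toFun := fun φ => WithLp.toLp 2 (fun x => φ (resT T x))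
      map_add' := by
        intro a b
        rfl
      map_smul' := by
        intro c a
        rfl }
  have hle : fixS (rho : Perm P →* (RegE P →L[ℝ] RegE P)) T ≤ LinearMap.range Ψ := by
    intro f hf
    let φ : Q → ℝ := fun q => if h : ∃ x, resT T x = q then f h.choose else 0
    refine ⟨φ, ?_⟩
    ext x
    change φ (resT T x) = f x
    have h : ∃ y, resT T y = resT T x := ⟨x, rfl⟩
    simp only [φ, dif_pos h]
    exact fixS_factor hf h.choose_spec
  have h1 := Submodule.finrank_mono hle
  have h2 := LinearMap.finrank_range_le Ψ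
  have h3 : Module.finrank ℝ (Q → ℝ) = Fintype.card Q := Module.finrank_fintype_fun_eq_card ℝ
  have h4 : Fintype.card Q = (Fintype.card P) ^ (Fintype.card P - T.card) := by
    simp only [Q]
    rw [Fintype.card_fun]
    congr 1
    rw [Fintype.card_subtype_compl]
    simp
  omega

/-- Dimension of a finite supremum. -/
theorem finrank_sup_le {E : Type*} [AddCommGroup E] [Module ℝ E] [FiniteDimensional ℝ E]
    {ι : Type*} (s : Finset ι) (K : ι → Submodule ℝ E) :
    Module.finrank ℝ (s.sup K : Submodule ℝ E) ≤ ∑ i ∈ s, Module.finrank ℝ (K i) := by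
  classical
  induction s using Finset.induction_on with
  | empty => simp
  | insert a s ha ih =>
    rw [Finset.sup_insert, Finset.sum_insert ha]
    exact (Submodule.finrank_add_le_finrank_add_finrank _ _).trans (by omega)

/-- The level subspaces (spanned by functions of the positions of `j` cards). -/
noncomputable def Dlev (P : Type*) [Fintype P] [DecidableEq P] (j : ℕ) : Submodule ℝ (RegE P) :=
  (Finset.powersetCard (Fintype.card P - j) (Finset.univ : Finset P)).sup (fixS rho)

theorem Dlev_mono : Monotone (Dlev P) := by
  refine monotone_nat_of_le_succ (fun j => ?_)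
  unfold Dlev
  refine Finset.sup_le (fun T hT => ?_)
  rw [Finset.mem_powersetCard] at hT
  by_cases h : Fintype.card P - j = 0
  · have h2 : Fintype.card P - (j + 1) = 0 := by omega
    rw [h2]
    have h3 := hT.2
    rw [h] at h3
    exact Finset.le_sup (f := fixS rho) (Finset.mem_powersetCard.mpr ⟨hT.1, h3⟩)
  · obtain ⟨T', hT', hc⟩ := Finset.exists_subset_card_eq
      (show Fintype.card P - (j + 1) ≤ T.card by omega)
    refine (fixS_anti hT').trans ?_
    exact Finset.le_sup (f := fixS rho)
      (Finset.mem_powersetCard.mpr ⟨Finset.subset_univ _, hc⟩)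

theorem Dlev_top (hn : 1 ≤ Fintype.card P) :
    Dlev P (Fintype.card P - 1) = ⊤ := by
  rw [eq_top_iff]
  obtain ⟨a⟩ : Nonempty P := Fintype.card_pos_iff.mp hn
  have h1 : ({a} : Finset P) ∈ Finset.powersetCard (Fintype.card P - (Fintype.card P - 1))
      (Finset.univ : Finset P) := by
    rw [Finset.mem_powersetCard]
    refine ⟨Finset.subset_univ _, ?_⟩
    simp
    omega
  have h2 : fixS rho ({a} : Finset P) ≤ Dlev P (Fintype.card P - 1) :=
    Finset.le_sup (f := fixS rho) h1
  refine le_trans ?_ h2
  intro f _ x hx y hy
  rw [Finset.mem_singleton] at hx hy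
  subst hx; subst hy
  rw [pi_swap_self]
  rfl

theorem finrank_Dlev_le (j : ℕ) (hj : j ≤ Fintype.card P) :
    Module.finrank ℝ (Dlev P j) ≤ (Fintype.card P).choose j * (Fintype.card P) ^ j := by
  unfold Dlev
  refine (finrank_sup_le _ _).trans ?_
  have h1 : ∀ T ∈ Finset.powersetCard (Fintype.card P - j) (Finset.univ : Finset P),
      Module.finrank ℝ (fixS (rho : Perm P →* (RegE P →L[ℝ] RegE P)) T)
        ≤ (Fintype.card P) ^ j := by
    intro T hT
    rw [Finset.mem_powersetCard] at hT
    refine (finrank_fixS_le T).trans (le_of_eq ?_)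
    rw [hT.2]
    congr 1
    omega
  refine (Finset.sum_le_sum h1).trans (le_of_eq ?_)
  rw [Finset.sum_const, Finset.card_powersetCard, Finset.card_univ, smul_eq_mul,
    Nat.choose_symm hj]

theorem finrank_Dlev_le_card (j : ℕ) :
    Module.finrank ℝ (Dlev P j) ≤ (Fintype.card P) ^ (Fintype.card P) := by
  refine (Submodule.finrank_le _).trans ?_
  rw [finrank_euclideanSpace, Fintype.card_perm]
  exact Nat.factorial_le_pow _

/-- Functions orthogonal to a level subspace satisfy the vanishing conditions. -/
theorem mem_Um_of_orth {j : ℕ} {v : RegE P} (hv : v ∈ (Dlev P j)ᗮ) :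
    v ∈ Um rho Finset.univ (Fintype.card P - j) := by
  intro T _ hc w hw
  have hw' : w ∈ Dlev P j :=
    (Finset.le_sup (f := fixS rho) (Finset.mem_powersetCard.mpr ⟨Finset.subset_univ _, hc⟩)) hw
  rw [real_inner_comm]
  exact (Submodule.mem_orthogonal _ _).mp hv w hw'

/-- Operators commuting with the representation preserve the levels. -/
theorem Dlev_invariant {A : RegE P →L[ℝ] RegE P} (hA : ∀ g, Commute A (rho g)) (j : ℕ) :
    ∀ v ∈ Dlev P j, A v ∈ Dlev P j := by
  have hle : Dlev P j ≤ (Dlev P j).comap (A : RegE P →ₗ[ℝ] RegE P) := by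
    unfold Dlev
    refine Finset.sup_le (fun T hT => ?_)
    intro v hv
    change A v ∈ (Finset.powersetCard (Fintype.card P - j) (Finset.univ : Finset P)).sup (fixS rho)
    have h1 : A v ∈ fixS rho T := by
      intro a ha b hb
      have h2 := congrArg (fun B : RegE P →L[ℝ] RegE P => B v) (hA (swap a b)).eq
      change A (rho (swap a b) v) = rho (swap a b) (A v) at h2
      rw [← h2, hv a ha b hb]
    exact (Finset.le_sup (f := fixS rho) hT) h1
  exact hle

end Vale.Agent.Lib.P162
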