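import Vale.Agent.Lib.P162.NFlat
import Vale.Agent.Lib.P162.Regular

/-! The functions of the positions of a few cards, in the regular representation. -/

namespace Vale.Agent.Lib.P162

open Equiv Finset Matrix

set_option linter.unusedSectionVars false

open scoped Classical

section inter

variable {E₁ E₂ : Type*} [NormedAddCommGroup E₁] [InnerProductSpace ℝ E₁] [NormedAddCommGroup E₂]
  [InnerProductSpace ℝ E₂] {D : ℕ}

/-- Intertwining maps intertwine the network operators. -/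
theorem Rop_inter {π₁ : Perm (Cube D) →* (E₁ →L[ℝ] E₁)} {π₂ : Perm (Cube D) →* (E₂ →L[ℝ] E₂)}
    (Φ : E₁ →ₗ[ℝ] E₂) (h : ∀ g u, Φ (π₁ g u) = π₂ g (Φ u)) (u : E₁) :
    Φ (Rop D π₁ u) = Rop D π₂ (Φ u) := by
  rw [Rop_eq_avg, Rop_eq_avg]
  simp only [_root_.smul_apply, _root_.sum_apply, map_smul, map_sum, h]

theorem RopA_inter {π₁ : Perm (Cube D) →* (E₁ →L[ℝ] E₁)} {π₂ : Perm (Cube D) →* (E₂ →L[ℝ] E₂)}
    (Φ : E₁ →ₗ[ℝ] E₂) (h : ∀ g u, Φ (π₁ g u) = π₂ g (Φ u)) (u : E₁) :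
    Φ (RopA D π₁ u) = RopA D π₂ (Φ u) := by
  unfold RopA
  simp only [_root_.smul_apply, _root_.sum_apply, map_smul, map_sum, h]

theorem Rop_pow_inter {π₁ : Perm (Cube D) →* (E₁ →L[ℝ] E₁)} {π₂ : Perm (Cube D) →* (E₂ →L[ℝ] E₂)}
    (Φ : E₁ →ₗ[ℝ] E₂) (h : ∀ g u, Φ (π₁ g u) = π₂ g (Φ u)) (k : ℕ) (u : E₁) :
    Φ ((Rop D π₁ ^ k) u) = (Rop D π₂ ^ k) (Φ u) := by
  induction k generalizing u with
  | zero => simp
  | succ k ih =>
    rw [pow_succ', pow_succ']
    change Φ (Rop D π₁ ((Rop D π₁ ^ k) u)) = Rop D π₂ ((Rop D π₂ ^ k) (Φ u))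
    rw [Rop_inter Φ h, ih]

theorem RopA_pow_inter {π₁ : Perm (Cube D) →* (E₁ →L[ℝ] E₁)} {π₂ : Perm (Cube D) →* (E₂ →L[ℝ] E₂)}
    (Φ : E₁ →ₗ[ℝ] E₂) (h : ∀ g u, Φ (π₁ g u) = π₂ g (Φ u)) (k : ℕ) (u : E₁) :
    Φ ((RopA D π₁ ^ k) u) = (RopA D π₂ ^ k) (Φ u) := by
  induction k generalizing u with
  | zero => simp
  | succ k ih =>
    rw [pow_succ', pow_succ']
    change Φ (RopA D π₁ ((RopA D π₁ ^ k) u)) = RopA D π₂ ((RopA D π₂ ^ k) (Φ u))
    rw [RopA_inter Φ h, ih]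

/-- The operator of several steps. -/
noncomputable def XL (D : ℕ) (π : Perm (Cube D) →* (E₁ →L[ℝ] E₁)) (L : ℕ) : E₁ →L[ℝ] E₁ :=
  (RopA D π ^ L) * (Rop D π ^ L)

theorem XL_apply (π : Perm (Cube D) →* (E₁ →L[ℝ] E₁)) (L : ℕ) (u : E₁) :
    XL D π L u = (RopA D π ^ L) ((Rop D π ^ L) u) := rfl

theorem XL_inter {π₁ : Perm (Cube D) →* (E₁ →L[ℝ] E₁)} {π₂ : Perm (Cube D) →* (E₂ →L[ℝ] E₂)}
    (Φ : E₁ →ₗ[ℝ] E₂) (h : ∀ g u, Φ (π₁ g u) = π₂ g (Φ u)) (L : ℕ) (u : E₁) :
    Φ (XL D π₁ L u) = XL D π₂ L (Φ u) := by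
  rw [XL_apply, XL_apply, RopA_pow_inter Φ h, Rop_pow_inter Φ h]

theorem inner_RopA_pow {π : Perm (Cube D) →* (E₁ →L[ℝ] E₁)} (hπ : IsOrth π) (k : ℕ) (u v : E₁) :
    inner ℝ ((RopA D π ^ k) u) v = inner ℝ u ((Rop D π ^ k) v) := by
  induction k generalizing u v with
  | zero => simp
  | succ k ih =>
    rw [pow_succ, pow_succ']
    change inner ℝ ((RopA D π ^ k) (RopA D π u)) v = inner ℝ u (Rop D π ((Rop D π ^ k) v))
    rw [ih, inner_RopA_left hπ]

theorem inner_XL {π : Perm (Cube D) →* (E₁ →L[ℝ] E₁)} (hπ : IsOrth π) (L : ℕ) (u : E₁) :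
    inner ℝ u (XL D π L u) = ‖(Rop D π ^ L) u‖ ^ 2 := by
  rw [XL_apply, real_inner_comm, inner_RopA_pow hπ, real_inner_self_eq_norm_sq]

/-- A subspace invariant under the representation is invariant under the operators. -/
theorem Rop_mem {π : Perm (Cube D) →* (E₁ →L[ℝ] E₁)} {U : Submodule ℝ E₁}
    (hU : ∀ g, ∀ v ∈ U, π g v ∈ U) {v : E₁} (hv : v ∈ U) : Rop D π v ∈ U := by
  rw [Rop_eq_avg, _root_.smul_apply]
  refine Submodule.smul_mem _ _ ?_
  rw [_root_.sum_apply]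
  exact Submodule.sum_mem _ (fun ω _ => hU _ _ hv)

theorem RopA_mem {π : Perm (Cube D) →* (E₁ →L[ℝ] E₁)} {U : Submodule ℝ E₁}
    (hU : ∀ g, ∀ v ∈ U, π g v ∈ U) {v : E₁} (hv : v ∈ U) : RopA D π v ∈ U := by
  unfold RopA
  rw [_root_.smul_apply]
  refine Submodule.smul_mem _ _ ?_
  rw [_root_.sum_apply]
  exact Submodule.sum_mem _ (fun ω _ => hU _ _ hv)

theorem Rop_pow_mem {π : Perm (Cube D) →* (E₁ →L[ℝ] E₁)} {U : Submodule ℝ E₁}
    (hU : ∀ g, ∀ v ∈ U, π g v ∈ U) (k : ℕ) {v : E₁} (hv : v ∈ U) : (Rop D π ^ k) v ∈ U := by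
  induction k with
  | zero => simpa using hv
  | succ k ih =>
    rw [pow_succ']
    exact Rop_mem hU ih

theorem RopA_pow_mem {π : Perm (Cube D) →* (E₁ →L[ℝ] E₁)} {U : Submodule ℝ E₁}
    (hU : ∀ g, ∀ v ∈ U, π g v ∈ U) (k : ℕ) {v : E₁} (hv : v ∈ U) : (RopA D π ^ k) v ∈ U := by
  induction k with
  | zero => simpa using hv
  | succ k ih =>
    rw [pow_succ']
    exact RopA_mem hU ih

theorem XL_mem {π : Perm (Cube D) →* (E₁ →L[ℝ] E₁)} {U : Submodule ℝ E₁}
    (hU : ∀ g, ∀ v ∈ U, π g v ∈ U) (L : ℕ) {v : E₁} (hv : v ∈ U) : XL D π L v ∈ U :=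
  RopA_pow_mem hU L (Rop_pow_mem hU L hv)

/-- The operators are contractions. -/
theorem norm_Rop_le {π : Perm (Cube D) →* (E₁ →L[ℝ] E₁)} (hπ : IsOrth π) (u : E₁) :
    ‖Rop D π u‖ ≤ ‖u‖ := by
  rw [Rop_eq_avg, _root_.smul_apply, norm_smul, _root_.sum_apply, norm_inv, Real.norm_natCast]
  have hN : (0 : ℝ) < Fintype.card (NC D) := card_pos_real
  have h1 : ‖∑ ω : NC D, π (net D ω) u‖ ≤ (Fintype.card (NC D) : ℝ) * ‖u‖ := by
    refine (norm_sum_le _ _).trans (le_of_eq ?_)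
    simp only [norm_pi hπ]
    simp
  calc _ ≤ (Fintype.card (NC D) : ℝ)⁻¹ * ((Fintype.card (NC D) : ℝ) * ‖u‖) :=
        mul_le_mul_of_nonneg_left h1 (by positivity)
    _ = ‖u‖ := by field_simp

end inter

section psi

variable {ι Q : Type*} [Fintype ι] [DecidableEq ι] [Fintype Q] [DecidableEq Q]

/-- Functions of the positions of the cards of `b`. -/
noncomputable def psi (b : ι ↪ Q) : TupE ι Q →ₗ[ℝ] RegE Q where
  toFun h := WithLp.toLp 2 (fun x : Perm Q => h (actE x⁻¹ b))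
  map_add' := by
    intro u v
    rfl
  map_smul' := by
    intro c u
    rfl

theorem psi_apply (b : ι ↪ Q) (h : TupE ι Q) (x : Perm Q) : psi b h x = h (actE x⁻¹ b) := rfl

/-- The adjoint of `psi`. -/
noncomputable def phi (b : ι ↪ Q) : RegE Q →ₗ[ℝ] TupE ι Q where
  toFun f := WithLp.toLp 2 (fun a : ι ↪ Q => ∑ x : Perm Q, if actE x⁻¹ b = a then f x else 0)
  map_add' := by
    intro u v
    ext a
    change (∑ x : Perm Q, if actE x⁻¹ b = a then u x + v x else 0) =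
      (∑ x : Perm Q, if actE x⁻¹ b = a then u x else 0) + ∑ x : Perm Q, if actE x⁻¹ b = a then v x else 0
    rw [← Finset.sum_add_distrib]
    refine Finset.sum_congr rfl (fun x _ => ?_)
    split_ifs <;> simp
  map_smul' := by
    intro c u
    ext a
    change (∑ x : Perm Q, if actE x⁻¹ b = a then c * u x else 0) =
      c * ∑ x : Perm Q, if actE x⁻¹ b = a then u x else 0
    rw [Finset.mul_sum]
    refine Finset.sum_congr rfl (fun x _ => ?_)
    split_ifs <;> simp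

theorem phi_apply (b : ι ↪ Q) (f : RegE Q) (a : ι ↪ Q) :
    phi b f a = ∑ x : Perm Q, if actE x⁻¹ b = a then f x else 0 := rfl

theorem inner_reg (u v : RegE Q) : inner ℝ u v = ∑ x, u x * v x := by
  rw [PiLp.inner_apply]
  refine Finset.sum_congr rfl (fun y _ => ?_)
  simp [RCLike.inner_apply, mul_comm]

theorem inner_psi_phi (b : ι ↪ Q) (h : TupE ι Q) (f : RegE Q) :
    inner ℝ (psi b h) f = inner ℝ h (phi b f) := by
  rw [inner_reg, inner_eq_sum]
  simp only [phi_apply, psi_apply, Finset.mul_sum]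
  rw [Finset.sum_comm]
  refine Finset.sum_congr rfl (fun x _ => ?_)
  rw [Finset.sum_eq_single (actE x⁻¹ b)]
  · simp
  · intro a _ ha
    rw [if_neg (Ne.symm ha), mul_zero]
  · intro h2
    exact absurd (Finset.mem_univ _) h2

theorem rho_psi (g : Perm Q) (b : ι ↪ Q) (h : TupE ι Q) : rho g (psi b h) = psi b (piT g h) := by
  ext x
  rw [rho_apply, psi_apply, psi_apply, piT_apply]
  congr 1

theorem phi_rho (g : Perm Q) (b : ι ↪ Q) (f : RegE Q) : phi b (rho g f) = piT g (phi b f) := by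
  ext a
  rw [piT_apply, phi_apply, phi_apply]
  refine Finset.sum_bij (fun x _ => x * g) (fun _ _ => Finset.mem_univ _)
    (fun x _ y _ h => mul_right_cancel h) (fun y _ => ⟨y * g⁻¹, Finset.mem_univ _, by simp⟩) ?_
  intro x _
  rw [rho_apply]
  have h1 : actE x⁻¹ b = a ↔ actE (x * g)⁻¹ b = (actE g).symm a := by
    constructor
    · rintro rfl
      ext c
      simp [_root_.mul_inv_rev, Equiv.Perm.mul_apply]
    · intro h
      ext c
      have := DFunLike.congr_fun h c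
      simp only [actE_apply, actE_symm_apply, _root_.mul_inv_rev, Equiv.Perm.mul_apply] at this
      have h2 := congrArg g this
      simpa using h2
  simp only [h1]

/-- The levels of the regular representation. -/
noncomputable def Dl (Q : Type*) [Fintype Q] [DecidableEq Q] (j : ℕ) : Submodule ℝ (RegE Q) :=
  ⨆ b : Fin j ↪ Q, LinearMap.range (psi b)

theorem psi_mem_Dl {j : ℕ} (b : Fin j ↪ Q) (h : TupE (Fin j) Q) : psi b h ∈ Dl Q j :=
  Submodule.mem_iSup_of_mem b (LinearMap.mem_range_self _ h)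

theorem Dl_invariant (j : ℕ) (g : Perm Q) {v : RegE Q} (hv : v ∈ Dl Q j) : rho g v ∈ Dl Q j := by
  have hle : Dl Q j ≤ (Dl Q j).comap ((rho g : RegE Q →L[ℝ] RegE Q) : RegE Q →ₗ[ℝ] RegE Q) := by
    refine iSup_le (fun b => ?_)
    rintro _ ⟨h, rfl⟩
    change rho g (psi b h) ∈ Dl Q j
    rw [rho_psi]
    exact psi_mem_Dl b _
  exact hle hv

theorem orth_invariant {U : Submodule ℝ (RegE Q)} (hU : ∀ g, ∀ v ∈ U, rho g v ∈ U) (g : Perm Q)
    {v : RegE Q} (hv : v ∈ Uᗮ) : rho g v ∈ Uᗮ := by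
  rw [Submodule.mem_orthogonal] at hv ⊢
  intro u hu
  have h1 := isOrth_rho g (rho g⁻¹ u) v
  rw [pi_apply_inv] at h1
  rw [h1]
  exact hv _ (hU _ _ hu)

/-- The levels increase. -/
theorem Dl_mono_succ {j : ℕ} (hj : j + 1 ≤ Fintype.card Q) : Dl Q j ≤ Dl Q (j + 1) := by
  refine iSup_le (fun b => ?_)
  rintro _ ⟨h, rfl⟩
  -- extend the tuple by one more card
  have hex : ∃ v : Q, v ∉ Set.range b := by
    by_contra hcon
    push Not at hcon
    have h1 : Function.Surjective b := fun q => hcon q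
    have h2 := Fintype.card_le_of_surjective b h1
    simp only [Fintype.card_fin] at h2
    omega
  obtain ⟨v, hv⟩ := hex
  have hinj : Function.Injective (Fin.cons v b : Fin (j + 1) → Q) :=
    Fin.cons_injective_iff.mpr ⟨hv, b.injective⟩
  let b' : Fin (j + 1) ↪ Q := ⟨Fin.cons v b, hinj⟩
  let h' : TupE (Fin (j + 1)) Q := WithLp.toLp 2 (fun a : Fin (j + 1) ↪ Q => h ((Fin.succEmb j).trans a))
  have : psi b h = psi b' h' := by
    ext x
    rw [psi_apply, psi_apply]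
    change h (actE x⁻¹ b) = h ((Fin.succEmb j).trans (actE x⁻¹ b'))
    congr 1
  rw [this]
  exact psi_mem_Dl b' h'

theorem Dl_mono {i j : ℕ} (hij : i ≤ j) (hj : j ≤ Fintype.card Q) : Dl Q i ≤ Dl Q j := by
  induction j, hij using Nat.le_induction with
  | base => exact le_rfl
  | succ j _ ih => exact (ih (by omega)).trans (Dl_mono_succ hj)

/-- The highest level is everything. -/
theorem Dl_top : Dl Q (Fintype.card Q) = ⊤ := by
  rw [eq_top_iff]
  rintro f -
  have e : Fin (Fintype.card Q) ≃ Q := (Fintype.equivFin Q).symm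
  let b : Fin (Fintype.card Q) ↪ Q := e.toEmbedding
  have hb : Function.Surjective b := e.surjective
  have hdelta : ∀ y : Perm Q, delta y ∈ Dl Q (Fintype.card Q) := by
    intro y
    have : delta y = psi b (EuclideanSpace.single (actE y⁻¹ b) (1 : ℝ)) := by
      ext x
      rw [delta_apply, psi_apply]
      have h1 : actE x⁻¹ b = actE y⁻¹ b ↔ x = y := by
        constructor
        · intro h
          have h2 : x⁻¹ = y⁻¹ := by
            ext q
            obtain ⟨c, rfl⟩ := hb q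
            have := DFunLike.congr_fun h c
            simpa using congrArg (fun z => z) this
          exact inv_injective h2
        · rintro rfl
          rfl
      simp [h1]
    rw [this]
    exact psi_mem_Dl b _
  have hf : f = ∑ y : Perm Q, f y • delta y := by
    ext x
    simp [delta_apply]
  rw [hf]
  exact Submodule.sum_mem _ (fun y _ => Submodule.smul_mem _ _ (hdelta y))

end psi

end Vale.Agent.Lib.P162
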