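import Vale.Agent.Lib.P162.NLev

/-! The trace of the network operators on a layer of the regular representation. -/

namespace Vale.Agent.Lib.P162

open Equiv Finset Matrix

set_option linter.unusedSectionVars false

open scoped Classical

section trace

variable {D j : ℕ}

/-- Iteration of a contraction on the subspace with vanishing marginals. -/
theorem contr_pow {ρ : ℝ} (hρ0 : 0 ≤ ρ)
    (hc : ∀ h ∈ Vtop (Fin j) (Cube D), ‖Rop D (pT (Fin j) D) h‖ ^ 2 ≤ ρ * ‖h‖ ^ 2) (k : ℕ)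
    {h : TupE (Fin j) (Cube D)} (hh : h ∈ Vtop (Fin j) (Cube D)) :
    ‖(Rop D (pT (Fin j) D) ^ k) h‖ ^ 2 ≤ ρ ^ k * ‖h‖ ^ 2 := by
  induction k with
  | zero => simp
  | succ k ih =>
    rw [pow_succ' (Rop D (pT (Fin j) D))]
    change ‖Rop D (pT (Fin j) D) ((Rop D (pT (Fin j) D) ^ k) h)‖ ^ 2 ≤ _
    have h1 : (Rop D (pT (Fin j) D) ^ k) h ∈ Vtop (Fin j) (Cube D) := Rop_pow_mem_Vtop k hh
    refine (hc _ h1).trans ?_
    calc ρ * ‖(Rop D (pT (Fin j) D) ^ k) h‖ ^ 2 ≤ ρ * (ρ ^ k * ‖h‖ ^ 2) :=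
          mul_le_mul_of_nonneg_left ih hρ0
      _ = _ := by ring

/-- The vector which computes a coordinate of the matrix action in a fibre. -/
noncomputable def vv (M : Matrix (Fin j ↪ Cube D) (Fin j ↪ Cube D) ℝ) (S : Bb j (Cube D))
    (a : Fin j ↪ Cube D) : WE j (Cube D) :=
  WithLp.toLp 2 (fun p => if p.1 = S then M a p.2 else 0)

theorem inner_vv (M : Matrix (Fin j ↪ Cube D) (Fin j ↪ Cube D) ℝ) (S : Bb j (Cube D))
    (a : Fin j ↪ Cube D) (u : WE j (Cube D)) :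
    inner ℝ u (vv M S a) = M.mulVec (fibW S u) a := by
  rw [PiLp.inner_apply, Fintype.sum_prod_type, Finset.sum_eq_single S]
  · simp only [Matrix.mulVec, dotProduct]
    refine Finset.sum_congr rfl (fun y _ => ?_)
    simp [vv, fibW_apply, RCLike.inner_apply, mul_comm]
  · intro S' _ hS'
    refine Finset.sum_eq_zero (fun y _ => ?_)
    simp [vv, hS']
  · intro h
    exact absurd (Finset.mem_univ _) h

theorem norm_vv (M : Matrix (Fin j ↪ Cube D) (Fin j ↪ Cube D) ℝ) (S : Bb j (Cube D))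
    (a : Fin j ↪ Cube D) : ‖vv M S a‖ ^ 2 = ∑ y, (M a y) ^ 2 := by
  rw [EuclideanSpace.real_norm_sq_eq, Fintype.sum_prod_type, Finset.sum_eq_single S]
  · simp [vv]
  · intro S' _ hS'
    refine Finset.sum_eq_zero (fun y _ => ?_)
    simp [vv, hS']
  · intro h
    exact absurd (Finset.mem_univ _) h

/-- The sum over an orthonormal family of the norms of the images. -/
theorem sum_images_le {n : Type*} [Fintype n] (L₀ : ℕ) {u : n → WE j (Cube D)}
    (hu : Orthonormal ℝ u) :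
    ∑ i, ∑ S : Bb j (Cube D), ‖(Rop D (pT (Fin j) D) ^ L₀) (fibW S (u i))‖ ^ 2
      ≤ (Fintype.card (Bb j (Cube D)) : ℝ)
        * ∑ x, ∑ y, (((Rm (Fin j) D) ^ L₀) x y) ^ 2 := by
  set M := (Rm (Fin j) D) ^ L₀ with hM
  have h1 : ∀ (i : n) (S : Bb j (Cube D)), ‖(Rop D (pT (Fin j) D) ^ L₀) (fibW S (u i))‖ ^ 2
      = ∑ a, (inner ℝ (u i) (vv M S a)) ^ 2 := by
    intro i S
    rw [norm_sq_tup]
    refine Finset.sum_congr rfl (fun a _ => ?_)
    rw [inner_vv, Rop_pow_piT_apply]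
  simp only [h1]
  rw [Finset.sum_comm]
  have h2 : ∀ (S : Bb j (Cube D)), ∑ i, ∑ a, (inner ℝ (u i) (vv M S a)) ^ 2
      ≤ ∑ x, ∑ y, (M x y) ^ 2 := by
    intro S
    rw [Finset.sum_comm]
    refine Finset.sum_le_sum (fun a _ => ?_)
    have h3 := hu.sum_inner_products_le (x := vv M S a) (s := Finset.univ)
    rw [norm_vv] at h3
    refine le_trans (le_of_eq ?_) h3
    refine Finset.sum_congr rfl (fun i _ => ?_)
    rw [Real.norm_eq_abs, sq_abs]
  refine (Finset.sum_le_sum (fun S _ => h2 S)).trans (le_of_eq ?_)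
  rw [Finset.sum_const, Finset.card_univ, nsmul_eq_mul]

/-- The operator of several steps on the regular representation, as a linear map. -/
noncomputable def XLin (D L : ℕ) : RegE (Cube D) →ₗ[ℝ] RegE (Cube D) :=
  (XL D (rho : Perm (Cube D) →* (RegE (Cube D) →L[ℝ] RegE (Cube D))) L).toLinearMap

/-- The operator of several steps on the direct sum, as a linear map. -/
noncomputable def YLin (j D L : ℕ) : WE j (Cube D) →ₗ[ℝ] WE j (Cube D) :=
  (XL D (piW : Perm (Cube D) →* (WE j (Cube D) →L[ℝ] WE j (Cube D))) L).toLinearMap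

theorem XLin_inter (L : ℕ) (v : RegE (Cube D)) :
    PhiW (j := j) (XLin D L v) = YLin j D L (PhiW v) :=
  XL_inter (PhiW (j := j)) PhiW_rho L v

theorem XLin_mem (j L : ℕ) : ∀ v ∈ Ej (Cube D) j, XLin D L v ∈ Ej (Cube D) j := fun _ hv =>
  XL_mem (fun g _ hw => Ej_invariant j g hw) L hv

theorem inner_YLin (L : ℕ) (u : WE j (Cube D)) :
    inner ℝ u (YLin j D L u)
      = ‖(Rop D (piW : Perm (Cube D) →* (WE j (Cube D) →L[ℝ] WE j (Cube D))) ^ L) u‖ ^ 2 :=
  inner_XL (D := D) (π := (piW : Perm (Cube D) →* (WE j (Cube D) →L[ℝ] WE j (Cube D))))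
    (isOrth_piW (Q := Cube D) (j := j)) L u

theorem fib_pow_Rop (S : Bb j (Cube D)) (L : ℕ) (u : WE j (Cube D)) :
    fibW S ((Rop D (piW : Perm (Cube D) →* (WE j (Cube D) →L[ℝ] WE j (Cube D))) ^ L) u)
      = (Rop D (pT (Fin j) D) ^ L) (fibW S u) :=
  Rop_pow_inter (D := D) (π₁ := (piW : Perm (Cube D) →* (WE j (Cube D) →L[ℝ] WE j (Cube D))))
    (π₂ := pT (Fin j) D) (fibW S) (fibW_piW S) L u

/-- The injection of a layer into the direct sum. -/
noncomputable def TL (j D : ℕ) : Ej (Cube D) j →ₗ[ℝ] WE j (Cube D) :=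
  (PhiW (j := j)).comp (Ej (Cube D) j).subtype

theorem TL_apply (v : Ej (Cube D) j) : TL j D v = PhiW (v : RegE (Cube D)) := rfl

theorem TL_injective : Function.Injective (TL j D) := by
  rw [injective_iff_map_eq_zero]
  intro v hv
  have h1 : (v : RegE (Cube D)) = 0 := by
    refine eq_zero_of_phi (Ej_le_Dl j v.2) (fun S => ?_)
    rw [← fibW_PhiW]
    have h2 : PhiW (j := j) (v : RegE (Cube D)) = 0 := hv
    rw [h2, map_zero]
  exact Subtype.ext h1

theorem YLin_mem (j D L : ℕ) : ∀ w ∈ LinearMap.range (TL j D), YLin j D L w ∈ LinearMap.range (TL j D) := by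
  rintro _ ⟨v, rfl⟩
  refine ⟨⟨XLin D L v, XLin_mem j L _ v.2⟩, ?_⟩
  exact XLin_inter L (v : RegE (Cube D))

/-- Conjugation of the trace. -/
theorem trace_conj_step (L : ℕ) :
    LinearMap.trace ℝ (Ej (Cube D) j) ((XLin D L).restrict (XLin_mem j L))
      = LinearMap.trace ℝ (LinearMap.range (TL j D)) ((YLin j D L).restrict (YLin_mem j D L)) := by
  let e : Ej (Cube D) j ≃ₗ[ℝ] LinearMap.range (TL j D) := LinearEquiv.ofInjective (TL j D) TL_injective
  have hconj : e.conj ((XLin D L).restrict (XLin_mem j L)) = (YLin j D L).restrict (YLin_mem j D L) := by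
    refine LinearMap.ext (fun w => Subtype.ext ?_)
    obtain ⟨v, rfl⟩ := e.surjective w
    rw [LinearEquiv.conj_apply]
    simp only [LinearMap.coe_comp, LinearEquiv.coe_coe, Function.comp_apply,
      LinearEquiv.symm_apply_apply]
    exact XLin_inter L (v : RegE (Cube D))
  rw [← hconj, LinearMap.trace_conj']

/-- The bound for one vector with all fibres in the subspace. -/
theorem level_term {ρ : ℝ} (hρ0 : 0 ≤ ρ)
    (hc : ∀ h ∈ Vtop (Fin j) (Cube D), ‖Rop D (pT (Fin j) D) h‖ ^ 2 ≤ ρ * ‖h‖ ^ 2)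
    {L₀ L : ℕ} (hL : L₀ ≤ L) (u : WE j (Cube D)) (hV : ∀ S, fibW S u ∈ Vtop (Fin j) (Cube D)) :
    inner ℝ u (YLin j D L u) ≤ ρ ^ (L - L₀) * ∑ S : Bb j (Cube D),
        ‖(Rop D (pT (Fin j) D) ^ L₀) (fibW S u)‖ ^ 2 := by
  have h2 := inner_YLin (D := D) (j := j) L u
  refine (le_of_eq h2).trans ?_
  rw [norm_sq_W, Finset.mul_sum]
  refine Finset.sum_le_sum (fun S _ => ?_)
  have h3 := fib_pow_Rop (D := D) S L u
  rw [h3]
  have h4 : Rop D (pT (Fin j) D) ^ L = Rop D (pT (Fin j) D) ^ (L - L₀) * Rop D (pT (Fin j) D) ^ L₀ := by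
    rw [← pow_add]
    congr 1
    omega
  change ‖(Rop D (pT (Fin j) D) ^ L) (fibW S u)‖ ^ 2 ≤ _
  rw [h4]
  change ‖(Rop D (pT (Fin j) D) ^ (L - L₀)) ((Rop D (pT (Fin j) D) ^ L₀) (fibW S u))‖ ^ 2 ≤ _
  refine contr_pow hρ0 hc _ ?_
  exact Rop_pow_mem_Vtop L₀ (hV S)

/-- The vectors in the image of a layer have all fibres in the subspace. -/
theorem range_fib_mem {u : WE j (Cube D)} (hu : u ∈ LinearMap.range (TL j D)) (S : Bb j (Cube D)) :
    fibW S u ∈ Vtop (Fin j) (Cube D) := by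
  obtain ⟨v, rfl⟩ := hu
  change fibW S (PhiW (v : RegE (Cube D))) ∈ _
  rw [fibW_PhiW]
  exact phi_mem_Vtop _ v.2

/-- **The bound for the trace on a layer.** -/
theorem trace_level {ρ Ξ2 : ℝ} (hρ0 : 0 ≤ ρ)
    (hc : ∀ h ∈ Vtop (Fin j) (Cube D), ‖Rop D (pT (Fin j) D) h‖ ^ 2 ≤ ρ * ‖h‖ ^ 2)
    {L₀ L : ℕ} (hL : L₀ ≤ L)
    (hHS : ∑ x, ∑ y, (((Rm (Fin j) D) ^ L₀) x y) ^ 2 ≤ Ξ2) :
    LinearMap.trace ℝ (Ej (Cube D) j) ((XLin D L).restrict (XLin_mem j L))
      ≤ (Nat.choose (2 ^ D) j : ℝ) * (ρ ^ (L - L₀) * Ξ2) := by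
  rw [trace_conj_step]
  let b := stdOrthonormalBasis ℝ (LinearMap.range (TL j D))
  rw [LinearMap.trace_eq_sum_inner _ b]
  have hterm : ∀ i, inner ℝ (b i) ((YLin j D L).restrict (YLin_mem j D L) (b i))
      ≤ ρ ^ (L - L₀) * ∑ S : Bb j (Cube D),
        ‖(Rop D (pT (Fin j) D) ^ L₀) (fibW S ((b i : LinearMap.range (TL j D)) : WE j (Cube D)))‖ ^ 2 :=
    fun i => level_term hρ0 hc hL _ (fun S => range_fib_mem (b i).2 S)
  have hOrth : Orthonormal ℝ (fun i => ((b i : LinearMap.range (TL j D)) : WE j (Cube D))) :=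
    b.orthonormal.comp_linearIsometry (LinearMap.range (TL j D)).subtypeₗᵢ
  have hsum := sum_images_le (D := D) (j := j) L₀ hOrth
  have hρL : 0 ≤ ρ ^ (L - L₀) := pow_nonneg hρ0 _
  have hcard : (Fintype.card (Bb j (Cube D)) : ℝ) = (Nat.choose (2 ^ D) j : ℝ) := by
    rw [Fintype.card_finset_len, card_cube]
  refine (Finset.sum_le_sum (fun i _ => hterm i)).trans ?_
  rw [← Finset.mul_sum]
  refine (mul_le_mul_of_nonneg_left hsum hρL).trans ?_
  rw [← hcard]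
  calc ρ ^ (L - L₀) * ((Fintype.card (Bb j (Cube D)) : ℝ) * ∑ x, ∑ y, (((Rm (Fin j) D) ^ L₀) x y) ^ 2)
      ≤ ρ ^ (L - L₀) * ((Fintype.card (Bb j (Cube D)) : ℝ) * Ξ2) :=
        mul_le_mul_of_nonneg_left (mul_le_mul_of_nonneg_left hHS (by positivity)) hρL
    _ = _ := by ring

end trace

end Vale.Agent.Lib.P162
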