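import Vale.Agent.Lib.P162.NSpa
import Vale.Agent.Lib.P162.NHyp
import Vale.Agent.Lib.P162.NRen

/-! The representation on injective tuples and the matrix of the network operator. -/

namespace Vale.Agent.Lib.P162

open Equiv Finset Matrix

set_option linter.unusedSectionVars false

section rep

variable {ι Q : Type*} [Fintype ι] [DecidableEq ι] [Fintype Q] [DecidableEq Q]

/-- The action of a permutation on injective tuples. -/
def actE (g : Perm Q) : (ι ↪ Q) ≃ (ι ↪ Q) where
  toFun a := a.trans g.toEmbedding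
  invFun a := a.trans (g⁻¹).toEmbedding
  left_inv := by
    intro a
    ext c
    simp
  right_inv := by
    intro a
    ext c
    simp

@[simp] theorem actE_apply (g : Perm Q) (a : ι ↪ Q) (c : ι) : actE g a c = g (a c) := rfl

@[simp] theorem actE_symm_apply (g : Perm Q) (a : ι ↪ Q) (c : ι) : (actE g).symm a c = g⁻¹ (a c) := rfl

/-- The `L²` space of functions on injective tuples. -/
abbrev TupE (ι Q : Type*) [Fintype ι] [DecidableEq ι] [Fintype Q] [DecidableEq Q] :=
  EuclideanSpace ℝ (ι ↪ Q)

/-- The operators of the tuple representation. -/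
noncomputable def piF (g : Perm Q) : TupE ι Q →L[ℝ] TupE ι Q :=
  ((LinearIsometryEquiv.piLpCongrLeft 2 ℝ ℝ (actE (ι := ι) g)).toLinearIsometry).toContinuousLinearMap

theorem piF_apply (g : Perm Q) (h : TupE ι Q) (a : ι ↪ Q) : piF g h a = h ((actE g).symm a) := by
  simp [piF, LinearIsometryEquiv.piLpCongrLeft_apply]

/-- The tuple representation. -/
noncomputable def piT : Perm Q →* (TupE ι Q →L[ℝ] TupE ι Q) where
  toFun := piF
  map_one' := by
    ext h a
    rw [piF_apply]
    congr 1
  map_mul' g k := by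
    ext h a
    change piF (g * k) h a = piF g (piF k h) a
    rw [piF_apply, piF_apply, piF_apply]
    congr 1

theorem piT_apply (g : Perm Q) (h : TupE ι Q) (a : ι ↪ Q) : piT g h a = h ((actE g).symm a) :=
  piF_apply g h a

theorem isOrth_piT : IsOrth (piT : Perm Q →* (TupE ι Q →L[ℝ] TupE ι Q)) := by
  intro g x y
  exact LinearIsometry.inner_map_map
    ((LinearIsometryEquiv.piLpCongrLeft 2 ℝ ℝ (actE (ι := ι) g)).toLinearIsometry) x y

/-- A sum over functions which vanish off the injective ones. -/
theorem sum_of_inj (F : (ι → Q) → ℝ) (hF : ∀ x, ¬ Function.Injective x → F x = 0) :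
    ∑ x, F x = ∑ y : ι ↪ Q, F y := by
  have h1 : ∑ y : ι ↪ Q, F y = ∑ x ∈ Finset.univ.image (fun y : ι ↪ Q => (y : ι → Q)), F x := by
    rw [Finset.sum_image]
    intro a _ b _ hab
    exact DFunLike.coe_injective hab
  rw [h1]
  symm
  refine Finset.sum_subset (Finset.subset_univ _) (fun x _ hx => hF x (fun hinj => hx ?_))
  exact Finset.mem_image.mpr ⟨⟨x, hinj⟩, Finset.mem_univ _, rfl⟩

/-- The sum over all functions of a nonnegative quantity dominates the sum over injective ones. -/
theorem sum_inj_le (F : (ι → Q) → ℝ) (hF : ∀ x, 0 ≤ F x) :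
    ∑ y : ι ↪ Q, F y ≤ ∑ x, F x := by
  have h1 : ∑ y : ι ↪ Q, F y = ∑ x ∈ Finset.univ.image (fun y : ι ↪ Q => (y : ι → Q)), F x := by
    rw [Finset.sum_image]
    intro a _ b _ hab
    exact DFunLike.coe_injective hab
  rw [h1]
  exact Finset.sum_le_sum_of_subset_of_nonneg (Finset.subset_univ _) (fun x _ _ => hF x)

/-- Extension by zero to all tuples. -/
noncomputable def extZ (h : (ι ↪ Q) → ℝ) (x : ι → Q) : ℝ := by
  classical
  exact if hx : Function.Injective x then h ⟨x, hx⟩ else 0

theorem extZ_coe (h : (ι ↪ Q) → ℝ) (y : ι ↪ Q) : extZ h y = h y := by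
  unfold extZ
  rw [dif_pos y.injective]
  rfl

theorem extZ_of_not_inj (h : (ι ↪ Q) → ℝ) {x : ι → Q} (hx : ¬ Function.Injective x) : extZ h x = 0 := by
  unfold extZ
  rw [dif_neg hx]

end rep

theorem avg_avg_mul' {α γ : Type*} [Fintype α] [Fintype γ] (f : α → ℝ) (g : γ → ℝ) :
    avg (fun b => avg (fun c => f b * g c)) = avg f * avg g := by
  have h1 : ∀ b, avg (fun c => f b * g c) = f b * avg g := fun b => avg_mul_left _ _
  simp only [h1]
  exact avg_mul_right _ _

section matrix

variable {ι : Type*} [Fintype ι] [LinearOrder ι] {D : ℕ}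

/-- The matrix of the network on injective tuples. -/
noncomputable def Rm (ι : Type*) [Fintype ι] [LinearOrder ι] (D : ℕ) : Matrix (ι ↪ Cube D) (ι ↪ Cube D) ℝ :=
  fun a y => Ev D Finset.univ (y : ι → Cube D) (a : ι → Cube D)

theorem prod_ind_eq_left (g : Perm (Cube D)) (y a : ι ↪ Cube D) :
    ∏ c, ind (g (y c) = a c) = if y = (actE g).symm a then 1 else 0 := by
  by_cases h : y = (actE g).symm a
  · rw [if_pos h]
    refine Finset.prod_eq_one (fun c _ => ind_true' ?_)
    rw [h]
    simp
  · rw [if_neg h]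
    have : ∃ c, ¬ g (y c) = a c := by
      by_contra hcon
      push Not at hcon
      apply h
      ext c
      simp [← hcon c]
    obtain ⟨c, hc⟩ := this
    exact Finset.prod_eq_zero (Finset.mem_univ c) (ind_false' hc)

theorem prod_ind_eq_right (g : Perm (Cube D)) (y a : ι ↪ Cube D) :
    ∏ c, ind (g (y c) = a c) = if a = actE g y then 1 else 0 := by
  rw [prod_ind_eq_left]
  have : y = (actE g).symm a ↔ a = actE g y := by
    constructor
    · rintro rfl
      simp
    · rintro rfl
      simp
  simp only [this]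

theorem Rm_nonneg (a y : ι ↪ Cube D) : 0 ≤ Rm ι D a y := Ev_nonneg _ _ _ _

theorem Rm_DS : DS (Rm ι D) := by
  refine ⟨Rm_nonneg, fun a => ?_, fun y => ?_⟩
  · unfold Rm Ev
    rw [← avg_sum]
    have : ∀ ω : NC D, ∑ y : ι ↪ Cube D, ∏ c, ind (net D ω (y c) = a c) = 1 := by
      intro ω
      simp only [prod_ind_eq_left]
      simp
    simp only [this]
    exact avg_const 1
  · unfold Rm Ev
    rw [← avg_sum]
    have : ∀ ω : NC D, ∑ a : ι ↪ Cube D, ∏ c, ind (net D ω (y c) = a c) = 1 := by
      intro ω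
      simp only [prod_ind_eq_right]
      simp
    simp only [this]
    exact avg_const 1

/-- The network operator on tuples is the matrix. -/
theorem Rop_piT_apply (h : TupE ι (Cube D)) (a : ι ↪ Cube D) :
    (Rop D (piT : Perm (Cube D) →* (TupE ι (Cube D) →L[ℝ] TupE ι (Cube D))) h) a
      = (Rm ι D).mulVec h a := by
  rw [Rop_eq_avg]
  simp only [Matrix.mulVec, dotProduct]
  unfold Rm Ev avg
  simp only [_root_.smul_apply, _root_.sum_apply]
  have h1 : ((((Fintype.card (NC D) : ℝ)⁻¹) • ∑ ω : NC D, piT (net D ω) h : TupE ι (Cube D))) a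
      = (Fintype.card (NC D) : ℝ)⁻¹ * ∑ ω : NC D, piT (net D ω) h a := by
    simp
  rw [h1]
  have h2 : ∀ ω : NC D, piT (net D ω) h a
      = ∑ y : ι ↪ Cube D, (∏ c, ind (net D ω (y c) = a c)) * h y := by
    intro ω
    rw [piT_apply]
    simp only [prod_ind_eq_left]
    simp
  simp only [h2]
  simp only [Finset.sum_div, div_mul_eq_mul_div, Finset.sum_mul]
  rw [Finset.sum_comm, Finset.mul_sum]
  refine Finset.sum_congr rfl (fun y _ => ?_)
  rw [Finset.mul_sum]
  refine Finset.sum_congr rfl (fun ω _ => ?_)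
  rw [div_eq_inv_mul]


/-- The symmetrised matrix in terms of the two-sided network. -/
theorem Rm_sym_apply (x y : ι ↪ Cube D) :
    ((Rm ι D)ᵀ * Rm ι D) x y = avg (fun β : BC D => ind (∀ c, ben D β (x c) = y c)) := by
  rw [Matrix.mul_apply]
  simp only [Matrix.transpose_apply]
  unfold Rm Ev
  have h1 : ∀ a : ι ↪ Cube D,
      avg (fun ω : NC D => ∏ c, ind (net D ω (x c) = a c)) * avg (fun ω : NC D => ∏ c, ind (net D ω (y c) = a c))
      = avg (fun β : BC D => (∏ c, ind (net D β.1 (x c) = a c)) * ∏ c, ind (net D β.2 (y c) = a c)) := by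
    intro a
    rw [avg_prod]
    exact (avg_avg_mul' _ _).symm
  simp only [h1]
  rw [← avg_sum]
  congr 1
  funext β
  simp only [prod_ind_eq_right]
  have h2 : ∀ a : ι ↪ Cube D, (if a = actE (net D β.1) x then (1 : ℝ) else 0)
      * (if a = actE (net D β.2) y then (1 : ℝ) else 0)
      = if a = actE (net D β.1) x then (if actE (net D β.1) x = actE (net D β.2) y then (1 : ℝ) else 0) else 0 := by
    intro a
    by_cases h : a = actE (net D β.1) x
    · rw [if_pos h, if_pos h, one_mul, h]
    · rw [if_neg h, if_neg h, zero_mul]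
  simp only [h2]
  rw [Finset.sum_ite_eq']
  simp only [Finset.mem_univ, if_true]
  have h3 : actE (net D β.1) x = actE (net D β.2) y ↔ ∀ c, ben D β (x c) = y c := by
    constructor
    · intro h c
      have := DFunLike.congr_fun h c
      simp only [actE_apply] at this
      unfold ben
      simp [this]
    · intro h
      ext c
      simp only [actE_apply]
      rw [← h c]
      unfold ben
      simp
  by_cases h4 : ∀ c, ben D β (x c) = y c
  · rw [if_pos (h3.mpr h4), ind_true' h4]
  · rw [if_neg (fun h => h4 (h3.mp h)), ind_false' h4]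

end matrix

end Vale.Agent.Lib.P162
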