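import Mathlib

/-! The weighted `L^p` chain (M3 of the `O(d)` plan): a pure statement on symmetric doubly stochastic
matrices.  If `avg_y (N K x y)^(17/16) ≤ W x` with `W ≥ 1` then `∑ x y, (K^23 x y)^2 ≤ (avg W^33)^2`. -/

namespace Vale.Agent.Lib.P162

open Finset

section OM3

variable {ι : Type*} {X : Type*} [Fintype X]

/-- The weighted power mean inequality in product form. -/
theorem om3_sum_mul_rpow_le (s : Finset ι) (h a : ι → ℝ) (hh : ∀ i ∈ s, 0 ≤ h i)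
    (ha : ∀ i ∈ s, 0 ≤ a i) {u : ℝ} (hu : 1 ≤ u) :
    (∑ i ∈ s, h i * a i) ^ u ≤ (∑ i ∈ s, h i * a i ^ u) * (∑ i ∈ s, h i) ^ (u - 1) := by
  have hu0 : u ≠ 0 := by linarith
  have hS : 0 ≤ ∑ i ∈ s, h i := Finset.sum_nonneg hh
  rcases hS.eq_or_lt with h0 | hpos
  · have hz : ∀ i ∈ s, h i = 0 := (Finset.sum_eq_zero_iff_of_nonneg hh).mp h0.symm
    have h1 : ∑ i ∈ s, h i * a i = 0 := Finset.sum_eq_zero (fun i hi => by rw [hz i hi, zero_mul])
    have h2 : ∑ i ∈ s, h i * a i ^ u = 0 := Finset.sum_eq_zero (fun i hi => by rw [hz i hi, zero_mul])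
    rw [h1, h2, zero_mul, Real.zero_rpow hu0]
  · set S := ∑ i ∈ s, h i with hSdef
    have hw : ∀ i ∈ s, 0 ≤ h i / S := fun i hi => div_nonneg (hh i hi) hpos.le
    have hw1 : ∑ i ∈ s, h i / S = 1 := by
      rw [← Finset.sum_div, ← hSdef, div_self hpos.ne']
    have key := Real.rpow_arith_mean_le_arith_mean_rpow s (fun i => h i / S) a hw hw1 ha hu
    have e1 : ∑ i ∈ s, h i / S * a i = (∑ i ∈ s, h i * a i) / S := by
      rw [Finset.sum_div]
      exact Finset.sum_congr rfl (fun i _ => by ring)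
    have e2 : ∑ i ∈ s, h i / S * a i ^ u = (∑ i ∈ s, h i * a i ^ u) / S := by
      rw [Finset.sum_div]
      exact Finset.sum_congr rfl (fun i _ => by ring)
    rw [e1, e2] at key
    have hn : 0 ≤ ∑ i ∈ s, h i * a i :=
      Finset.sum_nonneg (fun i hi => mul_nonneg (hh i hi) (ha i hi))
    rw [Real.div_rpow hn hpos.le] at key
    have hSu : 0 < S ^ u := Real.rpow_pos_of_pos hpos u
    rw [div_le_iff₀ hSu] at key
    refine key.trans (le_of_eq ?_)
    have : S ^ u = S ^ (u - 1) * S := by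
      rw [← Real.rpow_add_one hpos.ne']
      congr 1
      ring
    rw [this]
    field_simp

/-- The uniform average. -/
noncomputable def oAvg (f : X → ℝ) : ℝ := (Fintype.card X : ℝ)⁻¹ * ∑ x, f x

theorem oAvg_nonneg {f : X → ℝ} (hf : ∀ x, 0 ≤ f x) : 0 ≤ oAvg f :=
  mul_nonneg (inv_nonneg.mpr (Nat.cast_nonneg _)) (Finset.sum_nonneg (fun x _ => hf x))

theorem oAvg_mono {f g : X → ℝ} (h : ∀ x, f x ≤ g x) : oAvg f ≤ oAvg g :=
  mul_le_mul_of_nonneg_left (Finset.sum_le_sum (fun x _ => h x))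
    (inv_nonneg.mpr (Nat.cast_nonneg _))

theorem oAvg_const_mul (c : ℝ) (f : X → ℝ) : oAvg (fun x => c * f x) = c * oAvg f := by
  unfold oAvg
  rw [← Finset.mul_sum]
  ring

theorem oAvg_mul_const (c : ℝ) (f : X → ℝ) : oAvg (fun x => f x * c) = oAvg f * c := by
  unfold oAvg
  rw [← Finset.sum_mul]
  ring

theorem oAvg_comm {Y : Type*} [Fintype Y] (f : X → Y → ℝ) :
    oAvg (fun x => oAvg (fun y => f x y)) = oAvg (fun y => oAvg (fun x => f x y)) := by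
  unfold oAvg
  simp_rw [← Finset.mul_sum]
  rw [Finset.sum_comm]
  ring

variable [Nonempty X]

theorem oCard_pos : (0 : ℝ) < (Fintype.card X : ℝ) := by exact_mod_cast Fintype.card_pos

/-- Power mean for the uniform average. -/
theorem oAvg_rpow_le {f : X → ℝ} (hf : ∀ x, 0 ≤ f x) {r : ℝ} (hr : 1 ≤ r) :
    oAvg f ^ r ≤ oAvg (fun x => f x ^ r) := by
  have hN : (0 : ℝ) < (Fintype.card X : ℝ) := oCard_pos
  have hw1 : ∑ _x : X, (Fintype.card X : ℝ)⁻¹ = 1 := by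
    simp [Finset.card_univ, hN.ne']
  have key := Real.rpow_arith_mean_le_arith_mean_rpow Finset.univ
    (fun _ : X => (Fintype.card X : ℝ)⁻¹) f (fun _ _ => (inv_pos.mpr hN).le) hw1
    (fun x _ => hf x) hr
  unfold oAvg
  simpa [Finset.mul_sum] using key

/-- Hölder for the uniform average, in the form used here. -/
theorem oAvg_holder {f g : X → ℝ} (hf : ∀ x, 0 ≤ f x) (hg : ∀ x, 0 ≤ g x) {p q : ℝ}
    (hpq : p.HolderConjugate q) :
    oAvg (fun x => f x * g x) ≤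
      oAvg (fun x => f x ^ p) ^ (1 / p) * oAvg (fun x => g x ^ q) ^ (1 / q) := by
  have hN : (0 : ℝ) < (Fintype.card X : ℝ) := oCard_pos
  have key := Real.inner_le_Lp_mul_Lq_of_nonneg (Finset.univ : Finset X) hpq
    (fun x _ => hf x) (fun x _ => hg x)
  have hp0 : 0 < p := hpq.pos
  have hq0 : 0 < q := hpq.symm.pos
  have hs : 1 / p + 1 / q = 1 := by
    have := hpq.inv_add_inv_eq_one
    simpa [one_div] using this
  have h1 : 0 ≤ ∑ x, f x ^ p := Finset.sum_nonneg (fun x _ => Real.rpow_nonneg (hf x) _)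
  have h2 : 0 ≤ ∑ x, g x ^ q := Finset.sum_nonneg (fun x _ => Real.rpow_nonneg (hg x) _)
  unfold oAvg
  rw [Real.mul_rpow (inv_nonneg.mpr hN.le) h1, Real.mul_rpow (inv_nonneg.mpr hN.le) h2]
  have h3 : (Fintype.card X : ℝ)⁻¹ ^ (1 / p) * (Fintype.card X : ℝ)⁻¹ ^ (1 / q)
      = (Fintype.card X : ℝ)⁻¹ := by
    rw [← Real.rpow_add (inv_pos.mpr hN), hs, Real.rpow_one]
  calc (Fintype.card X : ℝ)⁻¹ * ∑ x, f x * g x
      ≤ (Fintype.card X : ℝ)⁻¹ * ((∑ x, f x ^ p) ^ (1 / p) * (∑ x, g x ^ q) ^ (1 / q)) :=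
        mul_le_mul_of_nonneg_left key (inv_nonneg.mpr hN.le)
    _ = _ := by
        nth_rewrite 1 [← h3]
        ring

end OM3

section Chain

variable {X : Type*} [Fintype X] [Nonempty X]

/-- The pointwise Jensen plus Hölder step. -/
theorem om3_pointwise (K : X → X → ℝ) (hK0 : ∀ x y, 0 ≤ K x y) (hK1 : ∀ x, ∑ y, K x y = 1)
    {g : X → ℝ} (hg : ∀ x, 0 ≤ g x) {p u : ℝ} (hp : 1 ≤ p) (hu : 1 ≤ u) (y : X) :
    (∑ x, K y x * g x) ^ (p * u) ≤
      oAvg (fun x => g x ^ p * ((Fintype.card X : ℝ) * K y x) ^ u) *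
        oAvg (fun x => g x ^ p) ^ (u - 1) := by
  have hN : (0 : ℝ) < (Fintype.card X : ℝ) := oCard_pos
  have hp0 : (0 : ℝ) ≤ p := by linarith
  have hu0 : (0 : ℝ) < u := by linarith
  have hnn : 0 ≤ ∑ x, K y x * g x := Finset.sum_nonneg (fun x _ => mul_nonneg (hK0 y x) (hg x))
  have h1 : (∑ x, K y x * g x) ^ p ≤ ∑ x, K y x * g x ^ p :=
    Real.rpow_arith_mean_le_arith_mean_rpow Finset.univ (K y) g (fun x _ => hK0 y x) (hK1 y)
      (fun x _ => hg x) hp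
  have hh : ∀ x, 0 ≤ g x ^ p := fun x => Real.rpow_nonneg (hg x) _
  have h2 := om3_sum_mul_rpow_le Finset.univ (fun x => g x ^ p)
    (fun x => (Fintype.card X : ℝ) * K y x) (fun x _ => hh x)
    (fun x _ => mul_nonneg hN.le (hK0 y x)) hu
  have e1 : ∑ x, K y x * g x ^ p =
      (Fintype.card X : ℝ)⁻¹ * ∑ x, g x ^ p * ((Fintype.card X : ℝ) * K y x) := by
    rw [Finset.mul_sum]
    refine Finset.sum_congr rfl (fun x _ => ?_)
    field_simp
  rw [Real.rpow_mul hnn]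
  have h3 : ((∑ x, K y x * g x) ^ p) ^ u ≤ (∑ x, K y x * g x ^ p) ^ u :=
    Real.rpow_le_rpow (Real.rpow_nonneg hnn _) h1 hu0.le
  refine h3.trans ?_
  rw [e1, Real.mul_rpow (inv_nonneg.mpr hN.le)
    (Finset.sum_nonneg (fun x _ => mul_nonneg (hh x) (mul_nonneg hN.le (hK0 y x))))]
  have h4 := mul_le_mul_of_nonneg_left h2 (Real.rpow_nonneg (inv_nonneg.mpr hN.le) u)
  refine h4.trans (le_of_eq ?_)
  unfold oAvg
  have hS : 0 ≤ ∑ x, g x ^ p := Finset.sum_nonneg (fun x _ => hh x)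
  rw [Real.mul_rpow (inv_nonneg.mpr hN.le) hS]
  have e2 : (Fintype.card X : ℝ)⁻¹ ^ u =
      (Fintype.card X : ℝ)⁻¹ * (Fintype.card X : ℝ)⁻¹ ^ (u - 1) := by
    rw [← Real.rpow_one_add' (inv_nonneg.mpr hN.le) (by linarith)]
    congr 1
    ring
  rw [e2]
  ring

/-- Averaging the pointwise step in `y`. -/
theorem om3_average (K : X → X → ℝ) (hK0 : ∀ x y, 0 ≤ K x y) (hKs : ∀ x y, K x y = K y x)
    (hK1 : ∀ x, ∑ y, K x y = 1) (W : X → ℝ) {u : ℝ} (hu : 1 ≤ u)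
    (hW : ∀ x, oAvg (fun y => ((Fintype.card X : ℝ) * K x y) ^ u) ≤ W x)
    {g : X → ℝ} (hg : ∀ x, 0 ≤ g x) {p : ℝ} (hp : 1 ≤ p) :
    oAvg (fun y => (∑ x, K y x * g x) ^ (p * u)) ≤
      oAvg (fun x => W x * g x ^ p) * oAvg (fun x => g x ^ p) ^ (u - 1) := by
  have hh : ∀ x, 0 ≤ g x ^ p := fun x => Real.rpow_nonneg (hg x) _
  have hE : 0 ≤ oAvg (fun x => g x ^ p) ^ (u - 1) := Real.rpow_nonneg (oAvg_nonneg hh) _
  have h1 : oAvg (fun y => (∑ x, K y x * g x) ^ (p * u)) ≤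
      oAvg (fun y => oAvg (fun x => g x ^ p * ((Fintype.card X : ℝ) * K y x) ^ u) *
        oAvg (fun x => g x ^ p) ^ (u - 1)) :=
    oAvg_mono (fun y => om3_pointwise K hK0 hK1 hg hp hu y)
  refine h1.trans ?_
  rw [oAvg_mul_const, oAvg_comm]
  refine mul_le_mul_of_nonneg_right ?_ hE
  refine oAvg_mono (fun x => ?_)
  have e : oAvg (fun y => g x ^ p * ((Fintype.card X : ℝ) * K y x) ^ u) =
      g x ^ p * oAvg (fun y => ((Fintype.card X : ℝ) * K x y) ^ u) := by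
    rw [← oAvg_const_mul]
    congr 1
    funext y
    rw [hKs y x]
  rw [e, mul_comm (W x)]
  exact mul_le_mul_of_nonneg_left (hW x) (hh x)

/-- The constant `κ = 34/33`. -/
noncomputable def oKap : ℝ := 34 / 33

/-- One step of the chain: `E(κ q, K g) ≤ A^(1/33) E(q, g)^κ`. -/
theorem om3_step (K : X → X → ℝ) (hK0 : ∀ x y, 0 ≤ K x y) (hKs : ∀ x y, K x y = K y x)
    (hK1 : ∀ x, ∑ y, K x y = 1) (W : X → ℝ) (hW0 : ∀ x, 0 ≤ W x)
    (hW : ∀ x, oAvg (fun y => ((Fintype.card X : ℝ) * K x y) ^ (17 / 16 : ℝ)) ≤ W x)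
    {g : X → ℝ} (hg : ∀ x, 0 ≤ g x) {q : ℝ} (hq : 33 / 32 ≤ q) :
    oAvg (fun y => (∑ x, K y x * g x) ^ (oKap * q)) ≤
      oAvg (fun x => W x ^ (33 : ℝ)) ^ (1 / 33 : ℝ) * oAvg (fun x => g x ^ q) ^ oKap := by
  have hq0 : 0 < q := by linarith
  have hp : (1 : ℝ) ≤ 32 / 33 * q := by linarith
  have e0 : (32 / 33 * q) * (17 / 16) = oKap * q := by
    unfold oKap
    ring
  have h1 := om3_average K hK0 hKs hK1 W (u := 17 / 16) (by norm_num) hW hg hp
  rw [e0] at h1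
  refine h1.trans ?_
  have hh : ∀ x, 0 ≤ g x ^ (32 / 33 * q) := fun x => Real.rpow_nonneg (hg x) _
  have hconj : (33 : ℝ).HolderConjugate (33 / 32) := by
    rw [Real.holderConjugate_iff]
    constructor <;> norm_num
  have h2 := oAvg_holder (f := W) (g := fun x => g x ^ (32 / 33 * q)) hW0 hh hconj
  have e1 : ∀ x, (g x ^ (32 / 33 * q)) ^ (33 / 32 : ℝ) = g x ^ q := by
    intro x
    rw [← Real.rpow_mul (hg x)]
    congr 1
    ring
  simp only [e1] at h2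
  set E := oAvg (fun x => g x ^ q) with hE
  have hE0 : 0 ≤ E := oAvg_nonneg (fun x => Real.rpow_nonneg (hg x) _)
  -- monotonicity of the norm
  have h3 : oAvg (fun x => g x ^ (32 / 33 * q)) ≤ E ^ (32 / 33 : ℝ) := by
    have h4 := oAvg_rpow_le hh (r := 33 / 32) (by norm_num)
    simp only [e1] at h4
    have h5 : (oAvg (fun x => g x ^ (32 / 33 * q)) ^ (33 / 32 : ℝ)) ^ (32 / 33 : ℝ) ≤ E ^ (32 / 33 : ℝ) :=
      Real.rpow_le_rpow (Real.rpow_nonneg (oAvg_nonneg hh) _) h4 (by norm_num)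
    rw [← Real.rpow_mul (oAvg_nonneg hh)] at h5
    norm_num at h5
    norm_num
    exact h5
  set A := oAvg (fun x => W x ^ (33 : ℝ)) with hA
  have hA0 : 0 ≤ A := oAvg_nonneg (fun x => Real.rpow_nonneg (hW0 x) _)
  have hm0 : 0 ≤ oAvg (fun x => g x ^ (32 / 33 * q)) := oAvg_nonneg hh
  have h6 : oAvg (fun x => g x ^ (32 / 33 * q)) ^ ((17 / 16 : ℝ) - 1) ≤
      (E ^ (32 / 33 : ℝ)) ^ ((17 / 16 : ℝ) - 1) :=
    Real.rpow_le_rpow hm0 h3 (by norm_num)
  have h7 : (E ^ (32 / 33 : ℝ)) ^ ((17 / 16 : ℝ) - 1) = E ^ (2 / 33 : ℝ) := by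
    rw [← Real.rpow_mul hE0]
    norm_num
  rw [h7] at h6
  have h8 : (1 / (33 / 32) : ℝ) = 32 / 33 := by norm_num
  rw [h8] at h2
  calc oAvg (fun x => W x * g x ^ (32 / 33 * q)) *
        oAvg (fun x => g x ^ (32 / 33 * q)) ^ ((17 / 16 : ℝ) - 1)
      ≤ (A ^ (1 / 33 : ℝ) * E ^ (32 / 33 : ℝ)) * E ^ (2 / 33 : ℝ) :=
        mul_le_mul h2 h6 (Real.rpow_nonneg hm0 _)
          (mul_nonneg (Real.rpow_nonneg hA0 _) (Real.rpow_nonneg hE0 _))
    _ = A ^ (1 / 33 : ℝ) * E ^ oKap := by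
        rw [mul_assoc]
        congr 1
        unfold oKap
        rcases hE0.eq_or_lt with h0 | hpos
        · rw [← h0]
          rw [Real.zero_rpow (by norm_num), Real.zero_rpow (by norm_num), Real.zero_rpow (by norm_num)]
          ring
        · rw [← Real.rpow_add hpos]
          norm_num

/-- The chain of exponents for a fixed starting vector. -/
theorem om3_iter (K : X → X → ℝ) (hK0 : ∀ x y, 0 ≤ K x y) (hKs : ∀ x y, K x y = K y x)
    (hK1 : ∀ x, ∑ y, K x y = 1) (W : X → ℝ) (hW0 : ∀ x, 0 ≤ W x)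
    (hW : ∀ x, oAvg (fun y => ((Fintype.card X : ℝ) * K x y) ^ (17 / 16 : ℝ)) ≤ W x)
    {A : ℝ} (hAdef : A = oAvg (fun x => W x ^ (33 : ℝ))) (hA : 1 ≤ A)
    (G : ℕ → X → ℝ) (hG0 : ∀ i y, 0 ≤ G i y) (hGs : ∀ i y, G (i + 1) y = ∑ z, K y z * G i z)
    {B : ℝ} (hB : 0 ≤ B) (h0 : oAvg (fun y => G 0 y ^ (17 / 16 : ℝ)) ≤ B) (i : ℕ) :
    oAvg (fun y => G i y ^ ((17 / 16 : ℝ) * oKap ^ i)) ≤ (B * A) ^ (oKap ^ i) / A := by
  have hApos : 0 < A := by linarith
  have hkap : 1 ≤ oKap := by unfold oKap; norm_num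
  induction i with
  | zero =>
    simp only [pow_zero, mul_one, Real.rpow_one]
    rw [mul_div_cancel_right₀ _ hApos.ne']
    exact h0
  | succ i ih =>
    have hq : (33 / 32 : ℝ) ≤ (17 / 16 : ℝ) * oKap ^ i := by
      have : (1 : ℝ) ≤ oKap ^ i := one_le_pow₀ hkap
      nlinarith
    have hs := om3_step K hK0 hKs hK1 W hW0 hW (g := G i) (hG0 i) hq
    rw [← hAdef] at hs
    have e0 : oKap * ((17 / 16 : ℝ) * oKap ^ i) = (17 / 16 : ℝ) * oKap ^ (i + 1) := by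
      rw [pow_succ]; ring
    rw [e0] at hs
    simp only [← hGs] at hs
    refine hs.trans ?_
    have hk0 : 0 ≤ oKap := by linarith
    have hbase : 0 ≤ oAvg (fun x => G i x ^ ((17 / 16 : ℝ) * oKap ^ i)) :=
      oAvg_nonneg (fun x => Real.rpow_nonneg (hG0 i x) _)
    have hBA : 0 ≤ B * A := mul_nonneg hB hApos.le
    have h1 : oAvg (fun x => G i x ^ ((17 / 16 : ℝ) * oKap ^ i)) ^ oKap ≤
        ((B * A) ^ (oKap ^ i) / A) ^ oKap := Real.rpow_le_rpow hbase ih hk0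
    have hpw : 0 ≤ (B * A) ^ (oKap ^ i) := Real.rpow_nonneg hBA _
    have e1 : ((B * A) ^ (oKap ^ i) / A) ^ oKap = (B * A) ^ (oKap ^ (i + 1)) / A ^ oKap := by
      rw [Real.div_rpow hpw hApos.le, ← Real.rpow_mul hBA, pow_succ]
    have hAk : A ^ oKap = A ^ (1 / 33 : ℝ) * A := by
      rw [← Real.rpow_add_one hApos.ne']
      unfold oKap
      norm_num
    calc A ^ (1 / 33 : ℝ) * oAvg (fun x => G i x ^ ((17 / 16 : ℝ) * oKap ^ i)) ^ oKap
        ≤ A ^ (1 / 33 : ℝ) * ((B * A) ^ (oKap ^ i) / A) ^ oKap :=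
          mul_le_mul_of_nonneg_left h1 (Real.rpow_nonneg hApos.le _)
      _ = (B * A) ^ oKap ^ (i + 1) / A := by
          rw [e1, hAk]
          have : A ^ (1 / 33 : ℝ) ≠ 0 := (Real.rpow_pos_of_pos hApos _).ne'
          field_simp

/-- **The weighted `L^p` chain.** -/
theorem weighted_Lp_chain [DecidableEq X] (K : Matrix X X ℝ) (hK0 : ∀ x y, 0 ≤ K x y)
    (hKs : ∀ x y, K x y = K y x) (hK1 : ∀ x, ∑ y, K x y = 1) (W : X → ℝ) (hW1 : ∀ x, 1 ≤ W x)
    (hW : ∀ x, (Fintype.card X : ℝ)⁻¹ * ∑ y, ((Fintype.card X : ℝ) * K x y) ^ (17 / 16 : ℝ) ≤ W x) :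
    ∑ x, ∑ y, ((K ^ 23) x y) ^ 2 ≤ ((Fintype.card X : ℝ)⁻¹ * ∑ x, W x ^ 33) ^ 2 := by
  have hN : (0 : ℝ) < (Fintype.card X : ℝ) := oCard_pos
  have hW0 : ∀ x, 0 ≤ W x := fun x => by linarith [hW1 x]
  set A := oAvg (fun x => W x ^ (33 : ℝ)) with hAdef
  have hA : 1 ≤ A := by
    have h1 : oAvg (fun _ : X => (1 : ℝ)) ≤ A := oAvg_mono (fun x =>
      Real.one_le_rpow (hW1 x) (by norm_num))
    have h2 : oAvg (fun _ : X => (1 : ℝ)) = 1 := by
      unfold oAvg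
      simp [Finset.card_univ, hN.ne']
    linarith
  have hApos : 0 < A := by linarith
  have hAeq : A = (Fintype.card X : ℝ)⁻¹ * ∑ x, W x ^ 33 := by
    rw [hAdef]
    unfold oAvg
    congr 1
    refine Finset.sum_congr rfl (fun x _ => ?_)
    exact_mod_cast Real.rpow_natCast (W x) 33
  rw [← hAeq]
  have hpow0 : ∀ (n : ℕ) x y, 0 ≤ (K ^ n) x y := by
    intro n
    induction n with
    | zero =>
      intro x y
      rw [pow_zero, Matrix.one_apply]
      split_ifs <;> norm_num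
    | succ n ih =>
      intro x y
      rw [pow_succ, Matrix.mul_apply]
      exact Finset.sum_nonneg (fun z _ => mul_nonneg (ih x z) (hK0 z y))
  -- for each `x`, the second moment of the row of `K^23`
  have hrow : ∀ x, oAvg (fun y => ((Fintype.card X : ℝ) * (K ^ 23) x y) ^ 2) ≤
      (W x * A) ^ (32 / 17 : ℝ) := by
    intro x
    let G : ℕ → X → ℝ := fun i y => (Fintype.card X : ℝ) * (K ^ (i + 1)) x y
    have hG0 : ∀ i y, 0 ≤ G i y := fun i y => mul_nonneg hN.le (hpow0 _ _ _)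
    have hGs : ∀ i y, G (i + 1) y = ∑ z, K y z * G i z := by
      intro i y
      change (Fintype.card X : ℝ) * (K ^ (i + 1 + 1)) x y = ∑ z, K y z * ((Fintype.card X : ℝ) * (K ^ (i + 1)) x z)
      rw [pow_succ (K) (i + 1), Matrix.mul_apply, Finset.mul_sum]
      refine Finset.sum_congr rfl (fun z _ => ?_)
      rw [hKs z y]
      ring
    have h0 : oAvg (fun y => G 0 y ^ (17 / 16 : ℝ)) ≤ W x := by
      have := hW x
      have e : ∀ y, G 0 y = (Fintype.card X : ℝ) * K x y := by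
        intro y
        change (Fintype.card X : ℝ) * (K ^ (0 + 1)) x y = _
        rw [zero_add, pow_one]
      simp only [e]
      exact this
    have hit := om3_iter K hK0 hKs hK1 W hW0
      (fun x => hW x) hAdef hA G hG0 hGs (hW0 x) h0 22
    set k : ℝ := oKap ^ 22 with hk
    have hk1 : (32 / 17 : ℝ) ≤ k := by
      rw [hk]
      unfold oKap
      norm_num
    have hkpos : 0 < k := by linarith
    set q : ℝ := 17 / 16 * k with hq
    have hq2 : 2 ≤ q := by rw [hq]; linarith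
    have hq0 : 0 < q := by linarith
    have hfun : (fun y => ((Fintype.card X : ℝ) * (K ^ 23) x y) ^ 2) = fun y => (G 22 y) ^ (2 : ℝ) := by
      funext y
      change _ = ((Fintype.card X : ℝ) * (K ^ (22 + 1)) x y) ^ (2 : ℝ)
      exact (Real.rpow_two _).symm
    rw [hfun]
    -- power mean from exponent `2` to exponent `q`
    have hsq0 : ∀ y, 0 ≤ G 22 y ^ (2 : ℝ) := fun y => Real.rpow_nonneg (hG0 _ _) _
    have hr : (1 : ℝ) ≤ q / 2 := by linarith
    have hpm := oAvg_rpow_le hsq0 hr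
    have ee : ∀ y, (G 22 y ^ (2 : ℝ)) ^ (q / 2) = G 22 y ^ q := by
      intro y
      rw [← Real.rpow_mul (hG0 _ _)]
      congr 1
      field_simp
    simp only [ee] at hpm
    have hle : oAvg (fun y => G 22 y ^ (2 : ℝ)) ^ (q / 2) ≤ (W x * A) ^ k / A := hpm.trans hit
    have hBA : 0 ≤ W x * A := mul_nonneg (hW0 x) hApos.le
    have hle2 : oAvg (fun y => G 22 y ^ (2 : ℝ)) ^ (q / 2) ≤ (W x * A) ^ k :=
      hle.trans (div_le_self (Real.rpow_nonneg hBA _) hA)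
    have hm0 : 0 ≤ oAvg (fun y => G 22 y ^ (2 : ℝ)) := oAvg_nonneg hsq0
    have hq20 : (0 : ℝ) < 2 / q := by positivity
    have h5 := Real.rpow_le_rpow (Real.rpow_nonneg hm0 _) hle2 hq20.le
    rw [← Real.rpow_mul hm0, ← Real.rpow_mul hBA] at h5
    have e1 : q / 2 * (2 / q) = 1 := by field_simp
    have e2 : k * (2 / q) = 32 / 17 := by
      rw [hq]
      field_simp
      norm_num
    rw [e1, e2, Real.rpow_one] at h5
    exact h5
  have hsum : ∑ x, ∑ y, ((K ^ 23) x y) ^ 2 =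
      oAvg (fun x => oAvg (fun y => ((Fintype.card X : ℝ) * (K ^ 23) x y) ^ 2)) := by
    unfold oAvg
    rw [Finset.mul_sum]
    refine Finset.sum_congr rfl (fun x _ => ?_)
    rw [← mul_assoc, Finset.mul_sum]
    refine Finset.sum_congr rfl (fun y _ => ?_)
    field_simp
  rw [hsum]
  have h1 : oAvg (fun x => oAvg (fun y => ((Fintype.card X : ℝ) * (K ^ 23) x y) ^ 2)) ≤
      oAvg (fun x => (W x * A) ^ (32 / 17 : ℝ)) := oAvg_mono hrow
  refine h1.trans ?_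
  have e3 : ∀ x, (W x * A) ^ (32 / 17 : ℝ) = A ^ (32 / 17 : ℝ) * W x ^ (32 / 17 : ℝ) := by
    intro x
    rw [Real.mul_rpow (hW0 x) hApos.le]
    ring
  simp only [e3]
  rw [oAvg_const_mul]
  have h2 : oAvg (fun x => W x ^ (32 / 17 : ℝ)) ≤ A ^ (32 / 561 : ℝ) := by
    have hnn : ∀ x, 0 ≤ W x ^ (32 / 17 : ℝ) := fun x => Real.rpow_nonneg (hW0 x) _
    have hpm := oAvg_rpow_le hnn (r := 561 / 32) (by norm_num)
    have ee : ∀ x, (W x ^ (32 / 17 : ℝ)) ^ (561 / 32 : ℝ) = W x ^ (33 : ℝ) := by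
      intro x
      rw [← Real.rpow_mul (hW0 x)]
      norm_num
    simp only [ee] at hpm
    rw [← hAdef] at hpm
    have h3 := Real.rpow_le_rpow (Real.rpow_nonneg (oAvg_nonneg hnn) _) hpm
      (by norm_num : (0 : ℝ) ≤ 32 / 561)
    rw [← Real.rpow_mul (oAvg_nonneg hnn)] at h3
    norm_num at h3
    norm_num
    exact h3
  calc A ^ (32 / 17 : ℝ) * oAvg (fun x => W x ^ (32 / 17 : ℝ))
      ≤ A ^ (32 / 17 : ℝ) * A ^ (32 / 561 : ℝ) :=
        mul_le_mul_of_nonneg_left h2 (Real.rpow_nonneg hApos.le _)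
    _ = A ^ (64 / 33 : ℝ) := by
        rw [← Real.rpow_add hApos]
        norm_num
    _ ≤ A ^ (2 : ℝ) := Real.rpow_le_rpow_of_exponent_le hA (by norm_num)
    _ = A ^ 2 := Real.rpow_two A

end Chain

end Vale.Agent.Lib.P162
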