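import Vale.Agent.Lib.P162.NCard

/-! Gram matrices of tuple functions with vanishing marginals (multiplicity trick, module M4a). -/

namespace Vale.Agent.Lib.P162

open Finset

set_option linter.unusedSectionVars false

section gram

variable {I J Q : Type*} [Fintype I] [DecidableEq I] [Fintype J] [DecidableEq J] [Fintype Q]
  [DecidableEq Q]

open Classical in
/-- Gram sum over functions injective on `A`. -/
noncomputable def gramS (U : (I → Q) → ℝ) (A : Finset J) (ι ι' : I → J) : ℝ :=
  ∑ x : J → Q, if Set.InjOn x A then U (x ∘ ι) * U (x ∘ ι') else 0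

/-- The normalising constant. -/
noncomputable def gramZ (k j n : ℕ) : ℝ :=
  (n : ℝ) ^ (j - k) * ∏ i ∈ Finset.Ico k j, (((n : ℝ) - i) / n)

/-- The normalising constant for a set of size `m`. -/
noncomputable def gramZA (k j n m : ℕ) : ℝ :=
  (n : ℝ) ^ (j - k) * ∏ i ∈ Finset.Ico k m, (((n : ℝ) - i) / n)

theorem gramZA_succ {k j n m : ℕ} (h : k ≤ m) :
    gramZA k j n (m + 1) = gramZA k j n m * (((n : ℝ) - m) / n) := by
  unfold gramZA
  rw [Finset.prod_Ico_succ_top h]
  ring

theorem gramZA_nonneg {k j n m : ℕ} (h : m ≤ n) : 0 ≤ gramZA k j n m := by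
  unfold gramZA
  refine mul_nonneg (by positivity) (Finset.prod_nonneg ?_)
  intro i hi
  have hi' := (Finset.mem_Ico.mp hi).2
  have : (i : ℝ) ≤ n := by exact_mod_cast (hi'.le.trans h)
  exact div_nonneg (by linarith) (Nat.cast_nonneg _)

/-- Sum over all functions of a function of the restriction along an injection. -/
theorem sum_comp_inj (ι : I → J) (hι : Function.Injective ι) (F : (I → Q) → ℝ) :
    ∑ x : J → Q, F (x ∘ ι) =
      (Fintype.card Q : ℝ) ^ (Fintype.card J - Fintype.card I) * ∑ w, F w := by
  classical
  let e₁ := Equiv.piEquivPiSubtypeProd (fun j => j ∈ Set.range ι) (fun _ : J => Q)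
  let e₂ : ({j // j ∈ Set.range ι} → Q) ≃ (I → Q) :=
    Equiv.arrowCongr (Equiv.ofInjective ι hι).symm (Equiv.refl Q)
  have h1 : ∀ x : J → Q, x ∘ ι = e₂ (e₁ x).1 := by
    intro x
    rfl
  have h2 : ∑ x : J → Q, F (x ∘ ι) = ∑ x : J → Q, F (e₂ (e₁ x).1) :=
    Finset.sum_congr rfl (fun x _ => by rw [h1])
  rw [h2, Equiv.sum_comp e₁ (fun p => F (e₂ p.1)), Fintype.sum_prod_type]
  simp only [Finset.sum_const, Finset.card_univ, nsmul_eq_mul]
  rw [Equiv.sum_comp e₂ (fun p => (Fintype.card ({j // ¬ j ∈ Set.range ι} → Q) : ℝ) * F p),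
    ← Finset.mul_sum]
  congr 1
  rw [Fintype.card_fun]
  have h3 : Fintype.card {j // ¬ j ∈ Set.range ι} = Fintype.card J - Fintype.card I := by
    rw [Fintype.card_subtype_compl]
    congr 1
    exact Fintype.card_congr (Equiv.ofInjective ι hι).symm
  push_cast
  rw [h3]

theorem injOn_update_iff {A : Finset J} {a : J} (ha : a ∈ A) (x : J → Q) (z : Q) :
    Set.InjOn (Function.update x a z) (A : Set J) ↔
      Set.InjOn x ((A.erase a : Finset J) : Set J) ∧ z ∉ (A.erase a).image x := by
  constructor
  · intro h
    refine ⟨?_, ?_⟩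
    · intro p hp q hq hpq
      have hp' := Finset.mem_erase.mp (Finset.mem_coe.mp hp)
      have hq' := Finset.mem_erase.mp (Finset.mem_coe.mp hq)
      apply h (Finset.mem_coe.mpr hp'.2) (Finset.mem_coe.mpr hq'.2)
      rw [Function.update_of_ne hp'.1, Function.update_of_ne hq'.1]
      exact hpq
    · intro hz
      obtain ⟨d, hd, hdz⟩ := Finset.mem_image.mp hz
      have hd' := Finset.mem_erase.mp hd
      have := h (Finset.mem_coe.mpr hd'.2) (Finset.mem_coe.mpr ha) (by
        rw [Function.update_of_ne hd'.1, Function.update_self]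
        exact hdz)
      exact hd'.1 this
  · rintro ⟨h1, h2⟩ p hp q hq hpq
    by_cases hpa : p = a
    · by_cases hqa : q = a
      · rw [hpa, hqa]
      · exfalso
        subst hpa
        rw [Function.update_self, Function.update_of_ne hqa] at hpq
        exact h2 (Finset.mem_image.mpr ⟨q, Finset.mem_erase.mpr ⟨hqa, Finset.mem_coe.mp hq⟩, hpq.symm⟩)
    · by_cases hqa : q = a
      · exfalso
        subst hqa
        rw [Function.update_self, Function.update_of_ne hpa] at hpq
        exact h2 (Finset.mem_image.mpr ⟨p, Finset.mem_erase.mpr ⟨hpa, Finset.mem_coe.mp hp⟩, hpq⟩)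
      · rw [Function.update_of_ne hpa, Function.update_of_ne hqa] at hpq
        exact h1 (Finset.mem_coe.mpr (Finset.mem_erase.mpr ⟨hpa, Finset.mem_coe.mp hp⟩))
          (Finset.mem_coe.mpr (Finset.mem_erase.mpr ⟨hqa, Finset.mem_coe.mp hq⟩)) hpq

theorem sum_ite_not_mem (S : Finset Q) (g : Q → ℝ) :
    ∑ z : Q, (if z ∈ S then 0 else g z) = ∑ z : Q, g z - ∑ z ∈ S, g z := by
  have h1 : ∑ z : Q, (if z ∈ S then g z else 0) = ∑ z ∈ S, g z := by
    rw [Finset.sum_ite_mem]
    simp
  rw [← h1, ← Finset.sum_sub_distrib]
  refine Finset.sum_congr rfl (fun z _ => ?_)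
  by_cases hz : z ∈ S <;> simp [hz]

variable [Nonempty Q]

theorem card_Q_pos : (0 : ℝ) < (Fintype.card Q : ℝ) := by
  have : 0 < Fintype.card Q := Fintype.card_pos
  exact_mod_cast this

/-- One averaging step for the diagonal. -/
theorem gram_step_diag (U : (I → Q) → ℝ) {A : Finset J} {a : J} (ha : a ∈ A) (ι : I → J)
    (haι : a ∉ Set.range ι) :
    gramS U A ι ι = (((Fintype.card Q : ℝ) - (A.erase a).card) / (Fintype.card Q : ℝ)) *
      gramS U (A.erase a) ι ι := by
  classical
  unfold gramS
  rw [sum_update_avg a, Finset.mul_sum]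
  refine Finset.sum_congr rfl (fun x _ => ?_)
  have hcomp : ∀ z : Q, (Function.update x a z) ∘ ι = x ∘ ι := by
    intro z
    funext i
    have : ι i ≠ a := fun h => haι ⟨i, h⟩
    simp [Function.comp, Function.update_of_ne this]
  have hN := (card_Q_pos (Q := Q)).ne'
  by_cases hx : Set.InjOn x ((A.erase a : Finset J) : Set J)
  · have h1 : ∀ z : Q, (if Set.InjOn (Function.update x a z) (A : Set J) then
        U ((Function.update x a z) ∘ ι) * U ((Function.update x a z) ∘ ι) else 0) =
        if z ∈ (A.erase a).image x then 0 else U (x ∘ ι) * U (x ∘ ι) := by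
      intro z
      simp only [injOn_update_iff ha, hx, true_and, hcomp]
      by_cases hz : z ∈ (A.erase a).image x <;> simp [hz]
    simp only [h1, hx, if_true]
    have h2 : ∑ z : Q, (if z ∈ (A.erase a).image x then 0 else U (x ∘ ι) * U (x ∘ ι)) =
        ((Fintype.card Q : ℝ) - (A.erase a).card) * (U (x ∘ ι) * U (x ∘ ι)) := by
      rw [sum_ite_not_mem, Finset.sum_const, Finset.sum_const, Finset.card_image_of_injOn hx,
        Finset.card_univ, nsmul_eq_mul, nsmul_eq_mul]
      ring
    rw [h2]
    field_simp
  · have h1 : ∀ z : Q, (if Set.InjOn (Function.update x a z) (A : Set J) then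
        U ((Function.update x a z) ∘ ι) * U ((Function.update x a z) ∘ ι) else 0) = 0 := by
      intro z
      exact if_neg (fun h => hx ((injOn_update_iff ha x z).mp h).1)
    rw [if_neg hx]
    simp only [h1, Finset.sum_const_zero, mul_zero]

/-- Diagonal Gram sums. -/
theorem gram_diag_aux (U : (I → Q) → ℝ) (hU0 : ∀ w, ¬Function.Injective w → U w = 0)
    (ι : I → J) (hι : Function.Injective ι) :
    ∀ (m : ℕ) (A : Finset J), A.card = m → (∀ i, ι i ∈ A) →
      gramS U A ι ι = gramZA (Fintype.card I) (Fintype.card J) (Fintype.card Q) m *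
        ∑ w, U w ^ 2 := by
  classical
  intro m
  induction m with
  | zero =>
      intro A hA hAι
      have hA0 : A = ∅ := Finset.card_eq_zero.mp hA
      have hI : IsEmpty I := ⟨fun i => by simpa [hA0] using hAι i⟩
      have hc : Fintype.card I = 0 := Fintype.card_eq_zero
      unfold gramS gramZA
      rw [hA0, hc]
      simp only [Finset.coe_empty, Set.injOn_empty, if_true, Finset.Ico_self, Finset.prod_empty,
        mul_one, tsub_zero]
      have := sum_comp_inj (Q := Q) ι hι (fun w => U w * U w)
      rw [hc, tsub_zero] at this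
      rw [this]
      simp [pow_two]
  | succ m ih =>
      intro A hA hAι
      by_cases hex : ∃ a ∈ A, a ∉ Set.range ι
      · obtain ⟨a, ha, haι⟩ := hex
        have hcard : (A.erase a).card = m := by
          rw [Finset.card_erase_of_mem ha, hA]
          rfl
        have hmem : ∀ i, ι i ∈ A.erase a := fun i =>
          Finset.mem_erase.mpr ⟨fun h => haι ⟨i, h⟩, hAι i⟩
        have hkm : Fintype.card I ≤ m := by
          have h1 : (univ.image ι).card ≤ (A.erase a).card := by
            apply Finset.card_le_card
            intro y hy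
            obtain ⟨i, -, rfl⟩ := Finset.mem_image.mp hy
            exact hmem i
          rw [Finset.card_image_of_injective _ hι, hcard] at h1
          simpa using h1
        rw [gram_step_diag U ha ι haι, ih _ hcard hmem, gramZA_succ hkm, hcard]
        ring
      · push Not at hex
        have hAeq : A = univ.image ι := by
          ext y
          constructor
          · intro hy
            obtain ⟨i, rfl⟩ := hex y hy
            exact Finset.mem_image.mpr ⟨i, Finset.mem_univ _, rfl⟩
          · intro hy
            obtain ⟨i, -, rfl⟩ := Finset.mem_image.mp hy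
            exact hAι i
        have hk : m + 1 = Fintype.card I := by
          rw [← hA, hAeq, Finset.card_image_of_injective _ hι]
          simp
        rw [hk]
        unfold gramS gramZA
        simp only [Finset.Ico_self, Finset.prod_empty, mul_one]
        have h1 := sum_comp_inj (Q := Q) ι hι (fun w => U w * U w)
        have h2 : ∑ w, U w ^ 2 = ∑ w, U w * U w :=
          Finset.sum_congr rfl (fun w _ => pow_two _)
        rw [h2, ← h1]
        refine Finset.sum_congr rfl (fun x _ => ?_)
        by_cases hx : Set.InjOn x (A : Set J)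
        · simp [hx]
        · rw [if_neg hx]
          have : ¬ Function.Injective (x ∘ ι) := by
            intro hinj
            apply hx
            intro p hp q hq hpq
            rw [Finset.mem_coe, hAeq] at hp hq
            obtain ⟨i, -, rfl⟩ := Finset.mem_image.mp hp
            obtain ⟨i', -, rfl⟩ := Finset.mem_image.mp hq
            rw [hinj hpq]
          rw [hU0 _ this]
          simp

theorem gram_diag (U : (I → Q) → ℝ) (hU0 : ∀ w, ¬Function.Injective w → U w = 0)
    (ι : I → J) (hι : Function.Injective ι) :
    gramS U univ ι ι = gramZ (Fintype.card I) (Fintype.card J) (Fintype.card Q) *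
      ∑ w, U w ^ 2 :=
  gram_diag_aux U hU0 ι hι _ univ (by simp) (fun i => Finset.mem_univ _)

/-- One averaging step when the removed point lies in the image of `ι` only. -/
theorem gram_step_off (U : (I → Q) → ℝ) (hU0 : ∀ w, ¬Function.Injective w → U w = 0)
    (hUv : ∀ (w : I → Q) (i : I), ∑ z, U (Function.update w i z) = 0)
    {A : Finset J} (ι ι' : I → J) (hι : Function.Injective ι) (i0 : I) (ha : ι i0 ∈ A)
    (haι' : ι i0 ∉ Set.range ι') :
    gramS U A ι ι' = -((Fintype.card Q : ℝ)⁻¹ *
      ∑ d ∈ (A.erase (ι i0)).filter (fun d => d ∉ Set.range ι),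
        gramS U (A.erase (ι i0)) (Function.update ι i0 d) ι') := by
  classical
  set a := ι i0 with ha_def
  set D := (A.erase a).filter (fun d => d ∉ Set.range ι) with hD
  have hswap : ∑ d ∈ D, gramS U (A.erase a) (Function.update ι i0 d) ι' =
      ∑ x : J → Q, ∑ d ∈ D, if Set.InjOn x ((A.erase a : Finset J) : Set J) then
        U (x ∘ Function.update ι i0 d) * U (x ∘ ι') else 0 := by
    unfold gramS
    exact Finset.sum_comm
  rw [hswap, Finset.mul_sum, ← Finset.sum_neg_distrib]
  unfold gramS
  rw [sum_update_avg a]
  refine Finset.sum_congr rfl (fun x _ => ?_)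
  have hcomp' : ∀ z : Q, (Function.update x a z) ∘ ι' = x ∘ ι' := by
    intro z
    funext i
    have : ι' i ≠ a := fun h => haι' ⟨i, h⟩
    simp [Function.comp, Function.update_of_ne this]
  have hcomp : ∀ z : Q, (Function.update x a z) ∘ ι = Function.update (x ∘ ι) i0 z := by
    intro z
    funext i
    by_cases hi : i = i0
    · subst hi
      simp [ha_def]
    · have : ι i ≠ a := fun h => hi (hι h)
      simp [Function.comp, Function.update_of_ne this, Function.update_of_ne hi]
  by_cases hx : Set.InjOn x ((A.erase a : Finset J) : Set J)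
  · simp only [hx, if_true]
    have h1 : ∀ z : Q, (if Set.InjOn (Function.update x a z) (A : Set J) then
        U ((Function.update x a z) ∘ ι) * U ((Function.update x a z) ∘ ι') else 0) =
        (if z ∈ (A.erase a).image x then 0 else U (Function.update (x ∘ ι) i0 z)) * U (x ∘ ι') := by
      intro z
      simp only [injOn_update_iff ha, hx, true_and, hcomp, hcomp']
      by_cases hz : z ∈ (A.erase a).image x <;> simp [hz]
    simp only [h1]
    rw [← Finset.sum_mul]
    have h2 : ∑ z : Q, (if z ∈ (A.erase a).image x then 0 else U (Function.update (x ∘ ι) i0 z)) =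
        -∑ d ∈ D, U (x ∘ Function.update ι i0 d) := by
      have h3 := hUv (x ∘ ι) i0
      have h5 : ∑ z ∈ (A.erase a).image x, U (Function.update (x ∘ ι) i0 z) =
          ∑ d ∈ A.erase a, U (Function.update (x ∘ ι) i0 (x d)) :=
        Finset.sum_image (fun p hp q hq hpq => hx hp hq hpq)
      have h6 : ∑ d ∈ A.erase a, U (Function.update (x ∘ ι) i0 (x d)) =
          ∑ d ∈ D, U (x ∘ Function.update ι i0 d) := by
        rw [hD, Finset.sum_filter]
        refine Finset.sum_congr rfl (fun d hd => ?_)
        have hd' := Finset.mem_erase.mp hd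
        by_cases hdι : d ∈ Set.range ι
        · obtain ⟨i, rfl⟩ := hdι
          have hi : i ≠ i0 := by
            rintro rfl
            exact hd'.1 rfl
          rw [if_neg (not_not_intro ⟨i, rfl⟩)]
          apply hU0
          intro hinj
          have h7 : Function.update (x ∘ ι) i0 (x (ι i)) i =
              Function.update (x ∘ ι) i0 (x (ι i)) i0 := by
            rw [Function.update_of_ne hi, Function.update_self]
            rfl
          exact hi (hinj h7)
        · rw [if_pos hdι]
          congr 1
          funext i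
          by_cases hi : i = i0
          · subst hi
            simp
          · simp [Function.update_of_ne hi]
      rw [sum_ite_not_mem, h3, h5, h6, zero_sub]
    rw [h2, ← Finset.sum_mul]
    ring
  · have h1 : ∀ z : Q, (if Set.InjOn (Function.update x a z) (A : Set J) then
        U ((Function.update x a z) ∘ ι) * U ((Function.update x a z) ∘ ι') else 0) = 0 := by
      intro z
      exact if_neg (fun h => hx ((injOn_update_iff ha x z).mp h).1)
    simp only [h1, if_neg hx, Finset.sum_const_zero, mul_zero, neg_zero]

/-- Cauchy-Schwarz for Gram sums. -/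
theorem gram_cs (U : (I → Q) → ℝ) (A : Finset J) (ι ι' : I → J) :
    (gramS U A ι ι') ^ 2 ≤ gramS U A ι ι * gramS U A ι' ι' := by
  classical
  unfold gramS
  have h := Finset.sum_mul_sq_le_sq_mul_sq (univ : Finset (J → Q))
    (fun x => if Set.InjOn x (A : Set J) then U (x ∘ ι) else 0)
    (fun x => if Set.InjOn x (A : Set J) then U (x ∘ ι') else 0)
  have e1 : ∀ x : J → Q, (if Set.InjOn x (A : Set J) then U (x ∘ ι) else 0) *
      (if Set.InjOn x (A : Set J) then U (x ∘ ι') else 0) =
      if Set.InjOn x (A : Set J) then U (x ∘ ι) * U (x ∘ ι') else 0 := by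
    intro x
    by_cases hx : Set.InjOn x (A : Set J) <;> simp [hx]
  have e2 : ∀ (y : I → J) (x : J → Q), (if Set.InjOn x (A : Set J) then U (x ∘ y) else 0) ^ 2 =
      if Set.InjOn x (A : Set J) then U (x ∘ y) * U (x ∘ y) else 0 := by
    intro y x
    by_cases hx : Set.InjOn x (A : Set J) <;> simp [hx, pow_two]
  simp only [e1, e2] at h
  exact h

theorem update_injective {ι : I → J} (hι : Function.Injective ι) (i0 : I) {d : J}
    (hd : d ∉ Set.range ι) : Function.Injective (Function.update ι i0 d) := by
  intro p q h
  by_cases hp : p = i0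
  · by_cases hq : q = i0
    · rw [hp, hq]
    · subst hp
      rw [Function.update_self, Function.update_of_ne hq] at h
      exact absurd ⟨q, h.symm⟩ hd
  · by_cases hq : q = i0
    · subst hq
      rw [Function.update_self, Function.update_of_ne hp] at h
      exact absurd ⟨p, h⟩ hd
    · rw [Function.update_of_ne hp, Function.update_of_ne hq] at h
      exact hι h

/-- The off-diagonal decay, on a set `A`. -/
theorem gram_off_aux (U : (I → Q) → ℝ) (hU0 : ∀ w, ¬Function.Injective w → U w = 0)
    (hUv : ∀ (w : I → Q) (i : I), ∑ z, U (Function.update w i z) = 0)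
    (hn : 4 * Fintype.card J ≤ Fintype.card Q) :
    ∀ (m : ℕ) (A : Finset J), A.card = m → ∀ ι ι' : I → J, Function.Injective ι →
      Function.Injective ι' → (∀ i, ι i ∈ A) → (∀ i, ι' i ∈ A) →
      |gramS U A ι ι'| ≤ gramZA (Fintype.card I) (Fintype.card J) (Fintype.card Q) m *
        (∑ w, U w ^ 2) * (2 * (Fintype.card I : ℝ) / Fintype.card Q) ^
          ((univ.image ι \ univ.image ι').card) := by
  classical
  set k := Fintype.card I with hk
  set j := Fintype.card J with hj
  set n := Fintype.card Q with hn'
  set E := ∑ w, U w ^ 2 with hE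
  set lam : ℝ := 2 * (k : ℝ) / n with hlam
  have hnpos : (0 : ℝ) < (n : ℝ) := card_Q_pos
  have hE0 : 0 ≤ E := Finset.sum_nonneg (fun w _ => sq_nonneg _)
  have hlam0 : 0 ≤ lam := by positivity
  -- the case `r = 0`
  have hzero : ∀ (m : ℕ) (A : Finset J), A.card = m → ∀ ι ι' : I → J, Function.Injective ι →
      Function.Injective ι' → (∀ i, ι i ∈ A) → (∀ i, ι' i ∈ A) →
      |gramS U A ι ι'| ≤ gramZA k j n m * E := by
    intro m A hA ι ι' hι hι' h1 h2
    have hm : m ≤ n := by
      have : A.card ≤ j := Finset.card_le_univ A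
      omega
    have hZ : 0 ≤ gramZA k j n m * E := mul_nonneg (gramZA_nonneg hm) hE0
    apply abs_le_of_sq_le_sq _ hZ
    have := gram_cs U A ι ι'
    rw [gram_diag_aux U hU0 ι hι m A hA h1, gram_diag_aux U hU0 ι' hι' m A hA h2] at this
    calc (gramS U A ι ι') ^ 2 ≤ _ := this
      _ = (gramZA k j n m * E) ^ 2 := by ring
  intro m
  induction m with
  | zero =>
      intro A hA ι ι' hι hι' h1 h2
      have hA0 : A = ∅ := Finset.card_eq_zero.mp hA
      have hI : IsEmpty I := ⟨fun i => by simpa [hA0] using h1 i⟩
      have hR : (univ.image ι \ univ.image ι').card = 0 := by simp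
      rw [hR, pow_zero, mul_one]
      exact hzero 0 A hA ι ι' hι hι' h1 h2
  | succ m ih =>
      intro A hA ι ι' hι hι' h1 h2
      by_cases hR0 : (univ.image ι \ univ.image ι').card = 0
      · rw [hR0, pow_zero, mul_one]
        exact hzero (m + 1) A hA ι ι' hι hι' h1 h2
      obtain ⟨a, ha⟩ : (univ.image ι \ univ.image ι').Nonempty :=
        Finset.card_pos.mp (Nat.pos_of_ne_zero hR0)
      obtain ⟨ha1, ha2⟩ := Finset.mem_sdiff.mp ha
      obtain ⟨i0, -, rfl⟩ := Finset.mem_image.mp ha1
      have haι' : ι i0 ∉ Set.range ι' := by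
        rintro ⟨i, hi⟩
        exact ha2 (Finset.mem_image.mpr ⟨i, Finset.mem_univ _, hi⟩)
      set a := ι i0 with ha_def
      set R := (univ.image ι \ univ.image ι').card with hR
      set A' := A.erase a with hA'
      have hcard : A'.card = m := by
        rw [hA', Finset.card_erase_of_mem (h1 i0), hA]
        rfl
      have hmj : m + 1 ≤ j := by
        have : A.card ≤ j := Finset.card_le_univ A
        omega
      have hι'A' : ∀ i, ι' i ∈ A' := fun i =>
        Finset.mem_erase.mpr ⟨fun h => haι' ⟨i, h⟩, h2 i⟩
      have hkm : k ≤ m := by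
        have h3 : (univ.image ι').card ≤ A'.card := by
          apply Finset.card_le_card
          intro y hy
          obtain ⟨i, -, rfl⟩ := Finset.mem_image.mp hy
          exact hι'A' i
        rw [Finset.card_image_of_injective _ hι', hcard] at h3
        simpa using h3
      have hlam1 : lam ≤ 1 := by
        rw [hlam, div_le_one hnpos]
        have : (2 * k : ℕ) ≤ n := by omega
        exact_mod_cast this
      have hcardimg : (univ.image ι).card = (univ.image ι').card := by
        rw [Finset.card_image_of_injective _ hι, Finset.card_image_of_injective _ hι']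
      have hRk : R ≤ k := by
        calc R ≤ (univ.image ι).card := Finset.card_le_card Finset.sdiff_subset
          _ = k := by
            rw [Finset.card_image_of_injective _ hι]
            rfl
      set D := A'.filter (fun d => d ∉ Set.range ι) with hD
      have hZ0 : 0 ≤ gramZA k j n m := gramZA_nonneg (by omega)
      -- bound for each `d`
      have hbound : ∀ d ∈ D, |gramS U A' (Function.update ι i0 d) ι'| ≤
          gramZA k j n m * E * (if d ∈ univ.image ι' then lam ^ (R - 1) else lam ^ R) := by
        intro d hd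
        obtain ⟨hd1, hd2⟩ := Finset.mem_filter.mp hd
        have hinj := update_injective hι i0 hd2
        have hmem : ∀ i, Function.update ι i0 d i ∈ A' := by
          intro i
          by_cases hi : i = i0
          · subst hi
            rw [Function.update_self]
            exact hd1
          · rw [Function.update_of_ne hi]
            exact Finset.mem_erase.mpr ⟨fun h => hi (hι h), h1 i⟩
        have hI := ih A' hcard (Function.update ι i0 d) ι' hinj hι' hmem hι'A'
        refine hI.trans ?_
        have hprod : 0 ≤ gramZA k j n m * E := mul_nonneg hZ0 hE0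
        apply mul_le_mul_of_nonneg_left _ hprod
        have hsub : (univ.image ι \ univ.image ι').erase a ⊆
            univ.image (Function.update ι i0 d) \ univ.image ι' := by
          intro y hy
          obtain ⟨hy1, hy2⟩ := Finset.mem_erase.mp hy
          obtain ⟨hy3, hy4⟩ := Finset.mem_sdiff.mp hy2
          obtain ⟨i, -, rfl⟩ := Finset.mem_image.mp hy3
          have hi : i ≠ i0 := by
            rintro rfl
            exact hy1 rfl
          refine Finset.mem_sdiff.mpr ⟨Finset.mem_image.mpr ⟨i, Finset.mem_univ _, ?_⟩, hy4⟩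
          rw [Function.update_of_ne hi]
        have hcard1 : R - 1 ≤ (univ.image (Function.update ι i0 d) \ univ.image ι').card := by
          have := Finset.card_le_card hsub
          rwa [Finset.card_erase_of_mem ha] at this
        by_cases hdι' : d ∈ univ.image ι'
        · rw [if_pos hdι']
          exact pow_le_pow_of_le_one hlam0 hlam1 hcard1
        · rw [if_neg hdι']
          have hsub2 : insert d ((univ.image ι \ univ.image ι').erase a) ⊆
              univ.image (Function.update ι i0 d) \ univ.image ι' := by
            intro y hy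
            rcases Finset.mem_insert.mp hy with rfl | hy
            · refine Finset.mem_sdiff.mpr ⟨Finset.mem_image.mpr ⟨i0, Finset.mem_univ _, ?_⟩, hdι'⟩
              rw [Function.update_self]
            · exact hsub hy
          have hnot : d ∉ (univ.image ι \ univ.image ι').erase a := by
            intro h
            obtain ⟨-, h⟩ := Finset.mem_erase.mp h
            obtain ⟨h, -⟩ := Finset.mem_sdiff.mp h
            obtain ⟨i, -, rfl⟩ := Finset.mem_image.mp h
            exact hd2 ⟨i, rfl⟩
          have hcard2 := Finset.card_le_card hsub2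
          rw [Finset.card_insert_of_notMem hnot, Finset.card_erase_of_mem ha] at hcard2
          have hRpos : 1 ≤ R := Nat.pos_of_ne_zero hR0
          apply pow_le_pow_of_le_one hlam0 hlam1
          omega
      -- sum over `d`
      have hD1 : (D.filter (fun d => d ∈ univ.image ι')).card ≤ R := by
        have h3 : (D.filter (fun d => d ∈ univ.image ι')).card ≤
            (univ.image ι' \ univ.image ι).card := by
          apply Finset.card_le_card
          intro y hy
          obtain ⟨hy1, hy2⟩ := Finset.mem_filter.mp hy
          obtain ⟨-, hy3⟩ := Finset.mem_filter.mp hy1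
          refine Finset.mem_sdiff.mpr ⟨hy2, ?_⟩
          intro h
          obtain ⟨i, -, rfl⟩ := Finset.mem_image.mp h
          exact hy3 ⟨i, rfl⟩
        rwa [← Finset.card_sdiff_comm hcardimg] at h3
      have hD2 : (D.filter (fun d => ¬ d ∈ univ.image ι')).card ≤ m := by
        calc _ ≤ D.card := Finset.card_filter_le _ _
          _ ≤ A'.card := Finset.card_filter_le _ _
          _ = m := hcard
      have hpow : 0 ≤ lam ^ (R - 1) := pow_nonneg hlam0 _
      have hpow2 : 0 ≤ lam ^ R := pow_nonneg hlam0 _
      have hsumif : ∑ d ∈ D, (if d ∈ univ.image ι' then lam ^ (R - 1) else lam ^ R) ≤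
          (R : ℝ) * lam ^ (R - 1) + (m : ℝ) * lam ^ R := by
        rw [Finset.sum_ite, Finset.sum_const, Finset.sum_const, nsmul_eq_mul, nsmul_eq_mul]
        have hD1' : ((D.filter (fun d => d ∈ univ.image ι')).card : ℝ) ≤ R := by exact_mod_cast hD1
        have hD2' : ((D.filter (fun d => ¬ d ∈ univ.image ι')).card : ℝ) ≤ m := by exact_mod_cast hD2
        exact add_le_add (mul_le_mul_of_nonneg_right hD1' hpow)
          (mul_le_mul_of_nonneg_right hD2' hpow2)
      -- the key numerical inequality
      have hkey : (R : ℝ) * lam ^ (R - 1) + (m : ℝ) * lam ^ R ≤ ((n : ℝ) - m) * lam ^ R := by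
        have hRpos : 1 ≤ R := Nat.pos_of_ne_zero hR0
        have hlamk : (k : ℝ) = lam * ((n : ℝ) / 2) := by
          rw [hlam]
          field_simp
        have h3 : (R : ℝ) * lam ^ (R - 1) ≤ ((n : ℝ) / 2) * lam ^ R := by
          have hRk' : (R : ℝ) ≤ k := by exact_mod_cast hRk
          have e : lam ^ R = lam ^ (R - 1) * lam := by
            rw [← pow_succ]
            congr 1
            omega
          calc (R : ℝ) * lam ^ (R - 1) ≤ (k : ℝ) * lam ^ (R - 1) :=
                mul_le_mul_of_nonneg_right hRk' hpow
            _ = ((n : ℝ) / 2) * lam ^ R := by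
                rw [hlamk, e]
                ring
        have h4 : (m : ℝ) + (n : ℝ) / 2 ≤ (n : ℝ) - m := by
          have : (4 * m : ℕ) ≤ n := by omega
          have h5 : (4 * (m : ℝ)) ≤ n := by exact_mod_cast this
          linarith
        have h5 : ((m : ℝ) + (n : ℝ) / 2) * lam ^ R ≤ ((n : ℝ) - m) * lam ^ R :=
          mul_le_mul_of_nonneg_right h4 hpow2
        nlinarith
      -- assemble
      rw [gram_step_off U hU0 hUv ι ι' hι i0 (h1 i0) haι', abs_neg, abs_mul,
        abs_of_pos (inv_pos.mpr hnpos)]
      have hsum : |∑ d ∈ D, gramS U A' (Function.update ι i0 d) ι'| ≤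
          gramZA k j n m * E * ((R : ℝ) * lam ^ (R - 1) + (m : ℝ) * lam ^ R) := by
        calc |∑ d ∈ D, gramS U A' (Function.update ι i0 d) ι'|
            ≤ ∑ d ∈ D, |gramS U A' (Function.update ι i0 d) ι'| :=
              Finset.abs_sum_le_sum_abs _ _
          _ ≤ ∑ d ∈ D, gramZA k j n m * E *
                (if d ∈ univ.image ι' then lam ^ (R - 1) else lam ^ R) :=
              Finset.sum_le_sum hbound
          _ = gramZA k j n m * E *
                ∑ d ∈ D, (if d ∈ univ.image ι' then lam ^ (R - 1) else lam ^ R) :=
              (Finset.mul_sum _ _ _).symm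
          _ ≤ _ := mul_le_mul_of_nonneg_left hsumif (mul_nonneg hZ0 hE0)
      have hprod : 0 ≤ gramZA k j n m * E := mul_nonneg hZ0 hE0
      calc (n : ℝ)⁻¹ * |∑ d ∈ D, gramS U A' (Function.update ι i0 d) ι'|
          ≤ (n : ℝ)⁻¹ * (gramZA k j n m * E * ((R : ℝ) * lam ^ (R - 1) + (m : ℝ) * lam ^ R)) :=
            mul_le_mul_of_nonneg_left hsum (inv_pos.mpr hnpos).le
        _ ≤ (n : ℝ)⁻¹ * (gramZA k j n m * E * (((n : ℝ) - m) * lam ^ R)) := by
            apply mul_le_mul_of_nonneg_left _ (inv_pos.mpr hnpos).le
            exact mul_le_mul_of_nonneg_left hkey hprod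
        _ = gramZA k j n (m + 1) * E * lam ^ R := by
            rw [gramZA_succ hkm]
            field_simp

/-- The off-diagonal decay of Gram sums. -/
theorem gram_off (U : (I → Q) → ℝ) (hU0 : ∀ w, ¬Function.Injective w → U w = 0)
    (hUv : ∀ (w : I → Q) (i : I), ∑ z, U (Function.update w i z) = 0)
    (ι ι' : I → J) (hι : Function.Injective ι) (hι' : Function.Injective ι')
    (hn : 4 * Fintype.card J ≤ Fintype.card Q) (_hk : 0 < Fintype.card I) :
    |gramS U univ ι ι'| ≤ gramZ (Fintype.card I) (Fintype.card J) (Fintype.card Q) *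
      (∑ w, U w ^ 2) * (2 * (Fintype.card I : ℝ) / Fintype.card Q) ^
        ((univ.image ι \ univ.image ι').card) :=
  gram_off_aux U hU0 hUv hn _ univ (by simp) ι ι' hι hι' (fun _ => Finset.mem_univ _)
    (fun _ => Finset.mem_univ _)

end gram

end Vale.Agent.Lib.P162
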