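import Vale.Agent.Lib.P162.NTra
import Vale.Agent.Lib.P162.OGram

/-! The multiplicity bound: an eigenvector on `k` tokens lifts to `t ^ k` almost orthogonal
eigenvectors on `k * t` tokens, so its eigenvalue is controlled by the Hilbert-Schmidt norm on
`k * t` tokens. -/

namespace Vale.Agent.Lib.P162

open Equiv Finset Matrix

set_option linter.unusedSectionVars false

section lift

variable {I J Q : Type*} [Fintype I] [DecidableEq I] [Fintype J] [DecidableEq J] [Fintype Q]
  [DecidableEq Q]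

/-- Restriction of tuples along an embedding of the labels. -/
def resE (e : I ↪ J) (x : J ↪ Q) : I ↪ Q := e.trans x

@[simp] theorem resE_apply (e : I ↪ J) (x : J ↪ Q) (i : I) : resE e x i = x (e i) := rfl

/-- The lift of a function on `I`-tuples to `J`-tuples. -/
noncomputable def liftL (e : I ↪ J) : TupE I Q →ₗ[ℝ] TupE J Q where
  toFun u := WithLp.toLp 2 (fun x => u (resE e x))
  map_add' u v := by
    ext x
    rfl
  map_smul' c u := by
    ext x
    rfl

theorem liftL_apply (e : I ↪ J) (u : TupE I Q) (x : J ↪ Q) : liftL e u x = u (resE e x) := rfl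

theorem liftL_piT (e : I ↪ J) (g : Perm Q) (u : TupE I Q) :
    liftL e (piT g u) = piT g (liftL e u) := by
  ext x
  rw [liftL_apply, piT_apply, piT_apply, liftL_apply]
  rfl

end lift

section op

variable {I J : Type*} [Fintype I] [DecidableEq I] [Fintype J] [DecidableEq J] {D : ℕ}

theorem liftL_Bop (e : I ↪ J) (u : TupE I (Cube D)) :
    liftL e (Bop D (pT I D) u) = Bop D (pT J D) (liftL e u) := by
  rw [Bop_apply, Bop_apply]
  have h1 := RopA_inter (D := D) (π₁ := pT I D) (π₂ := pT J D) (liftL e)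
    (fun g u => liftL_piT e g u) (Rop D (pT I D) u)
  have h2 := Rop_inter (D := D) (π₁ := pT I D) (π₂ := pT J D) (liftL e)
    (fun g u => liftL_piT e g u) u
  rw [h1, h2]

theorem Bop_pow_lift_eig (e : I ↪ J) {u : TupE I (Cube D)} {μ : ℝ}
    (heig : Bop D (pT I D) u = μ • u) (m : ℕ) :
    ((Bop D (pT J D)) ^ m) (liftL e u) = μ ^ m • liftL e u := by
  have h1 : Bop D (pT J D) (liftL e u) = μ • liftL e u := by
    rw [← liftL_Bop, heig, map_smul]
  induction m with
  | zero => simp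
  | succ m ih =>
    rw [pow_succ]
    change ((Bop D (pT J D)) ^ m) (Bop D (pT J D) (liftL e u)) = _
    rw [h1, map_smul, ih, smul_smul, pow_succ, mul_comm]

end op

section gram

variable {I J Q : Type*} [Fintype I] [DecidableEq I] [Fintype J] [DecidableEq J] [Fintype Q]
  [DecidableEq Q]

/-- The inner product of two lifts as a Gram sum. -/
theorem inner_lift_eq_gramS (e e' : I ↪ J) (u : TupE I Q) :
    ∑ x : J ↪ Q, liftL e u x * liftL e' u x
      = gramS (extZ (u : (I ↪ Q) → ℝ)) Finset.univ (e : I → J) (e' : I → J) := by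
  unfold gramS
  rw [sum_of_inj]
  · refine Finset.sum_congr rfl (fun x _ => ?_)
    have hinj : Set.InjOn (x : J → Q) ((Finset.univ : Finset J) : Set J) :=
      x.injective.injOn
    rw [if_pos hinj]
    have h1 : ((x : J → Q) ∘ (e : I → J)) = (resE e x : I → Q) := rfl
    have h2 : ((x : J → Q) ∘ (e' : I → J)) = (resE e' x : I → Q) := rfl
    rw [h1, h2, extZ_coe, extZ_coe]
    rfl
  · intro x hx
    rw [if_neg]
    intro hinj
    apply hx
    intro a b hab
    exact hinj (by simp) (by simp) hab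

theorem sum_extZ_sq (u : TupE I Q) :
    ∑ w : I → Q, extZ (u : (I ↪ Q) → ℝ) w ^ 2 = ‖u‖ ^ 2 := by
  rw [sum_of_inj]
  · rw [EuclideanSpace.real_norm_sq_eq]
    refine Finset.sum_congr rfl (fun x _ => ?_)
    rw [extZ_coe]
  · intro x hx
    rw [extZ_of_not_inj _ hx]
    simp

end gram

section main

variable {k t : ℕ}

/-- The embedding of `Fin k` into `Fin (k * t)` given by a choice function. -/
def iotaF (f : Fin k → Fin t) : Fin k ↪ Fin (k * t) where
  toFun i := finProdFinEquiv (i, f i)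
  inj' := by
    intro a b hab
    have := finProdFinEquiv.injective hab
    exact (Prod.ext_iff.mp this).1

/-- The number of slots where two choice functions differ. -/
def diffC (f f' : Fin k → Fin t) : ℕ := (Finset.univ.filter (fun i => f i ≠ f' i)).card

theorem card_image_diff (f f' : Fin k → Fin t) :
    (Finset.univ.image (iotaF f : Fin k → Fin (k * t))
        \ Finset.univ.image (iotaF f' : Fin k → Fin (k * t))).card = diffC f f' := by
  have h : Finset.univ.image (iotaF f : Fin k → Fin (k * t))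
        \ Finset.univ.image (iotaF f' : Fin k → Fin (k * t))
      = (Finset.univ.filter (fun i => f i ≠ f' i)).image (iotaF f : Fin k → Fin (k * t)) := by
    ext z
    simp only [Finset.mem_sdiff, Finset.mem_image, Finset.mem_univ, true_and, Finset.mem_filter]
    constructor
    · rintro ⟨⟨i, rfl⟩, h2⟩
      refine ⟨i, ?_, rfl⟩
      intro hi
      apply h2
      refine ⟨i, ?_⟩
      change finProdFinEquiv (i, f' i) = finProdFinEquiv (i, f i)
      rw [hi]
    · rintro ⟨i, hi, rfl⟩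
      refine ⟨⟨i, rfl⟩, ?_⟩
      rintro ⟨i', hi'⟩
      have := finProdFinEquiv.injective hi'
      have h1 := (Prod.ext_iff.mp this).1
      have h2 := (Prod.ext_iff.mp this).2
      simp only at h1 h2
      subst h1
      exact hi h2.symm
  rw [h, Finset.card_image_of_injective _ (iotaF f).injective]
  rfl

/-- The sum of powers over choice functions. -/
theorem sum_diffC (f : Fin k → Fin t) (z : ℝ) :
    ∑ f' : Fin k → Fin t, z ^ diffC f f' = (1 + ((t : ℝ) - 1) * z) ^ k := by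
  have h1 : ∀ f' : Fin k → Fin t, z ^ diffC f f' = ∏ i, (if f i ≠ f' i then z else 1) := by
    intro f'
    unfold diffC
    rw [Finset.prod_ite, Finset.prod_const, Finset.prod_const_one, mul_one]
  simp only [h1]
  have h2 : ∀ i : Fin k, ∑ b : Fin t, (if f i ≠ b then z else 1) = 1 + ((t : ℝ) - 1) * z := by
    intro i
    have h3 : ∀ b : Fin t, (if f i ≠ b then z else 1) = z + (if f i = b then 1 - z else 0) := by
      intro b
      by_cases h : f i = b
      · simp [h]
      · simp [h]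
    simp only [h3, Finset.sum_add_distrib, Finset.sum_const, Finset.card_univ, Fintype.card_fin,
      nsmul_eq_mul, Finset.sum_ite_eq, Finset.mem_univ, if_true]
    ring
  have h4 := Finset.prod_univ_sum (fun _ : Fin k => (Finset.univ : Finset (Fin t)))
    (fun i b => if f i ≠ b then z else (1 : ℝ))
  rw [Fintype.piFinset_univ] at h4
  rw [← h4]
  simp only [h2]
  simp

end main

section bound

variable {D k t : ℕ}

theorem gramZ_pos (hn : 4 * (k * t) ≤ 2 ^ D) (hD : 0 < 2 ^ D) : 0 < gramZ k (k * t) (2 ^ D) := by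
  unfold gramZ
  have hn0 : (0 : ℝ) < ((2 ^ D : ℕ) : ℝ) := by exact_mod_cast hD
  refine mul_pos (pow_pos hn0 _) (Finset.prod_pos (fun i hi => div_pos ?_ hn0))
  have h1 : i < k * t := (Finset.mem_Ico.mp hi).2
  have h2 : i < 2 ^ D := by omega
  have h3 : ((i : ℕ) : ℝ) < ((2 ^ D : ℕ) : ℝ) := by exact_mod_cast h2
  linarith

/-- The inner products of the lifted functions. -/
theorem lift_gram {u : TupE (Fin k) (Cube D)} (hu : u ∈ Vtop (Fin k) (Cube D)) (hnorm : ‖u‖ = 1)
    (hk : 0 < k) (hn : 4 * (k * t) ≤ 2 ^ D) (f f' : Fin k → Fin t) :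
    |∑ x : Fin (k * t) ↪ Cube D, liftL (iotaF f) u x * liftL (iotaF f') u x|
      ≤ gramZ k (k * t) (2 ^ D) * (2 * (k : ℝ) / ((2 ^ D : ℕ) : ℝ)) ^ diffC f f' := by
  rw [inner_lift_eq_gramS]
  have h := gram_off (I := Fin k) (J := Fin (k * t)) (Q := Cube D)
    (extZ (u : (Fin k ↪ Cube D) → ℝ)) (fun w hw => extZ_of_not_inj _ hw)
    (fun w i => (mem_Vtop.mp hu) w i) (iotaF f) (iotaF f') (iotaF f).injective (iotaF f').injective
    (by simpa [card_cube] using hn) (by simpa using hk)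
  rw [sum_extZ_sq, hnorm, card_image_diff] at h
  simpa [card_cube] using h

theorem lift_gram_diag {u : TupE (Fin k) (Cube D)} (hu : u ∈ Vtop (Fin k) (Cube D))
    (hnorm : ‖u‖ = 1) (hk : 0 < k) (hn : 4 * (k * t) ≤ 2 ^ D) (f : Fin k → Fin t) :
    ∑ x : Fin (k * t) ↪ Cube D, liftL (iotaF f) u x * liftL (iotaF f) u x
      = gramZ k (k * t) (2 ^ D) := by
  rw [inner_lift_eq_gramS]
  have h := gram_diag (I := Fin k) (J := Fin (k * t)) (Q := Cube D)
    (extZ (u : (Fin k ↪ Cube D) → ℝ)) (fun w hw => extZ_of_not_inj _ hw)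
    (iotaF f) (iotaF f).injective
  rw [sum_extZ_sq, hnorm] at h
  simpa [card_cube] using h

/-- Frobenius duality for a family of vectors. -/
theorem frob_family {X F : Type*} [Fintype X] [Fintype F] (T : Matrix X X ℝ) (v : F → X → ℝ) :
    (∑ f, ∑ x, ∑ y, v f x * T x y * v f y) ^ 2
      ≤ (∑ x, ∑ y, T x y ^ 2) * ∑ f, ∑ f', (∑ x, v f x * v f' x) ^ 2 := by
  have h1 : ∑ f, ∑ x, ∑ y, v f x * T x y * v f y
      = ∑ p : X × X, T p.1 p.2 * ∑ f, v f p.1 * v f p.2 := by
    rw [Fintype.sum_prod_type]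
    simp only [Finset.mul_sum]
    rw [Finset.sum_comm]
    refine Finset.sum_congr rfl (fun x _ => ?_)
    rw [Finset.sum_comm]
    refine Finset.sum_congr rfl (fun y _ => ?_)
    refine Finset.sum_congr rfl (fun f _ => ?_)
    ring
  have h2 : ∑ x, ∑ y, T x y ^ 2 = ∑ p : X × X, T p.1 p.2 ^ 2 := by
    rw [Fintype.sum_prod_type]
  have h3 : ∑ f, ∑ f', (∑ x, v f x * v f' x) ^ 2
      = ∑ p : X × X, (∑ f, v f p.1 * v f p.2) ^ 2 := by
    rw [Fintype.sum_prod_type]
    have h4 : ∀ f f', (∑ x, v f x * v f' x) ^ 2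
        = ∑ x, ∑ y, (v f x * v f y) * (v f' x * v f' y) := by
      intro f f'
      rw [sq, Finset.sum_mul_sum]
      refine Finset.sum_congr rfl (fun x _ => Finset.sum_congr rfl (fun y _ => ?_))
      ring
    have h5 : ∀ x y, (∑ f, v f x * v f y) ^ 2
        = ∑ f, ∑ f', (v f x * v f y) * (v f' x * v f' y) := by
      intro x y
      rw [sq, Finset.sum_mul_sum]
    simp only [h4, h5]
    calc ∑ f, ∑ f', ∑ x, ∑ y, (v f x * v f y) * (v f' x * v f' y)
        = ∑ f, ∑ x, ∑ f', ∑ y, (v f x * v f y) * (v f' x * v f' y) :=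
          Finset.sum_congr rfl (fun f _ => Finset.sum_comm)
      _ = ∑ f, ∑ x, ∑ y, ∑ f', (v f x * v f y) * (v f' x * v f' y) :=
          Finset.sum_congr rfl (fun f _ => Finset.sum_congr rfl (fun x _ => Finset.sum_comm))
      _ = ∑ x, ∑ f, ∑ y, ∑ f', (v f x * v f y) * (v f' x * v f' y) := Finset.sum_comm
      _ = ∑ x, ∑ y, ∑ f, ∑ f', (v f x * v f y) * (v f' x * v f' y) :=
          Finset.sum_congr rfl (fun x _ => Finset.sum_comm)
  rw [h1, h2, h3]
  exact Finset.sum_mul_sq_le_sq_mul_sq _ _ _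

theorem lam_bound (hk : 0 < k) (ht : 0 < t) (hn : 4 * (k * t) ≤ 2 ^ D) :
    1 + ((t : ℝ) - 1) * (2 * (k : ℝ) / ((2 ^ D : ℕ) : ℝ)) ^ 2 ≤ 5 / 4 := by
  have hD : (0 : ℝ) < ((2 ^ D : ℕ) : ℝ) := by positivity
  set n : ℝ := ((2 ^ D : ℕ) : ℝ) with hnn
  have h1 : 4 * ((k : ℝ) * t) ≤ n := by
    rw [hnn]
    exact_mod_cast hn
  have ht1 : (1 : ℝ) ≤ t := by exact_mod_cast ht
  have hk0 : (0 : ℝ) < k := by exact_mod_cast hk
  have h2 : 4 * (k : ℝ) ≤ n := by nlinarith
  have h3 : ((t : ℝ) - 1) * (2 * (k : ℝ) / n) ^ 2 ≤ 1 / 4 := by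
    rw [div_pow, ← mul_div_assoc, div_le_iff₀ (by positivity)]
    have h4 : ((t : ℝ) - 1) * (2 * (k : ℝ)) ^ 2 ≤ (4 * ((k : ℝ) * t)) * k := by
      nlinarith [sq_nonneg (k : ℝ)]
    have h5 : (4 * ((k : ℝ) * t)) * k ≤ n * k := mul_le_mul_of_nonneg_right h1 hk0.le
    have h6 : n * k ≤ 1 / 4 * n ^ 2 := by nlinarith
    linarith
  linarith

/-- The multiplicity bound: an eigenvalue on `Vtop (Fin k)` is controlled by the
Hilbert-Schmidt norm of the power of the matrix on `k * t` tokens. -/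
theorem mult_bound (hk : 0 < k) (ht : 0 < t) (hn : 4 * (k * t) ≤ 2 ^ D)
    {u : TupE (Fin k) (Cube D)} (hu : u ∈ Vtop (Fin k) (Cube D)) (hnorm : ‖u‖ = 1) {μ : ℝ}
    (hμ0 : 0 ≤ μ) (heig : Bop D (pT (Fin k) D) u = μ • u) (m : ℕ) :
    μ ^ (2 * m) * (t : ℝ) ^ k
      ≤ (5 / 4 : ℝ) ^ k
        * ∑ x, ∑ y, ((((Rm (Fin (k * t)) D)ᵀ * Rm (Fin (k * t)) D) ^ m) x y) ^ 2 := by
  have hD : 0 < 2 ^ D := by positivity
  set T := (((Rm (Fin (k * t)) D)ᵀ * Rm (Fin (k * t)) D) ^ m) with hT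
  set v : (Fin k → Fin t) → (Fin (k * t) ↪ Cube D) → ℝ := fun f x => liftL (iotaF f) u x with hv
  set Z := gramZ k (k * t) (2 ^ D) with hZ
  have hZ0 : 0 < Z := gramZ_pos hn hD
  have htk : (0 : ℝ) < (t : ℝ) ^ k := by
    have : (0 : ℝ) < t := by exact_mod_cast ht
    positivity
  have hmv : ∀ f x, ∑ y, T x y * v f y = μ ^ m * v f x := by
    intro f x
    have h1 := Bop_pow_piT_apply (ι := Fin (k * t)) (D := D) m (liftL (iotaF f) u) x
    have h2 := Bop_pow_lift_eig (J := Fin (k * t)) (iotaF f) heig m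
    have h3 : ((Bop D (piT : Perm (Cube D) →* (TupE (Fin (k * t)) (Cube D) →L[ℝ]
        TupE (Fin (k * t)) (Cube D)))) ^ m) (liftL (iotaF f) u) = μ ^ m • liftL (iotaF f) u := h2
    rw [h3] at h1
    have h4 : (μ ^ m • liftL (iotaF f) u : TupE (Fin (k * t)) (Cube D)) x
        = μ ^ m * liftL (iotaF f) u x := rfl
    rw [h4] at h1
    rw [h1]
    rfl
  have hL : ∑ f, ∑ x, ∑ y, v f x * T x y * v f y = μ ^ m * ((t : ℝ) ^ k * Z) := by
    have h1 : ∀ f, ∑ x, ∑ y, v f x * T x y * v f y = μ ^ m * Z := by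
      intro f
      have h2 : ∀ x, ∑ y, v f x * T x y * v f y = μ ^ m * (v f x * v f x) := by
        intro x
        have h3 : ∑ y, v f x * T x y * v f y = v f x * ∑ y, T x y * v f y := by
          rw [Finset.mul_sum]
          refine Finset.sum_congr rfl (fun y _ => ?_)
          ring
        rw [h3, hmv]
        ring
      simp only [h2]
      rw [← Finset.mul_sum]
      congr 1
      exact lift_gram_diag hu hnorm hk hn f
    simp only [h1]
    simp
    ring
  have hR : ∑ f, ∑ f', (∑ x, v f x * v f' x) ^ 2 ≤ (t : ℝ) ^ k * (Z ^ 2 * (5 / 4 : ℝ) ^ k) := by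
    have h1 : ∀ f : Fin k → Fin t, ∑ f', (∑ x, v f x * v f' x) ^ 2 ≤ Z ^ 2 * (5 / 4 : ℝ) ^ k := by
      intro f
      have h2 : ∀ f', (∑ x, v f x * v f' x) ^ 2
          ≤ Z ^ 2 * ((2 * (k : ℝ) / ((2 ^ D : ℕ) : ℝ)) ^ 2) ^ diffC f f' := by
        intro f'
        have h3 := lift_gram hu hnorm hk hn f f'
        rw [← sq_abs]
        have h4 : 0 ≤ |∑ x, v f x * v f' x| := abs_nonneg _
        calc |∑ x, v f x * v f' x| ^ 2
            ≤ (Z * (2 * (k : ℝ) / ((2 ^ D : ℕ) : ℝ)) ^ diffC f f') ^ 2 :=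
              pow_le_pow_left₀ h4 h3 2
          _ = _ := by
              rw [mul_pow, ← pow_mul, ← pow_mul, mul_comm (diffC f f') 2]
      refine (Finset.sum_le_sum (fun f' _ => h2 f')).trans ?_
      rw [← Finset.mul_sum, sum_diffC]
      refine mul_le_mul_of_nonneg_left ?_ (sq_nonneg _)
      refine pow_le_pow_left₀ ?_ (lam_bound hk ht hn) k
      have ht1 : (1 : ℝ) ≤ t := by exact_mod_cast ht
      have : 0 ≤ ((t : ℝ) - 1) * (2 * (k : ℝ) / ((2 ^ D : ℕ) : ℝ)) ^ 2 :=
        mul_nonneg (by linarith) (sq_nonneg _)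
      linarith
    refine (Finset.sum_le_sum (fun f _ => h1 f)).trans ?_
    simp
  have hF := frob_family T v
  rw [hL] at hF
  set F := ∑ x, ∑ y, T x y ^ 2 with hFdef
  have hF0 : 0 ≤ F := Finset.sum_nonneg (fun x _ => Finset.sum_nonneg (fun y _ => sq_nonneg _))
  have h1 : (μ ^ m * ((t : ℝ) ^ k * Z)) ^ 2 ≤ F * ((t : ℝ) ^ k * (Z ^ 2 * (5 / 4 : ℝ) ^ k)) :=
    hF.trans (mul_le_mul_of_nonneg_left hR hF0)
  have h2 : ((t : ℝ) ^ k * Z ^ 2) * (μ ^ (2 * m) * (t : ℝ) ^ k)
      ≤ ((t : ℝ) ^ k * Z ^ 2) * ((5 / 4 : ℝ) ^ k * F) := by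
    calc ((t : ℝ) ^ k * Z ^ 2) * (μ ^ (2 * m) * (t : ℝ) ^ k)
        = (μ ^ m * ((t : ℝ) ^ k * Z)) ^ 2 := by
          rw [mul_comm 2 m, pow_mul]
          ring
      _ ≤ _ := h1
      _ = _ := by ring
  exact le_of_mul_le_mul_left h2 (by positivity)

end bound

end Vale.Agent.Lib.P162
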