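import Vale.Agent.Lib.P162.NBen

/-! The weighted cycle moment: a twist of the moment step by Hölder's inequality, and the bound
for the exponential moment of the truncated cycle count with a constant exponent. -/

namespace Vale.Agent.Lib.P162

open Equiv Finset

set_option linter.unusedSectionVars false

section split

variable {Y : Type*} [Fintype Y] [DecidableEq Y]

/-- The average over the second flip with two different bases. -/
theorem flip_avg2 {ν c : ℝ} (hν : 0 ≤ ν) (hc : 0 ≤ c) (D : Finset (Bool × Y)) :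
    avg (fun A' : Y → Bool =>
      ν ^ (Finset.univ.filter (fun y => (A' y, y) ∈ D)).card
        * c ^ (Finset.univ.filter (fun y => (!A' y, y) ∈ D)).card)
      ≤ ((ν + c) / 2) ^ D.card := by
  classical
  let φ : Y → Bool → ℝ := fun p a =>
    (if (a, p) ∈ D then ν else 1) * (if (!a, p) ∈ D then c else 1)
  have h1 : ∀ A : Y → Bool, ν ^ (Finset.univ.filter (fun y => (A y, y) ∈ D)).card
        * c ^ (Finset.univ.filter (fun y => (!A y, y) ∈ D)).card = ∏ p, φ p (A p) := by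
    intro A
    rw [pow_card_filter, pow_card_filter, ← Finset.prod_mul_distrib]
  simp only [h1]
  have h3 : ∀ p, 0 ≤ avg (φ p) := by
    intro p
    refine avg_nonneg (fun a => ?_)
    simp only [φ]
    refine mul_nonneg ?_ ?_ <;> split_ifs <;> linarith
  have h4 : ∀ p, avg (φ p) ≤ ((ν + c) / 2) ^ fib D p := by
    intro p
    rw [avg_bool]
    simp only [φ, fib]
    by_cases h0 : (false, p) ∈ D <;> by_cases h1 : (true, p) ∈ D <;> simp [h0, h1]
    all_goals first | nlinarith [sq_nonneg (ν - c)] | linarith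
  calc avg (fun A : Y → Bool => ∏ p, φ p (A p))
      ≤ ∏ p, ((ν + c) / 2) ^ fib D p := avg_fun_prod_le φ _ h3 h4
    _ = ((ν + c) / 2) ^ D.card := by
        rw [Finset.prod_pow_eq_pow_sum, ← card_eq_sum_fib]

/-- The set of positions after the second flip. -/
def DtS (D : Finset (Bool × Y)) (A' : Y → Bool) : Finset (Bool × Y) :=
  D.map (flipPerm A').symm.toEmbedding

/-- The permutation between the two flips. -/
def hhS (t : Perm (Bool × Y)) (A' A : Y → Bool) : Perm (Bool × Y) := flipPerm A * t * flipPerm A'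

/-- The positions on the side opposite to the second flip. -/
def Y1S (D : Finset (Bool × Y)) (A' : Y → Bool) : Finset Y :=
  Finset.univ.filter (fun y => (!A' y, y) ∈ D)

/-- The images of the positions. -/
def ffS (t : Perm (Bool × Y)) (A' : Y → Bool) (y : Y) : Bool × Y := t (!A' y, y)

theorem ffS_inj (t : Perm (Bool × Y)) (A' : Y → Bool) : Function.Injective (ffS t A') := by
  intro y y' h
  have := t.injective h
  exact (Prod.ext_iff.mp this).2

/-- The image set. -/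
def US (t : Perm (Bool × Y)) (D : Finset (Bool × Y)) (A' : Y → Bool) : Finset (Bool × Y) :=
  (Y1S D A').image (ffS t A')

theorem US_card (t : Perm (Bool × Y)) (D : Finset (Bool × Y)) (A' : Y → Bool) :
    (US t D A').card = (Y1S D A').card :=
  Finset.card_image_of_injective _ (ffS_inj t A')

theorem mem_DtS (D : Finset (Bool × Y)) (A' : Y → Bool) (i : Bool) (y : Y) :
    (i, y) ∈ DtS D A' ↔ (xor i (A' y), y) ∈ D := by
  simp only [DtS, Finset.mem_map]
  constructor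
  · rintro ⟨z, hz, hzz⟩
    have h2 : z = flipPerm A' (i, y) := by
      rw [← hzz]
      simp [flipPerm]
    rw [h2] at hz
    simpa using hz
  · intro h
    refine ⟨_, h, ?_⟩
    simp [flipPerm]

theorem D0_DtS_card (D : Finset (Bool × Y)) (A' : Y → Bool) :
    (D0 (DtS D A')).card = (Finset.univ.filter (fun y => (A' y, y) ∈ D)).card := by
  congr 1
  ext y
  simp only [D0, Finset.mem_filter, Finset.mem_univ, true_and]
  rw [mem_DtS]
  simp

theorem D1_DtS_card (t : Perm (Bool × Y)) (D : Finset (Bool × Y)) (A' A : Y → Bool) :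
    (D1 (hhS t A' A) (DtS D A')).card = ((US t D A').filter (fun u => A u.2 ≠ u.1)).card := by
  have h2 : (US t D A').filter (fun u => A u.2 ≠ u.1)
      = (D1 (hhS t A' A) (DtS D A')).image (ffS t A') := by
    ext u
    simp only [US, Finset.mem_filter, Finset.mem_image, D1, Finset.mem_univ, true_and, Y1S]
    constructor
    · rintro ⟨⟨y, hy, rfl⟩, hu⟩
      refine ⟨y, ⟨?_, ?_⟩, rfl⟩
      · rw [mem_DtS]; simpa using hy
      · simp only [hhS, Equiv.Perm.mul_apply]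
        have h3 : flipPerm A' (true, y) = (!A' y, y) := by simp
        rw [h3]
        change (flipPerm A (ffS t A' y)).1 = true
        generalize ffS t A' y = w at hu
        obtain ⟨i, p⟩ := w
        simp only [flipPerm_apply]
        revert hu
        cases i <;> cases A p <;> simp
    · rintro ⟨y, ⟨h3, h4⟩, rfl⟩
      rw [mem_DtS] at h3
      refine ⟨⟨y, by simpa using h3, rfl⟩, ?_⟩
      simp only [hhS, Equiv.Perm.mul_apply] at h4
      have h5 : flipPerm A' (true, y) = (!A' y, y) := by simp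
      rw [h5] at h4
      change (flipPerm A (ffS t A' y)).1 = true at h4
      generalize ffS t A' y = w at h4 ⊢
      obtain ⟨i, p⟩ := w
      simp only [flipPerm_apply] at h4
      revert h4
      cases i <;> cases A p <;> simp
  rw [h2, Finset.card_image_of_injective _ (ffS_inj t A')]

/-- The splitting of the cycle count at a node. -/
theorem cyc_split_flip (σ₀ σ₁ : Perm Y) (t : Perm (Bool × Y)) (D : Finset (Bool × Y))
    (A' A : Y → Bool) :
    cyc (flipPerm A' * (side false σ₀ * side true σ₁) * flipPerm A * t) D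
      ≤ cyc (σ₀ * firstRet false (side true σ₁ * hhS t A' A)) (D0 (DtS D A'))
        + cyc (σ₁ * firstRet true (hhS t A' A)) (D1 (hhS t A' A) (DtS D A')) := by
  have h1 : flipPerm A' * (side false σ₀ * side true σ₁) * flipPerm A * t
      = flipPerm A' * (side false σ₀ * side true σ₁ * hhS t A' A) * (flipPerm A')⁻¹ := by
    simp only [hhS, flipPerm_inv]
    simp only [mul_assoc, flipPerm_mul_self, mul_one]
  rw [h1, cyc_conj]
  exact cyc_split _ _ _ _

end split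

/-- Minkowski's inequality for a two point distribution. -/
theorem slope_rpow {z q r : ℝ} (hz0 : 0 ≤ z) (hz1 : z ≤ 1) (hq : 1 ≤ q) (hr : 1 ≤ r) :
    (1 + z * (q ^ r - 1)) ^ (1 / r) ≤ 1 + z ^ (1 / r) * (q - 1) := by
  have hr0 : 0 < r := by linarith
  let f : Bool → ℝ := fun b => if b then z ^ (1 / r) else (1 - z) ^ (1 / r)
  let g : Bool → ℝ := fun b => if b then z ^ (1 / r) * (q - 1) else 0
  have hf0 : ∀ b, 0 ≤ f b := by
    intro b
    cases b
    · exact Real.rpow_nonneg (by linarith) _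
    · exact Real.rpow_nonneg hz0 _
  have hg0 : ∀ b, 0 ≤ g b := by
    intro b
    cases b
    · exact le_rfl
    · exact mul_nonneg (Real.rpow_nonneg hz0 _) (by linarith)
  have hM := Real.Lp_add_le_of_nonneg (p := r) (Finset.univ : Finset Bool) (f := f) (g := g) hr
    (fun b _ => hf0 b) (fun b _ => hg0 b)
  have e1 : ((z ^ (1 / r)) ^ r) = z := by
    rw [← Real.rpow_mul hz0, one_div, inv_mul_cancel₀ hr0.ne', Real.rpow_one]
  have e2 : (((1 - z) ^ (1 / r)) ^ r) = 1 - z := by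
    rw [← Real.rpow_mul (by linarith), one_div, inv_mul_cancel₀ hr0.ne', Real.rpow_one]
  have h1 : ∑ b, (f b + g b) ^ r = 1 + z * (q ^ r - 1) := by
    rw [Fintype.sum_bool]
    simp only [f, g, if_true, Bool.false_eq_true, if_false, add_zero]
    have : z ^ (1 / r) + z ^ (1 / r) * (q - 1) = z ^ (1 / r) * q := by ring
    rw [this, e2, Real.mul_rpow (Real.rpow_nonneg hz0 _) (by linarith), e1]
    ring
  have h2 : ∑ b, f b ^ r = 1 := by
    rw [Fintype.sum_bool]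
    simp only [f, if_true, Bool.false_eq_true, if_false]
    rw [e1, e2]
    ring
  have h3 : ∑ b, g b ^ r = z * (q - 1) ^ r := by
    rw [Fintype.sum_bool]
    simp only [g, if_true, Bool.false_eq_true, if_false]
    rw [Real.zero_rpow hr0.ne', add_zero,
      Real.mul_rpow (Real.rpow_nonneg hz0 _) (by linarith), e1]
  rw [h1, h2, h3] at hM
  refine hM.trans (le_of_eq ?_)
  rw [Real.one_rpow, Real.mul_rpow hz0 (Real.rpow_nonneg (by linarith) _), ← Real.rpow_mul (by linarith),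
    mul_one_div_cancel hr0.ne', Real.rpow_one]

/-- The weighted moment bound for the two-sided network. -/
def TwB (a₀ a : ℕ) (ν E z : ℝ) : Prop :=
  ∀ (q : ℝ), 1 ≤ q → ∀ (t : Perm (Cube a)) (D S : Finset (Cube a)),
    avg (fun β : BC a => ν ^ Cnt a₀ a S β * q ^ cyc (ben a β * t) D)
      ≤ E ^ S.card * (1 + z * (q - 1)) ^ D.card

theorem Cnt_of_le {a₀ a : ℕ} (h : a ≤ a₀) (S : Finset (Cube a)) (β : BC a) : Cnt a₀ a S β = 0 := by
  have h1 := Cnt_le a₀ a S β
  have h2 : a - a₀ = 0 := by omega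
  rw [h2, Nat.mul_zero] at h1
  omega

theorem twB_base (a₀ : ℕ) (ν : ℝ) : TwB a₀ a₀ ν 1 ((3 / 4 : ℝ) ^ a₀) := by
  intro q hq t D S
  simp only [Cnt_of_le le_rfl, pow_zero, one_mul, one_pow]
  exact cyc_moment a₀ hq t D

theorem twB_mono_z {a₀ a : ℕ} {ν E z z' : ℝ} (hE : 0 ≤ E) (hz : 0 ≤ z) (hzz : z ≤ z')
    (H : TwB a₀ a ν E z) : TwB a₀ a ν E z' := by
  intro q hq t D S
  refine (H q hq t D S).trans ?_
  refine mul_le_mul_of_nonneg_left ?_ (pow_nonneg hE _)
  refine pow_le_pow_left₀ ?_ ?_ _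
  · have := mul_nonneg hz (by linarith : 0 ≤ q - 1)
    linarith
  · have := mul_le_mul_of_nonneg_right hzz (by linarith : 0 ≤ q - 1)
    linarith

/-- The inverse form of the cycle count. -/
theorem cyc_inv_form {a : ℕ} (b τ : Perm (Cube a)) (I : Finset (Cube a)) :
    cyc (b⁻¹ * τ) I = cyc (b * τ⁻¹) (I.map τ.toEmbedding) := by
  have h1 : cyc (b⁻¹ * τ) I = cyc (τ⁻¹ * b) I := by
    rw [← cyc_inv]
    congr 1
  have h2 : b * τ⁻¹ = τ * (τ⁻¹ * b) * τ⁻¹ := by group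
  rw [h1, h2, cyc_conj]
  congr 1
  ext z
  simp

/-- The Hölder step at a node: the two factors of the integrand. -/
theorem twB_inner {a₀ a : ℕ} {ν E z p p' : ℝ} (hν : 1 ≤ ν) (hE : 0 ≤ E) (hz : 0 ≤ z)
    (hpq : p.HolderConjugate p') (H : TwB a₀ a ν E z) {q : ℝ} (hq : 1 ≤ q)
    (τ τ₀ : Perm (Cube a)) (S I D₀ : Finset (Cube a)) :
    avg (fun β : BC a => ν ^ Cnt a₀ a S β
        * (ν ^ cyc ((ben a β)⁻¹ * τ) I * q ^ cyc (ben a β * τ₀) D₀))
      ≤ E ^ S.card * ((1 + z * (ν ^ p - 1)) ^ (1 / p)) ^ I.card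
        * ((1 + z * (q ^ p' - 1)) ^ (1 / p')) ^ D₀.card := by
  have hν0 : 0 < ν := by linarith
  have hq0 : 0 < q := by linarith
  have hp0 : 0 < p := hpq.pos
  have hp'0 : 0 < p' := hpq.symm.pos
  have h11 : 1 / p + 1 / p' = 1 := by
    rw [one_div, one_div]
    exact hpq.inv_add_inv_eq_one
  let w : BC a → ℝ := fun β => ν ^ Cnt a₀ a S β
  have hw : ∀ β, 0 < w β := fun β => pow_pos hν0 _
  let X : BC a → ℝ := fun β => ν ^ cyc ((ben a β)⁻¹ * τ) I
  let Y : BC a → ℝ := fun β => q ^ cyc (ben a β * τ₀) D₀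
  have hX : ∀ β, 0 < X β := fun β => pow_pos hν0 _
  have hY : ∀ β, 0 < Y β := fun β => pow_pos hq0 _
  let f : BC a → ℝ := fun β => w β ^ (1 / p) * X β
  let g : BC a → ℝ := fun β => w β ^ (1 / p') * Y β
  have hf : ∀ β, 0 ≤ f β := fun β => (mul_pos (Real.rpow_pos_of_pos (hw β) _) (hX β)).le
  have hg : ∀ β, 0 ≤ g β := fun β => (mul_pos (Real.rpow_pos_of_pos (hw β) _) (hY β)).le
  have hfg : ∀ β, ν ^ Cnt a₀ a S β * (ν ^ cyc ((ben a β)⁻¹ * τ) I * q ^ cyc (ben a β * τ₀) D₀)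
      = f β * g β := by
    intro β
    have : w β = w β ^ (1 / p) * w β ^ (1 / p') := by
      rw [← Real.rpow_add (hw β), h11, Real.rpow_one]
    change w β * (X β * Y β) = (w β ^ (1 / p) * X β) * (w β ^ (1 / p') * Y β)
    nth_rewrite 1 [this]
    ring
  simp only [hfg]
  have hH := avg_holder hf hg hpq
  refine hH.trans ?_
  have hνp : 1 ≤ ν ^ p := Real.one_le_rpow hν hp0.le
  have hqp : 1 ≤ q ^ p' := Real.one_le_rpow hq hp'0.le
  have h1 : avg (fun β => f β ^ p) ≤ E ^ S.card * (1 + z * (ν ^ p - 1)) ^ I.card := by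
    have h2 := H (ν ^ p) hνp τ⁻¹ (I.map τ.toEmbedding) S
    rw [Finset.card_map] at h2
    refine le_trans (le_of_eq ?_) h2
    congr 1
    funext β
    simp only [f]
    rw [Real.mul_rpow (Real.rpow_pos_of_pos (hw β) _).le (hX β).le, ← Real.rpow_mul (hw β).le,
      one_div_mul_cancel hp0.ne', Real.rpow_one]
    congr 1
    simp only [X]
    rw [cyc_inv_form, ← Real.rpow_natCast, ← Real.rpow_mul hν0.le, ← Real.rpow_natCast (ν ^ p),
      ← Real.rpow_mul hν0.le, mul_comm]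
  have h3 : avg (fun β => g β ^ p') ≤ E ^ S.card * (1 + z * (q ^ p' - 1)) ^ D₀.card := by
    have h2 := H (q ^ p') hqp τ₀ D₀ S
    refine le_trans (le_of_eq ?_) h2
    congr 1
    funext β
    simp only [g]
    rw [Real.mul_rpow (Real.rpow_pos_of_pos (hw β) _).le (hY β).le, ← Real.rpow_mul (hw β).le,
      one_div_mul_cancel hp'0.ne', Real.rpow_one]
    congr 1
    simp only [Y]
    rw [← Real.rpow_natCast, ← Real.rpow_mul hq0.le, ← Real.rpow_natCast (q ^ p'),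
      ← Real.rpow_mul hq0.le, mul_comm]
  have hA0 : 0 ≤ 1 + z * (ν ^ p - 1) := by
    have := mul_nonneg hz (by linarith : 0 ≤ ν ^ p - 1)
    linarith
  have hB0 : 0 ≤ 1 + z * (q ^ p' - 1) := by
    have := mul_nonneg hz (by linarith : 0 ≤ q ^ p' - 1)
    linarith
  have hfp : 0 ≤ avg (fun β => f β ^ p) := avg_nonneg (fun β => Real.rpow_nonneg (hf β) _)
  have hgp : 0 ≤ avg (fun β => g β ^ p') := avg_nonneg (fun β => Real.rpow_nonneg (hg β) _)
  have hE' : 0 ≤ E ^ S.card := pow_nonneg hE _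
  have h4 := Real.rpow_le_rpow hfp h1 (by positivity : 0 ≤ 1 / p)
  have h5 := Real.rpow_le_rpow hgp h3 (by positivity : 0 ≤ 1 / p')
  refine (mul_le_mul h4 h5 (Real.rpow_nonneg hgp _) (Real.rpow_nonneg (by positivity) _)).trans
    (le_of_eq ?_)
  rw [Real.mul_rpow hE' (pow_nonneg hA0 _), Real.mul_rpow hE' (pow_nonneg hB0 _)]
  have h6 : (E ^ S.card) ^ (1 / p) * (E ^ S.card) ^ (1 / p') = E ^ S.card := by
    rcases hE'.eq_or_lt with h0 | h0
    · rw [← h0, Real.zero_rpow (by positivity), zero_mul]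
    · rw [← Real.rpow_add h0, h11, Real.rpow_one]
  have h7 : ((1 + z * (ν ^ p - 1)) ^ I.card) ^ (1 / p) = ((1 + z * (ν ^ p - 1)) ^ (1 / p)) ^ I.card := by
    rw [← Real.rpow_natCast, ← Real.rpow_mul hA0, ← Real.rpow_natCast (_ ^ (1 / p)),
      ← Real.rpow_mul hA0, mul_comm (I.card : ℝ)]
  have h8 : ((1 + z * (q ^ p' - 1)) ^ D₀.card) ^ (1 / p') = ((1 + z * (q ^ p' - 1)) ^ (1 / p')) ^ D₀.card := by
    rw [← Real.rpow_natCast, ← Real.rpow_mul hB0, ← Real.rpow_natCast (_ ^ (1 / p')),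
      ← Real.rpow_mul hB0, mul_comm (D₀.card : ℝ)]
  rw [h7, h8]
  calc (E ^ S.card) ^ (1 / p) * ((1 + z * (ν ^ p - 1)) ^ (1 / p)) ^ I.card
        * ((E ^ S.card) ^ (1 / p') * ((1 + z * (q ^ p' - 1)) ^ (1 / p')) ^ D₀.card)
      = ((E ^ S.card) ^ (1 / p) * (E ^ S.card) ^ (1 / p')) * ((1 + z * (ν ^ p - 1)) ^ (1 / p)) ^ I.card
        * ((1 + z * (q ^ p' - 1)) ^ (1 / p')) ^ D₀.card := by ring
    _ = _ := by rw [h6]

/-- **The twisted moment step.** -/
theorem twB_step {a₀ a : ℕ} (ha : a₀ ≤ a) {ν E z z' K p p' : ℝ} (hν : 1 ≤ ν) (hE : 0 ≤ E)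
    (hK : 1 ≤ K) (hz0 : 0 ≤ z) (hz1 : z ≤ 1) (hpq : p.HolderConjugate p') (H : TwB a₀ a ν E z)
    (hκ : (1 + z * (ν ^ p - 1)) ^ (1 / p) ≤ K ^ 2)
    (hr : 1 / 2 * z ^ (1 / p') + 1 / 4 * z ≤ z') :
    TwB a₀ (a + 1) ν (E * K) z' := by
  classical
  intro q hq t D S
  have hν0 : 0 < ν := by linarith
  have hq0 : 0 < q := by linarith
  have hK0 : 0 < K := by linarith
  have hp0 : 0 < p := hpq.pos
  have hp'1 : 1 ≤ p' := hpq.symm.lt.le
  have hp'0 : 0 < p' := by linarith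
  set b : ℝ := 1 + z * (q - 1) with hb
  have hb1 : 1 ≤ b := by
    have := mul_nonneg hz0 (by linarith : 0 ≤ q - 1)
    linarith
  set y : ℝ := z ^ (1 / p') with hy
  have hy0 : 0 ≤ y := Real.rpow_nonneg hz0 _
  set g₁ : ℝ := 1 + y * (q - 1) with hg₁
  have hg₁1 : 1 ≤ g₁ := by
    have := mul_nonneg hy0 (by linarith : 0 ≤ q - 1)
    linarith
  have hg₁0 : 0 ≤ g₁ := by linarith
  set Kf : ℝ := (1 + z * (ν ^ p - 1)) ^ (1 / p) with hKf
  have hνp : 1 ≤ ν ^ p := Real.one_le_rpow hν hp0.le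
  have hqp : 1 ≤ q ^ p' := Real.one_le_rpow hq hp'0.le
  have hKf0 : 0 ≤ Kf := by
    refine Real.rpow_nonneg ?_ _
    have := mul_nonneg hz0 (by linarith : 0 ≤ ν ^ p - 1)
    linarith
  set g : ℝ := (1 + z * (q ^ p' - 1)) ^ (1 / p') with hg
  have hg0 : 0 ≤ g := by
    refine Real.rpow_nonneg ?_ _
    have := mul_nonneg hz0 (by linarith : 0 ≤ q ^ p' - 1)
    linarith
  have hgg₁ : g ≤ g₁ := slope_rpow hz0 hz1 hq hp'1
  set e := consE a with he
  set t' : Perm (Bool × Cube a) := e.symm.permCongr t with ht'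
  set D' : Finset (Bool × Cube a) := D.map e.symm.toEmbedding with hD'
  have hcard : D'.card = D.card := Finset.card_map _
  -- the pointwise bound at the node
  have hpt : ∀ (A' A : Cube a → Bool) (β₁ β₀ : BC a),
      ν ^ Cnt a₀ (a + 1) S (mkB A A' β₀ β₁) * q ^ cyc (ben (a + 1) (mkB A A' β₀ β₁) * t) D
        ≤ (ν ^ Cnt a₀ a (S1 A S) β₁ * q ^ cyc (ben a β₁ * firstRet true (hhS t' A' A))
            (D1 (hhS t' A' A) (DtS D' A')))
          * (ν ^ Cnt a₀ a (S0 A S) β₀ * (ν ^ cyc ((ben a β₀)⁻¹ * ben a β₁) (S0 A S ∩ S1 A S)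
            * q ^ cyc (ben a β₀ * firstRet false (side true (ben a β₁) * hhS t' A' A))
              (D0 (DtS D' A')))) := by
    intro A' A β₁ β₀
    rw [Cnt_mk, if_pos ha]
    have h1 : cyc (ben (a + 1) (mkB A A' β₀ β₁) * t) D
        ≤ cyc (ben a β₀ * firstRet false (side true (ben a β₁) * hhS t' A' A)) (D0 (DtS D' A'))
          + cyc (ben a β₁ * firstRet true (hhS t' A' A)) (D1 (hhS t' A' A) (DtS D' A')) := by
      rw [ben_mk]
      have h2 : e.permCongr (flipPerm A' * (side false (ben a β₀) * side true (ben a β₁)) * flipPerm A) * t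
          = e.permCongr (flipPerm A' * (side false (ben a β₀) * side true (ben a β₁)) * flipPerm A * t') := by
        ext1 x
        simp [ht', Equiv.permCongr_apply]
      rw [h2]
      exact (cyc_permCongr_le e _ D).trans (cyc_split_flip _ _ _ _ _ _)
    have h3 : q ^ cyc (ben (a + 1) (mkB A A' β₀ β₁) * t) D
        ≤ q ^ (cyc (ben a β₀ * firstRet false (side true (ben a β₁) * hhS t' A' A)) (D0 (DtS D' A'))
          + cyc (ben a β₁ * firstRet true (hhS t' A' A)) (D1 (hhS t' A' A) (DtS D' A'))) :=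
      pow_le_pow_right₀ hq h1
    rw [pow_add q] at h3
    calc ν ^ (Cnt a₀ a (S0 A S) β₀ + Cnt a₀ a (S1 A S) β₁
            + cyc ((ben a β₀)⁻¹ * ben a β₁) (S0 A S ∩ S1 A S))
          * q ^ cyc (ben (a + 1) (mkB A A' β₀ β₁) * t) D
        ≤ ν ^ (Cnt a₀ a (S0 A S) β₀ + Cnt a₀ a (S1 A S) β₁
            + cyc ((ben a β₀)⁻¹ * ben a β₁) (S0 A S ∩ S1 A S)) * _ :=
          mul_le_mul_of_nonneg_left h3 (pow_nonneg hν0.le _)
      _ = _ := by
          rw [pow_add, pow_add]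
          ring
  -- the inner average over the first side
  have hβ₀ : ∀ (A' A : Cube a → Bool) (β₁ : BC a),
      avg (fun β₀ : BC a => ν ^ Cnt a₀ a (S0 A S) β₀ * (ν ^ cyc ((ben a β₀)⁻¹ * ben a β₁) (S0 A S ∩ S1 A S)
            * q ^ cyc (ben a β₀ * firstRet false (side true (ben a β₁) * hhS t' A' A)) (D0 (DtS D' A'))))
        ≤ E ^ (S0 A S).card * Kf ^ (S0 A S ∩ S1 A S).card * g₁ ^ (D0 (DtS D' A')).card := by
    intro A' A β₁
    refine (twB_inner hν hE hz0 hpq H hq _ _ _ _ _).trans ?_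
    refine mul_le_mul_of_nonneg_left (pow_le_pow_left₀ hg0 hgg₁ _) ?_
    exact mul_nonneg (pow_nonneg hE _) (pow_nonneg hKf0 _)
  -- the average over the second side
  have hβ₁ : ∀ (A' A : Cube a → Bool),
      avg (fun β₁ : BC a => avg (fun β₀ : BC a =>
          ν ^ Cnt a₀ (a + 1) S (mkB A A' β₀ β₁) * q ^ cyc (ben (a + 1) (mkB A A' β₀ β₁) * t) D))
        ≤ (E ^ (S1 A S).card * b ^ (D1 (hhS t' A' A) (DtS D' A')).card)
          * (E ^ (S0 A S).card * Kf ^ (S0 A S ∩ S1 A S).card * g₁ ^ (D0 (DtS D' A')).card) := by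
    intro A' A
    set C : ℝ := E ^ (S0 A S).card * Kf ^ (S0 A S ∩ S1 A S).card * g₁ ^ (D0 (DtS D' A')).card with hC
    have hC0 : 0 ≤ C := by positivity
    have h1 : ∀ β₁ : BC a, avg (fun β₀ : BC a =>
          ν ^ Cnt a₀ (a + 1) S (mkB A A' β₀ β₁) * q ^ cyc (ben (a + 1) (mkB A A' β₀ β₁) * t) D)
        ≤ (ν ^ Cnt a₀ a (S1 A S) β₁ * q ^ cyc (ben a β₁ * firstRet true (hhS t' A' A))
            (D1 (hhS t' A' A) (DtS D' A'))) * C := by
      intro β₁
      refine (avg_mono (fun β₀ => hpt A' A β₁ β₀)).trans ?_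
      rw [avg_mul_left]
      refine mul_le_mul_of_nonneg_left (hβ₀ A' A β₁) ?_
      exact mul_nonneg (pow_nonneg hν0.le _) (pow_nonneg hq0.le _)
    refine (avg_mono h1).trans ?_
    rw [avg_mul_right]
    exact mul_le_mul_of_nonneg_right (H q hq _ _ _) hC0
  -- collect the bound on the set of positions
  have hS : ∀ A : Cube a → Bool, E ^ (S1 A S).card * (E ^ (S0 A S).card * Kf ^ (S0 A S ∩ S1 A S).card)
      ≤ (E * K) ^ S.card := by
    intro A
    have h1 := card_S0_add_S1 A S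
    have h2 := card_inter_S a A S
    have h3 : Kf ^ (S0 A S ∩ S1 A S).card ≤ K ^ S.card := by
      calc Kf ^ (S0 A S ∩ S1 A S).card ≤ (K ^ 2) ^ (S0 A S ∩ S1 A S).card := pow_le_pow_left₀ hKf0 hκ _
        _ = K ^ (2 * (S0 A S ∩ S1 A S).card) := by rw [pow_mul]
        _ ≤ K ^ S.card := pow_le_pow_right₀ hK h2
    rw [mul_pow]
    calc E ^ (S1 A S).card * (E ^ (S0 A S).card * Kf ^ (S0 A S ∩ S1 A S).card)
        = E ^ ((S0 A S).card + (S1 A S).card) * Kf ^ (S0 A S ∩ S1 A S).card := by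
          rw [pow_add]
          ring
      _ ≤ _ := by
          rw [h1]
          exact mul_le_mul_of_nonneg_left h3 (pow_nonneg hE _)
  have hA : ∀ A' : Cube a → Bool,
      avg (fun A : Cube a → Bool => avg (fun β₁ : BC a => avg (fun β₀ : BC a =>
          ν ^ Cnt a₀ (a + 1) S (mkB A A' β₀ β₁) * q ^ cyc (ben (a + 1) (mkB A A' β₀ β₁) * t) D)))
        ≤ (E * K) ^ S.card * (g₁ ^ (Finset.univ.filter (fun y => (A' y, y) ∈ D')).card
            * ((1 + b) / 2) ^ (Finset.univ.filter (fun y => (!A' y, y) ∈ D')).card) := by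
    intro A'
    have h1 : ∀ A : Cube a → Bool, avg (fun β₁ : BC a => avg (fun β₀ : BC a =>
          ν ^ Cnt a₀ (a + 1) S (mkB A A' β₀ β₁) * q ^ cyc (ben (a + 1) (mkB A A' β₀ β₁) * t) D))
        ≤ ((E * K) ^ S.card * g₁ ^ (D0 (DtS D' A')).card)
          * b ^ ((US t' D' A').filter (fun u => A u.2 ≠ u.1)).card := by
      intro A
      refine (hβ₁ A' A).trans ?_
      rw [D1_DtS_card]
      have h2 := mul_le_mul_of_nonneg_right (hS A)
        (mul_nonneg (pow_nonneg hg₁0 (D0 (DtS D' A')).card)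
          (pow_nonneg (by linarith : 0 ≤ b) ((US t' D' A').filter (fun u => A u.2 ≠ u.1)).card))
      refine le_trans (le_of_eq ?_) (h2.trans (le_of_eq ?_)) <;> ring
    refine (avg_mono h1).trans ?_
    rw [avg_mul_left]
    have h2 := thin_avg hb1 (US t' D' A')
    have h3 := mul_le_mul_of_nonneg_left h2
      (mul_nonneg (pow_nonneg (mul_nonneg hE hK0.le) S.card) (pow_nonneg hg₁0 (D0 (DtS D' A')).card))
    refine h3.trans (le_of_eq ?_)
    rw [US_card, D0_DtS_card]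
    simp only [Y1S]
    ring
  rw [avg_BC_succ]
  refine (avg_mono hA).trans ?_
  rw [avg_mul_left]
  refine mul_le_mul_of_nonneg_left ?_ (pow_nonneg (mul_nonneg hE hK0.le) _)
  have hc0 : 0 ≤ (1 + b) / 2 := by linarith
  refine (flip_avg2 hg₁0 hc0 D').trans ?_
  rw [hcard]
  refine pow_le_pow_left₀ (by linarith) ?_ _
  have hq1 : 0 ≤ q - 1 := by linarith
  have := mul_le_mul_of_nonneg_right hr hq1
  rw [hg₁, hb]
  nlinarith

/-- A numerical inequality for the powers of two. -/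
theorem two_rpow_sub_one_le {w : ℝ} (hw : 0 ≤ w) : (2 : ℝ) ^ w - 1 ≤ w * (2 : ℝ) ^ w := by
  have h20 : (0 : ℝ) < 2 := by norm_num
  have hl1 : Real.log 2 ≤ 1 := by
    have := Real.log_two_lt_d9
    linarith
  have hl0 : 0 ≤ Real.log 2 := Real.log_nonneg (by norm_num)
  have h1 := Real.add_one_le_exp (-(w * Real.log 2))
  have h2 : (2 : ℝ) ^ (-w) = Real.exp (-(w * Real.log 2)) := by
    rw [Real.rpow_def_of_pos h20]
    congr 1
    ring
  have h3 : (2 : ℝ) ^ w * (2 : ℝ) ^ (-w) = 1 := by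
    rw [← Real.rpow_add h20]
    simp
  have h4 : 1 - w ≤ (2 : ℝ) ^ (-w) := by
    rw [h2]
    have : w * Real.log 2 ≤ w * 1 := mul_le_mul_of_nonneg_left hl1 hw
    linarith
  have h5 : 0 < (2 : ℝ) ^ w := Real.rpow_pos_of_pos h20 _
  have h6 := mul_le_mul_of_nonneg_left h4 h5.le
  rw [h3] at h6
  linarith

theorem two_rpow_eighth_le : (2 : ℝ) ^ (1 / 8 : ℝ) ≤ 11 / 10 := by
  have h : (2 : ℝ) ≤ (11 / 10 : ℝ) ^ (8 : ℝ) := by
    rw [show (8 : ℝ) = ((8 : ℕ) : ℝ) by norm_num, Real.rpow_natCast]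
    norm_num
  have h1 := Real.rpow_le_rpow (by norm_num) h (by norm_num : (0 : ℝ) ≤ 1 / 8)
  refine h1.trans (le_of_eq ?_)
  rw [← Real.rpow_mul (by norm_num)]
  norm_num

theorem two_rpow_quarter_le : (2 : ℝ) ^ (1 / 4 : ℝ) ≤ 6 / 5 := by
  have h : (2 : ℝ) ≤ (6 / 5 : ℝ) ^ (4 : ℝ) := by
    rw [show (4 : ℝ) = ((4 : ℕ) : ℝ) by norm_num, Real.rpow_natCast]
    norm_num
  have h1 := Real.rpow_le_rpow (by norm_num) h (by norm_num : (0 : ℝ) ≤ 1 / 4)
  refine h1.trans (le_of_eq ?_)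
  rw [← Real.rpow_mul (by norm_num)]
  norm_num

/-- The first numerical condition of the chain. -/
theorem chain_kappa (a : ℕ) :
    (1 + (7 / 8 : ℝ) ^ a * (((2 : ℝ) ^ (1 / 8 : ℝ)) ^ ((a : ℝ) + 2) - 1)) ^ (1 / ((a : ℝ) + 2))
      ≤ ((2 : ℝ) ^ ((6 / 5 : ℝ) * (77 / 80 : ℝ) ^ a / 8)) ^ 2 := by
  have h20 : (0 : ℝ) < 2 := by norm_num
  have hA : (0 : ℝ) ≤ (a : ℝ) := Nat.cast_nonneg a
  have hp : (0 : ℝ) < (a : ℝ) + 2 := by linarith
  set κ : ℝ := (6 / 5 : ℝ) * (77 / 80 : ℝ) ^ a with hκ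
  have hκ0 : 0 ≤ κ := by positivity
  set x : ℝ := ((a : ℝ) + 2) / 8 with hx
  have hx0 : 0 ≤ x := by positivity
  have h1 : ((2 : ℝ) ^ (1 / 8 : ℝ)) ^ ((a : ℝ) + 2) = (2 : ℝ) ^ x := by
    rw [← Real.rpow_mul h20.le, hx]
    congr 1
    ring
  rw [h1]
  have h2x : (2 : ℝ) ^ x = ((2 : ℝ) ^ (1 / 8 : ℝ)) ^ a * (2 : ℝ) ^ (1 / 4 : ℝ) := by
    rw [← Real.rpow_natCast, ← Real.rpow_mul h20.le, ← Real.rpow_add h20, hx]
    congr 1
    ring
  have hz0 : (0 : ℝ) ≤ (7 / 8 : ℝ) ^ a := by positivity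
  have h2 : (7 / 8 : ℝ) ^ a * (2 : ℝ) ^ x ≤ κ := by
    rw [h2x, hκ]
    have h3 : ((2 : ℝ) ^ (1 / 8 : ℝ)) ^ a ≤ (11 / 10 : ℝ) ^ a :=
      pow_le_pow_left₀ (Real.rpow_nonneg h20.le _) two_rpow_eighth_le _
    have h4 : (7 / 8 : ℝ) ^ a * (((2 : ℝ) ^ (1 / 8 : ℝ)) ^ a * (2 : ℝ) ^ (1 / 4 : ℝ))
        ≤ (7 / 8 : ℝ) ^ a * ((11 / 10 : ℝ) ^ a * (6 / 5)) := by
      refine mul_le_mul_of_nonneg_left ?_ hz0
      exact mul_le_mul h3 two_rpow_quarter_le (Real.rpow_nonneg h20.le _) (by positivity)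
    refine h4.trans (le_of_eq ?_)
    rw [show (77 / 80 : ℝ) = (7 / 8) * (11 / 10) by norm_num, mul_pow]
    ring
  have h3 : (7 / 8 : ℝ) ^ a * ((2 : ℝ) ^ x - 1) ≤ x * κ := by
    have h4 := two_rpow_sub_one_le hx0
    calc (7 / 8 : ℝ) ^ a * ((2 : ℝ) ^ x - 1) ≤ (7 / 8 : ℝ) ^ a * (x * (2 : ℝ) ^ x) :=
          mul_le_mul_of_nonneg_left h4 hz0
      _ = x * ((7 / 8 : ℝ) ^ a * (2 : ℝ) ^ x) := by ring
      _ ≤ x * κ := mul_le_mul_of_nonneg_left h2 hx0
  have h4 : 1 + (7 / 8 : ℝ) ^ a * ((2 : ℝ) ^ x - 1) ≤ Real.exp (x * κ) := by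
    have := Real.add_one_le_exp (x * κ)
    linarith
  have h5 : 0 ≤ 1 + (7 / 8 : ℝ) ^ a * ((2 : ℝ) ^ x - 1) := by
    have : 1 ≤ (2 : ℝ) ^ x := Real.one_le_rpow (by norm_num) hx0
    have := mul_nonneg hz0 (by linarith : 0 ≤ (2 : ℝ) ^ x - 1)
    linarith
  have h6 := Real.rpow_le_rpow h5 h4 (by positivity : 0 ≤ 1 / ((a : ℝ) + 2))
  refine h6.trans ?_
  rw [← Real.exp_mul]
  have h7 : x * κ * (1 / ((a : ℝ) + 2)) = κ / 8 := by
    rw [hx]
    field_simp
  rw [h7]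
  have h8 : ((2 : ℝ) ^ (κ / 8)) ^ 2 = (2 : ℝ) ^ (κ / 4) := by
    rw [← Real.rpow_natCast, ← Real.rpow_mul h20.le]
    congr 1
    push_cast
    ring
  rw [h8, Real.rpow_def_of_pos h20]
  refine Real.exp_le_exp.2 ?_
  have hl : (1 / 2 : ℝ) ≤ Real.log 2 := by
    have := Real.log_two_gt_d9
    linarith
  nlinarith

/-- The second numerical condition of the chain. -/
theorem chain_rate (a : ℕ) :
    1 / 2 * ((7 / 8 : ℝ) ^ a) ^ (1 / (((a : ℝ) + 2) / ((a : ℝ) + 1))) + 1 / 4 * (7 / 8 : ℝ) ^ a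
      ≤ (7 / 8 : ℝ) ^ (a + 1) := by
  have hA : (0 : ℝ) ≤ (a : ℝ) := Nat.cast_nonneg a
  have hp : (0 : ℝ) < (a : ℝ) + 2 := by linarith
  have hz : (0 : ℝ) < (7 / 8 : ℝ) ^ a := by positivity
  have h1 : 1 / (((a : ℝ) + 2) / ((a : ℝ) + 1)) = 1 + (-(1 / ((a : ℝ) + 2))) := by
    field_simp
    ring
  rw [h1, Real.rpow_add hz, Real.rpow_one, Real.rpow_neg hz.le]
  have h2 : (((7 / 8 : ℝ) ^ a) ^ (1 / ((a : ℝ) + 2)))⁻¹ ≤ 8 / 7 := by
    rw [← Real.inv_rpow hz.le, ← inv_pow]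
    have h3 : ((7 / 8 : ℝ)⁻¹) ^ a ≤ ((8 / 7 : ℝ)) ^ (a + 2) := by
      rw [show ((7 / 8 : ℝ)⁻¹) = 8 / 7 by norm_num]
      exact pow_le_pow_right₀ (by norm_num) (by omega)
    have h4 := Real.rpow_le_rpow (by positivity) h3 (by positivity : 0 ≤ 1 / ((a : ℝ) + 2))
    refine h4.trans (le_of_eq ?_)
    rw [← Real.rpow_natCast, ← Real.rpow_mul (by norm_num)]
    have : (((a + 2 : ℕ) : ℝ)) * (1 / ((a : ℝ) + 2)) = 1 := by
      push_cast
      field_simp
    rw [this, Real.rpow_one]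
  have h5 := mul_le_mul_of_nonneg_left h2 hz.le
  rw [pow_succ]
  nlinarith

/-- The weight in the chain. -/
noncomputable def twE (a₀ a : ℕ) : ℝ := (2 : ℝ) ^ (4 * ((77 / 80 : ℝ) ^ a₀ - (77 / 80 : ℝ) ^ a))

theorem twE_nonneg (a₀ a : ℕ) : 0 ≤ twE a₀ a := Real.rpow_nonneg (by norm_num) _

/-- **The chain of twisted moment steps.** -/
theorem twB_chain (a₀ k : ℕ) :
    TwB a₀ (a₀ + k) ((2 : ℝ) ^ (1 / 8 : ℝ)) (twE a₀ (a₀ + k)) ((7 / 8 : ℝ) ^ (a₀ + k)) := by
  have h20 : (0 : ℝ) < 2 := by norm_num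
  have hν : (1 : ℝ) ≤ (2 : ℝ) ^ (1 / 8 : ℝ) := Real.one_le_rpow (by norm_num) (by norm_num)
  induction k with
  | zero =>
    have h1 : twE a₀ a₀ = 1 := by
      unfold twE
      simp
    simp only [add_zero]
    rw [h1]
    refine twB_mono_z zero_le_one (by positivity) ?_ (twB_base a₀ _)
    exact pow_le_pow_left₀ (by norm_num) (by norm_num) _
  | succ k ih =>
    set a := a₀ + k with ha
    have hA : (0 : ℝ) ≤ (a : ℝ) := Nat.cast_nonneg a
    have hpq : ((a : ℝ) + 2).HolderConjugate (((a : ℝ) + 2) / ((a : ℝ) + 1)) := by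
      rw [Real.holderConjugate_iff]
      refine ⟨by linarith, ?_⟩
      rw [inv_div]
      field_simp
      ring
    set K : ℝ := (2 : ℝ) ^ ((6 / 5 : ℝ) * (77 / 80 : ℝ) ^ a / 8) with hK
    have hK1 : 1 ≤ K := Real.one_le_rpow (by norm_num) (by positivity)
    have hstep := twB_step (a₀ := a₀) (a := a) (by omega) hν (twE_nonneg a₀ a) hK1 (by positivity)
      (pow_le_one₀ (by norm_num) (by norm_num)) hpq ih (chain_kappa a) (chain_rate a)
    have hE : twE a₀ a * K = twE a₀ (a + 1) := by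
      unfold twE
      rw [hK, ← Real.rpow_add h20]
      congr 1
      rw [pow_succ]
      ring
    rw [hE] at hstep
    exact hstep

/-- **The exponential moment of the truncated cycle count.** -/
theorem cnt_exp_moment (a₀ a : ℕ) (S : Finset (Cube a)) :
    avg (fun β : BC a => (2 : ℝ) ^ ((1 / 8 : ℝ) * (Cnt a₀ a S β : ℝ)))
      ≤ (2 : ℝ) ^ (4 * (77 / 80 : ℝ) ^ a₀ * (S.card : ℝ)) := by
  have h20 : (0 : ℝ) < 2 := by norm_num
  rcases le_total a a₀ with h | h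
  · have h1 : ∀ β : BC a, (2 : ℝ) ^ ((1 / 8 : ℝ) * (Cnt a₀ a S β : ℝ)) = 1 := by
      intro β
      rw [Cnt_of_le h]
      simp
    simp only [h1]
    rw [avg_const]
    exact Real.one_le_rpow (by norm_num) (by positivity)
  · obtain ⟨k, rfl⟩ := Nat.exists_eq_add_of_le h
    have h1 := twB_chain a₀ k 1 le_rfl 1 ∅ S
    simp only [one_pow, mul_one, sub_self, mul_zero, add_zero, Finset.card_empty, pow_zero] at h1
    have h2 : ∀ β : BC (a₀ + k), (2 : ℝ) ^ ((1 / 8 : ℝ) * (Cnt a₀ (a₀ + k) S β : ℝ))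
        = ((2 : ℝ) ^ (1 / 8 : ℝ)) ^ Cnt a₀ (a₀ + k) S β := by
      intro β
      rw [Real.rpow_mul h20.le, Real.rpow_natCast]
    simp only [h2]
    refine h1.trans ?_
    unfold twE
    rw [← Real.rpow_natCast, ← Real.rpow_mul h20.le]
    refine Real.rpow_le_rpow_of_exponent_le (by norm_num) ?_
    have h3 : (0 : ℝ) ≤ (S.card : ℝ) := Nat.cast_nonneg _
    have h4 : (0 : ℝ) ≤ (77 / 80 : ℝ) ^ (a₀ + k) := by positivity
    nlinarith

end Vale.Agent.Lib.P162
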