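import Vale.Agent.Lib.P162.OClash
import Vale.Agent.Lib.P162.OTwist
import Vale.Agent.Lib.P162.NTup

/-! The average over tuples of the row weight. -/

namespace Vale.Agent.Lib.P162

open Equiv Finset

set_option linter.unusedSectionVars false

/-- The row weight. -/
noncomputable def Wrow (D : ℕ) (S : Finset (Cube D)) : ℝ :=
  avg (fun β : BC D => (2 : ℝ) ^ ((1 / 16 : ℝ) * (Cnt 0 D S β : ℝ)))

theorem Wrow_nonneg (D : ℕ) (S : Finset (Cube D)) : 0 ≤ Wrow D S :=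
  avg_nonneg (fun _ => by positivity)

/-- The pointwise bound for the power of the row weight. -/
theorem Wrow_pow_le (D a₀ : ℕ) (S : Finset (Cube D)) :
    Wrow D S ^ (33 : ℝ) ≤ (2 : ℝ) ^ (66 * (77 / 80 : ℝ) ^ a₀ * (S.card : ℝ))
      * avg (fun β : BC D => ((2 : ℝ) ^ ((33 / 32 : ℝ) * (a₀ : ℝ))) ^ clash (lab a₀ D β) S) := by
  have h20 : (0 : ℝ) < 2 := by norm_num
  let f : BC D → ℝ := fun β => (2 : ℝ) ^ ((1 / 16 : ℝ) * (Cnt a₀ D S β : ℝ))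
  let g : BC D → ℝ := fun β => (2 : ℝ) ^ (((a₀ : ℝ) / 32) * (clash (lab a₀ D β) S : ℝ))
  have hf : ∀ β, 0 ≤ f β := fun β => by positivity
  have hg : ∀ β, 0 ≤ g β := fun β => by positivity
  have h1 : Wrow D S ≤ avg (fun β => f β * g β) := by
    refine avg_mono (fun β => ?_)
    simp only [f, g]
    rw [← Real.rpow_add h20]
    refine Real.rpow_le_rpow_of_exponent_le (by norm_num) ?_
    have h2 : ((2 * Cnt 0 D S β : ℕ) : ℝ) ≤ ((2 * Cnt a₀ D S β + a₀ * clash (lab a₀ D β) S : ℕ) : ℝ) := by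
      exact_mod_cast Cnt_zero_le_clash a₀ D S β
    push_cast at h2
    nlinarith
  have hCS := avg_holder hf hg Real.HolderConjugate.two_two
  have hf2 : ∀ β, f β ^ (2 : ℝ) = (2 : ℝ) ^ ((1 / 8 : ℝ) * (Cnt a₀ D S β : ℝ)) := by
    intro β
    simp only [f]
    rw [← Real.rpow_mul h20.le]
    congr 1
    ring
  have hg2 : ∀ β, g β ^ (2 : ℝ) = (2 : ℝ) ^ (((a₀ : ℝ) / 16) * (clash (lab a₀ D β) S : ℝ)) := by
    intro β
    simp only [g]
    rw [← Real.rpow_mul h20.le]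
    congr 1
    ring
  simp only [hf2, hg2] at hCS
  set A : ℝ := avg (fun β : BC D => (2 : ℝ) ^ ((1 / 8 : ℝ) * (Cnt a₀ D S β : ℝ))) with hA
  set G : BC D → ℝ := fun β => (2 : ℝ) ^ (((a₀ : ℝ) / 16) * (clash (lab a₀ D β) S : ℝ)) with hG
  have hG0 : ∀ β, 0 ≤ G β := fun β => by
    simp only [hG]
    positivity
  set B : ℝ := avg G with hB
  have hA0 : 0 ≤ A := avg_nonneg (fun _ => by positivity)
  have hB0 : 0 ≤ B := avg_nonneg hG0
  have hA1 : A ≤ (2 : ℝ) ^ (4 * (77 / 80 : ℝ) ^ a₀ * (S.card : ℝ)) := cnt_exp_moment a₀ D S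
  have hW0 := Wrow_nonneg D S
  have h3 : Wrow D S ^ (33 : ℝ)
      ≤ (A ^ (1 / 2 : ℝ) * B ^ (1 / 2 : ℝ)) ^ (33 : ℝ) :=
    Real.rpow_le_rpow hW0 (h1.trans hCS) (by norm_num)
  refine h3.trans ?_
  rw [Real.mul_rpow (Real.rpow_nonneg hA0 _) (Real.rpow_nonneg hB0 _), ← Real.rpow_mul hA0,
    ← Real.rpow_mul hB0]
  have e33 : (1 / 2 : ℝ) * 33 = 33 / 2 := by norm_num
  rw [e33]
  have hAp : A ^ (33 / 2 : ℝ) ≤ (2 : ℝ) ^ (66 * (77 / 80 : ℝ) ^ a₀ * (S.card : ℝ)) := by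
    have h4 := Real.rpow_le_rpow hA0 hA1 (by norm_num : (0 : ℝ) ≤ 33 / 2)
    refine h4.trans (le_of_eq ?_)
    rw [← Real.rpow_mul h20.le]
    congr 1
    ring
  have hBp : B ^ (33 / 2 : ℝ)
      ≤ avg (fun β : BC D => ((2 : ℝ) ^ ((33 / 32 : ℝ) * (a₀ : ℝ))) ^ clash (lab a₀ D β) S) := by
    refine (avg_rpow_le hG0 (by norm_num)).trans (le_of_eq ?_)
    congr 1
    funext β
    simp only [hG]
    rw [← Real.rpow_mul h20.le, ← Real.rpow_natCast, ← Real.rpow_mul h20.le]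
    congr 1
    ring
  exact mul_le_mul hAp hBp (Real.rpow_nonneg hB0 _) (by positivity)

/-- A numerical bound. -/
theorem one_sub_ge_exp {x : ℝ} (h0 : 0 ≤ x) (h1 : x ≤ 1 / 2) : Real.exp (-(2 * x)) ≤ 1 - x := by
  have h2 : 1 + 2 * x ≤ Real.exp (2 * x) := by
    have := Real.add_one_le_exp (2 * x)
    linarith
  rw [Real.exp_neg, inv_le_comm₀ (Real.exp_pos _) (by linarith)]
  refine le_trans ?_ h2
  rw [inv_le_iff_one_le_mul₀ (by linarith)]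
  nlinarith

/-- The number of injective tuples. -/
theorem card_emb_exp {D j : ℕ} (hj : 2 * j ≤ 2 ^ D) :
    ((2 : ℝ) ^ D) ^ j * Real.exp (-(2 * ((j : ℝ) ^ 2 / (2 : ℝ) ^ D)))
      ≤ (Fintype.card (Fin j ↪ Cube D) : ℝ) := by
  rw [Fintype.card_embedding_eq, card_cube, Fintype.card_fin]
  have hn : (0 : ℝ) < (2 : ℝ) ^ D := by positivity
  have hjn : (j : ℝ) ≤ (2 : ℝ) ^ D / 2 := by
    have : ((2 * j : ℕ) : ℝ) ≤ ((2 ^ D : ℕ) : ℝ) := by exact_mod_cast hj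
    push_cast at this
    linarith
  have h1 := Nat.pow_sub_le_descFactorial (2 ^ D) j
  have h2 : (2 ^ D - j) ^ j ≤ (2 ^ D + 1 - j) ^ j :=
    Nat.pow_le_pow_left (by omega) j
  have h3 : (((2 ^ D - j : ℕ) : ℝ)) ^ j ≤ ((2 ^ D).descFactorial j : ℝ) := by
    exact_mod_cast h2.trans h1
  refine le_trans ?_ h3
  have h4 : ((2 ^ D - j : ℕ) : ℝ) = (2 : ℝ) ^ D - j := by
    rw [Nat.cast_sub (by omega)]
    push_cast
    ring
  rw [h4]
  set x : ℝ := (j : ℝ) / (2 : ℝ) ^ D with hx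
  have hx0 : 0 ≤ x := by positivity
  have hx1 : x ≤ 1 / 2 := by
    rw [hx, div_le_iff₀ hn]
    linarith
  have h5 := one_sub_ge_exp hx0 hx1
  have h6 : (2 : ℝ) ^ D - j = (2 : ℝ) ^ D * (1 - x) := by
    rw [hx]
    field_simp
  rw [h6, mul_pow]
  refine mul_le_mul_of_nonneg_left ?_ (by positivity)
  have h7 : Real.exp (-(2 * ((j : ℝ) ^ 2 / (2 : ℝ) ^ D))) = (Real.exp (-(2 * x))) ^ j := by
    rw [← Real.exp_nat_mul]
    congr 1
    rw [hx]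
    field_simp
  rw [h7]
  exact pow_le_pow_left₀ (Real.exp_pos _).le h5 j

/-- The average over injective tuples of the occupancy weight. -/
theorem avg_clash_le {D j a₀ : ℕ} (hj : 2 * j ≤ 2 ^ D) [Nonempty (Fin j ↪ Cube D)] (β : BC D) {c : ℝ}
    (hc : 1 ≤ c) :
    avg (fun x : Fin j ↪ Cube D => c ^ clash (lab a₀ D β) (Finset.univ.image x))
      ≤ Real.exp ((j : ℝ) * ((j : ℝ) / (2 : ℝ) ^ D * (2 + (2 : ℝ) ^ a₀ * c ^ 2))) := by
  have hc0 : 0 < c := by linarith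
  have hn : (0 : ℝ) < (2 : ℝ) ^ D := by positivity
  have hN : (0 : ℝ) < (Fintype.card (Fin j ↪ Cube D) : ℝ) := card_pos_real
  set F : (Fin j → Cube D) → ℝ := fun x => c ^ clash (lab a₀ D β) (Finset.univ.image x) with hF
  have h1 : ∑ y : Fin j ↪ Cube D, F y ≤ ∑ x, F x := sum_inj_le F (fun x => by simp only [hF]; positivity)
  have h2 := sum_pow_clash (lab a₀ D β) (L := 2 ^ a₀) (fun b => lab_fibre a₀ D β b) hc j
  rw [card_cube] at h2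
  have h3 : avg (fun x : Fin j ↪ Cube D => c ^ clash (lab a₀ D β) (Finset.univ.image x))
      = (∑ y : Fin j ↪ Cube D, F y) / (Fintype.card (Fin j ↪ Cube D) : ℝ) := rfl
  rw [h3, div_le_iff₀ hN]
  have h4 := card_emb_exp hj
  set E : ℝ := Real.exp ((j : ℝ) * ((j : ℝ) / (2 : ℝ) ^ D * (2 + (2 : ℝ) ^ a₀ * c ^ 2))) with hE
  have hJ : (0 : ℝ) ≤ (j : ℝ) := Nat.cast_nonneg j
  have h5 : (((2 ^ D : ℕ) : ℝ) + (j : ℝ) * ((2 ^ a₀ : ℕ) : ℝ) * (c ^ 2 - 1)) ^ j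
      ≤ ((2 : ℝ) ^ D) ^ j * Real.exp ((j : ℝ) ^ 2 / (2 : ℝ) ^ D * ((2 : ℝ) ^ a₀ * c ^ 2)) := by
    push_cast
    have h6 : (2 : ℝ) ^ D + (j : ℝ) * (2 : ℝ) ^ a₀ * (c ^ 2 - 1)
        ≤ (2 : ℝ) ^ D * Real.exp ((j : ℝ) / (2 : ℝ) ^ D * ((2 : ℝ) ^ a₀ * c ^ 2)) := by
      have h7 := Real.add_one_le_exp ((j : ℝ) / (2 : ℝ) ^ D * ((2 : ℝ) ^ a₀ * c ^ 2))
      have h8 := mul_le_mul_of_nonneg_left h7 hn.le
      refine le_trans ?_ h8
      have h9 : (2 : ℝ) ^ D * ((j : ℝ) / (2 : ℝ) ^ D * ((2 : ℝ) ^ a₀ * c ^ 2) + 1)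
          = (2 : ℝ) ^ D + (j : ℝ) * (2 : ℝ) ^ a₀ * c ^ 2 := by
        field_simp
        ring
      rw [h9]
      have h10 : 0 ≤ (j : ℝ) * (2 : ℝ) ^ a₀ := by positivity
      nlinarith
    have h0 : 0 ≤ (2 : ℝ) ^ D + (j : ℝ) * (2 : ℝ) ^ a₀ * (c ^ 2 - 1) := by
      have : 0 ≤ c ^ 2 - 1 := by nlinarith
      positivity
    refine (pow_le_pow_left₀ h0 h6 j).trans (le_of_eq ?_)
    rw [mul_pow, ← Real.exp_nat_mul]
    congr 2
    field_simp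
  calc ∑ y : Fin j ↪ Cube D, F y ≤ ∑ x, F x := h1
    _ ≤ _ := h2
    _ ≤ _ := h5
    _ ≤ E * (((2 : ℝ) ^ D) ^ j * Real.exp (-(2 * ((j : ℝ) ^ 2 / (2 : ℝ) ^ D)))) := by
        have e : ((2 : ℝ) ^ D) ^ j * Real.exp ((j : ℝ) ^ 2 / (2 : ℝ) ^ D * ((2 : ℝ) ^ a₀ * c ^ 2))
            = E * (((2 : ℝ) ^ D) ^ j * Real.exp (-(2 * ((j : ℝ) ^ 2 / (2 : ℝ) ^ D)))) := by
          rw [hE, mul_left_comm (Real.exp _) (((2 : ℝ) ^ D) ^ j), ← Real.exp_add]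
          congr 2
          field_simp
          ring
        exact le_of_eq e
    _ ≤ _ := mul_le_mul_of_nonneg_left h4 (Real.exp_pos _).le

/-- **The average of the power of the row weight.** -/
theorem avg_W33 {D j a₀ : ℕ} (hj : 2 * j ≤ 2 ^ D) :
    avg (fun x : Fin j ↪ Cube D => Wrow D (Finset.univ.image x) ^ (33 : ℝ))
      ≤ Real.exp ((j : ℝ) * (46 * (77 / 80 : ℝ) ^ a₀
          + (j : ℝ) / (2 : ℝ) ^ D * (2 + (2 : ℝ) ^ a₀ * ((2 : ℝ) ^ ((33 / 32 : ℝ) * (a₀ : ℝ))) ^ 2))) := by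
  have : Nonempty (Fin j ↪ Cube D) := Function.Embedding.nonempty_of_card_le (by
    rw [card_cube, Fintype.card_fin]
    omega)
  have h20 : (0 : ℝ) < 2 := by norm_num
  set c : ℝ := (2 : ℝ) ^ ((33 / 32 : ℝ) * (a₀ : ℝ)) with hc
  have hc1 : 1 ≤ c := Real.one_le_rpow (by norm_num) (by positivity)
  set r : ℝ := (77 / 80 : ℝ) ^ a₀ with hr
  have hr0 : 0 ≤ r := by positivity
  have hJ : (0 : ℝ) ≤ (j : ℝ) := Nat.cast_nonneg j
  have hcard : ∀ x : Fin j ↪ Cube D, ((Finset.univ.image x).card : ℝ) = (j : ℝ) := by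
    intro x
    rw [Finset.card_image_of_injective _ x.injective, Finset.card_univ, Fintype.card_fin]
  have h1 : ∀ x : Fin j ↪ Cube D, Wrow D (Finset.univ.image x) ^ (33 : ℝ)
      ≤ (2 : ℝ) ^ (66 * r * (j : ℝ))
        * avg (fun β : BC D => c ^ clash (lab a₀ D β) (Finset.univ.image x)) := by
    intro x
    have h2 := Wrow_pow_le D a₀ (Finset.univ.image x)
    rwa [hcard] at h2
  refine (avg_mono h1).trans ?_
  rw [avg_mul_left, avg_comm]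
  have h3 : avg (fun β : BC D => avg (fun x : Fin j ↪ Cube D => c ^ clash (lab a₀ D β) (Finset.univ.image x)))
      ≤ Real.exp ((j : ℝ) * ((j : ℝ) / (2 : ℝ) ^ D * (2 + (2 : ℝ) ^ a₀ * c ^ 2))) :=
    avg_le_of_forall (fun β => avg_clash_le hj β hc1)
  have h4 : (2 : ℝ) ^ (66 * r * (j : ℝ)) ≤ Real.exp (46 * r * (j : ℝ)) := by
    rw [Real.rpow_def_of_pos h20]
    refine Real.exp_le_exp.2 ?_
    have h5 : Real.log 2 ≤ 46 / 66 := by
      have := Real.log_two_lt_d9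
      linarith
    have h6 : 0 ≤ r * (j : ℝ) := mul_nonneg hr0 hJ
    nlinarith
  calc (2 : ℝ) ^ (66 * r * (j : ℝ)) * avg (fun β : BC D => avg (fun x : Fin j ↪ Cube D =>
          c ^ clash (lab a₀ D β) (Finset.univ.image x)))
      ≤ Real.exp (46 * r * (j : ℝ)) * Real.exp ((j : ℝ) * ((j : ℝ) / (2 : ℝ) ^ D * (2 + (2 : ℝ) ^ a₀ * c ^ 2))) :=
        mul_le_mul h4 h3 (avg_nonneg (fun β => avg_nonneg (fun x => by positivity))) (Real.exp_pos _).le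
    _ = _ := by
        rw [← Real.exp_add]
        congr 1
        ring

end Vale.Agent.Lib.P162
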