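import Vale.Agent.Lib.P162.OLog
import Vale.Agent.Lib.P162.OM3
import Vale.Agent.Lib.P162.OMult
import Vale.Agent.Lib.P162.OW33x

/-! The final assembly: the bound with no logarithm of the dimension. -/

namespace Vale.Agent.Lib.P162

open Equiv Finset Matrix

set_option linter.unusedSectionVars false

open scoped Classical

section row

variable {ι : Type*} [Fintype ι] [LinearOrder ι] {D : ℕ}

/-- The row bound for the symmetrised kernel, with the exponential moment of the given point set. -/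
theorem Rm_row [Nonempty (ι ↪ Cube D)] {s : ℝ} (hs : 0 < s) (x : ι ↪ Cube D) :
    avg (fun y : ι ↪ Cube D => ((Fintype.card (ι ↪ Cube D) : ℝ) * ((Rm ι D)ᵀ * Rm ι D) x y) ^ (1 + s))
      ≤ avg (fun β : BC D => (2 : ℝ) ^ (s * (Cnt 0 D (Finset.univ.image x) β : ℝ))) := by
  set S := Finset.univ.image x with hS
  have hcard : S.card = Fintype.card ι := by
    rw [hS, Finset.card_image_of_injective _ x.injective, Finset.card_univ]
  set N : ℝ := (Fintype.card (ι ↪ Cube D) : ℝ) with hN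
  have hN0 : 0 < N := card_pos_real
  have h20 : (0 : ℝ) < 2 := by norm_num
  have h1 : ∀ y : ι ↪ Cube D, (N * ((Rm ι D)ᵀ * Rm ι D) x y) ^ (1 + s)
      ≤ N ^ (1 + s) * ((2 : ℝ) ^ (-(s * (S.card : ℝ) * (D : ℝ))) * Qa s D S (yExt x y)) := by
    intro y
    rw [Rm_sym_eq_Pa, Real.mul_rpow hN0.le (Pa_nonneg _ _ _)]
    exact mul_le_mul_of_nonneg_left (jensen_main hs D S _) (by positivity)
  have h2 : avg (fun y : ι ↪ Cube D => (N * ((Rm ι D)ᵀ * Rm ι D) x y) ^ (1 + s))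
      ≤ (N ^ (1 + s) * (2 : ℝ) ^ (-(s * (S.card : ℝ) * (D : ℝ)))
          * avg (fun β : BC D => (2 : ℝ) ^ (s * (Cnt 0 D S β : ℝ)))) / N := by
    rw [avg_def]
    refine div_le_div_of_nonneg_right ?_ hN0.le
    refine (Finset.sum_le_sum (fun y _ => h1 y)).trans ?_
    have h3 := sum_Qa_le (s := s) x
    rw [← hS] at h3
    calc ∑ y : ι ↪ Cube D, N ^ (1 + s) * ((2 : ℝ) ^ (-(s * (S.card : ℝ) * (D : ℝ))) * Qa s D S (yExt x y))
        = N ^ (1 + s) * ((2 : ℝ) ^ (-(s * (S.card : ℝ) * (D : ℝ))) * ∑ y : ι ↪ Cube D, Qa s D S (yExt x y)) := by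
          simp only [Finset.mul_sum]
      _ ≤ N ^ (1 + s) * ((2 : ℝ) ^ (-(s * (S.card : ℝ) * (D : ℝ)))
            * avg (fun β : BC D => (2 : ℝ) ^ (s * (Cnt 0 D S β : ℝ)))) :=
          mul_le_mul_of_nonneg_left (mul_le_mul_of_nonneg_left h3 (by positivity)) (by positivity)
      _ = _ := by ring
  refine h2.trans ?_
  have h3 : N ^ (1 + s) = N * N ^ s := by
    rw [Real.rpow_add hN0, Real.rpow_one]
  have h4 : N ^ s * (2 : ℝ) ^ (-(s * (S.card : ℝ) * (D : ℝ))) ≤ 1 := by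
    have h5 : N ^ s ≤ (((2 : ℝ) ^ D) ^ Fintype.card ι) ^ s :=
      Real.rpow_le_rpow hN0.le card_emb_le hs.le
    have h6 : (((2 : ℝ) ^ D) ^ Fintype.card ι) ^ s = (2 : ℝ) ^ (s * (S.card : ℝ) * (D : ℝ)) := by
      rw [← pow_mul, ← Real.rpow_natCast, ← Real.rpow_mul h20.le, hcard]
      congr 1
      push_cast
      ring
    rw [h6] at h5
    calc N ^ s * (2 : ℝ) ^ (-(s * (S.card : ℝ) * (D : ℝ)))
        ≤ (2 : ℝ) ^ (s * (S.card : ℝ) * (D : ℝ)) * (2 : ℝ) ^ (-(s * (S.card : ℝ) * (D : ℝ))) :=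
          mul_le_mul_of_nonneg_right h5 (by positivity)
      _ = 1 := by
          rw [← Real.rpow_add h20]
          simp
  have h7 : (N ^ (1 + s) * (2 : ℝ) ^ (-(s * (S.card : ℝ) * (D : ℝ)))
          * avg (fun β : BC D => (2 : ℝ) ^ (s * (Cnt 0 D S β : ℝ)))) / N
      = (N ^ s * (2 : ℝ) ^ (-(s * (S.card : ℝ) * (D : ℝ))))
          * avg (fun β : BC D => (2 : ℝ) ^ (s * (Cnt 0 D S β : ℝ))) := by
    rw [h3]
    field_simp
  rw [h7]
  have h9 : 0 ≤ avg (fun β : BC D => (2 : ℝ) ^ (s * (Cnt 0 D S β : ℝ))) :=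
    avg_nonneg (fun _ => by positivity)
  calc _ ≤ 1 * avg (fun β : BC D => (2 : ℝ) ^ (s * (Cnt 0 D S β : ℝ))) :=
        mul_le_mul_of_nonneg_right h4 h9
    _ = _ := by rw [one_mul]

/-- The row weight is at least one. -/
theorem Wrow_ge (S : Finset (Cube D)) : 1 ≤ Wrow D S := by
  unfold Wrow
  have h : avg (fun _ : BC D => (1 : ℝ)) ≤ avg (fun β : BC D => (2 : ℝ) ^ ((1 / 16 : ℝ) * (Cnt 0 D S β : ℝ))) :=
    avg_mono (fun β => Real.one_le_rpow (by norm_num) (by positivity))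
  rwa [avg_const] at h

/-- **The Hilbert Schmidt norm of a fixed power of the symmetrised kernel.** -/
theorem hs_Rm_sym [Nonempty (ι ↪ Cube D)] :
    ∑ x, ∑ y, ((((Rm ι D)ᵀ * Rm ι D) ^ 23) x y) ^ 2
      ≤ (avg (fun x : ι ↪ Cube D => Wrow D (Finset.univ.image x) ^ (33 : ℝ))) ^ 2 := by
  have hDS := (Rm_DS (ι := ι) (D := D)).transpose.mul Rm_DS
  have hsym : ∀ x y, ((Rm ι D)ᵀ * Rm ι D) x y = ((Rm ι D)ᵀ * Rm ι D) y x := by
    intro x y
    have h : ((Rm ι D)ᵀ * Rm ι D)ᵀ = (Rm ι D)ᵀ * Rm ι D := by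
      rw [Matrix.transpose_mul, Matrix.transpose_transpose]
    exact congrFun (congrFun h.symm x) y
  have hN : (0 : ℝ) < Fintype.card (ι ↪ Cube D) := card_pos_real
  have h1 := weighted_Lp_chain ((Rm ι D)ᵀ * Rm ι D) hDS.nonneg hsym hDS.row
    (fun x => Wrow D (Finset.univ.image x)) (fun x => Wrow_ge _) (by
      intro x
      have h2 := Rm_row (ι := ι) (D := D) (s := 1 / 16) (by norm_num) x
      have h3 : (1 + (1 / 16 : ℝ)) = 17 / 16 := by norm_num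
      rw [h3] at h2
      refine le_trans (le_of_eq ?_) h2
      rw [avg_def]
      exact (div_eq_inv_mul _ _).symm)
  refine h1.trans (le_of_eq ?_)
  congr 1
  rw [avg_def, div_eq_inv_mul]
  congr 1
  refine Finset.sum_congr rfl (fun x _ => ?_)
  rw [show (33 : ℝ) = ((33 : ℕ) : ℝ) by norm_num, Real.rpow_natCast]

end row

/-- The decay on the subspace, from a bound for the eigenvalues. -/
theorem contr_of_eig {ι : Type*} [Fintype ι] [DecidableEq ι] {D : ℕ} {B : ℝ} (hB0 : 0 ≤ B) {n : ℕ}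
    (hn : n ≠ 0)
    (hB : ∀ g ∈ Vtop ι (Cube D), ‖g‖ = 1 → ∀ μ : ℝ, 0 ≤ μ → Bop D (pT ι D) g = μ • g → μ ^ n ≤ B)
    {v : TupE ι (Cube D)} (hv : v ∈ Vtop ι (Cube D)) :
    ‖Rop D (pT ι D) v‖ ^ 2 ≤ B ^ (1 / (n : ℝ)) * ‖v‖ ^ 2 := by
  have hπ := isOrth_piT (ι := ι) (Q := Cube D)
  set ρ : ℝ := B ^ (1 / (n : ℝ)) with hρ
  have hρ0 : 0 ≤ ρ := Real.rpow_nonneg hB0 _
  set A : TupE ι (Cube D) →L[ℝ] TupE ι (Cube D) := (-1 : ℝ) • Bop D (pT ι D) with hA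
  have hAs : SymOp A := (symOp_Bop hπ).smul _
  have hAU : ∀ w ∈ Vtop ι (Cube D), A w ∈ Vtop ι (Cube D) := by
    intro w hw
    rw [hA, _root_.smul_apply]
    exact Submodule.smul_mem _ _ (Bop_mem_Vtop hw)
  have hray := rayleigh_of_eigen hAs (Vtop ι (Cube D)) hAU (-ρ) (by
    intro g hg hg0 μ hμ
    have hn' : ‖g‖ ≠ 0 := norm_ne_zero_iff.mpr hg0
    have hBg : Bop D (pT ι D) g = (-μ) • g := by
      have : A g = (-1 : ℝ) • Bop D (pT ι D) g := rfl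
      rw [this] at hμ
      have h2 := congrArg (fun u => (-1 : ℝ) • u) hμ
      simpa [smul_smul] using h2
    set g₀ : TupE ι (Cube D) := ‖g‖⁻¹ • g with hg₀
    have hg₀V : g₀ ∈ Vtop ι (Cube D) := Submodule.smul_mem _ _ hg
    have hg₀n : ‖g₀‖ = 1 := by
      rw [hg₀, norm_smul, norm_inv, norm_norm, inv_mul_cancel₀ hn']
    have hg₀e : Bop D (pT ι D) g₀ = (-μ) • g₀ := by
      rw [hg₀, map_smul, hBg, smul_comm]
    by_cases hμ0 : 0 ≤ -μ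
    · have hfl := hB g₀ hg₀V hg₀n (-μ) hμ0 hg₀e
      have h1 : ((-μ) ^ n) ^ (1 / (n : ℝ)) = -μ := by
        rw [← Real.rpow_natCast, ← Real.rpow_mul hμ0]
        have : (n : ℝ) ≠ 0 := by exact_mod_cast hn
        rw [mul_one_div_cancel this, Real.rpow_one]
      have h2 := Real.rpow_le_rpow (pow_nonneg hμ0 _) hfl
        (by positivity : (0 : ℝ) ≤ 1 / (n : ℝ))
      rw [h1] at h2
      linarith
    · push Not at hμ0
      linarith) v hv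
  have h1 : inner ℝ v (A v) = -‖Rop D (pT ι D) v‖ ^ 2 := by
    rw [hA, _root_.smul_apply, inner_smul_right, inner_Bop hπ]
    ring
  rw [h1] at hray
  linarith

/-- The first numerical estimate: powers of `77 / 80`. -/
theorem num_a (r : ℕ) : (2 : ℝ) ^ r * (46 * (77 / 80 : ℝ) ^ (19 * r + 120)) ≤ 1 / 2 := by
  have h1 : (77 / 80 : ℝ) ^ 19 ≤ 1 / 2 := by norm_num
  have h2 : (77 / 80 : ℝ) ^ 120 ≤ 1 / 92 := by norm_num
  have h3 : (77 / 80 : ℝ) ^ (19 * r + 120) ≤ (1 / 2 : ℝ) ^ r * (1 / 92) := by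
    rw [pow_add, pow_mul]
    exact mul_le_mul (pow_le_pow_left₀ (by positivity) h1 r) h2 (by positivity) (by positivity)
  have h4 : (2 : ℝ) ^ r * (1 / 2 : ℝ) ^ r = 1 := by
    rw [← mul_pow]
    norm_num
  calc (2 : ℝ) ^ r * (46 * (77 / 80 : ℝ) ^ (19 * r + 120))
      ≤ (2 : ℝ) ^ r * (46 * ((1 / 2 : ℝ) ^ r * (1 / 92))) := by
        refine mul_le_mul_of_nonneg_left ?_ (by positivity)
        exact mul_le_mul_of_nonneg_left h3 (by norm_num)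
    _ = ((2 : ℝ) ^ r * (1 / 2 : ℝ) ^ r) * (1 / 2) := by ring
    _ = 1 / 2 := by
        rw [h4, one_mul]

/-- The constant of the occupancy bound. -/
theorem num_c (r : ℕ) :
    2 + (2 : ℝ) ^ (19 * r + 120) * ((2 : ℝ) ^ ((33 / 32 : ℝ) * ((19 * r + 120 : ℕ) : ℝ))) ^ 2
      ≤ (2 : ℝ) ^ (59 * r + 369) := by
  have h20 : (0 : ℝ) < 2 := by norm_num
  have h1 : (2 : ℝ) ^ (19 * r + 120) * ((2 : ℝ) ^ ((33 / 32 : ℝ) * ((19 * r + 120 : ℕ) : ℝ))) ^ 2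
      ≤ (2 : ℝ) ^ (59 * r + 368) := by
    rw [← Real.rpow_natCast ((2 : ℝ) ^ ((33 / 32 : ℝ) * ((19 * r + 120 : ℕ) : ℝ))) 2,
      ← Real.rpow_mul h20.le, ← Real.rpow_natCast 2 (19 * r + 120), ← Real.rpow_add h20,
      ← Real.rpow_natCast 2 (59 * r + 368)]
    refine Real.rpow_le_rpow_of_exponent_le (by norm_num) ?_
    push_cast
    have hr : (0 : ℝ) ≤ (r : ℝ) := Nat.cast_nonneg r
    nlinarith
  have h2 : (2 : ℝ) ≤ (2 : ℝ) ^ (59 * r + 368) := by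
    calc (2 : ℝ) = (2 : ℝ) ^ 1 := (pow_one _).symm
      _ ≤ _ := pow_le_pow_right₀ (by norm_num) (by omega)
  have h3 : (2 : ℝ) ^ (59 * r + 369) = 2 * (2 : ℝ) ^ (59 * r + 368) := by
    rw [show 59 * r + 369 = 59 * r + 368 + 1 by ring, pow_succ]
    ring
  rw [h3]
  linarith

/-- **The eigenvalue bound on a sparse layer.** -/
theorem eig_bound {D k r : ℕ} (hk : 0 < k) (h1 : 2 ^ (61 * r + 370) * k ≤ 2 ^ D)
    {u : TupE (Fin k) (Cube D)} (hu : u ∈ Vtop (Fin k) (Cube D)) (hnorm : ‖u‖ = 1) {μ : ℝ}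
    (hμ0 : 0 ≤ μ) (heig : Bop D (pT (Fin k) D) u = μ • u) :
    μ ^ 46 * ((2 : ℝ) ^ r) ^ k ≤ (16 : ℝ) ^ k := by
  set t : ℕ := 2 ^ r with ht
  have ht0 : 0 < t := by positivity
  have h4 : 4 * (k * t) ≤ 2 ^ D := by
    refine le_trans ?_ h1
    have h5 : 4 * t ≤ 2 ^ (61 * r + 370) := by
      rw [ht, show 4 = 2 ^ 2 by norm_num, ← pow_add]
      exact Nat.pow_le_pow_right (by norm_num) (by omega)
    calc 4 * (k * t) = (4 * t) * k := by ring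
      _ ≤ _ := Nat.mul_le_mul_right _ h5
  have hj2 : 2 * (k * t) ≤ 2 ^ D := by omega
  have hne : Nonempty (Fin (k * t) ↪ Cube D) := Function.Embedding.nonempty_of_card_le (by
    rw [card_cube, Fintype.card_fin]
    omega)
  have hM := mult_bound hk ht0 h4 hu hnorm hμ0 heig 23
  have hHS := hs_Rm_sym (ι := Fin (k * t)) (D := D)
  have hW := avg_W33 (D := D) (j := k * t) (a₀ := 19 * r + 120) hj2
  set E : ℝ := (((k * t : ℕ) : ℝ)) * (46 * (77 / 80 : ℝ) ^ (19 * r + 120)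
      + ((k * t : ℕ) : ℝ) / (2 : ℝ) ^ D * (2 + (2 : ℝ) ^ (19 * r + 120)
        * ((2 : ℝ) ^ ((33 / 32 : ℝ) * ((19 * r + 120 : ℕ) : ℝ))) ^ 2)) with hE
  have hKpos : (0 : ℝ) < (k : ℝ) := by exact_mod_cast hk
  have htr : ((t : ℕ) : ℝ) = (2 : ℝ) ^ r := by
    rw [ht]
    push_cast
    rfl
  have hEk : E ≤ (k : ℝ) := by
    have hn0 : (0 : ℝ) < (2 : ℝ) ^ D := by positivity
    have h5 := num_a r
    have h6 := num_c r
    have h7 : ((k : ℝ) * (2 : ℝ) ^ (61 * r + 370)) ≤ (2 : ℝ) ^ D := by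
      have : ((2 ^ (61 * r + 370) * k : ℕ) : ℝ) ≤ ((2 ^ D : ℕ) : ℝ) := by exact_mod_cast h1
      push_cast at this
      linarith
    have h8 : (2 : ℝ) ^ r * (((k * t : ℕ) : ℝ) / (2 : ℝ) ^ D * (2 + (2 : ℝ) ^ (19 * r + 120)
        * ((2 : ℝ) ^ ((33 / 32 : ℝ) * ((19 * r + 120 : ℕ) : ℝ))) ^ 2)) ≤ 1 / 2 := by
      have h9 : ((k * t : ℕ) : ℝ) = (k : ℝ) * (2 : ℝ) ^ r := by
        push_cast
        rw [htr]
      rw [h9]
      have h10 : (2 : ℝ) ^ r * ((k : ℝ) * (2 : ℝ) ^ r / (2 : ℝ) ^ D * (2 + (2 : ℝ) ^ (19 * r + 120)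
          * ((2 : ℝ) ^ ((33 / 32 : ℝ) * ((19 * r + 120 : ℕ) : ℝ))) ^ 2))
          ≤ (2 : ℝ) ^ r * ((k : ℝ) * (2 : ℝ) ^ r / (2 : ℝ) ^ D * (2 : ℝ) ^ (59 * r + 369)) := by
        refine mul_le_mul_of_nonneg_left ?_ (by positivity)
        exact mul_le_mul_of_nonneg_left h6 (by positivity)
      refine h10.trans ?_
      have h11 : (2 : ℝ) ^ r * ((k : ℝ) * (2 : ℝ) ^ r / (2 : ℝ) ^ D * (2 : ℝ) ^ (59 * r + 369))
          = ((k : ℝ) * (2 : ℝ) ^ (61 * r + 370)) / (2 : ℝ) ^ D * (1 / 2) := by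
        have e : (2 : ℝ) ^ (61 * r + 370) = (2 : ℝ) ^ r * (2 : ℝ) ^ r * (2 : ℝ) ^ (59 * r + 369) * 2 := by
          rw [show 61 * r + 370 = r + r + (59 * r + 369) + 1 by ring, pow_succ, pow_add, pow_add]
        rw [e]
        field_simp
      rw [h11]
      have h12 : ((k : ℝ) * (2 : ℝ) ^ (61 * r + 370)) / (2 : ℝ) ^ D ≤ 1 := by
        rw [div_le_one hn0]
        exact h7
      linarith
    have h13 : E = (k : ℝ) * ((2 : ℝ) ^ r * (46 * (77 / 80 : ℝ) ^ (19 * r + 120))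
        + (2 : ℝ) ^ r * (((k * t : ℕ) : ℝ) / (2 : ℝ) ^ D * (2 + (2 : ℝ) ^ (19 * r + 120)
        * ((2 : ℝ) ^ ((33 / 32 : ℝ) * ((19 * r + 120 : ℕ) : ℝ))) ^ 2))) := by
      rw [hE]
      have h9 : ((k * t : ℕ) : ℝ) = (k : ℝ) * (2 : ℝ) ^ r := by
        push_cast
        rw [htr]
      nth_rewrite 1 [h9]
      ring
    rw [h13]
    have h14 := mul_le_mul_of_nonneg_left (add_le_add h5 h8) hKpos.le
    refine h14.trans (le_of_eq ?_)
    norm_num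
  have hA0 : 0 ≤ avg (fun x : Fin (k * t) ↪ Cube D => Wrow D (Finset.univ.image x) ^ (33 : ℝ)) :=
    avg_nonneg (fun x => Real.rpow_nonneg (le_trans zero_le_one (Wrow_ge _)) _)
  have hW2 : avg (fun x : Fin (k * t) ↪ Cube D => Wrow D (Finset.univ.image x) ^ (33 : ℝ))
      ≤ Real.exp (k : ℝ) := hW.trans (Real.exp_le_exp.2 hEk)
  have hSq : (avg (fun x : Fin (k * t) ↪ Cube D => Wrow D (Finset.univ.image x) ^ (33 : ℝ))) ^ 2
      ≤ (Real.exp 1 ^ 2) ^ k := by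
    refine (pow_le_pow_left₀ hA0 hW2 2).trans (le_of_eq ?_)
    rw [← pow_mul, ← Real.exp_nat_mul, ← Real.exp_nat_mul, mul_one]
    congr 1
    push_cast
    ring
  have he2 : (5 / 4 : ℝ) * Real.exp 1 ^ 2 ≤ 16 := by
    have h3 := Real.exp_one_lt_d9
    have h5 := Real.exp_pos 1
    nlinarith
  have hpow : (2 * 23 : ℕ) = 46 := by norm_num
  rw [hpow, htr] at hM
  refine hM.trans ?_
  calc (5 / 4 : ℝ) ^ k * _ ≤ (5 / 4 : ℝ) ^ k * (Real.exp 1 ^ 2) ^ k :=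
        mul_le_mul_of_nonneg_left (hHS.trans hSq) (by positivity)
    _ = ((5 / 4 : ℝ) * Real.exp 1 ^ 2) ^ k := (mul_pow _ _ _).symm
    _ ≤ (16 : ℝ) ^ k := pow_le_pow_left₀ (by positivity) he2 k

/-- The numerical estimate on a sparse layer. -/
theorem sparse_numeric {D k r : ℕ} (hk : 1 ≤ k) (hr : 24 ≤ r)
    (h2 : 2 ^ D < 2 ^ (61 * (r + 1) + 370) * k) :
    (Nat.choose (2 ^ D) k : ℝ) * (((((16 : ℝ) / (2 : ℝ) ^ r) ^ k) ^ 100) * (oY ^ k) ^ 2)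
      ≤ (1 / 16 : ℝ) ^ k := by
  have hJ : (0 : ℝ) < (k : ℝ) := by exact_mod_cast hk
  have hC := choose_bound (2 ^ D) k hk
  rw [show (((2 ^ D : ℕ)) : ℝ) = (2 : ℝ) ^ D by push_cast; rfl] at hC
  have he : Real.exp 1 ≤ 2 ^ 2 := by
    have := Real.exp_one_lt_d9
    norm_num
    linarith
  have h3 : (2 : ℝ) ^ D / (k : ℝ) ≤ (2 : ℝ) ^ (61 * r + 431) := by
    rw [div_le_iff₀ hJ]
    rw [show 61 * (r + 1) + 370 = 61 * r + 431 by ring] at h2
    have h4 : ((2 ^ D : ℕ) : ℝ) ≤ ((2 ^ (61 * r + 431) * k : ℕ) : ℝ) := Nat.cast_le.mpr h2.le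
    rw [Nat.cast_mul, Nat.cast_pow, Nat.cast_pow, Nat.cast_ofNat] at h4
    exact h4
  have hC2 : (Nat.choose (2 ^ D) k : ℝ) ≤ ((2 : ℝ) ^ (61 * r + 433)) ^ k := by
    refine hC.trans (pow_le_pow_left₀ (by positivity) ?_ k)
    calc Real.exp 1 * ((2 : ℝ) ^ D / (k : ℝ)) ≤ 2 ^ 2 * (2 : ℝ) ^ (61 * r + 431) :=
          mul_le_mul he h3 (by positivity) (by norm_num)
      _ = _ := by
          rw [show 61 * r + 433 = 2 + (61 * r + 431) by ring]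
          exact (pow_add _ _ _).symm
  set X : ℝ := (2 : ℝ) ^ (61 * r + 433) * (((16 : ℝ) / (2 : ℝ) ^ r) ^ 100 * (2 : ℝ) ^ 64) with hX
  have hX1 : X ≤ 1 / 16 := by
    have h20 : (0 : ℝ) < (2 : ℝ) ^ (100 * r) := by positivity
    have e1 : ((16 : ℝ) / (2 : ℝ) ^ r) ^ 100 = (2 : ℝ) ^ 400 / (2 : ℝ) ^ (100 * r) := by
      rw [div_pow, ← pow_mul, show (16 : ℝ) = 2 ^ 4 by norm_num, ← pow_mul, mul_comm r 100]
    have e2 : X = (2 : ℝ) ^ (61 * r + 897) / (2 : ℝ) ^ (100 * r) := by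
      rw [hX, e1, show 61 * r + 897 = (61 * r + 433) + 400 + 64 by ring, pow_add, pow_add]
      ring
    rw [e2, div_le_iff₀ h20]
    have e3 : (1 / 16 : ℝ) * (2 : ℝ) ^ (100 * r) = (2 : ℝ) ^ (100 * r - 4) := by
      have : (2 : ℝ) ^ (100 * r) = (2 : ℝ) ^ (100 * r - 4) * 2 ^ 4 := by
        rw [← pow_add]
        congr 1
        omega
      rw [this]
      ring
    rw [e3]
    exact pow_le_pow_right₀ (by norm_num) (by omega)
  have hY2 : (oY ^ k) ^ 2 = ((2 : ℝ) ^ 64) ^ k := by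
    have e : oY ^ 2 = (2 : ℝ) ^ 64 := by
      unfold oY
      rw [← pow_mul]
    rw [← e, pow_right_comm]
  have hX0 : 0 ≤ X := by positivity
  calc (Nat.choose (2 ^ D) k : ℝ) * (((((16 : ℝ) / (2 : ℝ) ^ r) ^ k) ^ 100) * (oY ^ k) ^ 2)
      ≤ ((2 : ℝ) ^ (61 * r + 433)) ^ k * (((((16 : ℝ) / (2 : ℝ) ^ r) ^ k) ^ 100) * (oY ^ k) ^ 2) :=
        mul_le_mul_of_nonneg_right hC2 (mul_nonneg (pow_nonneg (pow_nonneg
          (div_nonneg (by norm_num) (pow_nonneg (by norm_num) _)) _) _) (sq_nonneg _))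
    _ = X ^ k := by
        rw [hY2, hX, mul_pow, mul_pow, pow_right_comm ((16 : ℝ) / (2 : ℝ) ^ r) k 100]
    _ ≤ _ := pow_le_pow_left₀ hX0 hX1 k

/-- **The trace on a sparse layer.** -/
theorem sparse_level {D k r Lp : ℕ} (hk : 1 ≤ k) (hr : 24 ≤ r) (hLp : 4600 ≤ Lp)
    (h1 : 2 ^ (61 * r + 370) * k ≤ 2 ^ D) (h2 : 2 ^ D < 2 ^ (61 * (r + 1) + 370) * k) :
    LinearMap.trace ℝ (Ej (Cube D) k) ((XLin D (28 + Lp)).restrict (XLin_mem k (28 + Lp)))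
      ≤ (1 / 16 : ℝ) ^ k := by
  have hkn : k ≤ 2 ^ D := by
    refine le_trans ?_ h1
    exact Nat.le_mul_of_pos_left k (by positivity)
  obtain ⟨-, hHS⟩ := level_hyp0 (j := k) hkn
  set B : ℝ := ((16 : ℝ) / (2 : ℝ) ^ r) ^ k with hB
  have hB0 : 0 ≤ B := by positivity
  have hB1 : B ≤ 1 := by
    refine pow_le_one₀ (by positivity) ?_
    rw [div_le_one (by positivity)]
    calc (16 : ℝ) = 2 ^ 4 := by norm_num
      _ ≤ 2 ^ r := pow_le_pow_right₀ (by norm_num) (by omega)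
  have hc : ∀ h ∈ Vtop (Fin k) (Cube D), ‖Rop D (pT (Fin k) D) h‖ ^ 2
      ≤ B ^ (1 / ((46 : ℕ) : ℝ)) * ‖h‖ ^ 2 := by
    intro h hh
    refine contr_of_eig hB0 (by norm_num) ?_ hh
    intro g hg hgn μ hμ0 heig
    have h3 := eig_bound (by omega) h1 hg hgn hμ0 heig
    rw [hB, div_pow, le_div_iff₀ (by positivity)]
    exact h3
  set ρ : ℝ := B ^ (1 / ((46 : ℕ) : ℝ)) with hρ
  have hρ0 : 0 ≤ ρ := Real.rpow_nonneg hB0 _
  have hρ1 : ρ ≤ 1 := Real.rpow_le_one hB0 hB1 (by positivity)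
  have h3 := trace_level (D := D) (j := k) hρ0 hc (L₀ := 2 * (13 + 1)) (L := 28 + Lp) (by omega) hHS
  have hL2 : 28 + Lp - 2 * (13 + 1) = Lp := by omega
  rw [hL2] at h3
  have hρE : ρ ^ 46 = B := by
    rw [hρ, one_div]
    exact Real.rpow_inv_natCast_pow hB0 (by norm_num)
  have hle : ρ ^ Lp ≤ B ^ 100 := by
    calc ρ ^ Lp ≤ ρ ^ (46 * 100) := pow_le_pow_of_le_one hρ0 hρ1 (by omega)
      _ = B ^ 100 := by rw [pow_mul, hρE]
  refine h3.trans (le_trans ?_ (sparse_numeric hk hr h2))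
  refine mul_le_mul_of_nonneg_left ?_ (Nat.cast_nonneg _)
  exact mul_le_mul_of_nonneg_right hle (sq_nonneg _)

/-- The numerical estimate in the central regime with a constant threshold. -/
theorem central_numeric2 {D j L M : ℕ} {Y Θ : ℝ} (hY : 1 ≤ Y) (hΘ0 : 0 < Θ) (hj1 : 1 ≤ j)
    (hΘ : (2 : ℝ) ^ D ≤ (j : ℝ) * Θ) (hM : 144 * M ≤ L)
    (hnum : Real.exp 1 * Θ * Y ^ 2 * (1 / 2 : ℝ) ^ M ≤ 1 / 16) :
    (Nat.choose (2 ^ D) j : ℝ) * ((Real.exp (-((j : ℝ) / 144))) ^ L * (Y ^ j) ^ 2)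
      ≤ (1 / 16 : ℝ) ^ j := by
  have hJ : (0 : ℝ) < (j : ℝ) := by exact_mod_cast hj1
  have hY0 : 0 < Y := by linarith
  have hC := choose_bound (2 ^ D) j hj1
  rw [show (((2 ^ D : ℕ)) : ℝ) = (2 : ℝ) ^ D by push_cast; rfl] at hC
  set e : ℝ := Real.exp 1 with he
  have he0 : 0 < e := Real.exp_pos 1
  have hC2 : (Nat.choose (2 ^ D) j : ℝ) ≤ (e * Θ) ^ j := by
    refine hC.trans (pow_le_pow_left₀ (by positivity) ?_ j)
    refine mul_le_mul_of_nonneg_left ?_ he0.le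
    rw [div_le_iff₀ hJ, mul_comm]
    exact hΘ
  have hexp : (Real.exp (-((j : ℝ) / 144))) ^ L ≤ ((1 / 2 : ℝ) ^ M) ^ j := by
    rw [← Real.exp_nat_mul]
    have h1 : (L : ℝ) * (-((j : ℝ) / 144)) ≤ (j : ℝ) * (-(M : ℝ)) := by
      have h2 : (144 : ℝ) * (M : ℝ) ≤ (L : ℝ) := by exact_mod_cast hM
      nlinarith
    refine (Real.exp_le_exp.2 h1).trans ?_
    have h3 : Real.exp ((j : ℝ) * (-(M : ℝ))) = (Real.exp (-(M : ℝ))) ^ j := by
      rw [← Real.exp_nat_mul]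
    rw [h3]
    refine pow_le_pow_left₀ (Real.exp_pos _).le ?_ j
    have h4 : Real.exp (-(M : ℝ)) = (Real.exp (-1)) ^ M := by
      rw [← Real.exp_nat_mul]
      congr 1
      ring
    rw [h4]
    refine pow_le_pow_left₀ (Real.exp_pos _).le ?_ M
    rw [Real.exp_neg, one_div]
    refine inv_anti₀ (by norm_num) ?_
    have := Real.exp_one_gt_d9
    linarith
  have hY2j : (Y ^ j) ^ 2 = (Y ^ 2) ^ j := by
    rw [← pow_mul, ← pow_mul, mul_comm]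
  have h0 : 0 ≤ e * Θ * Y ^ 2 * (1 / 2 : ℝ) ^ M := by positivity
  calc (Nat.choose (2 ^ D) j : ℝ) * ((Real.exp (-((j : ℝ) / 144))) ^ L * (Y ^ j) ^ 2)
      ≤ (e * Θ) ^ j * (((1 / 2 : ℝ) ^ M) ^ j * (Y ^ 2) ^ j) := by
        rw [hY2j]
        refine mul_le_mul hC2 ?_ (by positivity) (by positivity)
        exact mul_le_mul_of_nonneg_right hexp (by positivity)
    _ = (e * Θ * Y ^ 2 * (1 / 2 : ℝ) ^ M) ^ j := by
        rw [mul_pow (e * Θ * Y ^ 2), mul_pow (e * Θ)]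
        ring
    _ ≤ (1 / 16 : ℝ) ^ j := pow_le_pow_left₀ h0 hnum j

/-- The numerical condition in the central regime. -/
theorem central_cond2 :
    Real.exp 1 * (2 : ℝ) ^ 1834 * oY ^ 2 * (1 / 2 : ℝ) ^ 1904 ≤ 1 / 16 := by
  have he : Real.exp 1 ≤ 2 ^ 2 := by
    have := Real.exp_one_lt_d9
    norm_num
    linarith
  have h1 : Real.exp 1 * (2 : ℝ) ^ 1834 * oY ^ 2 ≤ (2 : ℝ) ^ 1900 := by
    have h2 : (2 : ℝ) ^ 1900 = 2 ^ 2 * (2 : ℝ) ^ 1834 * oY ^ 2 := by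
      unfold oY
      rw [← pow_mul, ← pow_add, ← pow_add]
    rw [h2]
    refine mul_le_mul_of_nonneg_right ?_ (by unfold oY; positivity)
    exact mul_le_mul_of_nonneg_right he (by positivity)
  have h3 : (2 : ℝ) ^ 1900 * (1 / 2 : ℝ) ^ 1900 = 1 := by
    rw [← mul_pow]
    norm_num
  have h4 : (1 / 2 : ℝ) ^ 1904 = (1 / 2 : ℝ) ^ 1900 * (1 / 2 : ℝ) ^ 4 := by
    rw [← pow_add]
  rw [h4]
  calc Real.exp 1 * (2 : ℝ) ^ 1834 * oY ^ 2 * ((1 / 2 : ℝ) ^ 1900 * (1 / 2 : ℝ) ^ 4)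
      ≤ (2 : ℝ) ^ 1900 * ((1 / 2 : ℝ) ^ 1900 * (1 / 2 : ℝ) ^ 4) :=
        mul_le_mul_of_nonneg_right h1 (by positivity)
    _ = ((2 : ℝ) ^ 1900 * (1 / 2 : ℝ) ^ 1900) * (1 / 2 : ℝ) ^ 4 := by ring
    _ = 1 / 16 := by
        rw [h3]
        norm_num

/-- **The trace on a dense layer.** -/
theorem central_level {D k Lp T : ℕ} (hT : T = 1834) (hk : 1 ≤ k) (hkn : k ≤ 2 ^ D)
    (hLp : 144 * 1904 ≤ Lp) (h1 : (2 : ℝ) ^ D ≤ (k : ℝ) * (2 : ℝ) ^ T) :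
    LinearMap.trace ℝ (Ej (Cube D) k) ((XLin D (28 + Lp)).restrict (XLin_mem k (28 + Lp)))
      ≤ (1 / 16 : ℝ) ^ k := by
  obtain ⟨-, h2⟩ := level_hyp0 (j := k) hkn
  have hc : ∀ h ∈ Vtop (Fin k) (Cube D), ‖Rop D (pT (Fin k) D) h‖ ^ 2
      ≤ Real.exp (-((k : ℝ) / 144)) * ‖h‖ ^ 2 := by
    intro h hh
    obtain ⟨j', rfl⟩ : ∃ j', k = j' + 1 := ⟨k - 1, by omega⟩
    refine (central_decay (ι := Fin (j' + 1)) (j := j') (Fintype.card_fin _) hkn hh).trans ?_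
    refine mul_le_mul_of_nonneg_right (Real.exp_le_exp.2 ?_) (by positivity)
    have hJ0 : (0 : ℝ) ≤ (j' : ℝ) + 1 := by positivity
    have hJn : (j' : ℝ) + 1 ≤ (2 : ℝ) ^ D := by exact_mod_cast hkn
    have hmin : ((j' : ℝ) + 1) / 2 ≤ min ((j' : ℝ) + 1) (((2 : ℝ) ^ D) / 2) := by
      apply le_min <;> linarith
    push_cast
    linarith
  have h3 := trace_level (D := D) (j := k) (Real.exp_pos _).le hc (L₀ := 2 * (13 + 1)) (L := 28 + Lp)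
    (by omega) h2
  have hL2 : 28 + Lp - 2 * (13 + 1) = Lp := by omega
  rw [hL2] at h3
  have hcond : Real.exp 1 * (2 : ℝ) ^ T * oY ^ 2 * (1 / 2 : ℝ) ^ 1904 ≤ 1 / 16 := by
    rw [hT]
    exact central_cond2
  exact h3.trans (central_numeric2 oY_ge (by positivity) hk h1 hLp hcond)

/-- The choice of the sparsity scale. -/
theorem exists_scale {D k : ℕ} (hk : 1 ≤ k) (h : 2 ^ (61 * 24 + 370) * k ≤ 2 ^ D) :
    ∃ r, 24 ≤ r ∧ 2 ^ (61 * r + 370) * k ≤ 2 ^ D ∧ 2 ^ D < 2 ^ (61 * (r + 1) + 370) * k := by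
  classical
  let P : ℕ → Prop := fun r => 2 ^ (61 * r + 370) * k ≤ 2 ^ D
  have hP24 : P 24 := h
  have hbig : ∀ r, P r → r ≤ D := by
    intro r hr
    have h1 : 2 ^ (61 * r + 370) ≤ 2 ^ D := le_trans (Nat.le_mul_of_pos_right _ (by omega)) hr
    have h2 := (Nat.pow_le_pow_iff_right (by norm_num : 1 < 2)).mp h1
    omega
  have h24 : 24 ≤ D := hbig 24 hP24
  have hs : P (Nat.findGreatest P D) := Nat.findGreatest_spec (P := P) h24 hP24
  refine ⟨Nat.findGreatest P D, Nat.le_findGreatest h24 hP24, hs, ?_⟩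
  by_contra hcon
  push Not at hcon
  have h1 : P (Nat.findGreatest P D + 1) := hcon
  have h2 := Nat.le_findGreatest (hbig _ h1) h1
  omega

/-- **The bound for the trace on each layer.** -/
theorem level_bound_all {D k Lp : ℕ} (hLp : Lp = 144 * 1904) (hkn : k ≤ 2 ^ D) :
    LinearMap.trace ℝ (Ej (Cube D) k) ((XLin D (28 + Lp)).restrict (XLin_mem k (28 + Lp)))
      ≤ (1 / 16 : ℝ) ^ k := by
  rcases Nat.eq_zero_or_pos k with rfl | hk
  · have hc : ∀ h ∈ Vtop (Fin 0) (Cube D), ‖Rop D (pT (Fin 0) D) h‖ ^ 2 ≤ (1 : ℝ) * ‖h‖ ^ 2 := by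
      intro h _
      rw [one_mul]
      exact pow_le_pow_left₀ (norm_nonneg _) (norm_Rop_le isOrth_piT h) 2
    have hHS : ∑ x, ∑ y, (((Rm (Fin 0) D) ^ 0) x y) ^ 2 ≤ (1 : ℝ) := by
      simp
    have h := trace_level (D := D) (j := 0) zero_le_one hc (L₀ := 0) (L := 28 + Lp) (Nat.zero_le _) hHS
    simpa using h
  · obtain ⟨T, hT⟩ : ∃ T : ℕ, T = 61 * 24 + 370 := ⟨_, rfl⟩
    by_cases h : 2 ^ T * k ≤ 2 ^ D
    · rw [hT] at h
      obtain ⟨r, hr, h1, h2⟩ := exists_scale hk h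
      exact sparse_level hk hr (by rw [hLp]; norm_num) h1 h2
    · push Not at h
      refine central_level (T := T) (by rw [hT]) hk hkn hLp.ge ?_
      have h3 : ((2 ^ D : ℕ) : ℝ) ≤ ((2 ^ T * k : ℕ) : ℝ) := Nat.cast_le.mpr h.le
      rw [Nat.cast_mul, Nat.cast_pow, Nat.cast_pow, Nat.cast_ofNat] at h3
      refine h3.trans (le_of_eq ?_)
      rw [mul_comm]

/-- **Main theorem: the mixing time of the Thorp shuffle on `2 ^ (d + 1)` cards is linear in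
`d + 1`.** -/
theorem thorp_linear (d t : ℕ) (ht : 300000 * (d + 1) ≤ t) :
    tvUniform (convPow (thorpLaw (2 ^ d)) t) ≤ 1 / 4 := by
  obtain ⟨Lp, hLp⟩ : ∃ Lp : ℕ, Lp = 144 * 1904 := ⟨_, rfl⟩
  refine mix_of_layers (L := 28 + Lp) (b := fun j => (1 / 16 : ℝ) ^ j)
    (fun j hj => level_bound_all hLp hj) ?_ (le_trans ?_ ht)
  · rw [geom_sum_eq (by norm_num)]
    have h1 : (0 : ℝ) ≤ (1 / 16 : ℝ) ^ (2 ^ (d + 1) + 1) := by positivity
    rw [div_le_iff_of_neg (by norm_num)]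
    norm_num
    nlinarith
  · rw [Nat.mul_comm]
    refine Nat.mul_le_mul_right _ ?_
    rw [hLp]
    norm_num

end Vale.Agent.Lib.P162
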