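import Vale.Agent.Lib.P162.NHyp
import Vale.Agent.Lib.P162.OM3

/-! The weighted `L^p` chain in the notation of `NHyp`. -/

namespace Vale.Agent.Lib.P162

/-- From row moments to the Frobenius norm of `K ^ 23`. -/
theorem hs_of_row_moment {X : Type*} [Fintype X] [DecidableEq X] [Nonempty X] {K : Matrix X X ℝ}
    (hK : DS K) (hsym : K.transpose = K) {W : X → ℝ} (hW1 : ∀ x, 1 ≤ W x)
    (hrow : ∀ x, avg (fun y => ((Fintype.card X : ℝ) * K x y) ^ (17 / 16 : ℝ)) ≤ W x) :
    ∑ x, ∑ y, ((K ^ 23) x y) ^ 2 ≤ (avg (fun x => W x ^ (33 : ℝ))) ^ 2 := by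
  have hs : ∀ x y, K x y = K y x := fun x y => by
    conv_lhs => rw [← hsym]
    rfl
  have h := weighted_Lp_chain K hK.nonneg hs hK.row W hW1 (fun x => by
    have := hrow x
    unfold avg at this
    rwa [div_eq_inv_mul] at this)
  refine h.trans (le_of_eq ?_)
  congr 1
  unfold avg
  rw [div_eq_inv_mul]
  congr 1
  refine Finset.sum_congr rfl (fun x _ => ?_)
  exact (by exact_mod_cast Real.rpow_natCast (W x) 33 : W x ^ (33 : ℝ) = W x ^ 33).symm

end Vale.Agent.Lib.P162
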