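import Vale.Agent.Lib.P162.NBen

/-! Points sharing a node of the network at a given height: the occupancy bound and the refined
truncation of the cycle count. -/

namespace Vale.Agent.Lib.P162

open Equiv Finset

set_option linter.unusedSectionVars false

section clash

variable {Q B : Type*} [DecidableEq Q] [DecidableEq B]

/-- The number of points of `S` which share their bin with another point of `S`. -/
def clash (ν : Q → B) (S : Finset Q) : ℕ :=
  (S.filter (fun p => ∃ p' ∈ S, p' ≠ p ∧ ν p' = ν p)).card

theorem clash_empty (ν : Q → B) : clash ν ∅ = 0 := by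
  simp [clash]

/-- Adding a point increases the number of clashing points by at most two, and not at all if the
bin of the point is empty. -/
theorem clash_insert_le (ν : Q → B) (S : Finset Q) (z : Q) :
    clash ν (insert z S) ≤ clash ν S + (if ∃ p ∈ S, ν p = ν z then 2 else 0) := by
  by_cases hz : z ∈ S
  · rw [Finset.insert_eq_of_mem hz]
    omega
  split_ifs with h
  · obtain ⟨p₀, hp₀, hν⟩ := h
    set F := S.filter (fun p => ∃ p' ∈ S, p' ≠ p ∧ ν p' = ν p) with hF
    have hsub : (insert z S).filter (fun p => ∃ p' ∈ insert z S, p' ≠ p ∧ ν p' = ν p)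
        ⊆ insert z (insert p₀ F) := by
      intro p hp
      rw [Finset.mem_filter] at hp
      obtain ⟨hp1, p', hp'1, hp'2, hp'3⟩ := hp
      rw [Finset.mem_insert, Finset.mem_insert]
      rcases Finset.mem_insert.mp hp1 with rfl | hpS
      · exact Or.inl rfl
      right
      by_cases hpp : p = p₀
      · exact Or.inl hpp
      right
      rw [hF, Finset.mem_filter]
      refine ⟨hpS, ?_⟩
      rcases Finset.mem_insert.mp hp'1 with rfl | hp'S
      · exact ⟨p₀, hp₀, fun h => hpp h.symm, hν.trans hp'3⟩
      · exact ⟨p', hp'S, hp'2, hp'3⟩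
    have h1 := Finset.card_le_card hsub
    have h2 : (insert z (insert p₀ F)).card ≤ F.card + 2 := by
      have h3 := Finset.card_insert_le z (insert p₀ F)
      have h4 := Finset.card_insert_le p₀ F
      omega
    exact h1.trans h2
  · have hsub : (insert z S).filter (fun p => ∃ p' ∈ insert z S, p' ≠ p ∧ ν p' = ν p)
        ⊆ S.filter (fun p => ∃ p' ∈ S, p' ≠ p ∧ ν p' = ν p) := by
      intro p hp
      rw [Finset.mem_filter] at hp ⊢
      obtain ⟨hp1, p', hp'1, hp'2, hp'3⟩ := hp
      rcases Finset.mem_insert.mp hp1 with rfl | hpS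
      · exfalso
        rcases Finset.mem_insert.mp hp'1 with rfl | hp'S
        · exact hp'2 rfl
        · exact h ⟨p', hp'S, hp'3⟩
      refine ⟨hpS, ?_⟩
      rcases Finset.mem_insert.mp hp'1 with rfl | hp'S
      · exact absurd ⟨p, hpS, hp'3.symm⟩ h
      · exact ⟨p', hp'S, hp'2, hp'3⟩
    exact Finset.card_le_card hsub

variable [Fintype Q]

open Classical in
/-- One step of the occupancy bound. -/
theorem sum_insert_pow_clash (ν : Q → B) {L : ℕ}
    (hL : ∀ b, (Finset.univ.filter (fun p => ν p = b)).card ≤ L) {c : ℝ} (hc : 1 ≤ c)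
    (S : Finset Q) {J : ℕ} (hS : S.card ≤ J) :
    ∑ z, c ^ clash ν (insert z S)
      ≤ c ^ clash ν S * ((Fintype.card Q : ℝ) + (J : ℝ) * (L : ℝ) * (c ^ 2 - 1)) := by
  have hc0 : 0 < c := by linarith
  have hc2 : 0 ≤ c ^ 2 - 1 := by nlinarith
  set O : Finset Q := Finset.univ.filter (fun z => ∃ p ∈ S, ν p = ν z) with hO
  have hOc : O.card ≤ J * L := by
    have h1 : O ⊆ S.biUnion (fun p => Finset.univ.filter (fun z => ν z = ν p)) := by
      intro z hz
      rw [hO, Finset.mem_filter] at hz
      obtain ⟨-, p, hp, hν⟩ := hz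
      exact Finset.mem_biUnion.mpr ⟨p, hp, by simp [hν]⟩
    have h2 := Finset.card_le_card h1
    have h3 := Finset.card_biUnion_le_card_mul S (fun p => Finset.univ.filter (fun z => ν z = ν p)) L
      (fun p _ => hL (ν p))
    calc O.card ≤ S.card * L := h2.trans h3
      _ ≤ J * L := Nat.mul_le_mul_right _ hS
  have h1 : ∀ z, c ^ clash ν (insert z S)
      ≤ c ^ clash ν S * (1 + (if z ∈ O then c ^ 2 - 1 else 0)) := by
    intro z
    have h2 := clash_insert_le ν S z
    have h3 : c ^ clash ν (insert z S) ≤ c ^ (clash ν S + (if ∃ p ∈ S, ν p = ν z then 2 else 0)) :=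
      pow_le_pow_right₀ hc h2
    refine h3.trans ?_
    rw [pow_add]
    refine mul_le_mul_of_nonneg_left ?_ (by positivity)
    by_cases hz : ∃ p ∈ S, ν p = ν z
    · have hzO : z ∈ O := by
        rw [hO, Finset.mem_filter]
        exact ⟨Finset.mem_univ _, hz⟩
      rw [if_pos hz, if_pos hzO]
      linarith
    · have hzO : z ∉ O := by
        rw [hO, Finset.mem_filter]
        exact fun h => hz h.2
      rw [if_neg hz, if_neg hzO]
      simp
  refine (Finset.sum_le_sum (fun z _ => h1 z)).trans ?_
  rw [← Finset.mul_sum]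
  refine mul_le_mul_of_nonneg_left ?_ (by positivity)
  rw [Finset.sum_add_distrib, Finset.sum_ite_mem, Finset.univ_inter, Finset.sum_const,
    Finset.sum_const, Finset.card_univ]
  simp only [nsmul_eq_mul, mul_one]
  have h4 : (O.card : ℝ) ≤ (J : ℝ) * (L : ℝ) := by exact_mod_cast hOc
  have := mul_le_mul_of_nonneg_right h4 hc2
  linarith

/-- **The occupancy bound.** -/
theorem sum_pow_clash (ν : Q → B) {L : ℕ}
    (hL : ∀ b, (Finset.univ.filter (fun p => ν p = b)).card ≤ L) {c : ℝ} (hc : 1 ≤ c) (j : ℕ) :
    ∑ x : Fin j → Q, c ^ clash ν (Finset.univ.image x)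
      ≤ ((Fintype.card Q : ℝ) + (j : ℝ) * (L : ℝ) * (c ^ 2 - 1)) ^ j := by
  have hc2 : 0 ≤ c ^ 2 - 1 := by nlinarith
  have key : ∀ (i J : ℕ), i ≤ J → ∑ x : Fin i → Q, c ^ clash ν (Finset.univ.image x)
      ≤ ((Fintype.card Q : ℝ) + (J : ℝ) * (L : ℝ) * (c ^ 2 - 1)) ^ i := by
    intro i
    induction i with
    | zero =>
      intro J _
      simp [clash_empty]
    | succ i ih =>
      intro J hJ
      have hB : 0 ≤ (Fintype.card Q : ℝ) + (J : ℝ) * (L : ℝ) * (c ^ 2 - 1) := by positivity
      have h1 : ∑ x : Fin (i + 1) → Q, c ^ clash ν (Finset.univ.image x)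
          = ∑ y : Fin i → Q, ∑ z : Q, c ^ clash ν (insert z (Finset.univ.image y)) := by
        rw [← (Fin.consEquiv (fun _ : Fin (i + 1) => Q)).sum_comp, Fintype.sum_prod_type_right]
        refine Finset.sum_congr rfl (fun y _ => Finset.sum_congr rfl (fun z _ => ?_))
        congr 2
        ext w
        simp only [Fin.consEquiv_apply, Finset.mem_image, Finset.mem_univ, true_and, Finset.mem_insert]
        constructor
        · rintro ⟨a, rfl⟩
          refine Fin.cases ?_ (fun b => ?_) a
          · simp
          · right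
            exact ⟨b, by simp⟩
        · rintro (rfl | ⟨b, rfl⟩)
          · exact ⟨0, by simp⟩
          · exact ⟨b.succ, by simp⟩
      rw [h1, pow_succ]
      have h2 : ∀ y : Fin i → Q, ∑ z : Q, c ^ clash ν (insert z (Finset.univ.image y))
          ≤ c ^ clash ν (Finset.univ.image y)
            * ((Fintype.card Q : ℝ) + (J : ℝ) * (L : ℝ) * (c ^ 2 - 1)) := by
        intro y
        refine sum_insert_pow_clash ν hL hc _ ?_
        refine Finset.card_image_le.trans ?_
        simp only [Finset.card_univ, Fintype.card_fin]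
        omega
      refine (Finset.sum_le_sum (fun y _ => h2 y)).trans ?_
      rw [← Finset.sum_mul]
      exact mul_le_mul_of_nonneg_right (ih J (by omega)) hB
  exact key j j le_rfl

end clash

/-- The node of height `a₀` reached by a position. -/
noncomputable def lab (a₀ : ℕ) : (a : ℕ) → BC a → Cube a → List Bool
  | 0, _, _ => []
  | a + 1, β, z =>
    if a + 1 ≤ a₀ then []
    else if β.1.1 (Fin.tail z) = z 0 then false :: lab a₀ a (β.1.2.1, β.2.2.1) (Fin.tail z)
    else true :: lab a₀ a (β.1.2.2, β.2.2.2) (Fin.tail z)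

/-- The number of positions at a node is at most the size of the node. -/
theorem lab_fibre (a₀ a : ℕ) (β : BC a) (l : List Bool) :
    (Finset.univ.filter (fun p => lab a₀ a β p = l)).card ≤ 2 ^ a₀ := by
  induction a generalizing l with
  | zero =>
    refine (Finset.card_filter_le _ _).trans ?_
    rw [Finset.card_univ, card_cube]
    exact Nat.pow_le_pow_right (by norm_num) (Nat.zero_le _)
  | succ a ih =>
    by_cases h : a + 1 ≤ a₀
    · refine (Finset.card_filter_le _ _).trans ?_
      rw [Finset.card_univ, card_cube]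
      exact Nat.pow_le_pow_right (by norm_num) h
    have hlab : ∀ z, lab a₀ (a + 1) β z
        = if β.1.1 (Fin.tail z) = z 0 then false :: lab a₀ a (β.1.2.1, β.2.2.1) (Fin.tail z)
          else true :: lab a₀ a (β.1.2.2, β.2.2.2) (Fin.tail z) := by
      intro z
      rw [lab, if_neg h]
    cases l with
    | nil =>
      have : Finset.univ.filter (fun p => lab a₀ (a + 1) β p = []) = ∅ := by
        ext z
        simp only [Finset.mem_filter, Finset.mem_univ, true_and, Finset.notMem_empty, iff_false, hlab]
        split_ifs <;> simp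
      rw [this]
      simp
    | cons b l' =>
      cases b with
      | false =>
        refine le_trans ?_ (ih (β.1.2.1, β.2.2.1) l')
        refine Finset.card_le_card_of_injOn (fun z => Fin.tail z) ?_ ?_
        · intro z hz
          simp only [Finset.coe_filter, Finset.mem_univ, true_and, Set.mem_setOf_eq, hlab] at hz ⊢
          split_ifs at hz with h1
          · simpa using hz
          · simp at hz
        · intro z hz z' hz' hzz
          simp only [Finset.coe_filter, Finset.mem_univ, true_and, Set.mem_setOf_eq, hlab] at hz hz'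
          have e1 : β.1.1 (Fin.tail z) = z 0 := by
            by_contra h1
            rw [if_neg h1] at hz
            simp at hz
          have e2 : β.1.1 (Fin.tail z') = z' 0 := by
            by_contra h1
            rw [if_neg h1] at hz'
            simp at hz'
          have hzz' : Fin.tail z = Fin.tail z' := hzz
          have e3 : z 0 = z' 0 := by rw [← e1, ← e2, hzz']
          funext i
          refine Fin.cases e3 (fun k => ?_) i
          exact congrFun hzz' k
      | true =>
        refine le_trans ?_ (ih (β.1.2.2, β.2.2.2) l')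
        refine Finset.card_le_card_of_injOn (fun z => Fin.tail z) ?_ ?_
        · intro z hz
          simp only [Finset.coe_filter, Finset.mem_univ, true_and, Set.mem_setOf_eq, hlab] at hz ⊢
          split_ifs at hz with h1
          · simp at hz
          · simpa using hz
        · intro z hz z' hz' hzz
          simp only [Finset.coe_filter, Finset.mem_univ, true_and, Set.mem_setOf_eq, hlab] at hz hz'
          have e1 : ¬ β.1.1 (Fin.tail z) = z 0 := by
            intro h1
            rw [if_pos h1] at hz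
            simp at hz
          have e2 : ¬ β.1.1 (Fin.tail z') = z' 0 := by
            intro h1
            rw [if_pos h1] at hz'
            simp at hz'
          have hzz' : Fin.tail z = Fin.tail z' := hzz
          have e3 : z 0 = z' 0 := by
            rw [hzz'] at e1
            revert e1 e2
            cases z 0 <;> cases z' 0 <;> cases β.1.1 (Fin.tail z') <;> simp
          funext i
          refine Fin.cases e3 (fun k => ?_) i
          exact congrFun hzz' k

/-- The truncated count vanishes on sets with at most one point. -/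
theorem Cnt_of_card_le_one (a₀ a : ℕ) (S : Finset (Cube a)) (hS : S.card ≤ 1) (β : BC a) :
    Cnt a₀ a S β = 0 := by
  induction a with
  | zero => simp [Cnt]
  | succ a ih =>
    rw [mkB_surj β, Cnt_mk]
    set A := β.1.1
    have hc := card_S0_add_S1 A S
    have hi := card_inter_S a A S
    have h0 := ih (S0 A S) (by omega) (β.1.2.1, β.2.2.1)
    have h1 := ih (S1 A S) (by omega) (β.1.2.2, β.2.2.2)
    rw [h0, h1]
    have hI : (S0 A S ∩ S1 A S).card = 0 := by omega
    have hcyc := cyc_le_card ((ben a (β.1.2.1, β.2.2.1))⁻¹ * ben a (β.1.2.2, β.2.2.2)) (S0 A S ∩ S1 A S)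
    split_ifs <;> omega

theorem mem_S0 {a : ℕ} {A : Cube a → Bool} {S : Finset (Cube (a + 1))} {p : Cube a} :
    p ∈ S0 A S ↔ (Fin.cons (A p) p : Cube (a + 1)) ∈ S := by
  simp [S0]

theorem mem_S1 {a : ℕ} {A : Cube a → Bool} {S : Finset (Cube (a + 1))} {p : Cube a} :
    p ∈ S1 A S ↔ (Fin.cons (!A p) p : Cube (a + 1)) ∈ S := by
  simp [S1]

/-- The clashing points split over the two sides of a node. -/
theorem clash_split (a₀ a : ℕ) (h : a₀ ≤ a) (S : Finset (Cube (a + 1))) (β : BC (a + 1)) :
    clash (lab a₀ a (β.1.2.1, β.2.2.1)) (S0 β.1.1 S) + clash (lab a₀ a (β.1.2.2, β.2.2.2)) (S1 β.1.1 S)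
      ≤ clash (lab a₀ (a + 1) β) S := by
  set A := β.1.1 with hA
  set ν₀ := lab a₀ a (β.1.2.1, β.2.2.1) with hν₀
  set ν₁ := lab a₀ a (β.1.2.2, β.2.2.2) with hν₁
  have hlab0 : ∀ p, lab a₀ (a + 1) β (Fin.cons (A p) p) = false :: ν₀ p := by
    intro p
    rw [lab, if_neg (by omega)]
    simp [hA, hν₀]
  have hlab1 : ∀ p, lab a₀ (a + 1) β (Fin.cons (!A p) p) = true :: ν₁ p := by
    intro p
    rw [lab, if_neg (by omega)]
    simp [hA, hν₁]
  set F₀ := (S0 A S).filter (fun p => ∃ p' ∈ S0 A S, p' ≠ p ∧ ν₀ p' = ν₀ p) with hF₀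
  set F₁ := (S1 A S).filter (fun p => ∃ p' ∈ S1 A S, p' ≠ p ∧ ν₁ p' = ν₁ p) with hF₁
  let e₀ : Cube a → Cube (a + 1) := fun p => Fin.cons (A p) p
  let e₁ : Cube a → Cube (a + 1) := fun p => Fin.cons (!A p) p
  have he₀ : Function.Injective e₀ := by
    intro p p' hpp
    have := congrArg Fin.tail hpp
    simpa [e₀] using this
  have he₁ : Function.Injective e₁ := by
    intro p p' hpp
    have := congrArg Fin.tail hpp
    simpa [e₁] using this
  have hdisj : Disjoint (F₀.image e₀) (F₁.image e₁) := by
    rw [Finset.disjoint_left]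
    intro z hz hz'
    obtain ⟨p, -, rfl⟩ := Finset.mem_image.mp hz
    obtain ⟨p', -, hp'⟩ := Finset.mem_image.mp hz'
    have h1 := congrArg Fin.tail hp'
    have h2 := congrFun hp' 0
    simp only [e₀, e₁, Fin.tail_cons, Fin.cons_zero] at h1 h2
    rw [h1] at h2
    revert h2
    cases A p <;> simp
  have hsub : F₀.image e₀ ∪ F₁.image e₁
      ⊆ S.filter (fun p => ∃ p' ∈ S, p' ≠ p ∧ lab a₀ (a + 1) β p' = lab a₀ (a + 1) β p) := by
    intro z hz
    rw [Finset.mem_filter]
    rcases Finset.mem_union.mp hz with hz | hz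
    · obtain ⟨p, hp, rfl⟩ := Finset.mem_image.mp hz
      rw [hF₀, Finset.mem_filter] at hp
      obtain ⟨hp1, p', hp'1, hp'2, hp'3⟩ := hp
      refine ⟨mem_S0.mp hp1, e₀ p', mem_S0.mp hp'1, fun h => hp'2 (he₀ h), ?_⟩
      simp only [e₀]
      rw [hlab0, hlab0, hp'3]
    · obtain ⟨p, hp, rfl⟩ := Finset.mem_image.mp hz
      rw [hF₁, Finset.mem_filter] at hp
      obtain ⟨hp1, p', hp'1, hp'2, hp'3⟩ := hp
      refine ⟨mem_S1.mp hp1, e₁ p', mem_S1.mp hp'1, fun h => hp'2 (he₁ h), ?_⟩
      simp only [e₁]
      rw [hlab1, hlab1, hp'3]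
  have h1 := Finset.card_le_card hsub
  rw [Finset.card_union_of_disjoint hdisj, Finset.card_image_of_injective _ he₀,
    Finset.card_image_of_injective _ he₁] at h1
  exact h1

/-- **The refined truncation of the cycle count.** -/
theorem Cnt_zero_le_clash (a₀ a : ℕ) (S : Finset (Cube a)) (β : BC a) :
    2 * Cnt 0 a S β ≤ 2 * Cnt a₀ a S β + a₀ * clash (lab a₀ a β) S := by
  induction a with
  | zero => simp [Cnt]
  | succ a ih =>
    by_cases h : a₀ ≤ a
    · have hcl := clash_split a₀ a h S β
      have h2 := Nat.mul_le_mul_left a₀ hcl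
      rw [Nat.mul_add] at h2
      have e := mkB_surj β
      have h0 := ih (S0 β.1.1 S) (β.1.2.1, β.2.2.1)
      have h1 := ih (S1 β.1.1 S) (β.1.2.2, β.2.2.2)
      have e0 : Cnt 0 (a + 1) S β = Cnt 0 a (S0 β.1.1 S) (β.1.2.1, β.2.2.1)
          + Cnt 0 a (S1 β.1.1 S) (β.1.2.2, β.2.2.2)
          + cyc ((ben a (β.1.2.1, β.2.2.1))⁻¹ * ben a (β.1.2.2, β.2.2.2)) (S0 β.1.1 S ∩ S1 β.1.1 S) := by
        rw [Cnt, if_pos (Nat.zero_le a)]
      have e1 : Cnt a₀ (a + 1) S β = Cnt a₀ a (S0 β.1.1 S) (β.1.2.1, β.2.2.1)
          + Cnt a₀ a (S1 β.1.1 S) (β.1.2.2, β.2.2.2)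
          + cyc ((ben a (β.1.2.1, β.2.2.1))⁻¹ * ben a (β.1.2.2, β.2.2.2)) (S0 β.1.1 S ∩ S1 β.1.1 S) := by
        rw [Cnt, if_pos h]
      rw [e0, e1]
      omega
    · have hlab : lab a₀ (a + 1) β = fun _ => [] := by
        funext z
        rw [lab, if_pos (by omega)]
      rw [hlab]
      by_cases hS : S.card ≤ 1
      · rw [Cnt_of_card_le_one 0 _ S hS β]
        omega
      · have hcl : clash (fun _ : Cube (a + 1) => ([] : List Bool)) S = S.card := by
          unfold clash
          congr 1
          refine Finset.filter_true_of_mem (fun p hp => ?_)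
          have h1 : 1 < S.card := by omega
          obtain ⟨p', hp', hpp⟩ := Finset.exists_mem_ne h1 p
          exact ⟨p', hp', hpp, rfl⟩
        rw [hcl]
        have h2 := Cnt_le 0 (a + 1) S β
        have h3 : S.card * (a + 1 - 0) ≤ a₀ * S.card := by
          rw [Nat.mul_comm]
          exact Nat.mul_le_mul_right _ (by omega)
        omega

end Vale.Agent.Lib.P162
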