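import Vale.Agent.Lib.P162.NFin
import Vale.Agent.Lib.P162.OTwist

/-! The bound with one logarithm of the dimension: the flatness after a constant number of blocks
and the central decay. -/

namespace Vale.Agent.Lib.P162

open Equiv Finset Matrix

set_option linter.unusedSectionVars false

open scoped Classical

/-- The constant base of the flatness bound. -/
noncomputable def oY : ℝ := (2 : ℝ) ^ 32

theorem oY_ge : 1 ≤ oY := one_le_pow₀ (by norm_num)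

/-- The row moment from the exponential moment of the cycle count. -/
theorem oRen (D : ℕ) (S : Finset (Cube D)) :
    avg (fun β : BC D => (2 : ℝ) ^ ((1 / 8 : ℝ) * (Cnt 0 D S β : ℝ)))
      ≤ (2 : ℝ) ^ ((1 / 8 : ℝ) * ((32 : ℕ) : ℝ) * (S.card : ℝ)) := by
  have h := cnt_exp_moment 0 D S
  refine h.trans (le_of_eq ?_)
  congr 1
  norm_num

/-- **Flatness after a constant number of blocks.** -/
theorem level_hyp0 {D j : ℕ} (hjn : j ≤ 2 ^ D) :
    (∀ f : (Fin j ↪ Cube D) → ℝ, (∀ x, 0 ≤ f x) → ∀ x,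
      (((Rm (Fin j) D)ᵀ * Rm (Fin j) D) ^ (13 + 1)).mulVec f x ≤ oY ^ j * nrm 2 f)
    ∧ (∑ x, ∑ y, (((Rm (Fin j) D) ^ (2 * (13 + 1))) x y) ^ 2 ≤ (oY ^ j) ^ 2) := by
  have : Nonempty (Fin j ↪ Cube D) := Function.Embedding.nonempty_of_card_le (by
    rw [card_cube, Fintype.card_fin]
    exact hjn)
  have hs0 : (0 : ℝ) < 1 / 8 := by norm_num
  have hs1 : (1 / 8 : ℝ) ≤ 1 := by norm_num
  have hT : (0 : ℝ) ≤ ((32 : ℕ) : ℝ) := Nat.cast_nonneg _
  have H1 := Rm_HR (ι := Fin j) (D := D) hs0 hT (oRen D)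
  have H2 := Rm_HR_transpose H1
  set A : ℝ := (2 : ℝ) ^ ((1 / 8 : ℝ) * ((32 : ℕ) : ℝ) * (Fintype.card (Fin j) : ℝ) / (1 + 1 / 8)) with hA
  have hA1 : 1 ≤ A := Real.one_le_rpow (by norm_num) (by positivity)
  have hbern : (1 + (1 / 8 : ℝ)) / (1 / 8) ≤ 2 * (1 + 1 / 8) ^ 13 := by norm_num
  obtain ⟨h1, h2⟩ := hyp_main Rm_DS hs0 hA1 H1 H2 hbern
  have hΞ : A ^ (1 + (1 + (1 / 8 : ℝ)) / (2 * (1 / 8))) ≤ oY ^ j := by
    rw [hA, ← Real.rpow_mul (by norm_num)]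
    have h3 := expo_le (J := (Fintype.card (Fin j) : ℝ)) hs0 hs1 hT (Nat.cast_nonneg _)
    refine (Real.rpow_le_rpow_of_exponent_le (by norm_num) h3).trans (le_of_eq ?_)
    rw [Real.rpow_mul (by norm_num), Real.rpow_natCast, Fintype.card_fin, Real.rpow_natCast]
    rfl
  have hΞ0 : 0 ≤ A ^ (1 + (1 + (1 / 8 : ℝ)) / (2 * (1 / 8))) := by positivity
  refine ⟨fun f hf x => (h1 f hf x).trans ?_, h2.trans (pow_le_pow_left₀ hΞ0 hΞ 2)⟩
  exact mul_le_mul_of_nonneg_right hΞ (nrm_nonneg 2 hf)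

/-- **The bound for the trace on each layer, with the central condition as a hypothesis.** -/
theorem level_bound0 {D j M Lp : ℕ} (hjn : j ≤ 2 ^ D) (hLp : 696 ≤ Lp) (hM : 144 * M ≤ Lp)
    (hnum : Real.exp 1 * fTh oY D * oY ^ 2 * (1 / 2 : ℝ) ^ M ≤ 1 / 16) :
    LinearMap.trace ℝ (Ej (Cube D) j) ((XLin D (28 + Lp)).restrict (XLin_mem j (28 + Lp)))
      ≤ (1 / 16 : ℝ) ^ j := by
  rcases Nat.eq_zero_or_pos j with rfl | hj
  · have hc : ∀ h ∈ Vtop (Fin 0) (Cube D), ‖Rop D (pT (Fin 0) D) h‖ ^ 2 ≤ (1 : ℝ) * ‖h‖ ^ 2 := by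
      intro h _
      rw [one_mul]
      exact pow_le_pow_left₀ (norm_nonneg _) (norm_Rop_le isOrth_piT h) 2
    have hHS : ∑ x, ∑ y, (((Rm (Fin 0) D) ^ 0) x y) ^ 2 ≤ (1 : ℝ) := by
      simp
    have h := trace_level (D := D) (j := 0) zero_le_one hc (L₀ := 0) (L := 28 + Lp) (Nat.zero_le _) hHS
    simpa using h
  · obtain ⟨h1, h2⟩ := level_hyp0 (j := j) hjn
    have hne : Nonempty (Fin j ↪ Cube D) := Function.Embedding.nonempty_of_card_le (by
      rw [card_cube, Fintype.card_fin]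
      exact hjn)
    have hY := oY_ge
    by_cases hΘ : (j : ℝ) * fTh oY D ≤ (2 : ℝ) ^ D
    · set B : ℝ := (oY ^ j) ^ 2 / (Fintype.card (Fin j ↪ Cube D) : ℝ) * Bd (Fin j) D with hB
      have hB0 : 0 ≤ B := by
        have := Bd_nonneg (ι := Fin j) (D := D)
        have : 0 ≤ oY := by linarith
        positivity
      set ρ : ℝ := B ^ (1 / ((29 : ℕ) : ℝ)) with hρ
      have hρ0 : 0 ≤ ρ := Real.rpow_nonneg hB0 _
      have hc : ∀ h ∈ Vtop (Fin j) (Cube D), ‖Rop D (pT (Fin j) D) h‖ ^ 2 ≤ ρ * ‖h‖ ^ 2 :=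
        fun h hh => flat_contr (m := 13) h1 hh
      set ρ' : ℝ := min ρ 1 with hρ'
      have hρ'0 : 0 ≤ ρ' := le_min hρ0 zero_le_one
      have hρ'1 : ρ' ≤ 1 := min_le_right _ _
      have hc' : ∀ h ∈ Vtop (Fin j) (Cube D), ‖Rop D (pT (Fin j) D) h‖ ^ 2 ≤ ρ' * ‖h‖ ^ 2 := by
        intro h hh
        have h3 : ‖Rop D (pT (Fin j) D) h‖ ^ 2 ≤ 1 * ‖h‖ ^ 2 := by
          rw [one_mul]
          exact pow_le_pow_left₀ (norm_nonneg _) (norm_Rop_le isOrth_piT h) 2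
        rcases min_choice ρ 1 with h4 | h4
        · rw [hρ', h4]
          exact hc h hh
        · rw [hρ', h4]
          exact h3
      have h3 := trace_level (D := D) (j := j) hρ'0 hc' (L₀ := 2 * (13 + 1)) (L := 28 + Lp) (by omega) h2
      have hL2 : 28 + Lp - 2 * (13 + 1) = Lp := by omega
      rw [hL2] at h3
      have hρE : ρ ^ (29 * 24) = B ^ 24 := by
        rw [pow_mul, hρ, one_div]
        congr 1
        exact Real.rpow_inv_natCast_pow hB0 (by omega)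
      have hle : ρ' ^ Lp ≤ B ^ 24 := by
        rw [← hρE]
        calc ρ' ^ Lp ≤ ρ' ^ (29 * 24) := pow_le_pow_of_le_one hρ'0 hρ'1 (by omega)
          _ ≤ ρ ^ (29 * 24) := pow_le_pow_left₀ hρ'0 (min_le_left _ _) _
      refine h3.trans (le_trans ?_ (flat_numeric hY hj hΘ))
      refine mul_le_mul_of_nonneg_left ?_ (Nat.cast_nonneg _)
      exact mul_le_mul_of_nonneg_right hle (sq_nonneg _)
    · push Not at hΘ
      have hc : ∀ h ∈ Vtop (Fin j) (Cube D), ‖Rop D (pT (Fin j) D) h‖ ^ 2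
          ≤ Real.exp (-((j : ℝ) / 144)) * ‖h‖ ^ 2 := by
        intro h hh
        obtain ⟨j', rfl⟩ : ∃ j', j = j' + 1 := ⟨j - 1, by omega⟩
        refine (central_decay (ι := Fin (j' + 1)) (j := j') (Fintype.card_fin _) hjn hh).trans ?_
        refine mul_le_mul_of_nonneg_right (Real.exp_le_exp.2 ?_) (by positivity)
        have hJ0 : (0 : ℝ) ≤ (j' : ℝ) + 1 := by positivity
        have hJn : (j' : ℝ) + 1 ≤ (2 : ℝ) ^ D := by exact_mod_cast hjn
        have hmin : ((j' : ℝ) + 1) / 2 ≤ min ((j' : ℝ) + 1) (((2 : ℝ) ^ D) / 2) := by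
          apply le_min <;> linarith
        push_cast
        linarith
      have h3 := trace_level (D := D) (j := j) (Real.exp_pos _).le hc (L₀ := 2 * (13 + 1)) (L := 28 + Lp)
        (by omega) h2
      have hL2 : 28 + Lp - 2 * (13 + 1) = Lp := by omega
      rw [hL2] at h3
      exact h3.trans (central_numeric hY hj hΘ.le hM hnum)

/-- The number of halvings needed in the central regime. -/
def oM (D : ℕ) : ℕ := 969 + 2 * Nat.log 2 (D + 1)

/-- The numerical condition in the central regime. -/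
theorem oM_cond (D : ℕ) :
    Real.exp 1 * fTh oY D * oY ^ 2 * (1 / 2 : ℝ) ^ oM D ≤ 1 / 16 := by
  set K : ℕ := Nat.log 2 (D + 1) + 1 with hK
  have hD2 : ((D : ℝ) + 1) ≤ (2 : ℝ) ^ K := by
    have h1 : D + 1 < 2 ^ K := Nat.lt_pow_succ_log_self (by norm_num) _
    have h2 : ((D + 1 : ℕ) : ℝ) ≤ ((2 ^ K : ℕ) : ℝ) := by exact_mod_cast h1.le
    push_cast at h2
    exact h2
  have hD3 : ((D : ℝ) + 1) ^ 2 ≤ ((2 : ℝ) ^ K) ^ 2 := pow_le_pow_left₀ (by positivity) hD2 2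
  have he : Real.exp 1 ≤ 2 ^ 2 := by
    have := Real.exp_one_lt_d9
    norm_num
    linarith
  have hP : oM D = (963 + 2 * K) + 4 := by
    unfold oM
    omega
  have hY0 : 0 < oY := by
    have := oY_ge
    linarith
  have h1 : Real.exp 1 * fTh oY D * oY ^ 2 ≤ (2 : ℝ) ^ (963 + 2 * K) := by
    unfold fTh oY
    have h2 : (2 : ℝ) ^ (963 + 2 * K) = 2 ^ 2 * ((32 : ℝ) ^ 13 * ((2 : ℝ) ^ 32) ^ 26 * ((2 : ℝ) ^ K) ^ 2) * ((2 : ℝ) ^ 32) ^ 2 := by
      have e1 : (32 : ℝ) ^ 13 = 2 ^ 65 := by norm_num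
      rw [e1, ← pow_mul, ← pow_mul, ← pow_mul, ← pow_add, ← pow_add, ← pow_add, ← pow_add]
      congr 1
      omega
    rw [h2]
    refine mul_le_mul_of_nonneg_right ?_ (by positivity)
    refine mul_le_mul he ?_ (by positivity) (by norm_num)
    exact mul_le_mul_of_nonneg_left hD3 (by positivity)
  have h3 : (2 : ℝ) ^ (963 + 2 * K) * (1 / 2 : ℝ) ^ (963 + 2 * K) = 1 := by
    rw [← mul_pow]
    norm_num
  rw [hP, pow_add (1 / 2 : ℝ) (963 + 2 * K) 4]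
  calc Real.exp 1 * fTh oY D * oY ^ 2 * ((1 / 2 : ℝ) ^ (963 + 2 * K) * (1 / 2 : ℝ) ^ 4)
      ≤ (2 : ℝ) ^ (963 + 2 * K) * ((1 / 2 : ℝ) ^ (963 + 2 * K) * (1 / 2 : ℝ) ^ 4) :=
        mul_le_mul_of_nonneg_right h1 (by positivity)
    _ = ((2 : ℝ) ^ (963 + 2 * K) * (1 / 2 : ℝ) ^ (963 + 2 * K)) * (1 / 2 : ℝ) ^ 4 := by ring
    _ = 1 / 16 := by
        rw [h3]
        norm_num

/-- **Main theorem: one logarithm of the dimension.** -/
theorem thorp_dlogd (d t : ℕ) (ht : 200000 * (d + 1) * (Nat.log 2 (d + 2) + 1) ≤ t) :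
    tvUniform (convPow (thorpLaw (2 ^ d)) t) ≤ 1 / 4 := by
  obtain ⟨Lp, hLp⟩ : ∃ Lp : ℕ, Lp = 696 + 144 * oM (d + 1) := ⟨_, rfl⟩
  have hLp1 : 696 ≤ Lp := by
    rw [hLp]
    exact Nat.le_add_right _ _
  have hLp2 : 144 * oM (d + 1) ≤ Lp := by
    rw [hLp]
    exact Nat.le_add_left _ _
  refine mix_of_layers (L := 28 + Lp) (b := fun j => (1 / 16 : ℝ) ^ j)
    (fun j hj => level_bound0 (M := oM (d + 1)) hj hLp1 hLp2 (oM_cond (d + 1))) ?_
    (le_trans ?_ ht)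
  · rw [geom_sum_eq (by norm_num)]
    have h1 : (0 : ℝ) ≤ (1 / 16 : ℝ) ^ (2 ^ (d + 1) + 1) := by positivity
    rw [div_le_iff_of_neg (by norm_num)]
    norm_num
    nlinarith
  · have h1 : 28 + Lp ≤ 200000 * (Nat.log 2 (d + 2) + 1) := by
      rw [hLp]
      unfold oM
      have : d + 1 + 1 = d + 2 := by omega
      rw [this]
      omega
    calc (d + 1) * (28 + Lp) ≤ (d + 1) * (200000 * (Nat.log 2 (d + 2) + 1)) := Nat.mul_le_mul_left _ h1
      _ = _ := by ring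

end Vale.Agent.Lib.P162
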