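import Vale.Agent.Lib.P162.Final

/-! The elementary lower bound: `t` shuffles use only `t * m` coins, so the law after `t < d`
shuffles of `2 * 2 ^ d` cards is supported on a small part of the symmetric group. -/

namespace Vale.Agent.Lib.P162

open Equiv Finset

section supp

variable {G : Type*} [Group G] [Fintype G] [DecidableEq G]

/-- A law supported on a small set is far from uniform. -/
theorem tv_ge_of_supp (μ : G → ℝ) (hμ : ∑ g, μ g = 1) (A : Finset G) (hA : ∀ g, g ∉ A → μ g = 0) :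
    1 - (A.card : ℝ) / (Fintype.card G : ℝ) ≤ tvUniform μ := by
  unfold tvUniform
  set N : ℝ := (Fintype.card G : ℝ) with hN
  have hN0 : 0 < N := by
    have : 0 < Fintype.card G := Fintype.card_pos
    rw [hN]
    exact_mod_cast this
  have h1 : ∑ g ∈ A, μ g = 1 := by
    rw [← hμ]
    refine Finset.sum_subset (Finset.subset_univ _) (fun g _ hg => hA g hg)
  have h2 : 1 - (A.card : ℝ) / N ≤ ∑ g ∈ A, |μ g - 1 / N| := by
    have h3 : ∑ g ∈ A, (μ g - 1 / N) = 1 - (A.card : ℝ) / N := by
      rw [Finset.sum_sub_distrib, h1, Finset.sum_const, nsmul_eq_mul]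
      ring
    rw [← h3]
    exact Finset.sum_le_sum (fun g _ => le_abs_self _)
  have h4 : ∑ g ∈ Aᶜ, |μ g - 1 / N| = 1 - (A.card : ℝ) / N := by
    have h5 : ∀ g ∈ Aᶜ, |μ g - 1 / N| = 1 / N := by
      intro g hg
      rw [hA g (Finset.mem_compl.mp hg), zero_sub, abs_neg, abs_of_pos (by positivity)]
    rw [Finset.sum_congr rfl h5, Finset.sum_const, nsmul_eq_mul, Finset.card_compl]
    have h6 : A.card ≤ Fintype.card G := Finset.card_le_univ A
    rw [Nat.cast_sub h6, ← hN]
    field_simp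
  have h7 := Finset.sum_add_sum_compl A (fun g => |μ g - 1 / N|)
  rw [← h7, h4]
  linarith

/-- The support of a convolution power. -/
theorem supp_convPow (q : G → ℝ) (Q : Finset G) (hQ : ∀ g, g ∉ Q → q g = 0) (t : ℕ) :
    ∃ A : Finset G, A.card ≤ Q.card ^ t ∧ ∀ g, g ∉ A → convPow q t g = 0 := by
  induction t with
  | zero =>
    refine ⟨{1}, by simp, fun g hg => ?_⟩
    have : g ≠ 1 := by simpa using hg
    simp [convPow, this]
  | succ t ih =>
    obtain ⟨A, hA, hA0⟩ := ih
    refine ⟨(A ×ˢ Q).image (fun p => p.1 * p.2), ?_, fun g hg => ?_⟩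
    · refine Finset.card_image_le.trans ?_
      rw [Finset.card_product, pow_succ]
      exact Nat.mul_le_mul_right _ hA
    · change conv (convPow q t) q g = 0
      unfold conv
      refine Finset.sum_eq_zero (fun h _ => ?_)
      by_cases hh : h ∈ A
      · have hk : h⁻¹ * g ∉ Q := by
          intro hk
          apply hg
          refine Finset.mem_image.mpr ⟨(h, h⁻¹ * g), Finset.mem_product.mpr ⟨hh, hk⟩, ?_⟩
          simp
        rw [hQ _ hk, mul_zero]
      · rw [hA0 h hh, zero_mul]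

end supp

section thorp

/-- The set of permutations given by the coins of one shuffle. -/
noncomputable def thorpSupp (m : ℕ) : Finset (Perm (Fin (2 * m))) := by
  classical
  exact Finset.univ.filter (fun g => ∃ c : Fin m → Bool, ∀ x, g x = thorpMap m c x)

theorem thorpLaw_eq_zero {m : ℕ} {g : Perm (Fin (2 * m))} (hg : g ∉ thorpSupp m) :
    thorpLaw m g = 0 := by
  unfold thorpLaw
  have h : Finset.univ.filter (fun c : Fin m → Bool => ∀ x, g x = thorpMap m c x) = ∅ := by
    rw [Finset.filter_eq_empty_iff]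
    intro c _ hc
    apply hg
    unfold thorpSupp
    exact Finset.mem_filter.mpr ⟨Finset.mem_univ _, c, hc⟩
  rw [h]
  simp

theorem card_thorpSupp (m : ℕ) : (thorpSupp m).card ≤ 2 ^ m := by
  classical
  have h1 : ∀ g ∈ thorpSupp m, ∃ c : Fin m → Bool, ∀ x, g x = thorpMap m c x := by
    intro g hg
    unfold thorpSupp at hg
    exact (Finset.mem_filter.mp hg).2
  choose! c hc using h1
  have h2 : Set.InjOn c (thorpSupp m : Set (Perm (Fin (2 * m)))) := by
    intro g hg g' hg' hcc
    ext x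
    rw [hc g hg, hc g' hg', hcc]
  have h3 := Finset.card_le_card_of_injOn c (t := Finset.univ) (fun g _ => Finset.mem_coe.mpr (Finset.mem_univ _)) h2
  refine h3.trans (le_of_eq ?_)
  simp

/-- The numbers: the factorial is large against the number of coin vectors. -/
theorem card_supp_mul_two_le {d t : ℕ} (h : t < d) :
    ((2 ^ (2 ^ d)) ^ t) * 2 ≤ (2 * 2 ^ d).factorial := by
  set m := 2 ^ d with hm
  have hm1 : 1 ≤ m := Nat.one_le_two_pow
  have h2 : 2 ≤ 2 ^ m := by
    calc 2 = 2 ^ 1 := by norm_num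
      _ ≤ 2 ^ m := Nat.pow_le_pow_right (by norm_num) hm1
  have h3 : (2 ^ m) ^ t * 2 ≤ (2 ^ m) ^ (t + 1) := by
    rw [pow_succ]
    exact Nat.mul_le_mul_left _ h2
  have h4 : (2 ^ m) ^ (t + 1) ≤ (2 ^ m) ^ d :=
    Nat.pow_le_pow_right (by positivity) h
  have h5 : (2 ^ m) ^ d = m ^ m := by
    rw [← pow_mul, mul_comm, pow_mul]
  have h6 : m ^ m ≤ (m + 1) ^ m := Nat.pow_le_pow_left (by omega) m
  have h7 : m.factorial * (m + 1) ^ m ≤ (m + m).factorial := Nat.factorial_mul_pow_le_factorial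
  have h8 : (m + 1) ^ m ≤ m.factorial * (m + 1) ^ m :=
    Nat.le_mul_of_pos_left _ (Nat.factorial_pos m)
  rw [two_mul]
  omega

/-- **The elementary lower bound.** -/
theorem thorp_lower (d t : ℕ) (h : t < d) :
    1 / 4 < tvUniform (convPow (thorpLaw (2 ^ d)) t) := by
  classical
  have hsum : ∑ g, thorpLaw (2 ^ d) g = 1 := thorpLaw_sum
  obtain ⟨A, hA, hA0⟩ := supp_convPow (thorpLaw (2 ^ d)) (thorpSupp (2 ^ d))
    (fun g hg => thorpLaw_eq_zero hg) t
  have h1 := tv_ge_of_supp _ (sum_convPow _ hsum t) A hA0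
  have h2 : A.card * 2 ≤ Fintype.card (Perm (Fin (2 * 2 ^ d))) := by
    rw [Fintype.card_perm, Fintype.card_fin]
    refine le_trans ?_ (card_supp_mul_two_le h)
    refine Nat.mul_le_mul_right _ (hA.trans ?_)
    exact Nat.pow_le_pow_left (card_thorpSupp _) t
  have hN : (0 : ℝ) < (Fintype.card (Perm (Fin (2 * 2 ^ d))) : ℝ) := by
    have : 0 < Fintype.card (Perm (Fin (2 * 2 ^ d))) := Fintype.card_pos
    exact_mod_cast this
  have h3 : (A.card : ℝ) / (Fintype.card (Perm (Fin (2 * 2 ^ d))) : ℝ) ≤ 1 / 2 := by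
    rw [div_le_iff₀ hN]
    have : ((A.card * 2 : ℕ) : ℝ) ≤ (Fintype.card (Perm (Fin (2 * 2 ^ d))) : ℝ) := by
      exact_mod_cast h2
    push_cast at this
    linarith
  linarith

end thorp

end Vale.Agent.Lib.P162
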