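import Vale.Agent.Lib.P162.OClash
import Vale.Agent.Lib.P162.OTwist
import Vale.Agent.Lib.P162.NTup

/-! The thirty third moment of the row weight over injective tuples: a density sensitive bound
from the exponential moment of the truncated cycle count and the occupancy bound for clashes. -/

namespace Vale.Agent.Lib.P162

open Equiv Finset

/-- The row weight: the exponential moment of the full cycle count on a set of positions. -/
noncomputable def Wrow (D : ℕ) (S : Finset (Cube D)) : ℝ :=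
  avg (fun β : BC D => (2 : ℝ) ^ ((1 / 16 : ℝ) * (Cnt 0 D S β : ℝ)))

/-- The number of tuples versus the falling factorial. -/
theorem pow_le_exp_mul_descFactorial {n : ℕ} (hn : 0 < n) (j : ℕ) (h : 2 * j ≤ n) :
    (n : ℝ) ^ j ≤ Real.exp (2 * (j : ℝ) ^ 2 / n) * (n.descFactorial j : ℝ) := by
  have hn0 : (0 : ℝ) < n := by exact_mod_cast hn
  induction j with
  | zero => simp
  | succ j ih =>
    have ih' := ih (by omega)
    have hjn : j ≤ n := by omega
    have h2 : (2 * (j : ℝ)) ≤ n := by exact_mod_cast (by omega : 2 * j ≤ n)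
    rw [Nat.descFactorial_succ, Nat.cast_mul, Nat.cast_sub hjn]
    have hj0 : (0 : ℝ) ≤ j := Nat.cast_nonneg j
    have hd : (0 : ℝ) ≤ (n.descFactorial j : ℝ) := Nat.cast_nonneg _
    have he : Real.exp (2 * ((j + 1 : ℕ) : ℝ) ^ 2 / n)
        = Real.exp (2 * (j : ℝ) ^ 2 / n) * Real.exp ((4 * (j : ℝ) + 2) / n) := by
      rw [← Real.exp_add]
      congr 1
      push_cast
      field_simp
      ring
    rw [he, pow_succ]
    have h3 : 1 + 2 * (j : ℝ) / n ≤ Real.exp ((4 * (j : ℝ) + 2) / n) := by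
      have h4 := Real.add_one_le_exp ((4 * (j : ℝ) + 2) / n)
      have h5 : 2 * (j : ℝ) / n ≤ (4 * (j : ℝ) + 2) / n :=
        div_le_div_of_nonneg_right (by linarith) hn0.le
      linarith
    have h6 : (n : ℝ) ≤ Real.exp ((4 * (j : ℝ) + 2) / n) * ((n : ℝ) - j) := by
      have h7 : (0 : ℝ) ≤ (n : ℝ) - j := by linarith
      have h8 := mul_le_mul_of_nonneg_right h3 h7
      refine le_trans ?_ h8
      have h9 : (1 + 2 * (j : ℝ) / n) * ((n : ℝ) - j) = n + j * (1 - 2 * j / n) := by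
        field_simp
        ring
      rw [h9]
      have h10 : 0 ≤ (j : ℝ) * (1 - 2 * j / n) := by
        refine mul_nonneg hj0 ?_
        have : 2 * (j : ℝ) / n ≤ 1 := by
          rw [div_le_one hn0]
          exact h2
        linarith
      linarith
    calc (n : ℝ) ^ j * n
        ≤ (Real.exp (2 * (j : ℝ) ^ 2 / n) * (n.descFactorial j : ℝ)) * n :=
          mul_le_mul_of_nonneg_right ih' hn0.le
      _ ≤ (Real.exp (2 * (j : ℝ) ^ 2 / n) * (n.descFactorial j : ℝ))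
            * (Real.exp ((4 * (j : ℝ) + 2) / n) * ((n : ℝ) - j)) :=
          mul_le_mul_of_nonneg_left h6 (by positivity)
      _ = _ := by ring

/-- The occupancy sum divided by the number of embeddings. -/
theorem occupancy_avg {D j : ℕ} (hj : 2 * j ≤ 2 ^ D) {B : Type*} [DecidableEq B]
    (ν : Cube D → B) {L : ℕ} (hL : ∀ b, (univ.filter (fun p => ν p = b)).card ≤ L)
    {c : ℝ} (hc : 1 ≤ c) :
    avg (fun x : Fin j ↪ Cube D => c ^ clash ν (univ.image x))
      ≤ Real.exp ((j : ℝ) * ((j : ℝ) / 2 ^ D * (2 + L * c ^ 2))) := by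
  classical
  have hn : 0 < 2 ^ D := by positivity
  have hn0 : (0 : ℝ) < (2 : ℝ) ^ D := by positivity
  have hcard : (Fintype.card (Fin j ↪ Cube D) : ℝ) = ((2 ^ D).descFactorial j : ℝ) := by
    rw [Fintype.card_embedding_eq, card_cube, Fintype.card_fin]
  have hpos : (0 : ℝ) < ((2 ^ D).descFactorial j : ℝ) := by
    have : 0 < (2 ^ D).descFactorial j := Nat.descFactorial_pos.mpr (by omega)
    exact_mod_cast this
  have hc0 : 0 < c := by linarith
  have h1 := sum_inj_le (ι := Fin j) (Q := Cube D) (fun x => c ^ clash ν (univ.image x))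
    (fun x => by positivity)
  have h2 := sum_pow_clash ν hL hc j
  rw [card_cube] at h2
  have h3 : ((((2 ^ D : ℕ) : ℝ)) + j * L * (c ^ 2 - 1)) ^ j
      ≤ ((2 : ℝ) ^ D) ^ j * Real.exp ((j : ℝ) * ((j : ℝ) / 2 ^ D * (L * c ^ 2))) := by
    push_cast
    have h4 : (2 : ℝ) ^ D + j * L * (c ^ 2 - 1)
        ≤ (2 : ℝ) ^ D * Real.exp ((j : ℝ) / 2 ^ D * (L * c ^ 2)) := by
      have h5 := Real.add_one_le_exp ((j : ℝ) / 2 ^ D * (L * c ^ 2))
      have h6 := mul_le_mul_of_nonneg_left h5 hn0.le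
      refine le_trans ?_ h6
      have h7 : (2 : ℝ) ^ D * ((j : ℝ) / 2 ^ D * (L * c ^ 2) + 1) = j * L * c ^ 2 + 2 ^ D := by
        field_simp
      rw [h7]
      have : (0 : ℝ) ≤ j * L := by positivity
      nlinarith
    have h8 : (0 : ℝ) ≤ (2 : ℝ) ^ D + j * L * (c ^ 2 - 1) := by
      have : (0 : ℝ) ≤ j * L * (c ^ 2 - 1) := by
        refine mul_nonneg (by positivity) ?_
        nlinarith
      positivity
    refine (pow_le_pow_left₀ h8 h4 j).trans (le_of_eq ?_)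
    rw [mul_pow, ← Real.exp_nat_mul]
  have h9 := pow_le_exp_mul_descFactorial hn j hj
  unfold avg
  rw [hcard, div_le_iff₀ hpos]
  have h10 : (((2 ^ D : ℕ) : ℝ)) = (2 : ℝ) ^ D := by push_cast; rfl
  rw [h10] at h9
  have key : ∑ x : Fin j ↪ Cube D, c ^ clash ν (univ.image x)
      ≤ Real.exp ((j : ℝ) * ((j : ℝ) / 2 ^ D * (2 + L * c ^ 2))) * ((2 ^ D).descFactorial j : ℝ) := by
    refine h1.trans (h2.trans (h3.trans ?_))
    have h12 := mul_le_mul_of_nonneg_right h9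
      (Real.exp_pos ((j : ℝ) * ((j : ℝ) / 2 ^ D * (L * c ^ 2)))).le
    refine h12.trans (le_of_eq ?_)
    have h11 : (j : ℝ) * ((j : ℝ) / 2 ^ D * (2 + L * c ^ 2))
        = 2 * (j : ℝ) ^ 2 / (2 : ℝ) ^ D + (j : ℝ) * ((j : ℝ) / 2 ^ D * (L * c ^ 2)) := by
      field_simp
    rw [h11, Real.exp_add]
    ring
  exact key

/-- The row weight is bounded through the clash moment, by the Cauchy Schwarz inequality. -/
theorem Wrow_le (a₀ : ℕ) {D : ℕ} (S : Finset (Cube D)) :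
    Wrow D S ≤ (2 : ℝ) ^ (2 * (77 / 80 : ℝ) ^ a₀ * (S.card : ℝ))
      * avg (fun β : BC D => (2 : ℝ) ^ (((a₀ : ℝ) / 16) * (clash (lab a₀ D β) S : ℝ))) ^ (1 / 2 : ℝ) := by
  have h20 : (0 : ℝ) < 2 := by norm_num
  let f : BC D → ℝ := fun β => (2 : ℝ) ^ ((1 / 16 : ℝ) * (Cnt a₀ D S β : ℝ))
  let g : BC D → ℝ := fun β => (2 : ℝ) ^ (((a₀ : ℝ) / 32) * (clash (lab a₀ D β) S : ℝ))
  have hf : ∀ β, 0 ≤ f β := fun β => (Real.rpow_pos_of_pos h20 _).le
  have hg : ∀ β, 0 ≤ g β := fun β => (Real.rpow_pos_of_pos h20 _).le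
  have h1 : Wrow D S ≤ avg (fun β => f β * g β) := by
    unfold Wrow
    refine avg_mono (fun β => ?_)
    simp only [f, g]
    rw [← Real.rpow_add h20]
    refine Real.rpow_le_rpow_of_exponent_le (by norm_num) ?_
    have h2 := Cnt_zero_le_clash a₀ D S β
    have h3 : (2 : ℝ) * (Cnt 0 D S β : ℝ)
        ≤ 2 * (Cnt a₀ D S β : ℝ) + (a₀ : ℝ) * (clash (lab a₀ D β) S : ℝ) := by
      exact_mod_cast h2
    have h4 : (1 / 16 : ℝ) * (Cnt 0 D S β : ℝ)
        = (1 / 32 : ℝ) * ((2 : ℝ) * (Cnt 0 D S β : ℝ)) := by ring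
    rw [h4]
    have h5 := mul_le_mul_of_nonneg_left h3 (by norm_num : (0 : ℝ) ≤ 1 / 32)
    refine h5.trans (le_of_eq ?_)
    ring
  have h2 := avg_holder hf hg Real.HolderConjugate.two_two
  refine (h1.trans h2).trans ?_
  have hf2 : ∀ β, f β ^ (2 : ℝ) = (2 : ℝ) ^ ((1 / 8 : ℝ) * (Cnt a₀ D S β : ℝ)) := by
    intro β
    simp only [f]
    rw [← Real.rpow_mul h20.le]
    congr 1
    ring
  have hg2 : ∀ β, g β ^ (2 : ℝ) = (2 : ℝ) ^ (((a₀ : ℝ) / 16) * (clash (lab a₀ D β) S : ℝ)) := by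
    intro β
    simp only [g]
    rw [← Real.rpow_mul h20.le]
    congr 1
    ring
  simp only [hf2, hg2]
  refine mul_le_mul_of_nonneg_right ?_ (Real.rpow_nonneg
    (avg_nonneg (fun β => (Real.rpow_pos_of_pos h20 _).le)) _)
  have h3 := cnt_exp_moment a₀ D S
  have h4 := Real.rpow_le_rpow (avg_nonneg (fun β => (Real.rpow_pos_of_pos h20 _).le)) h3
    (by norm_num : (0 : ℝ) ≤ 1 / 2)
  refine h4.trans (le_of_eq ?_)
  rw [← Real.rpow_mul h20.le]
  congr 1
  ring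

/-- The thirty third power of the row weight. -/
theorem Wrow_pow_le (a₀ : ℕ) {D j : ℕ} (x : Fin j ↪ Cube D) :
    Wrow D (univ.image x) ^ (33 : ℝ) ≤ (2 : ℝ) ^ (66 * (77 / 80 : ℝ) ^ a₀ * (j : ℝ))
      * avg (fun β : BC D => ((2 : ℝ) ^ ((33 / 32 : ℝ) * (a₀ : ℝ))) ^ clash (lab a₀ D β) (univ.image x)) := by
  have h20 : (0 : ℝ) < 2 := by norm_num
  have hcard : (univ.image x).card = j := by
    rw [Finset.card_image_of_injective _ x.injective]
    simp
  have h1 := Wrow_le a₀ (univ.image x)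
  rw [hcard] at h1
  have hW0 : 0 ≤ Wrow D (univ.image x) :=
    avg_nonneg (fun β => (Real.rpow_pos_of_pos h20 _).le)
  have hG0 : 0 ≤ avg (fun β : BC D => (2 : ℝ) ^ (((a₀ : ℝ) / 16)
      * (clash (lab a₀ D β) (univ.image x) : ℝ))) :=
    avg_nonneg (fun β => (Real.rpow_pos_of_pos h20 _).le)
  have h2 := Real.rpow_le_rpow hW0 h1 (by norm_num : (0 : ℝ) ≤ 33)
  refine h2.trans ?_
  rw [Real.mul_rpow (Real.rpow_pos_of_pos h20 _).le (Real.rpow_nonneg hG0 _),
    ← Real.rpow_mul h20.le, ← Real.rpow_mul hG0]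
  have h3 : 2 * (77 / 80 : ℝ) ^ a₀ * (j : ℝ) * 33 = 66 * (77 / 80 : ℝ) ^ a₀ * (j : ℝ) := by ring
  rw [h3]
  refine mul_le_mul_of_nonneg_left ?_ (Real.rpow_pos_of_pos h20 _).le
  have h4 := avg_rpow_le (f := fun β : BC D => (2 : ℝ) ^ (((a₀ : ℝ) / 16)
      * (clash (lab a₀ D β) (univ.image x) : ℝ)))
    (fun β => (Real.rpow_pos_of_pos h20 _).le) (p := 33 / 2) (by norm_num)
  have h5 : (1 / 2 : ℝ) * 33 = 33 / 2 := by norm_num
  rw [h5]
  refine h4.trans (le_of_eq ?_)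
  congr 1
  funext β
  rw [← Real.rpow_mul h20.le, ← Real.rpow_natCast, ← Real.rpow_mul h20.le]
  congr 1
  ring

/-- **The moment of the row weight**, small when both the level and the density are suitably
balanced. -/
theorem avg_W33 {D j a₀ : ℕ} (hj : 2 * j ≤ 2 ^ D) :
    avg (fun x : Fin j ↪ Cube D => Wrow D (univ.image x) ^ (33 : ℝ))
      ≤ Real.exp ((j : ℝ) * (46 * (77 / 80 : ℝ) ^ a₀
          + (j : ℝ) / 2 ^ D * (2 + 2 ^ a₀ * ((2 : ℝ) ^ ((33 / 32 : ℝ) * a₀)) ^ 2))) := by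
  classical
  have h20 : (0 : ℝ) < 2 := by norm_num
  set c : ℝ := (2 : ℝ) ^ ((33 / 32 : ℝ) * (a₀ : ℝ)) with hc
  have hc1 : 1 ≤ c := Real.one_le_rpow (by norm_num) (by positivity)
  have hr0 : (0 : ℝ) ≤ (77 / 80 : ℝ) ^ a₀ := by positivity
  have h1 : avg (fun x : Fin j ↪ Cube D => Wrow D (univ.image x) ^ (33 : ℝ))
      ≤ (2 : ℝ) ^ (66 * (77 / 80 : ℝ) ^ a₀ * (j : ℝ))
        * avg (fun x : Fin j ↪ Cube D =>
            avg (fun β : BC D => c ^ clash (lab a₀ D β) (univ.image x))) := by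
    rw [← avg_mul_left]
    exact avg_mono (fun x => Wrow_pow_le a₀ x)
  have h2 : avg (fun x : Fin j ↪ Cube D =>
        avg (fun β : BC D => c ^ clash (lab a₀ D β) (univ.image x)))
      ≤ Real.exp ((j : ℝ) * ((j : ℝ) / 2 ^ D * (2 + ((2 ^ a₀ : ℕ) : ℝ) * c ^ 2))) := by
    rw [avg_comm]
    refine avg_le_of_forall (fun β => ?_)
    exact occupancy_avg hj (lab a₀ D β) (fun l => lab_fibre a₀ D β l) hc1
  have h3 : (2 : ℝ) ^ (66 * (77 / 80 : ℝ) ^ a₀ * (j : ℝ))
      ≤ Real.exp ((j : ℝ) * (46 * (77 / 80 : ℝ) ^ a₀)) := by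
    rw [Real.rpow_def_of_pos h20]
    refine Real.exp_le_exp.mpr ?_
    have h4 := Real.log_two_lt_d9
    have h5 : Real.log 2 * 66 ≤ 46 := by linarith
    have h6 : (0 : ℝ) ≤ (j : ℝ) * (77 / 80 : ℝ) ^ a₀ := by positivity
    have h7 := mul_le_mul_of_nonneg_right h5 h6
    calc Real.log 2 * (66 * (77 / 80 : ℝ) ^ a₀ * (j : ℝ))
        = Real.log 2 * 66 * ((j : ℝ) * (77 / 80 : ℝ) ^ a₀) := by ring
      _ ≤ 46 * ((j : ℝ) * (77 / 80 : ℝ) ^ a₀) := h7
      _ = _ := by ring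
  refine h1.trans ?_
  refine (mul_le_mul h3 h2 ?_ (Real.exp_pos _).le).trans (le_of_eq ?_)
  · exact avg_nonneg (fun x => avg_nonneg (fun β => pow_nonneg (by linarith) _))
  · rw [← Real.exp_add]
    congr 1
    push_cast
    ring

end Vale.Agent.Lib.P162
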