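import Vale.Agent.Lib.P162.Rep

/-! Operator exponentials of symmetric operators: elementary facts used in the recursion. -/

namespace Vale.Agent.Lib.P162

open NormedSpace

set_option linter.unusedSectionVars false
set_option linter.style.haveILetI false

variable {E : Type*} [NormedAddCommGroup E] [InnerProductSpace ℝ E] [CompleteSpace E]

theorem exp_add_comm {A B : E →L[ℝ] E} (h : Commute A B) : exp (A + B) = exp A * exp B := by
  letI : NormedAlgebra ℚ (E →L[ℝ] E) := NormedAlgebra.restrictScalars ℚ ℝ _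
  exact exp_add_of_commute h

theorem hasSum_exp_op (A : E →L[ℝ] E) :
    HasSum (fun k : ℕ => ((k.factorial : ℝ)⁻¹) • A ^ k) (exp A) :=
  exp_series_hasSum_exp' (𝕂 := ℝ) A

theorem exp_half (A : E →L[ℝ] E) :
    exp A = exp ((1 / 2 : ℝ) • A) * exp ((1 / 2 : ℝ) • A) := by
  rw [← exp_add_comm (Commute.refl _), ← add_smul]
  norm_num

theorem symOp_iff_selfAdjoint (A : E →L[ℝ] E) : SymOp A ↔ IsSelfAdjoint A := by
  rw [ContinuousLinearMap.isSelfAdjoint_iff_isSymmetric]
  rfl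

theorem symOp_exp {A : E →L[ℝ] E} (hA : SymOp A) : SymOp (exp A) := by
  rw [symOp_iff_selfAdjoint] at hA ⊢
  exact hA.exp

theorem inner_exp_eq_norm_sq {A : E →L[ℝ] E} (hA : SymOp A) (u : E) :
    inner ℝ u (exp A u) = ‖exp ((1 / 2 : ℝ) • A) u‖ ^ 2 := by
  have h1 : exp A u = exp ((1 / 2 : ℝ) • A) (exp ((1 / 2 : ℝ) • A) u) := by
    conv_lhs => rw [exp_half A]
    rfl
  rw [h1, ← symOp_exp (hA.smul (1 / 2 : ℝ)) u, real_inner_self_eq_norm_sq]

theorem exp_nonneg {A : E →L[ℝ] E} (hA : SymOp A) (u : E) : 0 ≤ inner ℝ u (exp A u) := by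
  rw [inner_exp_eq_norm_sq hA]; positivity

/-- the exponential series tested on a vector -/
theorem hasSum_inner_exp (A : E →L[ℝ] E) (u : E) :
    HasSum (fun k : ℕ => ((k.factorial : ℝ)⁻¹) * inner ℝ u ((A ^ k) u)) (inner ℝ u (exp A u)) := by
  have h := hasSum_exp_op A
  let F : (E →L[ℝ] E) →L[ℝ] ℝ :=
    (innerSL ℝ u).comp (ContinuousLinearMap.apply ℝ E u)
  have h2 := h.mapL F
  have h3 : (fun k : ℕ => F (((k.factorial : ℝ)⁻¹) • A ^ k)) =
      fun k : ℕ => ((k.factorial : ℝ)⁻¹) * inner ℝ u ((A ^ k) u) := by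
    funext k
    simp [F]
  rw [h3] at h2
  simpa [F] using h2

theorem hasSum_exp_apply (A : E →L[ℝ] E) (u : E) :
    HasSum (fun k : ℕ => ((k.factorial : ℝ)⁻¹) • (A ^ k) u) (exp A u) := by
  have h := (hasSum_exp_op A).mapL (ContinuousLinearMap.apply ℝ E u)
  simpa using h

theorem SymOp.pow {A : E →L[ℝ] E} (hA : SymOp A) (k : ℕ) : SymOp (A ^ k) := by
  induction k with
  | zero => simpa using SymOp.one
  | succ k ih =>
    rw [pow_succ]
    exact ih.mul_of_commute hA (Commute.pow_left (Commute.refl A) k)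

/-- Powers of a positive semidefinite symmetric operator are positive semidefinite. -/
theorem inner_pow_nonneg {A : E →L[ℝ] E} (hs : SymOp A) (hp : PsdOp A) (k : ℕ) (u : E) :
    0 ≤ inner ℝ u ((A ^ k) u) := by
  induction k using Nat.twoStepInduction generalizing u with
  | zero => simp
  | one => simpa using hp u
  | more k ih _ =>
    have h : (A ^ (k + 2)) u = A ((A ^ k) (A u)) := by
      rw [pow_succ', pow_succ]; rfl
    rw [h, ← hs u]
    exact ih (A u)

/-- `1 + A ≤ exp A` as quadratic forms, for positive semidefinite `A`. -/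
theorem one_add_le_exp {A : E →L[ℝ] E} (hs : SymOp A) (hp : PsdOp A) (u : E) :
    ‖u‖ ^ 2 + inner ℝ u (A u) ≤ inner ℝ u (exp A u) := by
  have h := hasSum_inner_exp A u
  have h2 : ∑ k ∈ Finset.range 2, ((k.factorial : ℝ)⁻¹) * inner ℝ u ((A ^ k) u)
      ≤ inner ℝ u (exp A u) :=
    sum_le_hasSum _ (fun k _ => mul_nonneg (by positivity) (inner_pow_nonneg hs hp k u)) h
  simpa [Finset.sum_range_succ, real_inner_self_eq_norm_sq] using h2

/-- exponential on an eigenvector -/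
theorem exp_apply_of_eigen {A : E →L[ℝ] E} {e : E} {μ : ℝ} (h : A e = μ • e) :
    exp A e = Real.exp μ • e := by
  have hk : ∀ k : ℕ, (A ^ k) e = μ ^ k • e := by
    intro k
    induction k with
    | zero => simp
    | succ k ih =>
      rw [pow_succ]
      change (A ^ k) (A e) = _
      rw [h, map_smul, ih, smul_smul, pow_succ]
      ring_nf
  have h1 := hasSum_exp_apply A e
  have h2 : HasSum (fun k : ℕ => ((k.factorial : ℝ)⁻¹ * μ ^ k)) (Real.exp μ) := by
    have := NormedSpace.exp_series_hasSum_exp' (𝕂 := ℝ) μ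
    rw [← Real.exp_eq_exp_ℝ] at this
    simpa using this
  have h3 := h2.smul_const e
  have h4 : (fun k : ℕ => ((k.factorial : ℝ)⁻¹) • (A ^ k) e) =
      fun k : ℕ => ((k.factorial : ℝ)⁻¹ * μ ^ k) • e := by
    funext k
    rw [hk, smul_smul]
  rw [h4] at h1
  exact h1.unique h3

/-- exponentials of multiples of one operator add -/
theorem exp_smul_mul (A : E →L[ℝ] E) (x y : ℝ) :
    exp (x • A) * exp (y • A) = exp ((x + y) • A) := by
  rw [← exp_add_comm ((Commute.refl A).smul_left x |>.smul_right y), add_smul]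

/-- Series bound from moment bounds. -/
theorem inner_exp_le_of_moments {X : E →L[ℝ] E} (hX : SymOp X) (u : E) {C t : ℝ}
    (hC : 0 ≤ C) (ht : 0 ≤ t) (hr : C * t < 1) (h0 : inner ℝ u (X u) = 0)
    (hm : ∀ j : ℕ, ‖(X ^ j) (X u)‖ ≤ C ^ j * ((j + 1).factorial : ℝ) * ‖X u‖) :
    inner ℝ u (exp (t • X) u) ≤ ‖u‖ ^ 2 + t ^ 2 / (2 * (1 - C * t)) * ‖X u‖ ^ 2 := by
  have hS := hasSum_inner_exp (t • X) u
  set a : ℕ → ℝ := fun k => ((k.factorial : ℝ)⁻¹) * inner ℝ u (((t • X) ^ k) u) with ha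
  have hS2 := (hasSum_nat_add_iff' 2).mpr hS
  have hr0 : 0 ≤ C * t := mul_nonneg hC ht
  have hgeo := (hasSum_geometric_of_lt_one hr0 hr).mul_left (t ^ 2 * ‖X u‖ ^ 2 / 2)
  have hle : ∀ k : ℕ, a (k + 2) ≤ (t ^ 2 * ‖X u‖ ^ 2 / 2) * (C * t) ^ k := by
    intro k
    have h1 : inner ℝ u ((X ^ (k + 2)) u) = inner ℝ (X u) ((X ^ k) (X u)) := by
      have : (X ^ (k + 2)) u = X ((X ^ k) (X u)) := by
        rw [pow_succ', pow_succ]; rfl
      rw [this, hX u]
    have h2 : inner ℝ (X u) ((X ^ k) (X u)) ≤ ‖X u‖ * (C ^ k * ((k + 1).factorial : ℝ) * ‖X u‖) :=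
      (real_inner_le_norm _ _).trans (mul_le_mul_of_nonneg_left (hm k) (norm_nonneg _))
    have h3 : ((t • X) ^ (k + 2)) u = (t ^ (k + 2)) • (X ^ (k + 2)) u := by
      rw [smul_pow]; rfl
    simp only [ha]
    rw [h3, inner_smul_right, h1]
    have hf : ((k + 2).factorial : ℝ) = (k + 2) * ((k + 1).factorial : ℝ) := by
      rw [Nat.factorial_succ (k + 1)]; push_cast; ring
    have hfpos : (0 : ℝ) < ((k + 1).factorial : ℝ) := by positivity
    have hk2 : (0 : ℝ) < (k : ℝ) + 2 := by positivity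
    have htp : 0 ≤ t ^ (k + 2) := by positivity
    have h4 : (((k + 2).factorial : ℝ)⁻¹) * (t ^ (k + 2) * inner ℝ (X u) ((X ^ k) (X u)))
        ≤ (((k + 2).factorial : ℝ)⁻¹) * (t ^ (k + 2) *
          (‖X u‖ * (C ^ k * ((k + 1).factorial : ℝ) * ‖X u‖))) := by
      apply mul_le_mul_of_nonneg_left _ (by positivity)
      exact mul_le_mul_of_nonneg_left h2 htp
    refine h4.trans ?_
    rw [hf, mul_pow, pow_add t k 2]
    have h5 : ((k : ℝ) + 2)⁻¹ ≤ 1 / 2 := by
      rw [one_div]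
      exact inv_anti₀ (by norm_num) (by linarith [Nat.cast_nonneg (α := ℝ) k])
    have h6 : 0 ≤ t ^ k * C ^ k * t ^ 2 * ‖X u‖ ^ 2 := by positivity
    have h7 : (((k : ℝ) + 2) * ((k + 1).factorial : ℝ))⁻¹ *
        (t ^ k * t ^ 2 * (‖X u‖ * (C ^ k * ((k + 1).factorial : ℝ) * ‖X u‖)))
        = ((k : ℝ) + 2)⁻¹ * (t ^ k * C ^ k * t ^ 2 * ‖X u‖ ^ 2) := by
      field_simp
    rw [h7]
    calc ((k : ℝ) + 2)⁻¹ * (t ^ k * C ^ k * t ^ 2 * ‖X u‖ ^ 2)
        ≤ (1 / 2) * (t ^ k * C ^ k * t ^ 2 * ‖X u‖ ^ 2) :=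
          mul_le_mul_of_nonneg_right h5 h6
      _ = t ^ 2 * ‖X u‖ ^ 2 / 2 * (C ^ k * t ^ k) := by ring
  have hfin := hasSum_le hle hS2 hgeo
  have ha0 : a 0 = ‖u‖ ^ 2 := by
    simp [ha]
  have ha1 : a 1 = 0 := by
    have : ((t • X) ^ 1) u = t • X u := by simp
    simp only [ha]
    rw [this, inner_smul_right, h0]; simp
  have hsum2 : ∑ i ∈ Finset.range 2, a i = ‖u‖ ^ 2 := by
    simp [Finset.sum_range_succ, ha0, ha1]
  rw [hsum2] at hfin
  have hpos : 0 < 1 - C * t := by linarith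
  have h8 : t ^ 2 * ‖X u‖ ^ 2 / 2 * (1 - C * t)⁻¹ = t ^ 2 / (2 * (1 - C * t)) * ‖X u‖ ^ 2 := by
    field_simp
  rw [h8] at hfin
  linarith

section spectral

variable [FiniteDimensional ℝ E]

/-- Spectral decomposition on an invariant subspace. -/
theorem exists_eigen_expansion {A : E →L[ℝ] E} (hA : SymOp A) (U : Submodule ℝ E)
    (hU : ∀ v ∈ U, A v ∈ U) :
    ∃ (n : ℕ) (b : Fin n → E) (μ : Fin n → ℝ), (∀ i, b i ∈ U) ∧ (∀ i, A (b i) = μ i • b i) ∧
      (∀ i, ‖b i‖ = 1) ∧ ∀ v ∈ U, v = ∑ i, (inner ℝ (b i) v) • b i := by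
  let T : U →ₗ[ℝ] U := (A : E →ₗ[ℝ] E).restrict hU
  have hT : T.IsSymmetric := by
    intro x y
    change inner ℝ (A (x : E)) (y : E) = inner ℝ (x : E) (A (y : E))
    exact hA x y
  let B := hT.eigenvectorBasis rfl
  refine ⟨_, fun i => (B i : E), fun i => hT.eigenvalues rfl i, fun i => (B i).2, ?_, ?_, ?_⟩
  · intro i
    have := hT.apply_eigenvectorBasis rfl i
    have h2 : ((T (B i) : U) : E) = hT.eigenvalues rfl i • (B i : E) := by
      rw [show T (B i) = _ from this]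
      simp [B]
    exact h2
  · intro i
    exact B.norm_eq_one i
  · intro v hv
    have h := B.sum_repr' (⟨v, hv⟩ : U)
    have h2 := congrArg (Subtype.val) h
    simp only [AddSubmonoidClass.coe_finsetSum, Submodule.coe_smul] at h2
    exact h2.symm.trans (Finset.sum_congr rfl (fun i _ => rfl))

/-- Rayleigh bound from a bound on eigenvalues with eigenvectors in an invariant subspace. -/
theorem rayleigh_of_eigen {A : E →L[ℝ] E} (hA : SymOp A) (U : Submodule ℝ E)
    (hU : ∀ v ∈ U, A v ∈ U) (a : ℝ)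
    (h : ∀ g ∈ U, g ≠ 0 → ∀ μ : ℝ, A g = μ • g → a ≤ μ) :
    ∀ v ∈ U, a * ‖v‖ ^ 2 ≤ inner ℝ v (A v) := by
  obtain ⟨n, b, μ, hbU, hbA, hb1, hexp⟩ := exists_eigen_expansion hA U hU
  intro v hv
  have hμ : ∀ i, a ≤ μ i := by
    intro i
    refine h (b i) (hbU i) ?_ (μ i) (hbA i)
    intro h0
    have := hb1 i
    rw [h0] at this
    simp at this
  have h1 : ‖v‖ ^ 2 = ∑ i, (inner ℝ (b i) v) ^ 2 := by
    rw [← real_inner_self_eq_norm_sq]
    conv_lhs => rw [hexp v hv]
    conv_lhs => rw [inner_sum]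
    refine Finset.sum_congr rfl (fun i _ => ?_)
    rw [inner_smul_right]
    conv_lhs =>
      rw [← hexp v hv]
    rw [real_inner_comm]
    ring
  have h2 : inner ℝ v (A v) = ∑ i, μ i * (inner ℝ (b i) v) ^ 2 := by
    have h3 : A v = ∑ i, (inner ℝ (b i) v * μ i) • b i := by
      conv_lhs => rw [hexp v hv]
      rw [map_sum]
      refine Finset.sum_congr rfl (fun i _ => ?_)
      rw [map_smul, hbA, smul_smul]
    rw [h3, inner_sum]
    refine Finset.sum_congr rfl (fun i _ => ?_)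
    rw [inner_smul_right, real_inner_comm]
    ring
  rw [h1, h2, Finset.mul_sum]
  exact Finset.sum_le_sum (fun i _ => mul_le_mul_of_nonneg_right (hμ i) (sq_nonneg _))

/-- Heat-kernel decay on an invariant subspace from a Rayleigh bound. -/
theorem exp_bound_of_rayleigh {A : E →L[ℝ] E} (hA : SymOp A) (U : Submodule ℝ E)
    (hU : ∀ v ∈ U, A v ∈ U) (a : ℝ)
    (h : ∀ v ∈ U, a * ‖v‖ ^ 2 ≤ inner ℝ v (A v)) {s : ℝ} (hs : 0 ≤ s) :
    ∀ v ∈ U, inner ℝ v (exp ((-s) • A) v) ≤ Real.exp (-s * a) * ‖v‖ ^ 2 := by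
  obtain ⟨n, b, μ, hbU, hbA, hb1, hexp⟩ := exists_eigen_expansion hA U hU
  intro v hv
  have hμ : ∀ i, a ≤ μ i := by
    intro i
    have := h (b i) (hbU i)
    rw [hb1 i, hbA i, inner_smul_right, real_inner_self_eq_norm_sq, hb1 i] at this
    simpa using this
  have h1 : ‖v‖ ^ 2 = ∑ i, (inner ℝ (b i) v) ^ 2 := by
    rw [← real_inner_self_eq_norm_sq]
    conv_lhs => rw [hexp v hv]
    conv_lhs => rw [inner_sum]
    refine Finset.sum_congr rfl (fun i _ => ?_)
    rw [inner_smul_right]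
    conv_lhs =>
      rw [← hexp v hv]
    rw [real_inner_comm]
    ring
  have hE : ∀ i, exp ((-s) • A) (b i) = Real.exp (-s * μ i) • b i := by
    intro i
    apply exp_apply_of_eigen
    rw [smul_apply, hbA, smul_smul]
  have h2 : inner ℝ v (exp ((-s) • A) v) = ∑ i, Real.exp (-s * μ i) * (inner ℝ (b i) v) ^ 2 := by
    have h3 : exp ((-s) • A) v = ∑ i, (inner ℝ (b i) v * Real.exp (-s * μ i)) • b i := by
      conv_lhs => rw [hexp v hv]
      rw [map_sum]
      refine Finset.sum_congr rfl (fun i _ => ?_)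
      rw [map_smul, hE, smul_smul]
    rw [h3, inner_sum]
    refine Finset.sum_congr rfl (fun i _ => ?_)
    rw [inner_smul_right, real_inner_comm]
    ring
  rw [h1, h2, Finset.mul_sum]
  refine Finset.sum_le_sum (fun i _ => mul_le_mul_of_nonneg_right ?_ (sq_nonneg _))
  apply Real.exp_le_exp.mpr
  nlinarith [hμ i]

/-- Monotonicity of the heat semigroup of a positive semidefinite operator as a quadratic form. -/
theorem inner_exp_neg_mono {A : E →L[ℝ] E} (hs : SymOp A) (hp : PsdOp A) {a b : ℝ}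
    (hab : a ≤ b) (u : E) :
    inner ℝ u (exp ((-b) • A) u) ≤ inner ℝ u (exp ((-a) • A) u) := by
  have hW : ∀ v ∈ (⊤ : Submodule ℝ E), (0 : ℝ) * ‖v‖ ^ 2 ≤ inner ℝ v (A v) := by
    intro v _; simpa using hp v
  have h := exp_bound_of_rayleigh hs ⊤ (fun _ _ => Submodule.mem_top) 0 hW
    (s := b - a) (by linarith) (exp ((-(a / 2)) • A) u) Submodule.mem_top
  have hsym := symOp_exp (hs.smul (-(a / 2)))
  have h1 : exp ((-b) • A) u
      = exp ((-(a / 2)) • A) (exp ((-(b - a)) • A) (exp ((-(a / 2)) • A) u)) := by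
    have : exp ((-b) • A) = exp ((-(a / 2)) • A) * exp ((-(b - a)) • A) * exp ((-(a / 2)) • A) := by
      rw [exp_smul_mul, exp_smul_mul]
      congr 2
      ring
    rw [this]; rfl
  have h2 : exp ((-a) • A) u = exp ((-(a / 2)) • A) (exp ((-(a / 2)) • A) u) := by
    have : exp ((-a) • A) = exp ((-(a / 2)) • A) * exp ((-(a / 2)) • A) := by
      rw [exp_smul_mul]
      congr 2
      ring
    rw [this]; rfl
  rw [h1, h2, ← hsym u, ← hsym u, real_inner_self_eq_norm_sq]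
  simpa using h

end spectral

end Vale.Agent.Lib.P162
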