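import Mathlib

/-! Orthogonal representations of symmetric groups and the transposition energy operators. -/

namespace Vale.Agent.Lib.P162

open Equiv

variable {P : Type*} [DecidableEq P]

set_option linter.unusedSectionVars false
variable {E : Type*} [NormedAddCommGroup E] [InnerProductSpace ℝ E]

/-- A homomorphism into continuous linear operators whose values preserve the inner product. -/
def IsOrth (π : Perm P →* (E →L[ℝ] E)) : Prop :=
  ∀ (g : Perm P) (x y : E), inner ℝ (π g x) (π g y) = inner ℝ x y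

/-- Symmetric operators, in the form used throughout. -/
def SymOp (A : E →L[ℝ] E) : Prop := ∀ x y : E, inner ℝ (A x) y = inner ℝ x (A y)

/-- Positive semidefinite operators (quadratic form only). -/
def PsdOp (A : E →L[ℝ] E) : Prop := ∀ x : E, 0 ≤ inner ℝ x (A x)

theorem SymOp.add {A B : E →L[ℝ] E} (hA : SymOp A) (hB : SymOp B) : SymOp (A + B) := by
  intro x y
  simp [inner_add_left, inner_add_right, hA x y, hB x y]

theorem SymOp.sub {A B : E →L[ℝ] E} (hA : SymOp A) (hB : SymOp B) : SymOp (A - B) := by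
  intro x y
  simp [inner_sub_left, inner_sub_right, hA x y, hB x y]

theorem SymOp.smul {A : E →L[ℝ] E} (c : ℝ) (hA : SymOp A) : SymOp (c • A) := by
  intro x y
  simp [inner_smul_left, inner_smul_right, hA x y]

theorem SymOp.one : SymOp (1 : E →L[ℝ] E) := fun _ _ => rfl

theorem SymOp.zero : SymOp (0 : E →L[ℝ] E) := by
  intro x y; simp

theorem SymOp.sum {ι : Type*} (s : Finset ι) (A : ι → E →L[ℝ] E) (h : ∀ i ∈ s, SymOp (A i)) :
    SymOp (∑ i ∈ s, A i) := by
  classical
  induction s using Finset.induction_on with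
  | empty => simpa using SymOp.zero
  | insert a s ha ih =>
    rw [Finset.sum_insert ha]
    exact (h a (Finset.mem_insert_self a s)).add
      (ih (fun i hi => h i (Finset.mem_insert_of_mem hi)))

theorem SymOp.mul_of_commute {A B : E →L[ℝ] E} (hA : SymOp A) (hB : SymOp B)
    (h : Commute A B) : SymOp (A * B) := by
  intro x y
  have h1 : (A * B) x = (B * A) x := by rw [h.eq]
  rw [h1]
  change inner ℝ (B (A x)) y = inner ℝ x (A (B y))
  rw [hB (A x) y, hA x (B y)]

theorem PsdOp.add {A B : E →L[ℝ] E} (hA : PsdOp A) (hB : PsdOp B) : PsdOp (A + B) := by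
  intro x
  have := hA x; have := hB x
  simp only [add_apply, inner_add_right]; linarith

theorem PsdOp.smul {A : E →L[ℝ] E} {c : ℝ} (hc : 0 ≤ c) (hA : PsdOp A) : PsdOp (c • A) := by
  intro x
  simp only [smul_apply, inner_smul_right]
  exact mul_nonneg hc (hA x)

theorem PsdOp.zero : PsdOp (0 : E →L[ℝ] E) := by
  intro x; simp

theorem PsdOp.sum {ι : Type*} (s : Finset ι) (A : ι → E →L[ℝ] E) (h : ∀ i ∈ s, PsdOp (A i)) :
    PsdOp (∑ i ∈ s, A i) := by
  classical
  induction s using Finset.induction_on with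
  | empty => simpa using PsdOp.zero
  | insert a s ha ih =>
    rw [Finset.sum_insert ha]
    exact (h a (Finset.mem_insert_self a s)).add
      (ih (fun i hi => h i (Finset.mem_insert_of_mem hi)))

section rep

variable {π : Perm P →* (E →L[ℝ] E)}

theorem pi_inv_apply (π : Perm P →* (E →L[ℝ] E)) (g : Perm P) (x : E) : π g⁻¹ (π g x) = x := by
  have h : π g⁻¹ * π g = 1 := by rw [← map_mul]; simp
  have := congrArg (fun A : E →L[ℝ] E => A x) h
  simpa using this

theorem pi_apply_inv (π : Perm P →* (E →L[ℝ] E)) (g : Perm P) (x : E) : π g (π g⁻¹ x) = x := by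
  simpa using pi_inv_apply π g⁻¹ x

theorem inner_pi_left (hπ : IsOrth π) (g : Perm P) (x y : E) :
    inner ℝ (π g x) y = inner ℝ x (π g⁻¹ y) := by
  have := hπ g x (π g⁻¹ y)
  rwa [pi_apply_inv] at this

theorem norm_pi (hπ : IsOrth π) (g : Perm P) (x : E) : ‖π g x‖ = ‖x‖ := by
  have h := hπ g x x
  rw [real_inner_self_eq_norm_sq, real_inner_self_eq_norm_sq] at h
  have h1 := norm_nonneg (π g x)
  have h2 := norm_nonneg x
  nlinarith [sq_nonneg (‖π g x‖ - ‖x‖), sq_nonneg (‖π g x‖ + ‖x‖)]

theorem symOp_swap (hπ : IsOrth π) (a b : P) : SymOp (π (swap a b)) := by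
  intro x y
  rw [inner_pi_left hπ, Equiv.swap_inv]

theorem swap_swap_apply (π : Perm P →* (E →L[ℝ] E)) (a b : P) (x : E) :
    π (swap a b) (π (swap a b) x) = x := by
  have := pi_inv_apply π (swap a b) x
  rwa [Equiv.swap_inv] at this

theorem pi_swap_self (π : Perm P →* (E →L[ℝ] E)) (a : P) : π (swap a a) = 1 := by
  rw [Equiv.swap_self]; exact map_one π

/-- the conjugation rule for transpositions -/
theorem pi_mul_swap (π : Perm P →* (E →L[ℝ] E)) (g : Perm P) (a b : P) :
    π g * π (swap a b) = π (swap (g a) (g b)) * π g := by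
  rw [← map_mul, ← map_mul, Equiv.mul_swap_eq_swap_mul]

theorem pi_mul_swap_apply (π : Perm P →* (E →L[ℝ] E)) (g : Perm P) (a b : P) (x : E) :
    π g (π (swap a b) x) = π (swap (g a) (g b)) (π g x) := by
  have := congrArg (fun A : E →L[ℝ] E => A x) (pi_mul_swap π g a b)
  simpa using this

/-- `⟪x, (1 - τ) x⟫ = ‖x - τ x‖² / 2` for an isometric involution `τ = π (swap a b)`. -/
theorem inner_one_sub_swap (hπ : IsOrth π) (a b : P) (x : E) :
    inner ℝ x ((1 - π (swap a b)) x) = ‖x - π (swap a b) x‖ ^ 2 / 2 := by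
  have h1 : ‖π (swap a b) x‖ = ‖x‖ := norm_pi hπ _ x
  have h2 := @norm_sub_sq_real E _ _ x (π (swap a b) x)
  rw [h1] at h2
  have h3 : inner ℝ x ((1 - π (swap a b)) x) = ‖x‖ ^ 2 - inner ℝ x (π (swap a b) x) := by
    change inner ℝ x (x - π (swap a b) x) = _
    rw [inner_sub_right, real_inner_self_eq_norm_sq]
  rw [h3, h2]; ring

theorem psdOp_one_sub_swap (hπ : IsOrth π) (a b : P) : PsdOp (1 - π (swap a b)) := by
  intro x
  rw [inner_one_sub_swap hπ]
  positivity

/-- The transposition Laplacian of a finite subset `S` of positions (ordered pairs, each with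
weight one half). -/
noncomputable def LS (π : Perm P →* (E →L[ℝ] E)) (S : Finset P) : E →L[ℝ] E :=
  ∑ a ∈ S, ∑ b ∈ S, (1 / 2 : ℝ) • (1 - π (swap a b))

theorem symOp_LS (hπ : IsOrth π) (S : Finset P) : SymOp (LS π S) := by
  refine SymOp.sum _ _ (fun a _ => SymOp.sum _ _ (fun b _ => SymOp.smul _ ?_))
  exact SymOp.one.sub (symOp_swap hπ a b)

theorem psdOp_LS (hπ : IsOrth π) (S : Finset P) : PsdOp (LS π S) := by
  refine PsdOp.sum _ _ (fun a _ => PsdOp.sum _ _ (fun b _ => PsdOp.smul (by norm_num) ?_))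
  exact psdOp_one_sub_swap hπ a b

/-- `π g` commutes with the Laplacian of any set which `g` preserves. -/
theorem commute_pi_LS (π : Perm P →* (E →L[ℝ] E)) (g : Perm P) (S : Finset P)
    (hg : ∀ x, g x ∈ S ↔ x ∈ S) : Commute (π g) (LS π S) := by
  have hsum : LS π S = ∑ a ∈ S, ∑ b ∈ S, (1 / 2 : ℝ) • (1 - π (swap (g a) (g b))) := by
    unfold LS
    symm
    refine Finset.sum_equiv g (fun x => (hg x).symm) (fun a _ => ?_)
    refine Finset.sum_equiv g (fun x => (hg x).symm) (fun b _ => rfl)
  unfold Commute SemiconjBy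
  calc π g * LS π S = (∑ a ∈ S, ∑ b ∈ S, (1 / 2 : ℝ) • (1 - π (swap (g a) (g b)))) * π g := by
        unfold LS
        rw [Finset.mul_sum, Finset.sum_mul]
        refine Finset.sum_congr rfl (fun a _ => ?_)
        rw [Finset.mul_sum, Finset.sum_mul]
        refine Finset.sum_congr rfl (fun b _ => ?_)
        rw [mul_smul_comm, smul_mul_assoc, mul_sub, sub_mul, pi_mul_swap, mul_one, one_mul]
    _ = LS π S * π g := by rw [← hsum]

end rep

/-- The normalised energy operator of a representation on a finite position set. -/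
noncomputable def Lhat [Fintype P] (π : Perm P →* (E →L[ℝ] E)) : E →L[ℝ] E :=
  ((Fintype.card P : ℝ)⁻¹) • LS π Finset.univ

section hat

variable [Fintype P] {π : Perm P →* (E →L[ℝ] E)}

theorem symOp_Lhat (hπ : IsOrth π) : SymOp (Lhat π) := (symOp_LS hπ _).smul _

theorem psdOp_Lhat (hπ : IsOrth π) : PsdOp (Lhat π) :=
  (psdOp_LS hπ _).smul (by positivity)

theorem commute_pi_Lhat (π : Perm P →* (E →L[ℝ] E)) (g : Perm P) : Commute (π g) (Lhat π) := by
  unfold Lhat
  exact (commute_pi_LS π g _ (by simp)).smul_right _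

end hat

end Vale.Agent.Lib.P162
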