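import Vale.Agent.Lib.P162.Side

/-! Sector decomposition for the commuting flips, the graded subspaces `Vle M`, and the action
of the operators `D y y'` on sectors. -/

namespace Vale.Agent.Lib.P162

open Equiv

set_option linter.unusedSectionVars false

variable {Y : Type*} [DecidableEq Y]
variable {E : Type*} [NormedAddCommGroup E] [InnerProductSpace ℝ E]

/-- The sector of vectors on which `σ y` acts by `-1` for `y ∈ S` and by `+1` for `y ∉ S`. -/
def sector (π : Perm (Bool × Y) →* (E →L[ℝ] E)) (S : Finset Y) : Submodule ℝ E where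
  carrier := {z | ∀ y, π (sigma y) z = if y ∈ S then -z else z}
  add_mem' := by
    intro a b ha hb y
    have h1 := ha y
    have h2 := hb y
    simp only [map_add, h1, h2]
    split_ifs <;> simp [add_comm]
  zero_mem' := by
    intro y
    simp
  smul_mem' := by
    intro c a ha y
    have h1 := ha y
    simp only [map_smul, h1]
    split_ifs <;> simp

variable {π : Perm (Bool × Y) →* (E →L[ℝ] E)}

theorem mem_sector {S : Finset Y} {z : E} :
    z ∈ sector π S ↔ ∀ y, π (sigma y) z = if y ∈ S then -z else z := Iff.rfl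

theorem sector_orthogonal (hπ : IsOrth π) {S S' : Finset Y} (h : S ≠ S') {z z' : E}
    (hz : z ∈ sector π S) (hz' : z' ∈ sector π S') : inner ℝ z z' = (0 : ℝ) := by
  have hex : ∃ w, (w ∈ S ∧ w ∉ S') ∨ (w ∉ S ∧ w ∈ S') := by
    by_contra hcon
    push Not at hcon
    apply h
    ext w
    have := hcon w
    constructor
    · intro hw
      exact this.1 hw
    · intro hw
      by_contra hw'
      exact this.2 hw' hw
  obtain ⟨w, hw⟩ := hex
  have hsym := symOp_swap hπ (false, w) (true, w) z z'
  change inner ℝ (π (sigma w) z) z' = inner ℝ z (π (sigma w) z') at hsym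
  rw [hz w, hz' w] at hsym
  rcases hw with ⟨h1, h2⟩ | ⟨h1, h2⟩
  · simp only [h1, h2, if_true, if_false, inner_neg_left] at hsym
    linarith
  · simp only [h1, h2, if_true, if_false, inner_neg_right] at hsym
    linarith

/-- `D y y'` with `y ≠ y'` maps a sector to the sector with `y, y'` toggled. -/
theorem Dop_mem_sector {y y' : Y} (h : y ≠ y') {S : Finset Y} {z : E} (hz : z ∈ sector π S) :
    Dop π y y' z ∈ sector π (symmDiff S {y, y'}) := by
  intro w
  have hmem : w ∈ symmDiff S {y, y'} ↔ ((w ∈ S ∧ w ≠ y ∧ w ≠ y') ∨ (w ∉ S ∧ (w = y ∨ w = y'))) := by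
    rw [Finset.mem_symmDiff]
    simp only [Finset.mem_insert, Finset.mem_singleton]
    tauto
  by_cases h1 : w = y
  · subst h1
    rw [sigma_Dop_left h, hz w]
    by_cases h3 : w ∈ S
    · have : w ∉ symmDiff S {w, y'} := by
        rw [hmem]; simp [h3]
      simp [h3, this]
    · have : w ∈ symmDiff S {w, y'} := by
        rw [hmem]; simp [h3]
      simp [h3, this]
  · by_cases h2 : w = y'
    · subst h2
      rw [sigma_Dop_right h, hz w]
      by_cases h3 : w ∈ S
      · have : w ∉ symmDiff S {y, w} := by
          rw [hmem]; simp [h3]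
        simp [h3, this]
      · have : w ∈ symmDiff S {y, w} := by
          rw [hmem]; simp [h3]
        simp [h3, this]
    · rw [sigma_Dop_other h1 h2, hz w]
      by_cases h3 : w ∈ S
      · have : w ∈ symmDiff S {y, y'} := by
          rw [hmem]; simp [h3, h1, h2]
        simp [h3, this]
      · have : w ∉ symmDiff S {y, y'} := by
          rw [hmem]; simp [h3, h1, h2]
        simp [h3, this]

/-- `D y y` preserves every sector. -/
theorem Dop_self_mem_sector (y : Y) {S : Finset Y} {z : E} (hz : z ∈ sector π S) :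
    Dop π y y z ∈ sector π S := by
  rw [Dop_self]
  apply Submodule.smul_mem
  apply Submodule.sub_mem _ hz
  intro w
  have hcomm : π (sigma w) (π (sigma y) z) = π (sigma y) (π (sigma w) z) := by
    have : sigma w * sigma y = sigma y * sigma w := by
      by_cases h : w = y
      · rw [h]
      · unfold sigma
        ext ⟨s, v⟩ <;>
        · by_cases h1 : v = y
          · subst h1
            cases s <;> simp [Equiv.swap_apply_def, Ne.symm h]
          · by_cases h2 : v = w
            · subst h2
              cases s <;> simp [Equiv.swap_apply_def, h]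
            · simp [Equiv.swap_apply_def, h1, h2]
    have h2 := congrArg (fun g => π g z) this
    simpa using h2
  rw [hcomm, hz w]
  by_cases h3 : w ∈ S <;> simp [h3]

section Vle

/-- The sum of all sectors with at most `M` flipped coordinates. -/
def Vle (π : Perm (Bool × Y) →* (E →L[ℝ] E)) (M : ℕ) : Submodule ℝ E :=
  ⨆ (S : Finset Y) (_ : S.card ≤ M), sector π S

theorem sector_le_Vle {S : Finset Y} {M : ℕ} (h : S.card ≤ M) : sector π S ≤ Vle π M :=
  le_iSup₂_of_le S h le_rfl

theorem Vle_mono {M M' : ℕ} (h : M ≤ M') : Vle π M ≤ Vle π M' :=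
  iSup₂_le (fun S hS => sector_le_Vle (hS.trans h))

theorem card_symmDiff_pair_le (S : Finset Y) (y y' : Y) :
    (symmDiff S {y, y'}).card ≤ S.card + 2 := by
  have h1 : symmDiff S {y, y'} ⊆ S ∪ {y, y'} := by
    intro w hw
    rw [Finset.mem_symmDiff] at hw
    rw [Finset.mem_union]
    tauto
  calc _ ≤ (S ∪ {y, y'}).card := Finset.card_le_card h1
    _ ≤ S.card + ({y, y'} : Finset Y).card := Finset.card_union_le _ _
    _ ≤ S.card + 2 := by
      gcongr
      exact Finset.card_le_two

/-- The finite family representation of an element of `Vle M`. -/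
theorem exists_family [Fintype Y] {M : ℕ} {z : E} (hz : z ∈ Vle π M) :
    ∃ f : Finset Y → E, (∀ S, f S ∈ sector π S) ∧ (∀ S, M < S.card → f S = 0) ∧
      z = ∑ S, f S := by
  let W : Submodule ℝ E :=
    { carrier := {z | ∃ f : Finset Y → E, (∀ S, f S ∈ sector π S) ∧ (∀ S, M < S.card → f S = 0) ∧
        z = ∑ S, f S}
      add_mem' := by
        rintro a b ⟨f, hf1, hf2, rfl⟩ ⟨g, hg1, hg2, rfl⟩
        refine ⟨fun S => f S + g S, fun S => Submodule.add_mem _ (hf1 S) (hg1 S), ?_, ?_⟩
        · intro S hS
          simp [hf2 S hS, hg2 S hS]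
        · simp [Finset.sum_add_distrib]
      zero_mem' := ⟨fun _ => 0, fun S => Submodule.zero_mem _, fun _ _ => rfl, by simp⟩
      smul_mem' := by
        rintro c a ⟨f, hf1, hf2, rfl⟩
        refine ⟨fun S => c • f S, fun S => Submodule.smul_mem _ c (hf1 S), ?_, ?_⟩
        · intro S hS
          simp [hf2 S hS]
        · simp [Finset.smul_sum] }
  have hle : Vle π M ≤ W := by
    refine iSup₂_le (fun S hS x hx => ?_)
    refine ⟨fun T => if T = S then x else 0, ?_, ?_, ?_⟩
    · intro T
      by_cases hT : T = S
      · simp [hT, hx]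
      · simp [hT]
    · intro T hT
      have : T ≠ S := by
        rintro rfl
        omega
      simp [this]
    · simp
  exact hle hz

/-- Pythagoras for the sector decomposition. -/
theorem norm_sq_family [Fintype Y] (hπ : IsOrth π) {f : Finset Y → E}
    (hf : ∀ S, f S ∈ sector π S) : ‖∑ S, f S‖ ^ 2 = ∑ S, ‖f S‖ ^ 2 := by
  rw [← real_inner_self_eq_norm_sq, sum_inner]
  refine Finset.sum_congr rfl (fun S _ => ?_)
  rw [inner_sum, Finset.sum_eq_single S]
  · exact real_inner_self_eq_norm_sq _
  · intro T _ hT
    exact sector_orthogonal hπ (Ne.symm hT) (hf S) (hf T)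
  · simp

/-- The pairing of a family with `D y y'` only sees the toggled sector. -/
theorem inner_family_Dop [Fintype Y] (hπ : IsOrth π) {a b : Finset Y → E}
    (ha : ∀ S, a S ∈ sector π S) (hb : ∀ S, b S ∈ sector π S) {y y' : Y} (h : y ≠ y') :
    inner ℝ (∑ S, a S) (Dop π y y' (∑ S, b S))
      = ∑ S, inner ℝ (a (symmDiff S {y, y'})) (Dop π y y' (b S)) := by
  rw [map_sum, inner_sum]
  refine Finset.sum_congr rfl (fun S _ => ?_)
  rw [sum_inner, Finset.sum_eq_single (symmDiff S {y, y'})]
  · intro T _ hT
    exact sector_orthogonal hπ hT (ha T) (Dop_mem_sector h (hb S))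
  · simp

end Vle

end Vale.Agent.Lib.P162
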