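import Vale.Agent.Lib.P162.Embed
import Vale.Agent.Lib.P162.Defs

/-! The perfect shuffle on `2 * m` positions, the coin flips of one shuffle, and the network of
averaged layers attached to powers of the shuffle operator. -/

namespace Vale.Agent.Lib.P162

open Equiv NormedSpace

set_option linter.unusedSectionVars false

variable {E : Type*} [NormedAddCommGroup E] [InnerProductSpace ℝ E]
variable {m : ℕ}

/-- The perfect shuffle of positions. -/
def pShuf (m : ℕ) : Perm (Fin (2 * m)) where
  toFun x := if h : x.val < m then ⟨2 * x.val, by omega⟩ else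
    ⟨2 * (x.val - m) + 1, by have := x.isLt; omega⟩
  invFun y := if y.val % 2 = 0 then ⟨y.val / 2, by have := y.isLt; omega⟩ else
    ⟨y.val / 2 + m, by have := y.isLt; omega⟩
  left_inv := by
    intro x
    apply Fin.ext
    have := x.isLt
    by_cases h : x.val < m
    · simp only [h, dif_pos]
      have h2 : (2 * x.val) % 2 = 0 := by omega
      simp only [h2, if_true]
      omega
    · simp only [h, dif_neg, not_false_eq_true]
      have h2 : ¬ (2 * (x.val - m) + 1) % 2 = 0 := by omega
      simp only [h2, if_false]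
      omega
  right_inv := by
    intro y
    apply Fin.ext
    have := y.isLt
    by_cases h : y.val % 2 = 0
    · simp only [h, if_true]
      have h2 : y.val / 2 < m := by omega
      simp only [h2, dif_pos]
      omega
    · simp only [h, if_false]
      have h2 : ¬ (y.val / 2 + m) < m := by omega
      simp only [h2, dif_neg, not_false_eq_true]
      omega

theorem pShuf_val (x : Fin (2 * m)) :
    (pShuf m x).val = if x.val < m then 2 * x.val else 2 * (x.val - m) + 1 := by
  by_cases h : x.val < m
  · simp [pShuf, h]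
  · simp [pShuf, h]

theorem pShuf_inv_val (y : Fin (2 * m)) :
    ((pShuf m)⁻¹ y).val = if y.val % 2 = 0 then y.val / 2 else y.val / 2 + m := by
  change (if y.val % 2 = 0 then (⟨y.val / 2, _⟩ : Fin (2 * m)) else ⟨y.val / 2 + m, _⟩).val = _
  split_ifs <;> rfl

/-- The partner position within a pair `2 i, 2 i + 1`. -/
def sigF (x : Fin (2 * m)) : Fin (2 * m) :=
  ⟨if x.val % 2 = 0 then x.val + 1 else x.val - 1, by have := x.isLt; split_ifs <;> omega⟩

theorem sigF_val (x : Fin (2 * m)) :
    (sigF x).val = if x.val % 2 = 0 then x.val + 1 else x.val - 1 := rfl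

theorem sigF_sigF (x : Fin (2 * m)) : sigF (sigF x) = x := by
  apply Fin.ext
  simp only [sigF_val]
  split_ifs <;> omega

theorem sigF_div (x : Fin (2 * m)) : (sigF x).val / 2 = x.val / 2 := by
  simp only [sigF_val]
  split_ifs <;> omega

theorem sigF_injective : Function.Injective (sigF : Fin (2 * m) → Fin (2 * m)) :=
  Function.LeftInverse.injective sigF_sigF

theorem half_lt (x : Fin (2 * m)) : x.val / 2 < m := by
  have := x.isLt
  omega

/-- The coin flips of one layer. -/
def flipL (m : ℕ) (c : Fin m → Bool) : Perm (Fin (2 * m)) where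
  toFun x := if c ⟨x.val / 2, half_lt x⟩ then sigF x else x
  invFun x := if c ⟨x.val / 2, half_lt x⟩ then sigF x else x
  left_inv := by
    intro x
    by_cases h : c ⟨x.val / 2, half_lt x⟩
    · have h2 : c ⟨(sigF x).val / 2, half_lt _⟩ = true := by
        rw [← h]; congr 2; exact sigF_div x
      simp [h, h2, sigF_sigF]
    · simp [h]
  right_inv := by
    intro x
    by_cases h : c ⟨x.val / 2, half_lt x⟩
    · have h2 : c ⟨(sigF x).val / 2, half_lt _⟩ = true := by
        rw [← h]; congr 2; exact sigF_div x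
      simp [h, h2, sigF_sigF]
    · simp [h]

theorem flipL_apply (c : Fin m → Bool) (x : Fin (2 * m)) :
    flipL m c x = if c ⟨x.val / 2, half_lt x⟩ then sigF x else x := rfl

theorem flipL_inv (c : Fin m → Bool) : (flipL m c)⁻¹ = flipL m c := by
  ext1 x
  rfl

/-- One Thorp shuffle as a permutation of positions. -/
def thorpP (m : ℕ) (c : Fin m → Bool) : Perm (Fin (2 * m)) := flipL m c * pShuf m

theorem thorpP_apply (c : Fin m → Bool) (x : Fin (2 * m)) : thorpP m c x = thorpMap m c x := by
  apply Fin.ext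
  change (flipL m c (pShuf m x)).val = _
  rw [flipL_apply]
  unfold thorpMap
  by_cases hx : x.val < m
  · have hv : (pShuf m x).val = 2 * x.val := by rw [pShuf_val]; simp [hx]
    have hc : c ⟨(pShuf m x).val / 2, half_lt _⟩ = c ⟨x.val, hx⟩ := by
      congr 2
      omega
    rw [hc]
    simp only [hx, dif_pos]
    by_cases hcx : c ⟨x.val, hx⟩
    · simp only [hcx, if_true]
      rw [sigF_val, hv]
      have : (2 * x.val) % 2 = 0 := by omega
      simp
    · simp only [hcx, if_false, Bool.false_eq_true]
      rw [hv]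
      simp
  · have hv : (pShuf m x).val = 2 * (x.val - m) + 1 := by rw [pShuf_val]; simp [hx]
    have hlt : x.val - m < m := by have := x.isLt; omega
    have hc : c ⟨(pShuf m x).val / 2, half_lt _⟩ = c ⟨x.val - m, hlt⟩ := by
      congr 2
      omega
    rw [hc]
    simp only [hx, dif_neg, not_false_eq_true]
    by_cases hcx : c ⟨x.val - m, hlt⟩
    · simp only [hcx, if_true]
      rw [sigF_val, hv]
      have : ¬ (2 * (x.val - m) + 1) % 2 = 0 := by omega
      simp [this]
    · simp only [hcx, if_false, Bool.false_eq_true]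
      rw [hv]

theorem thorpLaw_eq' (g : Perm (Fin (2 * m))) :
    thorpLaw m g = ((Finset.univ.filter (fun c : Fin m → Bool => g = thorpP m c)).card : ℝ) / 2 ^ m := by
  unfold thorpLaw
  congr 3
  ext c
  simp only [Finset.mem_filter, Finset.mem_univ, true_and]
  constructor
  · intro h
    ext1 x
    rw [h x, thorpP_apply]
  · rintro rfl x
    exact thorpP_apply c x

theorem thorpLaw_nonneg' (g : Perm (Fin (2 * m))) : 0 ≤ thorpLaw m g := by
  unfold thorpLaw
  positivity

theorem thorpLaw_sum' : ∑ g : Perm (Fin (2 * m)), thorpLaw m g = 1 := by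
  simp only [thorpLaw_eq']
  rw [← Finset.sum_div]
  have hM : (0 : ℝ) < (2 : ℝ) ^ m := by positivity
  rw [div_eq_one_iff_eq hM.ne']
  have h1 : ∀ g : Perm (Fin (2 * m)),
      ((Finset.univ.filter (fun c : Fin m → Bool => g = thorpP m c)).card : ℝ)
        = ∑ c : Fin m → Bool, (if g = thorpP m c then (1 : ℝ) else 0) := by
    intro g
    rw [Finset.card_filter]
    push_cast
    rfl
  simp only [h1]
  rw [Finset.sum_comm]
  simp

/-- The average of the coin flips. -/
noncomputable def tAvg (m : ℕ) (π : Perm (Fin (2 * m)) →* (E →L[ℝ] E)) : E →L[ℝ] E :=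
  ((2 : ℝ) ^ m)⁻¹ • ∑ c : Fin m → Bool, π (flipL m c)

theorem tAvg_apply (π : Perm (Fin (2 * m)) →* (E →L[ℝ] E)) (w : E) :
    tAvg m π w = ((2 : ℝ) ^ m)⁻¹ • ∑ c : Fin m → Bool, π (flipL m c) w := by
  unfold tAvg
  simp

theorem swap_mul_flipL (x : Fin (2 * m)) (c : Fin m → Bool) :
    swap x (sigF x) * flipL m c
      = flipL m (Function.update c ⟨x.val / 2, half_lt x⟩ (!c ⟨x.val / 2, half_lt x⟩)) := by
  ext1 y
  change swap x (sigF x) (flipL m c y) = _
  rw [flipL_apply, flipL_apply]
  have hxx : sigF x ≠ x := by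
    intro h
    have := congrArg Fin.val h
    rw [sigF_val] at this
    split_ifs at this <;> omega
  by_cases hy : y.val / 2 = x.val / 2
  · have hyy : (⟨y.val / 2, half_lt y⟩ : Fin m) = ⟨x.val / 2, half_lt x⟩ := Fin.ext hy
    rw [hyy, Function.update_self]
    have hcases : y = x ∨ y = sigF x := by
      have hv := sigF_val x
      by_cases h : y.val = x.val
      · exact Or.inl (Fin.ext h)
      · refine Or.inr (Fin.ext ?_)
        rw [hv]
        split_ifs <;> omega
    rcases hcases with rfl | rfl
    · cases c ⟨y.val / 2, half_lt y⟩ <;> simp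
    · cases c ⟨x.val / 2, half_lt x⟩ <;> simp [sigF_sigF]
  · have hne : (⟨y.val / 2, half_lt y⟩ : Fin m) ≠ ⟨x.val / 2, half_lt x⟩ := by
      intro h
      exact hy (congrArg Fin.val h)
    rw [Function.update_of_ne hne]
    have hy1 : ∀ z : Fin (2 * m), z.val / 2 = y.val / 2 → z ≠ x ∧ z ≠ sigF x := by
      intro z hz
      constructor
      · rintro rfl
        exact hy hz.symm
      · rintro rfl
        rw [sigF_div] at hz
        exact hy hz.symm
    by_cases hc : c ⟨y.val / 2, half_lt y⟩
    · simp only [hc, if_true]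
      have := hy1 (sigF y) (sigF_div y)
      rw [Equiv.swap_apply_of_ne_of_ne this.1 this.2]
    · simp only [hc, if_false, Bool.false_eq_true]
      have := hy1 y rfl
      rw [Equiv.swap_apply_of_ne_of_ne this.1 this.2]

/-- The layer property of the coin average. -/
theorem layer_tAvg {π : Perm (Fin (2 * m)) →* (E →L[ℝ] E)} (hπ : IsOrth π) :
    Layer π sigF (tAvg m π) where
  fixed := by
    intro w x
    rw [tAvg_apply, map_smul, map_sum]
    congr 1
    set i : Fin m := ⟨x.val / 2, half_lt x⟩ with hi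
    have hinv : Function.Involutive (fun c : Fin m → Bool => Function.update c i (!c i)) := by
      intro c
      simp
    have h := Equiv.sum_comp (hinv.toPerm) (fun c : Fin m → Bool => π (flipL m c) w)
    rw [← h]
    refine Finset.sum_congr rfl (fun c _ => ?_)
    have h2 := swap_mul_flipL x c
    have h3 : π (swap x (sigF x)) (π (flipL m c) w) = π (swap x (sigF x) * flipL m c) w := by
      rw [map_mul]; rfl
    rw [h3, h2]
    rfl
  contr := by
    intro w
    rw [tAvg_apply, norm_smul]
    have hpos : (0 : ℝ) < (2 : ℝ) ^ m := by positivity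
    have h1 : ‖∑ c : Fin m → Bool, π (flipL m c) w‖ ≤ (2 : ℝ) ^ m * ‖w‖ := by
      calc _ ≤ ∑ c : Fin m → Bool, ‖π (flipL m c) w‖ := norm_sum_le _ _
        _ = ∑ _c : Fin m → Bool, ‖w‖ := Finset.sum_congr rfl (fun c _ => norm_pi hπ _ _)
        _ = _ := by simp
    rw [norm_inv, norm_pow, Real.norm_of_nonneg (by norm_num : (0 : ℝ) ≤ 2)]
    calc _ ≤ ((2 : ℝ) ^ m)⁻¹ * ((2 : ℝ) ^ m * ‖w‖) := by gcongr
      _ = ‖w‖ := by field_simp
  comm := by
    intro W hW
    unfold tAvg
    refine (Commute.sum_left _ _ _ (fun c _ => ?_)).smul_left _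
    refine commute_pi_LS π _ W (fun x => ?_)
    have hfw : ∀ y, y ∈ W → flipL m c y ∈ W := by
      intro y hy
      rw [flipL_apply]
      split_ifs
      · exact hW y hy
      · exact hy
    constructor
    · intro h
      have := hfw _ h
      have h2 : flipL m c (flipL m c x) = x := by
        have h3 : (flipL m c)⁻¹ (flipL m c x) = x := by simp
        rwa [flipL_inv] at h3
      rwa [h2] at this
    · exact hfw x

/-- The representation in the frame of a permutation. -/
def conjRep (g : Perm (Fin (2 * m))) (π : Perm (Fin (2 * m)) →* (E →L[ℝ] E)) :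
    Perm (Fin (2 * m)) →* (E →L[ℝ] E) :=
  π.comp (MulAut.conj g).toMonoidHom

theorem conjRep_apply (g : Perm (Fin (2 * m))) (π : Perm (Fin (2 * m)) →* (E →L[ℝ] E))
    (h : Perm (Fin (2 * m))) : conjRep g π h = π (g * h * g⁻¹) := rfl

theorem conjRep_swap (g : Perm (Fin (2 * m))) (π : Perm (Fin (2 * m)) →* (E →L[ℝ] E))
    (a b : Fin (2 * m)) : conjRep g π (swap a b) = π (swap (g a) (g b)) := by
  rw [conjRep_apply, Equiv.mul_swap_eq_swap_mul, mul_inv_cancel_right]

theorem isOrth_conjRep' (g : Perm (Fin (2 * m))) {π : Perm (Fin (2 * m)) →* (E →L[ℝ] E)}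
    (hπ : IsOrth π) : IsOrth (conjRep g π) := fun _ x y => hπ _ x y

theorem conjRep_conjRep (g h : Perm (Fin (2 * m))) (π : Perm (Fin (2 * m)) →* (E →L[ℝ] E)) :
    conjRep h (conjRep g π) = conjRep (g * h) π := by
  ext x
  simp only [conjRep_apply, mul_inv_rev, mul_assoc]

theorem LS_conjRep (g : Perm (Fin (2 * m))) (π : Perm (Fin (2 * m)) →* (E →L[ℝ] E))
    (S : Finset (Fin (2 * m))) : LS (conjRep g π) S = LS π (S.image g) := by
  unfold LS
  rw [Finset.sum_image (fun x _ y _ h => g.injective h)]
  refine Finset.sum_congr rfl (fun a _ => ?_)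
  rw [Finset.sum_image (fun x _ y _ h => g.injective h)]
  refine Finset.sum_congr rfl (fun b _ => ?_)
  rw [conjRep_swap]

theorem tAvg_conjRep (g : Perm (Fin (2 * m))) (π : Perm (Fin (2 * m)) →* (E →L[ℝ] E)) :
    tAvg m (conjRep g π) = π g * tAvg m π * π g⁻¹ := by
  unfold tAvg
  rw [mul_smul_comm, smul_mul_assoc]
  congr 1
  rw [Finset.mul_sum, Finset.sum_mul]
  refine Finset.sum_congr rfl (fun c _ => ?_)
  rw [conjRep_apply, map_mul, map_mul]

/-- The network of the first `k` layers. -/
noncomputable def Net (m : ℕ) : ℕ → (Perm (Fin (2 * m)) →* (E →L[ℝ] E)) → (E →L[ℝ] E)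
  | 0, _ => 1
  | k + 1, π => Net m k (conjRep (pShuf m) π) * tAvg m π

theorem Net_zero (π : Perm (Fin (2 * m)) →* (E →L[ℝ] E)) : Net m 0 π = 1 := rfl

theorem Net_succ (k : ℕ) (π : Perm (Fin (2 * m)) →* (E →L[ℝ] E)) :
    Net m (k + 1) π = Net m k (conjRep (pShuf m) π) * tAvg m π := rfl

/-- The operator of one averaged shuffle. -/
noncomputable def rOp (m : ℕ) (π : Perm (Fin (2 * m)) →* (E →L[ℝ] E)) : E →L[ℝ] E :=
  π (pShuf m)⁻¹ * tAvg m π

theorem pi_inv_mul (π : Perm (Fin (2 * m)) →* (E →L[ℝ] E)) (g : Perm (Fin (2 * m))) :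
    π g⁻¹ * π g = 1 := by
  rw [← map_mul]; simp

theorem pi_mul_inv (π : Perm (Fin (2 * m)) →* (E →L[ℝ] E)) (g : Perm (Fin (2 * m))) :
    π g * π g⁻¹ = 1 := by
  rw [← map_mul]; simp

/-- Powers of one averaged shuffle and the network. -/
theorem Net_eq_pow (k : ℕ) (π : Perm (Fin (2 * m)) →* (E →L[ℝ] E)) :
    Net m k π = π ((pShuf m) ^ k) * (rOp m π) ^ k := by
  induction k generalizing π with
  | zero => simp [Net_zero]
  | succ k ih =>
    set p := pShuf m with hp
    set A := tAvg m π with hA
    set B := π p⁻¹ with hB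
    set C := π p with hC
    have hBC : B * C = 1 := pi_inv_mul π p
    have hCB : C * B = 1 := pi_mul_inv π p
    have hr : rOp m π = B * A := rfl
    -- the operator in the next frame
    have hr2 : rOp m (conjRep p π) = A * B := by
      unfold rOp
      rw [tAvg_conjRep, conjRep_apply, ← hp]
      have h1 : p * p⁻¹ * p⁻¹ = p⁻¹ := by simp
      rw [h1]
      calc B * (C * A * B) = (B * C) * A * B := by simp only [mul_assoc]
        _ = A * B := by rw [hBC, one_mul]
    have hconj : ∀ j : ℕ, (A * B) ^ j * C = C * (B * A) ^ j := by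
      intro j
      induction j with
      | zero => simp
      | succ j ihj =>
        calc (A * B) ^ (j + 1) * C = (A * B) ^ j * (A * (B * C)) := by
              rw [pow_succ]; simp only [mul_assoc]
          _ = (A * B) ^ j * A := by rw [hBC, mul_one]
          _ = (A * B) ^ j * (C * B) * A := by rw [hCB, mul_one]
          _ = ((A * B) ^ j * C) * B * A := by simp only [mul_assoc]
          _ = C * (B * A) ^ j * B * A := by rw [ihj]
          _ = C * (B * A) ^ (j + 1) := by rw [pow_succ]; simp only [mul_assoc]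
    have hpk : conjRep p π (p ^ k) = π (p ^ k) := by
      rw [conjRep_apply]
      have : p * p ^ k * p⁻¹ = p ^ k := by
        rw [← pow_succ', pow_succ]
        simp
      rw [this]
    rw [Net_succ, ih, hpk, hr2, hr, ← hA, pow_succ (p) k, map_mul]
    calc π (p ^ k) * (A * B) ^ k * A
        = π (p ^ k) * ((A * B) ^ k * (C * B)) * A := by rw [hCB, mul_one]
      _ = π (p ^ k) * (((A * B) ^ k * C) * B) * A := by simp only [mul_assoc]
      _ = π (p ^ k) * ((C * (B * A) ^ k) * B) * A := by rw [hconj]
      _ = π (p ^ k) * C * ((B * A) ^ k * (B * A)) := by simp only [mul_assoc]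
      _ = π (p ^ k) * C * (B * A) ^ (k + 1) := by rw [pow_succ]

/-- The norm of a power of the shuffle operator is the norm of the network. -/
theorem norm_rOp_pow {π : Perm (Fin (2 * m)) →* (E →L[ℝ] E)} (hπ : IsOrth π) (k : ℕ) (u : E) :
    ‖((rOp m π) ^ k) u‖ = ‖Net m k π u‖ := by
  rw [Net_eq_pow]
  exact (norm_pi hπ _ _).symm

theorem commute_rOp_LS_univ (π : Perm (Fin (2 * m)) →* (E →L[ℝ] E)) :
    Commute (rOp m π) (Lhat π) := by
  unfold rOp tAvg
  refine (commute_pi_Lhat π _).mul_left ?_
  refine (Commute.sum_left _ _ _ (fun c _ => commute_pi_Lhat π _)).smul_left _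

end Vale.Agent.Lib.P162
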