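import Vale.Agent.Lib.P162.OpExp

/-! Positions `Bool × Y`: the two sides, the flip transpositions, the operators `D y y'`,
and the exact formula for the difference of the energy operators. -/

namespace Vale.Agent.Lib.P162

open Equiv

set_option linter.unusedSectionVars false

variable {Y : Type*} [DecidableEq Y]
variable {E : Type*} [NormedAddCommGroup E] [InnerProductSpace ℝ E]

/-- The permutation of `Bool × Y` acting by `g` on side `s` and trivially on the other side. -/
def sideEquiv (s : Bool) (g : Perm Y) : Perm (Bool × Y) where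
  toFun x := (x.1, if x.1 = s then g x.2 else x.2)
  invFun x := (x.1, if x.1 = s then g⁻¹ x.2 else x.2)
  left_inv := by
    rintro ⟨t, y⟩
    by_cases h : t = s <;> simp [h]
  right_inv := by
    rintro ⟨t, y⟩
    by_cases h : t = s <;> simp [h]

@[simp] theorem sideEquiv_apply (s : Bool) (g : Perm Y) (t : Bool) (y : Y) :
    sideEquiv s g (t, y) = (t, if t = s then g y else y) := rfl

/-- The side embedding as a group homomorphism. -/
def side (s : Bool) : Perm Y →* Perm (Bool × Y) where
  toFun := sideEquiv s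
  map_one' := by
    ext ⟨t, y⟩ <;> simp
  map_mul' g h := by
    ext ⟨t, y⟩
    · simp
    · by_cases hh : t = s <;> simp [hh]

@[simp] theorem side_apply (s : Bool) (g : Perm Y) (t : Bool) (y : Y) :
    side s g (t, y) = (t, if t = s then g y else y) := rfl

theorem side_swap (s : Bool) (a b : Y) : side s (swap a b) = swap (s, a) (s, b) := by
  ext ⟨t, y⟩
  all_goals
    by_cases h : t = s
    · subst h
      by_cases h1 : y = a
      · subst h1; simp
      · by_cases h2 : y = b
        · subst h2; simp
        · simp [Equiv.swap_apply_of_ne_of_ne, h1, h2]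
    · have h1 : (t, y) ≠ (s, a) := by simp [h]
      have h2 : (t, y) ≠ (s, b) := by simp [h]
      simp [Equiv.swap_apply_of_ne_of_ne h1 h2, h]

theorem side_commute (g h : Perm Y) :
    side false g * side true h = side true h * side false g := by
  ext ⟨t, y⟩ <;> cases t <;> simp

/-- The flip transposition `σ y`. -/
def sigma (y : Y) : Perm (Bool × Y) := swap (false, y) (true, y)

theorem sigma_self (y : Y) (s : Bool) : sigma y (s, y) = (!s, y) := by
  cases s <;> simp [sigma]

theorem sigma_ne {y w : Y} (h : w ≠ y) (s : Bool) : sigma y (s, w) = (s, w) := by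
  apply Equiv.swap_apply_of_ne_of_ne <;> simp [h]

/-- The four-term operator attached to a pair `y, y'`. -/
noncomputable def Dop (π : Perm (Bool × Y) →* (E →L[ℝ] E)) (y y' : Y) : E →L[ℝ] E :=
  π (swap (false, y) (false, y')) + π (swap (true, y) (true, y'))
    - π (swap (false, y) (true, y')) - π (swap (true, y) (false, y'))

variable {π : Perm (Bool × Y) →* (E →L[ℝ] E)}

theorem Dop_apply (y y' : Y) (z : E) :
    Dop π y y' z = π (swap (false, y) (false, y')) z + π (swap (true, y) (true, y')) z
      - π (swap (false, y) (true, y')) z - π (swap (true, y) (false, y')) z := rfl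

theorem Dop_comm (y y' : Y) : Dop π y y' = Dop π y' y := by
  unfold Dop
  rw [Equiv.swap_comm (false, y) (false, y'), Equiv.swap_comm (true, y) (true, y'),
    Equiv.swap_comm (false, y) (true, y'), Equiv.swap_comm (true, y) (false, y')]
  abel

theorem Dop_self (y : Y) (z : E) : Dop π y y z = (2 : ℝ) • (z - π (sigma y) z) := by
  rw [Dop_apply, Equiv.swap_self, Equiv.swap_self, Equiv.swap_comm (true, y) (false, y)]
  have h1 : π (Equiv.refl (Bool × Y)) = 1 := map_one π
  rw [h1, sigma]
  simp only [one_apply_eq_self]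
  rw [two_smul]
  abel

theorem norm_Dop_le (hπ : IsOrth π) (y y' : Y) (z : E) : ‖Dop π y y' z‖ ≤ 4 * ‖z‖ := by
  rw [Dop_apply]
  have h1 := norm_pi hπ (swap (false, y) (false, y')) z
  have h2 := norm_pi hπ (swap (true, y) (true, y')) z
  have h3 := norm_pi hπ (swap (false, y) (true, y')) z
  have h4 := norm_pi hπ (swap (true, y) (false, y')) z
  calc _ ≤ ‖π (swap (false, y) (false, y')) z + π (swap (true, y) (true, y')) z
            - π (swap (false, y) (true, y')) z‖ + ‖π (swap (true, y) (false, y')) z‖ :=
          norm_sub_le _ _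
    _ ≤ ‖π (swap (false, y) (false, y')) z + π (swap (true, y) (true, y')) z‖
          + ‖π (swap (false, y) (true, y')) z‖ + ‖π (swap (true, y) (false, y')) z‖ := by
          gcongr; exact norm_sub_le _ _
    _ ≤ ‖π (swap (false, y) (false, y')) z‖ + ‖π (swap (true, y) (true, y')) z‖
          + ‖π (swap (false, y) (true, y')) z‖ + ‖π (swap (true, y) (false, y')) z‖ := by
          gcongr; exact norm_add_le _ _
    _ = 4 * ‖z‖ := by rw [h1, h2, h3, h4]; ring

theorem symOp_Dop (hπ : IsOrth π) (y y' : Y) : SymOp (Dop π y y') :=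
  (((symOp_swap hπ _ _).add (symOp_swap hπ _ _)).sub (symOp_swap hπ _ _)).sub (symOp_swap hπ _ _)

/-- Conjugation: `σ y` anticommutes with `D y y'` for `y ≠ y'`. -/
theorem sigma_Dop_left {y y' : Y} (h : y ≠ y') (z : E) :
    π (sigma y) (Dop π y y' z) = - Dop π y y' (π (sigma y) z) := by
  have hn : y' ≠ y := h.symm
  simp only [Dop_apply, map_add, map_sub]
  rw [pi_mul_swap_apply, pi_mul_swap_apply, pi_mul_swap_apply, pi_mul_swap_apply]
  rw [sigma_self, sigma_self, sigma_ne hn, sigma_ne hn]
  simp only [Bool.not_false, Bool.not_true]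
  abel

theorem sigma_Dop_right {y y' : Y} (h : y ≠ y') (z : E) :
    π (sigma y') (Dop π y y' z) = - Dop π y y' (π (sigma y') z) := by
  simp only [Dop_apply, map_add, map_sub]
  rw [pi_mul_swap_apply, pi_mul_swap_apply, pi_mul_swap_apply, pi_mul_swap_apply]
  rw [sigma_self, sigma_self, sigma_ne h, sigma_ne h]
  simp only [Bool.not_false, Bool.not_true]
  abel

theorem sigma_Dop_other {y y' w : Y} (h : w ≠ y) (h' : w ≠ y') (z : E) :
    π (sigma w) (Dop π y y' z) = Dop π y y' (π (sigma w) z) := by
  simp only [Dop_apply, map_add, map_sub]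
  rw [pi_mul_swap_apply, pi_mul_swap_apply, pi_mul_swap_apply, pi_mul_swap_apply]
  rw [sigma_ne h.symm, sigma_ne h.symm, sigma_ne h'.symm, sigma_ne h'.symm]

/-- The difference of energy operators `L̂ - L̂⁰ - L̂¹`. -/
noncomputable def Xop [Fintype Y] (π : Perm (Bool × Y) →* (E →L[ℝ] E)) : E →L[ℝ] E :=
  Lhat π - Lhat (π.comp (side false)) - Lhat (π.comp (side true))

section formula

variable [Fintype Y]

theorem LS_side (s : Bool) :
    LS (π.comp (side s)) Finset.univ
      = ∑ a : Y, ∑ b : Y, (1 / 2 : ℝ) • (1 - π (swap (s, a) (s, b))) := by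
  unfold LS
  refine Finset.sum_congr rfl (fun a _ => Finset.sum_congr rfl (fun b _ => ?_))
  simp [side_swap]

/-- The exact formula for `X`. -/
theorem Xop_eq (π : Perm (Bool × Y) →* (E →L[ℝ] E)) :
    Xop π = ((4 * (Fintype.card Y : ℝ))⁻¹) • ∑ y : Y, ∑ y' : Y, Dop π y y' := by
  set N : ℝ := (Fintype.card Y : ℝ) with hN
  have hcard : ((Fintype.card (Bool × Y) : ℕ) : ℝ) = 2 * N := by
    rw [Fintype.card_prod, Fintype.card_bool]; push_cast; rfl
  set κ : ℝ := (4 * N)⁻¹ with hκ
  have h2 : (2 * N)⁻¹ = 2 * κ := by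
    rw [hκ]
    by_cases h : N = 0
    · simp [h]
    · field_simp; norm_num
  have h1 : N⁻¹ = 4 * κ := by
    rw [hκ]
    by_cases h : N = 0
    · simp [h]
    · field_simp
  -- the four blocks of double sums
  let B : Bool → Bool → E →L[ℝ] E := fun s s' => ∑ y : Y, ∑ y' : Y, π (swap (s, y) (s', y'))
  let O : E →L[ℝ] E := ∑ _y : Y, ∑ _y' : Y, (1 : E →L[ℝ] E)
  have hA : ∀ s s' : Bool, ∑ y : Y, ∑ y' : Y, (1 / 2 : ℝ) • (1 - π (swap (s, y) (s', y')))
      = (1 / 2 : ℝ) • (O - B s s') := by
    intro s s'
    simp only [O, B, ← Finset.smul_sum, ← Finset.sum_sub_distrib]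
  have hLS : LS π Finset.univ = (1 / 2 : ℝ) • (O - B false false) + (1 / 2 : ℝ) • (O - B false true)
      + ((1 / 2 : ℝ) • (O - B true false) + (1 / 2 : ℝ) • (O - B true true)) := by
    unfold LS
    rw [Fintype.sum_prod_type]
    simp only [Fintype.sum_prod_type, Fintype.sum_bool]
    rw [← hA true true, ← hA true false, ← hA false true, ← hA false false]
    simp only [Finset.sum_add_distrib]
    abel
  have hD : ∑ y : Y, ∑ y' : Y, Dop π y y'
      = B false false + B true true - B false true - B true false := by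
    simp only [Dop, B, Finset.sum_sub_distrib, Finset.sum_add_distrib]
  unfold Xop Lhat
  rw [LS_side, LS_side, hA, hA, hLS, hD, hcard]
  have hcY : ((Fintype.card Y : ℕ) : ℝ) = N := rfl
  rw [hcY, h2, h1]
  module

end formula

end Vale.Agent.Lib.P162
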