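import Vale.Agent.Lib.P162.Frames

/-! The recursion on tubes of positions: the exact halving of positions fails by one at each step
when the size is not a power of two, and the margins of the tubes absorb this error. -/

namespace Vale.Agent.Lib.P162

open Equiv NormedSpace

set_option linter.unusedSectionVars false

variable {E : Type*} [NormedAddCommGroup E] [InnerProductSpace ℝ E]
variable {m : ℕ}

/-- Positions of the lower half satisfying a condition. -/
def lowSet (m : ℕ) (Q : ℕ → Prop) [DecidablePred Q] : Finset (Fin (2 * m)) :=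
  Finset.univ.filter (fun x => x.val < m ∧ Q x.val)

/-- Positions of the upper half whose translate satisfies a condition. -/
def upSet (m : ℕ) (Q : ℕ → Prop) [DecidablePred Q] : Finset (Fin (2 * m)) :=
  Finset.univ.filter (fun x => m ≤ x.val ∧ Q (x.val - m))

section sets

variable {Q : ℕ → Prop} [DecidablePred Q]

theorem mem_lowSet {x : Fin (2 * m)} : x ∈ lowSet m Q ↔ x.val < m ∧ Q x.val := by
  simp [lowSet]

theorem mem_upSet {x : Fin (2 * m)} : x ∈ upSet m Q ↔ m ≤ x.val ∧ Q (x.val - m) := by
  simp [upSet]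

theorem noConf_lowSet : NoConf (lowSet m Q) := by
  intro x hx hx2
  rw [mem_lowSet] at hx hx2
  rw [pShuf_inv_sigF_val] at hx2
  split_ifs at hx2 <;> omega

theorem match_lowSet :
    ((lowSet m Q).image (pShuf m)).image sigF = (upSet m Q).image (pShuf m) := by
  ext y
  rw [mem_image_sigF, mem_image_pShuf, mem_image_pShuf, mem_lowSet, mem_upSet, pShuf_inv_val,
    pShuf_inv_val, sigF_val]
  have hlt := y.isLt
  by_cases hy : y.val % 2 = 0
  · have h1 : ¬ (y.val + 1) % 2 = 0 := by omega
    have h2 : ¬ (y.val / 2 + m < m) := by omega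
    have h3 : ¬ (m ≤ y.val / 2) := by omega
    simp [hy, h1, h3]
  · have h1 : (y.val - 1) % 2 = 0 := by omega
    have h2 : (y.val - 1) / 2 = y.val / 2 := by omega
    have h3 : y.val / 2 < m := by omega
    have h4 : y.val / 2 + m - m = y.val / 2 := by omega
    simp [hy, h1, h2, h3, h4]

theorem mem_wSet_lowSet {y : Fin (2 * m)} : y ∈ wSet (lowSet m Q) ↔ Q (y.val / 2) := by
  rw [mem_wSet, mem_lowSet, mem_lowSet, pShuf_inv_val, pShuf_inv_val, sigF_val]
  have hlt := y.isLt
  have h0 : y.val / 2 < m := by omega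
  by_cases hy : y.val % 2 = 0
  · have h1 : ¬ (y.val + 1) % 2 = 0 := by omega
    simp [hy, h1, h0]
  · have h1 : (y.val - 1) % 2 = 0 := by omega
    have h2 : (y.val - 1) / 2 = y.val / 2 := by omega
    simp [hy, h1, h2, h0]

end sets

/-- The condition of a tube: `P ≤ D x + D - r q` and `D x + P < V + D + r q`. -/
def tubeP (P V q D r x : ℕ) : Prop := P + r * q ≤ D * x + D ∧ D * x + P < V + D + r * q

instance (P V q D r : ℕ) : DecidablePred (tubeP P V q D r) := fun x => by
  unfold tubeP; infer_instance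

/-- The tube of positions. -/
def tube (m P V q D r : ℕ) : Finset (Fin (2 * m)) :=
  Finset.univ.filter (fun x => tubeP P V q D r x.val)

theorem mem_tube {P V q D r : ℕ} {x : Fin (2 * m)} : x ∈ tube m P V q D r ↔ tubeP P V q D r x.val := by
  simp [tube]

/-- A position and its translate lie in two tubes of the next frame. -/
def tubeQ (m P V q D r y : ℕ) : Prop :=
  tubeP P V q (2 * D) r y ∧ tubeP P V q (2 * D) (r + D) (y + m)

instance (m P V q D r : ℕ) : DecidablePred (tubeQ m P V q D r) := fun x => by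
  unfold tubeQ; infer_instance

theorem tube_half {P V q D r x : ℕ} (hq : q + 1 = 2 * m) (h : tubeP P V q D r x) :
    tubeQ m P V q D r (x / 2) := by
  obtain ⟨y, hy⟩ : ∃ y, x = 2 * y ∨ x = 2 * y + 1 := ⟨x / 2, by omega⟩
  have hy2 : x / 2 = y := by omega
  rw [hy2]
  unfold tubeQ tubeP at *
  have e2 : 2 * D * y = 2 * (D * y) := by ring
  have e3 : 2 * D * (y + m) = 2 * (D * y) + D * q + D := by
    calc 2 * D * (y + m) = 2 * (D * y) + D * (2 * m) := by ring
      _ = _ := by rw [← hq]; ring
  have e4 : (r + D) * q = r * q + D * q := by ring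
  rw [e2, e3, e4]
  rcases hy with rfl | rfl
  · have e5 : D * (2 * y) = 2 * (D * y) := by ring
    rw [e5] at h
    omega
  · have e5 : D * (2 * y + 1) = 2 * (D * y) + D := by ring
    rw [e5] at h
    omega

theorem tube_card {P V q D r L : ℕ} (hD : 0 < D) (hL : V + 2 * D ≤ 2 * P + D * L) :
    (tube m P V q D r).card ≤ L := by
  set S := tube m P V q D r with hS
  rcases S.eq_empty_or_nonempty with h | h
  · rw [h]; simp
  · set x0 := S.min' h with hx0
    have hm0 : x0 ∈ S := Finset.min'_mem _ _
    have hsub : S ⊆ ivl m x0.val L := by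
      intro x hx
      rw [mem_ivl]
      have h1 : x0 ≤ x := Finset.min'_le _ _ hx
      refine ⟨h1, ?_⟩
      have h2 := mem_tube.mp hx
      have h3 := mem_tube.mp hm0
      unfold tubeP at h2 h3
      by_contra hcon
      have h4 : x0.val + L ≤ x.val := by omega
      have h5 : D * (x0.val + L) ≤ D * x.val := Nat.mul_le_mul_left _ h4
      have h6 : D * (x0.val + L) = D * x0.val + D * L := by ring
      omega
    exact (Finset.card_le_card hsub).trans (card_ivl_le _ _)

theorem tube_disjoint {P V q D r s : ℕ} (hD : D ≤ P) (hV : V ≤ q) (hrs : r ≠ s) :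
    Disjoint (tube m P V q D r) (tube m P V q D s) := by
  have key : ∀ {r s : ℕ}, r < s → Disjoint (tube m P V q D r) (tube m P V q D s) := by
    intro r s hlt
    rw [Finset.disjoint_left]
    intro x hx hx2
    have h2 := mem_tube.mp hx
    have h3 := mem_tube.mp hx2
    unfold tubeP at h2 h3
    have h4 : (r + 1) * q ≤ s * q := Nat.mul_le_mul_right _ hlt
    have h5 : (r + 1) * q = r * q + q := by ring
    omega
  rcases lt_or_gt_of_ne hrs with h | h
  · exact key h
  · exact (key h).symm

section steps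

variable [CompleteSpace E] [FiniteDimensional ℝ E] {π : Perm (Fin (2 * m)) →* (E →L[ℝ] E)}

/-- One step of the recursion on tubes. -/
theorem tube_step (hπ : IsOrth π) {P V q D : ℕ} (hq : q + 1 = 2 * m) {R : E →L[ℝ] E} {κ κ' : ℝ}
    (hκ : 0 ≤ κ) (hκ' : 0 ≤ κ') (hup : κ' ≤ κ / 2 - 2 * κ ^ 2)
    (hsize : ∀ r, κ * ((tube m P V q (2 * D) r).card : ℝ) ≤ 1 / 20)
    (hdisj : ∀ r s, r ≠ s → Disjoint (tube m P V q (2 * D) r) (tube m P V q (2 * D) s))
    (hM : Maj R (∑ r ∈ Finset.range (2 * D), κ • LS (conjRep (pShuf m) π) (tube m P V q (2 * D) r))) :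
    Maj (R * tAvg m π) (∑ r ∈ Finset.range D, κ' • LS π (tube m P V q D r)) := by
  have hρ := isOrth_conjRep' (pShuf m) hπ
  set low : ℕ → Finset (Fin (2 * m)) := fun r => lowSet m (tubeQ m P V q D r) with hlow
  set up : ℕ → Finset (Fin (2 * m)) := fun r => upSet m (tubeQ m P V q D r) with hup'
  have hlowsub : ∀ r, low r ⊆ tube m P V q (2 * D) r := by
    intro r x hx
    have h1 := (mem_lowSet.mp hx).2
    exact mem_tube.mpr h1.1
  have hupsub : ∀ r, up r ⊆ tube m P V q (2 * D) (r + D) := by
    intro r x hx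
    have h1 := mem_upSet.mp hx
    refine mem_tube.mpr ?_
    have h2 := h1.2.2
    have e : x.val - m + m = x.val := by omega
    rwa [e] at h2
  have h1 : Maj R (∑ r ∈ Finset.range (2 * D), κ • LS (conjRep (pShuf m) π)
      (if r < D then low r else up (r - D))) := by
    refine Maj.mono_family hρ hκ le_rfl (fun r _ s _ hrs => hdisj r s hrs) ?_ hM
    intro r _
    by_cases hr : r < D
    · rw [if_pos hr]
      exact hlowsub r
    · rw [if_neg hr]
      have := hupsub (r - D)
      rwa [show r - D + D = r by omega] at this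
  rw [two_mul, Finset.sum_range_add] at h1
  have e1 : (∑ r ∈ Finset.range D, κ • LS (conjRep (pShuf m) π)
      (if r < D then low r else up (r - D)))
      = ∑ r ∈ Finset.range D, κ • LS (conjRep (pShuf m) π) (low r) := by
    refine Finset.sum_congr rfl (fun r hr => ?_)
    rw [if_pos (Finset.mem_range.mp hr)]
  have e2 : (∑ r ∈ Finset.range D, κ • LS (conjRep (pShuf m) π)
      (if D + r < D then low (D + r) else up (D + r - D)))
      = ∑ r ∈ Finset.range D, κ • LS (conjRep (pShuf m) π) (up r) := by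
    refine Finset.sum_congr rfl (fun r _ => ?_)
    rw [if_neg (by omega), Nat.add_sub_cancel_left]
  rw [e1, e2, ← Finset.sum_add_distrib] at h1
  have hw : ∀ r, ∀ x ∈ wSet (low r), ∃ y : Fin (2 * m), y ∈ tube m P V q (2 * D) r ∧ y.val = x.val / 2 := by
    intro r x hx
    have h2 : tubeQ m P V q D r (x.val / 2) := mem_wSet_lowSet.mp hx
    have hlt := x.isLt
    exact ⟨⟨x.val / 2, by omega⟩, mem_tube.mpr h2.1, rfl⟩
  have hdW : ∀ r s, r ≠ s → Disjoint (wSet (low r)) (wSet (low s)) := by
    intro r s hrs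
    rw [Finset.disjoint_left]
    intro x hx hx2
    obtain ⟨y, hy, ey⟩ := hw r x hx
    obtain ⟨y', hy', ey'⟩ := hw s x hx2
    have : y = y' := Fin.ext (ey.trans ey'.symm)
    subst this
    exact Finset.disjoint_left.mp (hdisj r s hrs) hy hy'
  have h2 := merge_step hπ (R := R) (Finset.range D) low up hκ hκ'
    (fun r _ => noConf_lowSet) (fun r _ => match_lowSet)
    (fun r _ s _ hrs => hdW r s hrs)
    (by
      intro r _
      have h3 : ((low r).card : ℝ) ≤ ((tube m P V q (2 * D) r).card : ℝ) := by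
        exact_mod_cast Finset.card_le_card (hlowsub r)
      exact (mul_le_mul_of_nonneg_left h3 hκ).trans (hsize r))
    hup h1
  refine Maj.mono_family hπ hκ' le_rfl (fun r _ s _ hrs => hdW r s hrs) ?_ h2
  intro r _ x hx
  exact mem_wSet_lowSet.mpr (tube_half hq (mem_tube.mp hx))

/-- The recursion on tubes. -/
theorem stage_C {P V q J A B : ℕ} (hq : q + 1 = 2 * m) (hP : P = 2 ^ J) (hV : V = 3 * A * P)
    (hVq : V ≤ q) {c : ℝ} (hc0 : 0 ≤ c) (hc : c ≤ 1 / 32) (hcA : 6 * c * (A : ℝ) ≤ 1 / 20)
    (hbase : ∀ π : Perm (Fin (2 * m)) →* (E →L[ℝ] E), IsOrth π →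
      Maj (Net m B π) (∑ r ∈ Finset.range P, kap c 0 • LS π (tube m P V q P r))) :
    ∀ i ≤ J, ∀ π : Perm (Fin (2 * m)) →* (E →L[ℝ] E), IsOrth π →
      Maj (Net m (B + i) π) (∑ r ∈ Finset.range (2 ^ (J - i)),
        kap c i • LS π (tube m P V q (2 ^ (J - i)) r)) := by
  intro i
  induction i with
  | zero =>
    intro _ π hπ
    have : 2 ^ (J - 0) = P := by rw [hP]; rfl
    rw [this]
    exact hbase π hπ
  | succ i ih =>
    intro hi π hπ
    have h1 := ih (by omega) (conjRep (pShuf m) π) (isOrth_conjRep' _ hπ)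
    have hJ : J - i = (J - (i + 1)) + 1 := by omega
    rw [hJ] at h1
    set j := J - (i + 1) with hj
    set D : ℕ := 2 ^ j with hD
    have hD2 : (2 : ℕ) ^ (j + 1) = 2 * D := by rw [hD, pow_succ]; ring
    rw [hD2] at h1
    have hDpos : 0 < D := by positivity
    have hP2 : P = 2 * D * 2 ^ i := by
      rw [hP, ← hD2, ← pow_add]
      congr 1
      omega
    refine tube_step hπ hq (kap_nonneg hc0 i) (kap_nonneg hc0 _) (kap_step hc0 hc i) ?_ ?_ h1
    · intro r
      have hcard : (tube m P V q (2 * D) r).card ≤ 3 * A * 2 ^ i := by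
        refine tube_card (by positivity) ?_
        have e : 2 * D * (3 * A * 2 ^ i) = V := by
          rw [hV, hP2]; ring
        rw [e]
        have : 2 * D ≤ P := by
          rw [hP2]
          exact Nat.le_mul_of_pos_right _ (by positivity)
        omega
      have h2 : ((tube m P V q (2 * D) r).card : ℝ) ≤ 3 * (A : ℝ) * (2 : ℝ) ^ i := by
        exact_mod_cast hcard
      have h3 := kap_size hc0 i
      have hA : (0 : ℝ) ≤ (A : ℝ) := Nat.cast_nonneg _
      calc kap c i * ((tube m P V q (2 * D) r).card : ℝ)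
          ≤ kap c i * (3 * (A : ℝ) * (2 : ℝ) ^ i) :=
            mul_le_mul_of_nonneg_left h2 (kap_nonneg hc0 i)
        _ = (kap c i * (2 : ℝ) ^ i) * (3 * (A : ℝ)) := by ring
        _ ≤ (2 * c) * (3 * (A : ℝ)) := mul_le_mul_of_nonneg_right h3 (by positivity)
        _ = 6 * c * (A : ℝ) := by ring
        _ ≤ 1 / 20 := hcA
    · intro r s hrs
      refine tube_disjoint ?_ hVq hrs
      rw [hP2]
      exact Nat.le_mul_of_pos_right _ (by positivity)

end steps

end Vale.Agent.Lib.P162
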